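import Vale.Agent.P098.Iface

open MeasureTheory Set Metric Filter
open scoped ContDiff RealInnerProductSpace Topology NNReal

noncomputable section
namespace Vale.Agent.P098

variable {n : ℕ}

theorem blow_abs {f : E n → ℝ} {L : ℝ≥0} (hf : LipschitzWith L f) (x y : E n) :
    |f x - f y| ≤ L * ‖x - y‖ := by
  have := hf.dist_le_mul x y
  rwa [Real.dist_eq, dist_eq_norm] at this

theorem blow_ray {f : E n → ℝ} {L : ℝ≥0} (hf : LipschitzWith L f) (h0 : f 0 = 0) (x : E n)
    {s t : ℝ} (hs : 0 < s) (ht : 0 < t) :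
    |f (s • x) / s - f (t • x) / t| ≤ 2 * L * ‖x‖ * |s - t| / s := by
  have a1 := blow_abs hf (s • x) (t • x)
  have a2 := blow_abs hf (t • x) 0
  rw [← sub_smul, norm_smul, Real.norm_eq_abs] at a1
  rw [h0, sub_zero, sub_zero, norm_smul, Real.norm_of_nonneg ht.le] at a2
  have e : f (s • x) / s - f (t • x) / t =
      ((f (s • x) - f (t • x)) - f (t • x) / t * (s - t)) / s := by field_simp; ring
  rw [e, abs_div, abs_of_pos hs]
  refine div_le_div_of_nonneg_right ((abs_sub _ _).trans ?_) hs.le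
  have a3 : |f (t • x) / t| ≤ L * ‖x‖ := by
    rw [abs_div, abs_of_pos ht, div_le_iff₀ ht]; linarith
  have a4 := mul_le_mul_of_nonneg_right a3 (abs_nonneg (s - t))
  rw [abs_mul]
  linarith

theorem blow_lip {u : E n → ℝ} {L : ℝ≥0} (hu : LipschitzWith L u) (x₀ : E n) {r : ℝ} (hr : 0 < r) :
    LipschitzWith L (resc u x₀ r) := by
  refine LipschitzWith.of_dist_le_mul fun x y => ?_
  have := blow_abs hu (x₀ + r • x) (x₀ + r • y)
  rw [add_sub_add_left_eq_sub, ← smul_sub, norm_smul, Real.norm_of_nonneg hr.le] at this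
  rw [Real.dist_eq, dist_eq_norm, resc, resc, ← sub_div, abs_div, abs_of_pos hr, div_le_iff₀ hr]
  linarith

/-- the homogeneity defect -/
def blow_g (f : E n → ℝ) (x : E n) : ℝ := ⟪x, gradient f x⟫ - f x

theorem blow_g_meas {f : E n → ℝ} (hf : Continuous f) : Measurable (blow_g f) := by
  have : Measurable (gradient f) :=
    (InnerProductSpace.toDual ℝ (E n)).symm.continuous.measurable.comp (measurable_fderiv ℝ f)
  exact (measurable_id.inner this).sub hf.measurable

theorem blow_g_eq (f : E n → ℝ) (x : E n) : blow_g f x = fderiv ℝ f x x - f x := by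
  rw [blow_g, real_inner_comm]; simp [gradient]

theorem blow_g_bd {f : E n → ℝ} {L : ℝ≥0} (hf : LipschitzWith L f) (h0 : f 0 = 0) (x : E n) :
    |blow_g f x| ≤ 2 * L * ‖x‖ := by
  have a1 := blow_abs hf x 0
  rw [h0, sub_zero, sub_zero] at a1
  have a2 : |fderiv ℝ f x x| ≤ L * ‖x‖ :=
    ((fderiv ℝ f x).le_opNorm x).trans
      (mul_le_mul_of_nonneg_right (norm_fderiv_le_of_lipschitz ℝ hf) (norm_nonneg _))
  rw [blow_g_eq]
  exact (abs_sub _ _).trans (by linarith)

theorem blow_int {h : E n → ℝ} (hm : Measurable h) {C : ℝ} (hb : ∀ x ∈ ball (0 : E n) 1, |h x| ≤ C) :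
    IntegrableOn h (ball (0 : E n) 1) :=
  Measure.integrableOn_of_bounded measure_ball_lt_top.ne hm.aestronglyMeasurable
    (ae_restrict_of_forall_mem measurableSet_ball hb)

theorem blow_g2 {f : E n → ℝ} {L : ℝ≥0} (hf : LipschitzWith L f) (h0 : f 0 = 0) {s : ℝ}
    (hs : 0 < s) (hs1 : s ≤ 1) : IntegrableOn (fun x => blow_g f (s • x) ^ 2) (ball (0 : E n) 1) := by
  refine blow_int (((blow_g_meas hf.continuous).comp (measurable_const_smul s)).pow_const 2)
    (C := (2 * L) ^ 2) fun x hx => ?_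
  have a1 := blow_g_bd hf h0 (s • x)
  have a2 : ‖s • x‖ ≤ 1 := by
    rw [norm_smul, Real.norm_of_nonneg hs.le]
    exact mul_le_one₀ hs1 (norm_nonneg _) (mem_ball_zero_iff.1 hx).le
  rw [abs_pow]
  refine pow_le_pow_left₀ (abs_nonneg _) (a1.trans ?_) 2
  exact mul_le_of_le_one_right (by positivity) a2

theorem blow_deriv {f ψ : E n → ℝ} {L : ℝ≥0} (hf : LipschitzWith L f) (h0 : f 0 = 0)
    (hψ : Continuous ψ) {M : ℝ} (hM : ∀ x ∈ ball (0 : E n) 1, |ψ x| ≤ M) {s : ℝ} (hs : 0 < s) :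
    HasDerivAt (fun s : ℝ => ∫ x in ball (0 : E n) 1, ψ x * (f (s • x) / s))
      (∫ x in ball (0 : E n) 1, ψ x * (blow_g f (s • x) / s ^ 2)) s := by
  have hc := hf.continuous
  have hc' : ∀ t : ℝ, Continuous fun x : E n => ψ x * (f (t • x) / t) := fun t => by fun_prop
  have : IsFiniteMeasure (volume.restrict (ball (0 : E n) 1)) :=
    isFiniteMeasure_restrict.2 measure_ball_lt_top.ne
  refine (hasDerivAt_integral_of_dominated_loc_of_lip (μ := volume.restrict (ball (0 : E n) 1))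
    (s := Ioi (s / 2)) (F := fun t x => ψ x * (f (t • x) / t))
    (F' := fun x => ψ x * (blow_g f (s • x) / s ^ 2))
    (bound := fun _ => M * (2 * L / (s / 2))) (Ioi_mem_nhds (by linarith))
    (Eventually.of_forall fun t => (hc' t).aestronglyMeasurable)
    (((hc' s).continuousOn.integrableOn_compact (isCompact_closedBall 0 1)).mono_set
      ball_subset_closedBall)
    (hψ.measurable.mul (((blow_g_meas hc).comp (measurable_const_smul s)).div_const _)
      ).aestronglyMeasurable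
    (ae_restrict_of_forall_mem measurableSet_ball fun x hx => ?_) (integrable_const _) ?_).2
  · refine LipschitzOnWith.of_dist_le_mul fun a ha b hb => ?_
    have ha : s / 2 < a := ha
    have hb : s / 2 < b := hb
    have a1 := blow_ray hf h0 x (by linarith : 0 < a) (by linarith : 0 < b)
    have a2 := hM x hx
    have a3 := (mem_ball_zero_iff.1 hx).le
    have a0 : 0 ≤ M := (abs_nonneg _).trans a2
    rw [Real.dist_eq, Real.dist_eq, ← mul_sub, abs_mul, Real.coe_nnabs,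
      abs_of_nonneg (show 0 ≤ M * (2 * L / (s / 2)) by positivity), mul_assoc]
    refine mul_le_mul a2 (a1.trans ?_) (abs_nonneg _) a0
    rw [div_mul_eq_mul_div]
    exact div_le_div₀ (by positivity) (mul_le_mul_of_nonneg_right
      (mul_le_of_le_one_right (by positivity) a3) (abs_nonneg _)) (by positivity) ha.le
  · refine ae_restrict_of_ae ?_
    filter_upwards [(Measure.quasiMeasurePreserving_smul volume hs.ne').ae
      (hf.ae_differentiableAt (μ := volume))] with x hx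
    have a1 := HasFDerivAt.comp_hasDerivAt (f := fun t : ℝ => t • x) s hx.hasFDerivAt
      ((hasDerivAt_id s).smul_const x)
    refine HasDerivAt.congr_deriv ((a1.div (hasDerivAt_id s) hs.ne').const_mul (ψ x)) ?_
    rw [blow_g_eq]
    simp only [one_smul, map_smul, smul_eq_mul, id, Function.comp_apply]
    ring

theorem blow_est {f ψ : E n → ℝ} {L : ℝ≥0} (hf : LipschitzWith L f) (h0 : f 0 = 0)
    (hψ : Continuous ψ) {M : ℝ} (hM : ∀ x ∈ ball (0 : E n) 1, |ψ x| ≤ M) {t d : ℝ} (ht : 0 < t)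
    (ht1 : t ≤ 1) (hd : 0 < d) (hg : ∫ x in ball (0 : E n) 1, blow_g f x ^ 2 ≤ d ^ 2) :
    |∫ x in ball (0 : E n) 1, ψ x * (f x - f (t • x) / t)| ≤
      M / t ^ 2 * (volume.real (ball (0 : E n) 1) + (t ^ n)⁻¹) * d := by
  have hM0 : 0 ≤ M := (abs_nonneg _).trans (hM 0 (mem_ball_self one_pos))
  have hV : 0 ≤ volume.real (ball (0 : E n) 1) := measureReal_nonneg
  have : IsFiniteMeasure (volume.restrict (ball (0 : E n) 1)) :=
    isFiniteMeasure_restrict.2 measure_ball_lt_top.ne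
  have key : ∀ s ∈ Icc t 1, ‖∫ x in ball (0 : E n) 1, ψ x * (blow_g f (s • x) / s ^ 2)‖ ≤
      M / t ^ 2 * (volume.real (ball (0 : E n) 1) + (t ^ n)⁻¹) * d := by
    intro s hs
    have hs0 : 0 < s := ht.trans_le hs.1
    have i1 := blow_g2 hf h0 hs0 hs.2
    have i2 : IntegrableOn (fun x => blow_g f x ^ 2) (ball (0 : E n) 1) := by
      simpa using blow_g2 hf h0 one_pos le_rfl
    have b1 : ∫ x in ball (0 : E n) 1, blow_g f (s • x) ^ 2 ≤ (t ^ n)⁻¹ * d ^ 2 := by
      rw [Measure.setIntegral_comp_smul_of_pos volume (fun x => blow_g f x ^ 2) _ hs0,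
        smul_unitBall_of_pos hs0, finrank_euclideanSpace_fin, smul_eq_mul]
      refine mul_le_mul (inv_anti₀ (by positivity) (pow_le_pow_left₀ ht.le hs.1 n))
        ((setIntegral_mono_set i2 (Eventually.of_forall fun x => sq_nonneg _)
          (ball_subset_ball hs.2).eventuallyLE).trans hg)
        (integral_nonneg fun x => sq_nonneg _) (by positivity)
    refine (norm_integral_le_of_norm_le (g := fun x => M / t ^ 2 * (d + blow_g f (s • x) ^ 2 / d))
      (((integrable_const d).add (i1.div_const d)).const_mul _)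
      (ae_restrict_of_forall_mem measurableSet_ball fun x hx => ?_)).trans ?_
    · have a1 : |blow_g f (s • x)| ≤ d + blow_g f (s • x) ^ 2 / d := by
        rw [← sq_abs, add_div' _ _ _ hd.ne', le_div_iff₀ hd]
        nlinarith [sq_nonneg (|blow_g f (s • x)| - d), mul_nonneg (abs_nonneg (blow_g f (s • x))) hd.le]
      have a2 := hM x hx
      have a3 := hs.1
      rw [Real.norm_eq_abs, abs_mul, abs_div, abs_of_pos (by positivity : 0 < s ^ 2), ← mul_div_assoc,
        div_mul_eq_mul_div]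
      gcongr
    · rw [integral_const_mul, integral_add (integrable_const d) (i1.div_const d), integral_div,
        setIntegral_const, smul_eq_mul, mul_assoc]
      refine mul_le_mul_of_nonneg_left ?_ (by positivity)
      have : (∫ x in ball (0 : E n) 1, blow_g f (s • x) ^ 2) / d ≤ (t ^ n)⁻¹ * d := by
        rw [div_le_iff₀ hd]; linarith
      linarith
  have h1 := (convex_Icc t 1).norm_image_sub_le_of_norm_hasDerivWithin_le
    (fun s hs => (blow_deriv hf h0 hψ hM (ht.trans_le hs.1)).hasDerivWithinAt) key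
    (left_mem_Icc.2 ht1) (right_mem_Icc.2 ht1)
  have hc := hf.continuous
  have ic : ∀ h : E n → ℝ, Continuous h → IntegrableOn h (ball (0 : E n) 1) := fun h hh =>
    (hh.continuousOn.integrableOn_compact (isCompact_closedBall 0 1)).mono_set ball_subset_closedBall
  simp only [one_smul, div_one] at h1
  rw [← integral_sub (ic _ (by fun_prop)) (ic _ (by fun_prop)), Real.norm_eq_abs] at h1
  simp only [mul_sub]
  refine h1.trans (mul_le_of_le_one_right (by positivity) ?_)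
  rw [Real.norm_of_nonneg (by linarith)]
  linarith

theorem blow_eps {a C : ℝ} (h : ∀ ε : ℝ, 0 < ε → a ≤ C * ε) : a ≤ 0 := by
  have h1 : Tendsto (fun ε : ℝ => C * ε) (𝓝[>] 0) (𝓝 (C * 0)) :=
    (tendsto_id.const_mul C).mono_left nhdsWithin_le_nhds
  rw [mul_zero] at h1
  exact ge_of_tendsto h1 (by filter_upwards [self_mem_nhdsWithin] with ε hε using h ε hε)

/-- limits of functions with small defect are homogeneous in the unit ball -/
theorem blow_hom {w : E n → ℝ} {L : ℝ≥0} (hw : Continuous w)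
    (h : ∀ ε : ℝ, 0 < ε → ∃ f : E n → ℝ, LipschitzWith L f ∧ f 0 = 0 ∧
      ∫ x in ball (0 : E n) 1, blow_g f x ^ 2 ≤ ε ^ 2 ∧ ∀ x ∈ ball (0 : E n) 1, |f x - w x| ≤ ε)
    {t : ℝ} (ht : 0 < t) (ht1 : t ≤ 1) : ∀ x ∈ ball (0 : E n) 1, w (t • x) = t * w x := by
  have hψ : Continuous fun x : E n => w x - w (t • x) / t := by fun_prop
  obtain ⟨M, hM⟩ := (isCompact_closedBall (0 : E n) 1).exists_bound_of_continuousOn hψ.continuousOn
  have hM' : ∀ x ∈ ball (0 : E n) 1, |w x - w (t • x) / t| ≤ M := fun x hx =>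
    hM x (ball_subset_closedBall hx)
  have ic : ∀ h : E n → ℝ, Continuous h → IntegrableOn h (ball (0 : E n) 1) := fun h hh =>
    (hh.continuousOn.integrableOn_compact (isCompact_closedBall 0 1)).mono_set ball_subset_closedBall
  have h1 : ∫ x in ball (0 : E n) 1, (w x - w (t • x) / t) ^ 2 ≤ 0 := by
    refine blow_eps (C := M / t ^ 2 * (volume.real (ball (0 : E n) 1) + (t ^ n)⁻¹)
      + M * (1 + 1 / t) * volume.real (ball (0 : E n) 1)) fun ε hε => ?_
    obtain ⟨f, f1, f2, f3, f4⟩ := h ε hε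
    have hc := f1.continuous
    have a1 := (le_abs_self _).trans (blow_est f1 f2 hψ hM' ht ht1 hε f3)
    have a2 : ‖∫ x in ball (0 : E n) 1, ((w x - w (t • x) / t) ^ 2
        - (w x - w (t • x) / t) * (f x - f (t • x) / t))‖ ≤
        M * ((1 + 1 / t) * ε) * volume.real (ball (0 : E n) 1) := by
      refine norm_setIntegral_le_of_norm_le_const measure_ball_lt_top fun x hx => ?_
      have b1 := f4 x hx
      have b2 := f4 (t • x) (by
        rw [mem_ball_zero_iff, norm_smul, Real.norm_of_nonneg ht.le]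
        exact mul_lt_one_of_nonneg_of_lt_one_right ht1 (norm_nonneg _) (mem_ball_zero_iff.1 hx))
      have e : (w x - w (t • x) / t) ^ 2 - (w x - w (t • x) / t) * (f x - f (t • x) / t) =
          (w x - w (t • x) / t) * ((f (t • x) - w (t • x)) / t - (f x - w x)) := by ring
      rw [e, Real.norm_eq_abs, abs_mul]
      refine mul_le_mul (hM' x hx) ((abs_sub _ _).trans ?_) (abs_nonneg _)
        ((abs_nonneg _).trans (hM' x hx))
      rw [abs_div, abs_of_pos ht]
      have : |f (t • x) - w (t • x)| / t ≤ ε / t := by gcongr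
      have e2 : (1 + 1 / t) * ε = ε + ε / t := by ring
      linarith
    rw [integral_sub (ic _ (by fun_prop)) (ic _ (by fun_prop))] at a2
    have a3 := (le_abs_self _).trans a2
    linarith
  have h2 := (setIntegral_eq_zero_iff_of_nonneg_ae (Eventually.of_forall fun x => sq_nonneg _)
    (ic _ (hψ.pow 2))).1 (le_antisymm h1 (integral_nonneg fun x => sq_nonneg _))
  intro x hx
  have h3 := Measure.eqOn_open_of_ae_eq h2 isOpen_ball (hψ.pow 2).continuousOn continuousOn_const hx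
  have h4 : w x - w (t • x) / t = 0 := pow_eq_zero_iff two_ne_zero |>.1 h3
  field_simp at h4
  linarith

/-- Arzela-Ascoli along an ultrafilter -/
theorem blow_aa {L : ℝ≥0} (f : ℕ → E n → ℝ) (hf : ∀ k, LipschitzWith L (f k)) (h0 : ∀ k, f k 0 = 0) :
    ∃ w : E n → ℝ, LipschitzWith L w ∧ ∀ R ε : ℝ, 0 < ε →
      ∃ᶠ k in atTop, ∀ x ∈ closedBall (0 : E n) R, |f k x - w x| ≤ ε := by
  have h1 : ∀ x, ∃ a, Tendsto (fun k => f k x) (hyperfilter ℕ : Filter ℕ) (𝓝 a) := fun x => by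
    obtain ⟨a, -, ha⟩ := (isCompact_Icc (a := -(L * ‖x‖)) (b := L * ‖x‖)).ultrafilter_le_nhds
      ((hyperfilter ℕ).map fun k => f k x) (by
        rw [Ultrafilter.coe_map, le_principal_iff, mem_map]
        refine Eventually.of_forall fun k => ?_
        have := blow_abs (hf k) x 0
        rw [h0, sub_zero, sub_zero] at this
        exact abs_le.1 this)
    exact ⟨a, ha⟩
  choose w hw using h1
  have hL : LipschitzWith L w := LipschitzWith.of_dist_le_mul fun x y =>
    le_of_tendsto ((hw x).dist (hw y)) (Eventually.of_forall fun k => (hf k).dist_le_mul x y)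
  refine ⟨w, hL, fun R ε hε => ?_⟩
  obtain ⟨T, -, hT, hc⟩ := finite_cover_balls_of_compact (isCompact_closedBall (0 : E n) R)
    (show 0 < ε / (3 * (L + 1)) by positivity)
  have h2 : ∀ᶠ k in (hyperfilter ℕ : Filter ℕ), ∀ y ∈ T, dist (f k y) (w y) < ε / 3 :=
    (eventually_all_finite hT).2 fun y _ => Metric.tendsto_nhds.1 (hw y) _ (by positivity)
  refine (h2.mono fun k hk x hx => ?_).frequently.filter_mono Nat.hyperfilter_le_atTop
  obtain ⟨y, hy, hxy⟩ := mem_iUnion₂.1 (hc hx)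
  have a1 := abs_lt.1 (hk y hy)
  have a2 := abs_le.1 (blow_abs (hf k) x y)
  have a3 := abs_le.1 (blow_abs hL x y)
  rw [mem_ball, dist_eq_norm, lt_div_iff₀ (by positivity)] at hxy
  have a4 := norm_nonneg (x - y)
  exact abs_le.2 ⟨by nlinarith, by nlinarith⟩

theorem blow_shift {u : E n → ℝ} (hu : Hom u) (x₀ x : E n) {r t : ℝ} (hr : 0 < r)
    (h : 0 < 1 + r * t) :
    resc u x₀ r (x + t • x₀) = resc u x₀ r ((1 + r * t)⁻¹ • x) / (1 + r * t)⁻¹ := by
  have e : x₀ + r • (x + t • x₀) = (1 + r * t) • (x₀ + r • (1 + r * t)⁻¹ • x) := by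
    rw [smul_add (1 + r * t), smul_comm (1 + r * t) r, smul_inv_smul₀ h.ne', add_smul, one_smul,
      smul_add, mul_smul]
    abel
  rw [resc, resc, e, hu _ _ h]
  field_simp

theorem blow_w (h_nondeg : S_nondeg) (h_inv_min : S_inv) (h_cpt : S_cpt) (h_weiss : S_weiss)
    (u : E n → ℝ) (x₀ : E n) (hu : LMin u) (hh : Hom u) (hb : FB u x₀) :
    ∃ w : E n → ℝ, LMin w ∧ (∀ t : ℝ, 0 < t → t ≤ 1 → ∀ x ∈ ball (0 : E n) 1, w (t • x) = t * w x) ∧
      (∀ (x : E n) (t : ℝ), w (x + t • x₀) = w x) ∧ (∃ x ∈ ball (0 : E n) 1, w x ≠ 0) ∧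
      ∀ ε : ℝ, 0 < ε → ∃ r : ℝ, 0 < r ∧ ∀ x ∈ ball (0 : E n) 1, |resc u x₀ r x - w x| ≤ ε := by
  obtain ⟨L, hL⟩ := hu.lip
  have e0 : ∀ r : ℝ, resc (resc u x₀ 1) 0 r = resc u x₀ r := fun r => by
    funext x; simp [resc]
  have z0 : ∀ r : ℝ, resc u x₀ r 0 = 0 := fun r => by simp [resc, hb.1]
  choose r hr0 hr1 hr2 using fun k : ℕ => h_weiss n (resc u x₀ 1) (1 / ((k : ℝ) + 1))
    (1 / ((k : ℝ) + 1)) ((h_inv_min n u hu).1 x₀ 1 one_pos) (z0 1) (by positivity) (by positivity)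
  simp only [e0] at hr2
  obtain ⟨w, hwL, hw⟩ := blow_aa (fun k => resc u x₀ (r k)) (fun k => blow_lip hL x₀ (hr0 k))
    fun k => z0 _
  have AP : ∀ R ε δ : ℝ, 0 < ε → 0 < δ → ∃ ρ : ℝ, 0 < ρ ∧ ρ ≤ δ ∧
      ∫ x in ball (0 : E n) 1, blow_g (resc u x₀ ρ) x ^ 2 ≤ δ ∧
      ∀ x ∈ closedBall (0 : E n) R, |resc u x₀ ρ x - w x| ≤ ε := by
    intro R ε δ hε hδ
    obtain ⟨k, k1, k2⟩ := ((hw R ε hε).and_eventually
      ((tendsto_one_div_add_atTop_nhds_zero_nat (𝕜 := ℝ)).eventually (ge_mem_nhds hδ))).exists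
    exact ⟨r k, hr0 k, (hr1 k).le.trans k2, (hr2 k).trans k2, k1⟩
  refine ⟨w, h_cpt n L w fun R ε hε => ?_, fun t ht ht1 => blow_hom (L := L) hwL.continuous
    (fun ε hε => ?_) ht ht1, fun x t => ?_, ?_, fun ε hε => ?_⟩
  · obtain ⟨ρ, a1, -, -, a4⟩ := AP R ε 1 hε one_pos
    exact ⟨_, (h_inv_min n u hu).1 x₀ ρ a1, blow_lip hL x₀ a1,
      fun x hx => a4 x (ball_subset_closedBall hx)⟩
  · obtain ⟨ρ, a1, -, a3, a4⟩ := AP 1 ε (ε ^ 2) hε (by positivity)
    exact ⟨_, blow_lip hL x₀ a1, z0 _, a3, fun x hx => a4 x (ball_subset_closedBall hx)⟩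
  · refine eq_of_abs_sub_nonpos (blow_eps (C := 2 + 2 * L * ‖x‖ * |t|) fun ε hε => ?_)
    obtain ⟨ρ, a1, a2, -, a4⟩ := AP (max ‖x‖ ‖x + t • x₀‖) ε (min ε (1 / (|t| + 1))) hε
      (by positivity)
    have b1 := abs_le.1 (a4 x (mem_closedBall_zero_iff.2 (le_max_left _ _)))
    have b2 := abs_le.1 (a4 _ (mem_closedBall_zero_iff.2 (le_max_right _ _)))
    have b3 : ρ * (|t| + 1) ≤ 1 := by
      have := a2.trans (min_le_right _ _)
      rwa [le_div_iff₀ (by positivity)] at this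
    have b4 : 0 < 1 + ρ * t := by nlinarith [neg_abs_le t]
    have b5 := blow_ray (blow_lip hL x₀ a1) (z0 ρ) x (inv_pos.2 b4) one_pos
    have b6 : 2 * L * ‖x‖ * |(1 + ρ * t)⁻¹ - 1| / (1 + ρ * t)⁻¹ = 2 * L * ‖x‖ * |t| * ρ := by
      have : (1 + ρ * t)⁻¹ - 1 = -(ρ * t) * (1 + ρ * t)⁻¹ := by field_simp; ring
      rw [this, abs_mul, abs_neg, abs_mul, abs_of_pos a1, abs_of_pos (inv_pos.2 b4)]
      field_simp
    rw [← blow_shift hh x₀ x a1 b4, one_smul, div_one, b6] at b5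
    have b7 : 2 * L * ‖x‖ * |t| * ρ ≤ 2 * L * ‖x‖ * |t| * ε :=
      mul_le_mul_of_nonneg_left (a2.trans (min_le_left _ _)) (by positivity)
    have b8 := abs_le.1 (b5.trans b7)
    exact abs_le.2 ⟨by linarith, by linarith⟩
  · obtain ⟨c, hc, hn⟩ := h_nondeg n
    obtain ⟨ρ, a1, -, -, a4⟩ := AP 1 (c / 4) 1 (by positivity) one_pos
    by_contra hz
    push Not at hz
    have b1 := hn (resc u x₀ ρ) 0 (1 / 2) ((h_inv_min n u hu).1 x₀ ρ a1) (by norm_num)
      fun x hx => by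
        have hx' : x ∈ ball (0 : E n) 1 := closedBall_subset_ball (by norm_num) hx
        have := abs_le.1 (a4 x (ball_subset_closedBall hx'))
        rw [hz x hx'] at this
        linarith
    obtain ⟨y, hy, hxy⟩ := Metric.mem_closure_iff.1 hb.2 (ρ / 4) (by positivity)
    have b2 := b1 (ρ⁻¹ • (y - x₀)) (by
      rw [mem_ball_zero_iff, norm_smul, norm_inv, Real.norm_of_nonneg a1.le, inv_mul_lt_iff₀ a1,
        ← dist_eq_norm, dist_comm]
      linarith)
    rw [resc, smul_inv_smul₀ a1.ne', add_sub_cancel, div_eq_zero_iff] at b2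
    have hy : 0 < u y := hy
    rcases b2 with b2 | b2 <;> linarith
  · obtain ⟨ρ, a1, -, -, a4⟩ := AP 1 ε 1 hε one_pos
    exact ⟨ρ, a1, fun x hx => a4 x (ball_subset_closedBall hx)⟩

theorem blow (h_nondeg : S_nondeg) (h_inv_min : S_inv) (h_cpt : S_cpt) (h_weiss : S_weiss) : S_blow := by
  intro n u x₀ hu hh hb
  obtain ⟨w, w1, w2, w3, ⟨y, hy, w4⟩, w5⟩ := blow_w h_nondeg h_inv_min h_cpt h_weiss u x₀ hu hh hb
  obtain ⟨L, hL⟩ := w1.lip
  have k1 : ∀ (x : E n) (a b : ℝ), 0 < a → a ≤ b → b * ‖x‖ < 1 → w (a • x) / a = w (b • x) / b := by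
    intro x a b ha hab hb
    have hb0 : 0 < b := ha.trans_le hab
    have := w2 (a / b) (by positivity) ((div_le_one hb0).2 hab) (b • x) (by
      rwa [mem_ball_zero_iff, norm_smul, Real.norm_of_nonneg hb0.le])
    rw [smul_smul, div_mul_cancel₀ _ hb0.ne'] at this
    rw [this]; field_simp
  have k2 : ∀ s t : ℝ, 0 ≤ s → s ≤ t → (t + 1)⁻¹ * s < 1 := fun s t hs hst => by
    rw [inv_mul_lt_iff₀ (by linarith)]; linarith
  obtain ⟨v, hv⟩ : ∃ v : E n → ℝ, ∀ (x : E n) (ρ : ℝ), 0 < ρ → ρ * ‖x‖ < 1 → v x = w (ρ • x) / ρ := by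
    refine ⟨fun x => w ((‖x‖ + 1)⁻¹ • x) / (‖x‖ + 1)⁻¹, fun x ρ h1 h2 => ?_⟩
    rcases le_total ρ (‖x‖ + 1)⁻¹ with h | h
    · exact (k1 x _ _ h1 h (k2 _ _ (norm_nonneg x) le_rfl)).symm
    · exact k1 x _ _ (by positivity) h h2
  have k3 : ∀ x ∈ ball (0 : E n) 1, v x = w x := fun x hx => by
    rw [hv x 1 one_pos (by simpa using hx)]; simp
  refine ⟨v, h_cpt n L v fun R ε hε => ?_, fun s x hs => ?_, fun x t => ?_, ⟨y, by rwa [k3 y hy]⟩,
    fun ε hε => ?_⟩
  · have hρ : 0 < (|R| + 1)⁻¹ := by positivity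
    refine ⟨_, (h_inv_min n w w1).1 0 _ hρ, blow_lip hL 0 hρ, fun x hx => ?_⟩
    rw [hv x _ hρ (k2 _ _ (norm_nonneg x) ((mem_ball_zero_iff.1 hx).le.trans (le_abs_self R))), resc,
      zero_add, sub_self, abs_zero]
    exact hε.le
  · have hρ : 0 < (‖s • x‖ + 1)⁻¹ := by positivity
    have h1 := k2 _ _ (norm_nonneg (s • x)) le_rfl
    rw [hv _ _ hρ h1, hv x ((‖s • x‖ + 1)⁻¹ * s) (by positivity) (by
      rwa [mul_assoc, ← Real.norm_of_nonneg hs.le, ← norm_smul, Real.norm_of_nonneg hs.le]), smul_smul]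
    field_simp
  · have hρ : 0 < (max ‖x‖ ‖x + t • x₀‖ + 1)⁻¹ := by positivity
    rw [hv _ _ hρ (k2 _ _ (norm_nonneg _) (le_max_right _ _)),
      hv x _ hρ (k2 _ _ (norm_nonneg _) (le_max_left _ _)), smul_add, smul_smul, w3]
  · obtain ⟨r, hr, h⟩ := w5 ε hε
    exact ⟨r, hr, fun x hx => by rw [k3 x hx]; exact h x hx⟩

end Vale.Agent.P098
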