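import Vale.Agent.P098.Iface

open MeasureTheory Set Metric Filter
open scoped ContDiff RealInnerProductSpace Topology NNReal

noncomputable section
namespace Vale.Agent.P098

variable {n : ℕ}

theorem ca_coord (f : E n → ℝ) (x : E n) (i : Fin n) : gradient f x i = pd i f x := by
  rw [pd, ← inner_gradient_left, EuclideanSpace.inner_single_right]
  simp

theorem ca_inner (f g : E n → ℝ) (x : E n) :
    ⟪gradient g x, gradient f x⟫ = ∑ i, pd i f x * pd i g x := by
  rw [PiLp.inner_apply]
  refine Finset.sum_congr rfl fun i _ => ?_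
  rw [ca_coord, ca_coord]
  simp

theorem ca_norm (f : E n → ℝ) (x : E n) : ‖gradient f x‖ = ‖fderiv ℝ f x‖ :=
  LinearIsometryEquiv.norm_map _ _

theorem ca_zero {f : E n → ℝ} {x : E n} (h : fderiv ℝ f x = 0) : gradient f x = 0 := by
  rw [← norm_eq_zero, ca_norm, h, norm_zero]

theorem ca_sub {f g : E n → ℝ} {x : E n} (hf : DifferentiableAt ℝ f x)
    (hg : DifferentiableAt ℝ g x) :
    gradient (fun y => f y - g y) x = gradient f x - gradient g x := by
  rw [gradient, fderiv_fun_sub hf hg, map_sub]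
  rfl

theorem ca_int {f : E n → ℝ} (hf : Lip f) (R : ℝ) :
    IntegrableOn (fun x => ‖gradient f x‖ ^ 2) (ball (0 : E n) R) := by
  obtain ⟨L, hL⟩ := hf
  refine Measure.integrableOn_of_bounded (M := (L : ℝ) ^ 2) measure_ball_lt_top.ne ?_
    (Eventually.of_forall fun x => ?_)
  · simp only [ca_norm]
    exact ((measurable_fderiv ℝ f).norm.pow_const 2).aestronglyMeasurable
  · rw [Real.norm_of_nonneg (sq_nonneg _), ca_norm]
    exact pow_le_pow_left₀ (norm_nonneg _) (norm_fderiv_le_of_lipschitz ℝ hL) 2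

theorem ca_ibp (h_ibp : S_ibp) {ψ φ : E n → ℝ} (hψ : Lip ψ) (hc : HasCompactSupport ψ)
    (hφ : ContDiff ℝ 2 φ) :
    Integrable (fun x => ⟪gradient φ x, gradient ψ x⟫ + ψ x * lap φ x) ∧
      ∫ x, (⟪gradient φ x, gradient ψ x⟫ + ψ x * lap φ x) = 0 := by
  have h1 : ∀ i : Fin n, ContDiff ℝ 1 (pd i φ) := fun i =>
    (hφ.fderiv_right (m := 1) (by norm_num)).clm_apply contDiff_const
  have h := fun i : Fin n => h_ibp n ψ (pd i φ) univ (EuclideanSpace.single i 1) hψ hc isOpen_univ
    (subset_univ _) (h1 i).contDiffOn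
  have e : (fun x => ⟪gradient φ x, gradient ψ x⟫ + ψ x * lap φ x) = fun x => ∑ i,
      (fderiv ℝ ψ x (EuclideanSpace.single i 1) * pd i φ x +
        ψ x * fderiv ℝ (pd i φ) x (EuclideanSpace.single i 1)) := by
    funext x
    rw [ca_inner, lap, Finset.mul_sum, ← Finset.sum_add_distrib]
    rfl
  rw [e]
  have h2 : ∀ i ∈ (Finset.univ : Finset (Fin n)), Integrable fun x =>
      fderiv ℝ ψ x (EuclideanSpace.single i 1) * pd i φ x +
        ψ x * fderiv ℝ (pd i φ) x (EuclideanSpace.single i 1) := fun i _ => (h i).1.add (h i).2.1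
  refine ⟨integrable_finsetSum _ h2, ?_⟩
  rw [integral_finsetSum _ h2]
  refine Finset.sum_eq_zero fun i _ => ?_
  rw [integral_add (h i).1 (h i).2.1, (h i).2.2, neg_add_cancel]

theorem ca_lip (h_glue : S_glue) {u φ : E n → ℝ} {c : E n} {r : ℝ} (hu : Lip u)
    (hφ : ContDiff ℝ 2 φ) (hs : ∀ x ∈ sphere c r, u x ≤ max (φ x) 0) :
    Lip ((ball c r).indicator fun x => max (u x - max (φ x) 0) 0) := by
  obtain ⟨L, hL⟩ := hu
  obtain ⟨K, hK⟩ := hφ.contDiffOn.exists_lipschitzOnWith (s := closedBall c r) (by norm_num)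
    (convex_closedBall c r) (isCompact_closedBall c r)
  obtain ⟨φ', h1, h2⟩ := hK.extend_real
  have h3 : LipschitzWith (L + K) fun x => max (u x - max (φ' x) 0) 0 :=
    (hL.sub (h1.max_const 0)).max_const 0
  refine ⟨L + K, h_glue n _ (ball c r) _ isOpen_ball ?_ (fun x hx => indicator_of_notMem hx _)
    fun x hx => ⟨ball c r, isOpen_ball.mem_nhds hx, ?_⟩⟩
  · refine continuous_indicator (fun x hx => ?_) (Continuous.continuousOn ?_)
    · exact max_eq_right (sub_nonpos.2 (hs x (frontier_ball_subset_sphere hx)))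
    · exact (hL.continuous.sub (hφ.continuous.max continuous_const)).max continuous_const
  · intro y hy z hz
    rw [indicator_of_mem hy, indicator_of_mem hz, h2 (ball_subset_closedBall hy),
      h2 (ball_subset_closedBall hz)]
    exact h3 y z

theorem ca_algA (a b : E n) : ‖b‖ ^ 2 - ‖a‖ ^ 2 + 2 * ⟪b, a - b⟫ ≤ 0 := by
  have h := norm_sub_sq_real a b
  rw [inner_sub_right, real_inner_self_eq_norm_sq, real_inner_comm]
  nlinarith [sq_nonneg ‖a - b‖]

theorem ca_algD (a b : E n) : -‖a‖ ^ 2 + 2 * ⟪b, a⟫ ≤ ‖b‖ ^ 2 := by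
  have h := norm_sub_sq_real a b
  rw [real_inner_comm]
  nlinarith [sq_nonneg ‖a - b‖]

theorem ca (h_ibp : S_ibp) (h_glue : S_glue) (h_aeq : S_aeq) : S_ca := by
  intro n u φ c r hu hφ hs hA hD
  have hψ := ca_lip h_glue hu.lip hφ hs
  set ψ := (ball c r).indicator fun x => max (u x - max (φ x) 0) 0 with hψd
  have hin : ∀ x ∈ ball c r, ψ x = max (u x - max (φ x) 0) 0 := fun x hx => indicator_of_mem hx _
  have hout : ∀ x, x ∉ ball c r → ψ x = 0 := fun x hx => indicator_of_notMem hx _
  have hψ0 : ∀ x, 0 ≤ ψ x := fun x => indicator_nonneg (fun _ _ => le_max_right _ _) x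
  have hψu : ∀ x, ψ x ≤ u x := fun x => by
    by_cases hx : x ∈ ball c r
    · rw [hin x hx]
      exact max_le (sub_le_self _ (le_max_right _ _)) (hu.nonneg x)
    · rw [hout x hx]; exact hu.nonneg x
  have hc : HasCompactSupport ψ := HasCompactSupport.intro (isCompact_closedBall c r)
    fun x hx => hout x fun h => hx (ball_subset_closedBall h)
  obtain ⟨L, hL⟩ := hu.lip
  obtain ⟨M, hM⟩ := hψ
  set v := fun x => u x - ψ x with hv
  have hvl : Lip v := ⟨_, hL.sub hM⟩
  set R := ‖c‖ + r with hR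
  have hsub : ball c r ⊆ ball (0 : E n) R := fun x hx => by
    rw [mem_ball_zero_iff]
    have := mem_ball_iff_norm.1 hx
    linarith [norm_le_insert' x c]
  have hmin := hu.min R v hvl (fun x => sub_nonneg.2 (hψu x)) fun x hx => by
    have : x ∉ ball c r := fun h => (mem_ball_zero_iff.1 (hsub h)).not_ge hx
    simp only [hv, hout x this, sub_zero]
  set D := ball c r ∩ {x | φ x ≤ 0 ∧ 0 < u x} with hDd
  have hDm : MeasurableSet D := measurableSet_ball.inter
    ((measurableSet_le hφ.continuous.measurable measurable_const).inter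
      (measurableSet_lt measurable_const hL.continuous.measurable))
  have hDψ : ∀ x ∈ D, ψ x = u x := fun x hx => by
    rw [hin x hx.1, max_eq_right hx.2.1, sub_zero, max_eq_left hx.2.2.le]
  have hsplit : ball (0 : E n) R ∩ {x | 0 < u x} = (ball (0 : E n) R ∩ {x | 0 < v x}) ∪ D := by
    ext x
    constructor
    · rintro ⟨h1, h2⟩
      by_cases hx : x ∈ D
      · exact Or.inr hx
      · refine Or.inl ⟨h1, (sub_pos (a := u x) (b := ψ x)).2 ?_⟩
        by_cases hb : x ∈ ball c r
        · have h3 : 0 < φ x := not_le.1 fun h => hx ⟨hb, h, h2⟩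
          rw [hin x hb, max_eq_left h3.le]
          exact max_lt (sub_lt_self _ h3) h2
        · rw [hout x hb]; exact h2
    · rintro (⟨h1, h2⟩ | h)
      · exact ⟨h1, lt_of_le_of_lt (hψ0 x) (sub_pos.1 h2)⟩
      · exact ⟨hsub h.1, h.2.2⟩
  have hdisj : Disjoint (ball (0 : E n) R ∩ {x | 0 < v x}) D :=
    Set.disjoint_left.2 fun x h1 h2 => (sub_pos.1 h1.2).ne (hDψ x h2)
  have hfin : ∀ S : Set (E n), S ⊆ ball (0 : E n) R → volume S ≠ ⊤ := fun S h =>
    ((measure_mono h).trans_lt measure_ball_lt_top).ne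
  have hDs : D ⊆ ball (0 : E n) R := fun x hx => hsub hx.1
  have hvol : (volume (ball (0 : E n) R ∩ {x | 0 < u x})).toReal =
      (volume (ball (0 : E n) R ∩ {x | 0 < v x})).toReal + (volume D).toReal := by
    rw [hsplit, measure_union hdisj hDm,
      ENNReal.toReal_add (hfin _ inter_subset_left) (hfin _ hDs)]
  obtain ⟨i1, i2⟩ := ca_ibp h_ibp ⟨M, hM⟩ hc hφ
  have i3 : ∫ x in ball (0 : E n) R, (⟪gradient φ x, gradient ψ x⟫ + ψ x * lap φ x) = 0 := by
    rw [setIntegral_eq_integral_of_ae_compl_eq_zero, i2]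
    filter_upwards [h_aeq n ψ ⟨M, hM⟩] with x h1 hx
    have h2 := hout x fun h => hx (hsub h)
    rw [ca_zero (h1 h2), h2, inner_zero_right, zero_mul, add_zero]
  have i4 : IntegrableOn (D.indicator fun _ => (1 : ℝ)) (ball (0 : E n) R) :=
    (integrableOn_const measure_ball_lt_top.ne).indicator hDm
  have i5 : ∫ x in ball (0 : E n) R, D.indicator (fun _ => (1 : ℝ)) x = (volume D).toReal := by
    rw [setIntegral_indicator hDm, inter_eq_right.2 hDs, setIntegral_const, smul_eq_mul, mul_one]
    rfl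
  set Z := fun x => ‖gradient u x‖ ^ 2 - ‖gradient v x‖ ^ 2 + D.indicator (fun _ => (1 : ℝ)) x -
    2 * (⟪gradient φ x, gradient ψ x⟫ + ψ x * lap φ x) with hZ
  have j1 := ca_int hu.lip R
  have j2 := ca_int hvl R
  have j3 : IntegrableOn (fun x => ‖gradient u x‖ ^ 2 - ‖gradient v x‖ ^ 2) (ball (0 : E n) R) :=
    j1.sub j2
  have j4 : IntegrableOn (fun x => ‖gradient u x‖ ^ 2 - ‖gradient v x‖ ^ 2 +
      D.indicator (fun _ => (1 : ℝ)) x) (ball (0 : E n) R) := j3.add i4
  have j5 : IntegrableOn (fun x => 2 * (⟪gradient φ x, gradient ψ x⟫ + ψ x * lap φ x))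
      (ball (0 : E n) R) := (i1.const_mul 2).integrableOn
  have hZi : IntegrableOn Z (ball (0 : E n) R) := j4.sub j5
  have hZ0 : ∫ x in ball (0 : E n) R, Z x ≤ 0 := by
    rw [hZ, integral_sub j4 j5, integral_add j3 i4, integral_sub j1 j2, integral_const_mul, i3, i5]
    unfold en energy at hmin
    linarith
  have hpt : ∀ᵐ x, 0 ≤ Z x ∧ (0 < ψ x → 0 < Z x) := by
    filter_upwards [h_aeq n ψ ⟨M, hM⟩, h_aeq n v hvl, hL.ae_differentiableAt,
      hM.ae_differentiableAt] with x h1 h2 h3 h4
    have h5 : gradient v x = gradient u x - gradient ψ x := ca_sub h3 h4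
    rcases (hψ0 x).eq_or_lt with h0 | h0
    · have hx : x ∉ D := fun h => h.2.2.ne (h0.trans (hDψ x h))
      refine ⟨le_of_eq ?_, fun h => absurd h0 h.ne⟩
      simp only [hZ, h5, ca_zero (h1 h0.symm), ← h0, indicator_of_notMem hx, sub_zero, sub_self,
        inner_zero_right, zero_mul, add_zero, mul_zero]
    suffices h : 0 < Z x from ⟨h.le, fun _ => h⟩
    have hb : x ∈ ball c r := by_contra fun h => h0.ne' (hout x h)
    have h6 : max (φ x) 0 < u x := by
      rw [hin x hb, lt_max_iff] at h0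
      exact sub_pos.1 (h0.resolve_right (lt_irrefl _))
    rcases lt_or_ge 0 (φ x) with h7 | h7
    · have h8 : φ x < u x := (le_max_left _ _).trans_lt h6
      have hx : x ∉ D := fun h => h7.not_ge h.2.1
      have h9 : v =ᶠ[𝓝 x] φ := by
        filter_upwards [isOpen_ball.mem_nhds hb,
          (isOpen_lt continuous_const hφ.continuous).mem_nhds h7,
          (isOpen_lt hφ.continuous hL.continuous).mem_nhds h8] with y y1 y2 y3
        simp only [hv, hin y y1, max_eq_left (le_of_lt y2), max_eq_left (sub_pos.2 y3).le,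
          sub_sub_cancel]
      have h10 : gradient v x = gradient φ x := h9.gradient_eq
      have h11 : gradient ψ x = gradient u x - gradient φ x := by
        rw [← h10, h5, sub_sub_cancel]
      have h12 := mul_neg_of_pos_of_neg h0 (hA x hb h7 h8)
      have h13 := ca_algA (gradient u x) (gradient φ x)
      simp only [hZ, h10, h11, indicator_of_notMem hx]
      linarith
    · have h8 : 0 < u x := (le_max_right _ _).trans_lt h6
      have hx : x ∈ D := ⟨hb, h7, h8⟩
      have h10 : gradient v x = 0 := ca_zero (h2 (sub_eq_zero.2 (hDψ x hx).symm))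
      have h11 : gradient ψ x = gradient u x := (sub_eq_zero.1 (h5.symm.trans h10)).symm
      have h12 := hD x hb h7 h8
      have h13 := ca_algD (gradient u x) (gradient φ x)
      simp only [hZ, h10, h11, indicator_of_mem hx, hDψ x hx, norm_zero]
      linarith
  have hnn : 0 ≤ᵐ[volume.restrict (ball (0 : E n) R)] Z :=
    ae_restrict_of_ae (hpt.mono fun x h => h.1)
  have hz := (integral_eq_zero_iff_of_nonneg_ae hnn hZi).1
    (le_antisymm hZ0 (integral_nonneg_of_ae hnn))
  have hnull : volume {x | 0 < ψ x} = 0 := by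
    rw [measure_eq_zero_iff_ae_notMem]
    filter_upwards [hpt, (ae_restrict_iff' measurableSet_ball).1 hz] with x h1 h2 hx
    have hb : x ∈ ball c r := by_contra fun h => (ne_of_gt hx) (hout x h)
    exact (h1.2 hx).ne' (h2 (hsub hb))
  have hempty := (isOpen_lt continuous_const hM.continuous).eq_empty_of_measure_zero hnull
  intro x hx
  have h1 : ¬ 0 < ψ x := fun h => (Set.eq_empty_iff_forall_notMem.1 hempty x) h
  rw [hin x hx, not_lt] at h1
  exact sub_nonpos.1 ((le_max_left _ _).trans h1)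

end Vale.Agent.P098
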