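import Vale.Agent.P098.Iface

open MeasureTheory Set Metric Filter
open scoped ContDiff RealInnerProductSpace Topology NNReal

noncomputable section
namespace Vale.Agent.P098

variable {n : ℕ}

theorem cb_grad_coord (f : E n → ℝ) (x : E n) (i : Fin n) : gradient f x i = pd i f x := by
  have h : ⟪gradient f x, EuclideanSpace.single i (1 : ℝ)⟫ =
      fderiv ℝ f x (EuclideanSpace.single i 1) := inner_gradient_left
  rw [EuclideanSpace.inner_single_right] at h
  simpa [pd] using h

theorem cb_inner_grad (f g : E n → ℝ) (x : E n) :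
    ⟪gradient f x, gradient g x⟫ = ∑ i, pd i g x * pd i f x := by
  rw [PiLp.inner_apply]
  refine Finset.sum_congr rfl fun i _ => ?_
  rw [cb_grad_coord, cb_grad_coord]
  simp

theorem cb_norm_grad (f : E n → ℝ) (x : E n) : ‖gradient f x‖ = ‖fderiv ℝ f x‖ := by
  simp [gradient]

theorem cb_meas_grad (f : E n → ℝ) : Measurable (gradient f) := by
  unfold gradient
  exact (InnerProductSpace.toDual ℝ (E n)).symm.continuous.measurable.comp (measurable_fderiv ℝ f)

theorem cb_grad_add {f g : E n → ℝ} {x : E n} (hf : DifferentiableAt ℝ f x)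
    (hg : DifferentiableAt ℝ g x) :
    gradient (fun y => f y + g y) x = gradient f x + gradient g x := by
  unfold gradient
  rw [fderiv_fun_add hf hg, map_add]

theorem cb_grad_zero {f : E n → ℝ} {x : E n} (h : fderiv ℝ f x = 0) : gradient f x = 0 := by
  unfold gradient
  rw [h, map_zero]

theorem cb_int_grad {u : E n → ℝ} (hu : Lip u) (R : ℝ) :
    IntegrableOn (fun x => ‖gradient u x‖ ^ 2) (ball (0 : E n) R) := by
  obtain ⟨L, hL⟩ := hu
  refine Measure.integrableOn_of_bounded (M := (L : ℝ) ^ 2) measure_ball_lt_top.ne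
    ((cb_meas_grad u).norm.pow_const 2).aestronglyMeasurable (Eventually.of_forall fun x => ?_)
  rw [Real.norm_eq_abs, abs_of_nonneg (by positivity), cb_norm_grad]
  exact pow_le_pow_left₀ (norm_nonneg _) (norm_fderiv_le_of_lipschitz ℝ hL) 2

theorem cb_int_ind {u : E n → ℝ} (hu : Lip u) (R : ℝ) :
    IntegrableOn (fun x => (Om u).indicator (1 : E n → ℝ) x) (ball (0 : E n) R) := by
  obtain ⟨L, hL⟩ := hu
  have hm : MeasurableSet (Om u) := (isOpen_lt continuous_const hL.continuous).measurableSet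
  have : IntegrableOn (fun _ : E n => (1 : ℝ)) (ball (0 : E n) R) :=
    integrableOn_const measure_ball_lt_top.ne
  exact Integrable.indicator this hm

theorem cb_int {u : E n → ℝ} (hu : Lip u) (R : ℝ) :
    IntegrableOn (fun x => ‖gradient u x‖ ^ 2 + (Om u).indicator (1 : E n → ℝ) x)
      (ball (0 : E n) R) := (cb_int_grad hu R).add (cb_int_ind hu R)

theorem cb_en_eq {u : E n → ℝ} (hu : Lip u) (R : ℝ) :
    en (ball 0 R) u =
      ∫ x in ball (0 : E n) R, (‖gradient u x‖ ^ 2 + (Om u).indicator (1 : E n → ℝ) x) := by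
  rw [integral_add (cb_int_grad hu R) (cb_int_ind hu R)]
  obtain ⟨L, hL⟩ := hu
  have hm : MeasurableSet (Om u) := (isOpen_lt continuous_const hL.continuous).measurableSet
  rw [integral_indicator_one hm, measureReal_restrict_apply hm, inter_comm]
  rfl

theorem cb_pd_smooth {φ : E n → ℝ} (hφ : ContDiff ℝ 2 φ) (i : Fin n) : ContDiff ℝ 1 (pd i φ) := by
  unfold pd
  exact (hφ.fderiv_right (m := 1) (by norm_num)).clm_apply contDiff_const

theorem cb_lap_cont {φ : E n → ℝ} (hφ : ContDiff ℝ 2 φ) : Continuous (lap φ) := by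
  unfold lap
  refine continuous_finsetSum _ fun i _ => ?_
  exact ((cb_pd_smooth hφ i).continuous_fderiv (by norm_num)).clm_apply continuous_const

/-- Green's formula for a Lipschitz function with compact support. -/
theorem cb_green (h_ibp : S_ibp) {φ ψ : E n → ℝ} (hφ : ContDiff ℝ 2 φ) (hψ : Lip ψ)
    (hc : HasCompactSupport ψ) :
    Integrable (fun x => ⟪gradient φ x, gradient ψ x⟫) ∧
      ∫ x, ⟪gradient φ x, gradient ψ x⟫ = -∫ x, ψ x * lap φ x := by
  have H := fun i : Fin n => h_ibp n ψ (pd i φ) univ (EuclideanSpace.single i 1) hψ hc isOpen_univ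
    (subset_univ _) (cb_pd_smooth hφ i).contDiffOn
  have e1 : (fun x => ⟪gradient φ x, gradient ψ x⟫) =
      fun x => ∑ i, fderiv ℝ ψ x (EuclideanSpace.single i 1) * pd i φ x := by
    funext x
    rw [cb_inner_grad]
    rfl
  have e2 : (fun x => ψ x * lap φ x) =
      fun x => ∑ i, ψ x * fderiv ℝ (pd i φ) x (EuclideanSpace.single i 1) := by
    funext x
    rw [lap, Finset.mul_sum]
    rfl
  rw [e1, e2]
  refine ⟨integrable_finsetSum _ fun i _ => (H i).1, ?_⟩
  rw [integral_finsetSum _ fun i _ => (H i).1, integral_finsetSum _ fun i _ => (H i).2.1,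
    ← Finset.sum_neg_distrib]
  exact Finset.sum_congr rfl fun i _ => (H i).2.2

/-- The bump `(φ - u)₊` cut off to the ball. -/
def cb_psi (u φ : E n → ℝ) (c : E n) (r : ℝ) : E n → ℝ :=
  (ball c r).indicator fun x => max (φ x - u x) 0

theorem cb_psi_nonneg (u φ : E n → ℝ) (c : E n) (r : ℝ) (x : E n) : 0 ≤ cb_psi u φ c r x :=
  indicator_nonneg (fun _ _ => le_max_right _ _) x

theorem cb_psi_out (u φ : E n → ℝ) {c : E n} {r : ℝ} {x : E n} (hx : x ∉ ball c r) :
    cb_psi u φ c r x = 0 := indicator_of_notMem hx _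

theorem cb_psi_in (u φ : E n → ℝ) {c : E n} {r : ℝ} {x : E n} (hx : x ∈ ball c r) :
    cb_psi u φ c r x = max (φ x - u x) 0 := indicator_of_mem hx _

theorem cb_psi_pos {u φ : E n → ℝ} {c : E n} {r : ℝ} {x : E n} (hx : cb_psi u φ c r x ≠ 0) :
    x ∈ ball c r ∧ u x < φ x := by
  by_cases hb : x ∈ ball c r
  · refine ⟨hb, ?_⟩
    rw [cb_psi_in u φ hb] at hx
    by_contra h
    exact hx (max_eq_right (by linarith [not_lt.1 h]))
  · exact absurd (cb_psi_out u φ hb) hx

theorem cb_psi_lip (h_glue : S_glue) {u φ : E n → ℝ} {c : E n} {r : ℝ} (hu : Lip u)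
    (hφ : ContDiff ℝ 2 φ) (hs : ∀ x ∈ sphere c r, φ x ≤ u x) : Lip (cb_psi u φ c r) := by
  obtain ⟨L, hL⟩ := hu
  obtain ⟨K, hK⟩ := (hφ.contDiffOn (s := closedBall c r)).exists_lipschitzOnWith (by norm_num)
    (convex_closedBall c r) (isCompact_closedBall c r)
  have hc : Continuous (cb_psi u φ c r) := by
    refine Continuous.indicator (fun a ha => ?_)
      ((hφ.continuous.sub hL.continuous).max continuous_const)
    exact max_eq_right (by linarith [hs a (frontier_ball_subset_sphere ha)])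
  refine ⟨K + L, h_glue n _ (ball c r) (K + L) isOpen_ball hc (fun x hx => cb_psi_out u φ hx)
    fun x hx => ⟨ball c r, isOpen_ball.mem_nhds hx, ?_⟩⟩
  refine LipschitzOnWith.of_dist_le_mul fun y hy z hz => ?_
  rw [cb_psi_in u φ hy, cb_psi_in u φ hz, Real.dist_eq]
  have h1 := hK.dist_le_mul y (ball_subset_closedBall hy) z (ball_subset_closedBall hz)
  have h2 := hL.dist_le_mul y z
  rw [Real.dist_eq] at h1 h2
  have h3 := abs_max_sub_max_le_abs (φ y - u y) (φ z - u z) 0
  have h4 : |φ y - u y - (φ z - u z)| ≤ |φ y - φ z| + |u y - u z| := by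
    have : φ y - u y - (φ z - u z) = (φ y - φ z) - (u y - u z) := by ring
    rw [this]
    exact abs_sub _ _
  push_cast
  linarith

theorem cb_psi_cs (u φ : E n → ℝ) (c : E n) (r : ℝ) : HasCompactSupport (cb_psi u φ c r) :=
  HasCompactSupport.intro (isCompact_closedBall c r) fun _ hx =>
    cb_psi_out u φ fun h => hx (ball_subset_closedBall h)

/-- The pointwise inequality. -/
theorem cb_point {u φ : E n → ℝ} {c : E n} {r : ℝ} (hu : Continuous u) (h0 : ∀ x, 0 ≤ u x)
    (hφ : ContDiff ℝ 2 φ) (hg : ∀ x ∈ ball c r, u x = 0 → 0 < φ x → 1 ≤ ‖gradient φ x‖) {x : E n}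
    (d1 : DifferentiableAt ℝ u x) (d2 : DifferentiableAt ℝ (cb_psi u φ c r) x)
    (z1 : u x = 0 → fderiv ℝ u x = 0)
    (z2 : cb_psi u φ c r x = 0 → fderiv ℝ (cb_psi u φ c r) x = 0) :
    ‖gradient (fun y => u y + cb_psi u φ c r y) x‖ ^ 2 +
        (Om fun y => u y + cb_psi u φ c r y).indicator (1 : E n → ℝ) x ≤
      ‖gradient u x‖ ^ 2 + (Om u).indicator (1 : E n → ℝ) x +
        2 * ⟪gradient φ x, gradient (cb_psi u φ c r) x⟫ := by
  rw [cb_grad_add d1 d2]
  by_cases hz : cb_psi u φ c r x = 0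
  · rw [cb_grad_zero (z2 hz), add_zero, inner_zero_right, mul_zero, add_zero]
    refine add_le_add_right (le_of_eq ?_) _
    by_cases hp : 0 < u x
    · rw [indicator_of_mem (show x ∈ Om u from hp),
        indicator_of_mem (show x ∈ Om fun y => u y + cb_psi u φ c r y by
          show 0 < u x + cb_psi u φ c r x
          rwa [hz, add_zero])]
    · rw [indicator_of_notMem (show x ∉ Om u from hp),
        indicator_of_notMem (show x ∉ Om fun y => u y + cb_psi u φ c r y by
          show ¬ 0 < u x + cb_psi u φ c r x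
          rwa [hz, add_zero])]
  · obtain ⟨hb, hlt⟩ := cb_psi_pos hz
    have hev : (fun y => u y + cb_psi u φ c r y) =ᶠ[𝓝 x] φ := by
      filter_upwards [isOpen_ball.mem_nhds hb,
        (isOpen_lt hu hφ.continuous).mem_nhds (show x ∈ {y | u y < φ y} from hlt)] with y hy hy'
      rw [cb_psi_in u φ hy, max_eq_left (by linarith)]
      ring
    have hgr : gradient φ x = gradient u x + gradient (cb_psi u φ c r) x := by
      rw [← hev.gradient_eq, cb_grad_add d1 d2]
    have hi : (Om fun y => u y + cb_psi u φ c r y).indicator (1 : E n → ℝ) x ≤ 1 :=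
      indicator_apply_le' (fun _ => le_rfl) fun _ => zero_le_one
    have key : 1 ≤ ‖gradient (cb_psi u φ c r) x‖ ^ 2 + (Om u).indicator (1 : E n → ℝ) x := by
      by_cases hp : 0 < u x
      · rw [indicator_of_mem (show x ∈ Om u from hp)]
        simp
      · have hu0 : u x = 0 := le_antisymm (not_lt.1 hp) (h0 x)
        have h1 := hg x hb hu0 (by linarith)
        rw [hgr, cb_grad_zero (z1 hu0), zero_add] at h1
        rw [indicator_of_notMem (show x ∉ Om u from hp), add_zero]
        nlinarith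
    rw [hgr, norm_add_sq_real, inner_add_left, real_inner_self_eq_norm_sq]
    linarith

theorem cb (h_ibp : S_ibp) (h_glue : S_glue) (h_aeq : S_aeq) : S_cb := by
  intro n u φ c r hu hφ hs hl hg
  have hψ : Lip (cb_psi u φ c r) := cb_psi_lip h_glue hu.lip hφ hs
  obtain ⟨L, hL⟩ := hu.lip
  obtain ⟨K, hK⟩ := id hψ
  have hv : Lip fun y => u y + cb_psi u φ c r y := ⟨L + K, hL.add hK⟩
  set R : ℝ := ‖c‖ + r with hR
  have hout : ∀ x : E n, x ∉ ball (0 : E n) R → cb_psi u φ c r x = 0 := by
    intro x hx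
    refine cb_psi_out u φ fun h => hx ?_
    rw [mem_ball_zero_iff]
    rw [mem_ball_iff_norm] at h
    have := norm_add_le (x - c) c
    rw [sub_add_cancel] at this
    linarith
  have hmin := hu.min R _ hv (fun x => add_nonneg (hu.nonneg x) (cb_psi_nonneg u φ c r x))
    fun x hx => by rw [hout x (by rwa [mem_ball_zero_iff, not_lt]), add_zero]
  obtain ⟨gi, ge⟩ := cb_green h_ibp hφ hψ (cb_psi_cs u φ c r)
  have hle : en (ball 0 R) (fun y => u y + cb_psi u φ c r y) ≤
      en (ball 0 R) u + 2 * ∫ x in ball (0 : E n) R,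
        ⟪gradient φ x, gradient (cb_psi u φ c r) x⟫ := by
    rw [cb_en_eq hv, cb_en_eq hu.lip, ← integral_const_mul,
      ← integral_add (cb_int hu.lip R) (gi.integrableOn.const_mul 2)]
    refine integral_mono_ae (cb_int hv R) ((cb_int hu.lip R).add (gi.integrableOn.const_mul 2)) ?_
    refine ae_restrict_of_ae ?_
    filter_upwards [hL.ae_differentiableAt, hK.ae_differentiableAt, h_aeq n u hu.lip,
      h_aeq n _ hψ] with x d1 d2 z1 z2
    exact cb_point hL.continuous hu.nonneg hφ hg d1 d2 z1 z2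
  have hall : ∫ x in ball (0 : E n) R, ⟪gradient φ x, gradient (cb_psi u φ c r) x⟫ =
      ∫ x, ⟪gradient φ x, gradient (cb_psi u φ c r) x⟫ := by
    refine setIntegral_eq_integral_of_ae_compl_eq_zero ?_
    filter_upwards [h_aeq n _ hψ] with x z2 hx
    rw [cb_grad_zero (z2 (hout x hx)), inner_zero_right]
  rw [hall, ge] at hle
  intro x hx
  by_contra hlt
  have hlt' : u x < φ x := not_le.1 hlt
  have hpos : 0 < ∫ y, cb_psi u φ c r y * lap φ y := by
    refine Continuous.integral_pos_of_hasCompactSupport_nonneg_nonzero (x := x)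
      (hK.continuous.mul (cb_lap_cont hφ)) (cb_psi_cs u φ c r).mul_right (fun y => ?_) ?_
    · by_cases hz : cb_psi u φ c r y = 0
      · simp [hz]
      · obtain ⟨hb, h⟩ := cb_psi_pos hz
        exact mul_nonneg (cb_psi_nonneg u φ c r y) (hl y hb h).le
    · refine mul_ne_zero ?_ (hl x hx hlt').ne'
      rw [cb_psi_in u φ hx, max_eq_left (by linarith)]
      linarith
  linarith

end Vale.Agent.P098
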