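import Vale.Agent.P098.Cont2

open MeasureTheory Set Metric Filter
open scoped ContDiff RealInnerProductSpace Topology NNReal

noncomputable section
namespace Vale.Agent.P098

variable {n : ℕ}

/-- mollification at scale `s` -/
def cont_m (κ u : E n → ℝ) (x : E n) (s : ℝ) : ℝ := ∫ z, u z * (s⁻¹ ^ n * κ (s⁻¹ • (z - x)))

theorem cont_vol (x : E n) {s : ℝ} (hs : 0 ≤ s) :
    volume.real (closedBall x s) = s ^ n * volume.real (closedBall (0 : E n) 1) := by
  rw [Measure.addHaar_real_closedBall' volume x hs, finrank_euclideanSpace_fin]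

theorem cont_loc {u : E n → ℝ} (h : GlobalMin u) : LocallyIntegrable u volume := by
  obtain ⟨-, G, hG⟩ := h
  intro x
  have : IsFiniteMeasure (volume.restrict (ball x 1)) :=
    isFiniteMeasure_restrict.2 measure_ball_lt_top.ne
  exact ⟨ball x 1, ball_mem_nhds x one_pos, (hG x 1 one_pos).1.1.integrable one_le_two⟩

theorem cont_int {u g : E n → ℝ} (hu : LocallyIntegrable u volume) (hg : Continuous g)
    (h0 : ∀ y, y ∉ ball (0 : E n) 1 → g y = 0) (x : E n) {s : ℝ} (hs : 0 < s) :
    Integrable fun z => u z * g (s⁻¹ • (z - x)) :=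
  hu.integrable_smul_right_of_hasCompactSupport (g := fun z => g (s⁻¹ • (z - x))) (by fun_prop)
    (HasCompactSupport.intro (isCompact_closedBall x s) fun _ hz => cont_out h0 hs hz)

theorem cont_scale_grad {φ : E n → ℝ} (h : ContDiff ℝ ∞ φ) (x z : E n) (a b : ℝ) :
    gradient (fun z => b * φ (a • (z - x))) z = (b * a) • gradient φ (a • (z - x)) := by
  refine ext_inner_right ℝ fun v => ?_
  rw [cont_grad_inner, real_inner_smul_left, cont_grad_inner,
    fderiv_const_mul ((cont_scale_cd h x a).differentiable (by simp) z),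
    smul_apply, cont_scale_fd h, smul_eq_mul, mul_assoc]

theorem cont_pair (h_h10 : S_h10) (h_trunc : S_trunc) {κ φ : E n → ℝ} {c K : ℝ} (hk : Ker κ φ c)
    (hK : ∀ y, ‖gradient φ y‖ ≤ K) {u : E n → ℝ} {G : E n → E n} (h0 : ∀ᵐ x, 0 ≤ u x) {x : E n}
    {s : ℝ} (hs : 0 < s) (hH : IsH1 (ball x (2 * s)) u G)
    (hmin : ∀ (v : E n → ℝ) (Gv : E n → E n), (∀ᵐ x ∂volume.restrict (ball x (2 * s)), 0 ≤ v x) →
      IsH1 (ball x (2 * s)) v Gv → IsH10 (ball x (2 * s)) (v - u) (Gv - G) →
      energy (ball x (2 * s)) u G ≤ energy (ball x (2 * s)) v Gv) :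
    |∫ z in ball x (2 * s), ⟪G z, κ (s⁻¹ • (z - x)) • s⁻¹ • (z - x)⟫| ≤
      (K ^ 2 * 2 ^ n + 1) * volume.real (closedBall (0 : E n) 1) * s ^ n := by
  have hV : 0 ≤ volume.real (closedBall (0 : E n) 1) := measureReal_nonneg
  have key : ∀ e : ℝ, |e| = 1 →
      2 * (e * ∫ z in ball x (2 * s), ⟪G z, κ (s⁻¹ • (z - x)) • s⁻¹ • (z - x)⟫) ≤
      (K ^ 2 * 2 ^ n + 1) * volume.real (closedBall (0 : E n) 1) * s ^ n := by
    intro e he
    have h1 := cont_energy h_h10 h_trunc (f := fun z => e * s * φ (s⁻¹ • (z - x))) h0 hH hmin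
      (isCompact_closedBall x s) (closedBall_subset_ball (by linarith))
      (contDiff_const.mul (cont_scale_cd hk.tf.1 x _))
      (fun z hz => by simp only [cont_out (cont_t0 hk.tf) hs hz, mul_zero])
    have e1 : e * s * s⁻¹ = e := by field_simp
    simp only [cont_scale_grad hk.tf.1, e1, real_inner_smul_right (r := e)] at h1
    rw [integral_const_mul, cont_vol x hs.le] at h1
    have h2 : ‖∫ z in ball x (2 * s), ‖e • gradient φ (s⁻¹ • (z - x))‖ ^ 2‖ ≤
        K ^ 2 * volume.real (ball x (2 * s)) := by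
      refine norm_setIntegral_le_of_norm_le_const measure_ball_lt_top fun z _ => ?_
      rw [Real.norm_of_nonneg (sq_nonneg _), norm_smul, Real.norm_eq_abs, he, one_mul]
      exact pow_le_pow_left₀ (norm_nonneg _) (hK _) 2
    have h3 : volume.real (ball x (2 * s)) ≤ (2 * s) ^ n * volume.real (closedBall (0 : E n) 1) := by
      rw [← cont_vol x (by linarith)]
      exact measureReal_mono ball_subset_closedBall measure_closedBall_lt_top.ne
    have h4 := mul_le_mul_of_nonneg_left h3 (sq_nonneg K)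
    have h5 := (le_abs_self _).trans h2
    simp only [hk.grad] at h1 h5
    rw [mul_pow] at h4
    linarith
  have k1 := key 1 (by simp)
  have k2 := key (-1) (by simp)
  have : 0 ≤ (K ^ 2 * 2 ^ n + 1) * volume.real (closedBall (0 : E n) 1) * s ^ n := by positivity
  exact abs_le.2 ⟨by linarith, by linarith⟩

theorem cont_ker_deriv {κ : E n → ℝ} (hκ : ContDiff ℝ ∞ κ) (y : E n) {s : ℝ} (hs : s ≠ 0) :
    HasDerivAt (fun s : ℝ => s⁻¹ ^ n * κ (s⁻¹ • y))
      (-(s⁻¹ ^ (n + 1) * (n * κ (s⁻¹ • y) + fderiv ℝ κ (s⁻¹ • y) (s⁻¹ • y)))) s := by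
  have h1 := hasDerivAt_inv hs
  have h2 := (hκ.differentiable (by simp) (s⁻¹ • y)).hasFDerivAt.comp_hasDerivAt s (h1.smul_const y)
  have h3 := (h1.pow n).mul h2
  refine HasDerivAt.congr_deriv h3 ?_
  have e : (n : ℝ) * s⁻¹ ^ (n - 1) * s⁻¹ = n * s⁻¹ ^ n := by
    rcases n with _ | m
    · simp
    · rw [Nat.add_sub_cancel, pow_succ]; ring
  simp only [map_smul, smul_eq_mul, Function.comp_apply, Pi.pow_apply, ← inv_pow]
  linear_combination (-s⁻¹ * κ (s⁻¹ • y)) * e

theorem cont_m_deriv {κ u : E n → ℝ} (hκ : IsTest (ball 0 1) κ) (hu : LocallyIntegrable u volume)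
    (x : E n) {s : ℝ} (hs : 0 < s) : HasDerivAt (cont_m κ u x)
      (-(s⁻¹ ^ (n + 1) * ∫ z, u z * (n * κ (s⁻¹ • (z - x)) +
        fderiv ℝ κ (s⁻¹ • (z - x)) (s⁻¹ • (z - x))))) s := by
  have hc : Continuous fun y : E n => n * κ y + fderiv ℝ κ y y :=
    (continuous_const.mul hκ.1.continuous).add
      ((hκ.1.continuous_fderiv (by simp)).clm_apply continuous_id)
  have h0 : ∀ y, y ∉ ball (0 : E n) 1 → n * κ y + fderiv ℝ κ y y = 0 := fun y hy => by
    simp [cont_t0 hκ y hy, cont_t1 hκ y hy]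
  obtain ⟨H, hH⟩ := hc.bounded_above_of_compact_support
    (HasCompactSupport.intro (isCompact_closedBall 0 1) fun y hy =>
      h0 y fun h => hy (ball_subset_closedBall h))
  have hi : ∀ t : ℝ, 0 < t → Integrable fun z => u z * (t⁻¹ ^ n * κ (t⁻¹ • (z - x))) := fun t ht =>
    cont_int (g := fun y => t⁻¹ ^ n * κ y) hu (continuous_const.mul hκ.1.continuous)
      (fun y hy => by rw [cont_t0 hκ y hy, mul_zero]) x ht
  have hm := hasDerivAt_integral_of_dominated_loc_of_deriv_le (μ := volume) (x₀ := s)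
    (s := Ioo (s / 2) (2 * s)) (F := fun t z => u z * (t⁻¹ ^ n * κ (t⁻¹ • (z - x))))
    (F' := fun t z => u z * -(t⁻¹ ^ (n + 1) * (n * κ (t⁻¹ • (z - x)) +
      fderiv ℝ κ (t⁻¹ • (z - x)) (t⁻¹ • (z - x)))))
    (bound := (closedBall x (2 * s)).indicator fun z => ‖u z‖ * ((s / 2)⁻¹ ^ (n + 1) * H))
    (Ioo_mem_nhds (by linarith) (by linarith))
    (by filter_upwards [Ioi_mem_nhds hs] with t ht using (hi t ht).1) (hi s hs)
    (cont_int (g := fun y => -(s⁻¹ ^ (n + 1) * (n * κ y + fderiv ℝ κ y y))) hu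
      (continuous_const.mul hc).neg (fun y hy => by rw [h0 y hy]; simp) x hs).1
    (Eventually.of_forall fun z t ht => ?_)
    ((integrable_indicator_iff measurableSet_closedBall).2
      ((hu.integrableOn_isCompact (isCompact_closedBall _ _)).norm.mul_const _))
    (Eventually.of_forall fun z t ht =>
      (cont_ker_deriv hκ.1 (z - x) (by linarith [ht.1] : (0 : ℝ) < t).ne').const_mul (u z))
  · refine HasDerivAt.congr_deriv hm.2 ?_
    rw [← integral_const_mul, ← integral_neg]
    exact integral_congr_ae (Eventually.of_forall fun z => by ring)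
  · have ht0 : 0 < t := by linarith [ht.1]
    by_cases hz : z ∈ closedBall x (2 * s)
    · rw [indicator_of_mem hz, norm_mul, norm_neg, norm_mul, norm_pow,
        Real.norm_of_nonneg (inv_pos.2 ht0).le]
      have := hH (t⁻¹ • (z - x))
      have h1 : t⁻¹ ≤ (s / 2)⁻¹ := inv_anti₀ (by linarith) ht.1.le
      gcongr
    · have := cont_out h0 ht0 fun h => hz (closedBall_subset_closedBall ht.2.le h)
      rw [indicator_of_notMem hz, this]
      simp

theorem cont_m_cont {κ u : E n → ℝ} (hκ : IsTest (ball 0 1) κ) (hu : LocallyIntegrable u volume)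
    {s : ℝ} (hs : 0 < s) : Continuous fun x => cont_m κ u x s := by
  have hc := hκ.1.continuous
  have h := HasCompactSupport.continuous_convolution_right (ContinuousLinearMap.mul ℝ ℝ)
    (g := fun y : E n => s⁻¹ ^ n * κ (s⁻¹ • (0 - y))) (μ := volume)
    (HasCompactSupport.intro (isCompact_closedBall 0 s) fun y hy => by
      rw [cont_out (cont_t0 hκ) hs (by simpa using hy), mul_zero]) hu (by fun_prop)
  refine h.congr fun x => ?_
  simp [convolution, cont_m]

theorem cont_m_ae {κ φ u : E n → ℝ} {c : ℝ} (hk : Ker κ φ c) (hu : LocallyIntegrable u volume) :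
    ∀ᵐ x, Tendsto (cont_m κ u x) (𝓝[>] 0) (𝓝 (u x)) := by
  obtain ⟨K, hK⟩ := hk.tk.1.continuous.bounded_above_of_compact_support hk.tk.2.1
  have hV : 0 < volume.real (closedBall (0 : E n) 1) :=
    ENNReal.toReal_pos (measure_closedBall_pos volume _ one_pos).ne' measure_closedBall_lt_top.ne
  filter_upwards [IsUnifLocDoublingMeasure.ae_tendsto_average_norm_sub volume hu 1] with x hx
  have h1 := hx (l := 𝓝[>] (0 : ℝ)) (fun _ => x) id tendsto_id (by
    filter_upwards [self_mem_nhdsWithin] with s hs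
    exact mem_closedBall_self (by simpa using le_of_lt hs))
  have h2 := h1.const_mul (K * volume.real (closedBall (0 : E n) 1))
  rw [mul_zero] at h2
  rw [tendsto_iff_norm_sub_tendsto_zero]
  refine squeeze_zero' (Eventually.of_forall fun _ => norm_nonneg _) ?_ h2
  filter_upwards [self_mem_nhdsWithin] with s hs
  have hs : 0 < s := hs
  have hi : ∀ w : E n → ℝ, LocallyIntegrable w volume →
      Integrable fun z => w z * (s⁻¹ ^ n * κ (s⁻¹ • (z - x))) := fun w hw =>
    cont_int (g := fun y => s⁻¹ ^ n * κ y) hw (continuous_const.mul hk.tk.1.continuous)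
      (fun y hy => by rw [cont_t0 hk.tk y hy, mul_zero]) x hs
  have e1 : ∫ z, u x * (s⁻¹ ^ n * κ (s⁻¹ • (z - x))) = u x := by
    rw [integral_const_mul, integral_const_mul,
      integral_sub_right_eq_self (fun z => κ (s⁻¹ • z)) x,
      Measure.integral_comp_inv_smul_of_nonneg volume κ hs.le, hk.one, finrank_euclideanSpace_fin]
    simp [hs.ne']
  have e2 : cont_m κ u x s - u x = ∫ z, (u z - u x) * (s⁻¹ ^ n * κ (s⁻¹ • (z - x))) := by
    simp only [sub_mul]
    rw [integral_sub (hi u hu) (hi _ (locallyIntegrable_const _)), e1, cont_m]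
  have hb : IntegrableOn (fun z => ‖u z - u x‖) (closedBall x s) :=
    ((hu.sub (locallyIntegrable_const (u x))).integrableOn_isCompact (isCompact_closedBall _ _)).norm
  rw [e2, setAverage_eq, id, cont_vol x hs.le, smul_eq_mul,
    ← setIntegral_eq_integral_of_forall_compl_eq_zero (s := closedBall x s) fun z hz => by
      rw [cont_out (cont_t0 hk.tk) hs hz, mul_zero, mul_zero]]
  refine (norm_integral_le_of_norm_le (hb.const_mul (s⁻¹ ^ n * K))
    (Eventually.of_forall fun z => ?_)).trans (le_of_eq ?_)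
  · rw [norm_mul, norm_mul, norm_pow, Real.norm_of_nonneg (inv_pos.2 hs).le, mul_comm]
    have := hK (s⁻¹ • (z - x))
    gcongr
  · rw [integral_const_mul, inv_pow]
    field_simp

theorem cont (h_ker : S_ker) (h_h10 : S_h10) (h_trunc : S_trunc) : S_cont := by
  intro n
  obtain ⟨κ, φ, c, hk⟩ := h_ker n
  obtain ⟨K, hK⟩ := (cont_grad_c hk.tf.1).bounded_above_of_compact_support (cont_grad_s hk.tf.2.1)
  obtain ⟨C, hC⟩ : ∃ C : ℝ≥0, (C : ℝ) = (K ^ 2 * 2 ^ n + 1) * volume.real (closedBall (0 : E n) 1) :=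
    ⟨⟨_, mul_nonneg (by positivity) measureReal_nonneg⟩, rfl⟩
  have hc := hk.pos
  refine ⟨2 ^ n / c * (1 + 2 * C), by positivity, fun u hu => ?_⟩
  have hl := cont_loc hu
  obtain ⟨h0, G, hG⟩ := hu
  have hlip : ∀ x, LipschitzOnWith C (cont_m κ u x) (Ioi 0) := fun x => by
    refine (convex_Ioi (0 : ℝ)).lipschitzOnWith_of_nnnorm_hasDerivWithin_le
      (fun s hs => (cont_m_deriv hk.tk hl x hs).hasDerivWithinAt) fun s hs => ?_
    have hs : 0 < s := hs
    have h1 := cont_pair h_h10 h_trunc hk hK h0 hs (hG x (2 * s) (by linarith)).1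
      (hG x (2 * s) (by linarith)).2
    rw [← NNReal.coe_le_coe, coe_nnnorm, norm_neg, pow_succ, mul_assoc,
      cont_div hk.tk hs (hG x (2 * s) (by linarith)).1, norm_mul, norm_neg,
      Real.norm_of_nonneg (by positivity), Real.norm_eq_abs, inv_pow, inv_mul_le_iff₀' (by positivity),
      hC]
    exact h1
  choose g hg hge using fun x => (hlip x).extend_real
  have hv : ∀ x s, 0 < s → |cont_m κ u x s - g x 0| ≤ C * s := fun x s hs => by
    have := (hg x).dist_le_mul s 0
    rwa [← hge x hs, Real.dist_eq, Real.dist_eq, sub_zero, abs_of_pos hs] at this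
  have hlim : ∀ x, Tendsto (cont_m κ u x) (𝓝[>] 0) (𝓝 (g x 0)) := fun x =>
    (((hg x).continuous.tendsto 0).mono_left nhdsWithin_le_nhds).congr' (by
      filter_upwards [self_mem_nhdsWithin] with s hs using (hge x hs).symm)
  have hm0 : ∀ x s, 0 < s → 0 ≤ cont_m κ u x s := fun x s hs =>
    integral_nonneg_of_ae (h0.mono fun z hz => mul_nonneg hz
      (mul_nonneg (by positivity) (hk.nonneg _)))
  have hv0 : ∀ x, 0 ≤ g x 0 := fun x => ge_of_tendsto (hlim x) (by
    filter_upwards [self_mem_nhdsWithin] with s hs using hm0 x s hs)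
  have hae : u =ᵐ[volume] fun x => g x 0 :=
    (cont_m_ae hk hl).mono fun x hx => tendsto_nhds_unique hx (hlim x)
  refine ⟨fun x => g x 0, ?_, hae, hv0, fun x r hr => ?_⟩
  · refine TendstoUniformly.continuous (F := fun s x => cont_m κ u x s) (p := 𝓝[>] (0 : ℝ)) ?_ ?_
    · rw [Metric.tendstoUniformly_iff]
      intro ε hε
      filter_upwards [Ioo_mem_nhdsGT (show 0 < ε / (C + 1) by positivity)] with s hs x
      rw [dist_comm, Real.dist_eq]
      have h1 := hs.2
      rw [lt_div_iff₀ (by positivity)] at h1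
      have := hv x s hs.1
      linarith [hs.1]
    · refine Eventually.frequently ?_
      filter_upwards [self_mem_nhdsWithin] with s hs using cont_m_cont hk.tk hl hs
  · have hr2 : 0 < 2 * r := by linarith
    have hi := cont_int (g := fun y => (2 * r)⁻¹ ^ n * κ y) hl
      (continuous_const.mul hk.tk.1.continuous)
      (fun y hy => by rw [cont_t0 hk.tk y hy, mul_zero]) x hr2
    have hb : IntegrableOn u (ball x r) :=
      (hl.integrableOn_isCompact (isCompact_closedBall x r)).mono_set ball_subset_closedBall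
    have h1 : (2 * r)⁻¹ ^ n * c * ∫ y in ball x r, u y ≤ cont_m κ u x (2 * r) := by
      rw [← integral_const_mul]
      refine le_trans ?_ (setIntegral_le_integral (s := ball x r) hi (h0.mono fun z hz =>
        mul_nonneg hz (mul_nonneg (by positivity) (hk.nonneg _))))
      refine setIntegral_mono_on_ae (hb.const_mul _) hi.integrableOn measurableSet_ball
        (h0.mono fun z hz hzb => ?_)
      have : c ≤ κ ((2 * r)⁻¹ • (z - x)) := hk.low _ (by
        rw [mem_ball_zero_iff, norm_smul, norm_inv, Real.norm_of_nonneg hr2.le, inv_mul_lt_iff₀ hr2,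
          ← dist_eq_norm]
        have := mem_ball.1 hzb
        linarith)
      rw [mul_comm]
      gcongr
    have h2 := (abs_le.1 (hv x (2 * r) hr2)).2
    rw [← integral_congr_ae (ae_restrict_of_ae hae)]
    have h3 : (2 * r)⁻¹ ^ n * c * (2 ^ n / c * r ^ n) = 1 := by
      rw [inv_pow, mul_pow]; field_simp
    have h4 : 0 < (2 * r)⁻¹ ^ n * c := by positivity
    refine le_of_mul_le_mul_left ?_ h4
    have h5 : (2 * r)⁻¹ ^ n * c * (2 ^ n / c * (1 + 2 * C) * r ^ n * (g x 0 + r)) =
        (1 + 2 * C) * (g x 0 + r) := by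
      linear_combination ((1 + 2 * C) * (g x 0 + r)) * h3
    rw [h5]
    have := hv0 x
    have hC0 : (0 : ℝ) ≤ C := C.2
    nlinarith [mul_nonneg hC0 this]

end Vale.Agent.P098
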