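import Vale.Agent.P098.Core3

open MeasureTheory Set Metric Filter
open scoped ContDiff RealInnerProductSpace Topology NNReal

noncomputable section
namespace Vale.Agent.P098

section aux

variable {n : ℕ}

/-- folding onto the half space. -/
def core_a (e x : E n) : E n := x + (|⟪x, e⟫| - ⟪x, e⟫) • e

theorem core_a_inner {e : E n} (he : ‖e‖ = 1) (x : E n) : ⟪core_a e x, e⟫ = |⟪x, e⟫| := by
  rw [core_a, inner_add_left, real_inner_smul_left, real_inner_self_eq_norm_sq, he]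
  ring

theorem core_a_norm {e : E n} (he : ‖e‖ = 1) (x : E n) : ‖core_a e x‖ = ‖x‖ := by
  refine (sq_eq_sq₀ (norm_nonneg _) (norm_nonneg _)).1 ?_
  rw [core_a, norm_add_sq_real, real_inner_smul_right, norm_smul, he, mul_one, Real.norm_eq_abs,
    sq_abs]
  nlinarith [sq_abs ⟪x, e⟫]

theorem core_a_refl {e : E n} (he : ‖e‖ = 1) (x : E n) : core_a e (refl e x) = core_a e x := by
  have h : ⟪refl e x, e⟫ = -⟪x, e⟫ := by
    rw [refl, inner_sub_left, real_inner_smul_left, real_inner_self_eq_norm_sq, he]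
    ring
  rw [core_a, h, abs_neg, refl, core_a]
  module

theorem core_a_lip {e : E n} (he : ‖e‖ = 1) (x y : E n) :
    ‖core_a e x - core_a e y‖ ≤ 3 * ‖x - y‖ := by
  have h1 : core_a e x - core_a e y =
      (x - y) + ((|⟪x, e⟫| - |⟪y, e⟫|) - (⟪x, e⟫ - ⟪y, e⟫)) • e := by
    rw [core_a, core_a]
    module
  have h2 : |⟪x, e⟫ - ⟪y, e⟫| ≤ ‖x - y‖ := by
    rw [← inner_sub_left]
    simpa [he] using abs_real_inner_le_norm (x - y) e
  have h3 := abs_abs_sub_abs_le_abs_sub ⟪x, e⟫ ⟪y, e⟫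
  have h4 := abs_sub (|⟪x, e⟫| - |⟪y, e⟫|) (⟪x, e⟫ - ⟪y, e⟫)
  rw [h1]
  refine (norm_add_le _ _).trans ?_
  rw [norm_smul, he, mul_one, Real.norm_eq_abs]
  linarith

theorem core_a_sub {e : E n} (he : ‖e‖ = 1) {x : E n} {s : ℝ} (hs : 0 ≤ s) (hx : -s ≤ ⟪x, e⟫) :
    ‖x - core_a e x‖ ≤ 2 * s := by
  rw [core_a, sub_add_cancel_left, norm_neg, norm_smul, he, mul_one, Real.norm_eq_abs,
    abs_of_nonneg (sub_nonneg.2 (le_abs_self _))]
  rcases abs_cases ⟪x, e⟫ with h | h <;> linarith [h.1, h.2]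

theorem core_pt {u P : E n → ℝ} {e : E n} {σ ε : ℝ} (he : ‖e‖ = 1) (hG : Good e σ ε P)
    (hε : 0 < ε) (hs : σ + ε ≤ 1 / 100) (hT : Trap u P (-ε) ε (ball 0 1)) {z : E n}
    (hz : ‖z‖ ≤ 3 / 8) : ‖core_a e z + (2 * (σ + ε)) • e‖ < 1 / 2 ∧
      core_a e z + (2 * (σ + ε)) • e ∈ closure (Om u) := by
  have hσ0 := core_sigma_nonneg hG
  have h1 : ‖core_a e z + (2 * (σ + ε)) • e‖ < 1 / 2 := by
    refine (norm_add_le _ _).trans_lt ?_
    rw [core_a_norm he, norm_smul, he, mul_one, Real.norm_of_nonneg (by positivity)]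
    linarith
  refine ⟨h1, subset_closure ?_⟩
  have h2 := (abs_le.1 (core_P_lin hG (y := core_a e z + (2 * (σ + ε)) • e) (by linarith))).1
  rw [inner_add_left, core_a_inner he, real_inner_smul_left, real_inner_self_eq_norm_sq, he] at h2
  have h3 := (hT (core_a e z + (2 * (σ + ε)) • e) (mem_ball_zero_iff.2 (by linarith))).1
  have h4 := abs_nonneg ⟪z, e⟫
  change 0 < u _
  linarith

theorem core_clip {t : ℝ} (ht : |t| ≤ 1) : max (-1) (min 1 t) = t := by
  rw [abs_le] at ht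
  rw [min_eq_right ht.2, max_eq_right ht.1]

theorem core_small {σ ε : ℕ → ℝ} (hσ : ∀ k : ℕ, σ k ≤ 1 / ((k : ℝ) + 1))
    (hε : ∀ k : ℕ, ε k ≤ 1 / ((k : ℝ) + 1)) {δ : ℝ} (hδ : 0 < δ) :
    ∀ᶠ k in (hyperfilter ℕ : Filter ℕ), σ k + ε k ≤ δ := by
  have h := (tendsto_one_div_add_atTop_nhds_zero_nat (𝕜 := ℝ)).eventually
    (ge_mem_nhds (half_pos hδ))
  filter_upwards [Nat.hyperfilter_le_atTop h] with k hk
  linarith [hσ k, hε k]

theorem core_limit (h_hol : S_hol) {e : E n} (he : ‖e‖ = 1) (u P : ℕ → E n → ℝ) (σ ε : ℕ → ℝ)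
    (hu : ∀ k, LMin (u k)) (hG : ∀ k, Good e (σ k) (ε k) (P k))
    (hσ : ∀ k : ℕ, σ k ≤ 1 / ((k : ℝ) + 1)) (hε0 : ∀ k, 0 < ε k)
    (hε : ∀ k : ℕ, ε k ≤ 1 / ((k : ℝ) + 1)) (hT : ∀ k, Trap (u k) (P k) (-ε k) (ε k) (ball 0 1)) :
    ∃ g : E n → ℝ, (∀ x, g (refl e x) = g x) ∧ (∀ x, |g x| ≤ 1) ∧
      ContinuousOn g (closedBall 0 (3 / 8)) ∧
      ∀ γ : ℝ, 0 < γ → ∀ᶠ k in (hyperfilter ℕ : Filter ℕ), core_Close (u k) (P k) (ε k) g γ := by
  obtain ⟨w, hw⟩ : ∃ w : ℕ → E n → ℝ, ∀ k y, w k y = (u k y - P k y) / ε k := ⟨_, fun _ _ => rfl⟩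
  obtain ⟨q, hq⟩ : ∃ q : ℕ → E n → E n, ∀ k z, q k z = core_a e z + (2 * (σ k + ε k)) • e :=
    ⟨_, fun _ _ => rfl⟩
  have hσ0 : ∀ k, 0 ≤ σ k := fun k => core_sigma_nonneg (hG k)
  have hw1 : ∀ k y, ‖y‖ < 1 → y ∈ closure (Om (u k)) → |w k y| ≤ 1 := fun k y hy hc => by
    rw [hw, abs_div, abs_of_pos (hε0 k), div_le_one (hε0 k)]
    exact core_w_bound (hu k) (hG k) (hT k) hy hc
  have hlim : ∀ z : E n, ∃ l ∈ Icc (-1 : ℝ) 1, Tendsto
      (fun k => max (-1) (min 1 (w k (z + (2 * (σ k + ε k)) • e)))) (hyperfilter ℕ) (𝓝 l) := by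
    intro z
    exact isCompact_Icc.ultrafilter_le_nhds
      ((hyperfilter ℕ).map fun k => max (-1) (min 1 (w k (z + (2 * (σ k + ε k)) • e))))
      (by
        rw [Ultrafilter.coe_map, le_principal_iff, mem_map]
        exact Eventually.of_forall fun k =>
          ⟨le_max_left _ _, max_le (by norm_num) (min_le_left _ _)⟩)
  choose Lf hL1 hL2 using hlim
  have hpt : ∀ᶠ k in (hyperfilter ℕ : Filter ℕ), ∀ z : E n, ‖z‖ ≤ 3 / 8 →
      ‖q k z‖ < 1 / 2 ∧ q k z ∈ closure (Om (u k)) := by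
    filter_upwards [core_small hσ hε (δ := 1 / 100) (by norm_num)] with k hk z hz
    rw [hq]
    exact core_pt he (hG k) (hε0 k) hk (hT k) hz
  have hL3 : ∀ z : E n, ‖z‖ ≤ 3 / 8 →
      Tendsto (fun k => w k (q k z)) (hyperfilter ℕ) (𝓝 (Lf (core_a e z))) := by
    intro z hz
    refine (hL2 (core_a e z)).congr' ?_
    filter_upwards [hpt] with k hk
    rw [← hq]
    exact core_clip (hw1 k _ (by linarith [(hk z hz).1]) (hk z hz).2)
  obtain ⟨σ₀, hσ₀, hH⟩ := h_hol n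
  have hol : ∀ η : ℝ, 0 < η → ∃ ρ : ℝ, 0 < ρ ∧ ∀ᶠ k in (hyperfilter ℕ : Filter ℕ),
      ∀ y y' : E n, ‖y‖ < 1 / 2 → ‖y'‖ < 1 / 2 → y ∈ closure (Om (u k)) →
        y' ∈ closure (Om (u k)) → ‖y - y'‖ ≤ ρ → |w k y - w k y'| ≤ η := by
    intro η hη
    obtain ⟨ρ, ε₀, hρ, hε₀, hH'⟩ := hH η hη
    refine ⟨ρ, hρ, ?_⟩
    filter_upwards [core_small hσ hε hσ₀, core_small hσ hε hε₀] with k h1 h2 y y' hy hy' hc hc' hd
    rw [hw, hw, ← sub_div, abs_div, abs_of_pos (hε0 k), div_le_iff₀ (hε0 k)]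
    exact hH' (u k) (P k) e (σ k) (ε k) (hu k) he (hG k) (by linarith [hε0 k]) (hε0 k)
      (by linarith [hσ0 k]) (hT k) y (mem_ball_zero_iff.2 hy) y' (mem_ball_zero_iff.2 hy') hc hc' hd
  have hqq : ∀ k x z, ‖q k x - q k z‖ ≤ 3 * ‖x - z‖ := fun k x z => by
    rw [hq, hq, add_sub_add_right_eq_sub]
    exact core_a_lip he x z
  have hunif : ∀ η : ℝ, 0 < η → ∃ ρ : ℝ, 0 < ρ ∧ ∀ x z : E n, ‖x‖ ≤ 3 / 8 → ‖z‖ ≤ 3 / 8 →
      ‖x - z‖ ≤ ρ → |Lf (core_a e x) - Lf (core_a e z)| ≤ η := by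
    intro η hη
    obtain ⟨ρ, hρ, hev⟩ := hol η hη
    refine ⟨ρ / 3, by positivity, fun x z hx hz hd => ?_⟩
    refine le_of_tendsto ((hL3 x hx).sub (hL3 z hz)).abs ?_
    filter_upwards [hev, hpt] with k h1 h2
    exact h1 _ _ (h2 x hx).1 (h2 z hz).1 (h2 x hx).2 (h2 z hz).2 ((hqq k x z).trans (by linarith))
  refine ⟨fun x => Lf (core_a e x), fun x => by simp only [core_a_refl he],
    fun x => abs_le.2 (hL1 _), ?_, ?_⟩
  · rw [Metric.continuousOn_iff]
    intro z hz η hη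
    obtain ⟨ρ, hρ, h⟩ := hunif (η / 2) (by positivity)
    refine ⟨ρ, hρ, fun x hx hd => ?_⟩
    rw [Real.dist_eq]
    rw [dist_eq_norm] at hd
    exact (h x z (mem_closedBall_zero_iff.1 hx) (mem_closedBall_zero_iff.1 hz) hd.le).trans_lt
      (by linarith)
  · intro γ hγ
    obtain ⟨ρ1, hρ1, h1⟩ := hunif (γ / 3) (by positivity)
    obtain ⟨ρ2, hρ2, h2⟩ := hol (γ / 3) (by positivity)
    obtain ⟨t, hts, htf, hcov⟩ := finite_cover_balls_of_compact
      (isCompact_closedBall (0 : E n) (3 / 8)) (e := min ρ1 (ρ2 / 6)) (by positivity)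
    have h3 : ∀ᶠ k in (hyperfilter ℕ : Filter ℕ), ∀ z ∈ t,
        |w k (q k z) - Lf (core_a e z)| ≤ γ / 3 := by
      rw [eventually_all_finite htf]
      intro z hz
      have := (hL3 z (mem_closedBall_zero_iff.1 (hts hz))).eventually
        (closedBall_mem_nhds _ (show 0 < γ / 3 by positivity))
      filter_upwards [this] with k hk
      exact hk
    filter_upwards [h2, h3, hpt, core_small hσ hε (δ := 1 / 100) (by norm_num),
      core_small hσ hε (δ := ρ2 / 56) (by positivity)] with k k2 k3 k4 k5 k6 x hx y hy hyx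
    obtain ⟨z, hz, hxz⟩ := mem_iUnion₂.1 (hcov (mem_closedBall_zero_iff.2 hx))
    rw [mem_ball, dist_eq_norm, lt_min_iff] at hxz
    have hz' := mem_closedBall_zero_iff.1 (hts hz)
    have e0 := hε0 k
    have s0 := hσ0 k
    have hyn : ‖y‖ < 1 / 2 := by
      have := norm_add_le (y - x) x
      rw [sub_add_cancel] at this
      linarith
    have hxe : -(9 * ε k + σ k) ≤ ⟪x, e⟫ := by
      have a1 := (abs_le.1 (core_w_bound (hu k) (hG k) (hT k) (y := y) (by linarith) hy)).2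
      have a2 := (abs_le.1 (core_P_lin (hG k) (y := y) (by linarith))).2
      have a3 := (hu k).nonneg y
      have a4 := abs_real_inner_le_norm (y - x) e
      rw [he, mul_one, inner_sub_left, abs_le] at a4
      linarith [a4.2]
    have hd : ‖y - q k z‖ ≤ ρ2 := by
      have b1 : y - q k z = (y - x) + (x - core_a e x) + (q k x - q k z) -
          (2 * (σ k + ε k)) • e := by
        rw [hq k x]
        abel
      have b2 := core_a_sub he (by positivity) hxe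
      have b3 := hqq k x z
      have b4 : ‖(2 * (σ k + ε k)) • e‖ = 2 * (σ k + ε k) := by
        rw [norm_smul, he, mul_one, Real.norm_of_nonneg (by positivity)]
      rw [b1]
      refine (norm_sub_le _ _).trans ?_
      have b5 := norm_add₃_le (a := y - x) (b := x - core_a e x) (c := q k x - q k z)
      linarith [hxz.2]
    have c1 := abs_le.1 (k2 y (q k z) hyn (k4 z hz').1 hy (k4 z hz').2 hd)
    have c2 := abs_le.1 (k3 z hz)
    have c3 := abs_le.1 (h1 x z hx hz' hxz.1.le)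
    have c4 : |w k y - Lf (core_a e x)| ≤ γ := by
      rw [abs_le]
      constructor <;> linarith [c1.1, c1.2, c2.1, c2.2, c3.1, c3.2]
    have c5 : u k y - P k y - ε k * Lf (core_a e x) = (w k y - Lf (core_a e x)) * ε k := by
      rw [hw]
      field_simp
    rw [c5, abs_mul, abs_of_pos e0]
    exact mul_le_mul_of_nonneg_right c4 e0.le

end aux

theorem core (h_maxp : S_max) (h_dir : S_dir) (h_cb : S_cb) (h_ca : S_ca) (h_hol : S_hol) : S_core := by
  intro n e γ he hγ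
  by_contra hcon
  push Not at hcon
  choose u P σ ε hu hG hσ hε0 hε hT hno using
    fun k : ℕ => hcon (1 / ((k : ℝ) + 1)) (by positivity)
  obtain ⟨g, hge, hg1, hgc, hC⟩ := core_limit h_hol he u P σ ε hu hG hσ hε0 hε hT
  have hγ' : 0 < min (γ / 5) 1 := by positivity
  obtain ⟨h, hs, hl, hev, hg⟩ := h_dir n e g (3 / 8) (min (γ / 5) 1) he (by norm_num) hγ'
    (hgc.mono sphere_subset_closedBall) hge
  have hn : 0 < n := by exact_mod_cast core_pos he
  have hsph : ∀ y ∈ sphere (0 : E n) (3 / 8), |h y| ≤ 2 := fun y hy => by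
    have a1 := abs_le.1 (hg y hy)
    have a2 := abs_le.1 (hg1 y)
    have a3 := min_le_right (γ / 5) 1
    rw [abs_le]
    constructor <;> linarith [a1.1, a1.2, a2.1, a2.2]
  have hb : ∀ x : E n, ‖x‖ ≤ 3 / 8 → |h x| ≤ 2 := fun x hx => by
    have a1 := h_maxp n h 0 (3 / 8) 2 hn (core_two hs) (fun y _ => (hl y).ge)
      (fun y hy => (abs_le.1 (hsph y hy)).2) x (mem_closedBall_zero_iff.2 hx)
    have a2 := h_maxp n (fun y => h y + -2 * h y) 0 (3 / 8) 2 hn
      (core_two (hs.add (contDiff_const.mul hs)))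
      (fun y _ => by rw [core_lap_add_mul hs hs, hl]; norm_num)
      (fun y hy => by linarith [(abs_le.1 (hsph y hy)).1]) x (mem_closedBall_zero_iff.2 hx)
    rw [abs_le]
    constructor <;> linarith
  obtain ⟨δ1, hδ1, hlow⟩ := core_lower h_cb he hs hl hev hb hγ'
  obtain ⟨δ2, hδ2, hup⟩ := core_upper h_ca he hs hl hev hb hγ'
  obtain ⟨k, k1, k2, k3⟩ := ((hC _ hγ').and ((core_small hσ hε hδ1).and
    (core_small hσ hε hδ2))).exists
  have s0 := core_sigma_nonneg (hG k)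
  have e0 := hε0 k
  have hm : 5 * min (γ / 5) 1 * ε k ≤ γ * ε k :=
    mul_le_mul_of_nonneg_right (by linarith [min_le_left (γ / 5) 1]) e0.le
  refine hno k h hs hl hev (fun x hx => hb x (by linarith [mem_ball_zero_iff.1 hx])) fun x hx => ?_
  have a1 := hlow (u k) (P k) g (σ k) (ε k) (hu k) (hG k) (by linarith) e0 (by linarith) (hT k) k1
    hg x hx
  have a2 := hup (u k) (P k) g (σ k) (ε k) (hu k) (hG k) (by linarith) e0 (by linarith) (hT k) k1
    hg x hx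
  exact ⟨by linarith, a2.trans (max_le_max_right _ (by linarith))⟩

end Vale.Agent.P098
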