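import Vale.Agent.P098.Iface

open MeasureTheory Set Metric Filter
open scoped ContDiff RealInnerProductSpace Topology NNReal

noncomputable section
namespace Vale.Agent.P098

variable {n : ℕ}

theorem cub_smooth (b : T1 n) (A : T2 n) (B : T3 n) : ContDiff ℝ ∞ (cub b A B) := by
  unfold cub
  fun_prop

theorem cub_pd (c : ℝ) (b : T1 n) {A : T2 n} {B : T3 n} (ha : ∀ i j, A i j = A j i)
    (h1 : ∀ i j k, B i j k = B j i k) (h2 : ∀ i j k, B i j k = B i k j) (l : Fin n) :
    pd l (fun x => c + cub b A B x) = fun x => b l + cub (A l) (B l) 0 x := by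
  funext x
  have hx : ∀ i, HasFDerivAt (fun y : E n => y i)
      (EuclideanSpace.proj i : E n →L[ℝ] ℝ) x := fun i =>
    (EuclideanSpace.proj i : E n →L[ℝ] ℝ).hasFDerivAt
  have h := ((((HasFDerivAt.fun_sum (u := Finset.univ) fun i _ => (hx i).const_mul (b i)).fun_add
    ((HasFDerivAt.fun_sum (u := Finset.univ) fun i _ =>
      HasFDerivAt.fun_sum (u := Finset.univ) fun j _ =>
        ((hx i).const_mul (A i j)).fun_mul (hx j)).const_mul (1 / 2 : ℝ))).fun_add
    ((HasFDerivAt.fun_sum (u := Finset.univ) fun i _ =>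
      HasFDerivAt.fun_sum (u := Finset.univ) fun j _ =>
        HasFDerivAt.fun_sum (u := Finset.univ) fun k _ =>
          (((hx i).const_mul (B i j k)).fun_mul (hx j)).fun_mul (hx k)).const_mul
            (1 / 6 : ℝ))).const_add c).fderiv
  have e1 : ∑ i, A i l * x i = ∑ i, A l i * x i :=
    Finset.sum_congr rfl fun i _ => by rw [ha]
  have e2 : ∑ i, ∑ j, B i j l * x i * x j = ∑ i, ∑ j, B l i j * x i * x j :=
    Finset.sum_congr rfl fun i _ => Finset.sum_congr rfl fun j _ => by rw [h2, h1]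
  have e3 : ∑ i, ∑ j, B i l j * x i * x j = ∑ i, ∑ j, B l i j * x i * x j :=
    Finset.sum_congr rfl fun i _ => Finset.sum_congr rfl fun j _ => by rw [h1]
  have s : ∀ i, (EuclideanSpace.proj i : E n →L[ℝ] ℝ) (EuclideanSpace.single l 1)
      = if i = l then 1 else 0 := fun i => by
    simp
  have f2 : ∑ i, ∑ j, (A i j * x i * (if j = l then 1 else 0)
      + x j * (A i j * if i = l then 1 else 0)) = 2 * ∑ i, A l i * x i := by
    simp only [Finset.sum_add_distrib, mul_ite, mul_one, mul_zero, Finset.sum_ite_eq',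
      Finset.mem_univ, if_true]
    rw [Finset.sum_comm]
    simp only [Finset.sum_ite_eq', Finset.mem_univ, if_true, e1, mul_comm (x _)]
    ring
  have f3 : ∑ i, ∑ j, ∑ k, (B i j k * x i * x j * (if k = l then 1 else 0)
      + x k * (B i j k * x i * (if j = l then 1 else 0)
        + x j * (B i j k * if i = l then 1 else 0))) = 3 * ∑ i, ∑ j, B l i j * x i * x j := by
    have g1 : ∑ i, ∑ j, ∑ k, B i j k * x i * x j * (if k = l then 1 else 0)
        = ∑ i, ∑ j, B l i j * x i * x j := by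
      simp only [mul_ite, mul_one, mul_zero, Finset.sum_ite_eq', Finset.mem_univ, if_true, e2]
    have g2 : ∑ i, ∑ j, ∑ k, x k * (B i j k * x i * (if j = l then 1 else 0))
        = ∑ i, ∑ j, B l i j * x i * x j := by
      rw [← e3]
      refine Finset.sum_congr rfl fun i _ => ?_
      rw [Finset.sum_comm]
      simp only [mul_ite, mul_one, mul_zero, Finset.sum_ite_eq', Finset.mem_univ, if_true]
      exact Finset.sum_congr rfl fun j _ => mul_comm _ _
    have g3 : ∑ i, ∑ j, ∑ k, x k * (x j * (B i j k * if i = l then 1 else 0))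
        = ∑ i, ∑ j, B l i j * x i * x j := by
      rw [Finset.sum_eq_single l]
      · simp only [if_true, mul_one]
        exact Finset.sum_congr rfl fun i _ => Finset.sum_congr rfl fun j _ => by ring
      · intro i _ hi
        simp [hi]
      · simp
    simp only [mul_add, Finset.sum_add_distrib, g1, g2, g3]
    ring
  unfold pd cub
  rw [h]
  simp only [add_apply, smul_apply,
    sum_apply, smul_eq_mul, s, f2, f3]
  simp only [mul_ite, mul_one, mul_zero, Finset.sum_ite_eq', Finset.mem_univ, if_true,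
    Pi.zero_apply, zero_mul, Finset.sum_const_zero]
  ring

theorem cub_calc : S_cub := by
  intro n b A B h
  have z : ∀ i j k : Fin n, (0 : T3 n) i j k = (0 : T3 n) j i k := fun _ _ _ => rfl
  have z' : ∀ i j k : Fin n, (0 : T3 n) i j k = (0 : T3 n) i k j := fun _ _ _ => rfl
  have d1 : ∀ l, pd l (cub b A B) = fun x => b l + cub (A l) (B l) 0 x := fun l => by
    have := cub_pd 0 b h.a h.b1 h.b2 l
    simpa only [zero_add] using this
  have d2 : ∀ i j, pd i (pd j (cub b A B)) = fun x => A j i + cub (B j i) 0 0 x := fun i j => by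
    rw [d1, cub_pd _ _ (h.b2 j) z z']
    rfl
  have d3 : ∀ i j k, pd i (pd j (pd k (cub b A B))) = fun x => B k j i + cub 0 0 0 x :=
    fun i j k => by
      rw [d2, cub_pd _ _ (fun _ _ => rfl) z z']
      rfl
  have D1e : ∀ x i, D1 (cub b A B) x i =
      b i + ∑ j, A i j * x j + (1 / 2) * ∑ j, ∑ k, B i j k * x j * x k := fun x i => by
    simp only [D1, d1, cub, Pi.zero_apply, zero_mul, Finset.sum_const_zero, mul_zero, add_zero,
      add_assoc]
  have D2e : ∀ x i j, pd i (pd j (cub b A B)) x = A i j + ∑ k, B i j k * x k := fun x i j => by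
    simp only [d2, cub, Pi.zero_apply, zero_mul, Finset.sum_const_zero, mul_zero, add_zero,
      h.a j i, h.b1 j i]
  refine ⟨cub_smooth b A B, fun x => ?_, fun x i => ?_, D1e, D2e, fun x => ?_⟩
  · simp only [lap, D2e, Finset.sum_add_distrib, h.ta, zero_add]
    rw [Finset.sum_comm]
    simp only [← Finset.sum_mul, h.tb, zero_mul, Finset.sum_const_zero]
  · rw [← D1e]
    have := InnerProductSpace.toDual_symm_apply (𝕜 := ℝ) (x := EuclideanSpace.single i (1 : ℝ))
      (y := fderiv ℝ (cub b A B) x)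
    rw [EuclideanSpace.inner_single_right] at this
    simpa [D1, pd, gradient] using this
  · funext i j k
    simp only [D3, d3, cub, Pi.zero_apply, zero_mul, Finset.sum_const_zero, mul_zero, add_zero]
    rw [h.b1 k j i, h.b2 j k i, h.b1 j i k]

theorem cub_sum {f : Fin n → ℝ} {t : ℝ} (ht : 0 ≤ t) (h : ∀ i, |f i| ≤ t) :
    |∑ i, f i| ≤ ((n : ℝ) + 1) * t := by
  refine (Finset.abs_sum_le_sum_abs _ _).trans ((Finset.sum_le_sum fun i _ => h i).trans ?_)
  rw [Finset.sum_const, Finset.card_univ, Fintype.card_fin, nsmul_eq_mul]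
  linarith

theorem cub_mul {a b s t : ℝ} (ha : |a| ≤ s) (hb : |b| ≤ t) : |a * b| ≤ s * t := by
  rw [abs_mul]
  exact mul_le_mul ha hb (abs_nonneg _) ((abs_nonneg _).trans ha)

theorem cub_add {a b s t : ℝ} (ha : |a| ≤ s) (hb : |b| ≤ t) : |a + b| ≤ s + t :=
  (abs_add_le _ _).trans (add_le_add ha hb)

theorem cub_sub {a b s t : ℝ} (ha : |a| ≤ s) (hb : |b| ≤ t) : |a - b| ≤ s + t :=
  (abs_sub _ _).trans (add_le_add ha hb)

/-- A symmetric form vanishing on the vectors orthogonal to `b`. -/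
theorem cub_form {b : T1 n} {M : T2 n} (hb : ∑ i, b i ^ 2 = 1) (hM : ∀ i j, M i j = M j i)
    (h : ∀ x y : T1 n, ∑ i, b i * x i = 0 → ∑ i, b i * y i = 0 →
      ∑ i, ∑ j, M i j * x i * y j = 0) (x : T1 n) :
    ∑ i, ∑ j, M i j * x i * x j = (∑ i, b i * x i) *
      ∑ i, (2 * ∑ j, M i j * b j - (∑ k, ∑ l, M k l * b k * b l) * b i) * x i := by
  set β := ∑ i, b i * x i with hβ
  have h0 : ∑ i, b i * (x i - β * b i) = 0 := by
    have : ∀ i, b i * (x i - β * b i) = b i * x i - β * b i ^ 2 := fun i => by ring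
    simp only [this, Finset.sum_sub_distrib, ← Finset.mul_sum, hb, ← hβ]
    ring
  have h1 := h _ _ h0 h0
  have e : ∀ i j, M i j * (x i - β * b i) * (x j - β * b j) = M i j * x i * x j
      - β * (M i j * b j * x i) - β * (M j i * b i * x j) + β ^ 2 * (M i j * b i * b j) :=
    fun i j => by rw [hM j i]; ring
  simp only [e, Finset.sum_add_distrib, Finset.sum_sub_distrib, ← Finset.mul_sum] at h1
  rw [Finset.sum_comm (f := fun i j => M j i * b i * x j)] at h1
  have e2 : ∀ i, (2 * ∑ j, M i j * b j - (∑ k, ∑ l, M k l * b k * b l) * b i) * x i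
      = 2 * ∑ j, M i j * b j * x i - (∑ k, ∑ l, M k l * b k * b l) * (b i * x i) := fun i => by
    rw [← Finset.sum_mul]; ring
  simp only [e2, Finset.sum_sub_distrib, ← Finset.mul_sum, ← hβ]
  linear_combination h1

theorem cub_id {b : T1 n} {A : T2 n} {B : T3 n} (h : Adm b A B) (x : T1 n) (Q : ℝ)
    (hQ : ∑ i, ∑ j, (∑ k, B i j k * b k + ∑ k, A i k * A k j + hh b A * A i j) * x i * x j
      = (∑ i, b i * x i) * Q) :
    ∑ i, (b i + ∑ j, A i j * x j + (1 / 2) * ∑ j, ∑ k, B i j k * x j * x k) ^ 2 - 1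
      - (∑ i, b i * x i + (1 / 2) * ∑ i, ∑ j, A i j * x i * x j +
        (1 / 6) * ∑ i, ∑ j, ∑ k, B i j k * x i * x j * x k) * (-2 * hh b A + Q)
      = ∑ i, (∑ j, A i j * x j) * (∑ j, ∑ k, B i j k * x j * x k)
        + (1 / 4) * ∑ i, (∑ j, ∑ k, B i j k * x j * x k) * (∑ j, ∑ k, B i j k * x j * x k)
        + (1 / 3) * (hh b A * ∑ i, ∑ j, ∑ k, B i j k * x i * x j * x k)
        - (1 / 2) * ((∑ i, ∑ j, A i j * x i * x j) * Q)
        - (1 / 6) * ((∑ i, ∑ j, ∑ k, B i j k * x i * x j * x k) * Q) := by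
  have e1 : ∑ i, b i * ∑ j, A i j * x j = -hh b A * ∑ i, b i * x i := by
    simp only [Finset.mul_sum]
    rw [Finset.sum_comm]
    refine Finset.sum_congr rfl fun j _ => ?_
    rw [← mul_assoc, ← h.eig, Finset.sum_mul]
    exact Finset.sum_congr rfl fun i _ => by rw [h.st.a j i]; ring
  have e2 : ∑ i, ∑ j, (∑ k, B i j k * b k) * x i * x j
      = ∑ i, b i * ∑ j, ∑ k, B i j k * x j * x k := by
    simp only [Finset.mul_sum, Finset.sum_mul]
    rw [Finset.sum_comm (f := fun i j => ∑ k, b i * (B i j k * x j * x k))]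
    refine Finset.sum_congr rfl fun i _ => ?_
    rw [Finset.sum_comm (f := fun k j => b k * (B k i j * x i * x j))]
    refine Finset.sum_congr rfl fun j _ => Finset.sum_congr rfl fun k _ => ?_
    rw [h.st.b1 k i j, h.st.b2 i k j]; ring
  have e3 : ∑ i, ∑ j, (∑ k, A i k * A k j) * x i * x j
      = ∑ i, (∑ j, A i j * x j) * ∑ j, A i j * x j := by
    simp only [Finset.mul_sum, Finset.sum_mul]
    rw [Finset.sum_comm (f := fun i j => ∑ k, A i k * x k * (A i j * x j))]
    refine Finset.sum_congr rfl fun i _ => ?_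
    rw [Finset.sum_comm (f := fun k j => A k j * x j * (A k i * x i))]
    refine Finset.sum_congr rfl fun j _ => Finset.sum_congr rfl fun k _ => ?_
    rw [h.st.a i k]; ring
  have e4 : ∑ i, ∑ j, hh b A * A i j * x i * x j = hh b A * ∑ i, ∑ j, A i j * x i * x j := by
    simp only [Finset.mul_sum, mul_assoc]
  simp only [add_mul, Finset.sum_add_distrib, e2, e3, e4] at hQ
  have e5 : ∀ i, (b i + ∑ j, A i j * x j + (1 / 2) * ∑ j, ∑ k, B i j k * x j * x k) ^ 2
      = b i ^ 2 + 2 * (b i * ∑ j, A i j * x j) + b i * ∑ j, ∑ k, B i j k * x j * x k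
        + (∑ j, A i j * x j) * (∑ j, A i j * x j)
        + (∑ j, A i j * x j) * (∑ j, ∑ k, B i j k * x j * x k)
        + (1 / 4) * ((∑ j, ∑ k, B i j k * x j * x k) * (∑ j, ∑ k, B i j k * x j * x k)) :=
    fun i => by ring
  rw [Finset.sum_congr rfl fun i _ => e5 i]
  simp only [Finset.sum_add_distrib]
  rw [← Finset.mul_sum, ← Finset.mul_sum, h.unit, e1]
  linear_combination hQ

theorem admR (h_cub_calc : S_cub) : S_admR := by
  intro n
  have hN : (1 : ℝ) ≤ (n : ℝ) + 1 := by linarith [Nat.cast_nonneg (α := ℝ) n]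
  refine ⟨20 * ((n : ℝ) + 1) ^ 8, by positivity, fun b A B h => ?_⟩
  have hA : ∀ i j, |A i j| ≤ ‖A‖ := fun i j =>
    (norm_le_pi_norm (A i) j).trans (norm_le_pi_norm A i)
  have hB : ∀ i j k, |B i j k| ≤ ‖B‖ := fun i j k =>
    ((norm_le_pi_norm (B i j) k).trans (norm_le_pi_norm (B i) j)).trans (norm_le_pi_norm B i)
  have hb : ∀ i, |b i| ≤ 1 := fun i => by
    rw [← sq_le_one_iff_abs_le_one, ← h.unit]
    exact Finset.single_le_sum (f := fun i => b i ^ 2) (fun _ _ => sq_nonneg _) (Finset.mem_univ i)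
  have a0 := norm_nonneg A
  have b0 := norm_nonneg B
  have hH : |hh b A| ≤ ((n : ℝ) + 1) * (((n : ℝ) + 1) * (‖A‖ * 1 * 1)) := by
    rw [hh, abs_neg]
    exact cub_sum (by positivity) fun i => cub_sum (by positivity) fun j =>
      cub_mul (cub_mul (hA i j) (hb i)) (hb j)
  set M : T2 n := fun i j => ∑ k, B i j k * b k + ∑ k, A i k * A k j + hh b A * A i j with hM
  have Ms : ∀ i j, M i j = M j i := fun i j => by
    simp only [hM, h.st.b1 i j, h.st.a i j]
    rw [Finset.sum_congr rfl fun k _ => show A i k * A k j = A j k * A k i by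
      rw [h.st.a i k, h.st.a k j, mul_comm]]
  have hm : ∀ i j, |M i j| ≤ 2 * ((n : ℝ) + 1) ^ 2 * (‖B‖ + ‖A‖ ^ 2) := fun i j => by
    refine (cub_add (cub_add (cub_sum (by positivity) fun k => cub_mul (hB i j k) (hb k))
      (cub_sum (by positivity) fun k => cub_mul (hA i k) (hA k j))) (cub_mul hH (hA i j))).trans ?_
    generalize (n : ℝ) + 1 = N at hN
    have h1 : N * ‖B‖ ≤ N ^ 2 * ‖B‖ := by gcongr; nlinarith
    have h2 : N * ‖A‖ ^ 2 ≤ N ^ 2 * ‖A‖ ^ 2 := by gcongr; nlinarith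
    have h3 : 0 ≤ N ^ 2 * ‖B‖ := by positivity
    nlinarith
  set q : T1 n := fun i => 2 * ∑ j, M i j * b j - (∑ k, ∑ l, M k l * b k * b l) * b i with hq
  have hq0 : ∀ i, |q i| ≤ 6 * ((n : ℝ) + 1) ^ 4 * (‖B‖ + ‖A‖ ^ 2) := fun i => by
    refine (cub_sub (cub_mul (abs_two (α := ℝ)).le
      (cub_sum (by positivity) fun j => cub_mul (hm i j) (hb j)))
      (cub_mul (cub_sum (by positivity) fun k => cub_sum (by positivity) fun l =>
        cub_mul (cub_mul (hm k l) (hb k)) (hb l)) (hb i))).trans ?_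
    generalize (n : ℝ) + 1 = N at hN
    have h0 : 0 ≤ ‖B‖ + ‖A‖ ^ 2 := by positivity
    generalize ‖B‖ + ‖A‖ ^ 2 = t at h0
    have h1 : N ^ 3 * t ≤ N ^ 4 * t := by gcongr; norm_num
    nlinarith
  refine ⟨q, ?_, fun x hx => ?_⟩
  · refine (pi_norm_le_iff_of_nonneg (by positivity)).2 fun i => (hq0 i).trans ?_
    gcongr <;> norm_num
  have hxi : ∀ i, |x i| ≤ ‖x‖ := fun i => PiLp.norm_apply_le x i
  have r0 := norm_nonneg x
  rw [EuclideanSpace.real_norm_sq_eq]
  simp only [(h_cub_calc n b A B h.st).2.2.1]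
  rw [cub, cub_id h (fun i => x i) _ (cub_form h.unit Ms h.tang fun i => x i)]
  have k1 : ∀ i, |∑ j, A i j * x j| ≤ _ := fun i =>
    cub_sum (by positivity) fun j => cub_mul (hA i j) (hxi j)
  have k2 : ∀ i, |∑ j, ∑ k, B i j k * x j * x k| ≤ _ := fun i =>
    cub_sum (by positivity) fun j => cub_sum (by positivity) fun k =>
      cub_mul (cub_mul (hB i j k) (hxi j)) (hxi k)
  have k3 : |∑ i, ∑ j, A i j * x i * x j| ≤ _ :=
    cub_sum (by positivity) fun i => cub_sum (by positivity) fun j =>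
      cub_mul (cub_mul (hA i j) (hxi i)) (hxi j)
  have k4 : |∑ i, ∑ j, ∑ k, B i j k * x i * x j * x k| ≤ _ :=
    cub_sum (by positivity) fun i => cub_sum (by positivity) fun j =>
      cub_sum (by positivity) fun k => cub_mul (cub_mul (cub_mul (hB i j k) (hxi i)) (hxi j)) (hxi k)
  have k5 : |∑ i, q i * x i| ≤ _ := cub_sum (by positivity) fun i => cub_mul (hq0 i) (hxi i)
  have c : ∀ t : ℝ, 0 ≤ t → t ≤ 1 → |t| ≤ 1 := fun t h1 h2 => by rwa [abs_of_nonneg h1]
  refine (cub_sub (cub_sub (cub_add (cub_add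
    (cub_sum (by positivity) fun i => cub_mul (k1 i) (k2 i))
    (cub_mul (c _ (by norm_num) (by norm_num))
      (cub_sum (by positivity) fun i => cub_mul (k2 i) (k2 i))))
    (cub_mul (c _ (by norm_num) (by norm_num)) (cub_mul hH k4)))
    (cub_mul (c _ (by norm_num) (by norm_num)) (cub_mul k3 k5)))
    (cub_mul (c _ (by norm_num) (by norm_num)) (cub_mul k4 k5))).trans ?_
  generalize (n : ℝ) + 1 = N at hN
  generalize ‖A‖ = a at a0
  generalize ‖B‖ = s at b0
  generalize ‖x‖ = r at hx r0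
  have r4 : r ^ 4 ≤ r ^ 3 := pow_le_pow_of_le_one r0 hx (by norm_num)
  have t1 : N ^ 4 * (a * s) * r ^ 3 ≤ N ^ 8 * (a * s) * r ^ 3 := by gcongr; norm_num
  have t2 : N ^ 5 * s ^ 2 * r ^ 4 ≤ N ^ 8 * s ^ 2 * r ^ 3 := by gcongr; norm_num
  have t3 : N ^ 5 * (a * s) * r ^ 3 ≤ N ^ 8 * (a * s) * r ^ 3 := by gcongr; norm_num
  have t4 : N ^ 7 * (a * s + a ^ 3) * r ^ 3 ≤ N ^ 8 * (a * s + a ^ 3) * r ^ 3 := by
    gcongr; norm_num
  have t5 : N ^ 8 * (s ^ 2 + a ^ 2 * s) * r ^ 4 ≤ N ^ 8 * (s ^ 2 + a ^ 2 * s) * r ^ 3 := by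
    gcongr
  have u1 : 0 ≤ N ^ 8 * (a * s) * r ^ 3 := by positivity
  have u2 : 0 ≤ N ^ 8 * s ^ 2 * r ^ 3 := by positivity
  have u3 : 0 ≤ N ^ 8 * a ^ 3 * r ^ 3 := by positivity
  have u4 : 0 ≤ N ^ 8 * (a ^ 2 * s) * r ^ 3 := by positivity
  linarith

end Vale.Agent.P098
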