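import Vale.Agent.P098.Iface

open MeasureTheory Set Metric Filter
open scoped ContDiff RealInnerProductSpace Topology NNReal

noncomputable section
namespace Vale.Agent.P098

variable {n : ℕ}

theorem dir_second {f f' : ℝ → ℝ} {c : ℝ} (hm : IsLocalMax f 0) (h1 : ∀ t, HasDerivAt f (f' t) t)
    (h2 : HasDerivAt f' c 0) : c ≤ 0 := by
  by_contra! hc
  have hd : deriv f = f' := funext fun t => (h1 t).deriv
  have hmin := isLocalMin_of_deriv_deriv_pos (f := f) (x₀ := 0) (by rw [hd, h2.deriv]; exact hc)
    hm.deriv_eq_zero (h1 0).continuousAt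
  have he : f =ᶠ[𝓝 0] fun _ => f 0 := by
    filter_upwards [hm, hmin] with t a b using le_antisymm a b
  have := he.deriv.deriv_eq
  rw [hd, h2.deriv] at this
  simp [hc.ne'] at this

theorem dir_line {f : E n → ℝ} (hf : Differentiable ℝ f) (y : E n) (i : Fin n) (t : ℝ) :
    HasDerivAt (fun t : ℝ => f (y + t • EuclideanSpace.single i 1))
      (pd i f (y + t • EuclideanSpace.single i 1)) t := by
  have h : HasDerivAt (fun t : ℝ => y + t • (EuclideanSpace.single i 1 : E n))
      (EuclideanSpace.single i 1) t := by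
    simpa using ((hasDerivAt_id t).smul_const (EuclideanSpace.single i (1 : ℝ) : E n)).const_add y
  exact (hf _).hasFDerivAt.comp_hasDerivAt t h

theorem dir_fd {f : E n → ℝ} (hf : ContDiff ℝ 2 f) : Differentiable ℝ (fderiv ℝ f) :=
  (hf.fderiv_right (m := 1) (by norm_num)).differentiable (by norm_num)

theorem maxp : S_max := by
  intro n h x r M hn hh hl hs y hy
  refine le_of_forall_pos_le_add fun ε hε => ?_
  have hr : 0 ≤ r := dist_nonneg.trans hy
  set δ := ε / (r ^ 2 + 1) with hδ
  have hδ0 : 0 < δ := by positivity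
  obtain ⟨z, hz, hmax⟩ := (isCompact_closedBall x r).exists_isMaxOn
    (f := fun y => h y + δ * ‖y - x‖ ^ 2) ⟨y, hy⟩
    (hh.continuous.add (by fun_prop)).continuousOn
  have h1 : z ∈ sphere x r := by
    by_contra hz'
    have hb : z ∈ ball x r := lt_of_le_of_ne hz hz'
    have hloc := hmax.isLocalMax (closedBall_mem_nhds_of_mem hb)
    have hd := hh.differentiable (by norm_num)
    have h2 : ∀ i, pd i (pd i h) z + δ * 2 ≤ 0 := fun i => by
      have hc : Continuous fun t : ℝ => z + t • (EuclideanSpace.single i 1 : E n) := by fun_prop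
      have hm := IsLocalMax.comp_continuous (f := fun y => h y + δ * ‖y - x‖ ^ 2)
        (g := fun t : ℝ => z + t • (EuclideanSpace.single i 1 : E n)) (b := 0)
        (by simpa using hloc) hc.continuousAt
      have he : ((fun y => h y + δ * ‖y - x‖ ^ 2) ∘
          fun t : ℝ => z + t • (EuclideanSpace.single i 1 : E n)) = fun t : ℝ =>
          h (z + t • EuclideanSpace.single i 1) +
            δ * (‖z - x‖ ^ 2 + 2 * (z - x) i * t + t ^ 2) := by
        ext t
        simp only [Function.comp_apply]
        rw [add_sub_right_comm, norm_add_sq_real]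
        simp [inner_smul_right, EuclideanSpace.inner_single_right, norm_smul]
        exact Or.inl (by ring)
      rw [he] at hm
      have hpd : Differentiable ℝ (pd i h) := (dir_fd hh).clm_apply (differentiable_const _)
      refine dir_second (f' := fun t => pd i h (z + t • EuclideanSpace.single i 1) +
        δ * (2 * (z - x) i + 2 * t)) hm (fun t => (dir_line hd z i t).add ?_) ?_
      · refine HasDerivAt.const_mul δ ?_
        simpa using (((hasDerivAt_id t).const_mul (2 * (z - x) i)).const_add (‖z - x‖ ^ 2)).fun_add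
          (hasDerivAt_pow 2 t)
      · have := (dir_line hpd z i 0).fun_add
          ((((hasDerivAt_id (0 : ℝ)).const_mul 2).const_add (2 * (z - x) i)).const_mul δ)
        simpa using this
    have h3 := Finset.sum_nonpos fun i (_ : i ∈ Finset.univ) => h2 i
    rw [Finset.sum_add_distrib, Finset.sum_const, Finset.card_univ, Fintype.card_fin,
      nsmul_eq_mul] at h3
    have h4 := hl z hb
    have : (0 : ℝ) < n * (δ * 2) := by positivity
    rw [lap] at h4
    linarith
  have h2 : h y + δ * ‖y - x‖ ^ 2 ≤ h z + δ * ‖z - x‖ ^ 2 := hmax hy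
  rw [mem_sphere_iff_norm.1 h1] at h2
  have h3 : δ * r ^ 2 ≤ ε := by
    rw [hδ, div_mul_eq_mul_div, div_le_iff₀ (by positivity)]
    nlinarith
  have := hs z h1
  have : 0 ≤ δ * ‖y - x‖ ^ 2 := by positivity
  linarith

open MvPolynomial

/-- evaluation of a polynomial on Euclidean space -/
def dirEv (p : MvPolynomial (Fin n) ℝ) (x : E n) : ℝ := eval (fun i => x i) p

theorem dir_contDiff (m : WithTop ℕ∞) (p : MvPolynomial (Fin n) ℝ) : ContDiff ℝ m (dirEv p) := by
  unfold dirEv
  induction p using MvPolynomial.induction_on with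
  | C a => simpa using contDiff_const
  | add p q hp hq => simpa using hp.add hq
  | mul_X p i hp =>
    simp only [map_mul, eval_X]
    exact hp.mul (EuclideanSpace.proj (𝕜 := ℝ) i).contDiff

theorem dir_pd (i : Fin n) (p : MvPolynomial (Fin n) ℝ) : pd i (dirEv p) = dirEv (pderiv i p) := by
  have hd := fun p (x : E n) => (dir_contDiff 1 p).differentiable (by norm_num) x
  ext x
  induction p using MvPolynomial.induction_on with
  | C a =>
    have : dirEv (C a : MvPolynomial (Fin n) ℝ) = fun _ => a := by ext; simp [dirEv]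
    rw [this]
    simp [pd, dirEv]
  | add p q hp hq =>
    have : dirEv (p + q) = dirEv p + dirEv q := by ext; simp [dirEv]
    rw [pd, this, fderiv_add (hd p x) (hd q x)]
    simp only [pd] at hp hq
    simp [hp, hq, dirEv]
  | mul_X p j hp =>
    have : dirEv (p * X j) = dirEv p * (EuclideanSpace.proj (𝕜 := ℝ) j : E n → ℝ) := by
      ext; simp [dirEv]
    rw [pd, this, fderiv_mul (hd p x) (EuclideanSpace.proj (𝕜 := ℝ) j).differentiableAt,
      ContinuousLinearMap.fderiv]
    simp only [pd] at hp
    by_cases h : i = j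
    · subst h
      simp [hp, dirEv, add_comm, mul_comm]
    · simp [hp, dirEv, Ne.symm h, mul_comm]

/-- the Laplacian on polynomials -/
def dirL : MvPolynomial (Fin n) ℝ →ₗ[ℝ] MvPolynomial (Fin n) ℝ :=
  ∑ i, (pderiv i).toLinearMap ∘ₗ (pderiv i).toLinearMap

theorem dir_lap (p : MvPolynomial (Fin n) ℝ) (x : E n) : lap (dirEv p) x = dirEv (dirL p) x := by
  simp [lap, dir_pd, dirL, dirEv]

theorem dir_deg (i : Fin n) (p : MvPolynomial (Fin n) ℝ) :
    (pderiv i p).totalDegree ≤ p.totalDegree - 1 := by
  conv_lhs => rw [p.as_sum, map_sum]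
  refine totalDegree_finsetSum_le fun s hs => ?_
  rw [pderiv_monomial]
  by_cases h : s i = 0
  · simp [h]
  · refine (totalDegree_monomial_le _ _).trans ?_
    have h1 := le_totalDegree hs
    have h2 : s = (s - Finsupp.single i 1) + Finsupp.single i 1 := by
      rw [tsub_add_cancel_of_le]
      exact Finsupp.single_le_iff.2 (Nat.one_le_iff_ne_zero.2 h)
    rw [h2, Finsupp.sum_add_index' (fun _ => rfl) (fun _ _ _ => rfl),
      Finsupp.sum_single_index rfl] at h1
    exact Nat.le_sub_one_of_lt h1

theorem dir_degL (p : MvPolynomial (Fin n) ℝ) : (dirL p).totalDegree ≤ p.totalDegree - 2 := by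
  simp only [dirL, LinearMap.sum_apply]
  refine totalDegree_finsetSum_le fun i _ => (dir_deg i _).trans ?_
  have := dir_deg i p
  change (pderiv i p).totalDegree - 1 ≤ _
  omega

theorem dir_poly (h_maxp : S_max) (hn : 0 < n) {r : ℝ} (hr : 0 < r) (p : MvPolynomial (Fin n) ℝ) :
    ∃ h : MvPolynomial (Fin n) ℝ, dirL h = 0 ∧ ∀ x ∈ sphere (0 : E n) r, dirEv h x = dirEv p x := by
  let w : MvPolynomial (Fin n) ℝ := C (r ^ 2) - ∑ i, X i ^ 2
  have hw : ∀ x ∈ sphere (0 : E n) r, dirEv w x = 0 := fun x hx => by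
    have := EuclideanSpace.real_norm_sq_eq x
    rw [mem_sphere_zero_iff_norm.1 hx] at this
    simp [dirEv, w, this]
  have hw0 : w ≠ 0 := fun h => by
    have := congrArg (eval 0) h
    simp [w, hr.ne'] at this
  have hw2 : w.totalDegree ≤ 2 := (totalDegree_sub _ _).trans (max_le (by rw [totalDegree_C]; omega)
    (totalDegree_finsetSum_le fun i _ => by simp))
  let V := restrictTotalDegree (Fin n) ℝ p.totalDegree
  let T : V →ₗ[ℝ] V := (dirL ∘ₗ LinearMap.mulLeft ℝ w).restrict fun q hq => by
    rw [mem_restrictTotalDegree] at hq ⊢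
    refine (dir_degL _).trans ?_
    have := totalDegree_mul w q
    change (w * q).totalDegree - 2 ≤ _
    omega
  have hT : Function.Injective T := by
    refine (injective_iff_map_eq_zero T).2 fun q hq => Subtype.ext ?_
    have h1 : dirL (w * q.1) = 0 := congrArg Subtype.val hq
    have h2 : ∀ f : MvPolynomial (Fin n) ℝ, dirL (w * f) = 0 →
        ∀ y ∈ closedBall (0 : E n) r, dirEv (w * f) y ≤ 0 := fun f hf =>
      h_maxp n _ 0 r 0 hn (dir_contDiff 2 _) (fun y _ => by simp [dir_lap, hf, dirEv])
        fun y hy => by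
          have := hw y hy
          simp only [dirEv, map_mul] at this ⊢
          simp [this]
    have h3 : dirEv (w * q.1) =ᶠ[𝓝 0] 0 := by
      filter_upwards [closedBall_mem_nhds (0 : E n) hr] with y hy
      have h4 := h2 (-q.1) (by rw [mul_neg, map_neg, h1, neg_zero]) y hy
      refine le_antisymm (h2 q.1 h1 y hy) ?_
      simpa [dirEv] using h4
    have h4 := ((dir_contDiff ω (w * q.1)).analyticOnNhd
      (s := univ)).eqOn_zero_of_preconnected_of_eventuallyEq_zero isPreconnected_univ
      (mem_univ 0) h3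
    have h5 : w * q.1 = 0 := MvPolynomial.funext fun x => by
      simpa [dirEv] using h4 (mem_univ (WithLp.toLp 2 x))
    exact (mul_eq_zero.1 h5).resolve_left hw0
  obtain ⟨q, hq⟩ := LinearMap.injective_iff_surjective.1 hT ⟨dirL p, by
    rw [mem_restrictTotalDegree]
    exact (dir_degL p).trans (Nat.sub_le _ _)⟩
  have h1 : dirL (w * q.1) = dirL p := congrArg Subtype.val hq
  refine ⟨p - w * q.1, by rw [map_sub, h1, sub_self], fun x hx => ?_⟩
  have := hw x hx
  simp only [dirEv, map_sub, map_mul] at this ⊢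
  simp [this]

theorem dir_approx {r γ : ℝ} (hγ : 0 < γ) {g : E n → ℝ} (hg : ContinuousOn g (sphere 0 r)) :
    ∃ p : MvPolynomial (Fin n) ℝ, ∀ x ∈ sphere (0 : E n) r, |dirEv p x - g x| ≤ γ := by
  let φ : MvPolynomial (Fin n) ℝ →ₐ[ℝ] C(sphere (0 : E n) r, ℝ) :=
    aeval fun i => ⟨fun x => x.1 i, by fun_prop⟩
  have hφ : ∀ p x, φ p x = dirEv p x.1 := fun p x => by
    induction p using MvPolynomial.induction_on with
    | C a => simp [φ, dirEv]
    | add p q hp hq => simp_all [dirEv]
    | mul_X p i hp => simp_all [dirEv, φ]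
  obtain ⟨⟨_, p, rfl⟩, hp⟩ := ContinuousMap.exists_mem_subalgebra_near_continuous_of_separatesPoints
    φ.range (fun x y hxy => by
      obtain ⟨i, hi⟩ : ∃ i, x.1 i ≠ y.1 i := by
        by_contra! h
        exact hxy (Subtype.ext (PiLp.ext h))
      exact ⟨_, ⟨φ (X i), ⟨X i, rfl⟩, rfl⟩, by simpa [hφ, dirEv] using hi⟩)
    (fun x => g x.1) (continuousOn_iff_continuous_domRestrict.1 hg) γ hγ
  exact ⟨p, fun x hx => by rw [← hφ p ⟨x, hx⟩]; exact (hp ⟨x, hx⟩).le⟩

/-- the reflection as a linear map -/
def dirR (e : E n) : E n →L[ℝ] E n :=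
  ContinuousLinearMap.id ℝ _ - (2 : ℝ) • (innerSL ℝ e).smulRight e

theorem dir_R_apply (e x : E n) : dirR e x = refl e x := by
  simp [dirR, refl, smul_smul, real_inner_comm]

theorem dir_refl_refl {e : E n} (he : ‖e‖ = 1) (x : E n) : refl e (refl e x) = x := by
  simp only [refl, inner_sub_left, inner_smul_left, real_inner_self_eq_norm_sq, he]
  simp only [conj_trivial]
  module

theorem dir_refl_norm {e : E n} (he : ‖e‖ = 1) (x : E n) : ‖refl e x‖ = ‖x‖ := by
  refine (sq_eq_sq₀ (norm_nonneg _) (norm_nonneg _)).1 ?_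
  rw [refl, norm_sub_sq_real, inner_smul_right, norm_smul, he, mul_one, Real.norm_eq_abs, sq_abs]
  ring

theorem dir_dd {f : E n → ℝ} (hf : ContDiff ℝ 2 f) (x v w : E n) :
    fderiv ℝ (fun y => fderiv ℝ f y w) x v = fderiv ℝ (fderiv ℝ f) x v w := by
  rw [fderiv_clm_apply (dir_fd hf x) (differentiableAt_const _)]
  simp

theorem dir_lap_refl {e : E n} (he : ‖e‖ = 1) {f : E n → ℝ} (hf : ContDiff ℝ 2 f) (x : E n) :
    lap (f ∘ dirR e) x = lap f (dirR e x) := by
  have hd := hf.differentiable (by norm_num)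
  have h1 : ∀ i, pd i (f ∘ dirR e) =
      (fun y => fderiv ℝ f y (dirR e (EuclideanSpace.single i 1))) ∘ dirR e := fun i => by
    ext y
    rw [pd, fderiv_comp _ (hd _) (dirR e).differentiableAt, ContinuousLinearMap.fderiv]
    rfl
  set B := fderiv ℝ (fderiv ℝ f) (dirR e x) with hB
  have h2 : ∀ i, pd i (pd i (f ∘ dirR e)) x =
      B (dirR e (EuclideanSpace.single i 1)) (dirR e (EuclideanSpace.single i 1)) := fun i => by
    rw [h1, pd, fderiv_comp _ ((dir_fd hf).clm_apply (differentiable_const _) _)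
      (dirR e).differentiableAt, ContinuousLinearMap.fderiv, ContinuousLinearMap.comp_apply,
      dir_dd hf]
  have h3 : ∀ i, pd i (pd i f) (dirR e x) =
      B (EuclideanSpace.single i 1) (EuclideanSpace.single i 1) := fun i => dir_dd hf _ _ _
  have h4 : ∑ i, e i • (EuclideanSpace.single i 1 : E n) = e := by
    ext j
    simp [Pi.single_apply]
  have h5 : ∑ i, e i * B (EuclideanSpace.single i 1) e = B e e := by
    conv_rhs => rw [← congrArg (fun v => B v e) h4]
    simp
  have h6 : ∑ i, e i * B e (EuclideanSpace.single i 1) = B e e := by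
    conv_rhs => rw [← congrArg (fun v => B e v) h4]
    simp
  have h7 : ∑ i, e i ^ 2 = 1 := by rw [← EuclideanSpace.real_norm_sq_eq, he, one_pow]
  have h8 : ∀ i, B (dirR e (EuclideanSpace.single i 1)) (dirR e (EuclideanSpace.single i 1)) =
      B (EuclideanSpace.single i 1) (EuclideanSpace.single i 1) -
        2 * (e i * B (EuclideanSpace.single i 1) e) - 2 * (e i * B e (EuclideanSpace.single i 1)) +
        4 * B e e * e i ^ 2 := fun i => by
    simp [dir_R_apply, refl, EuclideanSpace.inner_single_left]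
    ring
  simp only [lap, h2, h3, h8, Finset.sum_add_distrib, Finset.sum_sub_distrib, ← Finset.mul_sum,
    h5, h6, h7]
  ring

theorem dir (h_maxp : S_max) : S_dir := by
  intro n e g r γ he hr hγ hg hge
  have hn : 0 < n := Nat.pos_of_ne_zero fun h => by
    subst h
    simp [Subsingleton.elim e 0] at he
  obtain ⟨p, hp⟩ := dir_approx hγ hg
  obtain ⟨q, hq, hqp⟩ := dir_poly h_maxp hn hr p
  have hl : ∀ x, lap (dirEv q) x = 0 := fun x => by simp [dir_lap, hq, dirEv]
  have hc : ∀ m : WithTop ℕ∞, ContDiff ℝ m (dirEv q ∘ dirR e) := fun m =>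
    (dir_contDiff m q).comp (dirR e).contDiff
  refine ⟨fun x => (1 / 2) * (dirEv q x + (dirEv q ∘ dirR e) x),
    contDiff_const.mul ((dir_contDiff _ q).add (hc _)), fun x => ?_, fun x => ?_, fun x hx => ?_⟩
  · have h1 : ∀ (i : Fin n) (f f' : E n → ℝ), Differentiable ℝ f → Differentiable ℝ f' →
        pd i (fun x => (1 / 2) * (f x + f' x)) = fun x => (1 / 2) * (pd i f x + pd i f' x) :=
      fun i f f' hf hf' => funext fun y => by
        rw [pd, (((hf y).hasFDerivAt.fun_add (hf' y).hasFDerivAt).const_mul (1 / 2)).fderiv]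
        simp [pd, mul_add]
    have h2 := hl x
    have h3 := (dir_lap_refl he (dir_contDiff 2 q) x).trans (hl _)
    rw [lap] at h2 h3 ⊢
    rw [Finset.sum_congr rfl fun i _ => by
      rw [h1 i _ _ ((dir_contDiff 1 q).differentiable (by norm_num))
        ((hc 1).differentiable (by norm_num)), h1 i (pd i (dirEv q)) (pd i (dirEv q ∘ dirR e))
        ((dir_fd (dir_contDiff 2 q)).clm_apply (differentiable_const _))
        ((dir_fd (hc 2)).clm_apply (differentiable_const _))]]
    rw [← Finset.mul_sum, Finset.sum_add_distrib, h2, h3]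
    simp
  · simp only [Function.comp_apply, dir_R_apply, dir_refl_refl he, add_comm]
  · have hx' : refl e x ∈ sphere (0 : E n) r := by
      rw [mem_sphere_zero_iff_norm, dir_refl_norm he, ← mem_sphere_zero_iff_norm]; exact hx
    have h1 := hp x hx
    have h2 := hp _ hx'
    rw [hge, ← hqp _ hx'] at h2
    rw [← hqp _ hx] at h1
    simp only [Function.comp_apply, dir_R_apply]
    rw [abs_le] at *
    constructor <;> linarith [h1.1, h1.2, h2.1, h2.2]

end Vale.Agent.P098
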