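import Vale.Agent.P098.Iface

open MeasureTheory Set Metric Filter
open scoped ContDiff RealInnerProductSpace Topology NNReal

noncomputable section
namespace Vale.Agent.P098

variable {n : ℕ} {U : Set (E n)} {x : E n}

lemma div_sm (hU : IsOpen U) {f : E n → ℝ} (hf : ContDiffOn ℝ ∞ f U) (i : Fin n) :
    ContDiffOn ℝ ∞ (pd i f) U :=
  (hf.fderiv_of_isOpen hU (by simp)).clm_apply contDiffOn_const

lemma div_diff (hU : IsOpen U) {f : E n → ℝ} (hf : ContDiffOn ℝ ∞ f U) (hx : x ∈ U) :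
    DifferentiableAt ℝ f x :=
  (hf.contDiffAt (hU.mem_nhds hx)).differentiableAt (by simp)

lemma div_congr (hU : IsOpen U) {f g : E n → ℝ} (h : ∀ y ∈ U, f y = g y) (hx : x ∈ U)
    (i : Fin n) : pd i f x = pd i g x := by
  have h1 : f =ᶠ[𝓝 x] g := by
    filter_upwards [hU.mem_nhds hx] with y hy using h y hy
  simp only [pd, h1.fderiv_eq]

lemma div_symm (hU : IsOpen U) {f : E n → ℝ} (hf : ContDiffOn ℝ ∞ f U) (hx : x ∈ U)
    (i j : Fin n) : pd i (pd j f) x = pd j (pd i f) x := by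
  have h1 : ContDiffAt ℝ ∞ f x := hf.contDiffAt (hU.mem_nhds hx)
  have h2 : DifferentiableAt ℝ (fderiv ℝ f) x :=
    ((hf.fderiv_of_isOpen (m := ∞) hU (by simp)).contDiffAt (hU.mem_nhds hx)).differentiableAt
      (by simp)
  have h3 : ∀ i j : Fin n, pd i (pd j f) x = fderiv ℝ (fderiv ℝ f) x (EuclideanSpace.single i 1)
      (EuclideanSpace.single j 1) := by
    intro i j
    change fderiv ℝ (fun y => fderiv ℝ f y (EuclideanSpace.single j 1)) x _ = _
    rw [fderiv_clm_apply h2 (differentiableAt_const _)]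
    simp
  rw [h3, h3]
  exact h1.isSymmSndFDerivAt (by
    rw [minSmoothness_of_isRCLikeNormedField]
    exact WithTop.coe_le_coe.2 le_top) _ _

/-- `f` is differentiable at `x` with the gradient `a`. -/
def div_HD (f : E n → ℝ) (x : E n) (a : Fin n → ℝ) : Prop :=
  DifferentiableAt ℝ f x ∧ ∀ k, pd k f x = a k

lemma div_HD.mul {f g : E n → ℝ} {a b : Fin n → ℝ} (hf : div_HD f x a) (hg : div_HD g x b) :
    div_HD (fun y => f y * g y) x fun k => a k * g x + f x * b k := by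
  refine ⟨hf.1.mul hg.1, fun k => ?_⟩
  simp only [← hf.2 k, ← hg.2 k, pd]
  rw [fderiv_fun_mul hf.1 hg.1]
  simp only [add_apply, smul_apply, smul_eq_mul]
  ring

lemma div_HD.add {f g : E n → ℝ} {a b : Fin n → ℝ} (hf : div_HD f x a) (hg : div_HD g x b) :
    div_HD (fun y => f y + g y) x fun k => a k + b k := by
  refine ⟨hf.1.add hg.1, fun k => ?_⟩
  simp only [← hf.2 k, ← hg.2 k, pd]
  rw [fderiv_fun_add hf.1 hg.1]
  rfl

lemma div_HD.sum {ι : Type} [Fintype ι] {f : ι → E n → ℝ} {a : ι → Fin n → ℝ}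
    (hf : ∀ i, div_HD (f i) x (a i)) :
    div_HD (fun y => ∑ i, f i y) x fun k => ∑ i, a i k := by
  refine ⟨DifferentiableAt.fun_sum fun i _ => (hf i).1, fun k => ?_⟩
  simp only [← fun i => (hf i).2 k, pd]
  rw [fderiv_fun_sum fun i _ => (hf i).1]
  simp

lemma div_HD.sq {f : E n → ℝ} {a : Fin n → ℝ} (hf : div_HD f x a) :
    div_HD (fun y => f y ^ 2) x fun k => 2 * (f x * a k) := by
  have h := hf.mul hf
  simp only [← pow_two] at h
  refine ⟨h.1, fun k => (h.2 k).trans (by ring)⟩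

lemma div_HD.cg {f : E n → ℝ} {a b : Fin n → ℝ} (hf : div_HD f x a) (h : ∀ k, a k = b k) :
    div_HD f x b := ⟨hf.1, fun k => (hf.2 k).trans (h k)⟩

lemma div_HD_of (hU : IsOpen U) {f : E n → ℝ} (hf : ContDiffOn ℝ ∞ f U) (hx : x ∈ U) :
    div_HD f x fun k => pd k f x := ⟨div_diff hU hf hx, fun _ => rfl⟩

lemma div_HD_coord (x : E n) (i : Fin n) :
    div_HD (fun y : E n => y i) x fun k => if i = k then 1 else 0 := by
  have h : HasFDerivAt (fun y : E n => y i) (EuclideanSpace.proj i : E n →L[ℝ] ℝ) x :=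
    (EuclideanSpace.proj i : E n →L[ℝ] ℝ).hasFDerivAt
  refine ⟨h.differentiableAt, fun k => ?_⟩
  simp only [pd, h.fderiv]
  simp

section harm
variable {u : E n → ℝ}

lemma div_b1 (hU : IsOpen U) (hu : ContDiffOn ℝ ∞ u U) (hx : x ∈ U) (i j k : Fin n) :
    D3 u x i j k = D3 u x j i k := div_symm hU (div_sm hU hu k) hx i j

lemma div_b2 (hU : IsOpen U) (hu : ContDiffOn ℝ ∞ u U) (hx : x ∈ U) (i j k : Fin n) :
    D3 u x i j k = D3 u x i k j := div_congr hU (fun _ hy => div_symm hU hu hy j k) hx i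

lemma div_tr (hU : IsOpen U) (hu : Harm U u) (hx : x ∈ U) (i : Fin n) :
    ∑ k, D3 u x i k k = 0 := by
  have h1 := (div_HD.sum fun k => div_HD_of hU (div_sm hU (div_sm hU hu.1 k) k) hx).2 i
  have h2 : pd i (fun y => ∑ k, pd k (pd k u) y) x = pd i (fun _ => (0 : ℝ)) x :=
    div_congr hU hu.2 hx i
  rw [h2] at h1
  exact h1.symm.trans (by simp [pd])

lemma div_harm (hU : IsOpen U) (hu : Harm U u) (j : Fin n) : Harm U (pd j u) := by
  refine ⟨div_sm hU hu.1 j, fun y hy => ?_⟩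
  rw [← div_tr hU hu hy j]
  exact Finset.sum_congr rfl fun k _ =>
    (div_b2 hU hu.1 hy k k j).trans (div_b1 hU hu.1 hy k j k)

lemma div_tr4 (hU : IsOpen U) (hu : Harm U u) (hx : x ∈ U) (i j : Fin n) :
    ∑ k, pd k (fun y => D3 u y i j k) x = 0 := by
  rw [← div_tr hU (div_harm hU hu j) hx i]
  refine Finset.sum_congr rfl fun k _ => ?_
  rw [div_congr hU (fun y hy => div_b2 hU hu.1 hy i j k) hx k]
  exact div_b1 hU (div_sm hU hu.1 j) hx k i k

lemma div_H1 (hU : IsOpen U) (hu : ContDiffOn ℝ ∞ u U) (hx : x ∈ U) (i : Fin n) :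
    div_HD (fun y => D1 u y i) x fun k => D2 u x i k :=
  (div_HD_of hU (div_sm hU hu i) hx).cg fun k => div_symm hU hu hx k i

lemma div_H2 (hU : IsOpen U) (hu : ContDiffOn ℝ ∞ u U) (hx : x ∈ U) (i j : Fin n) :
    div_HD (fun y => D2 u y i j) x fun k => D3 u x i j k :=
  (div_HD_of hU (div_sm hU (div_sm hU hu j) i) hx).cg fun k =>
    (div_b1 hU hu hx k i j).trans (div_b2 hU hu hx i k j)

lemma div_H3 (hU : IsOpen U) (hu : ContDiffOn ℝ ∞ u U) (hx : x ∈ U) (i j l : Fin n) :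
    div_HD (fun y => D3 u y i j l) x fun k => pd k (fun y => D3 u y i j l) x :=
  div_HD_of hU (div_sm hU (div_sm hU (div_sm hU hu l) j) i) hx

lemma div_st (hU : IsOpen U) (hu : Harm U u) (hx : x ∈ U) : SymTr (D2 u x) (D3 u x) :=
  ⟨div_symm hU hu.1 hx, div_b1 hU hu.1 hx, div_b2 hU hu.1 hx, hu.2 x hx,
    fun k => (div_harm hU hu k).2 x hx⟩

end harm

section alg
variable {A : T2 n} {B : T3 n}

lemma div_alg_t (h : SymTr A B) (k : Fin n) :
    ∑ i, ∑ j, ((∑ l, (B i l k * A l j + A i l * B l j k)) * A i j + sqA A i j * B i j k)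
      = 3 * ct (sqA A) B k := by
  have h1 : ∑ i, ∑ j, (∑ l, B i l k * A l j) * A i j = ct (sqA A) B k := by
    simp only [ct, sqA, Finset.sum_mul]
    refine Finset.sum_congr rfl fun i _ => ?_
    rw [Finset.sum_comm]
    refine Finset.sum_congr rfl fun l _ => Finset.sum_congr rfl fun j _ => ?_
    rw [h.a l j]
    ring
  have h2 : ∑ i, ∑ j, (∑ l, A i l * B l j k) * A i j = ct (sqA A) B k := by
    simp only [ct, sqA, Finset.sum_mul]
    rw [Finset.sum_comm]
    conv_rhs => rw [Finset.sum_comm]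
    refine Finset.sum_congr rfl fun j _ => ?_
    rw [Finset.sum_comm]
    refine Finset.sum_congr rfl fun l _ => Finset.sum_congr rfl fun i _ => ?_
    rw [h.a l i]
    ring
  simp only [Finset.sum_add_distrib, add_mul, h1, h2]
  simp only [ct]
  ring

lemma div_alg_2 (h : SymTr A B) :
    ∑ k, ∑ i, ∑ j, (∑ l, (B i l k * A l j + A i l * B l j k)) * B i j k
      = 2 * ∑ i, ∑ j, A i j * ∑ l, ∑ k, B i l k * B j l k := by
  have h0 : ∑ i, ∑ j, A i j * ∑ l, ∑ k, B i l k * B j l k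
      = ∑ k, ∑ i, ∑ j, ∑ l, A i j * (B i l k * B j l k) := by
    simp only [Finset.mul_sum]
    symm
    rw [Finset.sum_comm]
    refine Finset.sum_congr rfl fun i _ => ?_
    rw [Finset.sum_comm]
    refine Finset.sum_congr rfl fun j _ => ?_
    rw [Finset.sum_comm]
  have h1 : ∀ k, ∑ i, ∑ j, (∑ l, B i l k * A l j) * B i j k
      = ∑ i, ∑ j, ∑ l, A i j * (B i l k * B j l k) := fun k => by
    simp only [Finset.sum_mul]
    rw [Finset.sum_comm]
    refine Finset.sum_congr rfl fun j _ => ?_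
    rw [Finset.sum_comm]
    refine Finset.sum_congr rfl fun l _ => Finset.sum_congr rfl fun i _ => ?_
    rw [h.a l j, h.b1 i l k, h.b1 i j k]
    ring
  have h2 : ∀ k, ∑ i, ∑ j, (∑ l, A i l * B l j k) * B i j k
      = ∑ i, ∑ j, ∑ l, A i j * (B i l k * B j l k) := fun k => by
    simp only [Finset.sum_mul]
    refine Finset.sum_congr rfl fun i _ => ?_
    rw [Finset.sum_comm]
    refine Finset.sum_congr rfl fun l _ => Finset.sum_congr rfl fun j _ => ?_
    ring
  rw [h0, two_mul, ← Finset.sum_add_distrib]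
  refine Finset.sum_congr rfl fun k _ => ?_
  simp only [Finset.sum_add_distrib, add_mul, h1, h2]

lemma div_alg_kk (h : SymTr A B) (j : Fin n) : ∑ k, B k j k = 0 := by
  rw [← h.tb j]
  exact Finset.sum_congr rfl fun k _ => h.b2 k j k

lemma div_alg_p1 (h : SymTr A B) (p : T1 n) :
    ∑ k, ∑ j, (B k j k * p j + A k j * A j k) = nA A := by
  simp only [Finset.sum_add_distrib]
  rw [Finset.sum_comm]
  simp only [← Finset.sum_mul, div_alg_kk h, zero_mul, Finset.sum_const_zero, zero_add, nA]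
  refine Finset.sum_congr rfl fun i _ => Finset.sum_congr rfl fun j _ => ?_
  rw [h.a j i]
  ring

lemma div_alg_p2 (h : SymTr A B) (p : T1 n) :
    ∑ k, ∑ j, ((∑ l, (B k l k * A l j + A k l * B l j k)) * p j + sqA A k j * A j k)
      = ∑ k, ct A B k * p k + tA A := by
  simp only [Finset.sum_add_distrib, add_mul]
  have h1 : ∑ k, ∑ j, (∑ l, B k l k * A l j) * p j = 0 := by
    rw [Finset.sum_comm]
    refine Finset.sum_eq_zero fun j _ => ?_
    rw [← Finset.sum_mul, Finset.sum_comm]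
    simp only [← Finset.sum_mul, div_alg_kk h, zero_mul, Finset.sum_const_zero]
  have h2 : ∑ k, ∑ j, (∑ l, A k l * B l j k) * p j = ∑ k, ct A B k * p k := by
    rw [Finset.sum_comm]
    refine Finset.sum_congr rfl fun j _ => ?_
    rw [← Finset.sum_mul, ct]
    congr 1
    refine Finset.sum_congr rfl fun k _ => Finset.sum_congr rfl fun l _ => ?_
    rw [h.b2 l j k, h.b1 l k j]
  rw [h1, h2, zero_add, tA]
  congr 1
  refine Finset.sum_congr rfl fun i _ => Finset.sum_congr rfl fun j _ => ?_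
  rw [h.a j i]

end alg

section main
variable {u : E n → ℝ}

lemma div_Hsq (hU : IsOpen U) (hu : ContDiffOn ℝ ∞ u U) (hx : x ∈ U) (i j : Fin n) :
    div_HD (fun y => sqA (D2 u y) i j) x fun k =>
      ∑ l, (D3 u x i l k * D2 u x l j + D2 u x i l * D3 u x l j k) :=
  div_HD.sum fun l => (div_H2 hU hu hx i l).mul (div_H2 hU hu hx l j)

lemma div_Hinv (hU : IsOpen U) (hu : Harm U u) (hx : x ∈ U) (a : Fin 5) :
    div_HD (fun y => invU u y a) x
      (ginv (fun i => x i) (D1 u x) (D2 u x) (D3 u x) a) := by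
  have hs := div_st hU hu hx
  fin_cases a
  · refine (div_HD.sum fun i => div_HD.sum fun j => (div_H2 hU hu.1 hx i j).sq).cg fun k => ?_
    simp [ginv, ct, Finset.mul_sum]
  · refine (div_HD.sum fun i => div_HD.sum fun j =>
      (div_Hsq hU hu.1 hx i j).mul (div_H2 hU hu.1 hx i j)).cg fun k => ?_
    exact div_alg_t hs k
  · refine (div_HD.sum fun i => (div_H1 hU hu.1 hx i).sq).cg fun k => ?_
    change _ = 2 * ap _ _ k
    rw [ap, Finset.mul_sum]
    refine Finset.sum_congr rfl fun i _ => ?_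
    rw [hs.a i k]
    ring
  · exact div_HD_of hU hu.1 hx
  · refine (div_HD.sum fun i => (div_HD_coord x i).sq).cg fun k => ?_
    simp [ginv]

lemma div_s1 (hU : IsOpen U) (hu : ContDiffOn ℝ ∞ u U) (i : Fin n) :
    ContDiffOn ℝ 1 (fun y => D1 u y i) U := (div_sm hU hu i).of_le (by simp)

lemma div_s2 (hU : IsOpen U) (hu : ContDiffOn ℝ ∞ u U) (i j : Fin n) :
    ContDiffOn ℝ 1 (fun y => D2 u y i j) U := (div_sm hU (div_sm hU hu j) i).of_le (by simp)

lemma div_s3 (hU : IsOpen U) (hu : ContDiffOn ℝ ∞ u U) (i j k : Fin n) :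
    ContDiffOn ℝ 1 (fun y => D3 u y i j k) U :=
  (div_sm hU (div_sm hU (div_sm hU hu k) j) i).of_le (by simp)

lemma div_ssq (hU : IsOpen U) (hu : ContDiffOn ℝ ∞ u U) (i j : Fin n) :
    ContDiffOn ℝ 1 (fun y => sqA (D2 u y) i j) U :=
  ContDiffOn.sum fun l _ => (div_s2 hU hu i l).mul (div_s2 hU hu l j)

lemma div_sinv (hU : IsOpen U) (hu : ContDiffOn ℝ ∞ u U) : ContDiffOn ℝ 1 (invU u) U := by
  refine contDiffOn_pi.2 fun a => ?_
  fin_cases a
  · exact ContDiffOn.sum (s := Finset.univ) fun i _ => ContDiffOn.sum (s := Finset.univ)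
      fun j _ => (div_s2 hU hu i j).pow 2
  · exact ContDiffOn.sum (s := Finset.univ) fun i _ => ContDiffOn.sum (s := Finset.univ)
      fun j _ => (div_ssq hU hu i j).mul (div_s2 hU hu i j)
  · exact ContDiffOn.sum (s := Finset.univ) fun i _ => (div_s1 hU hu i).pow 2
  · exact hu.of_le (by simp)
  · exact ContDiffOn.sum (s := Finset.univ) fun i _ =>
      ((EuclideanSpace.proj i : E n →L[ℝ] ℝ).contDiff.contDiffOn).pow 2

lemma div_open : IsOpen Dom := by
  have h : IsOpen {z : Fin 5 → ℝ | -(1 / 2) < z 3 * √(z 0)} :=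
    isOpen_lt continuous_const (by fun_prop)
  exact (isOpen_lt continuous_const (continuous_apply 0)).inter
    ((isOpen_lt continuous_const (continuous_apply 4)).inter h)

lemma div_fin (F1 F2 G0 G1 G2 : ℝ) (a1 a2 a3 a4 a5 b1 b2 b3 b4 b5 : Fin n → ℝ)
    (h : ∑ k, b3 k = 0) :
    ∑ k, (a1 k + F1 * b1 k + (a2 k + F2 * b2 k) + (a3 k + G0 * b3 k) + (a4 k + G1 * b4 k)
      + (a5 k + G2 * b5 k)) = F1 * ∑ k, b1 k + F2 * ∑ k, b2 k + G1 * ∑ k, b4 k + G2 * ∑ k, b5 k
      + ∑ k, (a1 k + a2 k + a3 k + a4 k + a5 k) := by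
  simp only [Finset.sum_add_distrib, ← Finset.mul_sum, h]
  ring

lemma div_chain (hU : IsOpen U) (hu : Harm U u) (hD : ∀ x ∈ U, invU u x ∈ Dom)
    {f : (Fin 5 → ℝ) → ℝ} (hf : ContDiffOn ℝ 1 f Dom) (hx : x ∈ U) :
    div_HD (fun x => f (invU u x)) x
      (gr f (fun i => x i) (D1 u x) (D2 u x) (D3 u x) (u x)) := by
  have h1 : DifferentiableAt ℝ f (invU u x) :=
    (hf.contDiffAt (div_open.mem_nhds (hD x hx))).differentiableAt (by simp)
  have h2 : DifferentiableAt ℝ (invU u) x :=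
    differentiableAt_pi.2 fun a => (div_Hinv hU hu hx a).1
  refine ⟨h1.comp x h2, fun k => ?_⟩
  change fderiv ℝ (f ∘ invU u) x _ = _
  rw [fderiv_comp x h1 h2, ContinuousLinearMap.comp_apply]
  have h3 : fderiv ℝ (invU u) x (EuclideanSpace.single k 1)
      = ∑ a, ginv (fun i => x i) (D1 u x) (D2 u x) (D3 u x) a k • Pi.single a (1 : ℝ) := by
    funext a
    have h4 := (div_Hinv hU hu hx a).2 k
    have h5 : fderiv ℝ (invU u) x
        = ContinuousLinearMap.pi fun a => fderiv ℝ (fun y => invU u y a) x :=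
      fderiv_pi fun a => (div_Hinv hU hu hx a).1
    rw [h5, ContinuousLinearMap.pi_apply]
    refine h4.trans ?_
    simp [Finset.sum_apply, Pi.single_apply]
  rw [h3, map_sum]
  refine Finset.sum_congr rfl fun a _ => ?_
  rw [map_smul, smul_eq_mul, mul_comm]
  rfl

end main

theorem div_formula : S_div := by
  intro n u U hU hu hD
  have hc : ∀ f : (Fin 5 → ℝ) → ℝ, ContDiffOn ℝ 1 f Dom →
      ContDiffOn ℝ 1 (fun x => f (invU u x)) U := fun f hf => hf.comp (div_sinv hU hu.1) hD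
  refine ⟨fun f hf => ⟨hc f hf, fun x hx => (div_chain hU hu hD hf hx).2⟩,
    fun c h1 h2 h3 h4 h5 => ⟨fun k => ?_, fun x hx => ?_⟩⟩
  · exact (((((hc _ h1).mul (ContDiffOn.sum fun i _ => ContDiffOn.sum fun j _ =>
      (div_s2 hU hu.1 i j).mul (div_s3 hU hu.1 i j k))).add
      ((hc _ h2).mul (ContDiffOn.sum fun i _ => ContDiffOn.sum fun j _ =>
        (div_ssq hU hu.1 i j).mul (div_s3 hU hu.1 i j k)))).add
      ((hc _ h3).mul (div_s1 hU hu.1 k))).add
      ((hc _ h4).mul (ContDiffOn.sum fun j _ => (div_s2 hU hu.1 k j).mul (div_s1 hU hu.1 j)))).add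
      ((hc _ h5).mul (ContDiffOn.sum fun j _ => (div_ssq hU hu.1 k j).mul (div_s1 hU hu.1 j)))
  · have hs := div_st hU hu hx
    have hv := fun k => ((((((div_chain hU hu hD h1 hx).mul (div_HD.sum fun i => div_HD.sum fun j =>
      (div_H2 hU hu.1 hx i j).mul (div_H3 hU hu.1 hx i j k))).add
      ((div_chain hU hu hD h2 hx).mul (div_HD.sum fun i => div_HD.sum fun j =>
        (div_Hsq hU hu.1 hx i j).mul (div_H3 hU hu.1 hx i j k)))).add
      ((div_chain hU hu hD h3 hx).mul (div_H1 hU hu.1 hx k))).add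
      ((div_chain hU hu hD h4 hx).mul (div_HD.sum fun j =>
        (div_H2 hU hu.1 hx k j).mul (div_H1 hU hu.1 hx j)))).add
      ((div_chain hU hu hD h5 hx).mul (div_HD.sum fun j =>
        (div_Hsq hU hu.1 hx k j).mul (div_H1 hU hu.1 hx j)))).2 k
    have h4' : ∀ M : T2 n, ∑ k, ∑ i, ∑ j, M i j * pd k (fun y => D3 u y i j k) x = 0 := by
      intro M
      rw [Finset.sum_comm]
      refine Finset.sum_eq_zero fun i _ => ?_
      rw [Finset.sum_comm]
      refine Finset.sum_eq_zero fun j _ => ?_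
      rw [← Finset.mul_sum, div_tr4 hU hu hx, mul_zero]
    have e1 : ∑ k, ∑ i, ∑ j, (D3 u x i j k * D3 u x i j k
        + D2 u x i j * pd k (fun y => D3 u y i j k) x) = nB (D3 u x) := by
      simp only [Finset.sum_add_distrib, h4', add_zero, nB, pow_two]
      rw [Finset.sum_comm]
      refine Finset.sum_congr rfl fun i _ => ?_
      rw [Finset.sum_comm]
    have e2 : ∑ k, ∑ i, ∑ j, ((∑ l, (D3 u x i l k * D2 u x l j + D2 u x i l * D3 u x l j k))
        * D3 u x i j k + sqA (D2 u x) i j * pd k (fun y => D3 u y i j k) x)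
        = 2 * ∑ i, ∑ j, D2 u x i j * ∑ l, ∑ k, D3 u x i l k * D3 u x j l k := by
      rw [← div_alg_2 hs, ← add_zero (∑ k, ∑ i, ∑ j, _ * D3 u x i j k), ← h4' (sqA (D2 u x)),
        ← Finset.sum_add_distrib]
      refine Finset.sum_congr rfl fun k _ => ?_
      rw [← Finset.sum_add_distrib]
      refine Finset.sum_congr rfl fun i _ => ?_
      rw [← Finset.sum_add_distrib]
    refine (Finset.sum_congr rfl fun k _ => hv k).trans ?_
    rw [dv, ← e1, ← e2, ← div_alg_p1 hs (D1 u x), ← div_alg_p2 hs (D1 u x)]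
    exact div_fin _ _ _ _ _ _ _ _ _ _ _ _ _ _ _ hs.ta

end Vale.Agent.P098
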