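import Vale.Agent.P098.Iface

open MeasureTheory Set Metric Filter
open scoped ContDiff RealInnerProductSpace Topology NNReal

noncomputable section
namespace Vale.Agent.P098

variable {n : ℕ}

/-- The rescaled kernel. -/
def est_K (κ : E n → ℝ) (s : ℝ) (y z : E n) : ℝ := (s ^ n)⁻¹ * κ (s⁻¹ • (z - y))

theorem est_supp {κ φ : E n → ℝ} {c : ℝ} (hk : Ker κ φ c) {s : ℝ} (hs : 0 < s) {y z : E n}
    (hz : z ∉ ball y s) : est_K κ s y z = 0 := by
  have : κ (s⁻¹ • (z - y)) = 0 := by
    by_contra h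
    have h1 := hk.tk.2.2 (subset_tsupport _ (Function.mem_support.2 h))
    rw [mem_ball_zero_iff, norm_smul, norm_inv, Real.norm_of_nonneg hs.le,
      inv_mul_lt_iff₀ hs, mul_one] at h1
    exact hz (mem_ball_iff_norm.2 h1)
  rw [est_K, this, mul_zero]

theorem est_int {U : Set (E n)} {h : E n → ℝ} (hh : Harm U h) {x : E n} {r : ℝ}
    (hB : closedBall x r ⊆ U) : Integrable ((ball x r).indicator h) := by
  rw [integrable_indicator_iff measurableSet_ball]
  exact ((hh.1.continuousOn.mono hB).integrableOn_compact (isCompact_closedBall x r)).mono_set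
    ball_subset_closedBall

theorem est_rep (h_weak : S_weak) (h_mean : S_mean) {κ φ : E n → ℝ} {c : ℝ} (hk : Ker κ φ c)
    {U : Set (E n)} {h : E n → ℝ} (hU : IsOpen U) (hh : Harm U h) {x y : E n} {r s : ℝ}
    (hs : 0 < s) (hB : closedBall x r ⊆ U) (hy : dist y x + s ≤ r) :
    h y = ∫ z, est_K κ s y z * (ball x r).indicator h z := by
  have h1 : closedBall y s ⊆ closedBall x r := closedBall_subset_closedBall' (by linarith)
  have h2 : ball y s ⊆ ball x r := ball_subset_ball' (by linarith)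
  rw [h_mean n κ φ c U h y s hk hU hh.1.continuousOn (h_weak n U h hU hh) hs (h1.trans hB)]
  have h3 := Measure.integral_comp_smul (volume : Measure (E n))
    (fun z => κ (s⁻¹ • z) * h (y + z)) s
  simp only [smul_smul, inv_mul_cancel₀ hs.ne', one_smul, finrank_euclideanSpace_fin] at h3
  rw [h3, abs_of_pos (by positivity), smul_eq_mul, ← integral_const_mul,
    ← integral_sub_right_eq_self _ y]
  refine integral_congr_ae (Eventually.of_forall fun z => ?_)
  dsimp only
  by_cases hz : z ∈ ball y s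
  · rw [indicator_of_mem (h2 hz), est_K, add_sub_cancel, mul_assoc]
  · have := est_supp hk hs hz
    rw [this, zero_mul, ← mul_assoc]
    unfold est_K at this
    rw [this, zero_mul]

theorem est_bdd {κ φ : E n → ℝ} {c : ℝ} (hk : Ker κ φ c) : ∃ S : ℝ, 0 < S ∧ ∀ y, κ y ≤ S := by
  obtain ⟨S, hS⟩ := hk.tk.2.1.exists_bound_of_continuous hk.tk.1.continuous
  exact ⟨max S 1, by positivity, fun y => ((le_abs_self _).trans (hS y)).trans (le_max_left _ _)⟩

theorem est_Kint {κ φ : E n → ℝ} {c : ℝ} (hk : Ker κ φ c) {s : ℝ} (hs : 0 < s) (y : E n)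
    {g : E n → ℝ} (hg : Integrable g) : Integrable fun z => est_K κ s y z * g z := by
  obtain ⟨S, -, hS⟩ := est_bdd hk
  have hc : Continuous fun z => est_K κ s y z := by
    have := hk.tk.1.continuous
    unfold est_K
    fun_prop
  refine hg.bdd_mul (c := (s ^ n)⁻¹ * S) hc.aestronglyMeasurable
    (Eventually.of_forall fun z => ?_)
  rw [est_K, Real.norm_of_nonneg (mul_nonneg (by positivity) (hk.nonneg _))]
  exact mul_le_mul_of_nonneg_left (hS _) (by positivity)

theorem est_one (h_ker : S_ker) (h_weak : S_weak) (h_mean : S_mean) (n : ℕ) :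
    ∃ C : ℝ, 0 < C ∧ ∀ (U : Set (E n)) (h : E n → ℝ) (x : E n) (r : ℝ),
      IsOpen U → Harm U h → 0 < r → closedBall x r ⊆ U →
      ‖fderiv ℝ h x‖ ≤ C / r ^ (n + 1) * ∫ y in ball x r, |h y| := by
  obtain ⟨κ, φ, c, hk⟩ := h_ker n
  obtain ⟨L, hL⟩ := ContDiff.lipschitzWith_of_hasCompactSupport hk.tk.2.1 hk.tk.1 (by simp)
  refine ⟨2 ^ (n + 1) * (L + 1), by positivity, fun U h x r hU hh hr hB => ?_⟩
  have hs : 0 < r / 2 := by positivity
  have hI : 0 ≤ ∫ y in ball x r, |h y| := integral_nonneg fun _ => abs_nonneg _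
  have hg := est_int hh hB
  refine norm_fderiv_le_of_lip' ℝ (by positivity) ?_
  filter_upwards [closedBall_mem_nhds x hs] with y hy
  rw [est_rep h_weak h_mean hk hU hh hs hB (y := y) (by linarith [mem_closedBall.1 hy]),
    est_rep h_weak h_mean hk hU hh hs hB (y := x) (by rw [dist_self]; linarith),
    ← integral_sub (est_Kint hk hs y hg) (est_Kint hk hs x hg)]
  have e1 : ∫ y in ball x r, |h y| = ∫ z, ‖(ball x r).indicator h z‖ := by
    rw [← integral_indicator measurableSet_ball]
    refine integral_congr_ae (Eventually.of_forall fun z => ?_)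
    dsimp only
    rw [norm_indicator_eq_indicator_norm]
    rfl
  rw [e1, mul_right_comm, ← integral_const_mul]
  refine norm_integral_le_of_norm_le (hg.norm.const_mul _) (Eventually.of_forall fun z => ?_)
  rw [← sub_mul, norm_mul]
  refine mul_le_mul_of_nonneg_right ?_ (norm_nonneg _)
  rw [est_K, est_K, ← mul_sub, norm_mul, Real.norm_of_nonneg (by positivity)]
  have h1 := hL.norm_sub_le ((r / 2)⁻¹ • (z - y)) ((r / 2)⁻¹ • (z - x))
  rw [← smul_sub, norm_smul, Real.norm_of_nonneg (inv_pos.2 hs).le, sub_sub_sub_cancel_left,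
    norm_sub_rev x] at h1
  refine (mul_le_mul_of_nonneg_left h1 (inv_pos.2 (pow_pos hs n)).le).trans ?_
  have e2 : ((r / 2) ^ n)⁻¹ * (L * ((r / 2)⁻¹ * ‖y - x‖)) = 2 ^ (n + 1) * L / r ^ (n + 1) * ‖y - x‖ := by
    rw [div_pow]
    field_simp
    ring
  rw [e2]
  gcongr
  linarith

theorem est_sup (h_ker : S_ker) (h_weak : S_weak) (h_mean : S_mean) (n : ℕ) :
    ∃ C : ℝ, 0 < C ∧ ∀ (U : Set (E n)) (h : E n → ℝ) (x : E n) (r M : ℝ),
      IsOpen U → Harm U h → 0 < r → closedBall x r ⊆ U → (∀ y ∈ closedBall x r, |h y| ≤ M) →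
      ‖fderiv ℝ h x‖ ≤ C * M / r := by
  obtain ⟨C, hC, H⟩ := est_one h_ker h_weak h_mean n
  refine ⟨C * ((volume : Measure (E n)).real (ball 0 1) + 1), by positivity,
    fun U h x r M hU hh hr hB hM => (H U h x r hU hh hr hB).trans ?_⟩
  have hM0 : 0 ≤ M := (abs_nonneg _).trans (hM x (mem_closedBall_self hr.le))
  have h1 : ‖∫ y in ball x r, |h y|‖ ≤ M * (volume : Measure (E n)).real (ball x r) :=
    norm_setIntegral_le_of_norm_le_const measure_ball_lt_top fun y hy => by
      rw [Real.norm_eq_abs, abs_abs]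
      exact hM y (ball_subset_closedBall hy)
  have h2 : (volume : Measure (E n)).real (ball x r) =
      r ^ n * (volume : Measure (E n)).real (ball 0 1) := by
    rw [measureReal_def, Measure.addHaar_ball_of_pos _ _ hr, ENNReal.toReal_mul,
      ENNReal.toReal_ofReal (by positivity), finrank_euclideanSpace_fin, measureReal_def]
  rw [h2] at h1
  refine (mul_le_mul_of_nonneg_left ((le_abs_self _).trans h1) (by positivity)).trans ?_
  have e : C / r ^ (n + 1) * (M * (r ^ n * (volume : Measure (E n)).real (ball 0 1))) =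
      C * (volume : Measure (E n)).real (ball 0 1) * M / r := by
    field_simp
    ring
  rw [e]
  gcongr
  linarith

theorem est_smooth {U : Set (E n)} {f : E n → ℝ} (hU : IsOpen U) (hf : ContDiffOn ℝ ∞ f U)
    (v : E n) : ContDiffOn ℝ ∞ (fun y => fderiv ℝ f y v) U :=
  (hf.fderiv_of_isOpen hU (by simp)).clm_apply contDiffOn_const

theorem est_comm {U : Set (E n)} {f : E n → ℝ} (hU : IsOpen U) (hf : ContDiffOn ℝ ∞ f U)
    (v w : E n) {x : E n} (hx : x ∈ U) :
    fderiv ℝ (fun y => fderiv ℝ f y w) x v = fderiv ℝ (fun y => fderiv ℝ f y v) x w := by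
  have h1 : DifferentiableAt ℝ (fderiv ℝ f) x :=
    ((hf.fderiv_of_isOpen (m := ∞) hU (by simp)).contDiffAt (hU.mem_nhds hx)).differentiableAt
      (by simp)
  have h2 : IsSymmSndFDerivAt ℝ f x :=
    (hf.contDiffAt (hU.mem_nhds hx)).isSymmSndFDerivAt (by
      rw [minSmoothness_of_isRCLikeNormedField]
      exact WithTop.coe_le_coe.2 le_top)
  rw [fderiv_clm_apply h1 (differentiableAt_const _),
    fderiv_clm_apply h1 (differentiableAt_const _)]
  simpa using h2 v w

theorem est_harm {U : Set (E n)} {h : E n → ℝ} (hU : IsOpen U) (hh : Harm U h) (v : E n) :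
    Harm U fun y => fderiv ℝ h y v := by
  refine ⟨est_smooth hU hh.1 v, fun x hx => ?_⟩
  have h1 : ∀ i, pd i (pd i fun y => fderiv ℝ h y v) x = fderiv ℝ (pd i (pd i h)) x v := by
    intro i
    have e : pd i (fun y => fderiv ℝ h y v) =ᶠ[𝓝 x] fun y => fderiv ℝ (pd i h) y v := by
      filter_upwards [hU.mem_nhds hx] with y hy
      exact est_comm hU hh.1 _ v hy
    have e2 : pd i (pd i fun y => fderiv ℝ h y v) x =
        fderiv ℝ (fun y => fderiv ℝ (pd i h) y v) x (EuclideanSpace.single i 1) := by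
      rw [← e.fderiv_eq]
      rfl
    rw [e2]
    exact est_comm hU (est_smooth hU hh.1 _) _ v hx
  have h2 : ∀ i, DifferentiableAt ℝ (pd i (pd i h)) x := fun i =>
    ((est_smooth hU (est_smooth hU hh.1 _) _).contDiffAt (hU.mem_nhds hx)).differentiableAt
      (by simp)
  have h3 : (fun y => ∑ i, pd i (pd i h) y) =ᶠ[𝓝 x] fun _ => 0 := by
    filter_upwards [hU.mem_nhds hx] with y hy
    exact hh.2 y hy
  have h4 := h3.fderiv_eq (𝕜 := ℝ)
  rw [fderiv_fun_sum fun i _ => h2 i] at h4
  unfold lap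
  simp only [h1]
  rw [← ContinuousLinearMap.sum_apply, h4]
  simp

theorem est_iter (h_ker : S_ker) (h_weak : S_weak) (h_mean : S_mean) (n k : ℕ) :
    ∃ C : ℝ, 0 < C ∧ ∀ (U : Set (E n)) (h : E n → ℝ) (x : E n) (r M : ℝ),
      IsOpen U → Harm U h → 0 < r → closedBall x r ⊆ U → (∀ y ∈ closedBall x r, |h y| ≤ M) →
      ‖iteratedFDeriv ℝ k h x‖ ≤ C * M / r ^ k := by
  induction k with
  | zero =>
    refine ⟨1, one_pos, fun U h x r M _ _ hr _ hM => ?_⟩
    rw [norm_iteratedFDeriv_zero, pow_zero, one_mul, div_one]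
    exact hM x (mem_closedBall_self hr.le)
  | succ k ih =>
    obtain ⟨C, hC, H⟩ := ih
    obtain ⟨C1, hC1, H1⟩ := est_sup h_ker h_weak h_mean n
    refine ⟨C * C1 * 2 ^ (k + 1), by positivity, fun U h x r M hU hh hr hB hM => ?_⟩
    have hM0 : 0 ≤ M := (abs_nonneg _).trans (hM x (mem_closedBall_self hr.le))
    have hx : x ∈ U := hB (mem_closedBall_self hr.le)
    have hs : 0 < r / 2 := by positivity
    refine ContinuousMultilinearMap.opNorm_le_bound (by positivity) fun m => ?_
    have hd : ContDiffAt ℝ ∞ (fun y => fderiv ℝ h y) x :=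
      (hh.1.fderiv_of_isOpen (m := ∞) hU (by simp)).contDiffAt (hU.mem_nhds hx)
    have e := (ContinuousLinearMap.apply ℝ ℝ (m (Fin.last k))).iteratedFDeriv_comp_left hd
      (i := k) (by exact_mod_cast le_top)
    have e2 : iteratedFDeriv ℝ (k + 1) h x m =
        iteratedFDeriv ℝ k (fun y => fderiv ℝ h y (m (Fin.last k))) x (Fin.init m) := by
      rw [iteratedFDeriv_succ_apply_right]
      exact (congrArg (fun T => T (Fin.init m)) e).symm
    have h1 := H U (fun y => fderiv ℝ h y (m (Fin.last k))) x (r / 2)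
      (C1 * M / (r / 2) * ‖m (Fin.last k)‖) hU (est_harm hU hh _) hs
      ((closedBall_subset_closedBall (by linarith)).trans hB) fun y hy => by
        have h2 : closedBall y (r / 2) ⊆ closedBall x r :=
          closedBall_subset_closedBall' (by linarith [mem_closedBall.1 hy])
        exact (fderiv ℝ h y).le_of_opNorm_le
          (H1 U h y (r / 2) M hU hh hs (h2.trans hB) fun z hz => hM z (h2 hz)) _
    rw [e2, Fin.prod_univ_castSucc]
    refine (ContinuousMultilinearMap.le_of_opNorm_le h1 (Fin.init m)).trans (le_of_eq ?_)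
    have e3 : ∏ i, ‖Fin.init m i‖ = ∏ i : Fin k, ‖m i.castSucc‖ := rfl
    rw [e3, div_pow]
    field_simp
    ring

theorem est (h_ker : S_ker) (h_weak : S_weak) (h_mean : S_mean) : S_est := by
  intro n
  choose C hC H using est_iter h_ker h_weak h_mean n
  obtain ⟨C1, hC1, H1⟩ := est_one h_ker h_weak h_mean n
  have hS : ∀ k, k ≤ 4 → C k ≤ ∑ j ∈ Finset.range 5, C j := fun k hk =>
    Finset.single_le_sum (fun j _ => (hC j).le) (Finset.mem_range.2 (by omega))
  have h0 : 0 < ∑ j ∈ Finset.range 5, C j := (hC 0).trans_le (hS 0 (by omega))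
  refine ⟨∑ j ∈ Finset.range 5, C j + C1, by positivity, fun U h x r hU hh hr hB =>
    ⟨fun M hM k hk => (H k U h x r M hU hh hr hB hM).trans ?_, (H1 U h x r hU hh hr hB).trans ?_⟩⟩
  · have hM0 : 0 ≤ M := (abs_nonneg _).trans (hM x (mem_closedBall_self hr.le))
    have := hS k hk
    gcongr
    linarith
  · have hI : 0 ≤ ∫ y in ball x r, |h y| := integral_nonneg fun _ => abs_nonneg _
    gcongr
    linarith

theorem harnack (h_ker : S_ker) (h_weak : S_weak) (h_mean : S_mean) : S_harnack := by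
  intro n
  obtain ⟨κ, φ, c, hk⟩ := h_ker n
  obtain ⟨S, hS0, hS⟩ := est_bdd hk
  have hc := hk.pos
  refine ⟨c / S * (3 / 8) ^ n, by positivity, fun U h x r hU hh hr hB h0 y hy => ?_⟩
  have hg := est_int hh hB
  have key : ∀ p q : E n, dist p x ≤ r / 10 → dist q x ≤ r / 10 → dist p q ≤ r / 10 →
      c / S * (3 / 8) ^ n * h p ≤ h q := by
    intro p q hp hq hpq
    have hs : 0 < 4 * r / 5 := by positivity
    have hs' : 0 < 3 * r / 10 := by positivity
    rw [est_rep h_weak h_mean hk hU hh hs' hB (y := p) (by linarith),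
      est_rep h_weak h_mean hk hU hh hs hB (y := q) (by linarith), ← integral_const_mul]
    refine integral_mono ((est_Kint hk hs' p hg).const_mul _) (est_Kint hk hs q hg) fun z => ?_
    dsimp only
    rw [← mul_assoc]
    refine mul_le_mul_of_nonneg_right ?_
      (indicator_nonneg (fun w hw => h0 w (ball_subset_closedBall hw)) z)
    by_cases hz : z ∈ ball p (3 * r / 10)
    · have h1 : c ≤ κ ((4 * r / 5)⁻¹ • (z - q)) := by
        refine hk.low _ ?_
        rw [mem_ball_zero_iff, norm_smul, norm_inv, Real.norm_of_nonneg hs.le,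
          inv_mul_lt_iff₀ hs, ← dist_eq_norm]
        linarith [dist_triangle z p q, mem_ball.1 hz]
      unfold est_K
      calc c / S * (3 / 8) ^ n * (((3 * r / 10) ^ n)⁻¹ * κ ((3 * r / 10)⁻¹ • (z - p)))
          ≤ c / S * (3 / 8) ^ n * (((3 * r / 10) ^ n)⁻¹ * S) := by
            gcongr
            exact hS _
        _ = ((4 * r / 5) ^ n)⁻¹ * c := by
            rw [show 3 * r / 10 = 3 / 8 * (4 * r / 5) by ring, mul_pow]
            field_simp
        _ ≤ _ := mul_le_mul_of_nonneg_left h1 (by positivity)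
    · rw [est_supp hk hs' hz, mul_zero]
      exact mul_nonneg (by positivity) (hk.nonneg _)
  have hy' := mem_closedBall.1 hy
  have hx' : dist x x ≤ r / 10 := by rw [dist_self]; positivity
  exact ⟨key x y hx' hy' (by rwa [dist_comm]), key y x hy' hx' hy'⟩

end Vale.Agent.P098
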