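import Vale.Agent.P098.Iface

open MeasureTheory Set Metric Filter
open scoped ContDiff RealInnerProductSpace Topology NNReal

noncomputable section
namespace Vale.Agent.P098

theorem flatj_resc {n : ℕ} (u : E n → ℝ) (x₀ y x : E n) (r : ℝ) (hr : 0 < r) :
    resc u y (r / 2) x = 2 * resc u x₀ r (r⁻¹ • (y - x₀) + (1 / 2 : ℝ) • x) := by
  unfold resc
  have h : x₀ + r • (r⁻¹ • (y - x₀) + (1 / 2 : ℝ) • x) = y + (r / 2) • x := by
    rw [smul_add, smul_smul, smul_smul, mul_inv_cancel₀ hr.ne', one_smul, mul_one_div]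
    abel
  rw [h]
  field_simp

theorem flatj_inner {n : ℕ} (e d : E n) (he : ‖e‖ = 1) : |⟪d, e⟫| ≤ ‖d‖ := by
  simpa [he] using abs_real_inner_le_norm d e

theorem flat (h_nondeg : S_nondeg) (h_inv_min : S_inv) (h_blow : S_blow) (h_red : S_red) : S_flat := by
  intro n u x₀ hcf hu hhom hfb hx0
  obtain ⟨v, hv, hvh, hvt, ⟨x1, hx1⟩, happ⟩ := h_blow (n + 1) u x₀ hu hhom hfb
  rcases h_red n v x₀ hcf hx0 hv hvh hvt with h0 | ⟨e, he, hve⟩
  · exact absurd (h0 x1) hx1
  obtain ⟨c, hc, hnd⟩ := h_nondeg (n + 1)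
  refine ⟨e, he, fun ε hε => ?_⟩
  set ε1 := min ε 1 with hε1
  have h1 : 0 < ε1 := lt_min hε one_pos
  have h2 : ε1 ≤ ε := min_le_left _ _
  have h3 : ε1 ≤ 1 := min_le_right _ _
  have hm : 0 < min c 1 := lt_min hc one_pos
  have h4 : min c 1 * ε1 ≤ c * ε1 := mul_le_mul_of_nonneg_right (min_le_left _ _) h1.le
  have h5 : min c 1 * ε1 ≤ ε1 := by
    simpa using mul_le_mul_of_nonneg_right (min_le_right c 1) h1.le
  obtain ⟨r, hr, hw⟩ := happ (min c 1 * ε1 / 8) (by positivity)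
  refine ⟨r / 2, by positivity, fun x hx => ?_⟩
  have hres := flatj_resc u x₀ x₀ x r hr
  rw [sub_self, smul_zero, zero_add] at hres
  rw [hres]
  have hxn : ‖x‖ < 1 := by simpa using hx
  have hyn : ‖(1 / 2 : ℝ) • x‖ < 1 / 2 := by
    rw [norm_smul, Real.norm_eq_abs, abs_of_pos (by norm_num : (0 : ℝ) < 1 / 2)]
    linarith
  have hy : (1 / 2 : ℝ) • x ∈ ball (0 : E (n + 1)) 1 := by
    rw [mem_ball_zero_iff]
    linarith
  have hi : ⟪(1 / 2 : ℝ) • x, e⟫ = ⟪x, e⟫ / 2 := by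
    rw [real_inner_smul_left]
    ring
  have hb := abs_le.1 (hw _ hy)
  rw [hve, hi] at hb
  constructor
  · have := le_max_left (⟪x, e⟫ / 2) 0
    show ⟪x, e⟫ + -ε ≤ _
    linarith [hb.1]
  · show _ ≤ max (⟪x, e⟫ + ε) 0
    by_cases hc2 : -(ε1 / 2) ≤ ⟪x, e⟫
    · refine le_trans ?_ (le_max_left _ _)
      have : max (⟪x, e⟫ / 2) 0 ≤ ⟪x, e⟫ / 2 + ε1 / 4 := max_le (by linarith) (by linarith)
      linarith [hb.2]
    · have hz := hnd (resc u x₀ r) ((1 / 2 : ℝ) • x) (ε1 / 4) ((h_inv_min _ u hu).1 x₀ r hr)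
        (by positivity) (fun z hz => ?_) ((1 / 2 : ℝ) • x) (mem_ball_self (by positivity))
      · rw [hz, mul_zero]
        exact le_max_right _ _
      · have hd : ‖z - (1 / 2 : ℝ) • x‖ ≤ ε1 / 4 := by simpa [dist_eq_norm] using hz
        have hz1 : z ∈ ball (0 : E (n + 1)) 1 := by
          rw [mem_ball_zero_iff]
          have := norm_add_le (z - (1 / 2 : ℝ) • x) ((1 / 2 : ℝ) • x)
          rw [sub_add_cancel] at this
          linarith
        have hzi : ⟪z, e⟫ ≤ 0 := by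
          have h6 := (abs_le.1 (flatj_inner e (z - (1 / 2 : ℝ) • x) he)).2
          rw [inner_sub_left, hi] at h6
          push Not at hc2
          linarith
        have h7 := (abs_le.1 (hw z hz1)).2
        rw [hve, max_eq_right hzi] at h7
        have : 0 < c * ε1 := by positivity
        linarith

/-- The expansion at all free boundary points of a set. -/
def flatj_P {n : ℕ} (u : E n → ℝ) (C r₀ : ℝ) (x₀ : E n) : Prop :=
  ∃ (b : T1 n) (A : T2 n) (B : T3 n), Adm b A B ∧ ‖A‖ ≤ C ∧ ‖B‖ ≤ C ∧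
    ∀ r : ℝ, 0 < r → r ≤ r₀ → Trap u (fun x => cub b A B (x - x₀)) (-(C * r ^ 3 * √r))
      (C * r ^ 3 * √r) (ball x₀ r)

theorem flatj_trap_mono {n : ℕ} {u P : E n → ℝ} {a a' : ℝ} {S : Set (E n)}
    (h : Trap u P (-a) a S) (ha : a ≤ a') : Trap u P (-a') a' S := by
  intro x hx
  obtain ⟨h1, h2⟩ := h x hx
  exact ⟨by linarith, h2.trans (max_le_max (by linarith) le_rfl)⟩

theorem flatj_P_mono {n : ℕ} {u : E n → ℝ} {C r₀ C' r₀' : ℝ} {x₀ : E n} (h : flatj_P u C r₀ x₀)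
    (hC : C ≤ C') (hr : r₀' ≤ r₀) : flatj_P u C' r₀' x₀ := by
  obtain ⟨b, A, B, had, hA, hB, ht⟩ := h
  refine ⟨b, A, B, had, hA.trans hC, hB.trans hC, fun r h0 h1 => ?_⟩
  refine flatj_trap_mono (ht r h0 (h1.trans hr)) ?_
  have : 0 ≤ r ^ 3 * √r := by positivity
  nlinarith

theorem flatj_hh {n : ℕ} (b : T1 n) (A : T2 n) (t : ℝ) : hh b (t • A) = t * hh b A := by
  simp only [hh, Pi.smul_apply, smul_eq_mul, mul_neg, Finset.mul_sum, mul_assoc]

theorem flatj_adm {n : ℕ} {b : T1 n} {A : T2 n} {B : T3 n} (h : Adm b A B) (t : ℝ) :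
    Adm b (t • A) (t ^ 2 • B) := by
  refine ⟨⟨?_, ?_, ?_, ?_, ?_⟩, h.unit, ?_, ?_⟩
  · intro i j
    simp only [Pi.smul_apply, smul_eq_mul, h.st.a i j]
  · intro i j k
    simp only [Pi.smul_apply, smul_eq_mul, h.st.b1 i j k]
  · intro i j k
    simp only [Pi.smul_apply, smul_eq_mul, h.st.b2 i j k]
  · simp only [Pi.smul_apply, smul_eq_mul]
    rw [← Finset.mul_sum, h.st.ta, mul_zero]
  · intro k
    simp only [Pi.smul_apply, smul_eq_mul]
    rw [← Finset.mul_sum, h.st.tb, mul_zero]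
  · intro i
    simp only [flatj_hh, Pi.smul_apply, smul_eq_mul, mul_assoc]
    rw [← Finset.mul_sum, h.eig]
    ring
  · intro x y hx hy
    have h0 := h.tang x y hx hy
    have h1 : ∀ i j, (∑ k, (t ^ 2 • B) i j k * b k + ∑ k, (t • A) i k * (t • A) k j +
        hh b (t • A) * (t • A) i j) * x i * y j =
        t ^ 2 * ((∑ k, B i j k * b k + ∑ k, A i k * A k j + hh b A * A i j) * x i * y j) := by
      intro i j
      have e1 : ∑ k, (t ^ 2 • B) i j k * b k = t ^ 2 * ∑ k, B i j k * b k := by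
        simp only [Pi.smul_apply, smul_eq_mul, Finset.mul_sum, mul_assoc]
      have e2 : ∑ k, (t • A) i k * (t • A) k j = t ^ 2 * ∑ k, A i k * A k j := by
        simp only [Pi.smul_apply, smul_eq_mul, Finset.mul_sum]
        exact Finset.sum_congr rfl fun k _ => by ring
      rw [e1, e2, flatj_hh]
      simp only [Pi.smul_apply, smul_eq_mul]
      ring
    simp only [h1, ← Finset.mul_sum]
    rw [h0, mul_zero]

theorem flatj_cub {n : ℕ} (b : T1 n) (A : T2 n) (B : T3 n) (t : ℝ) (x : E n) :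
    cub b A B (t • x) = t * cub b (t • A) (t ^ 2 • B) x := by
  simp only [cub, Pi.smul_apply, PiLp.smul_apply, smul_eq_mul, mul_add, Finset.mul_sum]
  congr 1
  · congr 1
    · exact Finset.sum_congr rfl fun i _ => by ring
    · exact Finset.sum_congr rfl fun i _ => Finset.sum_congr rfl fun j _ => by ring
  · exact Finset.sum_congr rfl fun i _ => Finset.sum_congr rfl fun j _ =>
      Finset.sum_congr rfl fun k _ => by ring

theorem flatj_fb {n : ℕ} {u : E n → ℝ} {y : E n} (h : FB u y) {s : ℝ} (hs : 0 < s) :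
    FB (resc u y s) 0 := by
  refine ⟨by simp [resc, h.1], ?_⟩
  have hc : Continuous fun z : E n => s⁻¹ • (z - y) := by fun_prop
  have h1 := map_mem_closure (t := Om (resc u y s)) hc h.2 (fun z hz => ?_)
  · simpa using h1
  · show 0 < u (y + s • s⁻¹ • (z - y)) / s
    rw [smul_smul, mul_inv_cancel₀ hs.ne', one_smul, add_sub_cancel]
    exact div_pos hz hs

theorem flatj_unscale {n : ℕ} {u : E n → ℝ} {y : E n} {s C : ℝ} (hs : 0 < s) (hC : 0 < C)
    {b : T1 n} {A : T2 n} {B : T3 n} (had : Adm b A B) (hA : ‖A‖ ≤ 1) (hB : ‖B‖ ≤ 1)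
    (ht : ∀ r : ℝ, 0 < r → r ≤ 1 →
      Trap (resc u y s) (cub b A B) (-(C * r ^ 3 * √r)) (C * r ^ 3 * √r) (ball 0 r)) :
    flatj_P u (C * s⁻¹ ^ 2 * √s⁻¹ + s⁻¹ + s⁻¹ ^ 2) s y := by
  have ht0 : 0 < s⁻¹ := inv_pos.2 hs
  have hst : s * s⁻¹ = 1 := mul_inv_cancel₀ hs.ne'
  generalize s⁻¹ = t at ht0 hst ⊢
  have hp : 0 < C * t ^ 2 * √t := by positivity
  have hp2 : 0 < t ^ 2 := by positivity
  refine ⟨b, t • A, t ^ 2 • B, flatj_adm had t, ?_, ?_, fun r h0 h1 => ?_⟩
  · rw [norm_smul, Real.norm_eq_abs, abs_of_pos ht0]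
    nlinarith
  · rw [norm_smul, Real.norm_eq_abs, abs_of_pos hp2]
    nlinarith
  refine flatj_trap_mono (a := C * t ^ 2 * √t * r ^ 3 * √r) ?_ ?_
  · intro x hx
    have hx' : ‖x - y‖ < r := by simpa [dist_eq_norm] using hx
    have hz : t • (x - y) ∈ ball (0 : E n) (t * r) := by
      rw [mem_ball_zero_iff, norm_smul, Real.norm_eq_abs, abs_of_pos ht0]
      exact mul_lt_mul_of_pos_left hx' ht0
    obtain ⟨h2, h3⟩ := ht (t * r) (by positivity) (by nlinarith) _ hz
    have hu : resc u y s (t • (x - y)) = t * u x := by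
      unfold resc
      rw [smul_smul, hst, one_smul, add_sub_cancel, div_eq_iff hs.ne']
      linear_combination (-u x) * hst
    have hk : C * (t * r) ^ 3 * √(t * r) = t * (C * t ^ 2 * √t * r ^ 3 * √r) := by
      rw [Real.sqrt_mul ht0.le]
      ring
    rw [hu, flatj_cub, hk] at h2 h3
    constructor
    · refine le_of_mul_le_mul_left ?_ ht0
      show t * (cub b (t • A) (t ^ 2 • B) (x - y) + _) ≤ _
      linarith
    · refine le_of_mul_le_mul_left ?_ ht0
      show _ ≤ t * max (cub b (t • A) (t ^ 2 • B) (x - y) + _) 0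
      rw [mul_max_of_nonneg _ _ ht0.le, mul_zero, mul_add]
      exact h3
  · have : 0 ≤ r ^ 3 * √r := by positivity
    nlinarith

theorem jetU (h_inv_min : S_inv) (h_flat : S_flat) (h_jet : S_jet) : S_jetU := by
  intro n u hcf hu hhom
  obtain ⟨L, hL⟩ := hu.lip
  have hcont : Continuous u := hL.continuous
  have hK : IsCompact {y : E (n + 1) | FB u y ∧ 1 / 2 ≤ ‖y‖ ∧ ‖y‖ ≤ 3} := by
    refine Metric.isCompact_of_isClosed_isBounded ?_ ?_
    · refine IsClosed.inter (IsClosed.inter (isClosed_eq hcont continuous_const) isClosed_closure)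
        (IsClosed.inter (isClosed_le continuous_const continuous_norm)
          (isClosed_le continuous_norm continuous_const))
    · refine (isBounded_closedBall (x := (0 : E (n + 1))) (r := 3)).subset ?_
      intro y hy
      simpa using hy.2.2
  have key : ∃ C r₀ : ℝ, 0 < C ∧ 0 < r₀ ∧
      ∀ y ∈ {y : E (n + 1) | FB u y ∧ 1 / 2 ≤ ‖y‖ ∧ ‖y‖ ≤ 3}, FB u y → flatj_P u C r₀ y := by
    refine hK.induction_on
      (p := fun S => ∃ C r₀ : ℝ, 0 < C ∧ 0 < r₀ ∧ ∀ y ∈ S, FB u y → flatj_P u C r₀ y) ?_ ?_ ?_ ?_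
    · exact ⟨1, 1, one_pos, one_pos, fun y hy => absurd hy (notMem_empty y)⟩
    · rintro S T hST ⟨C, r₀, h1, h2, h3⟩
      exact ⟨C, r₀, h1, h2, fun y hy => h3 y (hST hy)⟩
    · rintro S T ⟨C, r₀, h1, h2, h3⟩ ⟨C', r₀', h1', h2', h3'⟩
      refine ⟨max C C', min r₀ r₀', lt_max_of_lt_left h1, lt_min h2 h2', ?_⟩
      rintro y (hy | hy) hfb
      · exact flatj_P_mono (h3 y hy hfb) (le_max_left _ _) (min_le_left _ _)
      · exact flatj_P_mono (h3' y hy hfb) (le_max_right _ _) (min_le_right _ _)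
    · rintro x₀ ⟨hfb0, hx1, -⟩
      have hx0 : x₀ ≠ 0 := by
        rintro rfl
        norm_num at hx1
      obtain ⟨e, he, hfl⟩ := h_flat n u x₀ hcf hu hhom hfb0 hx0
      obtain ⟨ε, C, hε, hC, hj⟩ := h_jet (n + 1) e he
      obtain ⟨r, hr, htr⟩ := hfl (ε / 4) (by positivity)
      have hs : 0 < r / 2 := by positivity
      refine ⟨ball x₀ (min (ε / 8) (1 / 4) * r),
        mem_nhdsWithin_of_mem_nhds (ball_mem_nhds _ (by positivity)),
        C * (r / 2)⁻¹ ^ 2 * √(r / 2)⁻¹ + (r / 2)⁻¹ + (r / 2)⁻¹ ^ 2, r / 2, by positivity, hs, ?_⟩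
      intro y hy hfb
      have hd : ‖r⁻¹ • (y - x₀)‖ < min (ε / 8) (1 / 4) := by
        have h1 : ‖y - x₀‖ < min (ε / 8) (1 / 4) * r := by simpa [dist_eq_norm] using hy
        rw [norm_smul, Real.norm_eq_abs, abs_of_pos (inv_pos.2 hr), inv_mul_lt_iff₀ hr, mul_comm]
        exact h1
      have hd1 := hd.trans_le (min_le_left _ _)
      have hd2 := hd.trans_le (min_le_right _ _)
      obtain ⟨b, A, B, had, hA, hB, ht⟩ := hj (resc u y (r / 2))
        ((h_inv_min _ u hu).1 y _ hs) (flatj_fb hfb hs) (fun x hx => by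
          rw [flatj_resc u x₀ y x r hr]
          have hxn : ‖x‖ < 1 := by simpa using hx
          have hyn : ‖(1 / 2 : ℝ) • x‖ < 1 / 2 := by
            rw [norm_smul, Real.norm_eq_abs, abs_of_pos (by norm_num : (0 : ℝ) < 1 / 2)]
            linarith
          have hz : r⁻¹ • (y - x₀) + (1 / 2 : ℝ) • x ∈ ball (0 : E (n + 1)) 1 := by
            rw [mem_ball_zero_iff]
            have := norm_add_le (r⁻¹ • (y - x₀)) ((1 / 2 : ℝ) • x)
            linarith
          obtain ⟨h2, h3⟩ := htr _ hz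
          have hi : ⟪r⁻¹ • (y - x₀) + (1 / 2 : ℝ) • x, e⟫ = ⟪r⁻¹ • (y - x₀), e⟫ + ⟪x, e⟫ / 2 := by
            rw [inner_add_left, real_inner_smul_left x]
            ring
          have hb := abs_le.1 (flatj_inner e (r⁻¹ • (y - x₀)) he)
          simp only [hi] at h2 h3
          constructor
          · show ⟪x, e⟫ + -ε ≤ _
            linarith [hb.1]
          · show _ ≤ max (⟪x, e⟫ + ε) 0
            rcases le_max_iff.1 h3 with h4 | h4
            · exact le_max_of_le_left (by linarith [hb.2])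
            · exact le_max_of_le_right (by linarith))
      exact flatj_unscale hs hC had hA hB ht
  obtain ⟨C, r₀, h1, h2, h3⟩ := key
  exact ⟨C, r₀, h1, h2, fun y hy ha hb => h3 y ⟨hy, ha, hb⟩ hy⟩

end Vale.Agent.P098
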