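import Vale.Agent.P098.Iface

open MeasureTheory Set Metric Filter
open scoped ContDiff RealInnerProductSpace Topology NNReal

noncomputable section
namespace Vale.Agent.P098

variable {n : ℕ}

theorem flatfin_loc {u : E n → ℝ} (ho : IsOpen (Om u)) (hs : ContDiffOn ℝ ∞ u (Om u))
    (h2 : ∀ x ∈ Om u, D2 u x = 0) {x : E n} (hx : x ∈ Om u) : ∀ᶠ z in 𝓝 x, D1 u z = D1 u x := by
  obtain ⟨r, hr, hb⟩ := Metric.isOpen_iff.1 ho x hx
  filter_upwards [ball_mem_nhds x hr] with z hz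
  funext j
  have hd : DifferentiableOn ℝ (pd j u) (Om u) :=
    ((hs.fderiv_of_isOpen (m := ∞) ho le_rfl).differentiableOn
      (by simp)).clm_apply (differentiableOn_const _)
  refine isOpen_ball.is_const_of_fderiv_eq_zero (𝕜 := ℝ) (convex_ball x r).isPreconnected
    (hd.mono hb) (fun w hw => ?_) hz (mem_ball_self hr)
  refine ContinuousLinearMap.coe_injective
    ((EuclideanSpace.basisFun (Fin n) ℝ).toBasis.ext fun i => ?_)
  have : fderiv ℝ (pd j u) w (EuclideanSpace.single i 1) = 0 :=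
    congrFun (congrFun (h2 w (hb hw)) i) j
  simpa using this

theorem flatfin_half {u : E n → ℝ} {g : E n → E n} (hc : Continuous u)
    (hg : ∀ x ∈ Om u, ∀ᶠ z in 𝓝 x, g z = g x) (he : ∀ x ∈ Om u, u x = ⟪x, g x⟫) {y : E n}
    (hy : y ∈ Om u) : ∃ p : E n, 0 < ⟪y, p⟫ ∧ ∀ x, 0 < ⟪x, p⟫ → u x = ⟪x, p⟫ := by
  have ho : IsOpen (Om u) := isOpen_lt continuous_const hc
  have h0 : 0 < ⟪y, g y⟫ := he y hy ▸ hy
  have hS : IsOpen {x | x ∈ Om u ∧ g x = g y} := by
    refine isOpen_iff_mem_nhds.2 fun x hx => ?_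
    filter_upwards [ho.mem_nhds hx.1, hg x hx.1] with z h1 h2 using ⟨h1, h2.trans hx.2⟩
  have hH : Convex ℝ {x : E n | 0 < ⟪x, g y⟫} :=
    convex_halfSpace_gt (f := fun x : E n => ⟪x, g y⟫)
      ⟨fun a b => inner_add_left _ _ _, fun c a => real_inner_smul_left _ _ _⟩ 0
  have hE : ∀ x ∈ {x | x ∈ Om u ∧ g x = g y}, u x = ⟪x, g y⟫ := fun x hx => by
    rw [he x hx.1, hx.2]
  have key := hH.isPreconnected.subset_of_closure_inter_subset hS ⟨y, h0, hy, rfl⟩ (by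
    rintro x ⟨h1, h2⟩
    have h3 : u x = ⟪x, g y⟫ :=
      closure_minimal (t := {x | u x = ⟪x, g y⟫}) hE (isClosed_eq hc (by fun_prop)) h1
    have h4 : x ∈ Om u := by
      change 0 < u x
      rw [h3]; exact h2
    obtain ⟨z, hz1, hz2⟩ := mem_closure_iff_nhds.1 h1 _ (hg x h4)
    exact ⟨h4, (show g z = g x from hz1).symm.trans hz2.2⟩)
  exact ⟨g y, h0, fun x hx => hE x (key hx)⟩

theorem flatfin_two {u : E n → ℝ} {p q y : E n} (hp : ∀ x, 0 < ⟪x, p⟫ → u x = ⟪x, p⟫)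
    (hq : ∀ x, 0 < ⟪x, q⟫ → u x = ⟪x, q⟫) (h1 : ⟪y, p⟫ ≤ 0) (h2 : 0 < ⟪y, q⟫) {x : E n}
    (hx : u x = 0) : ⟪x, p⟫ = 0 := by
  have hz : ∀ x : E n, 0 < ⟪x, p⟫ → ∃ t : ℝ, 0 < t ∧ 0 < ⟪x, p⟫ + t * ⟪y, p⟫ := by
    intro x hx
    have h3 : 0 < 1 - ⟪y, p⟫ := by linarith
    refine ⟨⟪x, p⟫ / (1 - ⟪y, p⟫), by positivity, ?_⟩
    have : ⟪x, p⟫ + ⟪x, p⟫ / (1 - ⟪y, p⟫) * ⟪y, p⟫ = ⟪x, p⟫ / (1 - ⟪y, p⟫) := by
      field_simp
      ring
    rw [this]
    positivity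
  have hadd : ∀ (x v : E n) (t : ℝ), ⟪x + t • y, v⟫ = ⟪x, v⟫ + t * ⟪y, v⟫ := fun x v t => by
    rw [inner_add_left, real_inner_smul_left]
  have ha : ∀ x : E n, 0 < ⟪x, p⟫ → ¬ 0 < ⟪x, q⟫ := by
    intro x a b
    obtain ⟨t, ht, h3⟩ := hz x a
    have h4 := mul_pos ht h2
    have h5 := mul_nonpos_of_nonneg_of_nonpos ht.le h1
    have e1 := (hp x a).symm.trans (hq x b)
    have e2 := (hp (x + t • y) (by rw [hadd]; exact h3)).symm.trans
      (hq (x + t • y) (by rw [hadd]; linarith))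
    rw [hadd, hadd] at e2
    linarith
  rcases lt_trichotomy ⟪x, p⟫ 0 with h | h | h
  · exfalso
    have a : 0 < ⟪-x, p⟫ := by rw [inner_neg_left]; linarith
    obtain ⟨t, ht, h3⟩ := hz (-x) a
    have h4 := mul_pos ht h2
    have h5 := ha (-x + t • y) (by rw [hadd]; exact h3)
    rw [hadd, inner_neg_left] at h5
    have h6 : 0 < ⟪x, q⟫ := by linarith
    have := hq x h6
    linarith
  · exact h
  · exact (hp x h).symm.trans hx

theorem flatfin (h_harm : S_harm) (h_zero_set : S_zero) (h_slope : S_slope) (h_jets : S_jets) : S_flatfin := by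
  intro n u hu hh h2
  obtain ⟨L, hL⟩ := hu.lip
  have hc := hL.continuous
  have ho : IsOpen (Om u) := isOpen_lt continuous_const hc
  have hcone : ∀ (t : ℝ) (x : E n), 0 < t → x ∈ Om u → t • x ∈ Om u := fun t x ht hx => by
    change 0 < u (t • x)
    rw [hh t x ht]
    exact mul_pos ht hx
  have hj := h_jets n u (Om u) ho (h_harm n u hu) hh hcone
  have half : ∀ y ∈ Om u, ∃ p : E n, 0 < ⟪y, p⟫ ∧ ∀ x, 0 < ⟪x, p⟫ → u x = ⟪x, p⟫ := fun y hy => by
    refine flatfin_half (g := fun x => WithLp.toLp 2 (D1 u x)) hc (fun x hx => ?_)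
      (fun x hx => ?_) hy
    · filter_upwards [flatfin_loc ho (h_harm n u hu).1 h2 hx] with z hz
      rw [hz]
    · rw [← (hj x hx).2.2.2.1, PiLp.inner_apply]
      exact Finset.sum_congr rfl fun i _ => by simp [mul_comm]
  by_cases hne : ∃ y, y ∈ Om u
  swap
  · exact Or.inl fun x => le_antisymm (not_lt.1 fun h => hne ⟨x, h⟩) (hu.nonneg x)
  obtain ⟨y, hy⟩ := hne
  obtain ⟨p, hp0, hp⟩ := half y hy
  have hpne : p ≠ 0 := by
    rintro rfl
    simp at hp0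
  have hzero : ∀ x, ⟪x, p⟫ ≤ 0 → u x = 0 := by
    intro y' h1
    by_contra h3
    obtain ⟨q, hq0, hq⟩ := half y' (lt_of_le_of_ne (hu.nonneg y') (Ne.symm h3))
    have h0 : u 0 = 0 := by
      have := hh 2 0 two_pos
      rw [smul_zero] at this
      linarith
    have hcl : (0 : E n) ∈ closure (Om u) := by
      have ht : Tendsto (fun t : ℝ => t • y) (𝓝[>] 0) (𝓝 0) := by
        have : Tendsto (fun t : ℝ => t • y) (𝓝 0) (𝓝 ((0 : ℝ) • y)) :=
          (by fun_prop : Continuous fun t : ℝ => t • y).tendsto 0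
        rw [zero_smul] at this
        exact this.mono_left nhdsWithin_le_nhds
      refine mem_closure_of_tendsto ht ?_
      filter_upwards [self_mem_nhdsWithin] with t ht using hcone t y ht hy
    refine h_zero_set n u 0 1 hu ⟨h0, hcl⟩ one_pos (measure_mono_null (fun x hx => ?_)
      (Measure.addHaar_submodule volume (ℝ ∙ p)ᗮ fun h => hpne ?_))
    · exact Submodule.mem_orthogonal_singleton_iff_inner_left.2
        (flatfin_two hp hq h1 hq0 hx.2)
    · have : p ∈ (ℝ ∙ p)ᗮ := h ▸ Submodule.mem_top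
      exact inner_self_eq_zero.1 (Submodule.mem_orthogonal_singleton_iff_inner_left.1 this)
  have hmax : ∀ x, u x = max ⟪x, p⟫ 0 := fun x => by
    rcases le_or_gt ⟪x, p⟫ 0 with h | h
    · rw [hzero x h, max_eq_right h]
    · rw [hp x h, max_eq_left h.le]
  have hn : 0 < ‖p‖ := norm_pos_iff.2 hpne
  have h1 : ‖p‖ = 1 := by
    refine h_slope n (‖p‖⁻¹ • p) ‖p‖ (norm_smul_inv_norm hpne) hn ?_
    have : (fun x : E n => ‖p‖ * max ⟪x, ‖p‖⁻¹ • p⟫ 0) = u := by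
      funext x
      rw [hmax, real_inner_smul_right, mul_max_of_nonneg _ _ hn.le, mul_zero,
        mul_inv_cancel_left₀ hn.ne']
    rw [this]
    exact hu
  exact Or.inr ⟨p, h1, hmax⟩

end Vale.Agent.P098
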