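import Vale.Agent.P098.Iface

open MeasureTheory Set Metric Filter
open scoped ContDiff RealInnerProductSpace Topology NNReal Convolution

noncomputable section
namespace Vale.Agent.P098

variable {n : ℕ}

/-- The bump of size `1 / (k + 1)`. -/
def h10_bp (n k : ℕ) : ContDiffBump (0 : E n) :=
  ⟨1 / (k + 1), 2 * (1 / (k + 1)), by positivity, by
    have : (0 : ℝ) < 1 / (k + 1) := by positivity
    linarith⟩

/-- The mollifier. -/
def h10_rho (n k : ℕ) : E n → ℝ := (h10_bp n k).normed volume

/-- The mollification. -/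
def h10_mol (k : ℕ) (h : E n → ℝ) : E n → ℝ :=
  h ⋆[ContinuousLinearMap.lsmul ℝ ℝ, volume] h10_rho n k

theorem h10_mol_eq (k : ℕ) (h : E n → ℝ) (x : E n) :
    h10_mol k h x = ∫ y, h y * h10_rho n k (x - y) := rfl

theorem h10_rout : Tendsto (fun k : ℕ => (h10_bp n k).rOut) atTop (𝓝 0) := by
  have := (tendsto_one_div_add_atTop_nhds_zero_nat (𝕜 := ℝ)).const_mul 2
  rwa [mul_zero] at this

theorem h10_cs (k : ℕ) : HasCompactSupport (h10_rho n k) := (h10_bp n k).hasCompactSupport_normed

theorem h10_sm (k : ℕ) : ContDiff ℝ ∞ (h10_rho n k) := (h10_bp n k).contDiff_normed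

theorem h10_ae {h : E n → ℝ} (hh : LocallyIntegrable h) :
    ∀ᵐ x, Tendsto (fun k => h10_mol k h x) atTop (𝓝 (h x)) := by
  filter_upwards [ContDiffBump.ae_convolution_tendsto_right_of_locallyIntegrable (μ := volume)
    (K := 2) h10_rout (Eventually.of_forall fun n => le_rfl) hh] with x hx
  refine hx.congr fun k => ?_
  rw [convolution_lsmul_swap, h10_mol_eq]
  simp only [smul_eq_mul, mul_comm, h10_rho]

theorem h10_cd (k : ℕ) {h : E n → ℝ} (hh : LocallyIntegrable h) : ContDiff ℝ ∞ (h10_mol k h) :=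
  (h10_cs k).contDiff_convolution_right (n := ⊤) _ hh (h10_sm k)

theorem h10_young (k : ℕ) {w : E n → ℝ} (hw : LocallyIntegrable w)
    (hw2 : Integrable fun x => w x ^ 2) :
    (Integrable fun x => h10_mol k w x ^ 2) ∧ ∫ x, h10_mol k w x ^ 2 ≤ ∫ x, w x ^ 2 := by
  have iρ : Integrable (h10_rho n k) := (h10_bp n k).integrable_normed
  have h1 : ∫ x, h10_rho n k x = 1 := (h10_bp n k).integral_normed
  have i2 : Integrable (h10_mol k fun x => w x ^ 2) := hw2.integrable_convolution _ iρ
  have b : ∀ x, h10_mol k w x ^ 2 ≤ h10_mol k (fun x => w x ^ 2) x := fun x => by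
    have a1 : Integrable fun t => w t * h10_rho n k (x - t) :=
      (h10_cs k).convolutionExists_right (ContinuousLinearMap.lsmul ℝ ℝ) hw (h10_sm k).continuous x
    have a2 : Integrable fun t => w t ^ 2 * h10_rho n k (x - t) :=
      (h10_cs k).convolutionExists_right (ContinuousLinearMap.lsmul ℝ ℝ) hw2.locallyIntegrable
        (h10_sm k).continuous x
    have a3 := iρ.comp_sub_left x
    have a4 : 0 ≤ ∫ t, (w t ^ 2 * h10_rho n k (x - t) -
        2 * h10_mol k w x * (w t * h10_rho n k (x - t)) +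
        h10_mol k w x ^ 2 * h10_rho n k (x - t)) := integral_nonneg fun t =>
      (mul_nonneg (sq_nonneg (w t - h10_mol k w x))
        ((h10_bp n k).nonneg_normed (μ := volume) (x - t))).trans_eq (by unfold h10_rho; ring)
    have a5 : Integrable fun t => w t ^ 2 * h10_rho n k (x - t) -
        2 * h10_mol k w x * (w t * h10_rho n k (x - t)) := a2.sub (a1.const_mul _)
    rw [integral_add a5 (a3.const_mul _), integral_sub a2 (a1.const_mul _),
      integral_const_mul, integral_const_mul, integral_sub_left_eq_self, h1, ← h10_mol_eq,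
      ← h10_mol_eq] at a4
    linarith
  have i3 : Integrable fun x => h10_mol k w x ^ 2 := i2.mono'
    ((h10_cd k hw).continuous.pow 2).aestronglyMeasurable
    (.of_forall fun x => (Real.norm_of_nonneg (sq_nonneg _)).trans_le (b x))
  refine ⟨i3, (integral_mono i3 i2 b).trans_eq ((integral_convolution _ hw2 iρ).trans ?_)⟩
  rw [h1]
  exact mul_one _

theorem h10_L2 {w : E n → ℝ} (hw : MemLp w 2) :
    (∀ k, Integrable fun x => (w x - h10_mol k w x) ^ 2) ∧
    Tendsto (fun k => ∫ x, (w x - h10_mol k w x) ^ 2) atTop (𝓝 0) := by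
  have hl : LocallyIntegrable w := hw.locallyIntegrable one_le_two
  have h2 : Integrable fun x => w x ^ 2 := hw.integrable_sq
  have hm : ∀ k, AEStronglyMeasurable (h10_mol k w) volume := fun k =>
    (h10_cd k hl).continuous.aestronglyMeasurable
  have i1 : ∀ k, Integrable fun x => (w x - h10_mol k w x) ^ 2 := fun k =>
    (hw.sub ((memLp_two_iff_integrable_sq (hm k)).2 (h10_young k hl h2).1)).integrable_sq
  have m2 : ∀ k, AEStronglyMeasurable
      (fun x => min ((w x + h10_mol k w x) ^ 2) (4 * w x ^ 2)) volume := fun k =>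
    (((hw.1.add (hm k)).pow 2).aemeasurable.min (h2.const_mul 4).1.aemeasurable).aestronglyMeasurable
  have b2 : ∀ k x, ‖min ((w x + h10_mol k w x) ^ 2) (4 * w x ^ 2)‖ ≤ 4 * w x ^ 2 := fun k x => by
    rw [Real.norm_of_nonneg (le_min (sq_nonneg _) (by positivity))]
    exact min_le_right _ _
  have h1 : Tendsto (fun k => ∫ x, min ((w x + h10_mol k w x) ^ 2) (4 * w x ^ 2)) atTop
      (𝓝 (∫ x, 4 * w x ^ 2)) := by
    refine tendsto_integral_of_dominated_convergence (fun x => 4 * w x ^ 2) m2 (h2.const_mul 4)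
      (fun k => Eventually.of_forall (b2 k)) ?_
    filter_upwards [h10_ae hl] with x hx
    have := ((hx.const_add (w x)).pow 2).min (tendsto_const_nhds (x := 4 * w x ^ 2))
    rwa [show (w x + w x) ^ 2 = 4 * w x ^ 2 by ring, min_self] at this
  have h3 := h1.const_sub (∫ x, 4 * w x ^ 2)
  rw [sub_self] at h3
  refine ⟨i1, squeeze_zero (fun k => integral_nonneg fun x => sq_nonneg _) (fun k => ?_) h3⟩
  have i2 : Integrable fun x => min ((w x + h10_mol k w x) ^ 2) (4 * w x ^ 2) :=
    (h2.const_mul 4).mono' (m2 k) (Eventually.of_forall (b2 k))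
  have i3 := (h10_young k hl h2).1
  have e1 := integral_mono ((i1 k).add i2) ((h2.const_mul 2).add (i3.const_mul 2)) fun x => by
    have := min_le_left ((w x + h10_mol k w x) ^ 2) (4 * w x ^ 2)
    simp only [Pi.add_apply]
    nlinarith
  simp only [Pi.add_apply] at e1
  rw [integral_add (i1 k) i2, integral_add (h2.const_mul 2) (i3.const_mul 2), integral_const_mul,
    integral_const_mul] at e1
  rw [integral_const_mul]
  linarith [(h10_young k hl h2).2]

theorem h10_far {K : Set (E n)} {δ : ℝ} {k : ℕ} (hk : (h10_bp n k).rOut ≤ δ) {x y : E n}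
    (hx : x ∉ cthickening δ K) (hy : y ∈ K) : x - y ∉ tsupport (h10_rho n k) := by
  rw [h10_rho, ContDiffBump.tsupport_normed_eq, mem_closedBall, dist_zero_right, ← dist_eq_norm]
  exact fun h => hx (mem_cthickening_of_dist_le x y δ K hy (h.trans hk))

theorem h10_zero {K : Set (E n)} {δ : ℝ} {k : ℕ} (hk : (h10_bp n k).rOut ≤ δ) {h : E n → ℝ}
    (h0 : ∀ᵐ y, y ∉ K → h y = 0) {x : E n} (hx : x ∉ cthickening δ K) : h10_mol k h x = 0 := by
  rw [h10_mol_eq]
  refine integral_eq_zero_of_ae (h0.mono fun y hy => ?_)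
  by_cases h1 : y ∈ K
  · simp [image_eq_zero_of_notMem_tsupport (h10_far hk hx h1)]
  · simp [hy h1]

theorem h10_fd {U K : Set (E n)} {δ : ℝ} {k : ℕ} (hδ : 0 < δ) (hk : (h10_bp n k).rOut ≤ δ)
    (hU : cthickening (δ + δ) K ⊆ U) {f g : E n → ℝ} (hf : LocallyIntegrable f) {v : E n}
    (hw : ∀ ψ, IsTest U ψ → ∫ x, f x * fderiv ℝ ψ x v = -∫ x, g x * ψ x)
    (f0 : ∀ᵐ y, y ∉ K → f y = 0) (g0 : ∀ᵐ y, y ∉ K → g y = 0) (x : E n) :
    fderiv ℝ (h10_mol k f) x v = h10_mol k g x := by
  have h1 : ContDiff ℝ 1 (h10_rho n k) := (h10_bp n k).contDiff_normed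
  by_cases hx : x ∈ cthickening δ K
  · rw [h10_mol, ((h10_cs k).hasFDerivAt_convolution_right _ hf h1 x).fderiv,
      convolution_precompR_apply _ hf ((h10_cs k).fderiv ℝ) (h1.continuous_fderiv one_ne_zero)]
    have h2 := hw (fun y => h10_rho n k (x - y)) ⟨(h10_sm k).comp (contDiff_const.sub contDiff_id),
      (h10_cs k).comp_homeomorph (Homeomorph.subLeft x), ?_⟩
    · have h3 : ∀ y, fderiv ℝ (fun y => h10_rho n k (x - y)) y v =
          -fderiv ℝ (h10_rho n k) (x - y) v := by
        intro y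
        have := ((h1.differentiable one_ne_zero) (x - y)).hasFDerivAt.comp y
          ((hasFDerivAt_id y).const_sub x)
        rw [show (fun y => h10_rho n k (x - y)) = h10_rho n k ∘ HSub.hSub x from rfl, this.fderiv]
        simp
      simp only [h3, mul_neg, integral_neg, neg_inj] at h2
      exact h2
    · refine (closure_minimal (t := closedBall x δ) (fun y hy => ?_) isClosed_closedBall).trans
        (((closedBall_subset_cthickening hx δ).trans
          (cthickening_cthickening_subset hδ.le hδ.le K)).trans hU)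
      have h4 : x - y ∈ tsupport (h10_rho n k) := subset_tsupport _ hy
      rw [h10_rho, ContDiffBump.tsupport_normed_eq, mem_closedBall, dist_zero_right,
        ← dist_eq_norm, dist_comm] at h4
      exact h4.trans hk
  · rw [h10_zero hk g0 hx]
    have : h10_mol k f =ᶠ[𝓝 x] fun _ => 0 :=
      (isClosed_cthickening.isOpen_compl.eventually_mem hx).mono fun y hy => h10_zero hk f0 hy
    rw [this.fderiv_eq]
    simp

theorem h10_core {U K : Set (E n)} (hU : IsOpen U) (hK : IsCompact K) (hKU : K ⊆ U)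
    {f : E n → ℝ} {G : E n → E n} (hf : MemLp f 2) (hG : MemLp G 2)
    (hw : ∀ ψ, IsTest U ψ → ∀ v, ∫ x, f x * fderiv ℝ ψ x v = -∫ x, ⟪G x, v⟫ * ψ x)
    (f0 : ∀ᵐ y, y ∉ K → f y = 0) (G0 : ∀ y, y ∉ U → G y = 0) {ε : ℝ} (hε : 0 < ε) :
    ∃ ψ, IsTest U ψ ∧ (∫ x in U, (f x - ψ x) ^ 2) + ∫ x in U, ‖G x - gradient ψ x‖ ^ 2 < ε := by
  have hfl : LocallyIntegrable f := hf.locallyIntegrable one_le_two
  have hg : ∀ v : E n, MemLp (fun x => ⟪G x, v⟫) 2 := fun v => hG.inner_const v
  have g0 : ∀ v : E n, ∀ᵐ y, y ∉ K → ⟪G y, v⟫ = 0 := fun v => by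
    have h1 := (hU.sdiff hK.isClosed).ae_eq_zero_of_integral_contDiff_smul_eq_zero
      (((hg v).locallyIntegrable one_le_two).locallyIntegrableOn _) fun ψ h1 h2 h3 => by
        have h4 := hw ψ ⟨h1, h2, h3.trans sdiff_subset⟩ v
        have h5 : ∫ x, f x * fderiv ℝ ψ x v = 0 := integral_eq_zero_of_ae (f0.mono fun y hy => by
          by_cases h6 : y ∈ K
          · simp [fderiv_of_notMem_tsupport ℝ fun h7 => (h3 h7).2 h6]
          · simp [hy h6])
        rw [h5, eq_comm, neg_eq_zero] at h4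
        simpa only [smul_eq_mul, mul_comm] using h4
    filter_upwards [h1] with y hy h2
    by_cases h3 : y ∈ U
    · exact hy ⟨h3, h2⟩
    · simp [G0 y h3]
  obtain ⟨δ, hδ, hs⟩ := hK.exists_cthickening_subset_open hU hKU
  have hδ2 : 0 < δ / 2 := half_pos hδ
  rw [← add_halves δ] at hs
  have t1 := (h10_L2 hf).2.add (tendsto_finsetSum Finset.univ fun i _ =>
    (h10_L2 (hg (EuclideanSpace.single i 1))).2)
  rw [Finset.sum_const_zero, add_zero] at t1
  obtain ⟨k, hk1, hk2⟩ := ((t1.eventually (gt_mem_nhds hε)).and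
    ((h10_rout (n := n)).eventually (ge_mem_nhds hδ2))).exists
  have hsup : tsupport (h10_mol k f) ⊆ cthickening (δ / 2) K :=
    closure_minimal (fun x hx => by_contra fun h => hx (h10_zero hk2 f0 h)) isClosed_cthickening
  refine ⟨h10_mol k f, ⟨h10_cd k hfl, (hK.cthickening).of_isClosed_subset (isClosed_tsupport _) hsup,
    hsup.trans ((cthickening_mono (by linarith) K).trans hs)⟩, lt_of_le_of_lt ?_ hk1⟩
  have e : ∀ x, ‖G x - gradient (h10_mol k f) x‖ ^ 2 = ∑ i, (⟪G x, EuclideanSpace.single i 1⟫ -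
      h10_mol k (fun y => ⟪G y, EuclideanSpace.single i 1⟫) x) ^ 2 := fun x => by
    rw [EuclideanSpace.real_norm_sq_eq]
    refine Finset.sum_congr rfl fun i _ => ?_
    rw [← h10_fd hδ2 hk2 hs hfl (fun ψ h => hw ψ h _) f0 (g0 _) x, gradient,
      ← InnerProductSpace.toDual_symm_apply, ← inner_sub_left, EuclideanSpace.inner_single_right]
    simp
  simp only [e]
  have i := fun i : Fin n => (h10_L2 (hg (EuclideanSpace.single i 1))).1 k
  rw [← integral_finsetSum _ fun j _ => i j]
  exact add_le_add (setIntegral_le_integral ((h10_L2 hf).1 k) (.of_forall fun x => sq_nonneg _))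
    (setIntegral_le_integral (integrable_finsetSum _ fun j _ => i j)
      (.of_forall fun x => Finset.sum_nonneg fun j _ => sq_nonneg _))

theorem h10 : S_h10 := by
  intro n U K f G hU hK hKU h f0
  refine ⟨h, fun ε hε => ?_⟩
  have hm := hU.measurableSet
  obtain ⟨ψ, h1, h2⟩ := h10_core (f := U.indicator f) (G := U.indicator G) hU hK hKU
    ((memLp_indicator_iff_restrict hm).2 h.1) ((memLp_indicator_iff_restrict hm).2 h.2.1)
    (fun ψ hψ v => by
      have := h.2.2 ψ hψ v
      rw [← integral_indicator hm, ← integral_indicator hm] at this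
      refine (integral_congr_ae (.of_forall fun x => ?_)).trans (this.trans
        (congrArg Neg.neg (integral_congr_ae (.of_forall fun x => ?_))))
      · by_cases hx : x ∈ U <;> simp [hx]
      · by_cases hx : x ∈ U <;> simp [hx])
    (by
      filter_upwards [(ae_restrict_iff' hm).1 f0] with y hy h1
      by_cases h2 : y ∈ U
      · rw [indicator_of_mem h2, hy h2 h1]
      · exact indicator_of_notMem h2 _) (fun y hy => indicator_of_notMem hy _) hε
  refine ⟨ψ, h1, lt_of_eq_of_lt ?_ h2⟩
  congr 1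
  · exact setIntegral_congr_fun hm fun x hx => by simp [hx]
  · exact setIntegral_congr_fun hm fun x hx => by simp [hx]

end Vale.Agent.P098
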