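import Vale.Agent.P098.Iface

open MeasureTheory Set Metric Filter
open scoped ContDiff RealInnerProductSpace Topology NNReal

noncomputable section
namespace Vale.Agent.P098

theorem hol_le {n : ℕ} {u P : E n → ℝ} {a b : ℝ} {S : Set (E n)} (hS : IsOpen S)
    (hu : Continuous u) (hP : Continuous P) (h : Trap u P a b S) {z : E n} (hz : z ∈ S)
    (hc : z ∈ closure (Om u)) : u z ≤ P z + b := by
  have h1 : z ∈ closure (S ∩ Om u) := hS.inter_closure ⟨hz, hc⟩
  have h2 : IsClosed {w : E n | u w ≤ P w + b} := isClosed_le hu (hP.add continuous_const)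
  refine h2.closure_subset_iff.2 (fun w hw => ?_) h1
  have h3 := (h w hw.1).2
  have h4 : 0 < u w := hw.2
  rcases le_total (P w + b) 0 with h5 | h5
  · rw [max_eq_right h5] at h3
    linarith
  · rwa [max_eq_left h5] at h3

theorem hol (h_osc : S_osc) : S_hol := by
  intro n
  obtain ⟨c, σ₁, θ, hc, hc2, hσ₁, hθ, H⟩ := h_osc n
  refine ⟨σ₁ / 2, by positivity, fun η hη => ?_⟩
  have hq0 : (0 : ℝ) < 1 - c := by linarith
  obtain ⟨k, hk⟩ := exists_pow_lt_of_lt_one (half_pos hη) (show 1 - c < 1 by linarith)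
  set r : ℕ → ℝ := fun j => (1 / 2) / 200 ^ j with hr
  have hr0 : ∀ j, 0 < r j := fun j => by positivity
  have hrk : ∀ j ≤ k, r k ≤ r j := fun j hj =>
    div_le_div_of_nonneg_left (by norm_num) (by positivity) (pow_le_pow_right₀ (by norm_num) hj)
  have hr1 : ∀ j, r j ≤ 1 / 2 := fun j =>
    div_le_self (by norm_num) (one_le_pow₀ (by norm_num))
  refine ⟨r k / 2, θ * r k / 2, half_pos (hr0 k), half_pos (mul_pos hθ (hr0 k)), ?_⟩
  intro u P e σ ε hu he hG hσ hε hε0 hT x hx y hy hxc hyc hxy
  have hσ0 : 0 ≤ σ := (norm_nonneg _).trans (hG.grad 0 (mem_ball_self one_pos))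
  have hsub : ∀ j, ball x (r j) ⊆ ball (0 : E n) 1 := fun j z hz => by
    rw [mem_ball] at hz hx ⊢
    have := dist_triangle z x 0
    have := hr1 j
    linarith
  have key : ∀ j ≤ k, ∃ a b : ℝ, -ε ≤ a ∧ b ≤ ε ∧ b - a = 2 * ε * (1 - c) ^ j ∧
      Trap u P a b (ball x (r j)) := by
    intro j
    induction j with
    | zero =>
      intro _
      exact ⟨-ε, ε, le_rfl, le_rfl, by ring, fun z hz => hT z (hsub 0 hz)⟩
    | succ j ih =>
      intro hj
      obtain ⟨a, b, ha, hb, hab, hT'⟩ := ih (Nat.le_of_succ_le hj)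
      have hp0 : 0 < (1 - c) ^ j := pow_pos hq0 j
      have hp1 : (1 - c) ^ j ≤ 1 := pow_le_one₀ hq0.le (by linarith)
      have hlt : 0 < b - a := by rw [hab]; positivity
      have hle : b - a ≤ 2 * ε := by rw [hab]; nlinarith
      have hrs : r (j + 1) = r j / 200 := by simp only [hr]; rw [pow_succ]; field_simp
      have hθr : b - a ≤ θ * r j := by
        have := mul_le_mul_of_nonneg_left (hrk j (Nat.le_of_succ_le hj)) hθ.le
        linarith
      have hfb : ∀ z ∈ ball x (r j), |P z + a| ≤ 2 * (b - a) →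
          |‖gradient P z‖ ^ 2 - 1| ≤ σ₁ * (b - a) / r j := by
        intro z hz hPz
        have h1 : |P z| ≤ 5 * ε := by
          rw [abs_le] at hPz ⊢
          constructor <;> linarith [hPz.1, hPz.2]
        have h2 : σ * (|P z| + ε) ≤ σ₁ / 2 * (6 * ε) :=
          mul_le_mul hσ (by linarith) (by positivity) (by positivity)
        have h3 : 1 ≤ (1 - c) ^ j * 200 ^ j := by
          rw [← mul_pow]
          exact one_le_pow₀ (by linarith)
        have h4 : σ₁ * (b - a) / r j = 4 * σ₁ * ε * ((1 - c) ^ j * 200 ^ j) := by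
          rw [hab]
          simp only [hr]
          field_simp
          ring
        have h5 : 0 < σ₁ * ε := by positivity
        refine (hG.fb z (hsub j hz)).trans (h2.trans ?_)
        rw [h4]
        nlinarith
      have hca : 0 ≤ c * (b - a) := by positivity
      rcases H u P e x (r j) a b hu he hG.sm hG.harm (hr0 j) (by linarith) hθr
        (fun z hz => (hG.grad z (hsub j hz)).trans (by linarith)) hfb hT' with h | h
      · refine ⟨a + c * (b - a), b, by linarith, hb, ?_, by rwa [hrs]⟩
        rw [pow_succ]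
        linear_combination (1 - c) * hab
      · refine ⟨a, b - c * (b - a), ha, by linarith, ?_, by rwa [hrs]⟩
        rw [pow_succ]
        linear_combination (1 - c) * hab
  obtain ⟨a, b, -, -, hab, hT'⟩ := key k le_rfl
  obtain ⟨L, hL⟩ := hu.lip
  have hx' : x ∈ ball x (r k) := mem_ball_self (hr0 k)
  have hy' : y ∈ ball x (r k) := by
    rw [mem_ball, dist_comm, dist_eq_norm]
    linarith [hr0 k]
  have h1 := hol_le isOpen_ball hL.continuous hG.sm.continuous hT' hx' hxc
  have h2 := hol_le isOpen_ball hL.continuous hG.sm.continuous hT' hy' hyc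
  have h3 := (hT' x hx').1
  have h4 := (hT' y hy').1
  have h5 : b - a ≤ η * ε := by rw [hab]; nlinarith
  rw [abs_le]
  constructor <;> linarith

end Vale.Agent.P098
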