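import Vale.Agent.P098.Intg2

open MeasureTheory Set Metric Filter
open scoped ContDiff RealInnerProductSpace Topology NNReal

noncomputable section
namespace Vale.Agent.P098

variable {n : ℕ}

theorem intg_alpha {R : ℝ} (hR : 0 < R) : ∃ (α : E n → ℝ) (L : ℝ≥0), LipschitzWith L α ∧
    (∀ x, R⁻¹ ≤ ‖x‖ → ‖x‖ ≤ R → 1 ≤ α x) ∧ ∀ x, 0 < α x → (2 * R)⁻¹ ≤ ‖x‖ ∧ ‖x‖ ≤ 2 * R := by
  have h1 : LipschitzWith (2 * R).toNNReal fun x : E n => 2 * R * ‖x‖ - 1 :=
    LipschitzWith.of_dist_le' fun x y => by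
      rw [Real.dist_eq, sub_sub_sub_cancel_right, ← mul_sub, abs_mul, abs_of_pos (by positivity),
        dist_eq_norm]
      exact mul_le_mul_of_nonneg_left (abs_norm_sub_norm_le x y) (by positivity)
  have h2 : LipschitzWith (R⁻¹).toNNReal fun x : E n => 2 - R⁻¹ * ‖x‖ :=
    LipschitzWith.of_dist_le' fun x y => by
      rw [Real.dist_eq, sub_sub_sub_cancel_left, ← mul_sub, abs_mul, abs_of_pos (by positivity),
        dist_eq_norm, norm_sub_rev]
      exact mul_le_mul_of_nonneg_left (abs_norm_sub_norm_le y x) (by positivity)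
  refine ⟨_, _, h1.min h2, fun x k1 k2 => le_min ?_ ?_, fun x hx => ⟨?_, ?_⟩⟩
  · rw [inv_le_iff_one_le_mul₀ hR] at k1
    linarith
  · have : R⁻¹ * ‖x‖ ≤ 1 := by rwa [inv_mul_le_iff₀ hR, mul_one]
    linarith
  · have := (lt_min_iff.1 hx).1
    rw [inv_le_iff_one_le_mul₀ (by positivity)]
    linarith
  · have : R⁻¹ * ‖x‖ ≤ 2 := by linarith [(lt_min_iff.1 hx).2]
    rw [inv_mul_le_iff₀ hR] at this
    linarith

theorem intg_test {u : E n → ℝ} {L : ℝ≥0} (hL : LipschitzWith L u) {R : ℝ} (hR : 0 < R) :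
    ∃ L0 : ℝ, 0 ≤ L0 ∧ ∀ ε : ℝ, 0 < ε → ∃ f : E n → ℝ, Lip f ∧ HasCompactSupport f ∧
      (∀ x ∈ tsupport f, (2 * R)⁻¹ ≤ ‖x‖ ∧ ‖x‖ ≤ 2 * R ∧ 0 < u x) ∧ (∀ x, 0 ≤ f x) ∧
      (∀ x, R⁻¹ ≤ ‖x‖ → ‖x‖ ≤ R → 2 * ε ≤ u x → f x = 1) ∧
      (∀ x, ‖fderiv ℝ f x‖ ≤ L0 + L / ε) ∧ ∀ x, 2 * ε < u x → ‖fderiv ℝ f x‖ ≤ L0 := by
  obtain ⟨α, L0, h1, h2, h3⟩ := intg_alpha (n := n) hR
  refine ⟨L0, L0.2, fun ε hε => ?_⟩
  have h4 : LipschitzWith (L / ε).toNNReal fun x => u x / ε - 1 :=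
    LipschitzWith.of_dist_le' fun x y => by
      rw [Real.dist_eq, sub_sub_sub_cancel_right, ← sub_div, abs_div, abs_of_pos hε,
        div_mul_eq_mul_div]
      exact div_le_div_of_nonneg_right (hL.dist_le_mul x y) hε.le
  have h5 := ((h1.min h4).const_min 1).const_max 0
  have h6 : tsupport (fun x => max 0 (min 1 (min (α x) (u x / ε - 1)))) ⊆
      {x | (2 * R)⁻¹ ≤ ‖x‖} ∩ ({x | ‖x‖ ≤ 2 * R} ∩ {x | ε ≤ u x}) := by
    refine closure_minimal (fun x hx => ?_) ((isClosed_le continuous_const continuous_norm).inter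
      ((isClosed_le continuous_norm continuous_const).inter
        (isClosed_le continuous_const hL.continuous)))
    have k1 : 0 < min 1 (min (α x) (u x / ε - 1)) := by
      by_contra k
      exact hx (max_eq_left (not_lt.1 k))
    obtain ⟨k2, k3⟩ := lt_min_iff.1 (lt_min_iff.1 k1).2
    exact ⟨(h3 x k2).1, (h3 x k2).2, (one_le_div hε).1 (by linarith)⟩
  refine ⟨_, ⟨_, h5⟩, (isCompact_closedBall (0 : E n) (2 * R)).of_isClosed_subset
    (isClosed_tsupport _) fun x hx => mem_closedBall_zero_iff.2 (h6 hx).2.1,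
    fun x hx => ⟨(h6 hx).1, (h6 hx).2.1, hε.trans_le (h6 hx).2.2⟩, fun x => le_max_left _ _,
    fun x k1 k2 k3 => ?_, fun x => (norm_fderiv_le_of_lipschitz ℝ h5).trans ?_, fun x hx => ?_⟩
  · have k4 : 2 ≤ u x / ε := (le_div_iff₀ hε).2 k3
    rw [min_eq_left (le_min (h2 x k1 k2) (by linarith)), max_eq_right zero_le_one]
  · have k1 : (0 : ℝ) ≤ L / ε := by positivity
    rw [NNReal.coe_max, Real.coe_toNNReal _ k1]
    exact max_le (le_add_of_nonneg_right k1) (le_add_of_nonneg_left L0.2)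
  · have k1 : (fun x => max 0 (min 1 (min (α x) (u x / ε - 1)))) =ᶠ[𝓝 x]
        fun x => max 0 (min 1 (α x)) := by
      filter_upwards [(isOpen_lt continuous_const hL.continuous).mem_nhds hx] with y hy
      have k4 : 2 ≤ u y / ε := (le_div_iff₀ hε).2 hy.le
      rw [min_comm (α y), ← min_assoc, min_eq_left (show (1 : ℝ) ≤ u y / ε - 1 by linarith)]
    rw [k1.fderiv_eq]
    exact norm_fderiv_le_of_lipschitz ℝ ((h1.const_min 1).const_max 0)

/-- The integrated divergence bound. -/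
theorem intg_bound (h_ibp : S_ibp) {u : E n → ℝ} {L : ℝ≥0} (hL : LipschitzWith L u) {R : ℝ}
    {Y : Fin n → E n → ℝ} (hY : ∀ k, ContDiffOn ℝ 1 (Y k) (Om u)) {M L0 ε : ℝ} (hM : 0 ≤ M)
    (hε : 0 < ε)
    (hYM : ∀ k x, (2 * R)⁻¹ ≤ ‖x‖ → ‖x‖ ≤ 2 * R → 0 < u x → |Y k x| ≤ M) {f : E n → ℝ}
    (h1 : Lip f) (h2 : HasCompactSupport f)
    (h3 : ∀ x ∈ tsupport f, (2 * R)⁻¹ ≤ ‖x‖ ∧ ‖x‖ ≤ 2 * R ∧ 0 < u x) (hL0 : 0 ≤ L0)
    (h4 : ∀ x, ‖fderiv ℝ f x‖ ≤ L0 + L / ε) (h5 : ∀ x, 2 * ε < u x → ‖fderiv ℝ f x‖ ≤ L0) :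
    Integrable (fun x => f x * ∑ k, pd k (Y k) x) ∧ ∫ x, f x * ∑ k, pd k (Y k) x ≤
      n * (M * (L0 * volume.real (closedBall (0 : E n) (2 * R)) + L / ε * volume.real
        {x : E n | (2 * R)⁻¹ ≤ ‖x‖ ∧ ‖x‖ ≤ 2 * R ∧ 0 < u x ∧ u x ≤ 2 * ε})) := by
  have hO : IsOpen (Om u) := isOpen_lt continuous_const hL.continuous
  have H := fun k => h_ibp n f (Y k) (Om u) (EuclideanSpace.single k 1) h1 h2 hO
    (fun x hx => (h3 x hx).2.2) (hY k)
  simp only [Finset.mul_sum, pd]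
  refine ⟨integrable_finsetSum _ fun k _ => (H k).2.1, ?_⟩
  rw [integral_finsetSum _ fun k _ => (H k).2.1]
  refine (Finset.sum_le_card_nsmul _ _ _ fun k _ => ?_).trans
    (by rw [Finset.card_univ, Fintype.card_fin, nsmul_eq_mul])
  obtain ⟨S, hS⟩ : ∃ S, S =
    {x : E n | (2 * R)⁻¹ ≤ ‖x‖ ∧ ‖x‖ ≤ 2 * R ∧ 0 < u x ∧ u x ≤ 2 * ε} := ⟨_, rfl⟩
  have hSm : MeasurableSet S := by
    have := hL.continuous.measurable
    rw [hS]
    measurability
  have hSB : S ⊆ closedBall 0 (2 * R) := fun x hx => by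
    rw [hS] at hx
    exact mem_closedBall_zero_iff.2 hx.2.1
  have hB : volume (closedBall (0 : E n) (2 * R)) ≠ ⊤ := measure_closedBall_lt_top.ne
  have hS' : volume S ≠ ⊤ := ne_top_of_le_ne_top hB (measure_mono hSB)
  have i1 := (integrableOn_const (C := L0) hB).integrable_indicator measurableSet_closedBall
  have i2 := (integrableOn_const (C := (L / ε : ℝ)) hS').integrable_indicator hSm
  have k1 : ∫ x, f x * fderiv ℝ (Y k) x (EuclideanSpace.single k 1) =
      ∫ x, -(fderiv ℝ f x (EuclideanSpace.single k 1) * Y k x) := by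
    rw [integral_neg, (H k).2.2, neg_neg]
  rw [← hS]
  refine k1.trans_le ((integral_mono (H k).1.neg ((i1.add i2).const_mul M) fun x => ?_).trans
    (le_of_eq ?_))
  · have k2 : (0 : ℝ) ≤ L / ε := by positivity
    have k3 : 0 ≤ S.indicator (fun _ => (L / ε : ℝ)) x := indicator_nonneg (fun _ _ => k2) x
    show -(_ * _) ≤ M * ((closedBall (0 : E n) (2 * R)).indicator (fun _ => L0) x +
      S.indicator (fun _ => (L / ε : ℝ)) x)
    by_cases hx : x ∈ tsupport f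
    · obtain ⟨a1, a2, a3⟩ := h3 x hx
      refine (neg_le_abs _).trans ?_
      rw [abs_mul, mul_comm, indicator_of_mem (mem_closedBall_zero_iff.2 a2)]
      refine mul_le_mul (hYM k x a1 a2 a3) ?_ (abs_nonneg _) hM
      refine ((fderiv ℝ f x).le_opNorm _).trans ?_
      rw [PiLp.norm_single, norm_one, mul_one]
      by_cases h : u x ≤ 2 * ε
      · rw [indicator_of_mem (by rw [hS]; exact ⟨a1, a2, a3, h⟩)]
        exact h4 x
      · exact (h5 x (not_le.1 h)).trans (le_add_of_nonneg_right k3)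
    · rw [fderiv_of_notMem_tsupport ℝ hx, zero_apply, zero_mul, neg_zero]
      exact mul_nonneg hM (add_nonneg (indicator_nonneg (fun _ _ => hL0) x) k3)
  · rw [integral_const_mul, integral_add' i1 i2, integral_indicator_const _ measurableSet_closedBall,
      integral_indicator_const _ hSm, smul_eq_mul, smul_eq_mul, mul_comm L0, mul_comm (L / ε : ℝ)]

theorem intg_low {θ N B c d : ℝ} (hN : 0 ≤ N) (hB : 0 ≤ B) (hd : 0 < d) (hθ : 0 ≤ θ)
    (h : c ≤ θ * N * B) :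
    (1 - θ) * (B / √(N + d ^ 2)) ≤ B / √(N + d ^ 2) - c / √(N + d ^ 2) ^ 3 := by
  have h1 : 0 < √(N + d ^ 2) := Real.sqrt_pos.2 (by positivity)
  have h2 : √(N + d ^ 2) ^ 2 = N + d ^ 2 := Real.sq_sqrt (by positivity)
  have h3 : c / √(N + d ^ 2) ^ 3 ≤ θ * (B / √(N + d ^ 2)) := by
    rw [pow_succ, h2, ← div_div, ← mul_div_assoc]
    refine div_le_div_of_nonneg_right ?_ h1.le
    rw [div_le_iff₀ (by positivity)]
    nlinarith [mul_nonneg (mul_nonneg hθ hB) (sq_nonneg d)]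
  linarith

theorem intg_meas (u : E n → ℝ) : Measurable fun x => nB (D3 u x) / √(nA (D2 u x)) := by
  have h : ∀ (i : Fin n) (f : E n → ℝ), Measurable (pd i f) := fun i f =>
    measurable_fderiv_apply_const ℝ f _
  exact (Finset.measurable_sum _ fun i _ => Finset.measurable_sum _ fun j _ =>
    Finset.measurable_sum _ fun k _ => (h _ _).pow_const 2).div (Finset.measurable_sum _
      fun i _ => Finset.measurable_sum _ fun j _ => (h _ _).pow_const 2).sqrt

theorem intg_D3 (h_jets : S_jets) {u : E n → ℝ} (hO : IsOpen (Om u)) (hH : Harm (Om u) u)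
    (hh : Hom u) (hr : Reg u) {R : ℝ} (hR : 0 < R) :
    ∃ M : ℝ, 0 ≤ M ∧ ∀ x, R⁻¹ ≤ ‖x‖ → 0 < u x → ‖D3 u x‖ ≤ M := by
  obtain ⟨C, hC⟩ := hr.bdd
  have hs : ∀ (t : ℝ) (x : E n), 0 < t → x ∈ Om u → t • x ∈ Om u := fun t x ht hx => by
    show 0 < u (t • x)
    rw [hh t x ht]
    exact mul_pos ht hx
  refine ⟨R ^ 2 * max C 0, by positivity, fun x h1 h2 => ?_⟩
  have h3 : 0 < ‖x‖ := (inv_pos.2 hR).trans_le h1
  have h4 := inv_pos.2 h3
  have h5 : ‖‖x‖⁻¹ • x‖ = 1 := by rw [norm_smul, norm_inv, norm_norm, inv_mul_cancel₀ h3.ne']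
  rw [← ((h_jets n u _ hO hH hh hs x h2).2.2.2.2.2 _ h4).2.2, norm_smul,
    Real.norm_of_nonneg (by positivity)]
  refine mul_le_mul (pow_le_pow_left₀ h4.le (inv_le_of_inv_le₀ hR h1) 2)
    ((hC _ (hs _ x h4 h2) h5.ge (by linarith)).2.trans (le_max_left _ _)) (norm_nonneg _)
    (by positivity)

theorem intg (h_ibp : S_ibp) (h_aeq : S_aeq) (h_harm : S_harm) (h_jets : S_jets) (h_div_formula : S_div) (h_kato : S_kato) (h_layer : S_layer) : S_int := by
  intro n u R hu hh hr hR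
  obtain ⟨L, hL⟩ := hu.lip
  have hO : IsOpen (Om u) := isOpen_lt continuous_const hL.continuous
  have hH := h_harm n u hu
  have hs : ∀ (t : ℝ) (x : E n), 0 < t → x ∈ Om u → t • x ∈ Om u := fun t x ht hx => by
    show 0 < u (t • x)
    rw [hh t x ht]
    exact mul_pos ht hx
  obtain ⟨θ, hθ, hk⟩ := h_kato n
  obtain ⟨C, hC⟩ := h_layer n u (2 * R) hu hh hr (by positivity)
  obtain ⟨M, hM, hD⟩ := intg_D3 h_jets hO hH hh hr (show 0 < 2 * R by positivity)
  obtain ⟨L0, hL0, hf⟩ := intg_test hL hR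
  obtain ⟨a, ha⟩ : ∃ a : Fin n × Fin n → E n → ℝ, a = fun i => pd i.1 (pd i.2 u) := ⟨_, rfl⟩
  have haH : ∀ i, Harm (Om u) (a i) := fun i => by
    rw [ha]
    exact intg_harm_pd hO (intg_harm_pd hO hH _) _
  have hθ1 : 0 < 1 - max θ 0 := sub_pos.2 (max_lt hθ one_pos)
  have hNB : ∀ x, 0 ≤ nB (D3 u x) := fun x => by unfold nB; positivity
  have hNA : ∀ x, 0 ≤ nA (D2 u x) := fun x => by unfold nA; positivity
  have key : ∀ ε : ℝ, 0 < ε → ∃ F : E n → ℝ, Integrable F ∧ (∀ x, 0 ≤ F x) ∧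
      (∀ x, R⁻¹ ≤ ‖x‖ → ‖x‖ ≤ R → 2 * ε ≤ u x →
        (1 - max θ 0) * (nB (D3 u x) / √(nA (D2 u x) + ε ^ 2)) ≤ F x) ∧
      ∫ x, F x ≤ n * (n ^ 2 * M * (L0 * volume.real (closedBall (0 : E n) (2 * R)) +
        L * (2 * C))) := by
    intro ε hε
    obtain ⟨f, f1, f2, f3, f4, f5, f6, f7⟩ := hf ε hε
    have hb := intg_bound h_ibp hL (Y := intg_Y a ε) (M := n ^ 2 * M)
      (fun k => (intg_Y_sm hO haH hε k).of_le (by simp)) (by positivity) hε
      (fun k x k1 _ k3 => (intg_Y_le a hε k x).trans ((Finset.sum_le_card_nsmul _ _ M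
        fun i _ => by
          rw [ha]
          exact (((norm_le_pi_norm (D3 u x k i.1) i.2).trans (norm_le_pi_norm (D3 u x k) i.1)).trans
            (norm_le_pi_norm (D3 u x) k)).trans (hD x k1 k3)).trans (by simp [sq])))
      f1 f2 f3 hL0 f6 f7
    have hl : ∀ x ∈ Om u, (1 - max θ 0) * (nB (D3 u x) / √(nA (D2 u x) + ε ^ 2)) ≤
        ∑ k, pd k (intg_Y a ε k) x := by
      intro x hx
      have st := (h_jets n u _ hO hH hh hs x hx).1
      have e1 : intg_w a ε x = √(nA (D2 u x) + ε ^ 2) := by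
        rw [intg_w, Fintype.sum_prod_type, ha]
        rfl
      have e2 : ∑ k, ∑ i, pd k (a i) x ^ 2 = nB (D3 u x) := by
        simp only [Fintype.sum_prod_type, ha]
        rfl
      have e3 : ∀ k, ∑ i, a i x * pd k (a i) x = ct (D2 u x) (D3 u x) k := fun k => by
        rw [Fintype.sum_prod_type, ha]
        refine Finset.sum_congr rfl fun i _ => Finset.sum_congr rfl fun j _ => ?_
        rw [st.b2, st.b1]
        rfl
      rw [intg_div hO haH hε hx, e1, e2, Finset.sum_congr rfl fun k _ => by rw [e3 k]]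
      refine intg_low (hNA x) (hNB x) hε (le_max_right _ _) ((hk _ _ st).trans ?_)
      exact mul_le_mul_of_nonneg_right (mul_le_mul_of_nonneg_right (le_max_left _ _) (hNA x))
        (hNB x)
    refine ⟨_, hb.1, fun x => ?_, fun x k1 k2 k3 => ?_, hb.2.trans ?_⟩
    · by_cases hx : x ∈ tsupport f
      · exact mul_nonneg (f4 x) (le_trans
          (mul_nonneg hθ1.le (div_nonneg (hNB x) (Real.sqrt_nonneg _))) (hl x (f3 x hx).2.2))
      · rw [image_eq_zero_of_notMem_tsupport hx, zero_mul]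
    · rw [f5 x k1 k2 k3, one_mul]
      exact hl x (show 0 < u x by linarith)
    · have k1 := mul_le_mul_of_nonneg_left (hC (2 * ε) (by positivity))
        (show (0 : ℝ) ≤ L / ε by positivity)
      have k2 : L / ε * (C * (2 * ε)) = L * (2 * C) := by field_simp
      rw [k2] at k1
      exact mul_le_mul_of_nonneg_left (mul_le_mul_of_nonneg_left (add_le_add le_rfl k1)
        (by positivity)) (by positivity)
  choose! F F1 F2 F3 F4 using key
  have hε : ∀ k : ℕ, (0 : ℝ) < 1 / ((k : ℝ) + 1) := fun k => by positivity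
  have hSm : MeasurableSet {x : E n | R⁻¹ ≤ ‖x‖ ∧ ‖x‖ ≤ R ∧ 0 < u x} := by
    have := hL.continuous.measurable
    measurability
  refine (integrable_const_mul_iff (c := 1 - max θ 0) hθ1.ne'.isUnit _).1
    ⟨((intg_meas u).const_mul _).aestronglyMeasurable, ?_⟩
  rw [hasFiniteIntegral_iff_ofReal (Eventually.of_forall fun x =>
    mul_nonneg hθ1.le (div_nonneg (hNB x) (Real.sqrt_nonneg _)))]
  have F5 := fun k : ℕ => (ofReal_integral_eq_lintegral_ofReal (F1 _ (hε k))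
    (Eventually.of_forall (F2 _ (hε k)))).ge.trans (ENNReal.ofReal_le_ofReal (F4 _ (hε k)))
  refine lt_of_le_of_lt (setLIntegral_mono' hSm (g := fun x =>
    liminf (fun k : ℕ => ENNReal.ofReal (F (1 / ((k : ℝ) + 1)) x)) atTop) fun x hx => ?_)
    (lt_of_le_of_lt ((setLIntegral_le_lintegral _ _).trans ((lintegral_liminf_le' fun k =>
      (F1 _ (hε k)).aemeasurable.ennreal_ofReal).trans (liminf_le_of_frequently_le'
        (Eventually.of_forall F5).frequently))) ENNReal.ofReal_lt_top)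
  · by_cases h0 : nA (D2 u x) = 0
    · simp [h0]
    have t0 := tendsto_one_div_add_atTop_nhds_zero_nat (𝕜 := ℝ)
    have t1 := ENNReal.tendsto_ofReal (((tendsto_const_nhds (x := nB (D3 u x))).div
      ((t0.pow 2).const_add (nA (D2 u x))).sqrt
      (by simpa [Real.sqrt_eq_zero (hNA x)] using h0)).const_mul (1 - max θ 0))
    simp only [ne_eq, OfNat.ofNat_ne_zero, not_false_eq_true, zero_pow, add_zero] at t1
    rw [← t1.liminf_eq]
    refine liminf_le_liminf ?_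
    filter_upwards [t0.eventually (gt_mem_nhds (show 0 < u x / 2 by linarith [hx.2.2]))] with k hk
    exact ENNReal.ofReal_le_ofReal (F3 _ (hε k) x hx.1 hx.2.1 (by linarith))

end Vale.Agent.P098
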