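import Vale.Agent.P098.Iface

open MeasureTheory Set Metric Filter
open scoped ContDiff RealInnerProductSpace Topology NNReal

noncomputable section
namespace Vale.Agent.P098

variable {n : ℕ}

/-- The density of the energy. -/
def inv_dens (u : E n → ℝ) (x : E n) : ℝ :=
  ‖fderiv ℝ u x‖ ^ 2 + indicator {x | 0 < u x} (fun _ => (1 : ℝ)) x

theorem inv_norm_grad (u : E n → ℝ) (x : E n) : ‖gradient u x‖ = ‖fderiv ℝ u x‖ := by
  simp [gradient]

theorem inv_int1 {u : E n → ℝ} (hu : Lip u) {B : Set (E n)} (hB : volume B ≠ ⊤) :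
    IntegrableOn (fun x => ‖fderiv ℝ u x‖ ^ 2) B := by
  obtain ⟨L, hL⟩ := hu
  refine Measure.integrableOn_of_bounded (M := (L : ℝ) ^ 2) hB
    ((measurable_fderiv ℝ u).norm.pow_const 2).aestronglyMeasurable (ae_of_all _ fun x => ?_)
  rw [Real.norm_eq_abs, abs_of_nonneg (by positivity)]
  exact pow_le_pow_left₀ (norm_nonneg _) (norm_fderiv_le_of_lipschitz ℝ hL) 2

theorem inv_meas {u : E n → ℝ} (hu : Lip u) : MeasurableSet {x | 0 < u x} := by
  obtain ⟨L, hL⟩ := hu
  exact (isOpen_lt continuous_const hL.continuous).measurableSet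

theorem inv_int2 {u : E n → ℝ} (hu : Lip u) {B : Set (E n)} (hB : volume B ≠ ⊤) :
    IntegrableOn (indicator {x | 0 < u x} (fun _ => (1 : ℝ))) B :=
  (integrableOn_const hB).indicator (inv_meas hu)

theorem inv_int {u : E n → ℝ} (hu : Lip u) {B : Set (E n)} (hB : volume B ≠ ⊤) :
    IntegrableOn (inv_dens u) B := (inv_int1 hu hB).add (inv_int2 hu hB)

theorem inv_en {u : E n → ℝ} (hu : Lip u) {B : Set (E n)} (hB : volume B ≠ ⊤) :
    en B u = ∫ x in B, inv_dens u x := by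
  unfold en energy inv_dens
  rw [integral_add (inv_int1 hu hB) (inv_int2 hu hB), integral_indicator (inv_meas hu)]
  simp only [inv_norm_grad, integral_const, smul_eq_mul, mul_one]
  rw [Measure.real, Measure.restrict_apply MeasurableSet.univ, univ_inter,
    Measure.restrict_apply (inv_meas hu), inter_comm]

theorem inv_ae (h_aeq : S_aeq) {u v : E n → ℝ} (hu : Lip u) (hv : Lip v) :
    ∀ᵐ x, v x = u x → inv_dens v x = inv_dens u x := by
  obtain ⟨L, hL⟩ := hu
  obtain ⟨M, hM⟩ := hv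
  filter_upwards [h_aeq n (fun x => v x - u x) ⟨_, hM.sub hL⟩, hL.ae_differentiableAt,
    hM.ae_differentiableAt] with x h1 h2 h3 h4
  have h5 := h1 (sub_eq_zero.2 h4)
  rw [fderiv_fun_sub h3 h2, sub_eq_zero] at h5
  simp only [inv_dens, h5, indicator, mem_ofPred_eq, h4]

theorem inv_ball (h_aeq : S_aeq) {u v : E n → ℝ} (hu : LMin u) (hv : Lip v) (h0 : ∀ x, 0 ≤ v x)
    (c : E n) (r : ℝ) (h : ∀ x, x ∉ ball c r → v x = u x) :
    ∫ x in ball c r, inv_dens u x ≤ ∫ x in ball c r, inv_dens v x := by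
  have hsub : ball c r ⊆ ball (0 : E n) (r + ‖c‖) := ball_subset_ball' (by simp)
  have hfin : volume (ball (0 : E n) (r + ‖c‖)) ≠ ⊤ := measure_ball_lt_top.ne
  have h1 := hu.min (r + ‖c‖) v hv h0 fun x hx => h x fun hx' => by
    have := hsub hx'
    simp only [mem_ball, dist_zero_right] at this
    linarith
  rw [inv_en hu.lip hfin, inv_en hv hfin,
    ← integral_inter_add_diff (t := ball c r) measurableSet_ball (inv_int hu.lip hfin),
    ← integral_inter_add_diff (t := ball c r) measurableSet_ball (inv_int hv hfin),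
    inter_eq_self_of_subset_right hsub] at h1
  have h2 : ∫ x in ball (0 : E n) (r + ‖c‖) \ ball c r, inv_dens v x
      = ∫ x in ball (0 : E n) (r + ‖c‖) \ ball c r, inv_dens u x := by
    refine setIntegral_congr_ae (measurableSet_ball.diff measurableSet_ball) ?_
    filter_upwards [inv_ae h_aeq hu.lip hv] with x hx hx'
    exact hx (h x hx'.2)
  linarith

theorem inv_resc_fderiv (w : E n → ℝ) (x₀ : E n) {r : ℝ} (hr : 0 < r) (x : E n) :
    fderiv ℝ (resc w x₀ r) x = fderiv ℝ w (x₀ + r • x) := by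
  have h1 : resc w x₀ r = r⁻¹ • fun x => (fun y => w (x₀ + y)) (r • x) := by
    ext x
    simp [resc, div_eq_inv_mul]
  rw [h1, fderiv_const_smul_field, Pi.smul_apply, fderiv_comp_smul (f := fun y => w (x₀ + y)),
    fderiv_comp_add_left, smul_smul, inv_mul_cancel₀ hr.ne', one_smul]

theorem inv_resc_dens (w : E n → ℝ) (x₀ : E n) {r : ℝ} (hr : 0 < r) (x : E n) :
    inv_dens (resc w x₀ r) x = inv_dens w (x₀ + r • x) := by
  simp only [inv_dens, inv_resc_fderiv w x₀ hr, indicator, mem_ofPred_eq, resc,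
    div_pos_iff_of_pos_right hr]

theorem inv_resc_lip {w : E n → ℝ} (hw : Lip w) (x₀ : E n) {r : ℝ} (hr : 0 < r) :
    Lip (resc w x₀ r) := by
  obtain ⟨L, hL⟩ := hw
  refine ⟨L, LipschitzWith.of_dist_le_mul fun x y => ?_⟩
  have h1 := hL.dist_le_mul (x₀ + r • x) (x₀ + r • y)
  rw [dist_add_left, dist_smul₀, Real.norm_eq_abs, abs_of_pos hr] at h1
  simp only [resc, Real.dist_eq] at h1 ⊢
  rw [← sub_div, abs_div, abs_of_pos hr, div_le_iff₀ hr]
  linarith

theorem inv_mem (x₀ x : E n) {r : ℝ} (hr : 0 < r) (R : ℝ) :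
    x₀ + r • x ∈ ball x₀ (r * R) ↔ x ∈ ball (0 : E n) R := by
  simp only [mem_ball, dist_eq_norm, add_sub_cancel_left, sub_zero, norm_smul, Real.norm_eq_abs,
    abs_of_pos hr]
  exact mul_lt_mul_iff_right₀ hr

theorem inv_scale (g : E n → ℝ) (x₀ : E n) {r : ℝ} (hr : 0 < r) (R : ℝ) :
    ∫ x in ball (0 : E n) R, g (x₀ + r • x)
      = |(r ^ Module.finrank ℝ (E n))⁻¹| * ∫ y in ball x₀ (r * R), g y := by
  rw [← integral_indicator measurableSet_ball, ← integral_indicator measurableSet_ball,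
    ← integral_add_left_eq_self (indicator (ball x₀ (r * R)) g) x₀, ← smul_eq_mul,
    ← Measure.integral_comp_smul volume (fun y => indicator (ball x₀ (r * R)) g (x₀ + y)) r]
  congr 1
  ext x
  by_cases hx : x ∈ ball (0 : E n) R
  · rw [indicator_of_mem hx, indicator_of_mem ((inv_mem x₀ x hr R).2 hx)]
  · rw [indicator_of_notMem hx, indicator_of_notMem (mt (inv_mem x₀ x hr R).1 hx)]

theorem inv_resc (h_aeq : S_aeq) {u : E n → ℝ} (hu : LMin u) (x₀ : E n) {r : ℝ} (hr : 0 < r) :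
    LMin (resc u x₀ r) := by
  refine ⟨inv_resc_lip hu.lip x₀ hr, fun x => div_nonneg (hu.nonneg _) hr.le,
    fun R v hv h0 h => ?_⟩
  have hr' : 0 < r⁻¹ := inv_pos.2 hr
  set w : E n → ℝ := resc v (-(r⁻¹ • x₀)) r⁻¹ with hw
  have hvw : resc w x₀ r = v := by
    ext x
    simp [hw, resc, smul_smul, inv_mul_cancel₀ hr.ne', hr.ne']
  have hwl : Lip w := inv_resc_lip hv _ hr'
  have h1 := inv_ball h_aeq hu hwl (fun x => div_nonneg (h0 _) hr'.le) x₀ (r * R) fun y hy => by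
    have h2 : y = x₀ + r • (-(r⁻¹ • x₀) + r⁻¹ • y) := by
      simp [smul_smul, mul_inv_cancel₀ hr.ne']
    rw [h2, inv_mem _ _ hr] at hy
    have h3 := h _ (by simpa using hy)
    simp only [hw, resc] at h3 ⊢
    rw [h3, ← h2]
    field_simp
  have hfin : volume (ball (0 : E n) R) ≠ ⊤ := measure_ball_lt_top.ne
  rw [inv_en (inv_resc_lip hu.lip x₀ hr) hfin, inv_en hv hfin, ← hvw]
  simp only [inv_resc_dens _ _ hr]
  rw [inv_scale _ _ hr, inv_scale _ _ hr]
  exact mul_le_mul_of_nonneg_left h1 (abs_nonneg _)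

theorem inv_iso_dens (w : E n → ℝ) (R : E n ≃ₗᵢ[ℝ] E n) (x : E n) :
    inv_dens (w ∘ R) x = inv_dens w (R x) := by
  have h1 : fderiv ℝ (w ∘ R) x = (fderiv ℝ w (R x)).comp
      (R.toContinuousLinearEquiv : E n →L[ℝ] E n) :=
    R.toContinuousLinearEquiv.comp_right_fderiv
  have h2 : ‖fderiv ℝ (w ∘ R) x‖ = ‖fderiv ℝ w (R x)‖ := by
    rw [h1]
    exact ContinuousLinearMap.opNorm_comp_linearIsometryEquiv _ R
  simp only [inv_dens, h2, indicator, mem_ofPred_eq, Function.comp]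

theorem inv_iso_int (g : E n → ℝ) (R : E n ≃ₗᵢ[ℝ] E n) (ρ : ℝ) :
    ∫ x in ball (0 : E n) ρ, g (R x) = ∫ y in ball (0 : E n) ρ, g y := by
  rw [← R.measurePreserving.setIntegral_preimage_emb
    R.toHomeomorph.measurableEmbedding g (ball 0 ρ)]
  congr 2
  ext x
  simp

theorem inv_iso {u : E n → ℝ} (hu : LMin u) (R : E n ≃ₗᵢ[ℝ] E n) : LMin (u ∘ R) := by
  have hl : ∀ (w : E n → ℝ) (S : E n ≃ₗᵢ[ℝ] E n), Lip w → Lip (w ∘ S) := fun w S ⟨_, hL⟩ =>
    ⟨_, hL.comp S.lipschitz⟩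
  refine ⟨hl u R hu.lip, fun x => hu.nonneg _, fun ρ v hv h0 h => ?_⟩
  have hvw : (v ∘ R.symm) ∘ R = v := by
    ext x
    simp
  have hfin : volume (ball (0 : E n) ρ) ≠ ⊤ := measure_ball_lt_top.ne
  have h1 := hu.min ρ (v ∘ R.symm) (hl v R.symm hv) (fun x => h0 _) fun x hx => by
    have := h (R.symm x) (by simpa using hx)
    simpa using this
  rw [inv_en hu.lip hfin, inv_en (hl v R.symm hv) hfin] at h1
  rw [inv_en (hl u R hu.lip) hfin, inv_en hv hfin, ← hvw]
  simp only [inv_iso_dens _ R]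
  rw [inv_iso_int (inv_dens u), inv_iso_int (inv_dens (v ∘ R.symm))]
  exact h1

theorem inv_min (h_aeq : S_aeq) : S_inv := fun _ _ hu =>
  ⟨fun x₀ _ hr => inv_resc h_aeq hu x₀ hr, fun R => inv_iso hu R⟩

end Vale.Agent.P098
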