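import Vale.Agent.P098.Iv2

/-!
# P098: inner variation along radial fields
-/

open MeasureTheory Set Metric Filter
open scoped ContDiff RealInnerProductSpace Topology NNReal

noncomputable section
namespace Vale.Agent.P098

variable {n : ℕ}

lemma iv_deriv (η : ℝ → ℝ) (hη : ContDiff ℝ ∞ η) (x : E n) :
    HasFDerivAt (fun x : E n => η (‖x‖ ^ 2) • x)
      (iv_M (η (‖x‖ ^ 2)) (2 * deriv η (‖x‖ ^ 2)) x) x := by
  have h1 : HasDerivAt η (deriv η (‖x‖ ^ 2)) (‖x‖ ^ 2) :=
    (hη.differentiable (by simp) _).hasDerivAt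
  have h2 := h1.comp_hasFDerivAt x (hasStrictFDerivAt_norm_sq x).hasFDerivAt
  have h3 := h2.smul (hasFDerivAt_id x)
  refine h3.congr_fderiv ?_
  ext h i
  simp [iv_M_apply]
  left
  ring

lemma iv_bounds (η : ℝ → ℝ) (hη : ContDiff ℝ ∞ η) (hc : HasCompactSupport η) :
    ∃ K R : ℝ, 0 ≤ K ∧ 0 < R ∧ (∀ s, |η s| ≤ K ∧ |2 * deriv η s * s| ≤ K) ∧
      ∀ r, R ≤ r → η (r ^ 2) = 0 ∧ deriv η (r ^ 2) = 0 := by
  have hd : Continuous (deriv η) := hη.continuous_deriv (by simp)
  obtain ⟨K1, h1⟩ := hη.continuous.bounded_above_of_compact_support hc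
  have hc2 : HasCompactSupport fun s => 2 * deriv η s * s :=
    (hc.deriv.mul_left (f := fun _ => (2 : ℝ))).mul_right (f' := fun s => s)
  obtain ⟨K2, h2⟩ := (by fun_prop : Continuous fun s => 2 * deriv η s * s
    ).bounded_above_of_compact_support hc2
  obtain ⟨ρ, hρ⟩ := hc.isCompact.isBounded.subset_ball (0 : ℝ)
  refine ⟨max K1 K2, max ρ 1, le_max_of_le_left ((norm_nonneg _).trans (h1 0)),
    lt_max_of_lt_right one_pos, fun s => ⟨le_max_of_le_left (h1 s), le_max_of_le_right (h2 s)⟩,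
    fun r hr => ?_⟩
  have hn : r ^ 2 ∉ tsupport η := by
    intro hh
    have := hρ hh
    rw [mem_ball_zero_iff, Real.norm_eq_abs, abs_of_nonneg (sq_nonneg r)] at this
    have a1 := le_trans (le_max_left _ _) hr
    have a2 := le_trans (le_max_right _ _) hr
    nlinarith
  refine ⟨image_eq_zero_of_notMem_tsupport hn, ?_⟩
  exact image_eq_zero_of_notMem_tsupport fun hh => hn (tsupport_deriv_subset hh)

lemma iv_inv (X : E n → E n) (κ t : ℝ) (hX : ∀ x y, ‖X x - X y‖ ≤ κ * ‖x - y‖)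
    (ht : |t| * κ ≤ 1 / 2) : ∃ Ψ : E n → E n, LipschitzWith 2 Ψ ∧ (∀ y, Ψ y + t • X (Ψ y) = y) ∧
      ∀ x, Ψ (x + t • X x) = x := by
  have h1 : ∀ x y, ‖t • X x - t • X y‖ ≤ 1 / 2 * ‖x - y‖ := by
    intro x y
    rw [← smul_sub, norm_smul, Real.norm_eq_abs]
    have a1 := mul_le_mul_of_nonneg_left (hX x y) (abs_nonneg t)
    have a2 := mul_le_mul_of_nonneg_right ht (norm_nonneg (x - y))
    linarith
  have h2 : ∀ x y, ‖x - y‖ ≤ 2 * ‖(x + t • X x) - (y + t • X y)‖ := by
    intro x y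
    have e : x - y = ((x + t • X x) - (y + t • X y)) - (t • X x - t • X y) := by abel
    have a1 := norm_sub_le ((x + t • X x) - (y + t • X y)) (t • X x - t • X y)
    rw [← e] at a1
    linarith [h1 x y]
  have h3 : ∀ y, ∃ x, x + t • X x = y := by
    intro y
    have hc : ContractingWith (1 / 2) fun x => y - t • X x := by
      refine ⟨by norm_num, LipschitzWith.of_dist_le_mul fun a b => ?_⟩
      rw [dist_eq_norm, dist_eq_norm, sub_sub_sub_cancel_left, norm_sub_rev]
      simpa using h1 a b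
    refine ⟨hc.fixedPoint _, ?_⟩
    have := hc.fixedPoint_isFixedPt
    exact eq_sub_iff_add_eq.1 this.symm
  choose Ψ hΨ using h3
  refine ⟨Ψ, LipschitzWith.of_dist_le_mul fun a b => ?_, hΨ, fun x => ?_⟩
  · have := h2 (Ψ a) (Ψ b)
    rw [hΨ, hΨ] at this
    simpa [dist_eq_norm] using this
  · have := h2 (Ψ (x + t • X x)) x
    rw [hΨ, sub_self, norm_zero, mul_zero] at this
    exact sub_eq_zero.1 (norm_le_zero_iff.1 this)

lemma iv_meas_grad (v : E n → ℝ) : Measurable (gradient v) :=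
  (InnerProductSpace.toDual ℝ (E n)).symm.continuous.measurable.comp (measurable_fderiv ℝ v)

lemma iv_norm_grad (v : E n → ℝ) (L : ℝ≥0) (hv : LipschitzWith L v) (x : E n) :
    ‖gradient v x‖ ≤ L := by
  rw [gradient, LinearIsometryEquiv.norm_map]
  exact norm_fderiv_le_of_lipschitz ℝ hv

lemma iv_ind (v : E n → ℝ) (x : E n) : 0 ≤ (Om v).indicator (fun _ => (1 : ℝ)) x ∧
    (Om v).indicator (fun _ => (1 : ℝ)) x ≤ 1 := by
  by_cases h : x ∈ Om v <;> simp [h]

lemma iv_meas_Om (v : E n → ℝ) (hv : Continuous v) : MeasurableSet (Om v) :=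
  (isOpen_lt continuous_const hv).measurableSet

lemma iv_int_of_bdd (f : E n → ℝ) (R C : ℝ) (hf : Measurable f) (hC : ∀ x, |f x| ≤ C) :
    IntegrableOn f (ball 0 R) :=
  Measure.integrableOn_of_bounded (M := C) measure_ball_lt_top.ne hf.aestronglyMeasurable
    (Eventually.of_forall hC)

lemma iv_en (v : E n → ℝ) (hv : Lip v) (R : ℝ) : en (ball 0 R) v =
    ∫ x in ball 0 R, (‖gradient v x‖ ^ 2 + (Om v).indicator (fun _ => (1 : ℝ)) x) := by
  obtain ⟨L, hL⟩ := hv
  have hm := iv_meas_Om v hL.continuous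
  rw [integral_add, integral_indicator hm]
  · simp only [en, energy, integral_const, smul_eq_mul, mul_one]
    congr 1
    rw [measureReal_restrict_apply_univ, measureReal_restrict_apply hm, inter_comm]
    rfl
  · refine iv_int_of_bdd _ R (L ^ 2) ((iv_meas_grad v).norm.pow_const 2) fun x => ?_
    rw [abs_of_nonneg (sq_nonneg _)]
    exact pow_le_pow_left₀ (norm_nonneg _) (iv_norm_grad v L hL x) 2
  · refine iv_int_of_bdd _ R 1 (measurable_const.indicator hm) fun x => ?_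
    rw [abs_of_nonneg (iv_ind v x).1]; exact (iv_ind v x).2

lemma iv_zero (I C δ : ℝ) (hδ : 0 < δ) (h : ∀ t, |t| ≤ δ → 0 ≤ t * I + C * t ^ 2) : I = 0 := by
  by_contra hI
  have hI2 : 0 < |I| := abs_pos.2 hI
  obtain ⟨s, s0, s1, s2⟩ : ∃ s : ℝ, 0 < s ∧ s * |I| ≤ δ ∧ s * |C| < 1 := by
    refine ⟨min (δ / |I|) (1 / (|C| + 1)), by positivity, ?_, ?_⟩
    · rw [← le_div_iff₀ hI2]; exact min_le_left _ _
    · have a1 : min (δ / |I|) (1 / (|C| + 1)) * (|C| + 1) ≤ 1 := by
        rw [← le_div_iff₀ (by positivity)]; exact min_le_right _ _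
      have a2 : 0 < min (δ / |I|) (1 / (|C| + 1)) := by positivity
      linarith
  have h1 := h (-(s * I)) (by rw [abs_neg, abs_mul, abs_of_pos s0]; exact s1)
  have h2 : 0 < s * I ^ 2 := by positivity
  have h3 : s * C < 1 := lt_of_le_of_lt (mul_le_mul_of_nonneg_left (le_abs_self C) s0.le) s2
  nlinarith

/-- The transformed competitor. -/
lemma iv_comp (m : ℕ) (u : E (m + 1) → ℝ) (hu : LMin u) (α γ : E (m + 1) → ℝ) (K R t : ℝ)
    (hK : 0 ≤ K) (hd : ∀ x, HasFDerivAt (fun x => α x • x) (iv_M (α x) (γ x) x) x)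
    (h1 : ∀ x, |α x| ≤ K) (h2 : ∀ x, |γ x * ‖x‖ ^ 2| ≤ K) (h3 : ∀ x, R ≤ ‖x‖ → α x = 0)
    (ht : |t| * (2 * K) ≤ 1 / 2) :
    ∃ w : E (m + 1) → E (m + 1), (∀ᵐ x, gradient u x = w x + t • iv_M (α x) (γ x) x (w x)) ∧
      en (ball 0 R) u ≤ ∫ x in ball 0 R, (1 + t * α x) ^ m * (1 + t * α x + t * (γ x * ‖x‖ ^ 2)) *
        (‖w x‖ ^ 2 + (Om u).indicator (fun _ => (1 : ℝ)) x) := by
  obtain ⟨L, hL⟩ := hu.lip
  have hX : ∀ x y : E (m + 1), ‖α x • x - α y • y‖ ≤ 2 * K * ‖x - y‖ := by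
    intro x y
    have := lipschitzWith_of_nnnorm_fderiv_le (𝕜 := ℝ) (f := fun x : E (m + 1) => α x • x)
      (C := (2 * K).toNNReal) (fun x => (hd x).differentiableAt) fun x => by
        rw [(hd x).fderiv, ← NNReal.coe_le_coe, Real.coe_toNNReal _ (by positivity)]
        exact ContinuousLinearMap.opNorm_le_bound _ (by positivity)
          fun h => iv_M_norm _ _ K x h (h1 x) (h2 x)
    have h := this.dist_le_mul x y
    rwa [Real.coe_toNNReal _ (by positivity), dist_eq_norm, dist_eq_norm] at h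
  obtain ⟨Ψ, hΨ, r1, r2⟩ := iv_inv (fun x => α x • x) (2 * K) t hX ht
  have hΦ : ∀ x, HasFDerivAt (fun x : E (m + 1) => x + t • α x • x)
      (ContinuousLinearMap.id ℝ (E (m + 1)) + t • iv_M (α x) (γ x) x) x :=
    fun x => (hasFDerivAt_id x).add ((hd x).const_smul t)
  have ta : ∀ x, 1 / 2 ≤ 1 + t * α x ∧ 1 / 2 ≤ 1 + t * α x + t * (γ x * ‖x‖ ^ 2) := by
    intro x
    have a1 : |t * α x| ≤ |t| * K := by rw [abs_mul]; gcongr; exact h1 x
    have a2 : |t * (γ x * ‖x‖ ^ 2)| ≤ |t| * K := by rw [abs_mul]; gcongr; exact h2 x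
    constructor <;> linarith [neg_abs_le (t * α x), neg_abs_le (t * (γ x * ‖x‖ ^ 2)),
      abs_nonneg (t * (γ x * ‖x‖ ^ 2))]
  have hdet := fun x => iv_det m (α x) (γ x) t x (by linarith [(ta x).1])
  have hpos : ∀ x, 0 < (1 + t * α x) ^ m * (1 + t * α x + t * (γ x * ‖x‖ ^ 2)) := fun x =>
    mul_pos (pow_pos (by linarith [(ta x).1]) m) (by linarith [(ta x).2])
  have hfix : ∀ x, R ≤ ‖x‖ → Ψ x = x := by
    intro x hx
    have := r2 x
    rwa [h3 x hx, zero_smul, smul_zero, add_zero] at this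
  have hv : Lip (u ∘ Ψ) := ⟨_, hL.comp hΨ⟩
  have hmin := hu.min R (u ∘ Ψ) hv (fun x => hu.nonneg _) fun x hx => by
    rw [Function.comp, hfix x hx]
  have him : (fun x : E (m + 1) => x + t • α x • x) '' ball 0 R = ball 0 R := by
    ext y
    constructor
    · rintro ⟨x, hx, rfl⟩
      by_contra hy
      rw [mem_ball_zero_iff, not_lt] at hy
      have e := hfix _ hy
      rw [r2 x] at e
      rw [← e] at hy
      exact absurd (mem_ball_zero_iff.1 hx) (not_lt.2 hy)
    · intro hy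
      refine ⟨Ψ y, ?_, r1 y⟩
      by_contra hx
      rw [mem_ball_zero_iff, not_lt] at hx
      have e := r1 y
      rw [h3 _ hx, zero_smul, smul_zero, add_zero] at e
      rw [e] at hx
      exact absurd (mem_ball_zero_iff.1 hy) (not_lt.2 hx)
  refine ⟨fun x => gradient (u ∘ Ψ) (x + t • α x • x), ?_, hmin.trans (le_of_eq ?_)⟩
  · filter_upwards [hL.ae_differentiableAt (μ := volume)] with x hx
    have hA : (ContinuousLinearMap.id ℝ (E (m + 1)) + t • iv_M (α x) (γ x) x).det ≠ 0 := by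
      rw [hdet x]; exact (hpos x).ne'
    have d1 : DifferentiableAt ℝ Ψ (x + t • α x • x) := by
      refine (HasFDerivAt.of_local_left_inverse (f := fun x : E (m + 1) => x + t • α x • x)
        (f' := ContinuousLinearMap.toContinuousLinearEquivOfDetNeZero _ hA)
        hΨ.continuous.continuousAt ?_ (Eventually.of_forall r1)).differentiableAt
      rw [ContinuousLinearMap.coe_toContinuousLinearEquivOfDetNeZero, r2 x]
      exact hΦ x
    have d2 : DifferentiableAt ℝ (u ∘ Ψ) (x + t • α x • x) :=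
      DifferentiableAt.comp _ (by rw [r2 x]; exact hx) d1
    have d3 := d2.hasFDerivAt.comp x (hΦ x)
    have e : (u ∘ Ψ) ∘ (fun x : E (m + 1) => x + t • α x • x) = u := by
      funext y; simp only [Function.comp]; rw [r2 y]
    rw [e] at d3
    refine ext_inner_right ℝ fun h => ?_
    rw [inner_gradient_left, d3.fderiv, inner_add_left, real_inner_smul_left, ← iv_M_symm,
      inner_gradient_left, inner_gradient_left]
    simp
  · rw [iv_en _ hv]
    conv_lhs => rw [← him]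
    rw [integral_image_eq_integral_abs_det_fderiv_smul volume measurableSet_ball
      (fun x _ => (hΦ x).hasFDerivWithinAt) (fun a _ b _ hab => by
        have := congrArg Ψ hab
        rwa [r2, r2] at this)]
    refine integral_congr_ae (Eventually.of_forall fun x => ?_)
    simp only [smul_eq_mul]
    rw [hdet x, abs_of_pos (hpos x)]
    congr 2
    have e : x + t • α x • x ∈ Om (u ∘ Ψ) ↔ x ∈ Om u := by
      simp only [Om, mem_ofPred_eq, Function.comp]; rw [r2 x]
    by_cases hx : x ∈ Om u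
    · rw [indicator_of_mem hx, indicator_of_mem (e.2 hx)]
    · rw [indicator_of_notMem hx, indicator_of_notMem fun hh => hx (e.1 hh)]

theorem iv : S_iv := by
  intro n u η hu hη hc
  rcases n with _ | m
  · refine integral_eq_zero_of_ae (Eventually.of_forall fun x => ?_)
    have e1 : x = 0 := Subsingleton.elim _ _
    have e2 : gradient u x = 0 := Subsingleton.elim _ _
    simp only [e2]
    simp [e1]
  obtain ⟨K, R, hK, hR, hb, hz⟩ := iv_bounds η hη hc
  obtain ⟨L, hL⟩ := hu.lip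
  obtain ⟨C, hC⟩ := iv_pt m K L hK
  have hd : Continuous (deriv η) := hη.continuous_deriv (by simp)
  have hη0 := hη.continuous
  have hg := iv_meas_grad u
  have hχ : Measurable ((Om u).indicator fun _ => (1 : ℝ)) :=
    measurable_const.indicator (iv_meas_Om u hL.continuous)
  have hgL := iv_norm_grad u L hL
  have hg2 : ∀ x, ‖gradient u x‖ ^ 2 ≤ (L : ℝ) ^ 2 := fun x =>
    pow_le_pow_left₀ (norm_nonneg _) (hgL x) 2
  set F : E (m + 1) → ℝ := fun x => (‖gradient u x‖ ^ 2 + (Om u).indicator (fun _ => (1 : ℝ)) x) *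
      (((m + 1 : ℕ) : ℝ) * η (‖x‖ ^ 2) + 2 * deriv η (‖x‖ ^ 2) * ‖x‖ ^ 2) -
      2 * η (‖x‖ ^ 2) * ‖gradient u x‖ ^ 2 - 4 * deriv η (‖x‖ ^ 2) * ⟪x, gradient u x⟫ ^ 2 with hF
  have hFm : Measurable F := by
    have a1 : Measurable fun x : E (m + 1) => η (‖x‖ ^ 2) := by fun_prop
    have a2 : Measurable fun x : E (m + 1) => deriv η (‖x‖ ^ 2) :=
      (hd.comp (by fun_prop)).measurable
    have a3 : Measurable fun x : E (m + 1) => ⟪x, gradient u x⟫ := measurable_id.inner hg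
    rw [hF]
    fun_prop
  have hFi : IntegrableOn F (ball 0 R) := by
    refine iv_int_of_bdd F R (((L : ℝ) ^ 2 + 1) * (((m + 1 : ℕ) : ℝ) * K + K) +
      2 * (2 * K * L ^ 2)) hFm fun x => ?_
    have e : F x = (‖gradient u x‖ ^ 2 + (Om u).indicator (fun _ => (1 : ℝ)) x) *
        (((m + 1 : ℕ) : ℝ) * η (‖x‖ ^ 2) + 2 * deriv η (‖x‖ ^ 2) * ‖x‖ ^ 2) - 2 *
        ⟪gradient u x, iv_M (η (‖x‖ ^ 2)) (2 * deriv η (‖x‖ ^ 2)) x (gradient u x)⟫ := by
      rw [iv_M_self, hF]; ring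
    have v2 := (iv_vec (iv_M (η (‖x‖ ^ 2)) (2 * deriv η (‖x‖ ^ 2)) x) (2 * K) L 0 (gradient u x)
      (gradient u x) (by positivity) (fun h => iv_M_norm _ _ K x h (hb _).1 (hb _).2)
      (fun a b => iv_M_symm _ _ x a b) (by simp) (by simp) (hgL x)).2.1
    rw [e]
    refine (abs_sub _ _).trans (add_le_add ?_ ?_)
    · rw [abs_mul, abs_of_nonneg (add_nonneg (sq_nonneg _) (iv_ind u x).1)]
      refine mul_le_mul (add_le_add (hg2 x) (iv_ind u x).2) ?_ (abs_nonneg _) (by positivity)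
      refine (abs_add_le _ _).trans (add_le_add ?_ (hb _).2)
      rw [abs_mul, Nat.abs_cast]
      exact mul_le_mul_of_nonneg_left (hb _).1 (Nat.cast_nonneg _)
    · rw [abs_mul, abs_two]; linarith
  have hSi : IntegrableOn (fun x => ‖gradient u x‖ ^ 2 + (Om u).indicator (fun _ => (1 : ℝ)) x)
      (ball 0 R) := by
    refine iv_int_of_bdd _ R (L ^ 2 + 1) (by fun_prop) fun x => ?_
    rw [abs_of_nonneg (add_nonneg (sq_nonneg _) (iv_ind u x).1)]
    exact add_le_add (hg2 x) (iv_ind u x).2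
  rw [← setIntegral_eq_integral_of_forall_compl_eq_zero (s := ball 0 R) (fun x hx => by
    rw [mem_ball_zero_iff, not_lt] at hx
    simp only [(hz _ hx).1, (hz _ hx).2]
    ring)]
  change ∫ x in ball 0 R, F x = 0
  refine iv_zero _ (C * volume.real (ball (0 : E (m + 1)) R)) (min 1 (1 / (4 * K + 1)))
    (by positivity) fun t ht => ?_
  have t1 : |t| ≤ 1 := ht.trans (min_le_left _ _)
  have t2 : |t| * (2 * K) ≤ 1 / 2 := by
    have a1 : |t| * (4 * K + 1) ≤ 1 := by
      rw [← le_div_iff₀ (by positivity)]; exact ht.trans (min_le_right _ _)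
    linarith [abs_nonneg t]
  obtain ⟨w, hw, hen⟩ := iv_comp m u hu (fun x => η (‖x‖ ^ 2)) (fun x => 2 * deriv η (‖x‖ ^ 2))
    K R t hK (iv_deriv η hη) (fun x => (hb _).1) (fun x => (hb _).2) (fun x hx => (hz _ hx).1) t2
  have hci : IntegrableOn (fun _ : E (m + 1) => C * t ^ 2) (ball 0 R) :=
    integrableOn_const measure_ball_lt_top.ne
  have hi1 : IntegrableOn (fun x => ‖gradient u x‖ ^ 2 + (Om u).indicator (fun _ => (1 : ℝ)) x +
      t * F x) (ball 0 R) := Integrable.add hSi (hFi.const_mul t)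
  have hle := hen.trans (integral_mono_of_nonneg
    (g := fun x => ‖gradient u x‖ ^ 2 + (Om u).indicator (fun _ => (1 : ℝ)) x + t * F x + C * t ^ 2)
    (Eventually.of_forall fun x => ?_) (Integrable.add hi1 hci) ?_)
  · rw [integral_add hi1 hci, integral_add hSi (hFi.const_mul t),
      ← iv_en u hu.lip, integral_const_mul, setIntegral_const, smul_eq_mul] at hle
    linarith
  · have a1 : |t * η (‖x‖ ^ 2)| ≤ |t| * K := by rw [abs_mul]; gcongr; exact (hb _).1
    have a2 : |t * (2 * deriv η (‖x‖ ^ 2) * ‖x‖ ^ 2)| ≤ |t| * K := by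
      rw [abs_mul]; gcongr; exact (hb _).2
    have a3 := neg_abs_le (t * η (‖x‖ ^ 2))
    have a4 := neg_abs_le (t * (2 * deriv η (‖x‖ ^ 2) * ‖x‖ ^ 2))
    have a5 := abs_nonneg (t * (2 * deriv η (‖x‖ ^ 2) * ‖x‖ ^ 2))
    exact mul_nonneg (mul_nonneg (pow_nonneg (by linarith) m) (by linarith))
      (add_nonneg (sq_nonneg _) (iv_ind u x).1)
  · filter_upwards [ae_restrict_of_ae hw] with x hx
    refine (hC _ _ t _ x (gradient u x) (w x) (hb _).1 (hb _).2 t1 t2 (iv_ind u x).1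
      (iv_ind u x).2 hx (hgL x)).trans (le_of_eq ?_)
    rw [hF]; ring

end Vale.Agent.P098
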