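import Vale.Agent.P098.Iface

open MeasureTheory Set Metric Filter
open scoped ContDiff RealInnerProductSpace Topology NNReal

noncomputable section
namespace Vale.Agent.P098

variable {n : ℕ}

theorem jet_c1 (b : T1 n) (i : Fin n) : |b i| ≤ ‖b‖ := norm_le_pi_norm b i

theorem jet_c2 (A : T2 n) (i j : Fin n) : |A i j| ≤ ‖A‖ :=
  (norm_le_pi_norm (A i) j).trans (norm_le_pi_norm A i)

theorem jet_c3 (B : T3 n) (i j k : Fin n) : |B i j k| ≤ ‖B‖ :=
  (jet_c2 (B i) j k).trans (norm_le_pi_norm B i)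

theorem jet_cx (x : E n) (i : Fin n) : |x i| ≤ ‖x‖ := PiLp.norm_apply_le x i

theorem jet_sum {f : Fin n → ℝ} {M : ℝ} (h : ∀ i, |f i| ≤ M) : |∑ i, f i| ≤ n * M := by
  refine (Finset.abs_sum_le_sum_abs _ _).trans ?_
  refine (Finset.sum_le_sum fun i _ => h i).trans ?_
  simp

theorem jet_mul {a b M N : ℝ} (ha : |a| ≤ M) (hb : |b| ≤ N) : |a * b| ≤ M * N := by
  rw [abs_mul]
  exact mul_le_mul ha hb (abs_nonneg _) ((abs_nonneg _).trans ha)

theorem jet_norm (v : E n) {M : ℝ} (h : ∀ i, |v i| ≤ M) : ‖v‖ ≤ n * M := by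
  have h1 : v = ∑ i, EuclideanSpace.single i (v i) := by
    ext j
    simp [Finset.sum_apply, Pi.single_apply]
  rw [h1]
  refine (norm_sum_le _ _).trans ?_
  refine (Finset.sum_le_sum fun i _ => (by simpa using h i :
    ‖EuclideanSpace.single i (v i)‖ ≤ M)).trans ?_
  simp

theorem jet_cub_le (b : T1 n) (A : T2 n) (B : T3 n) (x : E n) {r : ℝ} (hx : ‖x‖ ≤ r) :
    |cub b A B x| ≤ n * (‖b‖ * r) + n * (n * (‖A‖ * r * r)) + n * (n * (n * (‖B‖ * r * r * r))) := by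
  have hxi : ∀ i, |x i| ≤ r := fun i => (jet_cx x i).trans hx
  have h1 : |∑ i, b i * x i| ≤ n * (‖b‖ * r) := jet_sum fun i => jet_mul (jet_c1 b i) (hxi i)
  have h2 : |∑ i, ∑ j, A i j * x i * x j| ≤ n * (n * (‖A‖ * r * r)) :=
    jet_sum fun i => jet_sum fun j => jet_mul (jet_mul (jet_c2 A i j) (hxi i)) (hxi j)
  have h3 : |∑ i, ∑ j, ∑ k, B i j k * x i * x j * x k| ≤ n * (n * (n * (‖B‖ * r * r * r))) :=
    jet_sum fun i => jet_sum fun j => jet_sum fun k =>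
      jet_mul (jet_mul (jet_mul (jet_c3 B i j k) (hxi i)) (hxi j)) (hxi k)
  have p2 := (abs_nonneg _).trans h2
  have p3 := (abs_nonneg _).trans h3
  rw [abs_le] at h1 h2 h3 ⊢
  unfold cub
  constructor <;> linarith [h1.1, h1.2, h2.1, h2.2, h3.1, h3.2]

theorem jet_cub_sub (b b' : T1 n) (A A' : T2 n) (B B' : T3 n) (x : E n) :
    cub (b - b') (A - A') (B - B') x = cub b A B x - cub b' A' B' x := by
  simp only [cub, Pi.sub_apply, sub_mul, Finset.sum_sub_distrib]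
  ring

theorem jet_cub_add (b b' : T1 n) (A A' : T2 n) (B B' : T3 n) (c : ℝ) (x : E n) :
    cub (b + c • b') (A + c • A') (B + c • B') x = cub b A B x + c * cub b' A' B' x := by
  simp only [cub, Pi.add_apply, Pi.smul_apply, smul_eq_mul, add_mul, Finset.sum_add_distrib,
    mul_assoc, ← Finset.mul_sum]
  ring

theorem jet_cub_scale (b : T1 n) (A : T2 n) (B : T3 n) (r : ℝ) (x : E n) :
    cub b A B (r • x) = r * cub b (r • A) (r ^ 2 • B) x := by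
  simp only [cub, Pi.smul_apply, smul_eq_mul, PiLp.smul_apply, mul_add, Finset.mul_sum]
  refine congrArg₂ _ (congrArg₂ _ ?_ ?_) ?_
  · exact Finset.sum_congr rfl fun i _ => by ring
  · exact Finset.sum_congr rfl fun i _ => Finset.sum_congr rfl fun j _ => by ring
  · exact Finset.sum_congr rfl fun i _ => Finset.sum_congr rfl fun j _ =>
      Finset.sum_congr rfl fun k _ => by ring

theorem jet_cub_zero (b : T1 n) (A : T2 n) (B : T3 n) : cub b A B 0 = 0 := by simp [cub]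

theorem jet_hh (b : T1 n) (A : T2 n) (r : ℝ) : hh b (r • A) = r * hh b A := by
  simp only [hh, Pi.smul_apply, smul_eq_mul, mul_assoc, ← Finset.mul_sum]
  ring

theorem jet_adm_scale {b : T1 n} {A : T2 n} {B : T3 n} (h : Adm b A B) (r : ℝ) :
    Adm b (r • A) (r ^ 2 • B) where
  st :=
    { a := fun i j => by simp only [Pi.smul_apply, h.st.a i j]
      b1 := fun i j k => by simp only [Pi.smul_apply, h.st.b1 i j k]
      b2 := fun i j k => by simp only [Pi.smul_apply, h.st.b2 i j k]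
      ta := by simp only [Pi.smul_apply, smul_eq_mul, ← Finset.mul_sum, h.st.ta, mul_zero]
      tb := fun k => by
        simp only [Pi.smul_apply, smul_eq_mul, ← Finset.mul_sum, h.st.tb k, mul_zero] }
  unit := h.unit
  eig := fun i => by
    simp only [Pi.smul_apply, smul_eq_mul, mul_assoc, ← Finset.mul_sum, h.eig i, jet_hh]
    ring
  tang := fun x y hx hy => by
    have h1 := congrArg (fun t => r ^ 2 * t) (h.tang x y hx hy)
    simp only [mul_zero, Finset.mul_sum] at h1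
    rw [← h1]
    refine Finset.sum_congr rfl fun i _ => Finset.sum_congr rfl fun j _ => ?_
    have e1 : ∑ k, (r • A) i k * (r • A) k j = r ^ 2 * ∑ k, A i k * A k j := by
      rw [Finset.mul_sum]
      exact Finset.sum_congr rfl fun k _ => by simp only [Pi.smul_apply, smul_eq_mul]; ring
    have e2 : ∑ k, (r ^ 2 • B) i j k * b k = r ^ 2 * ∑ k, B i j k * b k := by
      rw [Finset.mul_sum]
      exact Finset.sum_congr rfl fun k _ => by simp only [Pi.smul_apply, smul_eq_mul]; ring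
    rw [e1, e2, jet_hh]
    simp only [Pi.smul_apply, smul_eq_mul]
    ring

theorem jet_unit {e : E n} (he : ‖e‖ = 1) : ∑ i, e i ^ 2 = 1 := by
  have h := EuclideanSpace.real_norm_sq_eq e
  rw [he] at h
  linarith

theorem jet_adm_start {e : E n} (he : ‖e‖ = 1) : Adm (fun i => e i) 0 0 where
  st := ⟨fun _ _ => rfl, fun _ _ _ => rfl, fun _ _ _ => rfl, by simp, by simp⟩
  unit := jet_unit he
  eig := fun i => by simp [hh]
  tang := fun x y _ _ => by simp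

theorem jet_cub_start (e x : E n) : cub (fun i => e i) 0 0 x = ⟪x, e⟫ := by
  simp [cub, PiLp.inner_apply]

theorem jet_adm_lim {s : ℕ → T1 n × T2 n × T3 n} {a : T1 n × T2 n × T3 n}
    (h : Tendsto s atTop (𝓝 a)) (hs : ∀ j, Adm (s j).1 (s j).2.1 (s j).2.2) :
    Adm a.1 a.2.1 a.2.2 := by
  have key : ∀ F G : T1 n × T2 n × T3 n → ℝ, Continuous F → Continuous G →
      (∀ j, F (s j) = G (s j)) → F a = G a := fun F G hF hG e =>
    tendsto_nhds_unique ((hF.tendsto a).comp h)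
      (((hG.tendsto a).comp h).congr fun j => (e j).symm)
  refine ⟨⟨fun i j => ?_, fun i j k => ?_, fun i j k => ?_, ?_, fun k => ?_⟩, ?_, fun i => ?_,
    fun x y hx hy => ?_⟩
  · exact key (fun s => s.2.1 i j) (fun s => s.2.1 j i) (by fun_prop) (by fun_prop)
      fun l => (hs l).st.a i j
  · exact key (fun s => s.2.2 i j k) (fun s => s.2.2 j i k) (by fun_prop) (by fun_prop)
      fun l => (hs l).st.b1 i j k
  · exact key (fun s => s.2.2 i j k) (fun s => s.2.2 i k j) (by fun_prop) (by fun_prop)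
      fun l => (hs l).st.b2 i j k
  · exact key (fun s => ∑ i, s.2.1 i i) (fun _ => 0) (by fun_prop) (by fun_prop)
      fun l => (hs l).st.ta
  · exact key (fun s => ∑ i, s.2.2 i i k) (fun _ => 0) (by fun_prop) (by fun_prop)
      fun l => (hs l).st.tb k
  · exact key (fun s => ∑ i, s.1 i ^ 2) (fun _ => 1) (by fun_prop) (by fun_prop)
      fun l => (hs l).unit
  · exact key (fun s => ∑ j, s.2.1 i j * s.1 j) (fun s => -hh s.1 s.2.1 * s.1 i) (by fun_prop)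
      (by unfold hh; fun_prop) fun l => (hs l).eig i
  · have orth : ∀ (b z : T1 n), ∑ i, b i ^ 2 = 1 →
        ∑ i, b i * (z i - (∑ m, b m * z m) * b i) = 0 := fun b z hb => by
      have e : ∀ i, b i * (z i - (∑ m, b m * z m) * b i) =
          b i * z i - (∑ m, b m * z m) * b i ^ 2 := fun i => by ring
      simp only [e, Finset.sum_sub_distrib, ← Finset.mul_sum, hb, mul_one, sub_self]
    have h1 := key (fun s => ∑ i, ∑ j, (∑ k, s.2.2 i j k * s.1 k + ∑ k, s.2.1 i k * s.2.1 k j +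
        hh s.1 s.2.1 * s.2.1 i j) * (x i - (∑ m, s.1 m * x m) * s.1 i) *
          (y j - (∑ m, s.1 m * y m) * s.1 j)) (fun _ => 0) (by unfold hh; fun_prop) (by fun_prop)
      fun l => (hs l).tang _ _ (orth _ x (hs l).unit) (orth _ y (hs l).unit)
    simpa only [hx, hy, zero_mul, sub_zero] using h1

theorem jet_trap_mono {u P P' : E n → ℝ} {a b a' b' d : ℝ} {S S' : Set (E n)}
    (h : Trap u P a b S) (hS : S' ⊆ S) (hd : ∀ x ∈ S', |P' x - P x| ≤ d) (ha : a' ≤ a - d)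
    (hb : b + d ≤ b') : Trap u P' a' b' S' := fun x hx => by
  have h1 := abs_le.1 (hd x hx)
  obtain ⟨h2, h3⟩ := h x (hS hx)
  exact ⟨by linarith [h1.2], h3.trans (max_le_max (by linarith [h1.1]) le_rfl)⟩

theorem jet_trap_down {u : E n → ℝ} {b : T1 n} {A : T2 n} {B : T3 n} {r s c : ℝ} (hr : 0 < r)
    (h : Trap u (cub b A B) (-(r * c)) (r * c) (ball 0 (r * s))) :
    Trap (resc u 0 r) (cub b (r • A) (r ^ 2 • B)) (-c) c (ball 0 s) := fun x hx => by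
  have hx' : r • x ∈ ball (0 : E n) (r * s) := by
    rw [mem_ball_zero_iff] at hx ⊢
    rw [norm_smul, Real.norm_of_nonneg hr.le]
    exact mul_lt_mul_of_pos_left hx hr
  obtain ⟨h1, h2⟩ := h _ hx'
  rw [jet_cub_scale] at h1 h2
  simp only [resc, zero_add]
  refine ⟨by rw [le_div_iff₀ hr]; linarith, ?_⟩
  rw [div_le_iff₀ hr, max_mul_of_nonneg _ _ hr.le]
  exact h2.trans (max_le_max (by linarith) (by linarith))

theorem jet_trap_up {u : E n → ℝ} {b : T1 n} {A : T2 n} {B : T3 n} {r s c : ℝ} (hr : 0 < r)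
    (h : Trap (resc u 0 r) (cub b (r • A) (r ^ 2 • B)) (-c) c (ball 0 s)) :
    Trap u (cub b A B) (-(r * c)) (r * c) (ball 0 (r * s)) := fun x hx => by
  have hx' : r⁻¹ • x ∈ ball (0 : E n) s := by
    rw [mem_ball_zero_iff] at hx ⊢
    rw [norm_smul, Real.norm_of_nonneg (inv_nonneg.2 hr.le), inv_mul_lt_iff₀ hr]
    exact hx
  obtain ⟨h1, h2⟩ := h _ hx'
  have e : r • r⁻¹ • x = x := smul_inv_smul₀ hr.ne' x
  have e2 := jet_cub_scale b A B r (r⁻¹ • x)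
  rw [e] at e2
  simp only [resc, zero_add, e] at h1 h2
  rw [le_div_iff₀ hr] at h1
  rw [div_le_iff₀ hr, max_mul_of_nonneg _ _ hr.le] at h2
  exact ⟨by linarith, h2.trans (max_le_max (by linarith) (by linarith))⟩

theorem jet_fb {u : E n → ℝ} (h : FB u 0) {r : ℝ} (hr : 0 < r) : FB (resc u 0 r) 0 := by
  refine ⟨by simp [resc, h.1], ?_⟩
  have h1 := map_mem_closure (f := fun x : E n => r⁻¹ • x) (t := Om (resc u 0 r))
    (by fun_prop) h.2 fun x hx => by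
      have hx' : 0 < u x := hx
      show 0 < u (0 + r • r⁻¹ • x) / r
      rw [zero_add, smul_inv_smul₀ hr.ne']
      exact div_pos hx' hr
  simpa using h1

theorem jet_zero {u P : E n → ℝ} {a b r : ℝ} (h : FB u 0) (hr : 0 < r) (hP : Continuous P)
    (ht : Trap u P a b (ball 0 r)) : P 0 + a ≤ 0 ∧ 0 ≤ P 0 + b := by
  refine ⟨h.1 ▸ (ht 0 (mem_ball_self hr)).1, ?_⟩
  by_contra hc
  have h1 : {x | P x + b < 0} ∈ 𝓝 (0 : E n) :=
    (isOpen_lt (by fun_prop) continuous_const).mem_nhds (not_le.1 hc)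
  obtain ⟨x, ⟨hx1, hx2⟩, hx3⟩ := mem_closure_iff_nhds.1 h.2 _
    (inter_mem h1 (ball_mem_nhds 0 hr))
  have h2 := (ht x hx2).2
  rw [max_eq_right (le_of_lt hx1)] at h2
  exact absurd hx3 (not_lt.2 h2)

theorem jet_good (hc : S_cub) {e : E n} {b : T1 n} {A : T2 n} {B : T3 n} (h : Adm b A B)
    {M σ ε C : ℝ} (hb : ‖b - (fun i => e i)‖ ≤ M) (hA : ‖A‖ ≤ M) (hB : ‖B‖ ≤ M)
    (h1 : n * (M + n * M + n * (n * M)) ≤ σ) {q : T1 n} (hq : n * (n * M) * 2 + n * ‖q‖ ≤ σ)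
    (h2 : C ≤ σ * ε)
    (hR : ∀ x : E n, ‖x‖ ≤ 1 →
      |‖gradient (cub b A B) x‖ ^ 2 - 1 - cub b A B x * (-2 * hh b A + ∑ i, q i * x i)| ≤
        C * ‖x‖ ^ 3) (hC : 0 ≤ C) : Good e σ ε (cub b A B) := by
  obtain ⟨c1, c2, c3, -⟩ := hc n b A B h.st
  have hb1 : ∀ i, |b i| ≤ 1 := fun i => by
    rw [← sq_le_one_iff_abs_le_one, ← h.unit]
    exact Finset.single_le_sum (f := fun i => b i ^ 2) (fun _ _ => sq_nonneg _) (Finset.mem_univ i)
  refine ⟨c1, c2, jet_cub_zero _ _ _, fun x hx => ?_, fun x hx => ?_⟩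
  · have hx1 : ∀ i, |x i| ≤ 1 := fun i => (jet_cx x i).trans (mem_ball_zero_iff.1 hx).le
    refine (jet_norm _ fun i => ?_).trans h1
    have e1 : |b i - e i| ≤ M := (jet_c1 (b - fun i => e i) i).trans hb
    have e2 : |∑ j, A i j * x j| ≤ n * (M * 1) :=
      jet_sum fun j => jet_mul ((jet_c2 A i j).trans hA) (hx1 j)
    have e3 : |∑ j, ∑ k, B i j k * x j * x k| ≤ n * (n * (M * 1 * 1)) :=
      jet_sum fun j => jet_sum fun k =>
        jet_mul (jet_mul ((jet_c3 B i j k).trans hB) (hx1 j)) (hx1 k)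
    have p3 := (abs_nonneg _).trans e3
    rw [PiLp.sub_apply, c3]
    simp only [mul_one] at e2 e3 p3
    rw [abs_le] at e1 e2 e3 ⊢
    constructor <;> linarith [e1.1, e1.2, e2.1, e2.2, e3.1, e3.2]
  · have hx0 := (mem_ball_zero_iff.1 hx).le
    have hx1 : ∀ i, |x i| ≤ 1 := fun i => (jet_cx x i).trans hx0
    have e1 : |hh b A| ≤ n * (n * (M * 1 * 1)) := by
      rw [hh, abs_neg]
      exact jet_sum fun i => jet_sum fun j =>
        jet_mul (jet_mul ((jet_c2 A i j).trans hA) (hb1 i)) (hb1 j)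
    have e2 : |∑ i, q i * x i| ≤ n * (‖q‖ * 1) := jet_sum fun i => jet_mul (jet_c1 q i) (hx1 i)
    have e3 : |-2 * hh b A + ∑ i, q i * x i| ≤ σ := by
      simp only [mul_one] at e1 e2
      rw [abs_le] at e1 e2 ⊢
      constructor <;> linarith [e1.1, e1.2, e2.1, e2.2]
    have e4 := jet_mul (le_refl |cub b A B x|) e3
    have e5 : C * ‖x‖ ^ 3 ≤ σ * ε :=
      (mul_le_of_le_one_right hC (pow_le_one₀ (norm_nonneg _) hx0)).trans h2
    have e6 := (hR x hx0).trans e5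
    rw [abs_le] at e4 e6 ⊢
    constructor <;> linarith [e4.1, e4.2, e6.1, e6.2]

theorem jet_step0 (h_taylor : S_taylor) (h_proj : S_proj) (h_core : S_core)
    {e : E n} (he : ‖e‖ = 1) : ∃ l K σ : ℝ, 0 < l ∧ l ≤ 1 / 4 ∧ 0 < K ∧ 0 < σ ∧
      ∀ (u : E n → ℝ) (b : T1 n) (A : T2 n) (B : T3 n) (ε : ℝ), LMin u → FB u 0 → Adm b A B →
        ‖b - (fun i => e i)‖ ≤ σ → ‖A‖ ≤ σ → ‖B‖ ≤ σ → Good e σ ε (cub b A B) → 0 < ε → ε ≤ σ →
        Trap u (cub b A B) (-ε) ε (ball 0 1) →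
        ∃ (b' : T1 n) (A' : T2 n) (B' : T3 n), Adm b' A' B' ∧ ‖b' - b‖ ≤ K * ε ∧
          ‖A' - A‖ ≤ K * ε ∧ ‖B' - B‖ ≤ K * ε ∧
          Trap u (cub b' A' B') (-(l ^ 7 * ε)) (l ^ 7 * ε) (ball 0 (l ^ 2)) := by
  obtain ⟨C, C0, hT⟩ := h_taylor n
  obtain ⟨l, l0, l1, l2⟩ : ∃ l : ℝ, 0 < l ∧ l ≤ 1 / 4 ∧ C * l ≤ 1 / 3 := by
    refine ⟨min (1 / 4) (1 / (3 * C)), by positivity, min_le_left _ _, ?_⟩
    refine (mul_le_mul_of_nonneg_left (min_le_right _ _) C0.le).trans (le_of_eq ?_)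
    field_simp
  obtain ⟨N, N0, hN⟩ : ∃ N : ℝ, 0 < N ∧ N = 1 + n + n * n + n * (n * n) := ⟨_, by positivity, rfl⟩
  obtain ⟨η, η0, hη⟩ : ∃ η : ℝ, 0 < η ∧ N * η = l ^ 7 / 3 :=
    ⟨l ^ 7 / 3 / N, by positivity, by field_simp⟩
  obtain ⟨σ₁, s1, hcore⟩ := h_core n e (l ^ 7 / 6) he (by positivity)
  obtain ⟨σ₂, s2, hproj⟩ := h_proj n e C η he C0 η0
  refine ⟨l, C + η, min σ₁ σ₂, l0, l1, by positivity, lt_min s1 s2,
    fun u b A B ε hu hf ha hb hA hB hg ε0 ε1 ht => ?_⟩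
  obtain ⟨h, h1, h2, h3, h4, h5⟩ := hcore u _ _ ε hu hg (min_le_left _ _) ε0
    (ε1.trans (min_le_left _ _)) ht
  obtain ⟨k1, k2, k3, hev, n1, n2, n3, hk⟩ := hT e h he h1 h2 h3 h4
  obtain ⟨b', A', B', ha', m1, m2, m3⟩ := hproj b A B k1 k2 k3 ε ha
    (hb.trans (min_le_right _ _)) (hA.trans (min_le_right _ _)) (hB.trans (min_le_right _ _)) hev
    n1 n2 n3 ε0 (ε1.trans (min_le_right _ _))
  have inc : ∀ {V : Type} [NormedAddCommGroup V] [NormedSpace ℝ V] (x x' k : V), ‖k‖ ≤ C →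
      ‖x' - (x + ε • k)‖ ≤ η * ε → ‖x' - x‖ ≤ (C + η) * ε := fun x x' k p1 p2 => by
    have e1 : x' - x = x' - (x + ε • k) + ε • k := by abel
    have e2 : ‖ε • k‖ ≤ ε * C := by
      rw [norm_smul, Real.norm_of_nonneg ε0.le]
      exact mul_le_mul_of_nonneg_left p1 ε0.le
    rw [e1]
    linarith [norm_add_le (x' - (x + ε • k)) (ε • k)]
  have hz := jet_zero (P := fun x => cub b A B x + ε * h x) hf (by norm_num : (0 : ℝ) < 1 / 4)
    (hg.sm.continuous.add (continuous_const.mul h1.continuous)) h5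
  simp only [jet_cub_zero, zero_add] at hz
  have hz1 : |ε * h 0| ≤ l ^ 7 / 6 * ε := abs_le.2 ⟨by linarith [hz.2], by linarith [hz.1]⟩
  have l3 : l ^ 2 ≤ 1 / 8 := by nlinarith
  refine ⟨b', A', B', ha', inc _ _ _ n1 m1, inc _ _ _ n2 m2, inc _ _ _ n3 m3,
    jet_trap_mono (d := 5 * l ^ 7 / 6 * ε) h5 (ball_subset_ball (by linarith)) (fun x hx => ?_)
      (by linarith) (by linarith)⟩
  have hx0 := (mem_ball_zero_iff.1 hx).le
  have e1 := hk x (ball_subset_ball l3 hx)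
  have e2 : C * ‖x‖ ^ 4 ≤ l ^ 7 / 3 := by
    have p1 : ‖x‖ ^ 4 ≤ (l ^ 2) ^ 4 := pow_le_pow_left₀ (norm_nonneg _) hx0 4
    have p2 : C * (l ^ 2) ^ 4 = C * l * l ^ 7 := by ring
    have p3 := mul_le_mul_of_nonneg_right l2 (pow_pos l0 7).le
    nlinarith [mul_le_mul_of_nonneg_left p1 C0.le]
  have e3 := jet_mul (le_refl |ε|) (e1.trans e2)
  rw [abs_of_pos ε0] at e3
  have e4 := jet_cub_le (b' - (b + ε • k1)) (A' - (A + ε • k2)) (B' - (B + ε • k3)) x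
    (hx0.trans (l3.trans (by norm_num : (1 / 8 : ℝ) ≤ 1)))
  have e5 : |cub (b' - (b + ε • k1)) (A' - (A + ε • k2)) (B' - (B + ε • k3)) x| ≤
      l ^ 7 / 3 * ε := by
    refine e4.trans ?_
    have nn : (0 : ℝ) ≤ n := Nat.cast_nonneg n
    rw [← hη, hN]
    simp only [mul_one]
    have q1 := mul_le_mul_of_nonneg_left m1 nn
    have q2 := mul_le_mul_of_nonneg_left (mul_le_mul_of_nonneg_left m2 nn) nn
    have q3 := mul_le_mul_of_nonneg_left
      (mul_le_mul_of_nonneg_left (mul_le_mul_of_nonneg_left m3 nn) nn) nn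
    have q4 : 0 ≤ η * ε := by positivity
    linarith
  rw [jet_cub_sub, jet_cub_add] at e5
  rw [abs_le] at e3 e5 hz1 ⊢
  constructor <;> linarith [e3.1, e3.2, e5.1, e5.2, hz1.1, hz1.2]

theorem jet_unsc {V : Type} [NormedAddCommGroup V] [NormedSpace ℝ V] {x x' : V} {r c : ℝ}
    (hr : 0 < r) (h : ‖x' - r • x‖ ≤ r * c) : ‖r⁻¹ • x' - x‖ ≤ c := by
  have e : r⁻¹ • x' - x = r⁻¹ • (x' - r • x) := by rw [smul_sub, inv_smul_smul₀ hr.ne']
  rw [e, norm_smul, Real.norm_of_nonneg (inv_nonneg.2 hr.le), inv_mul_le_iff₀ hr]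
  exact h

theorem jet_const (N : ℝ) (nn : 0 ≤ N) {K C σ : ℝ} (K0 : 0 < K) (C0 : 0 < C) (σ0 : 0 < σ) :
    ∃ M ε : ℝ, 0 < M ∧ M ≤ 1 ∧ M ≤ σ ∧ 0 < ε ∧ ε ≤ σ ∧ M = 2 * K * ε ∧
      N * (M + N * M + N * (N * M)) ≤ σ ∧ N * (N * M) * 2 + N * (C * (2 * M)) ≤ σ ∧
      M * (8 * C * K) ≤ σ := by
  obtain ⟨L, hL⟩ : ∃ L : ℝ, L = 1 + N * (1 + N + N * N) + (N * N * 2 + N * (2 * C)) +
    8 * C * K := ⟨_, rfl⟩
  have L1 : 1 ≤ L := by
    have p1 : (0 : ℝ) ≤ N * (1 + N + N * N) := by positivity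
    have p2 : (0 : ℝ) ≤ N * N * 2 + N * (2 * C) := by positivity
    have p3 : (0 : ℝ) ≤ 8 * C * K := by positivity
    linarith
  obtain ⟨ε, ε0, hε⟩ : ∃ ε : ℝ, 0 < ε ∧ (2 * K + 1) * L * ε = min σ 1 :=
    ⟨min σ 1 / ((2 * K + 1) * L), by positivity, by field_simp⟩
  obtain ⟨M, hM⟩ : ∃ M, M = 2 * K * ε := ⟨_, rfl⟩
  have M0 : 0 < M := by rw [hM]; positivity
  have hLe : 0 ≤ L * ε := by positivity
  have ML : M * L ≤ min σ 1 := by rw [← hε, hM]; nlinarith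
  have Mσ : M ≤ min σ 1 := by nlinarith
  have ML' : M * L ≤ σ := ML.trans (min_le_left _ _)
  have εσ : ε ≤ σ := by
    refine le_trans ?_ (min_le_left σ 1)
    rw [← hε]
    nlinarith [mul_nonneg K0.le hLe]
  have pos1 : 0 ≤ M * (N * (1 + N + N * N)) := by positivity
  have pos2 : 0 ≤ M * (N * N * 2 + N * (2 * C)) := by positivity
  have pos3 : 0 ≤ M * (8 * C * K) := by positivity
  rw [hL] at ML'
  exact ⟨M, ε, M0, Mσ.trans (min_le_right _ _), Mσ.trans (min_le_left _ _), ε0, εσ, hM,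
    by linarith, by linarith, by linarith⟩

theorem jet_rem {a b M t : ℝ} (na : 0 ≤ a) (nb : 0 ≤ b) (M0 : 0 < M) (M1 : M ≤ 1) (t0 : 0 < t)
    (t1 : t ≤ 1) (a1 : a ≤ M * t ^ 2) (b1 : b ≤ M * t ^ 4) :
    a * b + b ^ 2 + a ^ 3 + a ^ 2 * b ≤ 4 * (M ^ 2 * t ^ 5) := by
  have a2 : a ≤ M := a1.trans (mul_le_of_le_one_right M0.le (pow_le_one₀ t0.le t1))
  have t6 : t ^ 6 ≤ t ^ 5 := pow_le_pow_of_le_one t0.le t1 (by norm_num)
  have t8 : t ^ 8 ≤ t ^ 5 := pow_le_pow_of_le_one t0.le t1 (by norm_num)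
  have MM : 0 ≤ M ^ 2 := by positivity
  have q1 : a * b ≤ M ^ 2 * t ^ 5 :=
    (mul_le_mul a1 b1 nb (by positivity)).trans
      ((le_of_eq (by ring)).trans (mul_le_mul_of_nonneg_left t6 MM))
  have q2 : b ^ 2 ≤ M ^ 2 * t ^ 5 :=
    (pow_le_pow_left₀ nb b1 2).trans
      ((le_of_eq (by ring)).trans (mul_le_mul_of_nonneg_left t8 MM))
  have q3 : a ^ 3 ≤ M ^ 2 * t ^ 5 := by
    refine (pow_le_pow_left₀ na a1 3).trans ?_
    have : (M * t ^ 2) ^ 3 = M * (M ^ 2 * t ^ 6) := by ring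
    rw [this]
    exact (mul_le_of_le_one_left (by positivity) M1).trans (mul_le_mul_of_nonneg_left t6 MM)
  have q4 : a ^ 2 * b ≤ M ^ 2 * t ^ 5 := by
    have : a ^ 2 * b = a * (a * b) := by ring
    rw [this]
    exact (mul_le_of_le_one_left (by positivity) (a2.trans M1)).trans q1
  linarith

theorem jet_step (h_taylor : S_taylor) (hc : S_cub) (h_admR : S_admR) (h_proj : S_proj)
    (h_inv : S_inv) (h_core : S_core) {e : E n} (he : ‖e‖ = 1) :
    ∃ l M ε : ℝ, 0 < l ∧ l ≤ 1 / 4 ∧ 0 < M ∧ M ≤ 1 ∧ 0 < ε ∧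
      ∀ (u : E n → ℝ) (b : T1 n) (A : T2 n) (B : T3 n) (t : ℝ), LMin u → FB u 0 → Adm b A B →
        ‖b - (fun i => e i)‖ ≤ M → ‖A‖ ≤ M → ‖B‖ ≤ M → 0 < t → t ≤ 1 →
        Trap u (cub b A B) (-(t ^ 7 * ε)) (t ^ 7 * ε) (ball 0 (t ^ 2)) →
        ∃ (b' : T1 n) (A' : T2 n) (B' : T3 n), Adm b' A' B' ∧ ‖b' - b‖ ≤ M / 2 * t ^ 5 ∧
          ‖A' - A‖ ≤ M / 2 * t ^ 3 ∧ ‖B' - B‖ ≤ M / 2 * t ∧
          Trap u (cub b' A' B') (-((l * t) ^ 7 * ε)) ((l * t) ^ 7 * ε) (ball 0 ((l * t) ^ 2)) := by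
  obtain ⟨l, K, σ, l0, l1, K0, σ0, hs⟩ := jet_step0 h_taylor h_proj h_core he
  obtain ⟨C, C0, hR⟩ := h_admR n
  have nn : (0 : ℝ) ≤ n := Nat.cast_nonneg n
  obtain ⟨M, ε, M0, M1, Mσ, ε0, εσ, hM, c1, c2, c3⟩ := jet_const n nn K0 C0 σ0
  refine ⟨l, M, ε, l0, l1, M0, M1, ε0, fun u b A B t hu hf ha hb hA hB t0 t1 ht => ?_⟩
  have r0 : 0 < t ^ 2 := by positivity
  have tp : ∀ k : ℕ, t ^ k ≤ 1 := fun k => pow_le_one₀ t0.le t1
  have a1 : ‖t ^ 2 • A‖ ≤ M * t ^ 2 := by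
    rw [norm_smul, Real.norm_of_nonneg r0.le, mul_comm]
    exact mul_le_mul_of_nonneg_right hA r0.le
  have b1 : ‖(t ^ 2) ^ 2 • B‖ ≤ M * t ^ 4 := by
    rw [norm_smul, Real.norm_of_nonneg (by positivity), mul_comm, ← pow_mul]
    exact mul_le_mul_of_nonneg_right hB (by positivity)
  have a2 : ‖t ^ 2 • A‖ ≤ M := a1.trans (mul_le_of_le_one_right M0.le (tp 2))
  have b2 : ‖(t ^ 2) ^ 2 • B‖ ≤ M := b1.trans (mul_le_of_le_one_right M0.le (tp 4))
  have ha2 := jet_adm_scale ha (t ^ 2)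
  obtain ⟨q, hq, hq2⟩ := hR _ _ _ ha2
  have e5 : 0 < t ^ 5 * ε := by positivity
  have hgood : Good e σ (t ^ 5 * ε) (cub b (t ^ 2 • A) ((t ^ 2) ^ 2 • B)) := by
    refine jet_good hc ha2 hb a2 b2 c1 (q := q) ?_ ?_ hq2 (by positivity)
    · have q1 : ‖t ^ 2 • A‖ ^ 2 ≤ M :=
        (pow_le_of_le_one (norm_nonneg _) (a2.trans M1) two_ne_zero).trans a2
      have q2 : ‖q‖ ≤ C * (2 * M) :=
        hq.trans (mul_le_mul_of_nonneg_left ((add_le_add b2 q1).trans (two_mul M).ge) C0.le)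
      exact (add_le_add le_rfl (mul_le_mul_of_nonneg_left q2 nn)).trans c2
    · have q5 : C * (4 * (M ^ 2 * t ^ 5)) = M * (8 * C * K) * (t ^ 5 * ε) := by rw [hM]; ring
      exact (mul_le_mul_of_nonneg_left
        (jet_rem (norm_nonneg _) (norm_nonneg _) M0 M1 t0 t1 a1 b1) C0.le).trans
        (q5.le.trans (mul_le_mul_of_nonneg_right c3 e5.le))
  obtain ⟨b', A', B', ha', m1, m2, m3, ht'⟩ := hs (resc u 0 (t ^ 2)) b _ _ (t ^ 5 * ε)
    ((h_inv n u hu).1 0 _ r0) (jet_fb hf r0) ha2 (hb.trans Mσ) (a2.trans Mσ) (b2.trans Mσ) hgood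
    e5 ((mul_le_of_le_one_left ε0.le (tp 5)).trans εσ)
    (jet_trap_down r0 (by
      have : t ^ 2 * (t ^ 5 * ε) = t ^ 7 * ε := by ring
      rw [this, mul_one]
      exact ht))
  refine ⟨b', (t ^ 2)⁻¹ • A', (t ^ 2)⁻¹ ^ 2 • B', jet_adm_scale ha' _,
    m1.trans (le_of_eq (by rw [hM]; ring)),
    jet_unsc r0 (m2.trans (le_of_eq (by rw [hM]; ring))), ?_, ?_⟩
  · rw [inv_pow]
    exact jet_unsc (by positivity) (m3.trans (le_of_eq (by rw [hM]; ring)))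
  · have e1 : (l * t) ^ 7 * ε = t ^ 2 * (l ^ 7 * (t ^ 5 * ε)) := by ring
    have e2 : (l * t) ^ 2 = t ^ 2 * l ^ 2 := by ring
    rw [e1, e2]
    refine jet_trap_up r0 ?_
    rw [smul_inv_smul₀ r0.ne', inv_pow, smul_inv_smul₀ (by positivity)]
    exact ht'

theorem jet (h_taylor : S_taylor) (h_cub_calc : S_cub) (h_admR : S_admR) (h_proj : S_proj) (h_inv_min : S_inv) (h_core : S_core) : S_jet := by
  intro n e he
  obtain ⟨l, M, ε, l0, l1, M0, M1, ε0, hs⟩ :=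
    jet_step h_taylor h_cub_calc h_admR h_proj h_inv_min h_core he
  have nn : (0 : ℝ) ≤ n := Nat.cast_nonneg n
  refine ⟨ε, (ε + (n + n * n + n * (n * n)) * M) / l ^ 7, ε0, by positivity, fun u hu hf ht => ?_⟩
  have lt1 : l < 1 := by linarith
  have lp : ∀ k : ℕ, l ^ k ≤ 1 := fun k => pow_le_one₀ l0.le lt1.le
  let s₀ : T1 n × T2 n × T3 n := (fun i => e i, 0, 0)
  let Q : ℕ → T1 n × T2 n × T3 n → Prop := fun j s => Adm s.1 s.2.1 s.2.2 ∧
    ‖s - s₀‖ ≤ M * (1 - l ^ j) ∧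
    Trap u (cub s.1 s.2.1 s.2.2) (-((l ^ j) ^ 7 * ε)) ((l ^ j) ^ 7 * ε) (ball 0 ((l ^ j) ^ 2))
  let R : ℕ → T1 n × T2 n × T3 n → T1 n × T2 n × T3 n → Prop := fun j s s' =>
    ‖s'.1 - s.1‖ ≤ M / 2 * (l ^ j) ^ 5 ∧ ‖s'.2.1 - s.2.1‖ ≤ M / 2 * (l ^ j) ^ 3 ∧
      ‖s'.2.2 - s.2.2‖ ≤ M / 2 * l ^ j
  have hR : ∀ j s s', R j s s' → ‖s' - s‖ ≤ M / 2 * l ^ j := fun j s s' h => by
    have p : ∀ k : ℕ, k ≠ 0 → M / 2 * (l ^ j) ^ k ≤ M / 2 * l ^ j := fun k hk =>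
      mul_le_mul_of_nonneg_left (pow_le_of_le_one (by positivity) (lp j) hk) (by positivity)
    exact norm_prod_le_iff.2 ⟨h.1.trans (p 5 (by norm_num)),
      norm_prod_le_iff.2 ⟨h.2.1.trans (p 3 (by norm_num)), h.2.2⟩⟩
  have hQ : ∀ j s, Q j s → ‖s.1 - fun i => e i‖ ≤ M ∧ ‖s.2.1‖ ≤ M ∧ ‖s.2.2‖ ≤ M := fun j s h => by
    have h1 : ‖s - s₀‖ ≤ M := h.2.1.trans (by nlinarith [pow_pos l0 j])
    obtain ⟨h2, h3⟩ := norm_prod_le_iff.1 h1
    obtain ⟨h4, h5⟩ := norm_prod_le_iff.1 h3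
    exact ⟨h2, by simpa [s₀] using h4, by simpa [s₀] using h5⟩
  have step : ∀ j s, Q j s → ∃ s', Q (j + 1) s' ∧ R j s s' := fun j s h => by
    obtain ⟨q1, q2, q3⟩ := hQ j s h
    obtain ⟨b', A', B', h1, h2, h3, h4, h5⟩ := hs u s.1 s.2.1 s.2.2 (l ^ j) hu hf h.1 q1 q2 q3
      (pow_pos l0 j) (lp j) h.2.2
    have hr : R j s (b', A', B') := ⟨h2, h3, h4⟩
    refine ⟨(b', A', B'), ⟨h1, ?_, ?_⟩, hr⟩
    · have p1 := norm_sub_le_norm_sub_add_norm_sub (b', A', B') s s₀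
      have p2 := hR _ _ _ hr
      have p3 := h.2.1
      have p4 : 0 ≤ M * l ^ j * (1 / 2 - l) := mul_nonneg (by positivity) (by linarith)
      rw [pow_succ]
      nlinarith
    · rw [pow_succ' l j]
      exact h5
  choose! f hf1 hf2 using step
  let s : ℕ → T1 n × T2 n × T3 n := fun j => Nat.rec s₀ f j
  have hsQ : ∀ j, Q j (s j) := fun j => by
    induction j with
    | zero =>
      refine ⟨jet_adm_start he, by simp [s], ?_⟩
      have e1 : cub (s 0).1 (s 0).2.1 (s 0).2.2 = fun x => ⟪x, e⟫ := funext (jet_cub_start e)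
      rw [e1]
      simpa using ht
    | succ j ih => exact hf1 j _ ih
  have hsR : ∀ j, R j (s j) (s (j + 1)) := fun j => hf2 j _ (hsQ j)
  obtain ⟨a, ha⟩ := cauchySeq_tendsto_of_complete (cauchySeq_of_le_geometric l (M / 2) lt1
    (f := s) fun j => by rw [dist_comm, dist_eq_norm]; exact hR _ _ _ (hsR j))
  have tail : ∀ {V : Type} [NormedAddCommGroup V] (g : ℕ → V) (c : V) (k : ℕ), k ≠ 0 →
      Tendsto g atTop (𝓝 c) → (∀ j, ‖g (j + 1) - g j‖ ≤ M / 2 * (l ^ j) ^ k) →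
      ∀ j, ‖c - g j‖ ≤ M * (l ^ j) ^ k := fun g c k hk h1 h2 j => by
    have p1 : l ^ k ≤ l := pow_le_of_le_one l0.le lt1.le hk
    have p2 := dist_le_of_le_geometric_of_tendsto (l ^ k) (M / 2) (by linarith) (f := g)
      (fun i => by rw [dist_comm, dist_eq_norm, ← pow_mul, mul_comm k, pow_mul]; exact h2 i) h1 j
    rw [dist_comm, dist_eq_norm, ← pow_mul, mul_comm k, pow_mul] at p2
    refine p2.trans ?_
    rw [div_le_iff₀ (by linarith)]
    have p3 : 0 ≤ M * (l ^ j) ^ k * (1 / 2 - l ^ k) := mul_nonneg (by positivity) (by linarith)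
    nlinarith
  have t1 := tail (fun j => (s j).1) a.1 5 (by norm_num) ((continuous_fst.tendsto a).comp ha)
    fun j => (hsR j).1
  have t2 := tail (fun j => (s j).2.1) a.2.1 3 (by norm_num)
    (((continuous_fst.comp continuous_snd).tendsto a).comp ha) fun j => (hsR j).2.1
  have t3 := tail (fun j => (s j).2.2) a.2.2 1 (by norm_num)
    (((continuous_snd.comp continuous_snd).tendsto a).comp ha)
    fun j => by rw [pow_one]; exact (hsR j).2.2
  refine ⟨a.1, a.2.1, a.2.2, jet_adm_lim ha fun j => (hsQ j).1, ?_, ?_, fun r r0 r1 => ?_⟩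
  · simpa [s, s₀] using (t2 0).trans (by simpa using M1)
  · simpa [s, s₀] using (t3 0).trans (by simpa using M1)
  have sr : 0 < √r := Real.sqrt_pos.2 r0
  obtain ⟨j, j1, j2⟩ := exists_nat_pow_near_of_lt_one sr (Real.sqrt_le_one.2 r1) l0 lt1
  have t0 : 0 < l ^ j := pow_pos l0 j
  have rt : r ≤ (l ^ j) ^ 2 := by
    rw [← Real.sq_sqrt r0.le]
    exact pow_le_pow_left₀ sr.le j2 2
  have key : (l ^ j) ^ 7 * ε + (n + n * n + n * (n * n)) * M * (l ^ j) ^ 7 ≤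
      (ε + (n + n * n + n * (n * n)) * M) / l ^ 7 * r ^ 3 * √r := by
    have p1 : (l ^ (j + 1)) ^ 7 ≤ √r ^ 7 := pow_le_pow_left₀ (by positivity) j1.le 7
    have p2 : √r ^ 7 = r ^ 3 * √r := by
      have : √r ^ 7 = (√r ^ 2) ^ 3 * √r := by ring
      rw [this, Real.sq_sqrt r0.le]
    have p3 : (l ^ j) ^ 7 ≤ r ^ 3 * √r / l ^ 7 := by
      rw [le_div_iff₀ (by positivity), ← mul_pow, ← pow_succ, ← p2]
      exact p1
    have p4 := mul_le_mul_of_nonneg_left p3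
      (by positivity : 0 ≤ ε + (n + n * n + n * (n * n)) * M)
    refine le_trans (le_of_eq (by ring)) (p4.trans (le_of_eq (by ring)))
  refine jet_trap_mono (d := (n + n * n + n * (n * n)) * M * (l ^ j) ^ 7) (hsQ j).2.2
    (ball_subset_ball rt) (fun x hx => ?_) (by linarith) key
  rw [← jet_cub_sub]
  refine (jet_cub_le _ _ _ x ((mem_ball_zero_iff.1 hx).le.trans rt)).trans ?_
  have u1 := t1 j
  have u2 := t2 j
  have u3 := t3 j
  generalize l ^ j = t at *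
  have v1 : n * (‖a.1 - (s j).1‖ * t ^ 2) ≤ n * (M * t ^ 5 * t ^ 2) := by gcongr
  have v2 : n * (n * (‖a.2.1 - (s j).2.1‖ * t ^ 2 * t ^ 2)) ≤
      n * (n * (M * t ^ 3 * t ^ 2 * t ^ 2)) := by gcongr
  have v3 : n * (n * (n * (‖a.2.2 - (s j).2.2‖ * t ^ 2 * t ^ 2 * t ^ 2))) ≤
      n * (n * (n * (M * t ^ 1 * t ^ 2 * t ^ 2 * t ^ 2))) := by gcongr
  exact (add_le_add (add_le_add v1 v2) v3).trans (le_of_eq (by ring))

end Vale.Agent.P098
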