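import Vale.Agent.P098.Iface

open MeasureTheory Set Metric Filter
open scoped ContDiff RealInnerProductSpace Topology NNReal

noncomputable section
namespace Vale.Agent.P098

variable {n : ℕ} {U : Set (E n)} {f g : E n → ℝ} {x : E n}

theorem jets_sm (hU : IsOpen U) (hf : ContDiffOn ℝ ∞ f U) (i : Fin n) :
    ContDiffOn ℝ ∞ (pd i f) U :=
  (hf.fderiv_of_isOpen hU (m := ∞) (by simp)).clm_apply contDiffOn_const

theorem jets_diff (hU : IsOpen U) (hf : ContDiffOn ℝ ∞ f U) (hx : x ∈ U) :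
    DifferentiableAt ℝ f x := (hf.contDiffAt (hU.mem_nhds hx)).differentiableAt (by simp)

theorem jets_comm (hU : IsOpen U) (hf : ContDiffOn ℝ ∞ f U) (hx : x ∈ U) (i j : Fin n) :
    pd i (pd j f) x = pd j (pd i f) x := by
  have h1 : ContDiffAt ℝ ∞ f x := hf.contDiffAt (hU.mem_nhds hx)
  have h2 : DifferentiableAt ℝ (fderiv ℝ f) x :=
    (h1.fderiv_right (m := 1) (by norm_cast)).differentiableAt one_ne_zero
  have h3 : ∀ v w : E n, fderiv ℝ (fun y => fderiv ℝ f y w) x v = fderiv ℝ (fderiv ℝ f) x v w :=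
    fun v w => by
      rw [fderiv_clm_apply h2 (differentiableAt_const w)]
      simp
  have h4 := h1.isSymmSndFDerivAt (by simp; norm_cast)
  exact (h3 _ _).trans ((h4.eq _ _).trans (h3 _ _).symm)

theorem jets_congr (hU : IsOpen U) (h : ∀ y ∈ U, f y = g y) (hx : x ∈ U) (i : Fin n) :
    pd i f x = pd i g x := by
  have : f =ᶠ[𝓝 x] g := Filter.eventually_of_mem (hU.mem_nhds hx) h
  unfold pd
  rw [this.fderiv_eq]

theorem jets_apply (f : E n → ℝ) (x v : E n) : fderiv ℝ f x v = ∑ i, v i * pd i f x := by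
  conv_lhs => rw [← (EuclideanSpace.basisFun (Fin n) ℝ).sum_repr v]
  simp [pd]

theorem jets_hom (hU : IsOpen U) (hf : ContDiffOn ℝ ∞ f U)
    (hc : ∀ (t : ℝ) (x : E n), 0 < t → x ∈ U → t • x ∈ U) {m : ℤ}
    (h : ∀ (t : ℝ), 0 < t → ∀ x ∈ U, f (t • x) = t ^ m * f x) (i : Fin n) :
    ∀ (t : ℝ), 0 < t → ∀ x ∈ U, pd i f (t • x) = t ^ (m - 1) * pd i f x := by
  intro t ht x hx
  have h1 : HasFDerivAt (fun y : E n => f (t • y))
      ((fderiv ℝ f (t • x)).comp (t • ContinuousLinearMap.id ℝ (E n))) x :=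
    (jets_diff hU hf (hc t x ht hx)).hasFDerivAt.comp x ((hasFDerivAt_id x).const_smul t)
  have h2 : HasFDerivAt (fun y : E n => t ^ m * f y) (t ^ m • fderiv ℝ f x) x :=
    (jets_diff hU hf hx).hasFDerivAt.const_mul _
  have h3 : (fun y : E n => f (t • y)) =ᶠ[𝓝 x] fun y => t ^ m * f y :=
    Filter.eventually_of_mem (hU.mem_nhds hx) (h t ht)
  have h4 := congrArg (fun L : E n →L[ℝ] ℝ => L (EuclideanSpace.single i 1))
    ((h1.congr_of_eventuallyEq h3.symm).unique h2)
  simp only [ContinuousLinearMap.comp_apply, smul_apply, ContinuousLinearMap.id_apply, map_smul,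
    smul_eq_mul] at h4
  unfold pd
  rw [zpow_sub_one₀ ht.ne']
  field_simp
  linarith

theorem jets_euler (hU : IsOpen U) (hf : ContDiffOn ℝ ∞ f U) {m : ℤ}
    (h : ∀ (t : ℝ), 0 < t → ∀ x ∈ U, f (t • x) = t ^ m * f x) (hx : x ∈ U) :
    ∑ i, x i * pd i f x = m * f x := by
  have h0 : HasDerivAt (fun t : ℝ => t • x) x 1 := by simpa using (hasDerivAt_id (1 : ℝ)).smul_const x
  have h1 : HasDerivAt (fun t : ℝ => f (t • x)) (fderiv ℝ f x x) 1 :=
    HasFDerivAt.comp_hasDerivAt_of_eq (hl := (jets_diff hU hf hx).hasFDerivAt) (hf := h0)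
      (hy := by simp)
  have h2 := (hasDerivAt_zpow m (1 : ℝ) (Or.inl one_ne_zero)).mul_const (f x)
  have h3 : (fun t : ℝ => f (t • x)) =ᶠ[𝓝 1] fun t => t ^ m * f x :=
    (lt_mem_nhds one_pos).mono fun t ht => h t ht x hx
  rw [← jets_apply, (h1.congr_of_eventuallyEq h3.symm).unique h2]
  simp

theorem jets : S_jets := by
  intro n u U hU hH hu hc x hx
  have s0 := hH.1
  have s1 := jets_sm hU s0
  have s2 := fun i j => jets_sm hU (s1 j) i
  have h0 : ∀ (t : ℝ), 0 < t → ∀ x ∈ U, u (t • x) = t ^ (1 : ℤ) * u x := fun t ht x _ => by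
    rw [zpow_one]; exact hu t x ht
  have h1 := jets_hom hU s0 hc h0
  have h2 := fun i j => jets_hom hU (s1 j) hc (h1 j) i
  have h3 := fun i j k => jets_hom hU (s2 j k) hc (h2 j k) i
  have b1 : ∀ i j k, D3 u x i j k = D3 u x j i k := fun i j k => jets_comm hU (s1 k) hx i j
  have b2 : ∀ i j k, D3 u x i j k = D3 u x i k j := fun i j k =>
    jets_congr hU (fun y hy => jets_comm hU s0 hy j k) hx i
  refine ⟨⟨fun i j => jets_comm hU s0 hx i j, b1, b2, hH.2 x hx, fun k => ?_⟩, fun i => ?_,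
    fun i j => ?_, ?_, fun i => ?_, fun t ht => ⟨?_, ?_, ?_⟩⟩
  · have e1 : pd k (lap u) x = 0 := by
      rw [jets_congr hU hH.2 hx]
      simp [pd]
    have e2 : pd k (lap u) x = ∑ i, pd k (pd i (pd i u)) x := by
      unfold lap
      rw [pd, fderiv_fun_sum fun i _ => jets_diff hU (s2 i i) hx]
      simp only [sum_apply]
      rfl
    rw [← e1, e2]
    exact Finset.sum_congr rfl fun i _ => (b2 i i k).trans (b1 i k i)
  · have := jets_euler hU (s1 i) (h1 i) hx
    rw [sub_self, Int.cast_zero, zero_mul] at this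
    rw [← this]
    exact Finset.sum_congr rfl fun j _ => by rw [mul_comm, ← jets_comm hU s0 hx i j]; rfl
  · have := jets_euler hU (s2 i j) (h2 i j) hx
    have e : ((1 - 1 - 1 : ℤ) : ℝ) * pd i (pd j u) x = -D2 u x i j := by simp [D2]
    rw [← e, ← this]
    exact Finset.sum_congr rfl fun k _ => by rw [mul_comm, b2, b1]; rfl
  · simpa [D1] using jets_euler hU s0 h0 hx
  · have : ⟪gradient u x, EuclideanSpace.single i (1 : ℝ)⟫ = D1 u x i :=
      InnerProductSpace.toDual_symm_apply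
    rw [← this, EuclideanSpace.inner_single_right]
    simp
  · funext i
    simpa [D1] using h1 i t ht x hx
  · funext i j
    have := h2 i j t ht x hx
    simp only [Pi.smul_apply, smul_eq_mul, D2, this]
    norm_num
    field_simp
  · funext i j k
    have := h3 i j k t ht x hx
    simp only [Pi.smul_apply, smul_eq_mul, D3, this]
    norm_num
    field_simp

theorem jets_cs (T B : T3 n) :
    (∑ i, ∑ j, ∑ k, T i j k * B i j k) ^ 2 ≤ nB T * nB B := by
  have := Finset.sum_mul_sq_le_sq_mul_sq Finset.univ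
    (fun p : Fin n × Fin n × Fin n => T p.1 p.2.1 p.2.2) fun p => B p.1 p.2.1 p.2.2
  simpa only [Fintype.sum_prod_type, nB] using this

theorem jets_sym (a v : T1 n) : ∑ j, ∑ k, ((a j * v k + a k * v j) / 2) ^ 2 =
    ((∑ j, a j ^ 2) * (∑ k, v k ^ 2) + (∑ j, a j * v j) ^ 2) / 2 := by
  have e1 : (∑ j, a j ^ 2) * (∑ k, v k ^ 2) = ∑ j, ∑ k, a j ^ 2 * v k ^ 2 := Finset.sum_mul_sum ..
  have e2 : (∑ j, a j ^ 2) * (∑ k, v k ^ 2) = ∑ j, ∑ k, a k ^ 2 * v j ^ 2 :=
    e1.trans Finset.sum_comm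
  have e3 : (∑ j, a j * v j) ^ 2 = ∑ j, ∑ k, a j * v j * (a k * v k) := by
    rw [sq, Finset.sum_mul_sum]
  have e4 : ∑ j, ∑ k, ((a j * v k + a k * v j) / 2) ^ 2 = (∑ j, ∑ k, a j ^ 2 * v k ^ 2) / 4 +
      (∑ j, ∑ k, a k ^ 2 * v j ^ 2) / 4 + (∑ j, ∑ k, a j * v j * (a k * v k)) / 2 := by
    simp only [Finset.sum_div, ← Finset.sum_add_distrib]
    exact Finset.sum_congr rfl fun j _ => Finset.sum_congr rfl fun k _ => by ring
  rw [e4, ← e1, ← e2, ← e3]
  ring

theorem jets_del (a w : ℝ) (v : T1 n) (i : Fin n) :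
    ∑ k, (a * v k - if i = k then w else 0) ^ 2 =
      a ^ 2 * ∑ k, v k ^ 2 - 2 * (a * v i * w) + w ^ 2 := by
  have e : ∀ k, (a * v k - if i = k then w else 0) ^ 2 =
      a ^ 2 * v k ^ 2 + if i = k then -2 * (a * v k * w) + w ^ 2 else 0 := fun k => by
    split_ifs <;> ring
  simp only [e, Finset.sum_add_distrib, Finset.sum_ite_eq, Finset.mem_univ, if_true,
    ← Finset.mul_sum]
  ring

theorem kato : S_kato := by
  intro n
  refine ⟨1 - 1 / (n + 3), by have : (0 : ℝ) < 1 / (n + 3) := by positivity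
                              linarith, fun A B h => ?_⟩
  obtain ⟨v, hv⟩ : ∃ v, v = ct A B := ⟨_, rfl⟩
  obtain ⟨z, hz⟩ : ∃ z : T1 n, ∀ i, z i = ∑ j, A i j * v j := ⟨_, fun _ => rfl⟩
  obtain ⟨V, hV⟩ : ∃ V, V = ∑ k, v k ^ 2 := ⟨_, rfl⟩
  obtain ⟨Z, hZ⟩ : ∃ Z, Z = ∑ k, z k ^ 2 := ⟨_, rfl⟩
  obtain ⟨c, hc⟩ : ∃ c : ℝ, c = 1 / (n + 1) := ⟨_, rfl⟩
  rw [← hv, ← hV]
  have p1 : ∑ i, ∑ j, ∑ k, A i j * v k * B i j k = V := by
    have : V = ∑ k, ∑ i, ∑ j, A i j * v k * B i j k := by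
      rw [hV]
      refine Finset.sum_congr rfl fun k _ => ?_
      rw [sq]
      nth_rewrite 2 [hv]
      simp only [ct, Finset.mul_sum]
      exact Finset.sum_congr rfl fun i _ => Finset.sum_congr rfl fun j _ => by ring
    rw [this, Finset.sum_comm (s := Finset.univ) (t := Finset.univ)
      (f := fun k i => ∑ j, A i j * v k * B i j k)]
    exact Finset.sum_congr rfl fun i _ => Finset.sum_comm
  have p2 : ∑ i, ∑ j, ∑ k, A i k * v j * B i j k = V := by
    rw [← p1]
    refine Finset.sum_congr rfl fun i _ => Finset.sum_comm.trans ?_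
    exact Finset.sum_congr rfl fun j _ => Finset.sum_congr rfl fun k _ => by rw [h.b2]
  have q1 := jets_cs (fun i j k => (A i j * v k + A i k * v j) / 2) B
  have q2 := jets_cs (fun i j k => A i j * v k - if i = k then c * z j else 0) B
  have e1 : ∑ i, ∑ j, ∑ k, (A i j * v k + A i k * v j) / 2 * B i j k = V := by
    have : V = (∑ i, ∑ j, ∑ k, A i j * v k * B i j k) / 2 +
        (∑ i, ∑ j, ∑ k, A i k * v j * B i j k) / 2 := by rw [p1, p2]; ring
    rw [this]
    simp only [Finset.sum_div, ← Finset.sum_add_distrib]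
    exact Finset.sum_congr rfl fun i _ => Finset.sum_congr rfl fun j _ =>
      Finset.sum_congr rfl fun k _ => by ring
  have e2 : ∑ i, ∑ j, ∑ k, (A i j * v k - if i = k then c * z j else 0) * B i j k = V := by
    have a1 : ∑ i, ∑ j, c * z j * B i j i = 0 := by
      rw [Finset.sum_comm]
      refine Finset.sum_eq_zero fun j _ => ?_
      rw [← Finset.mul_sum, Finset.sum_congr rfl fun i _ => h.b2 i j i, h.tb, mul_zero]
    simp only [sub_mul, ite_mul, zero_mul, Finset.sum_sub_distrib, Finset.sum_ite_eq,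
      Finset.mem_univ, if_true]
    rw [p1, a1, sub_zero]
  have n1 : nB (fun i j k => (A i j * v k + A i k * v j) / 2) = (nA A * V + Z) / 2 := by
    simp only [nB, jets_sym, nA, ← hV, ← hz, hZ, Finset.sum_mul, ← Finset.sum_add_distrib,
      Finset.sum_div]
  have n2 : nB (fun i j k => A i j * v k - if i = k then c * z j else 0) =
      nA A * V - 2 * c * Z + n * c ^ 2 * Z := by
    have a1 : ∑ i, ∑ j, 2 * (A i j * v i * (c * z j)) = 2 * c * Z := by
      rw [Finset.sum_comm, hZ, Finset.mul_sum]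
      refine Finset.sum_congr rfl fun j _ => ?_
      rw [sq]
      nth_rewrite 2 [hz]
      simp only [Finset.sum_mul, Finset.mul_sum]
      exact Finset.sum_congr rfl fun i _ => by rw [h.a i j]; ring
    have a2 : ∑ j, (c * z j) ^ 2 = c ^ 2 * Z := by
      simp only [hZ, mul_pow, Finset.mul_sum]
    simp only [nB, jets_del, ← hV, Finset.sum_add_distrib, Finset.sum_sub_distrib, a1, a2,
      ← Finset.sum_mul, Finset.sum_const, Finset.card_univ, Fintype.card_fin, nsmul_eq_mul, nA]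
  rw [e1, n1] at q1
  rw [e2, n2] at q2
  have hV0 : 0 ≤ V := hV ▸ Finset.sum_nonneg fun _ _ => sq_nonneg _
  have hZ0 : 0 ≤ Z := hZ ▸ Finset.sum_nonneg fun _ _ => sq_nonneg _
  have hA : 0 ≤ nA A := Finset.sum_nonneg fun _ _ => Finset.sum_nonneg fun _ _ => sq_nonneg _
  have hB : 0 ≤ nB B := Finset.sum_nonneg fun _ _ => Finset.sum_nonneg fun _ _ =>
    Finset.sum_nonneg fun _ _ => sq_nonneg _
  have hn : (0 : ℝ) ≤ n := Nat.cast_nonneg n
  have hc0 : 0 < c := by rw [hc]; positivity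
  have hc1 : n * c ≤ 1 := by
    rw [hc, mul_one_div, div_le_one (by positivity)]; linarith
  have hc2 : (1 + 2 * c) * (1 - 1 / (n + 3)) = 1 + c := by
    rw [hc]; field_simp; ring
  have hθ : (0 : ℝ) ≤ 1 - 1 / (n + 3) := by
    rw [sub_nonneg, div_le_one (by positivity)]; linarith
  have q3 : n * c ^ 2 * Z * nB B ≤ c * Z * nB B := by
    have := mul_le_mul_of_nonneg_right hc1 (by positivity : 0 ≤ c * Z * nB B)
    nlinarith
  have q4 : (1 + 2 * c) * V ^ 2 ≤ (1 + c) * (nA A * V * nB B) := by nlinarith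
  rcases hV0.eq_or_lt with h0 | h0
  · rw [← h0]; positivity
  · refine le_of_mul_le_mul_left ?_ (by positivity : 0 < (1 + 2 * c) * V)
    calc (1 + 2 * c) * V * V = (1 + 2 * c) * V ^ 2 := by ring
      _ ≤ (1 + c) * (nA A * V * nB B) := q4
      _ = _ := by rw [← hc2]; ring

end Vale.Agent.P098
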