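import Vale.Agent.P098.Iface

open MeasureTheory Set Metric Filter
open scoped ContDiff RealInnerProductSpace Topology NNReal

noncomputable section
namespace Vale.Agent.P098

theorem ker_test {n : ℕ} {F : ℝ → ℝ} (hF : ContDiff ℝ ∞ F) (h0 : ∀ t, t ≤ 0 → F t = 0) :
    IsTest (ball 0 1) fun y : E n => F (1 / 2 - ‖y‖ ^ 2) := by
  have h1 : tsupport (fun y : E n => F (1 / 2 - ‖y‖ ^ 2)) ⊆ closedBall 0 (3 / 4) := by
    refine closure_minimal (fun y hy => ?_) isClosed_closedBall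
    rw [mem_closedBall_zero_iff]
    by_contra h
    exact hy (h0 _ (by nlinarith [not_le.1 h]))
  exact ⟨hF.comp (contDiff_const.sub (contDiff_norm_sq ℝ)),
    (isCompact_closedBall _ _).of_isClosed_subset (isClosed_tsupport _) h1,
    h1.trans (closedBall_subset_ball (by norm_num))⟩

theorem ker_pd {n : ℕ} {U : Set (E n)} {ψ : E n → ℝ} (h : IsTest U ψ) (i : Fin n) :
    IsTest U (pd i ψ) :=
  ⟨(h.1.fderiv_right (m := ∞) le_rfl).clm_apply contDiff_const, h.2.1.fderiv_apply ℝ _,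
    (tsupport_fderiv_apply_subset ℝ _).trans h.2.2⟩

theorem ker_lip {n : ℕ} {U : Set (E n)} {ψ : E n → ℝ} (h : IsTest U ψ) : Lip ψ :=
  h.1.lipschitzWith_of_hasCompactSupport h.2.1 (by simp)

theorem ker : S_ker := by
  intro n
  have hd : ∀ t : ℝ, HasDerivAt expNegInvGlue (t⁻¹ ^ 2 * expNegInvGlue t) t := fun t => by
    simpa using expNegInvGlue.hasDerivAt_polynomial_eval_inv_mul 1 t
  have hk : ContDiff ℝ ∞ fun t : ℝ => t⁻¹ ^ 2 * expNegInvGlue t := by
    have := expNegInvGlue.contDiff_polynomial_eval_inv_mul (n := ⊤) (Polynomial.X ^ 2)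
    simpa only [Polynomial.eval_pow, Polynomial.eval_X] using this
  have k0 : ∀ t : ℝ, 0 ≤ t⁻¹ ^ 2 * expNegInvGlue t := fun t =>
    mul_nonneg (sq_nonneg _) (expNegInvGlue.nonneg t)
  have kz : ∀ t : ℝ, t ≤ 0 → t⁻¹ ^ 2 * expNegInvGlue t = 0 := fun t ht => by
    rw [expNegInvGlue.zero_of_nonpos ht, mul_zero]
  have c0 := expNegInvGlue.pos_of_pos (by norm_num : (0 : ℝ) < 1 / 4)
  have kl : ∀ y ∈ ball (0 : E n) (1 / 2), expNegInvGlue (1 / 4) ≤
      (1 / 2 - ‖y‖ ^ 2)⁻¹ ^ 2 * expNegInvGlue (1 / 2 - ‖y‖ ^ 2) := fun y hy => by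
    rw [mem_ball_zero_iff] at hy
    have h1 : 1 / 4 ≤ 1 / 2 - ‖y‖ ^ 2 := by nlinarith [norm_nonneg y]
    refine (expNegInvGlue.monotone h1).trans (le_mul_of_one_le_left (expNegInvGlue.nonneg _) ?_)
    exact one_le_pow₀ ((one_le_inv₀ (by linarith)).2 (by nlinarith [sq_nonneg ‖y‖]))
  have t0 := ker_test (n := n) hk kz
  have hm := t0.1.continuous.integral_pos_of_hasCompactSupport_nonneg_nonzero (μ := volume) t0.2.1
    (fun _ => k0 _) (c0.trans_le (kl 0 (mem_ball_self (by norm_num)))).ne'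
  generalize hM : ∫ y : E n, (1 / 2 - ‖y‖ ^ 2)⁻¹ ^ 2 * expNegInvGlue (1 / 2 - ‖y‖ ^ 2) = m at hm
  refine ⟨fun y => (1 / 2 - ‖y‖ ^ 2)⁻¹ ^ 2 * expNegInvGlue (1 / 2 - ‖y‖ ^ 2) / m,
    fun y => expNegInvGlue (1 / 2 - ‖y‖ ^ 2) / (-2 * m), expNegInvGlue (1 / 4) / m,
    by positivity, ker_test (hk.div_const m) fun t ht => by rw [kz t ht, zero_div],
    ker_test (expNegInvGlue.contDiff.div_const _) fun t ht => by
      rw [expNegInvGlue.zero_of_nonpos ht, zero_div],
    fun y => div_nonneg (k0 _) hm.le, by rw [integral_div, hM, div_self hm.ne'],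
    fun y hy => div_le_div_of_nonneg_right (kl y hy) hm.le, fun y => by rw [norm_neg],
    fun y => HasGradientAt.gradient ?_⟩
  have h1 := (((hd _).div_const (-2 * m)).comp_hasFDerivAt y
    ((hasStrictFDerivAt_norm_sq y).hasFDerivAt.const_sub (1 / 2)))
  rw [hasGradientAt_iff_hasFDerivAt]
  refine h1.congr_fderiv ?_
  ext v
  simp
  field_simp

theorem weak (h_ibp : S_ibp) : S_weak := by
  intro n U h hU hh ψ hψ
  have key : ∀ i : Fin n, Integrable (fun x => h x * pd i (pd i ψ) x) ∧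
      Integrable (fun x => ψ x * pd i (pd i h) x) ∧
      ∫ x, h x * pd i (pd i ψ) x = ∫ x, ψ x * pd i (pd i h) x := fun i => by
    have t1 := ker_pd hψ i
    have h1 := h_ibp n _ h U (EuclideanSpace.single i 1) (ker_lip t1) t1.2.1 hU t1.2.2
      (hh.1.of_le (by simp))
    have h2 := h_ibp n _ (pd i h) U (EuclideanSpace.single i 1) (ker_lip hψ) hψ.2.1 hU hψ.2.2
      ((hh.1.fderiv_of_isOpen hU (m := 1) (by norm_cast)).clm_apply contDiffOn_const)
    simp only [mul_comm (h _)]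
    exact ⟨h1.1, h2.2.1, h1.2.2.trans (neg_eq_iff_eq_neg.2 h2.2.2)⟩
  simp only [lap, Finset.mul_sum]
  rw [integral_finsetSum _ fun i _ => (key i).1, Finset.sum_congr rfl fun i _ => (key i).2.2,
    ← integral_finsetSum _ fun i _ => (key i).2.1]
  refine integral_eq_zero_of_ae (.of_forall fun x => ?_)
  beta_reduce
  rw [← Finset.mul_sum]
  by_cases hx : x ∈ U
  · exact mul_eq_zero_of_right _ (hh.2 x hx)
  · exact mul_eq_zero_of_left (image_eq_zero_of_notMem_tsupport fun k => hx (hψ.2.2 k)) _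

end Vale.Agent.P098
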