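import Vale.Agent.P098.Iface

open MeasureTheory Set Metric Filter
open scoped ContDiff RealInnerProductSpace Topology NNReal

noncomputable section
namespace Vale.Agent.P098

theorem layer_norm_grad {n : ℕ} (f : E n → ℝ) (x : E n) : ‖gradient f x‖ = ‖fderiv ℝ f x‖ :=
  LinearIsometryEquiv.norm_map _ _

theorem layer_meas {n : ℕ} (f : E n → ℝ) : Measurable (gradient f) :=
  (InnerProductSpace.toDual ℝ (E n)).symm.continuous.measurable.comp (measurable_fderiv ℝ f)

theorem layer_sq {n : ℕ} (p b : T1 n) (hb : ∑ i, b i ^ 2 = 1)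
    (h : ‖p - b‖ ≤ 1 / (2 * (n + 1))) : 1 / 4 ≤ ∑ i, p i ^ 2 := by
  have h1 : ∀ i, b i ^ 2 ≤ 2 * p i ^ 2 + 2 * (1 / (2 * (n + 1))) ^ 2 := by
    intro i
    have h2 : |p i - b i| ≤ 1 / (2 * (n + 1)) := (norm_le_pi_norm (p - b) i).trans h
    have h3 : (p i - b i) ^ 2 ≤ (1 / (2 * (n + 1))) ^ 2 :=
      sq_le_sq' (abs_le.1 h2).1 (abs_le.1 h2).2
    nlinarith [sq_nonneg (2 * p i - b i)]
  have h4 := Finset.sum_le_sum fun i (_ : i ∈ Finset.univ) => h1 i
  rw [hb, Finset.sum_add_distrib, ← Finset.mul_sum, Finset.sum_const, Finset.card_univ,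
    Fintype.card_fin, nsmul_eq_mul] at h4
  have hn : (0 : ℝ) ≤ n := Nat.cast_nonneg n
  have h5 : (n : ℝ) * (2 * (1 / (2 * (n + 1))) ^ 2) ≤ 1 / 2 := by
    rw [div_pow, one_pow, ← mul_assoc, mul_one_div, div_le_div_iff₀ (by positivity) two_pos]
    nlinarith
  linarith

theorem layer_low (h_harm : S_harm) (h_jets : S_jets) {n : ℕ} {u : E n → ℝ} {R : ℝ}
    (hu : LMin u) (hH : Hom u) (hR : Reg u) (hR0 : 0 < R) : ∃ d0 : ℝ, 0 < d0 ∧
      ∀ x : E n, R⁻¹ ≤ ‖x‖ → 0 < u x → u x < d0 → 1 / 4 ≤ ‖gradient u x‖ ^ 2 := by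
  obtain ⟨L, hL⟩ := hu.lip
  have hO : IsOpen (Om u) := isOpen_lt continuous_const hL.continuous
  have hc : ∀ (t : ℝ) (x : E n), 0 < t → x ∈ Om u → t • x ∈ Om u := by
    intro t x ht hx
    show 0 < u (t • x)
    rw [hH t x ht]
    exact mul_pos ht hx
  obtain ⟨δ, hδ, h⟩ := hR.bd (1 / (2 * (n + 1))) (by positivity)
  refine ⟨δ / R, by positivity, fun x hx h0 h1 => ?_⟩
  have hx0 : 0 < ‖x‖ := (inv_pos.2 hR0).trans_le hx
  obtain ⟨-, -, -, -, hg, hs⟩ := h_jets n u (Om u) hO (h_harm n u hu) hH hc x h0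
  have hn : ‖‖x‖⁻¹ • x‖ = 1 := by
    rw [norm_smul, norm_inv, norm_norm, inv_mul_cancel₀ hx0.ne']
  have hi : ‖x‖⁻¹ ≤ R := by rwa [inv_le_comm₀ hx0 hR0]
  have hlt : u (‖x‖⁻¹ • x) < δ := by
    rw [hH _ x (inv_pos.2 hx0)]
    rw [lt_div_iff₀ hR0] at h1
    nlinarith
  obtain ⟨b, A, B, hA, hb, -⟩ := h _ (hc _ x (inv_pos.2 hx0) h0) hn.ge (by linarith) hlt
  rw [(hs _ (inv_pos.2 hx0)).1] at hb
  rw [EuclideanSpace.real_norm_sq_eq]
  simp only [hg]
  exact layer_sq _ b hA.unit hb

theorem layer_mul {n : ℕ} {f g : E n → ℝ} {K K' : ℝ≥0} {a : ℝ} (hf : LipschitzWith K f)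
    (hg : LipschitzWith K' g) (ha : 0 ≤ a) (h1 : ∀ x, |f x| ≤ a) (h2 : ∀ x, |g x| ≤ 1) :
    Lip fun x => f x * g x := by
  refine ⟨⟨a * K' + K, by positivity⟩, LipschitzWith.of_dist_le_mul fun x y => ?_⟩
  have e : f x * g x - f y * g y = f x * (g x - g y) + g y * (f x - f y) := by ring
  have a1 := hf.dist_le_mul x y
  have a2 := hg.dist_le_mul x y
  rw [Real.dist_eq] at a1 a2 ⊢
  rw [e]
  refine (abs_add_le _ _).trans ?_
  rw [abs_mul, abs_mul]
  have b1 := mul_le_mul (h1 x) a2 (abs_nonneg _) ha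
  have b2 := mul_le_mul (h2 y) a1 (abs_nonneg _) zero_le_one
  show _ ≤ (a * K' + K) * dist x y
  linarith

/-- The cutoff. -/
def layer_cut {n : ℕ} (R : ℝ) (x : E n) : ℝ := max 0 (min 1 (R + 1 - ‖x‖))

theorem layer_cut_lip {n : ℕ} (R : ℝ) : LipschitzWith 1 (layer_cut (n := n) R) := by
  have h : LipschitzWith 1 fun x : E n => R + 1 - ‖x‖ := by
    refine LipschitzWith.of_dist_le_mul fun x y => ?_
    rw [Real.dist_eq, NNReal.coe_one, one_mul, dist_eq_norm,
      show R + 1 - ‖x‖ - (R + 1 - ‖y‖) = -(‖x‖ - ‖y‖) by ring, abs_neg]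
    exact abs_norm_sub_norm_le x y
  exact (h.const_min 1).const_max 0

theorem layer_cut_mem {n : ℕ} (R : ℝ) (x : E n) : 0 ≤ layer_cut R x ∧ layer_cut R x ≤ 1 :=
  ⟨le_max_left _ _, max_le zero_le_one (min_le_left _ _)⟩

theorem layer_cut_one {n : ℕ} {R : ℝ} {x : E n} (h : ‖x‖ ≤ R) : layer_cut R x = 1 := by
  unfold layer_cut
  rw [min_eq_left (by linarith), max_eq_right zero_le_one]

theorem layer_cut_zero {n : ℕ} {R : ℝ} {x : E n} (h : x ∉ closedBall (0 : E n) (R + 1)) :
    layer_cut R x = 0 := by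
  rw [mem_closedBall_zero_iff, not_le] at h
  exact max_eq_left ((min_le_right _ _).trans (by linarith))

theorem layer_fd_zero {n : ℕ} {r : ℝ} {f : E n → ℝ}
    (h : ∀ x, x ∉ closedBall (0 : E n) r → f x = 0) {x : E n} (hx : x ∉ closedBall (0 : E n) r) :
    fderiv ℝ f x = 0 := by
  have : f =ᶠ[𝓝 x] fun _ => 0 :=
    eventually_of_mem (isClosed_closedBall.isOpen_compl.mem_nhds hx) h
  rw [this.fderiv_eq, fderiv_fun_const, Pi.zero_apply]

theorem layer (h_aeq : S_aeq) (h_orth : S_orth) (h_harm : S_harm) (h_jets : S_jets) : S_layer := by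
  intro n u R hu hH hR hR0
  obtain ⟨d0, hd0, hlow⟩ := layer_low h_harm h_jets hu hH hR hR0
  obtain ⟨L, hL⟩ := hu.lip
  obtain ⟨V, hV⟩ : ∃ V : ℝ, V = (volume (closedBall (0 : E n) (R + 1))).toReal := ⟨_, rfl⟩
  have hV0 : 0 ≤ V := hV ▸ ENNReal.toReal_nonneg
  refine ⟨8 * L * V + 2 * V / d0, fun δ hδ => ?_⟩
  obtain ⟨S, hS⟩ : ∃ S : Set (E n), S = {x : E n | R⁻¹ ≤ ‖x‖ ∧ ‖x‖ ≤ R ∧ 0 < u x ∧ u x ≤ δ} :=
    ⟨_, rfl⟩
  rw [← hS]
  have hSB : S ⊆ closedBall (0 : E n) (R + 1) := by
    intro x hx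
    rw [hS] at hx
    rw [mem_closedBall_zero_iff]
    linarith [hx.2.1]
  have hfin : volume (closedBall (0 : E n) (R + 1)) ≠ ⊤ := measure_closedBall_lt_top.ne
  have hfinS : volume S ≠ ⊤ := ne_top_of_le_ne_top hfin (measure_mono hSB)
  have hL0 : (0 : ℝ) ≤ L := L.2
  by_cases hd : d0 ≤ 2 * δ
  · have h1 : (volume S).toReal ≤ V := hV ▸ ENNReal.toReal_mono hfin (measure_mono hSB)
    have h2 : V ≤ 2 * V / d0 * δ := by
      rw [div_mul_eq_mul_div, le_div_iff₀ hd0]
      nlinarith
    have h3 : 0 ≤ 8 * L * V * δ := by positivity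
    linarith
  rw [not_le] at hd
  have hSm : MeasurableSet S := by
    rw [hS]
    have hm := hL.continuous.measurable
    exact (measurableSet_le measurable_const measurable_norm).inter
      ((measurableSet_le measurable_norm measurable_const).inter
        ((measurableSet_lt measurable_const hm).inter (measurableSet_le hm measurable_const)))
  have hm : LipschitzWith L fun x => min (u x) (2 * δ) := hL.min_const _
  have hm0 : ∀ x, 0 ≤ min (u x) (2 * δ) := fun x => le_min (hu.nonneg x) (by linarith)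
  have hζ := layer_cut_lip (n := n) R
  have hψ : Lip fun x => min (u x) (2 * δ) * layer_cut R x :=
    layer_mul hm hζ (a := 2 * δ) (by linarith)
      (fun x => by rw [abs_of_nonneg (hm0 x)]; exact min_le_right _ _)
      fun x => by rw [abs_of_nonneg (layer_cut_mem R x).1]; exact (layer_cut_mem R x).2
  have hψ0 : ∀ x, x ∉ closedBall (0 : E n) (R + 1) → min (u x) (2 * δ) * layer_cut R x = 0 :=
    fun x hx => by rw [layer_cut_zero hx, mul_zero]
  have ho := h_orth n u _ hu hψ (HasCompactSupport.intro (isCompact_closedBall _ _) hψ0)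
    fun x hx => by rw [hx, min_eq_left (by linarith), zero_mul]
  obtain ⟨L', hL'⟩ := hψ
  have hgu : ∀ x, ‖gradient u x‖ ≤ L := fun x => by
    rw [layer_norm_grad]; exact norm_fderiv_le_of_lipschitz ℝ hL
  have hint : Integrable fun x =>
      ⟪gradient u x, gradient (fun x => min (u x) (2 * δ) * layer_cut R x) x⟫ := by
    refine Integrable.mono'
      (g := (closedBall (0 : E n) (R + 1)).indicator fun _ => (L : ℝ) * L')
      ((integrable_indicator_iff measurableSet_closedBall).2 (integrableOn_const hfin))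
      ((layer_meas u).inner (layer_meas _)).aestronglyMeasurable
      (Eventually.of_forall fun x => ?_)
    refine (norm_inner_le_norm _ _).trans ?_
    by_cases hx : x ∈ closedBall (0 : E n) (R + 1)
    · rw [indicator_of_mem hx]
      refine mul_le_mul (hgu x) ?_ (norm_nonneg _) hL0
      rw [layer_norm_grad]
      exact norm_fderiv_le_of_lipschitz ℝ hL'
    · rw [indicator_of_notMem hx, layer_norm_grad (fun x => min (u x) (2 * δ) * layer_cut R x),
        layer_fd_zero hψ0 hx, norm_zero, mul_zero]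
  have i1 : Integrable (S.indicator fun _ => (1 / 4 : ℝ)) :=
    (integrable_indicator_iff hSm).2 (integrableOn_const hfinS)
  have i2 : Integrable ((closedBall (0 : E n) (R + 1)).indicator fun _ => 2 * δ * L) :=
    (integrable_indicator_iff measurableSet_closedBall).2 (integrableOn_const hfin)
  have hae := h_aeq n (fun x => min (u x) (2 * δ) - 2 * δ)
    ⟨_, hm.sub (LipschitzWith.const (2 * δ))⟩
  have key : ∀ᵐ x, S.indicator (fun _ => (1 / 4 : ℝ)) x -
      (closedBall (0 : E n) (R + 1)).indicator (fun _ => 2 * δ * L) x ≤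
      ⟪gradient u x, gradient (fun x => min (u x) (2 * δ) * layer_cut R x) x⟫ := by
    filter_upwards [hae, hm.ae_differentiableAt, hζ.ae_differentiableAt] with x h1 h2 h3
    rw [real_inner_comm, inner_gradient_left, fderiv_fun_mul h2 h3]
    simp only [add_apply, smul_apply, smul_eq_mul]
    have a1 : S.indicator (fun _ => (1 / 4 : ℝ)) x ≤
        layer_cut R x * fderiv ℝ (fun x => min (u x) (2 * δ)) x (gradient u x) := by
      by_cases hx : u x < 2 * δ
      · have e : (fun x => min (u x) (2 * δ)) =ᶠ[𝓝 x] u :=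
          eventually_of_mem ((isOpen_lt hL.continuous continuous_const).mem_nhds hx)
            fun y (hy : u y < 2 * δ) => min_eq_left hy.le
        rw [e.fderiv_eq, ← inner_gradient_left, real_inner_self_eq_norm_sq]
        by_cases hxS : x ∈ S
        · rw [indicator_of_mem hxS]
          rw [hS] at hxS
          rw [layer_cut_one hxS.2.1, one_mul]
          exact hlow x hxS.1 hxS.2.2.1 (hx.trans hd)
        · rw [indicator_of_notMem hxS]
          exact mul_nonneg (layer_cut_mem R x).1 (sq_nonneg _)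
      · have hxS : x ∉ S := by
          intro hxS
          rw [hS] at hxS
          exact hx (by linarith [hxS.2.2.2])
        have h4 := h1 (by rw [min_eq_right (not_lt.1 hx), sub_self])
        rw [fderiv_sub_const] at h4
        rw [indicator_of_notMem hxS, h4]
        simp
    have a2 : -(closedBall (0 : E n) (R + 1)).indicator (fun _ => 2 * δ * L) x ≤
        min (u x) (2 * δ) * fderiv ℝ (layer_cut R) x (gradient u x) := by
      by_cases hx : x ∈ closedBall (0 : E n) (R + 1)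
      · rw [indicator_of_mem hx]
        have b1 : |fderiv ℝ (layer_cut R) x (gradient u x)| ≤ 1 * L :=
          ((fderiv ℝ (layer_cut R) x).le_opNorm _).trans
            (mul_le_mul (norm_fderiv_le_of_lipschitz ℝ hζ) (hgu x) (norm_nonneg _) zero_le_one)
        have b2 := mul_le_mul (min_le_right (u x) (2 * δ)) b1 (abs_nonneg _) (by linarith)
        have b3 := mul_le_mul_of_nonneg_left
          (neg_abs_le (fderiv ℝ (layer_cut R) x (gradient u x))) (hm0 x)
        linarith
      · rw [indicator_of_notMem hx, layer_fd_zero (fun y hy => layer_cut_zero hy) hx]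
        simp
    linarith
  have hle := integral_mono_ae (i1.sub i2) hint key
  rw [ho] at hle
  have e := integral_sub i1 i2
  rw [integral_indicator_const _ hSm, integral_indicator_const _ measurableSet_closedBall,
    smul_eq_mul, smul_eq_mul, Measure.real, Measure.real, ← hV] at e
  have hle' : (volume S).toReal * (1 / 4) - V * (2 * δ * L) ≤ 0 := e ▸ hle
  have h3 : 0 ≤ 2 * V / d0 * δ := by positivity
  linarith

end Vale.Agent.P098
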