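import Vale.Agent.P098.Iface

open MeasureTheory Set Metric Filter
open scoped ContDiff RealInnerProductSpace Topology NNReal

noncomputable section
namespace Vale.Agent.P098

theorem liph1_inner_gradient {n : ℕ} (f : E n → ℝ) (x v : E n) :
    ⟪gradient f x, v⟫ = fderiv ℝ f x v := by
  simp [gradient, InnerProductSpace.toDual_symm_apply]

theorem liph1_norm_gradient {n : ℕ} (f : E n → ℝ) (x : E n) :
    ‖gradient f x‖ = ‖fderiv ℝ f x‖ := by
  simp [gradient]

theorem liph1_meas_gradient {n : ℕ} (f : E n → ℝ) : Measurable (gradient f) := by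
  have h1 : Measurable (fderiv ℝ f) := measurable_fderiv ℝ f
  have h2 : Continuous (fun L : E n →L[ℝ] ℝ => (InnerProductSpace.toDual ℝ (E n)).symm L) :=
    (InnerProductSpace.toDual ℝ (E n)).symm.continuous
  exact h2.measurable.comp h1

theorem liph1_finite {n : ℕ} (c : E n) (r : ℝ) :
    IsFiniteMeasure ((volume : Measure (E n)).restrict (ball c r)) :=
  isFiniteMeasure_restrict.mpr measure_ball_lt_top.ne

theorem liph1_test_zero {n : ℕ} {U : Set (E n)} {ψ : E n → ℝ} (h : IsTest U ψ) {x : E n}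
    (hx : x ∉ U) : ψ x = 0 :=
  image_eq_zero_of_notMem_tsupport (fun hx' => hx (h.2.2 hx'))

theorem liph1_test_fderiv_zero {n : ℕ} {U : Set (E n)} {ψ : E n → ℝ} (h : IsTest U ψ) {x : E n}
    (hx : x ∉ U) : fderiv ℝ ψ x = 0 := by
  have h1 : x ∉ tsupport ψ := fun hx' => hx (h.2.2 hx')
  exact fderiv_of_notMem_tsupport ℝ h1

theorem liph1_h1 {n : ℕ} (c : E n) (r : ℝ) (f : E n → ℝ) (hf : Lip f) :
    IsH1 (ball c r) f (gradient f) := by
  obtain ⟨L, hL⟩ := hf
  have := liph1_finite c r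
  refine ⟨?_, ?_, ?_⟩
  · refine MemLp.of_bound hL.continuous.aestronglyMeasurable (|f c| + L * r) ?_
    refine (ae_restrict_iff' measurableSet_ball).mpr (ae_of_all _ fun x hx => ?_)
    have h1 := hL.dist_le_mul x c
    have h2 : dist x c < r := hx
    have h3 : (L : ℝ) * dist x c ≤ L * r := mul_le_mul_of_nonneg_left h2.le L.coe_nonneg
    rw [Real.dist_eq] at h1
    rw [Real.norm_eq_abs]
    have h4 : |f x| ≤ |f x - f c| + |f c| := by
      have := abs_add_le (f x - f c) (f c)
      rwa [sub_add_cancel] at this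
    linarith
  · refine MemLp.of_bound (liph1_meas_gradient f).aestronglyMeasurable L ?_
    refine ae_of_all _ fun x => ?_
    rw [liph1_norm_gradient]
    exact norm_fderiv_le_of_lipschitz ℝ hL
  · intro ψ hψ v
    obtain ⟨D, hD⟩ := ContDiff.lipschitzWith_of_hasCompactSupport hψ.2.1 hψ.1 (by simp)
    have key := LipschitzWith.integral_lineDeriv_mul_eq (μ := volume) hL hD hψ.2.1 v
    have e1 : ∫ x in ball c r, f x * fderiv ℝ ψ x v = ∫ x, f x * fderiv ℝ ψ x v := by
      refine setIntegral_eq_integral_of_forall_compl_eq_zero fun x hx => ?_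
      rw [liph1_test_fderiv_zero hψ hx]
      simp
    have e2 : ∫ x in ball c r, ⟪gradient f x, v⟫ * ψ x = ∫ x, ⟪gradient f x, v⟫ * ψ x := by
      refine setIntegral_eq_integral_of_forall_compl_eq_zero fun x hx => ?_
      rw [liph1_test_zero hψ hx]
      simp
    have e3 : ∫ x, lineDeriv ℝ f x v * ψ x = ∫ x, ⟪gradient f x, v⟫ * ψ x := by
      refine integral_congr_ae ?_
      filter_upwards [hL.ae_differentiableAt (μ := volume)] with x hx
      rw [liph1_inner_gradient, hx.lineDeriv_eq_fderiv]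
    have e4 : ∫ x, lineDeriv ℝ ψ x (-v) * f x = -∫ x, f x * fderiv ℝ ψ x v := by
      rw [← integral_neg]
      refine integral_congr_ae (ae_of_all _ fun x => ?_)
      have hx : DifferentiableAt ℝ ψ x := (hψ.1.differentiable (by simp)) x
      show lineDeriv ℝ ψ x (-v) * f x = -(f x * fderiv ℝ ψ x v)
      rw [hx.lineDeriv_eq_fderiv, map_neg]
      ring
    rw [e1, e2, ← e3, key, e4, neg_neg]

theorem liph1_uniq {n : ℕ} (c : E n) (r : ℝ) (f f' : E n → ℝ) (G G' : E n → E n)
    (h : IsH1 (ball c r) f G) (h' : IsH1 (ball c r) f' G')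
    (hff : f =ᵐ[volume.restrict (ball c r)] f') : G =ᵐ[volume.restrict (ball c r)] G' := by
  have := liph1_finite c r
  have hG : IntegrableOn G (ball c r) := h.2.1.integrable (by norm_num)
  have hG' : IntegrableOn G' (ball c r) := h'.2.1.integrable (by norm_num)
  have hv : ∀ v : E n, ∀ᵐ x, x ∈ ball c r → ⟪G x, v⟫ - ⟪G' x, v⟫ = 0 := by
    intro v
    have i1 : IntegrableOn (fun x => ⟪G x, v⟫) (ball c r) := hG.inner_const v
    have i2 : IntegrableOn (fun x => ⟪G' x, v⟫) (ball c r) := hG'.inner_const v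
    refine isOpen_ball.ae_eq_zero_of_integral_contDiff_smul_eq_zero
      (f := fun x => ⟪G x, v⟫ - ⟪G' x, v⟫) (i1.sub i2).locallyIntegrableOn ?_
    intro ψ h1 h2 h3
    have hψ : IsTest (ball c r) ψ := ⟨h1, h2, h3⟩
    obtain ⟨M, hM⟩ := h2.exists_bound_of_continuous h1.continuous
    have j1 : IntegrableOn (fun x => ⟪G x, v⟫ * ψ x) (ball c r) :=
      i1.mul_bdd h1.continuous.aestronglyMeasurable (ae_of_all _ hM)
    have j2 : IntegrableOn (fun x => ⟪G' x, v⟫ * ψ x) (ball c r) :=
      i2.mul_bdd h1.continuous.aestronglyMeasurable (ae_of_all _ hM)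
    have a1 := h.2.2 ψ hψ v
    have a2 := h'.2.2 ψ hψ v
    have a3 : ∫ x in ball c r, f x * fderiv ℝ ψ x v = ∫ x in ball c r, f' x * fderiv ℝ ψ x v := by
      refine integral_congr_ae ?_
      filter_upwards [hff] with x hx
      rw [hx]
    have a4 : ∫ x, ψ x • (⟪G x, v⟫ - ⟪G' x, v⟫) =
        ∫ x in ball c r, (⟪G x, v⟫ * ψ x - ⟪G' x, v⟫ * ψ x) := by
      rw [setIntegral_eq_integral_of_forall_compl_eq_zero]
      · refine integral_congr_ae (ae_of_all _ fun x => ?_)
        show ψ x • (⟪G x, v⟫ - ⟪G' x, v⟫) = ⟪G x, v⟫ * ψ x - ⟪G' x, v⟫ * ψ x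
        rw [smul_eq_mul]
        ring
      · intro x hx
        rw [liph1_test_zero hψ hx]
        simp
    rw [a4, integral_sub j1 j2]
    linarith
  have hall : ∀ᵐ x, ∀ i : Fin n, x ∈ ball c r →
      ⟪G x, EuclideanSpace.single i (1 : ℝ)⟫ - ⟪G' x, EuclideanSpace.single i (1 : ℝ)⟫ = 0 :=
    ae_all_iff.mpr fun i => hv _
  refine (ae_restrict_iff' measurableSet_ball).mpr ?_
  filter_upwards [hall] with x hx hxb
  ext i
  have := hx i hxb
  simp only [EuclideanSpace.inner_single_right, one_mul, conj_trivial] at this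
  linarith

theorem liph1 (h_ibp : S_ibp) : S_liph1 := by
  have _ := h_ibp
  intro n c r
  exact ⟨fun f hf => liph1_h1 c r f hf, fun f f' G G' h h' hff => liph1_uniq c r f f' G G' h h' hff⟩

end Vale.Agent.P098
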