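import Vale.Agent.P098.Lower2

open MeasureTheory Set Metric Filter
open scoped ContDiff RealInnerProductSpace Topology NNReal

noncomputable section
namespace Vale.Agent.P098

variable {n : ℕ}

/-- multiplication by a power of `|x|` -/
def lower_m (k : ℕ) (f : (Fin 5 → ℝ) → ℝ) (z : Fin 5 → ℝ) : ℝ := √(z 4) ^ k * f z

def lower_c (k : ℕ) (c : Co) : Co :=
  ⟨lower_m k c.ρ, lower_m k c.F1, lower_m k c.F2, lower_m k c.G0, lower_m k c.G1, lower_m k c.G2⟩

theorem lower_open : IsOpen Dom :=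
  (isOpen_lt continuous_const (continuous_apply 0)).inter
    ((isOpen_lt continuous_const (continuous_apply 4)).inter
      (isOpen_lt continuous_const ((continuous_apply 3).mul (continuous_apply 0).sqrt)))

theorem lower_sm (k : ℕ) {f : (Fin 5 → ℝ) → ℝ} (h : ContDiffOn ℝ 1 f Dom) :
    ContDiffOn ℝ 1 (lower_m k f) Dom :=
  (((contDiff_apply ℝ ℝ (4 : Fin 5)).contDiffOn.sqrt fun _ hz => hz.2.1.ne').pow k).mul h

theorem lower_hom (k : ℕ) {f : (Fin 5 → ℝ) → ℝ} {t a : ℝ} (ht : 0 < t) {z : Fin 5 → ℝ}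
    (h : t ^ (n + k) * f (sc t z) = a * f z) :
    t ^ n * lower_m k f (sc t z) = a * lower_m k f z := by
  have e : √(sc t z 4) = t * √(z 4) := by
    have : sc t z 4 = t ^ 2 * z 4 := rfl
    rw [this, Real.sqrt_mul (sq_nonneg t), Real.sqrt_sq ht.le]
  rw [lower_m, lower_m, e, mul_pow]
  rw [pow_add] at h
  linear_combination √(z 4) ^ k * h

theorem lower_one (k : ℕ) (f : (Fin 5 → ℝ) → ℝ) {z : Fin 5 → ℝ} (h : z 4 = 1) :
    lower_m k f z = f z := by simp [lower_m, h]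

theorem lower_dd (k : ℕ) {f : (Fin 5 → ℝ) → ℝ} {z : Fin 5 → ℝ} (hf : DifferentiableAt ℝ f z)
    (h : z 4 = 1) (a : Fin 5) :
    dd (lower_m k f) a z = dd f a z + k / 2 * f z * (Pi.single a 1 : Fin 5 → ℝ) 4 := by
  have h1 : HasFDerivAt (fun z : Fin 5 → ℝ => z 4)
      (ContinuousLinearMap.proj 4 : (Fin 5 → ℝ) →L[ℝ] ℝ) z := hasFDerivAt_apply 4 z
  have h2 := (((h1.sqrt (by rw [h]; norm_num)).pow k).mul hf.hasFDerivAt).fderiv
  have e : lower_m k f = (fun z : Fin 5 → ℝ => √(z 4) ^ k) * f := rfl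
  rw [dd, dd, e, h2]
  simp [h]
  ring

theorem lower_nA_pos {A : T2 n} (h : A ≠ 0) : 0 < nA A := by
  obtain ⟨i, hi⟩ := Function.ne_iff.1 h
  obtain ⟨j, hj⟩ := Function.ne_iff.1 hi
  exact Finset.sum_pos' (fun i _ => Finset.sum_nonneg fun j _ => sq_nonneg _)
    ⟨i, Finset.mem_univ _, Finset.sum_pos' (fun j _ => sq_nonneg _)
      ⟨j, Finset.mem_univ _, by have : A i j ≠ 0 := hj; positivity⟩⟩

theorem lower_dom {x p : T1 n} {A : T2 n} {B : T3 n} {u : ℝ} (h : St x p A B u)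
    (h1 : ∑ i, x i ^ 2 = 1) : inv x p A u ∈ Dom := by
  refine ⟨lower_nA_pos h.a0, ?_, ?_⟩
  · show 0 < ∑ i, x i ^ 2
    rw [h1]; exact one_pos
  · show -(1 / 2) < u * √(nA A)
    have : 0 ≤ u * √(nA A) := mul_nonneg h.u0 (Real.sqrt_nonneg _)
    linarith

theorem lower_diff {f : (Fin 5 → ℝ) → ℝ} (h : ContDiffOn ℝ 1 f Dom) {z : Fin 5 → ℝ} (hz : z ∈ Dom) :
    DifferentiableAt ℝ f z := (h.contDiffAt (lower_open.mem_nhds hz)).differentiableAt one_ne_zero

theorem lower_gr' (k : ℕ) {f : (Fin 5 → ℝ) → ℝ} (hf : ContDiffOn ℝ 1 f Dom) {x p : T1 n} {A : T2 n}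
    {B : T3 n} {u : ℝ} (h : St x p A B u) (h1 : ∑ i, x i ^ 2 = 1) (i : Fin n) :
    gr (lower_m k f) x p A B u i = gr f x p A B u i + k * f (inv x p A u) * x i := by
  have e : inv x p A u 4 = 1 := h1
  simp only [gr, lower_dd k (lower_diff hf (lower_dom h h1)) e, Fin.sum_univ_five]
  simp [ginv]
  ring

theorem lower_vf' (k : ℕ) (c : Co) {x p : T1 n} (A : T2 n) (B : T3 n) (u : ℝ)
    (h1 : ∑ i, x i ^ 2 = 1) : vf (lower_c k c) x p A B u = vf c x p A B u := by
  have e : inv x p A u 4 = 1 := h1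
  funext i
  simp only [vf, lower_c, lower_one k _ e]

theorem lower_dv' (k : ℕ) {c : Co} (hc : ContDiffOn ℝ 1 c.ρ Dom ∧ ContDiffOn ℝ 1 c.F1 Dom ∧
      ContDiffOn ℝ 1 c.F2 Dom ∧ ContDiffOn ℝ 1 c.G0 Dom ∧ ContDiffOn ℝ 1 c.G1 Dom ∧
      ContDiffOn ℝ 1 c.G2 Dom) {x p : T1 n} {A : T2 n}
    {B : T3 n} {u : ℝ} (h : St x p A B u) (h1 : ∑ i, x i ^ 2 = 1) :
    dv (lower_c k c) x p A B u = dv c x p A B u + k * ∑ i, x i * vf c x p A B u i := by
  have e : inv x p A u 4 = 1 := h1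
  obtain ⟨-, a1, a2, a3, a4, a5⟩ := hc
  simp only [dv, lower_c, lower_one k _ e, lower_gr' k a1 h h1, lower_gr' k a2 h h1,
    lower_gr' k a3 h h1, lower_gr' k a4 h h1, lower_gr' k a5 h h1, add_assoc, add_right_inj, vf]
  rw [Finset.mul_sum, ← Finset.sum_add_distrib]
  exact Finset.sum_congr rfl fun i _ => by ring

theorem lower_ctx {x p : T1 n} {A : T2 n} {B : T3 n} {u : ℝ} (h : St x p A B u) (M : T2 n) :
    ∑ i, x i * ct M B i = -∑ i, ∑ j, M i j * A i j := by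
  simp only [ct, Finset.mul_sum]
  rw [Finset.sum_comm, ← Finset.sum_neg_distrib]
  refine Finset.sum_congr rfl fun i _ => ?_
  rw [Finset.sum_comm, ← Finset.sum_neg_distrib]
  refine Finset.sum_congr rfl fun j _ => ?_
  rw [← mul_neg, ← h.bx i j, Finset.mul_sum]
  exact Finset.sum_congr rfl fun l _ => by ring

theorem lower_apx {x p : T1 n} {A : T2 n} {B : T3 n} {u : ℝ} (h : St x p A B u) :
    ∑ i, x i * ap A p i = 0 := by
  simp only [ap, Finset.mul_sum]
  rw [Finset.sum_comm]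
  refine Finset.sum_eq_zero fun j _ => ?_
  rw [← mul_zero (p j), ← h.ax j, Finset.mul_sum]
  exact Finset.sum_congr rfl fun i _ => by rw [h.st.a j i]; ring

theorem lower_euler0 {f : (Fin 5 → ℝ) → ℝ} {z : Fin 5 → ℝ} (hf : DifferentiableAt ℝ f z) (N : ℕ)
    (h : ∀ t : ℝ, 0 < t → t ^ N * f (sc t z) = t ^ 2 * f z) :
    dd f 0 z * (-2 * z 0) + dd f 1 z * (-3 * z 1) + dd f 3 z * z 3 + dd f 4 z * (2 * z 4) =
      (2 - N) * f z := by
  have e1 : sc 1 z = z := by
    funext a; fin_cases a <;> simp [sc]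
  have h1 : HasDerivAt (fun t => sc t z) ![-2 * z 0, -3 * z 1, 0, z 3, 2 * z 4] 1 := by
    refine hasDerivAt_pi.2 fun a => ?_
    fin_cases a
    · refine ((hasDerivAt_const (1 : ℝ) (z 0)).div (hasDerivAt_pow 2 1) (by norm_num)).congr_deriv ?_
      simp; ring
    · refine ((hasDerivAt_const (1 : ℝ) (z 1)).div (hasDerivAt_pow 3 1) (by norm_num)).congr_deriv ?_
      simp; ring
    · exact hasDerivAt_const _ _
    · refine ((hasDerivAt_id (1 : ℝ)).mul_const (z 3)).congr_deriv ?_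
      simp
    · refine ((hasDerivAt_pow 2 (1 : ℝ)).mul_const (z 4)).congr_deriv ?_
      simp
  have h2 := HasFDerivAt.comp_hasDerivAt (f := fun t => sc t z) (1 : ℝ) (l := f)
    (l' := fderiv ℝ f z) (by rw [e1]; exact hf.hasFDerivAt) h1
  have h3 := (hasDerivAt_pow N (1 : ℝ)).mul h2
  have h4 := (hasDerivAt_pow 2 (1 : ℝ)).mul_const (f z)
  have h5 := h3.unique (h4.congr_of_eventuallyEq (by
    filter_upwards [Ioi_mem_nhds one_pos] with t ht using h t ht))
  have e2 : (![-2 * z 0, -3 * z 1, 0, z 3, 2 * z 4] : Fin 5 → ℝ) =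
      (-2 * z 0) • Pi.single 0 1 + (-3 * z 1) • Pi.single 1 1 + z 3 • Pi.single 3 1 +
        (2 * z 4) • Pi.single 4 1 := by
    funext a; fin_cases a <;> simp
  rw [e2] at h5
  simp only [map_add, map_smul, smul_eq_mul, one_pow, mul_one, one_mul, Function.comp_apply, e1,
    Nat.cast_ofNat] at h5
  simp only [dd]
  linear_combination h5

theorem lower_euler {f : (Fin 5 → ℝ) → ℝ} (hf : ContDiffOn ℝ 1 f Dom) (N : ℕ)
    (hh : ∀ t : ℝ, 0 < t → ∀ z ∈ Dom, t ^ N * f (sc t z) = t ^ 2 * f z) {x p : T1 n} {A : T2 n}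
    {B : T3 n} {u : ℝ} (h : St x p A B u) (h1 : ∑ i, x i ^ 2 = 1) :
    ∑ i, x i * gr f x p A B u i = (2 - N) * f (inv x p A u) := by
  have hz := lower_dom h h1
  rw [← lower_euler0 (lower_diff hf hz) N fun t ht => hh t ht _ hz]
  have a0 := lower_ctx h A
  have a1 := lower_ctx h (sqA A)
  have a2 := lower_apx h
  have a3 := h.px
  have e0 : inv x p A u 0 = ∑ i, ∑ j, A i j * A i j := by simp [inv, nA, sq]
  have e1 : inv x p A u 1 = ∑ i, ∑ j, sqA A i j * A i j := rfl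
  have e3 : inv x p A u 3 = u := rfl
  have e4 : inv x p A u 4 = ∑ i, x i ^ 2 := rfl
  have e : ∑ i, x i * gr f x p A B u i =
      dd f 0 (inv x p A u) * (2 * ∑ i, x i * ct A B i) +
      dd f 1 (inv x p A u) * (3 * ∑ i, x i * ct (sqA A) B i) +
      dd f 2 (inv x p A u) * (2 * ∑ i, x i * ap A p i) + dd f 3 (inv x p A u) * (∑ i, x i * p i) +
      dd f 4 (inv x p A u) * (2 * ∑ i, x i ^ 2) := by
    simp only [Finset.mul_sum, ← Finset.sum_add_distrib]
    refine Finset.sum_congr rfl fun i _ => ?_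
    simp only [gr, Fin.sum_univ_five]
    simp [ginv]
    ring
  rw [e, a0, a1, a2, a3, e0, e1, e3, e4]
  ring

theorem lower : S_lower := by
  intro N n c hn hN _ hc hx
  obtain ⟨k, rfl⟩ := Nat.exists_eq_add_of_le hN
  have hpos : ∀ (x p : T1 n) (A : T2 n) (B : T3 n) (u : ℝ), St x p A B u → ∑ i, x i ^ 2 = 1 →
      0 < c.ρ (inv x p A u) := fun x p A B u h h1 => by
    have := hc.pos _ _ _ _ u (lower_st k h) (by rw [lower_sq]; exact h1)
    rwa [lower_inv] at this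
  refine ⟨lower_c k c, ⟨lower_sm k hc.sm.1, lower_sm k hc.sm.2.1, lower_sm k hc.sm.2.2.1,
    lower_sm k hc.sm.2.2.2.1, lower_sm k hc.sm.2.2.2.2.1, lower_sm k hc.sm.2.2.2.2.2⟩,
    fun t ht z hz => ?_, fun x p A B u h h1 => ?_, ?_, fun x p A B h h1 ha hh0 => ?_, fun M => ?_⟩
  · obtain ⟨a0, a1, a2, a3, a4, a5⟩ := hc.hom t ht z hz
    exact ⟨lower_hom k ht a0, lower_hom k ht a1, lower_hom k ht a2, lower_hom k ht a3,
      lower_hom k ht a4, lower_hom k ht a5⟩
  · have e : inv x p A u 4 = 1 := h1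
    simpa only [lower_c, lower_one k _ e] using hpos x p A B u h h1
  · obtain ⟨c₀, hc₀, hi⟩ := hc.int
    refine ⟨c₀, hc₀, fun x p A B u h h1 => ?_⟩
    have h1 : ∑ i, x i ^ 2 = 1 := h1
    have e : inv x p A u 4 = 1 := h1
    have a1 := hi _ _ _ _ u (lower_st k h) (by rw [lower_sq]; exact h1)
    have a2 := hx _ _ _ _ u (lower_st k h) (by rw [lower_sq]; exact h1)
    have a3 := lower_euler hc.sm.1 (n + k) (fun t ht z hz => (hc.hom t ht z hz).1) h h1
    have a4 := hpos x p A B u h h1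
    rw [lower_gr, lower_sq, lower_sq, lower_inv, lower_nA, lower_dv, h1] at a1
    rw [lower_vf, lower_sum, lower_inv] at a2
    have e2 : (lower_c k c).ρ = lower_m k c.ρ := rfl
    have a5 : ∑ i, gr (lower_m k c.ρ) x p A B u i ^ 2 = ∑ i, gr c.ρ x p A B u i ^ 2
        + 2 * k * c.ρ (inv x p A u) * ∑ i, x i * gr c.ρ x p A B u i
        + (k * c.ρ (inv x p A u)) ^ 2 * ∑ i, x i ^ 2 := by
      simp only [lower_gr' k hc.sm.1 h h1, Finset.mul_sum, ← Finset.sum_add_distrib]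
      exact Finset.sum_congr rfl fun i _ => by ring
    rw [lower_dv' k hc.sm h h1, e2, lower_one k _ e, a5, a3, h1]
    simp only [Real.sqrt_one, one_pow, div_one, mul_one] at a1 ⊢
    generalize c.ρ (inv x p A u) = ρ at *
    have a6 : (∑ i, gr c.ρ x p A B u i ^ 2 + 2 * k * ρ * ((2 - ((n + k : ℕ) : ℝ)) * ρ)
        + (k * ρ) ^ 2) / (4 * ρ) =
        (∑ i, gr c.ρ x p A B u i ^ 2) / (4 * ρ) - k * ((2 * n + k - 4) / 4 * ρ) := by
      push_cast; field_simp; ring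
    rw [a6]
    have a7 : (3 : ℝ) ≤ n := by exact_mod_cast hn
    have a8 : (0 : ℝ) ≤ k := Nat.cast_nonneg k
    push_cast at a2
    have a9 := mul_nonneg a8 a2
    have a10 : 0 ≤ k * ((n - 3) * ρ) := mul_nonneg a8 (mul_nonneg (by linarith) a4.le)
    linarith
  · have h1 : ∑ i, x i ^ 2 = 1 := h1
    have e : inv x p A 0 4 = 1 := h1
    have a1 := hc.bd _ _ _ _ (lower_st k h) (by rw [lower_sq]; exact h1) (lower_adm k ha)
      (by rwa [lower_hh])
    rw [lower_vf, lower_sum, lower_hh, lower_inv] at a1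
    have e2 : (lower_c k c).ρ = lower_m k c.ρ := rfl
    rwa [lower_vf' k c A B 0 h1, e2, lower_one k _ e]
  · obtain ⟨C, hC⟩ := hc.bnd M
    refine ⟨(1 + k) * C, fun x p A B u h h1 m1 m2 m3 => ?_⟩
    have h1 : ∑ i, x i ^ 2 = 1 := h1
    have e : inv x p A u 4 = 1 := h1
    obtain ⟨a1, a2, a3⟩ := hC _ _ _ _ u (lower_st k h) (by rw [lower_sq]; exact h1)
      (by rwa [lower_sq]) (by rwa [lower_sq]) (by rwa [lower_nA])
    rw [lower_inv, lower_nA] at a1
    rw [lower_vf, lower_norm, lower_norm3, lower_nA] at a2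
    rw [lower_gr, lower_norm, lower_norm3, lower_nA] at a3
    have a4 := hpos x p A B u h h1
    have a8 : (0 : ℝ) ≤ k := Nat.cast_nonneg k
    have hC0 : 0 ≤ C := by
      by_contra hneg
      have := mul_nonpos_of_nonpos_of_nonneg (not_le.1 hneg).le (Real.sqrt_nonneg (nA A))
      linarith
    have b1 : 0 ≤ k * (C * √(nA A)) := by positivity
    have b2 : 0 ≤ k * (C * ‖B‖) := by positivity
    have e2 : (lower_c k c).ρ = lower_m k c.ρ := rfl
    rw [lower_vf' k c A B u h1, e2, lower_one k _ e]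
    refine ⟨by linarith, by linarith, (pi_norm_le_iff_of_nonneg (by positivity)).2 fun i => ?_⟩
    rw [lower_gr' k hc.sm.1 h h1]
    have b3 := norm_le_pi_norm (gr c.ρ x p A B u) i
    have b4 : |x i| ≤ 1 := by
      rw [← sq_le_one_iff_abs_le_one, ← h1]
      exact Finset.single_le_sum (f := fun i => x i ^ 2) (fun i _ => sq_nonneg _) (Finset.mem_univ i)
    have b5 : ‖k * c.ρ (inv x p A u) * x i‖ ≤ k * (C * √(nA A)) := by
      rw [norm_mul, Real.norm_of_nonneg (by positivity), Real.norm_eq_abs]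
      exact (mul_le_of_le_one_right (by positivity) b4).trans (mul_le_mul_of_nonneg_left a1 a8)
    refine (norm_add_le _ _).trans ?_
    linarith

end Vale.Agent.P098
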