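import Vale.Agent.P098.Iface

/-!
# P098: analytic core of the tested stability inequality
-/

open MeasureTheory Set Metric Filter
open scoped ContDiff RealInnerProductSpace Topology NNReal

noncomputable section
namespace Vale.Agent.P098

variable {n : ℕ}

theorem main1_grad_apply (f : E n → ℝ) (x : E n) (k : Fin n) : gradient f x k = pd k f x := by
  have h : ⟪gradient f x, EuclideanSpace.single k (1 : ℝ)⟫ =
      fderiv ℝ f x (EuclideanSpace.single k 1) := by
    simp [gradient, InnerProductSpace.toDual_symm_apply]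
  rw [EuclideanSpace.inner_single_right] at h
  simpa [pd] using h

theorem main1_norm_grad (f : E n → ℝ) (x : E n) : ‖gradient f x‖ ^ 2 = ∑ k, pd k f x ^ 2 := by
  rw [EuclideanSpace.norm_sq_eq]
  simp [main1_grad_apply]

theorem main1_norm_fderiv (f : E n → ℝ) (x : E n) : ‖fderiv ℝ f x‖ = ‖gradient f x‖ := by
  simp [gradient]

theorem main1_abs_pd (f : E n → ℝ) (x : E n) (k : Fin n) : |pd k f x| ≤ ‖fderiv ℝ f x‖ := by
  have h := (fderiv ℝ f x).le_opNorm (EuclideanSpace.single k (1 : ℝ))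
  simpa [pd] using h

theorem main1_fderiv_min {f : E n → ℝ} {x : E n} (h0 : ∀ y, 0 ≤ f y) (hx : f x = 0) :
    fderiv ℝ f x = 0 := by
  have : IsLocalMin f x := Filter.Eventually.of_forall fun y => by rw [hx]; exact h0 y
  exact this.fderiv_eq_zero

theorem main1_fderiv_touch {f g : E n → ℝ} {x : E n} (h : ∀ y, f y ≤ g y) (hx : f x = g x)
    (hf : DifferentiableAt ℝ f x) (hg : DifferentiableAt ℝ g x) :
    fderiv ℝ f x = fderiv ℝ g x := by
  have h1 : fderiv ℝ (fun y => g y - f y) x = 0 :=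
    main1_fderiv_min (fun y => sub_nonneg.2 (h y)) (by simp [hx])
  rw [fderiv_fun_sub hg hf] at h1
  exact (sub_eq_zero.1 h1).symm

theorem main1_ibp_kap (h_ibp : S_ibp) (ψ : E n → ℝ) (W : Fin n → E n → ℝ) (U : Set (E n))
    (hψ : Lip ψ) (hc : HasCompactSupport ψ) (hU : IsOpen U)
    (hW : ∀ j, ContDiffOn ℝ 1 (W j) U) (hS : ∀ x, ψ x ≠ 0 → x ∈ U) (κ : ℝ) (hκ : 0 < κ) :
    Integrable (fun x => 2 * max (ψ x - κ) 0 * ∑ k, pd k ψ x * W k x +
      max (ψ x - κ) 0 ^ 2 * ∑ j, pd j (W j) x) ∧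
    ∫ x, (2 * max (ψ x - κ) 0 * ∑ k, pd k ψ x * W k x +
      max (ψ x - κ) 0 ^ 2 * ∑ j, pd j (W j) x) = 0 := by
  obtain ⟨L, hL⟩ := hψ
  obtain ⟨B, hB⟩ := hL.continuous.bounded_above_of_compact_support hc
  set f : E n → ℝ := fun x => max (ψ x - κ) 0 ^ 2 with hf
  have hB0 : 0 ≤ B := (norm_nonneg _).trans (hB 0)
  have hmB : ∀ x, max (ψ x - κ) 0 ≤ B := fun x => by
    have := hB x
    rw [Real.norm_eq_abs] at this
    exact max_le (by linarith [le_abs_self (ψ x)]) hB0
  have hfl : Lip f := by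
    refine ⟨⟨2 * B * L, by positivity⟩, LipschitzWith.of_dist_le_mul fun x y => ?_⟩
    have h1 : |max (ψ x - κ) 0 - max (ψ y - κ) 0| ≤ L * dist x y := by
      refine (abs_max_sub_max_le_abs _ _ _).trans ?_
      have := hL.dist_le_mul x y
      rw [Real.dist_eq] at this
      simpa using this
    rw [Real.dist_eq]
    change |max (ψ x - κ) 0 ^ 2 - max (ψ y - κ) 0 ^ 2| ≤ (2 * B * L) * dist x y
    rw [sq_sub_sq, abs_mul]
    have h2 : |max (ψ x - κ) 0 + max (ψ y - κ) 0| ≤ 2 * B := by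
      rw [abs_of_nonneg (by positivity)]
      linarith [hmB x, hmB y]
    calc _ ≤ (2 * B) * (L * dist x y) := by gcongr
      _ = _ := by ring
  have hsub : tsupport f ⊆ {x | κ ≤ ψ x} := by
    refine closure_minimal ?_ (isClosed_le continuous_const hL.continuous)
    intro x hx
    simp only [Function.mem_support, hf] at hx
    by_contra h
    simp only [mem_ofPred_eq, not_le] at h
    apply hx
    rw [max_eq_right (by linarith)]
    simp
  have hfc : HasCompactSupport f := by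
    refine hc.mono' ?_
    intro x hx
    have := hsub (subset_tsupport _ hx)
    refine subset_tsupport _ ?_
    simp only [mem_ofPred_eq] at this
    simp only [Function.mem_support]
    linarith
  have hfU : tsupport f ⊆ U := fun x hx => hS x (by
    have := hsub hx
    simp only [mem_ofPred_eq] at this
    linarith)
  have key := fun j => h_ibp n f (W j) U (EuclideanSpace.single j 1) hfl hfc hU hfU (hW j)
  have hJ : Integrable (fun x => ∑ j, (pd j f x * W j x + f x * pd j (W j) x)) :=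
    integrable_finsetSum _ fun j _ => (key j).1.add (key j).2.1
  have hJ0 : ∫ x, ∑ j, (pd j f x * W j x + f x * pd j (W j) x) = 0 := by
    rw [integral_finsetSum (f := fun j x => pd j f x * W j x + f x * pd j (W j) x) _
      fun j _ => (key j).1.add (key j).2.1]
    refine Finset.sum_eq_zero fun j _ => ?_
    have := (key j).2.2
    simp only [pd]
    rw [integral_add (key j).1 (key j).2.1, this]
    ring
  have hae : (fun x => ∑ j, (pd j f x * W j x + f x * pd j (W j) x)) =ᵐ[volume]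
      fun x => 2 * max (ψ x - κ) 0 * ∑ k, pd k ψ x * W k x +
        max (ψ x - κ) 0 ^ 2 * ∑ j, pd j (W j) x := by
    filter_upwards [hL.ae_differentiableAt (μ := volume)] with x hx
    have hpd : ∀ j, pd j f x = 2 * max (ψ x - κ) 0 * pd j ψ x := by
      intro j
      rcases le_or_gt (ψ x) κ with h | h
      · have h0 : max (ψ x - κ) 0 = 0 := max_eq_right (by linarith)
        have : fderiv ℝ f x = 0 :=
          main1_fderiv_min (fun y => by simp only [hf]; positivity) (by simp [hf, h0])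
        simp [pd, this, h0]
      · have hev : f =ᶠ[𝓝 x] fun y => (ψ y - κ) ^ 2 := by
          filter_upwards [hL.continuous.continuousAt.eventually (lt_mem_nhds h)] with y hy
          simp only [hf]
          rw [max_eq_left (by linarith)]
        have hd : HasFDerivAt (fun y => (ψ y - κ) ^ 2)
            ((2 * (ψ x - κ)) • fderiv ℝ ψ x) x := by
          have := ((hx.hasFDerivAt.sub_const κ).pow 2)
          simpa using this
        simp only [pd]
        rw [hev.fderiv_eq, hd.fderiv, max_eq_left (by linarith)]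
        simp
    simp only [hpd, Finset.sum_add_distrib, Finset.mul_sum]
    congr 1
    exact Finset.sum_congr rfl fun j _ => by ring
  exact ⟨hJ.congr hae, by rw [← integral_congr_ae hae, hJ0]⟩

theorem main1_ibp (h_ibp : S_ibp) (ψ : E n → ℝ) (W : Fin n → E n → ℝ) (U : Set (E n)) (M : ℝ)
    (hψ : Lip ψ) (hc : HasCompactSupport ψ) (h0 : ∀ x, 0 ≤ ψ x) (hU : IsOpen U)
    (hW : ∀ j, ContDiffOn ℝ 1 (W j) U)
    (hS : ∀ x, ψ x ≠ 0 → x ∈ U ∧ (∀ j, |W j x| ≤ M) ∧ |∑ j, pd j (W j) x| ≤ M) :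
    Integrable (fun x => 2 * ψ x * ∑ k, pd k ψ x * W k x + ψ x ^ 2 * ∑ j, pd j (W j) x) ∧
    ∫ x, (2 * ψ x * ∑ k, pd k ψ x * W k x + ψ x ^ 2 * ∑ j, pd j (W j) x) = 0 := by
  have key := fun m : ℕ => main1_ibp_kap h_ibp ψ W U hψ hc hU hW (fun x hx => (hS x hx).1)
    (1 / ((m : ℝ) + 1)) (by positivity)
  obtain ⟨L, hL⟩ := hψ
  obtain ⟨B, hB⟩ := hL.continuous.bounded_above_of_compact_support hc
  have hB0 : 0 ≤ B := (norm_nonneg _).trans (hB 0)
  set bd : E n → ℝ := (tsupport ψ).indicator fun _ => 2 * B * (n * (L * |M|)) + B ^ 2 * |M|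
    with hbd
  have hbi : Integrable bd := by
    rw [hbd, integrable_indicator_iff (isClosed_tsupport ψ).measurableSet]
    exact integrableOn_const hc.isCompact.measure_lt_top.ne
  have hbound : ∀ (x : E n) (a : ℝ), 0 ≤ a → a ≤ ψ x →
      ‖2 * a * ∑ k, pd k ψ x * W k x + a ^ 2 * ∑ j, pd j (W j) x‖ ≤ bd x := by
    intro x a ha haψ
    by_cases hx : ψ x = 0
    · have : a = 0 := le_antisymm (hx ▸ haψ) ha
      subst this
      simp only [mul_zero, zero_mul, ne_eq, OfNat.ofNat_ne_zero, not_false_eq_true, zero_pow,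
        add_zero, norm_zero, hbd]
      exact indicator_nonneg (fun _ _ => by positivity) x
    · obtain ⟨-, h1, h2⟩ := hS x hx
      have hxs : x ∈ tsupport ψ := subset_tsupport _ hx
      simp only [hbd, indicator_of_mem hxs, Real.norm_eq_abs]
      have haB : a ≤ B := by
        have := hB x
        rw [Real.norm_eq_abs] at this
        linarith [le_abs_self (ψ x)]
      have h3 : |∑ k, pd k ψ x * W k x| ≤ n * (L * |M|) := by
        refine (Finset.abs_sum_le_sum_abs _ _).trans ?_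
        have : ∀ k ∈ (Finset.univ : Finset (Fin n)), |pd k ψ x * W k x| ≤ L * |M| := by
          intro k _
          rw [abs_mul]
          have e1 : |pd k ψ x| ≤ L := (main1_abs_pd ψ x k).trans (norm_fderiv_le_of_lipschitz ℝ hL)
          have e2 : |W k x| ≤ |M| := (h1 k).trans (le_abs_self M)
          gcongr
        simpa using Finset.sum_le_card_nsmul _ _ _ this
      refine (abs_add_le _ _).trans (add_le_add ?_ ?_)
      · rw [abs_mul, abs_of_nonneg (by positivity : 0 ≤ 2 * a)]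
        gcongr
      · rw [abs_mul, abs_of_nonneg (by positivity : 0 ≤ a ^ 2)]
        have e2 := h2.trans (le_abs_self M)
        gcongr
  have hlim : ∀ x, Tendsto (fun m : ℕ => 2 * max (ψ x - 1 / ((m : ℝ) + 1)) 0 *
      ∑ k, pd k ψ x * W k x + max (ψ x - 1 / ((m : ℝ) + 1)) 0 ^ 2 * ∑ j, pd j (W j) x) atTop
      (𝓝 (2 * ψ x * ∑ k, pd k ψ x * W k x + ψ x ^ 2 * ∑ j, pd j (W j) x)) := by
    intro x
    have h1 : Tendsto (fun m : ℕ => max (ψ x - 1 / ((m : ℝ) + 1)) 0) atTop (𝓝 (ψ x)) := by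
      have := (tendsto_const_nhds (x := ψ x)).sub
        (tendsto_one_div_add_atTop_nhds_zero_nat (𝕜 := ℝ))
      have h2 := this.max (tendsto_const_nhds (x := (0 : ℝ)))
      rwa [sub_zero, max_eq_left (h0 x)] at h2
    exact ((h1.const_mul 2).mul_const _).add ((h1.pow 2).mul_const _)
  have hb2 : ∀ m : ℕ, ∀ᵐ x ∂(volume : Measure (E n)), ‖2 * max (ψ x - 1 / ((m : ℝ) + 1)) 0 *
      ∑ k, pd k ψ x * W k x + max (ψ x - 1 / ((m : ℝ) + 1)) 0 ^ 2 * ∑ j, pd j (W j) x‖ ≤ bd x :=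
    fun m => Eventually.of_forall fun x => hbound x _ (le_max_right _ _)
      (max_le (by have : (0 : ℝ) < 1 / ((m : ℝ) + 1) := by positivity
                  linarith) (h0 x))
  constructor
  · refine hbi.mono' ?_ (Eventually.of_forall fun x => hbound x _ (h0 x) le_rfl)
    exact aestronglyMeasurable_of_tendsto_ae atTop (fun m => (key m).1.aestronglyMeasurable)
      (Eventually.of_forall hlim)
  · have := tendsto_integral_of_dominated_convergence bd
      (fun m => (key m).1.aestronglyMeasurable) hbi hb2 (Eventually.of_forall hlim)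
    simp only [fun m => (key m).2] at this
    exact (tendsto_nhds_unique tendsto_const_nhds this).symm

theorem main1_lip (h_glue : S_glue) (u Φ : E n → ℝ) (M : ℝ) (hu : LMin u)
    (hΦ0 : ∀ x, 0 ≤ Φ x) (hΦd : ∀ x ∈ Om u, DifferentiableAt ℝ Φ x)
    (hb : ∀ x ∈ Om u, ‖fderiv ℝ Φ x‖ ≤ M) : Lip fun x => min (u x) (Φ x) := by
  obtain ⟨L, hL⟩ := hu.lip
  have hO : IsOpen (Om u) := isOpen_lt continuous_const hL.continuous
  have hz : ∀ x, x ∉ Om u → u x = 0 := fun x hx =>
    le_antisymm (not_lt.1 hx) (hu.nonneg x)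
  refine ⟨max L M.toNNReal, h_glue n _ (Om u) _ hO ?_ ?_ ?_⟩
  · rw [continuous_iff_continuousAt]
    intro x
    by_cases hx : x ∈ Om u
    · exact hL.continuous.continuousAt.min (hΦd x hx).continuousAt
    · have h0 : min (u x) (Φ x) = 0 := by rw [hz x hx]; exact min_eq_left (hΦ0 x)
      have hu0 : Tendsto u (𝓝 x) (𝓝 0) := by
        have := hL.continuous.continuousAt (x := x)
        rwa [ContinuousAt, hz x hx] at this
      rw [ContinuousAt, h0]
      exact tendsto_of_tendsto_of_tendsto_of_le_of_le tendsto_const_nhds hu0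
        (fun y => le_min (hu.nonneg y) (hΦ0 y)) (fun y => min_le_left _ _)
  · intro x hx
    rw [hz x hx]; exact min_eq_left (hΦ0 x)
  · intro x hx
    obtain ⟨r, hr, hsub⟩ := Metric.isOpen_iff.1 hO x hx
    refine ⟨ball x r, ball_mem_nhds x hr, ?_⟩
    have h1 : LipschitzOnWith M.toNNReal Φ (ball x r) := by
      refine (convex_ball x r).lipschitzOnWith_of_nnnorm_fderiv_le (𝕜 := ℝ)
        (fun y hy => hΦd y (hsub hy)) fun y hy => ?_
      rw [← NNReal.coe_le_coe, coe_nnnorm]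
      exact (hb y (hsub hy)).trans (Real.le_coe_toNNReal M)
    refine LipschitzOnWith.of_dist_le_mul fun y hy z hz => ?_
    have e1 := hL.dist_le_mul y z
    have e2 := h1.dist_le_mul y hy z hz
    rw [Real.dist_eq] at e1 e2 ⊢
    refine (abs_min_sub_min_le_max _ _ _ _).trans (max_le (e1.trans ?_) (e2.trans ?_))
    · gcongr; exact le_max_left _ _
    · gcongr; exact le_max_right _ _

theorem main1_eps (h_ibp : S_ibp) (h_glue : S_glue) (h_stab : S_stab) (u Φ F : E n → ℝ)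
    (W : Fin n → E n → ℝ) (U : Set (E n)) (R M : ℝ) (hM : 0 < M) (hu : LMin u) (hU : IsOpen U)
    (hΦ0 : ∀ x, 0 ≤ Φ x) (hΦd : ∀ x ∈ Om u, DifferentiableAt ℝ Φ x)
    (hW : ∀ j, ContDiffOn ℝ 1 (W j) U)
    (hS : ∀ x ∈ Om u, Φ x ≠ 0 → x ∈ U ∧ R⁻¹ ≤ ‖x‖ ∧ ‖x‖ ≤ R ∧ Φ x ≤ M ∧ ‖fderiv ℝ Φ x‖ ≤ M ∧
      (∀ j, |W j x| ≤ M) ∧ |∑ j, pd j (W j) x| ≤ M ∧ -M ≤ F x ∧
      F x = ∑ k, pd k Φ x ^ 2 - (2 * Φ x * ∑ k, pd k Φ x * W k x + Φ x ^ 2 * ∑ j, pd j (W j) x))
    (hF0 : ∀ x ∈ Om u, Φ x = 0 → F x = 0) (hFi : IntegrableOn F (Om u))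
    (η ε : ℝ) (hη : 0 < η) (hε : 0 < ε)
    (hbd : ∀ x ∈ Om u, Φ x ≠ 0 → u x ≤ ε * M →
      -(η * u x) ≤ (1 - ∑ k, pd k u x ^ 2) + 2 * u x * ∑ k, pd k u x * W k x) :
    -((η * ε * M + ε ^ 2 * M ^ 3 + ε ^ 2 * M) *
      (volume {x : E n | R⁻¹ ≤ ‖x‖ ∧ ‖x‖ ≤ R ∧ 0 < u x ∧ u x ≤ ε * M}).toReal) ≤
      ε ^ 2 * ∫ x in Om u, F x := by
  obtain ⟨L, hL⟩ := hu.lip
  have hO : IsOpen (Om u) := isOpen_lt continuous_const hL.continuous
  set ψ : E n → ℝ := fun x => min (u x) (ε * Φ x) with hψ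
  have hψ0 : ∀ x, 0 ≤ ψ x := fun x => le_min (hu.nonneg x) (mul_nonneg hε.le (hΦ0 x))
  have hψu : ∀ x, ψ x ≤ u x := fun x => min_le_left _ _
  have hψΦ : ∀ x, ψ x ≤ ε * Φ x := fun x => min_le_right _ _
  have hψne : ∀ x, ψ x ≠ 0 → x ∈ Om u ∧ Φ x ≠ 0 := by
    intro x hx
    have h := lt_of_le_of_ne (hψ0 x) (Ne.symm hx)
    refine ⟨h.trans_le (hψu x), fun h2 => ?_⟩
    have := hψΦ x
    rw [h2, mul_zero] at this
    linarith
  have hfd : ∀ x ∈ Om u, fderiv ℝ (fun y => ε * Φ y) x = ε • fderiv ℝ Φ x := fun x hx =>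
    ((hΦd x hx).hasFDerivAt.const_mul ε).fderiv
  have hψl : Lip ψ := by
    refine main1_lip h_glue u (fun x => ε * Φ x) (ε * M) hu
      (fun x => mul_nonneg hε.le (hΦ0 x)) (fun x hx => (hΦd x hx).const_mul ε) fun x hx => ?_
    rw [hfd x hx, norm_smul, Real.norm_eq_abs, abs_of_pos hε]
    by_cases h : Φ x = 0
    · rw [main1_fderiv_min hΦ0 h, norm_zero]; gcongr
    · have := (hS x hx h).2.2.2.2.1
      gcongr
  have hψc : HasCompactSupport ψ := by
    refine HasCompactSupport.intro (isCompact_closedBall (0 : E n) R) fun x hx => ?_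
    by_contra h
    obtain ⟨h1, h2⟩ := hψne x h
    exact hx (by simpa using (hS x h1 h2).2.2.1)
  obtain ⟨hIi, hI0⟩ := main1_ibp h_ibp ψ W U M hψl hψc hψ0 hU hW fun x hx => by
    obtain ⟨h1, h2⟩ := hψne x hx
    obtain ⟨a, -, -, -, -, b, c, -⟩ := hS x h1 h2
    exact ⟨a, b, c⟩
  have hst := h_stab n u ψ hu hψl hψc hψ0 hψu
  obtain ⟨Lψ, hLψ⟩ := hψl
  set T : Set (E n) := {x | 0 < u x ∧ ψ x = u x} with hT
  set Lay : Set (E n) := {x : E n | R⁻¹ ≤ ‖x‖ ∧ ‖x‖ ≤ R ∧ 0 < u x ∧ u x ≤ ε * M} with hLay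
  have hTm : MeasurableSet T :=
    (isOpen_lt continuous_const hL.continuous).measurableSet.inter
      (isClosed_eq hLψ.continuous hL.continuous).measurableSet
  have hTsub : T ⊆ Lay := by
    intro x hx
    obtain ⟨h1, h2⟩ := hψne x (by rw [hx.2]; exact hx.1.ne')
    obtain ⟨-, a, b, c, -⟩ := hS x h1 h2
    refine ⟨a, b, hx.1, ?_⟩
    rw [← hx.2]
    exact (hψΦ x).trans (by gcongr)
  have hLf : volume Lay ≠ ⊤ := by
    refine ne_top_of_le_ne_top (isCompact_closedBall (0 : E n) R).measure_lt_top.ne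
      (measure_mono fun x hx => ?_)
    simpa using hx.2.1
  have hTf : volume T ≠ ⊤ := ne_top_of_le_ne_top hLf (measure_mono hTsub)
  have hTi : ∀ a : ℝ, Integrable (T.indicator fun _ => a) := fun a => by
    rw [integrable_indicator_iff hTm]
    exact integrableOn_const hTf
  have hTv : ∀ a : ℝ, ∫ x, T.indicator (fun _ => a) x = (volume T).toReal * a := fun a => by
    rw [integral_indicator hTm, setIntegral_const, smul_eq_mul, Measure.real]
  have hgi : Integrable fun x => ‖gradient ψ x‖ ^ 2 := by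
    have hb : Integrable ((tsupport ψ).indicator fun _ => (Lψ : ℝ) ^ 2) := by
      rw [integrable_indicator_iff (isClosed_tsupport ψ).measurableSet]
      exact integrableOn_const hψc.isCompact.measure_lt_top.ne
    refine hb.mono' ?_ (Eventually.of_forall fun x => ?_)
    · simp only [← main1_norm_fderiv]
      exact ((measurable_fderiv ℝ ψ).norm.pow_const 2).aestronglyMeasurable
    · rw [← main1_norm_fderiv, Real.norm_eq_abs, abs_of_nonneg (by positivity)]
      by_cases hx : ψ x = 0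
      · rw [main1_fderiv_min hψ0 hx]
        simp only [norm_zero, ne_eq, OfNat.ofNat_ne_zero, not_false_eq_true, zero_pow]
        exact indicator_nonneg (fun _ _ => by positivity) x
      · rw [indicator_of_mem (subset_tsupport _ hx)]
        have := norm_fderiv_le_of_lipschitz ℝ hLψ (x₀ := x)
        gcongr
  set c : ℝ := η * ε * M + ε ^ 2 * M ^ 3 + ε ^ 2 * M with hc
  have hc0 : 0 ≤ c := by positivity
  have hFi' : Integrable ((Om u).indicator F) := (integrable_indicator_iff hO.measurableSet).2 hFi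
  have hpt : ∀ᵐ x ∂(volume : Measure (E n)),
      -(ε ^ 2 * (Om u).indicator F x) - T.indicator (fun _ => c) x ≤
      (T.indicator (fun _ => (1 : ℝ)) x - ‖gradient ψ x‖ ^ 2) +
        (2 * ψ x * ∑ k, pd k ψ x * W k x + ψ x ^ 2 * ∑ j, pd j (W j) x) := by
    filter_upwards [hL.ae_differentiableAt (μ := volume), hLψ.ae_differentiableAt (μ := volume)]
      with x hxu hxψ
    by_cases h0 : ψ x = 0
    · have hT' : x ∉ T := fun h => by
        have h1 := h.1
        rw [← h.2, h0] at h1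
        exact lt_irrefl _ h1
      have hF : (Om u).indicator F x = 0 := by
        by_cases hx : x ∈ Om u
        · rw [indicator_of_mem hx]
          refine hF0 x hx ?_
          have hx' : 0 < u x := hx
          have : ε * Φ x = 0 := by
            rcases min_choice (u x) (ε * Φ x) with h | h
            · exfalso; simp only [hψ] at h0; linarith
            · simp only [hψ] at h0; linarith
          exact (mul_eq_zero.1 this).resolve_left hε.ne'
        · exact indicator_of_notMem hx _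
      rw [hF, indicator_of_notMem hT', indicator_of_notMem hT', ← main1_norm_fderiv,
        main1_fderiv_min hψ0 h0, h0]
      simp
    obtain ⟨hx, hΦx⟩ := hψne x h0
    obtain ⟨-, -, -, b1, -, -, b2, b3, b4⟩ := hS x hx hΦx
    rw [indicator_of_mem hx, main1_norm_grad]
    by_cases hT' : x ∈ T
    · have e1 : fderiv ℝ ψ x = fderiv ℝ u x := main1_fderiv_touch hψu hT'.2 hxψ hxu
      have e2 : ∀ k, pd k ψ x = pd k u x := fun k => by simp only [pd, e1]
      have e3 : u x ≤ ε * M := (hTsub hT').2.2.2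
      have e4 := hbd x hx hΦx e3
      have hx' : 0 < u x := hx
      simp only [indicator_of_mem hT', e2, hT'.2]
      have e5 : -(ε ^ 2 * M ^ 3) ≤ u x ^ 2 * ∑ j, pd j (W j) x := by
        have : |u x ^ 2 * ∑ j, pd j (W j) x| ≤ (ε * M) ^ 2 * M := by
          rw [abs_mul, abs_of_nonneg (by positivity)]
          gcongr
        have h2 := neg_abs_le (u x ^ 2 * ∑ j, pd j (W j) x)
        nlinarith
      have e6 : η * u x ≤ η * ε * M := by rw [mul_assoc]; gcongr
      have e7 : -(ε ^ 2 * F x) ≤ ε ^ 2 * M := by nlinarith [sq_nonneg ε]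
      linarith
    · have e0 : ψ x = ε * Φ x := by
        rcases min_choice (u x) (ε * Φ x) with h | h
        · exact absurd ⟨hx, h⟩ hT'
        · exact h
      have e1 : fderiv ℝ ψ x = ε • fderiv ℝ Φ x := by
        rw [← hfd x hx]
        exact main1_fderiv_touch hψΦ e0 hxψ ((hΦd x hx).const_mul ε)
      have e2 : ∀ k, pd k ψ x = ε * pd k Φ x := fun k => by simp [pd, e1]
      simp only [indicator_of_notMem hT', e2, e0, b4, mul_pow, mul_assoc, ← Finset.mul_sum]
      apply le_of_eq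
      ring
  have hmono := integral_mono_ae (((hFi'.const_mul (ε ^ 2)).neg).sub (hTi c))
    (((hTi 1).sub hgi).add hIi) hpt
  have hl : ∫ x, (-(ε ^ 2 * (Om u).indicator F x) - T.indicator (fun _ => c) x) =
      -(ε ^ 2 * ∫ x in Om u, F x) - (volume T).toReal * c := by
    have i1 : Integrable fun x => -(ε ^ 2 * (Om u).indicator F x) := (hFi'.const_mul (ε ^ 2)).neg
    rw [integral_sub i1 (hTi c), integral_neg, integral_const_mul,
      integral_indicator hO.measurableSet, hTv]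
  have hr : ∫ x, ((T.indicator (fun _ => (1 : ℝ)) x - ‖gradient ψ x‖ ^ 2) +
        (2 * ψ x * ∑ k, pd k ψ x * W k x + ψ x ^ 2 * ∑ j, pd j (W j) x)) =
      (volume T).toReal - ∫ x, ‖gradient ψ x‖ ^ 2 := by
    have i1 : Integrable fun x => T.indicator (fun _ => (1 : ℝ)) x - ‖gradient ψ x‖ ^ 2 :=
      (hTi 1).sub hgi
    rw [integral_add i1 hIi, hI0, integral_sub (hTi 1) hgi, hTv]
    ring
  have hm2 : -(ε ^ 2 * ∫ x in Om u, F x) - (volume T).toReal * c ≤
      (volume T).toReal - ∫ x, ‖gradient ψ x‖ ^ 2 := by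
    rw [← hl, ← hr]; exact hmono
  have hTL : (volume T).toReal ≤ (volume Lay).toReal :=
    ENNReal.toReal_mono hLf (measure_mono hTsub)
  have : (volume T).toReal * c ≤ c * (volume Lay).toReal := by rw [mul_comm]; gcongr
  linarith

theorem main1_abs (h_ibp : S_ibp) (h_glue : S_glue) (h_stab : S_stab) (u Φ F : E n → ℝ)
    (W : Fin n → E n → ℝ) (U : Set (E n)) (R M : ℝ) (hM : 0 < M) (hu : LMin u) (hU : IsOpen U)
    (hΦ0 : ∀ x, 0 ≤ Φ x) (hΦd : ∀ x ∈ Om u, DifferentiableAt ℝ Φ x)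
    (hW : ∀ j, ContDiffOn ℝ 1 (W j) U)
    (hS : ∀ x ∈ Om u, Φ x ≠ 0 → x ∈ U ∧ R⁻¹ ≤ ‖x‖ ∧ ‖x‖ ≤ R ∧ Φ x ≤ M ∧ ‖fderiv ℝ Φ x‖ ≤ M ∧
      (∀ j, |W j x| ≤ M) ∧ |∑ j, pd j (W j) x| ≤ M ∧ -M ≤ F x ∧
      F x = ∑ k, pd k Φ x ^ 2 - (2 * Φ x * ∑ k, pd k Φ x * W k x + Φ x ^ 2 * ∑ j, pd j (W j) x))
    (hF0 : ∀ x ∈ Om u, Φ x = 0 → F x = 0)
    (hlay : ∃ C : ℝ, ∀ δ : ℝ, 0 < δ →
      (volume {x : E n | R⁻¹ ≤ ‖x‖ ∧ ‖x‖ ≤ R ∧ 0 < u x ∧ u x ≤ δ}).toReal ≤ C * δ)
    (hbd : ∀ η : ℝ, 0 < η → ∃ δ : ℝ, 0 < δ ∧ ∀ x ∈ Om u, Φ x ≠ 0 → u x < δ →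
      -(η * u x) ≤ (1 - ∑ k, pd k u x ^ 2) + 2 * u x * ∑ k, pd k u x * W k x) :
    0 ≤ ∫ x in Om u, F x := by
  by_cases hFi : IntegrableOn F (Om u)
  swap
  · rw [integral_undef hFi]
  obtain ⟨C, hC⟩ := hlay
  have key : ∀ η : ℝ, 0 < η → -(η * ((M + M ^ 3 + M) * (|C| * M))) ≤ ∫ x in Om u, F x := by
    intro η hη
    obtain ⟨δ, hδ, hb⟩ := hbd η hη
    set ε : ℝ := min η (δ / (2 * M)) with hεd
    have hε : 0 < ε := lt_min hη (by positivity)
    have hεη : ε ≤ η := min_le_left _ _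
    have hεδ : ε * M < δ := by
      have h1 : ε ≤ δ / (2 * M) := min_le_right _ _
      have h2 : ε * M ≤ δ / (2 * M) * M := by gcongr
      have h3 : δ / (2 * M) * M = δ / 2 := by field_simp
      linarith
    have h1 := main1_eps h_ibp h_glue h_stab u Φ F W U R M hM hu hU hΦ0 hΦd hW hS hF0 hFi η ε hη hε
      fun x hx h2 h3 => hb x hx h2 (h3.trans_lt hεδ)
    have h2 := (hC (ε * M) (by positivity)).trans
      (mul_le_mul_of_nonneg_right (le_abs_self C) (by positivity))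
    have h3 : (η * ε * M + ε ^ 2 * M ^ 3 + ε ^ 2 * M) *
        (volume {x : E n | R⁻¹ ≤ ‖x‖ ∧ ‖x‖ ≤ R ∧ 0 < u x ∧ u x ≤ ε * M}).toReal ≤
        (η * ε * M + η * ε * M ^ 3 + η * ε * M) * (|C| * (ε * M)) := by
      have : ε ^ 2 ≤ η * ε := by nlinarith
      gcongr
    have h4 : ε ^ 2 * -(η * ((M + M ^ 3 + M) * (|C| * M))) ≤ ε ^ 2 * ∫ x in Om u, F x := by
      refine le_trans (le_of_eq ?_) ((neg_le_neg h3).trans h1)
      ring
    exact le_of_mul_le_mul_left h4 (by positivity)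
  set K : ℝ := (M + M ^ 3 + M) * (|C| * M) with hK
  have hK0 : 0 ≤ K := by positivity
  by_contra hneg
  push Not at hneg
  have h1 := key (-(∫ x in Om u, F x) / (K + 1)) (div_pos (by linarith) (by linarith))
  have h2 : -(∫ x in Om u, F x) / (K + 1) * K < -(∫ x in Om u, F x) := by
    rw [div_mul_eq_mul_div, div_lt_iff₀ (by linarith)]
    nlinarith
  linarith

end Vale.Agent.P098
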