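import Vale.Agent.P098.Iface

/-!
# P098: the compact set of states
-/

open MeasureTheory Set Metric Filter
open scoped ContDiff RealInnerProductSpace Topology NNReal

noncomputable section
namespace Vale.Agent.P098

variable {n : ℕ}

/-- The space of states. -/
abbrev main1_S (n : ℕ) : Type := T1 n × T1 n × T2 n × T3 n × ℝ

/-- A compact set of states. -/
def main1_K (r R δ C : ℝ) : Set (main1_S n) :=
  {s | SymTr s.2.2.1 s.2.2.2.1 ∧ (∀ i, ∑ j, s.2.2.1 i j * s.1 j = 0) ∧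
    (∀ i j, ∑ k, s.2.2.2.1 i j k * s.1 k = -s.2.2.1 i j) ∧ ∑ i, s.1 i * s.2.1 i = s.2.2.2.2 ∧
    0 ≤ s.2.2.2.2 ∧ ∑ i, s.2.1 i ^ 2 ≤ 1 ∧ r ≤ ∑ i, s.1 i ^ 2 ∧ ∑ i, s.1 i ^ 2 ≤ R ∧
    δ ≤ nA s.2.2.1 ∧ ‖s.2.2.1‖ ≤ C ∧ ‖s.2.2.2.1‖ ≤ C ∧
    s.2.2.2.2 ^ 2 * ∑ i, ∑ j, s.2.2.1 i j ^ 2 ≤ 25 / 24 * n * (1 - ∑ i, s.2.1 i ^ 2)}

theorem main1_symTr_iff (A : T2 n) (B : T3 n) : SymTr A B ↔ (∀ i j, A i j = A j i) ∧
    (∀ i j k, B i j k = B j i k) ∧ (∀ i j k, B i j k = B i k j) ∧ ∑ i, A i i = 0 ∧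
    ∀ k, ∑ i, B i i k = 0 :=
  ⟨fun h => ⟨h.a, h.b1, h.b2, h.ta, h.tb⟩, fun h => ⟨h.1, h.2.1, h.2.2.1, h.2.2.2.1, h.2.2.2.2⟩⟩

theorem main1_closed_symTr {X : Type} [TopologicalSpace X] {A : X → T2 n} {B : X → T3 n}
    (hA : Continuous A) (hB : Continuous B) : IsClosed {s | SymTr (A s) (B s)} := by
  simp only [main1_symTr_iff, ofPred_and, ofPred_forall]
  refine IsClosed.inter ?_ (IsClosed.inter ?_ (IsClosed.inter ?_ (IsClosed.inter ?_ ?_)))
  · exact isClosed_iInter fun i => isClosed_iInter fun j => isClosed_eq (by fun_prop) (by fun_prop)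
  · exact isClosed_iInter fun i => isClosed_iInter fun j => isClosed_iInter fun k =>
      isClosed_eq (by fun_prop) (by fun_prop)
  · exact isClosed_iInter fun i => isClosed_iInter fun j => isClosed_iInter fun k =>
      isClosed_eq (by fun_prop) (by fun_prop)
  · exact isClosed_eq (by fun_prop) (by fun_prop)
  · exact isClosed_iInter fun k => isClosed_eq (by fun_prop) (by fun_prop)

theorem main1_cont_nA : Continuous (nA : T2 n → ℝ) := by unfold nA; fun_prop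
theorem main1_cont_nB : Continuous (nB : T3 n → ℝ) := by unfold nB; fun_prop
theorem main1_cont_sqA : Continuous (sqA : T2 n → T2 n) := by unfold sqA; fun_prop
theorem main1_cont_tA : Continuous (tA : T2 n → ℝ) := by unfold tA sqA; fun_prop

theorem main1_K_closed (r R δ C : ℝ) : IsClosed (main1_K r R δ C : Set (main1_S n)) := by
  simp only [main1_K, ofPred_and, ofPred_forall]
  refine IsClosed.inter ?_ (IsClosed.inter ?_ (IsClosed.inter ?_ (IsClosed.inter ?_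
    (IsClosed.inter ?_ (IsClosed.inter ?_ (IsClosed.inter ?_ (IsClosed.inter ?_
    (IsClosed.inter ?_ (IsClosed.inter ?_ (IsClosed.inter ?_ ?_))))))))))
  · exact main1_closed_symTr (by fun_prop) (by fun_prop)
  · exact isClosed_iInter fun i => isClosed_eq (by fun_prop) (by fun_prop)
  · exact isClosed_iInter fun i => isClosed_iInter fun j => isClosed_eq (by fun_prop) (by fun_prop)
  · exact isClosed_eq (by fun_prop) (by fun_prop)
  · exact isClosed_le (by fun_prop) (by fun_prop)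
  · exact isClosed_le (by fun_prop) (by fun_prop)
  · exact isClosed_le (by fun_prop) (by fun_prop)
  · exact isClosed_le (by fun_prop) (by fun_prop)
  · exact isClosed_le (by fun_prop) (main1_cont_nA.comp (by fun_prop))
  · exact isClosed_le (by fun_prop) (by fun_prop)
  · exact isClosed_le (by fun_prop) (by fun_prop)
  · exact isClosed_le (by fun_prop) (by fun_prop)

theorem main1_norm_le (x : T1 n) (R : ℝ) (h : ∑ i, x i ^ 2 ≤ R) : ‖x‖ ≤ |R| + 1 := by
  refine (pi_norm_le_iff_of_nonneg (by positivity)).2 fun i => ?_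
  have h1 : x i ^ 2 ≤ ∑ i, x i ^ 2 :=
    Finset.single_le_sum (f := fun i => x i ^ 2) (fun _ _ => sq_nonneg _) (Finset.mem_univ i)
  rw [Real.norm_eq_abs]
  have h2 := le_abs_self R
  nlinarith [sq_nonneg (|x i| - 1), sq_abs (x i), abs_nonneg (x i)]

theorem main1_K_compact (r R δ C : ℝ) : IsCompact (main1_K r R δ C : Set (main1_S n)) := by
  refine Metric.isCompact_of_isClosed_isBounded (main1_K_closed r R δ C) ?_
  rw [isBounded_iff_forall_norm_le]
  refine ⟨|R| + 2 + |C|, ?_⟩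
  rintro ⟨x, p, A, B, w⟩ ⟨-, -, -, h4, h5, h6, -, h8, -, h10, h11, -⟩
  simp only at h4 h5 h6 h8 h10 h11
  have a1 := main1_norm_le x R h8
  have a2 := main1_norm_le p 1 h6
  have a3 := le_abs_self C
  have a4 := abs_nonneg C
  have a5 := abs_nonneg R
  have a6 := le_abs_self R
  have a7 : w ≤ (∑ i, x i ^ 2 + ∑ i, p i ^ 2) / 2 := by
    rw [← h4, ← Finset.sum_add_distrib, Finset.sum_div]
    exact Finset.sum_le_sum fun i _ => by nlinarith [sq_nonneg (x i - p i)]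
  rw [abs_one] at a2
  simp only [Prod.norm_mk, max_le_iff, Real.norm_eq_abs, abs_of_nonneg h5]
  refine ⟨by linarith, by linarith, by linarith, by linarith, by linarith⟩

theorem main1_K_st {r R δ C : ℝ} (hr : 0 < r) (hδ : 0 < δ) {s : main1_S n}
    (h : s ∈ main1_K r R δ C) : St s.1 s.2.1 s.2.2.1 s.2.2.2.1 s.2.2.2.2 := by
  obtain ⟨h1, h2, h3, h4, h5, h6, h7, -, h9, -, -, h12⟩ := h
  refine ⟨h1, h2, h3, h4, h5, h6, fun h => ?_, fun h => ?_, h12⟩
  · rw [h] at h7; simp at h7; linarith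
  · rw [h] at h9; simp [nA] at h9; linarith

theorem main1_nA_pos {A : T2 n} (h : A ≠ 0) : 0 < nA A := by
  by_contra hc
  apply h
  have h0 : nA A = 0 := le_antisymm (not_lt.1 hc) (by unfold nA; positivity)
  unfold nA at h0
  rw [Finset.sum_eq_zero_iff_of_nonneg (fun _ _ => by positivity)] at h0
  funext i j
  have h1 := h0 i (Finset.mem_univ i)
  rw [Finset.sum_eq_zero_iff_of_nonneg (fun _ _ => by positivity)] at h1
  simpa using h1 j (Finset.mem_univ j)

theorem main1_st_dom {x p : T1 n} {A : T2 n} {B : T3 n} {w : ℝ} (h : St x p A B w) :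
    inv x p A w ∈ Dom := by
  refine ⟨?_, ?_, ?_⟩
  · simpa [inv] using main1_nA_pos h.a0
  · have : 0 < ∑ i, x i ^ 2 := by
      by_contra hc
      apply h.x0
      have h0 : ∑ i, x i ^ 2 = 0 := le_antisymm (not_lt.1 hc) (by positivity)
      rw [Finset.sum_eq_zero_iff_of_nonneg (fun _ _ => by positivity)] at h0
      funext i
      simpa using h0 i (Finset.mem_univ i)
    simpa [inv] using this
  · have := mul_nonneg h.u0 (Real.sqrt_nonneg (nA A))
    simp only [inv, Matrix.cons_val, Matrix.cons_val_zero]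
    linarith

theorem main1_dom_open : IsOpen Dom := by
  unfold Dom
  simp only [ofPred_and]
  exact (isOpen_lt (by fun_prop) (by fun_prop)).inter ((isOpen_lt (by fun_prop) (by fun_prop)).inter
    (isOpen_lt (by fun_prop) (by fun_prop)))

theorem main1_cont_inv :
    Continuous fun s : main1_S n => inv s.1 s.2.1 s.2.2.1 s.2.2.2.2 := by
  refine continuous_pi fun a => ?_
  fin_cases a
  · exact main1_cont_nA.comp (by fun_prop : Continuous fun s : main1_S n => s.2.2.1)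
  · exact main1_cont_tA.comp (by fun_prop : Continuous fun s : main1_S n => s.2.2.1)
  · exact (by fun_prop : Continuous fun s : main1_S n => ∑ i, s.2.1 i ^ 2)
  · exact (by fun_prop : Continuous fun s : main1_S n => s.2.2.2.2)
  · exact (by fun_prop : Continuous fun s : main1_S n => ∑ i, s.1 i ^ 2)

theorem main1_cont_ginv (a : Fin 5) (k : Fin n) :
    Continuous fun s : main1_S n => ginv s.1 s.2.1 s.2.2.1 s.2.2.2.1 a k := by
  fin_cases a
  · exact (by unfold ct; fun_prop : Continuous fun s : main1_S n => 2 * ct s.2.2.1 s.2.2.2.1 k)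
  · exact (by unfold ct sqA; fun_prop :
      Continuous fun s : main1_S n => 3 * ct (sqA s.2.2.1) s.2.2.2.1 k)
  · exact (by unfold ap; fun_prop : Continuous fun s : main1_S n => 2 * ap s.2.2.1 s.2.1 k)
  · exact (by fun_prop : Continuous fun s : main1_S n => s.2.1 k)
  · exact (by fun_prop : Continuous fun s : main1_S n => 2 * s.1 k)

section
variable {K : Set (main1_S n)} (hK : ∀ s ∈ K, inv s.1 s.2.1 s.2.2.1 s.2.2.2.2 ∈ Dom)
include hK

theorem main1_cont_f {f : (Fin 5 → ℝ) → ℝ} (hf : ContDiffOn ℝ 1 f Dom) :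
    ContinuousOn (fun s : main1_S n => f (inv s.1 s.2.1 s.2.2.1 s.2.2.2.2)) K :=
  hf.continuousOn.comp main1_cont_inv.continuousOn hK

theorem main1_cont_gr {f : (Fin 5 → ℝ) → ℝ} (hf : ContDiffOn ℝ 1 f Dom) (k : Fin n) :
    ContinuousOn (fun s : main1_S n => gr f s.1 s.2.1 s.2.2.1 s.2.2.2.1 s.2.2.2.2 k) K := by
  unfold gr
  refine continuousOn_finsetSum _ fun a _ => ContinuousOn.mul ?_ (main1_cont_ginv a k).continuousOn
  have h1 : ContinuousOn (dd f a) Dom :=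
    (hf.continuousOn_fderiv_of_isOpen main1_dom_open le_rfl).clm_apply continuousOn_const
  exact h1.comp main1_cont_inv.continuousOn hK

theorem main1_cont_vf {c : Co} (h1 : ContDiffOn ℝ 1 c.F1 Dom) (h2 : ContDiffOn ℝ 1 c.F2 Dom)
    (h3 : ContDiffOn ℝ 1 c.G0 Dom) (h4 : ContDiffOn ℝ 1 c.G1 Dom) (h5 : ContDiffOn ℝ 1 c.G2 Dom)
    (k : Fin n) :
    ContinuousOn (fun s : main1_S n => vf c s.1 s.2.1 s.2.2.1 s.2.2.2.1 s.2.2.2.2 k) K := by
  unfold vf
  refine (((((main1_cont_f hK h1).mul ?_).add ((main1_cont_f hK h2).mul ?_)).add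
    ((main1_cont_f hK h3).mul ?_)).add ((main1_cont_f hK h4).mul ?_)).add
    ((main1_cont_f hK h5).mul ?_)
  · unfold ct; fun_prop
  · unfold ct sqA; fun_prop
  · fun_prop
  · unfold ap; fun_prop
  · unfold ap sqA; fun_prop

theorem main1_cont_dv {c : Co} (h1 : ContDiffOn ℝ 1 c.F1 Dom) (h2 : ContDiffOn ℝ 1 c.F2 Dom)
    (h3 : ContDiffOn ℝ 1 c.G0 Dom) (h4 : ContDiffOn ℝ 1 c.G1 Dom) (h5 : ContDiffOn ℝ 1 c.G2 Dom) :
    ContinuousOn (fun s : main1_S n => dv c s.1 s.2.1 s.2.2.1 s.2.2.2.1 s.2.2.2.2) K := by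
  unfold dv
  refine (((((main1_cont_f hK h1).mul ?_).add ((main1_cont_f hK h2).mul ?_)).add
    ((main1_cont_f hK h4).mul ?_)).add ((main1_cont_f hK h5).mul ?_)).add
    (continuousOn_finsetSum _ fun k _ => (((((main1_cont_gr hK h1 k).mul ?_).add
      ((main1_cont_gr hK h2 k).mul ?_)).add ((main1_cont_gr hK h3 k).mul ?_)).add
      ((main1_cont_gr hK h4 k).mul ?_)).add ((main1_cont_gr hK h5 k).mul ?_))
  · unfold nB; fun_prop
  · fun_prop
  · unfold nA; fun_prop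
  · unfold ct tA sqA; fun_prop
  · unfold ct; fun_prop
  · unfold ct sqA; fun_prop
  · fun_prop
  · unfold ap; fun_prop
  · unfold ap sqA; fun_prop

end

/-- Uniform bounds on the compact set of states. -/
theorem main1_bounds {c : Co} (hc : CertOn n (fun _ => True) c) {r R δ C : ℝ} (hr : 0 < r)
    (hδ : 0 < δ) : ∃ m M : ℝ, 0 < m ∧ 0 < M ∧ ∀ s ∈ (main1_K r R δ C : Set (main1_S n)),
      m ≤ c.ρ (inv s.1 s.2.1 s.2.2.1 s.2.2.2.2) ∧ c.ρ (inv s.1 s.2.1 s.2.2.1 s.2.2.2.2) ≤ M ∧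
      (∀ k, |gr c.ρ s.1 s.2.1 s.2.2.1 s.2.2.2.1 s.2.2.2.2 k| ≤ M) ∧
      (∀ k, |vf c s.1 s.2.1 s.2.2.1 s.2.2.2.1 s.2.2.2.2 k| ≤ M) ∧
      |dv c s.1 s.2.1 s.2.2.1 s.2.2.2.1 s.2.2.2.2| ≤ M := by
  have hK : ∀ s ∈ (main1_K r R δ C : Set (main1_S n)),
      inv s.1 s.2.1 s.2.2.1 s.2.2.2.2 ∈ Dom := fun s hs => main1_st_dom (main1_K_st hr hδ hs)
  have hcp := main1_K_compact (n := n) r R δ C
  obtain ⟨h0, h1, h2, h3, h4, h5⟩ := hc.sm
  obtain ⟨m, hm, hm'⟩ := hcp.exists_forall_le' (main1_cont_f hK h0) (a := 0)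
    fun s hs => hc.pos _ _ _ _ _ (main1_K_st hr hδ hs) trivial
  obtain ⟨M1, hM1⟩ := hcp.exists_bound_of_continuousOn (main1_cont_f hK h0)
  obtain ⟨M2, hM2⟩ := hcp.exists_bound_of_continuousOn
    (continuousOn_pi.2 fun k => main1_cont_gr hK h0 k)
  obtain ⟨M3, hM3⟩ := hcp.exists_bound_of_continuousOn
    (continuousOn_pi.2 fun k => main1_cont_vf hK h1 h2 h3 h4 h5 k)
  obtain ⟨M4, hM4⟩ := hcp.exists_bound_of_continuousOn (main1_cont_dv hK h1 h2 h3 h4 h5)
  have a1 := le_abs_self M1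
  have a2 := le_abs_self M2
  have a3 := le_abs_self M3
  have a4 := le_abs_self M4
  have b1 := abs_nonneg M1
  have b2 := abs_nonneg M2
  have b3 := abs_nonneg M3
  have b4 := abs_nonneg M4
  refine ⟨m, |M1| + |M2| + |M3| + |M4| + 1, hm, by positivity, fun s hs =>
    ⟨hm' s hs, ?_, fun k => ?_, fun k => ?_, ?_⟩⟩
  · have := (le_abs_self _).trans (hM1 s hs)
    linarith
  · have := (norm_le_pi_norm _ k).trans (hM2 s hs)
    rw [Real.norm_eq_abs] at this
    linarith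
  · have := (norm_le_pi_norm _ k).trans (hM3 s hs)
    rw [Real.norm_eq_abs] at this
    linarith
  · have := hM4 s hs
    rw [Real.norm_eq_abs] at this
    linarith

theorem main1_cont_hh : Continuous fun q : T1 n × T2 n => hh q.1 q.2 := by unfold hh; fun_prop

theorem main1_adm_iff (b : T1 n) (A : T2 n) (B : T3 n) : Adm b A B ↔ SymTr A B ∧
    ∑ i, b i ^ 2 = 1 ∧ (∀ i, ∑ j, A i j * b j = -hh b A * b i) ∧ ∀ x y : T1 n,
      ∑ i, ∑ j, (∑ k, B i j k * b k + ∑ k, A i k * A k j + hh b A * A i j) *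
        (x i - (∑ l, b l * x l) * b i) * (y j - (∑ l, b l * y l) * b j) = 0 := by
  constructor
  · intro h
    have key : ∀ x : T1 n, ∑ i, b i * (x i - (∑ l, b l * x l) * b i) = 0 := by
      intro x
      have : ∀ i, b i * (x i - (∑ l, b l * x l) * b i) =
          b i * x i - (∑ l, b l * x l) * b i ^ 2 := fun i => by ring
      simp only [this, Finset.sum_sub_distrib, ← Finset.mul_sum, h.unit]
      ring
    exact ⟨h.st, h.unit, h.eig, fun x y => h.tang _ _ (key x) (key y)⟩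
  · rintro ⟨h1, h2, h3, h4⟩
    refine ⟨h1, h2, h3, fun x y hx hy => ?_⟩
    simpa [hx, hy] using h4 x y

theorem main1_adm_closed : IsClosed {q : T1 n × T2 n × T3 n | Adm q.1 q.2.1 q.2.2} := by
  simp only [main1_adm_iff, ofPred_and, ofPred_forall]
  refine IsClosed.inter ?_ (IsClosed.inter ?_ (IsClosed.inter ?_ ?_))
  · exact main1_closed_symTr (by fun_prop) (by fun_prop)
  · exact isClosed_eq (by fun_prop) (by fun_prop)
  · exact isClosed_iInter fun i => isClosed_eq (by fun_prop) (by unfold hh; fun_prop)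
  · exact isClosed_iInter fun x => isClosed_iInter fun y =>
      isClosed_eq (by unfold hh; fun_prop) (by fun_prop)

/-- The boundary inequality near the free boundary, by compactness. -/
theorem main1_bd {c : Co} (hc : CertOn n (fun _ => True) c) {r R δ C : ℝ} (hr : 0 < r)
    (hδ : 0 < δ) (η : ℝ) (hη : 0 < η) : ∃ θ : ℝ, 0 < θ ∧
      ∀ s ∈ (main1_K r R δ C : Set (main1_S n)), ∀ (t : ℝ) (b : T1 n) (A : T2 n) (B : T3 n),
      0 ≤ t → s.2.2.2.2 ≤ θ → Adm b A B → ‖s.2.1 - b‖ ≤ θ → ‖s.2.2.1 - A‖ ≤ θ →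
      ‖s.2.2.2.1 - B‖ ≤ θ → |t - 2 * hh b A| ≤ θ →
      -η ≤ ∑ k, vf c s.1 s.2.1 s.2.2.1 s.2.2.2.1 s.2.2.2.2 k * s.2.1 k +
        t / 2 * c.ρ (inv s.1 s.2.1 s.2.2.1 s.2.2.2.2) := by
  have hK : ∀ s ∈ (main1_K r R δ C : Set (main1_S n)),
      inv s.1 s.2.1 s.2.2.1 s.2.2.2.2 ∈ Dom := fun s hs => main1_st_dom (main1_K_st hr hδ hs)
  have hcp := main1_K_compact (n := n) r R δ C
  obtain ⟨h0, h1, h2, h3, h4, h5⟩ := hc.sm
  by_contra hcon
  push Not at hcon
  choose s hs t b A B ht hw hadm hb hA hB hth hlt using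
    fun m : ℕ => hcon (1 / ((m : ℝ) + 1)) (by positivity)
  obtain ⟨s₀, hs₀, φ, hφ, hlim⟩ := hcp.tendsto_subseq hs
  have hθ : Tendsto (fun m : ℕ => 1 / ((φ m : ℝ) + 1)) atTop (𝓝 0) :=
    (tendsto_one_div_add_atTop_nhds_zero_nat (𝕜 := ℝ)).comp hφ.tendsto_atTop
  have hlim' : Tendsto (fun m => s (φ m)) atTop (𝓝[main1_K r R δ C] s₀) :=
    tendsto_nhdsWithin_iff.2 ⟨hlim, Eventually.of_forall fun m => hs _⟩
  have aux : ∀ {X : Type} [NormedAddCommGroup X] (f g : ℕ → X) (a : X),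
      Tendsto f atTop (𝓝 a) → (∀ m, ‖f m - g m‖ ≤ 1 / ((φ m : ℝ) + 1)) →
      Tendsto g atTop (𝓝 a) := by
    intro X _ f g a hf hfg
    have h6 : Tendsto (fun m => f m - g m) atTop (𝓝 0) := squeeze_zero_norm hfg hθ
    simpa using hf.sub h6
  have l1 : Tendsto (fun m => (s (φ m)).2.1) atTop (𝓝 s₀.2.1) :=
    ((by fun_prop : Continuous fun s : main1_S n => s.2.1).tendsto s₀).comp hlim
  have l2 : Tendsto (fun m => (s (φ m)).2.2.1) atTop (𝓝 s₀.2.2.1) :=
    ((by fun_prop : Continuous fun s : main1_S n => s.2.2.1).tendsto s₀).comp hlim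
  have l3 : Tendsto (fun m => (s (φ m)).2.2.2.1) atTop (𝓝 s₀.2.2.2.1) :=
    ((by fun_prop : Continuous fun s : main1_S n => s.2.2.2.1).tendsto s₀).comp hlim
  have l4 : Tendsto (fun m => (s (φ m)).2.2.2.2) atTop (𝓝 s₀.2.2.2.2) :=
    ((by fun_prop : Continuous fun s : main1_S n => s.2.2.2.2).tendsto s₀).comp hlim
  have m1 := aux _ (fun m => b (φ m)) _ l1 fun m => hb _
  have m2 := aux _ (fun m => A (φ m)) _ l2 fun m => hA _
  have m3 := aux _ (fun m => B (φ m)) _ l3 fun m => hB _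
  have hadm0 : Adm s₀.2.1 s₀.2.2.1 s₀.2.2.2.1 :=
    main1_adm_closed.mem_of_tendsto (m1.prodMk_nhds (m2.prodMk_nhds m3))
      (Eventually.of_forall fun m => hadm _)
  have m4 : Tendsto (fun m => 2 * hh (b (φ m)) (A (φ m))) atTop (𝓝 (2 * hh s₀.2.1 s₀.2.2.1)) :=
    ((main1_cont_hh.tendsto (s₀.2.1, s₀.2.2.1)).comp (m1.prodMk_nhds m2)).const_mul 2
  have m5 : Tendsto (fun m => t (φ m)) atTop (𝓝 (2 * hh s₀.2.1 s₀.2.2.1)) :=
    aux _ _ _ m4 fun m => by rw [Real.norm_eq_abs, abs_sub_comm]; exact hth _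
  have hh0 : 0 ≤ hh s₀.2.1 s₀.2.2.1 := by
    have := ge_of_tendsto' m5 fun m => ht _
    linarith
  have hst := main1_K_st hr hδ hs₀
  have hw0 : s₀.2.2.2.2 = 0 :=
    le_antisymm (le_of_tendsto_of_tendsto' l4 hθ fun m => hw _) hst.u0
  have hbd := hc.bd s₀.1 s₀.2.1 s₀.2.2.1 s₀.2.2.2.1 (hw0 ▸ hst) trivial hadm0 hh0
  have c1 : ContinuousOn (fun s : main1_S n =>
      ∑ k, vf c s.1 s.2.1 s.2.2.1 s.2.2.2.1 s.2.2.2.2 k * s.2.1 k) (main1_K r R δ C) :=
    continuousOn_finsetSum _ fun k _ => (main1_cont_vf hK h1 h2 h3 h4 h5 k).mul (by fun_prop)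
  have m6 := ((c1 s₀ hs₀).tendsto.comp hlim').add ((m5.div_const 2).mul
    ((main1_cont_f hK h0 s₀ hs₀).tendsto.comp hlim'))
  have m7 := le_of_tendsto' m6 fun m => (hlt (φ m)).le
  rw [hw0] at m7
  have e : 2 * hh s₀.2.1 s₀.2.2.1 / 2 = hh s₀.2.1 s₀.2.2.1 := by ring
  rw [e] at m7
  linarith

theorem main1_adm_scale {b : T1 n} {A : T2 n} {B : T3 n} (h : Adm b A B) (a : ℝ) :
    Adm b (a • A) (a ^ 2 • B) ∧ hh b (a • A) = a * hh b A := by
  have e : hh b (a • A) = a * hh b A := by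
    simp only [hh, Pi.smul_apply, smul_eq_mul, mul_neg, Finset.mul_sum, mul_assoc]
  refine ⟨⟨⟨fun i j => ?_, fun i j k => ?_, fun i j k => ?_, ?_, fun k => ?_⟩, h.unit, fun i => ?_,
    fun x y hx hy => ?_⟩, e⟩
  · simp only [Pi.smul_apply, h.st.a i j]
  · simp only [Pi.smul_apply, h.st.b1 i j k]
  · simp only [Pi.smul_apply, h.st.b2 i j k]
  · simp only [Pi.smul_apply, smul_eq_mul, ← Finset.mul_sum, h.st.ta, mul_zero]
  · simp only [Pi.smul_apply, smul_eq_mul, ← Finset.mul_sum, h.st.tb, mul_zero]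
  · simp only [Pi.smul_apply, smul_eq_mul, mul_assoc, ← Finset.mul_sum, h.eig, e]
    ring
  · have h1 := congrArg (fun z => a ^ 2 * z) (h.tang x y hx hy)
    simp only [mul_zero, Finset.mul_sum] at h1
    rw [← h1, e]
    refine Finset.sum_congr rfl fun i _ => Finset.sum_congr rfl fun j _ => ?_
    have e1 : ∑ k, (a ^ 2 • B) i j k * b k = a ^ 2 * ∑ k, B i j k * b k := by
      simp only [Pi.smul_apply, smul_eq_mul, mul_assoc, Finset.mul_sum]
    have e2 : ∑ k, (a • A) i k * (a • A) k j = a ^ 2 * ∑ k, A i k * A k j := by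
      rw [Finset.mul_sum]
      exact Finset.sum_congr rfl fun k _ => by simp only [Pi.smul_apply, smul_eq_mul]; ring
    rw [e1, e2]
    simp only [Pi.smul_apply, smul_eq_mul]
    ring

end Vale.Agent.P098
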