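import Vale.Agent.P098.Iface
import Vale.Agent.P098.Main12
import Vale.Agent.P098.Main13

/-!
# P098: the stability inequality tested with the certificate
-/

open MeasureTheory Set Metric Filter
open scoped ContDiff RealInnerProductSpace Topology NNReal

noncomputable section
namespace Vale.Agent.P098

variable {n : ℕ}

theorem main1_abs2 (h_ibp : S_ibp) (h_glue : S_glue) (h_stab : S_stab) (u Φ F : E n → ℝ)
    (W : Fin n → E n → ℝ) (U : Set (E n)) (R M : ℝ) (hM : 0 < M) (hu : LMin u) (hU : IsOpen U)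
    (hΦ0 : ∀ x, 0 ≤ Φ x) (hΦd : ∀ x ∈ Om u, DifferentiableAt ℝ Φ x)
    (hW : ∀ j, ContDiffOn ℝ 1 (W j) U)
    (hS : ∀ x ∈ Om u, Φ x ≠ 0 → x ∈ U ∧ R⁻¹ ≤ ‖x‖ ∧ ‖x‖ ≤ R ∧ Φ x ≤ M ∧ (∀ k, |pd k Φ x| ≤ M) ∧
      (∀ j, |W j x| ≤ M) ∧ |∑ j, pd j (W j) x| ≤ M ∧
      F x = ∑ k, pd k Φ x ^ 2 - (2 * Φ x * ∑ k, pd k Φ x * W k x + Φ x ^ 2 * ∑ j, pd j (W j) x))
    (hF0 : ∀ x ∈ Om u, Φ x = 0 → F x = 0)
    (hlay : ∃ C : ℝ, ∀ δ : ℝ, 0 < δ →
      (volume {x : E n | R⁻¹ ≤ ‖x‖ ∧ ‖x‖ ≤ R ∧ 0 < u x ∧ u x ≤ δ}).toReal ≤ C * δ)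
    (hbd : ∀ η : ℝ, 0 < η → ∃ δ : ℝ, 0 < δ ∧ ∀ x ∈ Om u, Φ x ≠ 0 → u x < δ →
      -(η * u x) ≤ (1 - ∑ k, pd k u x ^ 2) + 2 * u x * ∑ k, pd k u x * W k x) :
    0 ≤ ∫ x in Om u, F x := by
  have p1 : 0 ≤ (n : ℝ) * M ^ 2 := by positivity
  have p2 : 0 ≤ 2 * M * ((n : ℝ) * (M * M)) := by positivity
  have p3 : 0 ≤ M ^ 2 * M := by positivity
  refine main1_abs h_ibp h_glue h_stab u Φ F W U R
    (M + n * M ^ 2 + 1 + 2 * M * (n * (M * M)) + M ^ 2 * M) (by positivity) hu hU hΦ0 hΦd hW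
    (fun x hx h0 => ?_) hF0 hlay hbd
  obtain ⟨a1, a2, a3, a4, a5, a6, a7, a8⟩ := hS x hx h0
  refine ⟨a1, a2, a3, by linarith, ?_, fun j => by linarith [a6 j], by linarith, ?_, a8⟩
  · have h1 : ‖fderiv ℝ Φ x‖ ^ 2 ≤ n * M ^ 2 := by
      rw [main1_norm_fderiv, main1_norm_grad]
      have : ∀ k ∈ (Finset.univ : Finset (Fin n)), pd k Φ x ^ 2 ≤ M ^ 2 := fun k _ => by
        rw [← sq_abs]; have := a5 k; gcongr
      simpa using Finset.sum_le_card_nsmul _ _ _ this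
    nlinarith [sq_nonneg (‖fderiv ℝ Φ x‖ - 1)]
  · have h1 : ∑ k, pd k Φ x * W k x ≤ n * (M * M) := by
      have : ∀ k ∈ (Finset.univ : Finset (Fin n)), pd k Φ x * W k x ≤ M * M := fun k _ => by
        refine (le_abs_self _).trans ?_
        rw [abs_mul]
        have := a5 k
        have := a6 k
        gcongr
      simpa using Finset.sum_le_card_nsmul _ _ _ this
    have h2 : 2 * Φ x * ∑ k, pd k Φ x * W k x ≤ 2 * M * (n * (M * M)) := by
      have := hΦ0 x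
      calc _ ≤ 2 * Φ x * (n * (M * M)) := by gcongr
        _ ≤ _ := by gcongr
    have h3 : Φ x ^ 2 * ∑ j, pd j (W j) x ≤ M ^ 2 * M := by
      have := hΦ0 x
      have h4 := (le_abs_self _).trans a7
      calc _ ≤ Φ x ^ 2 * M := by gcongr
        _ ≤ _ := by gcongr
    have h4 : 0 ≤ ∑ k, pd k Φ x ^ 2 := by positivity
    rw [a8]
    linarith

theorem main1_pd_smooth {f : E n → ℝ} {U : Set (E n)} (hU : IsOpen U) (hf : ContDiffOn ℝ ∞ f U)
    (i : Fin n) : ContDiffOn ℝ ∞ (pd i f) U :=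
  (hf.fderiv_of_isOpen hU (by simp)).clm_apply contDiffOn_const

theorem main1_sum_sq (x : E n) : ∑ i, x i ^ 2 = ‖x‖ ^ 2 := by
  rw [EuclideanSpace.norm_sq_eq]
  simp

theorem main1_alg {ι : Type} [Fintype ι] (Z φ d : ℝ) (z g V : ι → ℝ) (hφ : 0 < φ) :
    Z ^ 2 * ((∑ k, g k ^ 2) / (4 * φ ^ 2) - d) + Z * ∑ k, z k * g k + φ ^ 2 * ∑ k, z k ^ 2 -
      2 * Z * ∑ k, z k * V k =
    ∑ k, (φ * z k + Z * g k / (2 * φ)) ^ 2 -
      (2 * (Z * φ) * ∑ k, (φ * z k + Z * g k / (2 * φ)) * (V k / φ ^ 2) +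
        (Z * φ) ^ 2 * (d / φ ^ 2 - (∑ k, V k * g k) / (φ ^ 2) ^ 2)) := by
  have e1 : ∀ k, (φ * z k + Z * g k / (2 * φ)) ^ 2 =
      φ ^ 2 * z k ^ 2 + Z * (z k * g k) + Z ^ 2 / (4 * φ ^ 2) * g k ^ 2 := fun k => by
    field_simp; ring
  have e2 : ∀ k, (φ * z k + Z * g k / (2 * φ)) * (V k / φ ^ 2) =
      1 / φ * (z k * V k) + Z / (2 * φ ^ 3) * (V k * g k) := fun k => by
    field_simp
  simp only [e1, e2, Finset.sum_add_distrib, ← Finset.mul_sum]
  field_simp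
  ring

theorem main1 (h_ibp : S_ibp) (h_glue : S_glue) (h_aeq : S_aeq) (h_harm : S_harm) (h_stab : S_stab) (h_jets : S_jets) (h_div_formula : S_div) (h_layer : S_layer) (h_uw : S_uw) : S_main1 := by
  intro n u Z c hu hom hreg hZ hc
  have _ := h_aeq
  obtain ⟨L, hL⟩ := hu.lip
  have hO : IsOpen (Om u) := isOpen_lt continuous_const hL.continuous
  have harm := h_harm n u hu
  have hcone : ∀ (t : ℝ) (x : E n), 0 < t → x ∈ Om u → t • x ∈ Om u := fun t x ht hx => by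
    have h1 : 0 < u x := hx
    change 0 < u (t • x)
    rw [hom t x ht]; positivity
  have hne : ∀ x ∈ Om u, x ≠ 0 := by
    rintro x hx rfl
    have h1 : 0 < u 0 := hx
    have h2 := hom 2 0 (by norm_num)
    rw [smul_zero] at h2
    linarith
  have jets := h_jets n u (Om u) hO harm hom hcone
  obtain ⟨R, δ, hR, hδ, hsupp⟩ := hZ.supp
  obtain ⟨CZ, hCZ⟩ := hZ.bdd
  obtain ⟨C, hC⟩ := hreg.bdd
  -- the open set where the Hessian does not vanish
  set U : Set (E n) := {x | x ∈ Om u ∧ D2 u x ≠ 0} with hUd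
  have hD2 : ContinuousOn (D2 u) (Om u) :=
    continuousOn_pi.2 fun i => continuousOn_pi.2 fun j =>
      (main1_pd_smooth hO (main1_pd_smooth hO harm.1 j) i).continuousOn
  have hU : IsOpen U := hD2.isOpen_inter_preimage hO (isOpen_compl_singleton (x := (0 : T2 n)))
  have hstU : ∀ x ∈ U, St (fun i => x i) (D1 u x) (D2 u x) (D3 u x) (u x) := by
    intro x hx
    obtain ⟨j1, j2, j3, j4, -⟩ := jets x hx.1
    refine ⟨j1, j2, j3, j4, hu.nonneg x, hreg.grad_le x hx.1, fun h => hne x hx.1 ?_, hx.2,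
      h_uw n u hu hreg.grad_le x hx.1⟩
    ext i
    exact congrFun h i
  have hdom : ∀ x ∈ U, invU u x ∈ Dom := fun x hx => main1_st_dom (hstU x hx)
  have harmU : Harm U u := ⟨harm.1.mono fun x hx => hx.1, fun x hx => harm.2 x hx.1⟩
  obtain ⟨hchain, hdiv⟩ := h_div_formula n u U hU harmU hdom
  obtain ⟨s0, s1, s2, s3, s4, s5⟩ := hc.sm
  obtain ⟨hρ1, hρ2⟩ := hchain c.ρ s0
  obtain ⟨hV1, hV2⟩ := hdiv c s1 s2 s3 s4 s5
  set ρu : E n → ℝ := fun x => c.ρ (invU u x) with hρu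
  have hρpos : ∀ x ∈ U, 0 < ρu x := fun x hx => hc.pos _ _ _ _ _ (hstU x hx) trivial
  -- scaling to the unit sphere
  have hsc : ∀ x ∈ Om u, R⁻¹ ≤ ‖x‖ → ∃ a : ℝ, 0 < a ∧ a ≤ R ∧ a • x ∈ Om u ∧ ‖a • x‖ = 1 ∧
      u (a • x) = a * u x ∧ D1 u (a • x) = D1 u x ∧ a • D2 u (a • x) = D2 u x ∧
      a ^ 2 • D3 u (a • x) = D3 u x := by
    intro x hx h1
    have hx0 : 0 < ‖x‖ := norm_pos_iff.2 (hne x hx)
    have ha : 0 < ‖x‖⁻¹ := inv_pos.2 hx0
    refine ⟨‖x‖⁻¹, ha, (inv_le_comm₀ hx0 hR).2 h1, hcone _ x ha hx, ?_, hom _ x ha,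
      (jets x hx).2.2.2.2.2 _ ha⟩
    rw [norm_smul, norm_inv, norm_norm, inv_mul_cancel₀ hx0.ne']
  set C' : ℝ := R * |C| + R ^ 2 * |C| with hC'
  have hZU : ∀ x ∈ Om u, Z x ≠ 0 → x ∈ U := by
    intro x hx h
    refine ⟨hx, fun h0 => ?_⟩
    have := (hsupp x hx h).2.2
    rw [h0] at this
    simp [nA] at this
    linarith
  have hK : ∀ x ∈ Om u, Z x ≠ 0 → (((fun i => x i), D1 u x, D2 u x, D3 u x, u x) : main1_S n) ∈
      main1_K (R⁻¹ ^ 2) (R ^ 2) δ C' := by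
    intro x hx h
    obtain ⟨b1, b2, b3⟩ := hsupp x hx h
    have hs := hstU x (hZU x hx h)
    obtain ⟨a, ha, haR, hy, hy1, -, -, e2, e3⟩ := hsc x hx b1
    obtain ⟨c2, c3⟩ := hC _ hy hy1.ge (by rw [hy1]; norm_num)
    have c2' := c2.trans (le_abs_self C)
    have c3' := c3.trans (le_abs_self C)
    have q1 : 0 ≤ R * |C| := by positivity
    have q2 : 0 ≤ R ^ 2 * |C| := by positivity
    refine ⟨hs.st, hs.ax, hs.bx, hs.px, hs.u0, hs.p1, ?_, ?_, b3, ?_, ?_, hs.uw⟩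
    · change _ ≤ ∑ i, x i ^ 2
      rw [main1_sum_sq]; gcongr
    · change ∑ i, x i ^ 2 ≤ _
      rw [main1_sum_sq]; gcongr
    · change ‖D2 u x‖ ≤ _
      rw [← e2, norm_smul, Real.norm_eq_abs, abs_of_pos ha]
      have : a * ‖D2 u (a • x)‖ ≤ R * |C| := by gcongr
      linarith
    · change ‖D3 u x‖ ≤ _
      rw [← e3, norm_smul, Real.norm_eq_abs, abs_of_pos (by positivity)]
      have : a ^ 2 * ‖D3 u (a • x)‖ ≤ R ^ 2 * |C| := by gcongr
      linarith
  obtain ⟨m, M, hm, hM, hbnd⟩ := main1_bounds hc (r := R⁻¹ ^ 2) (R := R ^ 2) (C := C')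
    (by positivity) hδ
  set Φ : E n → ℝ := fun x => Z x * √(ρu x) with hΦ
  set W : Fin n → E n → ℝ := fun j x => vfU c u j x / ρu x with hW
  have hΦ0 : ∀ x, 0 ≤ Φ x := fun x => mul_nonneg (hZ.nonneg x) (Real.sqrt_nonneg _)
  have hΦZ : ∀ x, Φ x ≠ 0 → Z x ≠ 0 := fun x h h0 => h (by simp [hΦ, h0])
  have hZd : ∀ x ∈ Om u, DifferentiableAt ℝ Z x := fun x hx =>
    (hZ.sm.differentiableOn (by norm_num) x hx).differentiableAt (hO.mem_nhds hx)
  have hρd : ∀ x ∈ U, DifferentiableAt ℝ ρu x := fun x hx =>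
    (hρ1.differentiableOn (by norm_num) x hx).differentiableAt (hU.mem_nhds hx)
  have hVd : ∀ j, ∀ x ∈ U, DifferentiableAt ℝ (vfU c u j) x := fun j x hx =>
    ((hV1 j).differentiableOn (by norm_num) x hx).differentiableAt (hU.mem_nhds hx)
  have hΦU : ∀ x ∈ U, HasFDerivAt Φ (Z x • ((1 / (2 * √(ρu x))) • fderiv ℝ ρu x) +
      √(ρu x) • fderiv ℝ Z x) x := fun x hx =>
    (hZd x hx.1).hasFDerivAt.fun_mul ((hρd x hx).hasFDerivAt.sqrt (hρpos x hx).ne')
  have hpdΦ : ∀ x ∈ U, ∀ k, pd k Φ x = √(ρu x) * pd k Z x +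
      Z x * gr c.ρ (fun i => x i) (D1 u x) (D2 u x) (D3 u x) (u x) k / (2 * √(ρu x)) := by
    intro x hx k
    rw [← hρ2 x hx k]
    simp only [pd, (hΦU x hx).fderiv, add_apply, smul_apply, smul_eq_mul]
    ring
  have hpdW : ∀ x ∈ U, ∑ j, pd j (W j) x =
      dv c (fun i => x i) (D1 u x) (D2 u x) (D3 u x) (u x) / ρu x - (∑ k, vfU c u k x *
        gr c.ρ (fun i => x i) (D1 u x) (D2 u x) (D3 u x) (u x) k) / ρu x ^ 2 := by
    intro x hx
    rw [← hV2 x hx, Finset.sum_div, Finset.sum_div, ← Finset.sum_sub_distrib]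
    refine Finset.sum_congr rfl fun j _ => ?_
    rw [← hρ2 x hx j]
    have h1 : HasFDerivAt (fun y => (ρu y)⁻¹) ((-(ρu x ^ 2)⁻¹) • fderiv ℝ ρu x) x :=
      (hasDerivAt_inv (hρpos x hx).ne').comp_hasFDerivAt x (hρd x hx).hasFDerivAt
    have h2 := (hVd j x hx).hasFDerivAt.fun_mul h1
    have h3 : W j = fun y => vfU c u j y * (ρu y)⁻¹ := by
      funext y; simp only [hW, div_eq_mul_inv]
    simp only [pd, h3, h2.fderiv, add_apply, smul_apply, smul_eq_mul]
    ring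
  have hCZ0 : ∀ x ∈ Om u, Z x ≤ |CZ| ∧ ∀ k, |pd k Z x| ≤ |CZ| := fun x hx =>
    ⟨(hCZ x hx).1.trans (le_abs_self _), fun k =>
      (main1_abs_pd Z x k).trans ((hCZ x hx).2.trans (le_abs_self _))⟩
  have q1 : 0 ≤ |CZ| * √M := by positivity
  have q2 : 0 ≤ |CZ| * M / (2 * √m) := by positivity
  have q3 : 0 < M / m := by positivity
  have q4 : 0 ≤ n * (M * M) / m ^ 2 := by positivity
  refine main1_abs2 h_ibp h_glue h_stab u Φ _ W U R
    (|CZ| * √M + |CZ| * M / (2 * √m) + M / m + n * (M * M) / m ^ 2) (by positivity) hu hU hΦ0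
    (fun x hx => ?_) (fun j => ?_) (fun x hx h0 => ?_) (fun x hx h0 => ?_)
    (h_layer n u R hu hom hreg hR) fun η hη => ?_
  · by_cases hxU : x ∈ U
    · exact (hΦU x hxU).differentiableAt
    · have h0 : D2 u x = 0 := by
        by_contra h
        exact hxU ⟨hx, h⟩
      have h1 : ContinuousAt (fun y => nA (D2 u y)) x :=
        main1_cont_nA.continuousAt.comp (hD2.continuousAt (hO.mem_nhds hx))
      have h2 : nA (D2 u x) < δ := by rw [h0]; simpa [nA] using hδ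
      have hev : Φ =ᶠ[𝓝 x] fun _ => 0 := by
        filter_upwards [h1.eventually (gt_mem_nhds h2), hO.mem_nhds hx] with y hy1 hy2
        by_contra h
        have := (hsupp y hy2 (hΦZ y h)).2.2
        linarith
      exact (differentiableAt_const (0 : ℝ)).congr_of_eventuallyEq hev
  · exact (hV1 j).div hρ1 fun x hx => (hρpos x hx).ne'
  · have hz := hΦZ x h0
    have hxU := hZU x hx hz
    obtain ⟨b1, b2, -⟩ := hsupp x hx hz
    obtain ⟨d1, d2, d3, d4, d5⟩ := hbnd _ (hK x hx hz)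
    change m ≤ ρu x at d1
    change ρu x ≤ M at d2
    change ∀ k, |gr c.ρ (fun i => x i) (D1 u x) (D2 u x) (D3 u x) (u x) k| ≤ M at d3
    change ∀ k, |vfU c u k x| ≤ M at d4
    change |dv c (fun i => x i) (D1 u x) (D2 u x) (D3 u x) (u x)| ≤ M at d5
    obtain ⟨z1, z2⟩ := hCZ0 x hx
    have z0 := hZ.nonneg x
    have hρ := hρpos x hxU
    have hφ : 0 < √(ρu x) := Real.sqrt_pos.2 hρ
    have hm' : 0 < √m := Real.sqrt_pos.2 hm
    refine ⟨hxU, b1, b2, ?_, fun k => ?_, fun j => ?_, ?_, ?_⟩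
    · have : Z x * √(ρu x) ≤ |CZ| * √M := by gcongr
      simp only [hΦ]
      linarith
    · rw [hpdΦ x hxU k]
      refine (abs_add_le _ _).trans ?_
      rw [abs_mul, abs_div, abs_mul, abs_of_pos hφ, abs_of_nonneg z0,
        abs_of_pos (by positivity : 0 < 2 * √(ρu x))]
      have e1 : √(ρu x) * |pd k Z x| ≤ √M * |CZ| := by
        have := z2 k
        gcongr
      have e2 : Z x * |gr c.ρ (fun i => x i) (D1 u x) (D2 u x) (D3 u x) (u x) k| /
          (2 * √(ρu x)) ≤ |CZ| * M / (2 * √m) := by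
        have := d3 k
        gcongr
      linarith
    · simp only [hW]
      rw [abs_div, abs_of_pos hρ]
      have : |vfU c u j x| / ρu x ≤ M / m := by
        have := d4 j
        gcongr
      linarith
    · rw [hpdW x hxU]
      refine (abs_sub _ _).trans ?_
      rw [abs_div, abs_div, abs_of_pos hρ, abs_of_pos (by positivity : 0 < ρu x ^ 2)]
      have e1 : |dv c (fun i => x i) (D1 u x) (D2 u x) (D3 u x) (u x)| / ρu x ≤ M / m := by gcongr
      have e0 : |∑ k, vfU c u k x * gr c.ρ (fun i => x i) (D1 u x) (D2 u x) (D3 u x) (u x) k| ≤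
          n * (M * M) := by
        refine (Finset.abs_sum_le_sum_abs _ _).trans ?_
        have : ∀ k ∈ (Finset.univ : Finset (Fin n)), |vfU c u k x *
            gr c.ρ (fun i => x i) (D1 u x) (D2 u x) (D3 u x) (u x) k| ≤ M * M := fun k _ => by
          rw [abs_mul]
          have := d3 k
          have := d4 k
          gcongr
        simpa using Finset.sum_le_card_nsmul _ _ _ this
      have e2 : |∑ k, vfU c u k x * gr c.ρ (fun i => x i) (D1 u x) (D2 u x) (D3 u x) (u x) k| /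
          ρu x ^ 2 ≤ n * (M * M) / m ^ 2 := by gcongr
      linarith
    · have := main1_alg (Z x) (√(ρu x)) (dv c (fun i => x i) (D1 u x) (D2 u x) (D3 u x) (u x))
        (fun k => pd k Z x) (gr c.ρ (fun i => x i) (D1 u x) (D2 u x) (D3 u x) (u x))
        (fun k => vfU c u k x) hφ
      rw [Real.sq_sqrt hρ.le] at this
      rw [hpdW x hxU]
      simp only [hpdΦ x hxU]
      exact this
  · have hz : Z x = 0 := by
      by_contra hz
      have := Real.sqrt_pos.2 (hρpos x (hZU x hx hz))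
      exact mul_ne_zero hz this.ne' h0
    have : ∀ k, pd k Z x = 0 := fun k => by simp [pd, main1_fderiv_min hZ.nonneg hz]
    simp [hz, this]
  · obtain ⟨θ, hθ, hb⟩ := main1_bd hc (r := R⁻¹ ^ 2) (R := R ^ 2) (C := C') (by positivity) hδ
      (η * m / 2) (by positivity)
    obtain ⟨δ₀, hδ₀, hb0⟩ := hreg.bd (θ / (1 + R + R ^ 2)) (by positivity)
    refine ⟨min θ (δ₀ / R), lt_min hθ (by positivity), fun x hx h0 hlt => ?_⟩
    have hz := hΦZ x h0
    have hxU := hZU x hx hz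
    obtain ⟨b1, b2, -⟩ := hsupp x hx hz
    have hux : 0 < u x := hx
    obtain ⟨a, ha, haR, hy, hy1, e0, e1, e2, e3⟩ := hsc x hx b1
    have hlt1 : u x ≤ θ := (hlt.trans_le (min_le_left _ _)).le
    have hlt2 : u (a • x) < δ₀ := by
      have h1 : u x < δ₀ / R := hlt.trans_le (min_le_right _ _)
      rw [lt_div_iff₀ hR] at h1
      rw [e0]
      nlinarith
    obtain ⟨b, A, B, hadm, g1, g2, g3, g4⟩ := hb0 _ hy hy1.ge (by rw [hy1]; norm_num) hlt2
    obtain ⟨hadm', hh'⟩ := main1_adm_scale hadm a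
    have w : ∀ t : ℝ, 0 ≤ t → t ≤ 1 + R + R ^ 2 → t * (θ / (1 + R + R ^ 2)) ≤ θ := by
      intro t h1 h2
      rw [← mul_div_assoc, div_le_iff₀ (by positivity)]
      nlinarith
    have hR2 : 0 ≤ R ^ 2 := by positivity
    have hs := hreg.grad_le x hx
    have key := hb _ (hK x hx hz) ((1 - ∑ i, D1 u x i ^ 2) / u x) b (a • A) (a ^ 2 • B)
      (div_nonneg (by linarith) hux.le) hlt1 hadm' ?_ ?_ ?_ ?_
    · obtain ⟨d1, -⟩ := hbnd _ (hK x hx hz)
      change m ≤ ρu x at d1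
      change -(η * m / 2) ≤ ∑ k, vfU c u k x * pd k u x +
        (1 - ∑ i, pd i u x ^ 2) / u x / 2 * ρu x at key
      have hρ := hρpos x hxU
      have e4 : (1 - ∑ k, pd k u x ^ 2) + 2 * u x * ∑ k, pd k u x * W k x =
          2 * u x / ρu x * (∑ k, vfU c u k x * pd k u x +
            (1 - ∑ i, pd i u x ^ 2) / u x / 2 * ρu x) := by
        have : ∑ k, pd k u x * W k x = (∑ k, vfU c u k x * pd k u x) / ρu x := by
          rw [Finset.sum_div]
          exact Finset.sum_congr rfl fun k _ => by simp only [hW]; ring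
        rw [this]
        field_simp
        ring
      rw [e4]
      have e5 : 2 * u x / ρu x * -(η * m / 2) ≤ _ :=
        mul_le_mul_of_nonneg_left key (by positivity)
      refine le_trans ?_ e5
      have e6 : 2 * u x / ρu x * (η * m / 2) ≤ 2 * u x / m * (η * m / 2) := by gcongr
      have e7 : 2 * u x / m * (η * m / 2) = η * u x := by field_simp
      linarith
    · change ‖D1 u x - b‖ ≤ θ
      rw [← e1]
      have := w 1 zero_le_one (by linarith)
      linarith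
    · change ‖D2 u x - a • A‖ ≤ θ
      rw [← e2, ← smul_sub, norm_smul, Real.norm_eq_abs, abs_of_pos ha]
      exact (mul_le_mul_of_nonneg_left g2 ha.le).trans (w a ha.le (by linarith))
    · change ‖D3 u x - a ^ 2 • B‖ ≤ θ
      rw [← e3, ← smul_sub, norm_smul, Real.norm_eq_abs, abs_of_pos (by positivity)]
      have : a ^ 2 ≤ R ^ 2 := by gcongr
      exact (mul_le_mul_of_nonneg_left g3 (by positivity)).trans
        (w _ (by positivity) (by linarith))
    · rw [e1, e0] at g4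
      have : (1 - ∑ i, D1 u x i ^ 2) / u x - 2 * hh b (a • A) =
          a * ((1 - ∑ i, D1 u x i ^ 2) / (a * u x) - 2 * hh b A) := by
        rw [hh']; field_simp
      rw [this, abs_mul, abs_of_pos ha]
      exact (mul_le_mul_of_nonneg_left g4 ha.le).trans (w a ha.le (by linarith))

end Vale.Agent.P098
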