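import Vale.Agent.P098.Main24

open MeasureTheory Set Metric Filter
open scoped ContDiff RealInnerProductSpace Topology NNReal

noncomputable section
namespace Vale.Agent.P098

variable {n : ℕ} {u : E n → ℝ}

def main2_P (c : Co) (u : E n → ℝ) (x : E n) : ℝ :=
  (∑ k, main2_G c u k x ^ 2) / (4 * c.ρ (invU u x)) -
    dv c (fun i => x i) (D1 u x) (D2 u x) (D3 u x) (u x)

def main2_E (c : Co) (u Z : E n → ℝ) (x : E n) : ℝ :=
  Z x * ∑ k, pd k Z x * main2_G c u k x + c.ρ (invU u x) * ∑ k, pd k Z x ^ 2 -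
    2 * Z x * ∑ k, pd k Z x * vfU c u k x

def main2_Z (u ζ : E n → ℝ) (d : ℝ) (x : E n) : ℝ := ζ x * main2_chi (d⁻¹ * nA (D2 u x))

theorem main2_H.eta (h : main2_H u) (d : ℝ) :
    ContDiffOn ℝ 1 (fun x => main2_chi (d⁻¹ * nA (D2 u x))) (Om u) :=
  main2_chi_smooth.comp_contDiffOn (contDiffOn_const.mul (main2_a_smooth h.op h.harm.1))

theorem main2_H.pdZ (h : main2_H u) {ζ : E n → ℝ} (hζ : ContDiff ℝ 1 ζ) (d : ℝ) {x : E n}
    (hx : x ∈ Om u) (k : Fin n) : pd k (main2_Z u ζ d) x =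
      ζ x * (deriv main2_chi (d⁻¹ * nA (D2 u x)) * (d⁻¹ * pd k (fun x => nA (D2 u x)) x)) +
        main2_chi (d⁻¹ * nA (D2 u x)) * pd k ζ x := by
  have ha : DifferentiableAt ℝ (fun x => nA (D2 u x)) x :=
    ((main2_a_smooth h.op h.harm.1).differentiableOn (by norm_num)).differentiableAt
      (h.op.mem_nhds hx)
  have he : DifferentiableAt ℝ (fun x => main2_chi (d⁻¹ * nA (D2 u x))) x :=
    ((h.eta d).differentiableOn (by norm_num)).differentiableAt (h.op.mem_nhds hx)
  unfold main2_Z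
  rw [main2_pd_mul (hζ.differentiable (by norm_num) x) he, main2_pd_chi (ha.const_mul _)]
  congr 3
  unfold pd
  rw [fderiv_const_mul ha]; simp

theorem main2_H.cut (h : main2_H u) {ζ : E n → ℝ} {M t d : ℝ} (hζ : ContDiff ℝ 1 ζ)
    (ht : 1 ≤ t) (hd : 0 < d) (hM : 0 < M) (z1 : ∀ x, 0 ≤ ζ x ∧ ζ x ≤ 1)
    (z2 : ∀ x, ζ x ≠ 0 → 1 / 2 ≤ ‖x‖ ∧ ‖x‖ ≤ 2 * t) (z3 : ∀ x k, |pd k ζ x| * ‖x‖ ≤ M)
    (z4 : ∀ x k, pd k ζ x ≠ 0 → (1 / 2 ≤ ‖x‖ ∧ ‖x‖ ≤ 1) ∨ (t ≤ ‖x‖ ∧ ‖x‖ ≤ 2 * t)) :
    Cut u (main2_Z u ζ d) := by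
  obtain ⟨M', hM', hb⟩ := main2_chi_deriv_bd
  obtain ⟨C, hC0, hC⟩ := h.jb 2 two_pos
  refine ⟨hζ.contDiffOn.mul (h.eta d), fun x => mul_nonneg (z1 x).1 (main2_chi_nonneg _),
    ⟨1 + n * (M' * (d⁻¹ * (2 * (n * C) * √(n ^ 3 * C ^ 2))) + 2 * M), fun x hx => ⟨?_, ?_⟩⟩,
    ⟨2 * t, d, by linarith, hd, fun x hx hz => ?_⟩⟩
  · have : main2_Z u ζ d x ≤ 1 := mul_le_one₀ (z1 x).2 (main2_chi_nonneg _) (main2_chi_le _)
    refine this.trans (le_add_of_nonneg_right (by positivity))
  · refine (main2_fderiv_le _ _).trans ?_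
    calc _ ≤ ∑ _k : Fin n, (M' * (d⁻¹ * (2 * (n * C) * √(n ^ 3 * C ^ 2))) + 2 * M) :=
          Finset.sum_le_sum fun k _ => ?_
      _ ≤ _ := by simp only [Finset.sum_const, Finset.card_univ, Fintype.card_fin, nsmul_eq_mul]
                  linarith
    rw [h.pdZ hζ d hx]
    refine (abs_add_le _ _).trans (add_le_add ?_ ?_)
    · by_cases hz : ζ x = 0
      · rw [hz, zero_mul, abs_zero]; positivity
      obtain ⟨b2, b3⟩ := hC x hx (by have := (z2 x hz).1; norm_num at this ⊢; exact this)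
      have hA : nA (D2 u x) ≤ (n * C) ^ 2 := (main2_nA_le _).trans (by gcongr)
      have hB : nB (D3 u x) ≤ n ^ 3 * C ^ 2 := (main2_nB_le _).trans (by gcongr)
      have hA' : √(nA (D2 u x)) ≤ n * C := Real.sqrt_le_iff.2 ⟨by positivity, hA⟩
      have hB' := Real.sqrt_le_sqrt hB
      have hp : |pd k (fun x => nA (D2 u x)) x| ≤ 2 * (n * C) * √(n ^ 3 * C ^ 2) :=
        (main2_pd_a h.op h.harm.1 hx k).trans (by gcongr)
      rw [abs_mul, abs_mul, abs_mul, abs_of_nonneg (z1 x).1, abs_of_pos (inv_pos.2 hd)]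
      have := hb (d⁻¹ * nA (D2 u x))
      calc _ ≤ 1 * (M' * (d⁻¹ * (2 * (n * C) * √(n ^ 3 * C ^ 2)))) := by
            gcongr; exact (z1 x).2
        _ = _ := one_mul _
    · rw [abs_mul, abs_of_nonneg (main2_chi_nonneg _)]
      have : |pd k ζ x| ≤ 2 * M := by
        by_cases hz : pd k ζ x = 0
        · rw [hz, abs_zero]; positivity
        have h1 : 1 / 2 ≤ ‖x‖ := by rcases z4 x k hz with a | a <;> linarith [a.1]
        have := z3 x k
        nlinarith [abs_nonneg (pd k ζ x)]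
      calc _ ≤ 1 * (2 * M) := by gcongr; exact main2_chi_le _
        _ = _ := one_mul _
  · obtain ⟨a, b⟩ := z2 x (left_ne_zero_of_mul hz)
    refine ⟨le_trans ?_ a, b, ?_⟩
    · rw [one_div]; exact inv_anti₀ two_pos (by linarith)
    · by_contra hlt
      refine right_ne_zero_of_mul hz (main2_chi_zero ?_)
      rw [inv_mul_le_iff₀ hd]; linarith

theorem main2_H.wcont (h : main2_H u) : ContinuousOn (main2_w u) (main2_U u) :=
  (main2_w_cont h.op h.harm.1).mono fun _ hx => hx.1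

theorem main2_H.Icont (h : main2_H u) {c : Co} (hc : CertOn n (fun _ => True) c) {Z : E n → ℝ}
    (hZ : ContDiffOn ℝ 1 Z (Om u)) :
    ContinuousOn (fun x => Z x ^ 2 * main2_P c u x + main2_E c u Z x) (main2_U u) := by
  have hm : MapsTo (main2_w u) (main2_U u) (main2_D n) := fun x hx => h.dom hx
  have c1 : ContinuousOn (fun x => c.ρ (invU u x)) (main2_U u) :=
    ((main2_f_cont hc.sm.1).comp h.wcont hm).congr fun x _ => rfl
  have c2 : ∀ k, ContinuousOn (main2_G c u k) (main2_U u) := fun k =>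
    ((main2_gr_cont hc.sm.1 k).comp h.wcont hm).congr fun x _ => rfl
  have c3 : ∀ k, ContinuousOn (vfU c u k) (main2_U u) := fun k =>
    ((main2_vf_cont hc k).comp h.wcont hm).congr fun x _ => rfl
  have c4 : ContinuousOn (fun x => dv c (fun i => x i) (D1 u x) (D2 u x) (D3 u x) (u x))
      (main2_U u) := ((main2_dv_cont hc).comp h.wcont hm).congr fun x _ => rfl
  have c5 : ContinuousOn Z (main2_U u) := hZ.continuousOn.mono fun _ hx => hx.1
  have c6 : ∀ k, ContinuousOn (pd k Z) (main2_U u) := fun k =>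
    (main2_pd_cont h.op hZ k).mono fun _ hx => hx.1
  unfold main2_P main2_E
  refine ((c5.pow 2).mul (ContinuousOn.sub (ContinuousOn.div
    (continuousOn_finsetSum _ fun k _ => (c2 k).pow 2) (continuousOn_const.mul c1)
    fun x hx => ?_) c4)).add
    (((c5.mul (continuousOn_finsetSum _ fun k _ => (c6 k).mul (c2 k))).add
      (c1.mul (continuousOn_finsetSum _ fun k _ => (c6 k).pow 2))).sub
      ((continuousOn_const.mul c5).mul (continuousOn_finsetSum _ fun k _ => (c6 k).mul (c3 k))))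
  have := hc.pos _ _ _ _ _ (h.st hx) trivial
  exact mul_ne_zero (by norm_num) (ne_of_gt this)

theorem main2_H.wb (h : main2_H u) (R : ℝ) (hR : 0 < R) : ∃ C : ℝ, ∀ x ∈ Om u,
    R⁻¹ ≤ ‖x‖ → ‖x‖ ≤ R → ‖main2_w u x‖ ≤ C := by
  obtain ⟨C, hC0, hC⟩ := h.jb R hR
  refine ⟨C + R + 1 + n * R, fun x hx h1 h2 => ?_⟩
  obtain ⟨b2, b3⟩ := hC x hx h1
  have hn : 0 ≤ (n : ℝ) * R := by positivity
  have a1 : ∀ i, |x i| ≤ R := fun i => (main2_abs_coord x i).trans h2
  have a2 : ∀ i, |D1 u x i| ≤ 1 := fun i => by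
    have := Finset.single_le_sum (f := fun i => D1 u x i ^ 2) (fun _ _ => by positivity)
      (Finset.mem_univ i)
    exact (sq_le_one_iff_abs_le_one _).1 (this.trans (h.reg.grad_le x hx))
  have a3 : |u x| ≤ n * R := by
    rw [← (h.jets x hx).2.2.2.1]
    refine (Finset.abs_sum_le_sum_abs _ _).trans ?_
    calc _ ≤ ∑ _i : Fin n, R := Finset.sum_le_sum fun i _ => ?_
      _ = _ := by simp
    rw [abs_mul]
    calc _ ≤ R * 1 := by gcongr; exacts [a1 i, a2 i]
      _ = R := mul_one R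
  unfold main2_w
  simp only [Prod.norm_mk, max_le_iff]
  refine ⟨(pi_norm_le_iff_of_nonneg (by positivity)).2 fun i => (a1 i).trans (by linarith),
    (pi_norm_le_iff_of_nonneg (by positivity)).2 fun i => (a2 i).trans (by linarith),
    by linarith, by linarith, a3.trans (by linarith)⟩

theorem main2_ball_int (a r : ℝ) (hr : 0 ≤ r) :
    Integrable (fun x : E n => if ‖x‖ ≤ r then a else 0) ∧
      ∫ x : E n, (if ‖x‖ ≤ r then a else 0) =
        a * (r ^ n * (volume (closedBall (0 : E n) 1)).toReal) := by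
  have e : (fun x : E n => if ‖x‖ ≤ r then a else 0) =
      (closedBall (0 : E n) r).indicator fun _ => a := by
    funext x; simp [indicator]
  rw [e]
  constructor
  · exact (integrable_indicator_iff measurableSet_closedBall).2
      (integrableOn_const measure_closedBall_lt_top.ne)
  · rw [integral_indicator measurableSet_closedBall, setIntegral_const, smul_eq_mul, mul_comm,
      Measure.real, Measure.addHaar_closedBall' _ _ hr, ENNReal.toReal_mul,
      ENNReal.toReal_ofReal (by positivity)]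
    simp

theorem main2_key (h : main2_H u) (h_div : S_div) {c : Co} (hc : CertOn n (fun _ => True) c)
    (hint : ∀ R : ℝ, 0 < R → IntegrableOn (fun x => nB (D3 u x) / √(nA (D2 u x)))
      {x : E n | R⁻¹ ≤ ‖x‖ ∧ ‖x‖ ≤ R ∧ 0 < u x})
    (hmain : ∀ Z, Cut u Z → 0 ≤ ∫ x in Om u, (Z x ^ 2 * main2_P c u x + main2_E c u Z x)) :
    ∃ B : ℝ, ∀ t : ℝ, 1 ≤ t → ∫ x in main2_U u ∩ main2_S 1 t, main2_g u x ≤ B := by
  obtain ⟨c0, hc0, hci⟩ := hc.int
  obtain ⟨M, hM, hz⟩ := main2_zeta (n := n)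
  obtain ⟨M', hM', hb⟩ := main2_chi_deriv_bd
  obtain ⟨K, hK, hKb⟩ := h.ib h_div hc
  set v := (volume (closedBall (0 : E n) 1)).toReal with hv
  set K1 := M * K + 2 * K * M ^ 2 with hK1
  refine ⟨n * K1 * (2 ^ n * v + 2 ^ n * v) / c0, fun t ht => ?_⟩
  obtain ⟨ζ, hζ, z1, z2, z5, z3, z4⟩ := hz t ht
  have ht0 : 0 < t := by linarith
  have hR : 0 < 2 * t := by linarith
  have hRi : (2 * t)⁻¹ ≤ 1 / 2 := by rw [one_div]; exact inv_anti₀ two_pos (by linarith)
  obtain ⟨C, hC0, hC⟩ := h.sb hc _ hR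
  obtain ⟨Cg, hCg0, hCg⟩ := h.gb _ hR
  obtain ⟨Cw, hCw⟩ := h.wb _ hR
  set K2 := 4 * M' * C * (C + 1) + 32 * C * M' ^ 2 with hK2
  have hK3 : n * K2 + c0 * Cg ≠ 0 := by positivity
  have mU := h.Uopen.measurableSet
  set T : E n → ℝ := fun x => n * K1 *
    ((if ‖x‖ ≤ 1 then 2 ^ n else 0) + (if ‖x‖ ≤ 2 * t then (t ^ n)⁻¹ else 0)) with hT
  obtain ⟨i1, j1⟩ := main2_ball_int (n := n) (2 ^ n) 1 zero_le_one
  obtain ⟨i2, j2⟩ := main2_ball_int (n := n) (t ^ n)⁻¹ (2 * t) hR.le
  have iT : Integrable T := (i1.add i2).const_mul _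
  have jT : ∫ x, T x = n * K1 * (2 ^ n * v + 2 ^ n * v) := by
    rw [hT, integral_const_mul, integral_add i1 i2, j1, j2, ← hv, mul_pow]
    field_simp
    ring
  have T0 : ∀ x, 0 ≤ T x := fun x => by
    have p1 : (0 : ℝ) ≤ if ‖x‖ ≤ 1 then 2 ^ n else 0 := by split_ifs <;> positivity
    have p2 : (0 : ℝ) ≤ if ‖x‖ ≤ 2 * t then (t ^ n)⁻¹ else 0 := by split_ifs <;> positivity
    rw [hT]; positivity
  set Sh : Set (E n) := {x | (2 * t)⁻¹ ≤ ‖x‖ ∧ ‖x‖ ≤ 2 * t ∧ 0 < u x} with hSh
  have mSh : MeasurableSet Sh := (measurableSet_le measurable_const measurable_norm).inter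
    ((measurableSet_le measurable_norm measurable_const).inter h.op.measurableSet)
  set Ψ : E n → ℝ := Sh.indicator fun x =>
    (n * K2 + c0 * Cg) * (1 + nB (D3 u x) / √(nA (D2 u x))) with hΨ
  have iΨ : Integrable Ψ := by
    rw [hΨ, integrable_indicator_iff mSh]
    refine Integrable.const_mul (Integrable.add (integrableOn_const ?_) (hint _ hR)) _
    refine ne_of_lt (lt_of_le_of_lt (measure_mono (t := closedBall 0 (2 * t)) fun x hx => ?_)
      measure_closedBall_lt_top)
    simpa using hx.2.1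
  have q0 : ∀ x, 0 ≤ nB (D3 u x) / √(nA (D2 u x)) := fun x =>
    div_nonneg (main2_nB_nonneg _) (Real.sqrt_nonneg _)
  have Ψ0 : ∀ x, 0 ≤ Ψ x := fun x => indicator_nonneg (fun y _ => by have := q0 y; positivity) x
  set Φ : ℝ → E n → ℝ := fun d => {x | nA (D2 u x) ≤ 2 * d}.indicator Ψ with hΦ
  have mA : ∀ d : ℝ, MeasurableSet {x | nA (D2 u x) ≤ 2 * d} := fun d =>
    measurableSet_le (main2_a_meas u) measurable_const
  have iΦ : ∀ d, Integrable (Φ d) := fun d => iΨ.indicator (mA d)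
  have Φ0 : ∀ d x, 0 ≤ Φ d x := fun d x => indicator_nonneg (fun y _ => Ψ0 y) x
  have ΦΨ : ∀ d x, Φ d x ≤ Ψ x := fun d x => indicator_le_self' (fun y _ => Ψ0 y) x
  have Φe : ∀ d x, x ∈ Om u → ζ x ≠ 0 → nA (D2 u x) ≤ 2 * d →
      Φ d x = (n * K2 + c0 * Cg) * (1 + nB (D3 u x) / √(nA (D2 u x))) := by
    intro d x hx hz ha
    have : x ∈ Sh := ⟨hRi.trans (z2 x hz).1, (z2 x hz).2, hx⟩
    simp only [hΦ, hΨ]
    rw [indicator_of_mem (by exact ha), indicator_of_mem this]
  have lim : Tendsto (fun d => ∫ x in main2_U u, Φ d x) (𝓝[>] 0) (𝓝 0) := by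
    have := tendsto_integral_filter_of_dominated_convergence (μ := volume.restrict (main2_U u))
      (l := 𝓝[>] (0 : ℝ)) (F := Φ) (f := fun _ => 0) Ψ
      (Eventually.of_forall fun d => (iΦ d).aestronglyMeasurable.restrict)
      (Eventually.of_forall fun d => Eventually.of_forall fun x => by
        rw [Real.norm_eq_abs, abs_of_nonneg (Φ0 d x)]; exact ΦΨ d x)
      iΨ.integrableOn
      ((ae_restrict_iff' mU).2 (Eventually.of_forall fun x hx => ?_))
    · simpa using this
    have ha := main2_nA_pos hx.2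
    refine tendsto_const_nhds.congr' ?_
    filter_upwards [Ioo_mem_nhdsGT (half_pos ha)] with d hd
    simp only [hΦ]
    rw [indicator_of_notMem]
    simp only [mem_ofPred_eq, not_le]
    linarith [hd.2]
  have ig : IntegrableOn ((main2_S 1 t).indicator (main2_g u)) (main2_U u) := by
    rw [IntegrableOn, integrable_indicator_iff (main2_S_meas _ _), IntegrableOn,
      Measure.restrict_restrict (main2_S_meas _ _), inter_comm]
    exact h.gint _ one_pos
  have jg : ∫ x in main2_U u, (main2_S 1 t).indicator (main2_g u) x =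
      ∫ x in main2_U u ∩ main2_S 1 t, main2_g u x := setIntegral_indicator (main2_S_meas _ _)
  have step : ∀ d : ℝ, 0 < d → c0 * ∫ x in main2_U u ∩ main2_S 1 t, main2_g u x ≤
      n * K1 * (2 ^ n * v + 2 ^ n * v) + ∫ x in main2_U u, Φ d x := by
    intro d hd
    have cut := h.cut hζ ht hd hM z1 z2 z3 z4
    obtain ⟨D, hD0, hD⟩ := main2_dv_bd hc Cw (min d (1 / 4)) (by positivity)
    set Z := main2_Z u ζ d with hZ
    have Z1 : ∀ x, Z x ^ 2 ≤ 1 := fun x => by
      have a : Z x ≤ 1 := mul_le_one₀ (z1 x).2 (main2_chi_nonneg _) (main2_chi_le _)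
      have b := cut.nonneg x
      nlinarith
    have e0 : ∫ x in Om u, (Z x ^ 2 * main2_P c u x + main2_E c u Z x) =
        ∫ x in main2_U u, (Z x ^ 2 * main2_P c u x + main2_E c u Z x) := by
      refine setIntegral_eq_of_subset_of_forall_sdiff_eq_zero h.op.measurableSet
        (fun _ hx => hx.1) fun x hx => ?_
      have hA : D2 u x = 0 := by
        by_contra h0; exact hx.2 ⟨hx.1, h0⟩
      have a0 : d⁻¹ * nA (D2 u x) = 0 := by rw [hA]; simp [nA]
      have a1 : Z x = 0 := by rw [hZ, main2_Z, a0, main2_chi_zero zero_le_one, mul_zero]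
      have a2 : ∀ k, pd k Z x = 0 := fun k => by
        have : deriv main2_chi 0 = 0 := by
          by_contra h0; linarith [(main2_chi_deriv_ne h0).1]
        rw [hZ, h.pdZ hζ d hx.1, a0, this, main2_chi_zero zero_le_one]; ring
      simp [main2_E, a1, a2]
    have bE : ∀ x ∈ main2_U u, |main2_E c u Z x| ≤ T x + (n * K2 / (n * K2 + c0 * Cg)) * Φ d x := by
      intro x hx
      have hp := h.npos hx.1
      have hρ := (hc.pos _ _ _ _ _ (h.st hx) trivial).le
      have := main2_alg (T1 := K1 * ((if ‖x‖ ≤ 1 then 2 ^ n else 0) +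
          (if ‖x‖ ≤ 2 * t then (t ^ n)⁻¹ else 0))) (T2 := K2 / (n * K2 + c0 * Cg) * Φ d x)
        (ζ' := fun k => pd k ζ x) (η' := fun k => deriv main2_chi (d⁻¹ * nA (D2 u x)) *
          (d⁻¹ * pd k (fun x => nA (D2 u x)) x)) (G := fun k => main2_G c u k x)
        (V := fun k => vfU c u k x) (z1 x).1 (z1 x).2 (main2_chi_nonneg (d⁻¹ * nA (D2 u x)))
        (main2_chi_le _) hρ
        (fun k => main2_T1 hM hK ht0 hp (z3 x k) (z4 x k) (hKb x hx).1 ((hKb x hx).2 k))
        (fun k => ?_)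
      · unfold main2_E
        simp only [hZ, h.pdZ hζ d hx.1]
        refine le_trans this (le_of_eq ?_)
        rw [hT]; ring
      have r0 : 0 ≤ K2 / (n * K2 + c0 * Cg) * Φ d x := by have := Φ0 d x; positivity
      by_cases hz0 : ζ x = 0
      · rw [hz0, zero_mul]; exact r0
      by_cases hd0 : deriv main2_chi (d⁻¹ * nA (D2 u x)) = 0
      · simpa [hd0] using r0
      have h2 := (main2_chi_deriv_ne hd0).2
      obtain ⟨-, b2, b3, b4⟩ := hC x hx (hRi.trans (z2 x hz0).1) (z2 x hz0).2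
      have k := main2_T2 hM' hC0 hd (main2_nA_pos hx.2) (main2_nB_nonneg _)
        (hb (d⁻¹ * nA (D2 u x))) h2
        (main2_pd_a h.op h.harm.1 hx.1 k) b2 b3 (b4 k)
      rw [Φe d x hx.1 hz0 (by rw [inv_mul_le_iff₀ hd] at h2; linarith), ← mul_assoc (K2 / _),
        div_mul_cancel₀ _ hK3]
      refine le_trans (mul_le_of_le_one_left ?_ (z1 x).2) k
      have : 0 ≤ c.ρ (invU u x) := hρ
      positivity
    have hP : ∀ x ∈ main2_U u, main2_P c u x ≤ -(c0 * main2_g u x) ∧
        -dv c (fun i => x i) (D1 u x) (D2 u x) (D3 u x) (u x) ≤ main2_P c u x := by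
      intro x hx
      have a := hci _ _ _ _ _ (h.st hx) trivial
      have hρ : 0 < c.ρ (invU u x) := hc.pos _ _ _ _ _ (h.st hx) trivial
      rw [main2_norm_sq, Real.sqrt_sq (norm_nonneg _)] at a
      have b : 0 ≤ (∑ k, main2_G c u k x ^ 2) / (4 * c.ρ (invU u x)) := by positivity
      unfold main2_P main2_g
      constructor
      · have e : c0 * (√(nA (D2 u x)) / ‖x‖ ^ n * ‖x‖) = c0 * √(nA (D2 u x)) / ‖x‖ ^ n * ‖x‖ := by
          ring
        rw [e]
        exact sub_le_iff_le_add.2 (by rw [neg_add_eq_sub]; exact le_sub_iff_add_le.2 a)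
      · linarith
    have bP : ∀ x ∈ main2_U u, Z x ^ 2 * main2_P c u x ≤
        -(c0 * (main2_S 1 t).indicator (main2_g u) x) +
          (c0 * Cg / (n * K2 + c0 * Cg)) * Φ d x := by
      intro x hx
      have a := (hP x hx).1
      have g0 : 0 ≤ c0 * main2_g u x := mul_nonneg hc0.le (main2_g_nonneg x)
      have r0 : 0 ≤ c0 * Cg / (n * K2 + c0 * Cg) * Φ d x := by have := Φ0 d x; positivity
      have a0 : Z x ^ 2 * main2_P c u x ≤ 0 :=
        mul_nonpos_of_nonneg_of_nonpos (sq_nonneg _) (by linarith)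
      by_cases hs : x ∈ main2_S 1 t
      · rw [indicator_of_mem hs]
        have hz1 := z5 x hs.1 hs.2.le
        by_cases ha : nA (D2 u x) ≤ 2 * d
        · have hz0 : ζ x ≠ 0 := by rw [hz1]; norm_num
          rw [Φe d x hx.1 hz0 ha, ← mul_assoc, div_mul_cancel₀ _ hK3]
          have b := hCg x hx.1 (hRi.trans (z2 x hz0).1) (z2 x hz0).2
          have b1 := mul_le_mul_of_nonneg_left b hc0.le
          have b2 : 0 ≤ c0 * Cg * (nB (D3 u x) / √(nA (D2 u x))) := by have := q0 x; positivity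
          linarith
        · have : Z x = 1 := by
            rw [hZ, main2_Z, hz1, main2_chi_one, one_mul]
            rw [le_inv_mul_iff₀ hd]; linarith
          rw [this]; linarith
      · rw [indicator_of_notMem hs]; linarith
    have cP : ∀ x ∈ main2_U u, |Z x ^ 2 * main2_P c u x| ≤ if ‖x‖ ≤ 2 * t then D else 0 := by
      intro x hx
      by_cases hz0 : Z x = 0
      · rw [hz0]; split_ifs <;> simp [hD0]
      obtain ⟨a, b⟩ := z2 x (left_ne_zero_of_mul hz0)
      rw [if_pos b]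
      have ha : d ≤ nA (D2 u x) := by
        by_contra hlt
        refine right_ne_zero_of_mul hz0 (main2_chi_zero ?_)
        rw [inv_mul_le_iff₀ hd]; linarith
      have k := hD (main2_w u x) (hCw x hx.1 (hRi.trans a) b) ((min_le_left _ _).trans ha)
        ((min_le_right _ _).trans (by
          show 1 / 4 ≤ ∑ i, x i ^ 2
          rw [main2_norm_sq]; nlinarith)) (le_of_lt hx.1)
      obtain ⟨p1, p2⟩ := hP x hx
      have g0 : 0 ≤ c0 * main2_g u x := mul_nonneg hc0.le (main2_g_nonneg x)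
      have k2 : dv c (fun i => x i) (D1 u x) (D2 u x) (D3 u x) (u x) ≤ D := (le_abs_self _).trans k
      have p3 : |main2_P c u x| ≤ D := abs_le.2 ⟨by linarith, by linarith⟩
      rw [abs_mul, abs_of_nonneg (sq_nonneg _)]
      calc _ ≤ 1 * D := by gcongr; exact Z1 x
        _ = D := one_mul D
    have iI : IntegrableOn (fun x => Z x ^ 2 * main2_P c u x + main2_E c u Z x) (main2_U u) := by
      refine Integrable.mono' (((main2_ball_int D (2 * t) hR.le).1.add
        (iT.add ((iΦ d).const_mul (n * K2 / (n * K2 + c0 * Cg))))).integrableOn)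
        ((h.Icont hc cut.sm).aestronglyMeasurable mU)
        ((ae_restrict_iff' mU).2 (Eventually.of_forall fun x hx => ?_))
      exact (abs_add_le _ _).trans (add_le_add (cP x hx) (bE x hx))
    have m := hmain Z cut
    rw [e0] at m
    have iR : IntegrableOn (fun x => -(c0 * (main2_S 1 t).indicator (main2_g u) x) +
        (T x + Φ d x)) (main2_U u) := (ig.const_mul c0).neg.add (iT.add (iΦ d)).integrableOn
    have m2 := setIntegral_mono_on iI iR mU fun x hx => by
      have a := bP x hx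
      have b := (le_abs_self _).trans (bE x hx)
      have e : c0 * Cg / (n * K2 + c0 * Cg) * Φ d x + n * K2 / (n * K2 + c0 * Cg) * Φ d x =
          Φ d x := by
        rw [← add_mul, ← add_div, add_comm (c0 * Cg), div_self hK3, one_mul]
      linarith
    have i3 : IntegrableOn (fun x => -(c0 * (main2_S 1 t).indicator (main2_g u) x))
      (main2_U u) := (ig.const_mul c0).neg
    have i4 : IntegrableOn (fun x => T x + Φ d x) (main2_U u) := (iT.add (iΦ d)).integrableOn
    rw [integral_add i3 i4, integral_add iT.integrableOn (iΦ d).integrableOn, integral_neg, integral_const_mul,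
      jg] at m2
    have m3 : ∫ x in main2_U u, T x ≤ ∫ x, T x :=
      setIntegral_le_integral iT (Eventually.of_forall T0)
    linarith
  have fin := ge_of_tendsto (lim.const_add (n * K1 * (2 ^ n * v + 2 ^ n * v)))
    (by filter_upwards [self_mem_nhdsWithin] with d hd using step d hd)
  rw [le_div_iff₀ hc0]
  linarith

theorem main2 (h_harm : S_harm) (h_jets : S_jets) (h_div_formula : S_div) (h_intg : S_int) (h_main1 : S_main1) (h_uw : S_uw) : S_main2 := by
  intro n u c hu hh hr hc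
  have h : main2_H u := ⟨isOpen_Om hu, h_harm n u hu, hh, hr,
    h_jets n u _ (isOpen_Om hu) (h_harm n u hu) hh (cone_Om hh), h_uw n u hu hr.grad_le⟩
  obtain ⟨B, hB⟩ := main2_key h h_div_formula hc (fun R hR => h_intg n u R hu hh hr hR)
    fun Z hZ => by
      refine le_of_le_of_eq (h_main1 n u Z c hu hh hr hZ hc) ?_
      congr 1
      funext x
      unfold main2_P main2_E main2_G
      ring
  exact h.gzero B hB

end Vale.Agent.P098
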