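import Vale.Agent.P098.Iface

open MeasureTheory Set Metric Filter
open scoped ContDiff RealInnerProductSpace Topology NNReal

noncomputable section
namespace Vale.Agent.P098

variable {n : ℕ}

lemma mean_pd_smooth {f : E n → ℝ} (hf : ContDiff ℝ ∞ f) (i : Fin n) : ContDiff ℝ ∞ (pd i f) :=
  (hf.fderiv_right (m := ∞) le_rfl).clm_apply contDiff_const

lemma mean_lap_smooth {f : E n → ℝ} (hf : ContDiff ℝ ∞ f) : ContDiff ℝ ∞ (lap f) :=
  ContDiff.sum fun i _ => mean_pd_smooth (mean_pd_smooth hf i) i

lemma mean_pd_supp (f : E n → ℝ) (i : Fin n) : tsupport (pd i f) ⊆ tsupport f :=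
  tsupport_fderiv_apply_subset ℝ _

lemma mean_pd_cpt {f : E n → ℝ} (hf : HasCompactSupport f) (i : Fin n) :
    HasCompactSupport (pd i f) := hf.fderiv_apply ℝ _

lemma mean_lap_zero {f : E n → ℝ} {x : E n} (hx : x ∉ tsupport f) : lap f x = 0 :=
  Finset.sum_eq_zero fun i _ => image_eq_zero_of_notMem_tsupport fun h =>
    hx (mean_pd_supp f i (mean_pd_supp _ i h))

lemma mean_lap_cpt {f : E n → ℝ} (hf : HasCompactSupport f) : HasCompactSupport (lap f) :=
  HasCompactSupport.intro hf fun _ hx => mean_lap_zero hx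

lemma mean_pd_aff {f : E n → ℝ} (hf : ContDiff ℝ ∞ f) (a b : ℝ) (x : E n) (i : Fin n) :
    pd i (fun z => b * f (a • (z - x))) = fun z => b * a * pd i f (a • (z - x)) := by
  funext z
  have h1 : HasFDerivAt (fun z : E n => a • (z - x)) (a • ContinuousLinearMap.id ℝ (E n)) z :=
    ((hasFDerivAt_id z).sub_const x).const_smul a
  have h2 := ((hf.differentiable (by simp) (a • (z - x))).hasFDerivAt.comp z h1).const_mul b
  unfold pd
  rw [show (fun z => b * f (a • (z - x))) = fun y => b * (f ∘ fun z : E n => a • (z - x)) y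
    from rfl, h2.fderiv]
  simp [mul_assoc]

lemma mean_lap_aff {f : E n → ℝ} (hf : ContDiff ℝ ∞ f) (a : ℝ) (x z : E n) :
    lap (fun z => f (a • (z - x))) z = a ^ 2 * lap f (a • (z - x)) := by
  unfold lap
  rw [Finset.mul_sum]
  refine Finset.sum_congr rfl fun i _ => ?_
  have h1 := mean_pd_aff hf a 1 x i
  simp only [one_mul] at h1
  rw [h1, mean_pd_aff (mean_pd_smooth hf i) a a x i, sq]

lemma mean_lap_ker {κ φ : E n → ℝ} {c : ℝ} (h : Ker κ φ c) (y : E n) :
    lap φ y = n * κ y + fderiv ℝ κ y y := by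
  have h1 : ∀ i, pd i φ = fun y => κ y * y i := fun i => by
    funext y
    unfold pd
    have e : fderiv ℝ φ y = InnerProductSpace.toDual ℝ (E n) (gradient φ y) := by
      simp [gradient]
    rw [e, h.grad y]
    simp [InnerProductSpace.toDual_apply_apply, EuclideanSpace.inner_single_right]
  have hk : DifferentiableAt ℝ κ y := h.tk.1.differentiable (by simp) y
  have h2 : ∀ i, pd i (pd i φ) y = κ y + y i * fderiv ℝ κ y (EuclideanSpace.single i 1) :=
    fun i => by
      rw [h1 i]
      have h3 : HasFDerivAt (fun y : E n => y i) (EuclideanSpace.proj i : E n →L[ℝ] ℝ) y :=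
        (EuclideanSpace.proj i : E n →L[ℝ] ℝ).hasFDerivAt
      unfold pd
      rw [show (fun y : E n => κ y * y i) = κ * fun y : E n => y i from rfl,
        (hk.hasFDerivAt.mul h3).fderiv]
      simp
  unfold lap
  simp only [h2, Finset.sum_add_distrib, Finset.sum_const, Finset.card_univ, Fintype.card_fin,
    nsmul_eq_mul]
  congr 1
  have e : y = ∑ i, y i • EuclideanSpace.single i (1 : ℝ) := by
    simpa using ((EuclideanSpace.basisFun (Fin n) ℝ).sum_repr y).symm
  conv_rhs => rw [e, map_sum]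
  rw [← e]
  simp only [map_smul, smul_eq_mul]

lemma mean_deriv {κ φ : E n → ℝ} {c : ℝ} (h : Ker κ φ c) (y : E n) {s : ℝ} (hs : 0 < s) :
    HasDerivAt (fun s : ℝ => (s ^ n)⁻¹ * κ (s⁻¹ • y))
      (-(s ^ (n + 1))⁻¹ * lap φ (s⁻¹ • y)) s := by
  have h1 : HasDerivAt (fun s : ℝ => s⁻¹ • y) ((-(s ^ 2)⁻¹) • y) s :=
    (hasDerivAt_inv hs.ne').smul_const y
  have h2 := (h.tk.1.differentiable (by simp) (s⁻¹ • y)).hasFDerivAt.comp_hasDerivAt s h1
  have h3 := ((hasDerivAt_pow n s).inv (pow_pos hs n).ne').mul h2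
  refine HasDerivAt.congr_deriv h3 ?_
  rw [mean_lap_ker h]
  simp only [Function.comp, map_smul, smul_eq_mul, Pi.inv_apply]
  have hs' := hs.ne'
  rcases n with _ | k
  · simp; field_simp
  · simp only [Nat.add_sub_cancel]
    field_simp
    ring

lemma mean_cov (κ u : E n → ℝ) (x : E n) {s : ℝ} (hs : 0 < s) :
    ∫ y, κ y * u (x + s • y) = ∫ z, u z * ((s ^ n)⁻¹ * κ (s⁻¹ • (z - x))) := by
  have h1 := Measure.integral_comp_smul (volume : Measure (E n))
    (fun w => κ (s⁻¹ • w) * u (x + w)) s
  simp only [smul_smul, inv_mul_cancel₀ hs.ne', one_smul, finrank_euclideanSpace,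
    Fintype.card_fin, smul_eq_mul] at h1
  rw [h1, abs_of_pos (by positivity), ← integral_const_mul,
    ← integral_sub_right_eq_self _ x]
  refine integral_congr_ae (Eventually.of_forall fun z => ?_)
  simp only [add_sub_cancel]
  ring

lemma mean_out {f : E n → ℝ} (hf : tsupport f ⊆ ball 0 1) {x z : E n} {s r : ℝ} (hs : 0 < s)
    (hsr : s ≤ r) (hz : z ∉ closedBall x r) : s⁻¹ • (z - x) ∉ tsupport f := fun h => by
  have h1 := hf h
  rw [mem_ball_zero_iff, norm_smul, norm_inv, Real.norm_of_nonneg hs.le,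
    inv_mul_lt_iff₀ hs, mul_one] at h1
  exact hz (by rw [mem_closedBall, dist_eq_norm]; linarith)

lemma mean_test {f : E n → ℝ} (hf : IsTest (ball 0 1) f) {x : E n} {s r : ℝ} (hs : 0 < s)
    (hsr : s ≤ r) : IsTest (closedBall x r) fun z => f (s⁻¹ • (z - x)) := by
  have h1 : tsupport (fun z => f (s⁻¹ • (z - x))) ⊆ closedBall x r :=
    closure_minimal (fun z hz => by
      by_contra hc
      exact hz (image_eq_zero_of_notMem_tsupport (mean_out hf.2.2 hs hsr hc))) isClosed_closedBall
  exact ⟨hf.1.comp ((contDiff_id.sub contDiff_const).const_smul _),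
    (isCompact_closedBall x r).of_isClosed_subset (isClosed_tsupport _) h1, h1⟩

theorem mean : S_mean := by
  intro n κ φ c U u x r h hU hu hw hr hsub
  have hI : IntegrableOn u (closedBall x r) :=
    (hu.mono hsub).integrableOn_compact (isCompact_closedBall x r)
  set v := (closedBall x r).indicator u with hv
  have hvI : Integrable v := (integrable_indicator_iff measurableSet_closedBall).2 hI
  have hκc : Continuous κ := h.tk.1.continuous
  have hLc : Continuous (lap φ) := (mean_lap_smooth h.tf.1).continuous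
  obtain ⟨C, hC⟩ := hLc.bounded_above_of_compact_support (mean_lap_cpt h.tf.2.1)
  obtain ⟨D, hD⟩ := hκc.bounded_above_of_compact_support h.tk.2.1
  set M : ℝ → ℝ := fun s => ∫ z, v z * ((s ^ n)⁻¹ * κ (s⁻¹ • (z - x))) with hM
  have hder : ∀ s, 0 < s → HasDerivAt M
      (∫ z, v z * (-(s ^ (n + 1))⁻¹ * lap φ (s⁻¹ • (z - x)))) s := fun s hs => by
    refine (hasDerivAt_integral_of_dominated_loc_of_deriv_le (s := Ioi (s / 2))
      (F := fun s z => v z * ((s ^ n)⁻¹ * κ (s⁻¹ • (z - x))))
      (F' := fun s z => v z * (-(s ^ (n + 1))⁻¹ * lap φ (s⁻¹ • (z - x))))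
      (bound := fun z => ‖v z‖ * (((s / 2) ^ (n + 1))⁻¹ * C))
      (Ioi_mem_nhds (by linarith)) (Eventually.of_forall fun t => ?_) ?_ ?_
      (Eventually.of_forall fun z t ht => ?_) (hvI.norm.mul_const _)
      (Eventually.of_forall fun z t ht => ?_)).2
    · exact hvI.1.mul (Continuous.aestronglyMeasurable (by fun_prop))
    · refine hvI.mul_bdd (c := ‖(s ^ n)⁻¹‖ * D) (Continuous.aestronglyMeasurable (by fun_prop))
        (Eventually.of_forall fun z => ?_)
      rw [norm_mul]
      exact mul_le_mul_of_nonneg_left (hD _) (norm_nonneg _)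
    · exact hvI.1.mul (Continuous.aestronglyMeasurable (by fun_prop))
    · have ht' : s / 2 < t := ht
      have h0 : 0 < s / 2 := by linarith
      rw [norm_mul, norm_mul, norm_neg, Real.norm_of_nonneg (r := (t ^ (n + 1))⁻¹)
        (inv_nonneg.2 (pow_nonneg (by linarith) _))]
      refine mul_le_mul_of_nonneg_left (mul_le_mul ?_ (hC _) (norm_nonneg _) (by positivity))
        (norm_nonneg _)
      exact inv_anti₀ (by positivity) (pow_le_pow_left₀ h0.le ht'.le _)
    · have ht' : s / 2 < t := ht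
      exact (mean_deriv h (z - x) (by linarith)).const_mul _
  have hzero : ∀ s, 0 < s → s ≤ r →
      ∫ z, v z * (-(s ^ (n + 1))⁻¹ * lap φ (s⁻¹ • (z - x))) = 0 := fun s hs hsr => by
    have ht := mean_test h.tf (x := x) hs hsr
    have h1 := hw _ ⟨ht.1, ht.2.1, ht.2.2.trans hsub⟩
    simp only [mean_lap_aff h.tf.1] at h1
    have h2 : ∀ z, v z * (-(s ^ (n + 1))⁻¹ * lap φ (s⁻¹ • (z - x))) =
        -(s ^ (n + 1))⁻¹ * s ^ 2 * (u z * (s⁻¹ ^ 2 * lap φ (s⁻¹ • (z - x)))) := fun z => by
      by_cases hz : z ∈ closedBall x r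
      · rw [hv, indicator_of_mem hz]; field_simp
      · rw [mean_lap_zero (mean_out h.tf.2.2 hs hsr hz)]; simp
    simp only [h2]
    rw [integral_const_mul, h1, mul_zero]
  have hconst : ∀ s, 0 < s → s ≤ r → M r = M s := fun s hs hsr =>
    constant_of_has_deriv_right_zero (f := M) (a := s) (b := r)
      (fun t ht => (hder t (hs.trans_le ht.1)).continuousAt.continuousWithinAt)
      (fun t ht => by
        have := hder t (hs.trans_le ht.1)
        rw [hzero t (hs.trans_le ht.1) ht.2.le] at this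
        exact this.hasDerivWithinAt) r ⟨hsr, le_rfl⟩
  have hM' : ∀ s, 0 < s → s ≤ r → ∫ y, κ y * u (x + s • y) = M s := fun s hs hsr => by
    rw [mean_cov κ u x hs]
    refine integral_congr_ae (Eventually.of_forall fun z => ?_)
    by_cases hz : z ∈ closedBall x r
    · simp only [hv, indicator_of_mem hz]
    · simp only [image_eq_zero_of_notMem_tsupport (mean_out h.tk.2.2 hs hsr hz), mul_zero]
  have hκI : Integrable κ := hκc.integrable_of_hasCompactSupport h.tk.2.1
  have hκ0 : ∀ y, y ∉ ball (0 : E n) 1 → κ y = 0 := fun y hy =>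
    image_eq_zero_of_notMem_tsupport fun hc => hy (h.tk.2.2 hc)
  have hx : ContinuousAt u x := hu.continuousAt (hU.mem_nhds (hsub (mem_closedBall_self hr.le)))
  refine eq_of_forall_dist_le fun ε hε => ?_
  obtain ⟨δ, hδ, hδ'⟩ := Metric.continuousAt_iff.1 hx ε hε
  have hs : 0 < min r δ := lt_min hr hδ
  set s := min r δ with hsdef
  have hsr : s ≤ r := min_le_left _ _
  have hd : ∀ y : E n, dist (x + s • y) x = s * ‖y‖ := fun y => by
    rw [dist_eq_norm, add_sub_cancel_left, norm_smul, Real.norm_of_nonneg hs.le]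
  have hint : Integrable fun y => κ y * u (x + s • y) := by
    refine IntegrableOn.integrable_of_forall_notMem_eq_zero (s := closedBall 0 1)
      (ContinuousOn.integrableOn_compact (isCompact_closedBall _ _) ?_) fun y hy => ?_
    · refine hκc.continuousOn.mul (hu.comp (by fun_prop) fun y hy => hsub ?_)
      rw [mem_closedBall, hd]
      have := mem_closedBall_zero_iff.1 hy
      nlinarith
    · rw [hκ0 y fun hc => hy (ball_subset_closedBall hc), zero_mul]
  rw [hM' r hr le_rfl, hconst s hs hsr, ← hM' s hs hsr, dist_comm, dist_eq_norm]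
  have e1 : (∫ y, κ y * u (x + s • y)) - u x = ∫ y, (κ y * u (x + s • y) - κ y * u x) := by
    rw [integral_sub hint (hκI.mul_const _), integral_mul_const, h.one, one_mul]
  have e2 : ∫ y, κ y * ε = ε := by rw [integral_mul_const, h.one, one_mul]
  rw [e1, ← e2]
  refine norm_integral_le_of_norm_le (hκI.mul_const _) (Eventually.of_forall fun y => ?_)
  by_cases hy : y ∈ ball (0 : E n) 1
  · rw [← mul_sub, norm_mul, Real.norm_of_nonneg (h.nonneg y)]
    refine mul_le_mul_of_nonneg_left ?_ (h.nonneg y)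
    rw [← dist_eq_norm]
    refine (hδ' ?_).le
    rw [hd]
    have h1 := mem_ball_zero_iff.1 hy
    have h2 : s ≤ δ := min_le_right _ _
    nlinarith
  · simp [hκ0 y hy]

lemma mean_ibp {f g : E n → ℝ} (hf : ContDiff ℝ ∞ f) (hg : ContDiff ℝ ∞ g)
    (hc : HasCompactSupport f) (i : Fin n) : ∫ x, f x * pd i g x = -∫ x, pd i f x * g x :=
  integral_mul_fderiv_eq_neg_fderiv_mul_of_integrable
    (((mean_pd_smooth hf i).continuous.mul hg.continuous).integrable_of_hasCompactSupport
      (mean_pd_cpt hc i).mul_right)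
    ((hf.continuous.mul (mean_pd_smooth hg i).continuous).integrable_of_hasCompactSupport
      hc.mul_right)
    ((hf.continuous.mul hg.continuous).integrable_of_hasCompactSupport hc.mul_right)
    (fun x _ => hf.differentiable (by simp) x) (fun x _ => hg.differentiable (by simp) x)

lemma mean_green {f g : E n → ℝ} (hf : ContDiff ℝ ∞ f) (hg : ContDiff ℝ ∞ g)
    (hc : HasCompactSupport f) : ∫ x, f x * lap g x = ∫ x, g x * lap f x := by
  unfold lap
  simp only [Finset.mul_sum]
  rw [integral_finsetSum, integral_finsetSum]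
  · refine Finset.sum_congr rfl fun i _ => ?_
    rw [mean_ibp hf (mean_pd_smooth hg i) hc, mean_ibp (mean_pd_smooth hf i) hg (mean_pd_cpt hc i),
      neg_neg]
    simp only [mul_comm]
  · exact fun i _ => (hg.continuous.mul
      (mean_pd_smooth (mean_pd_smooth hf i) i).continuous).integrable_of_hasCompactSupport
      (mean_pd_cpt (mean_pd_cpt hc i) i).mul_left
  · exact fun i _ => (hf.continuous.mul
      (mean_pd_smooth (mean_pd_smooth hg i) i).continuous).integrable_of_hasCompactSupport
      hc.mul_right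

theorem weyl (h_ker : S_ker) (h_mean : S_mean) : S_weyl := by
  intro n U u hU hu hw
  obtain ⟨κ, φ, c, h⟩ := h_ker n
  have key : ∀ x₀ ∈ U, ∃ (r : ℝ) (g : E n → ℝ), 0 < r ∧ ball x₀ r ⊆ U ∧ ContDiff ℝ ∞ g ∧
      ∀ x ∈ ball x₀ r, u x = g x := fun x₀ hx₀ => by
    obtain ⟨R, hR, hsub⟩ := nhds_basis_closedBall.mem_iff.1 (hU.mem_nhds hx₀)
    have hr : 0 < R / 2 := by linarith
    set r := R / 2 with hrdef
    have hI : IntegrableOn u (closedBall x₀ R) :=
      (hu.mono hsub).integrableOn_compact (isCompact_closedBall x₀ R)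
    have hvI : Integrable ((closedBall x₀ R).indicator u) :=
      (integrable_indicator_iff measurableSet_closedBall).2 hI
    have ht := mean_test h.tk (x := 0) hr le_rfl
    have hg : ContDiff ℝ ∞ fun z : E n => (r ^ n)⁻¹ * κ (r⁻¹ • (z - 0)) := contDiff_const.mul ht.1
    have hc : HasCompactSupport fun z : E n => (r ^ n)⁻¹ * κ (r⁻¹ • (z - 0)) := ht.2.1.mul_left
    refine ⟨r, _, hr, (ball_subset_closedBall.trans
      (closedBall_subset_closedBall (by linarith))).trans hsub,
      hc.contDiff_convolution_right (ContinuousLinearMap.mul ℝ ℝ) hvI.locallyIntegrable hg,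
      fun x hx => ?_⟩
    have hsub' : closedBall x r ⊆ closedBall x₀ R :=
      closedBall_subset_closedBall' (by linarith [mem_ball.1 hx])
    rw [h_mean n κ φ c U u x r h hU hu hw hr (hsub'.trans hsub), mean_cov κ u x hr,
      convolution_def]
    refine integral_congr_ae (Eventually.of_forall fun z => ?_)
    have e : κ (r⁻¹ • (x - z - 0)) = κ (r⁻¹ • (z - x)) := by
      rw [← h.even, ← smul_neg, sub_zero, neg_sub]
    simp only [ContinuousLinearMap.mul_apply', e]
    by_cases hz : z ∈ closedBall x r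
    · rw [indicator_of_mem (hsub' hz)]
    · simp only [image_eq_zero_of_notMem_tsupport (mean_out h.tk.2.2 hr le_rfl hz), mul_zero]
  refine ⟨fun x hx => ?_, fun x hx => ?_⟩
  · obtain ⟨r, g, hr, -, hg, e⟩ := key x hx
    exact (hg.contDiffAt.congr_of_eventuallyEq
      (eventually_of_mem (ball_mem_nhds x hr) e)).contDiffWithinAt
  obtain ⟨r, g, hr, hsub, hg, e⟩ := key x hx
  have he : u =ᶠ[𝓝 x] g := eventually_of_mem (ball_mem_nhds x hr) e
  have h1 : lap u x = lap g x := Finset.sum_congr rfl fun i _ => by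
    have h2 : pd i u =ᶠ[𝓝 x] pd i g := (he.fderiv (𝕜 := ℝ)).mono fun y hy => by
      unfold pd; rw [hy]
    change fderiv ℝ (pd i u) x _ = fderiv ℝ (pd i g) x _
    rw [h2.fderiv_eq]
  have hL : Continuous (lap g) := (mean_lap_smooth hg).continuous
  have h3 := isOpen_ball.ae_eq_zero_of_integral_contDiff_smul_eq_zero (U := ball x r)
    (μ := volume) (hL.locallyIntegrable.locallyIntegrableOn _) fun ψ h4 h5 h6 => by
      simp only [smul_eq_mul]
      rw [mean_green h4 hg h5, ← hw ψ ⟨h4, h5, h6.trans hsub⟩]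
      refine integral_congr_ae (Eventually.of_forall fun z => ?_)
      by_cases hz : z ∈ ball x r
      · simp only [e z hz]
      · simp only [mean_lap_zero fun hc => hz (h6 hc), mul_zero]
  rw [h1]
  exact Measure.eqOn_open_of_ae_eq (g := fun _ => (0 : ℝ))
    ((ae_restrict_iff' measurableSet_ball).2 h3) isOpen_ball hL.continuousOn continuousOn_const
    (mem_ball_self hr)

end Vale.Agent.P098
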