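import Vale.Agent.P098.Iface

open MeasureTheory Set Metric Filter
open scoped ContDiff RealInnerProductSpace Topology NNReal

noncomputable section
namespace Vale.Agent.P098

variable {n : ℕ}

theorem nondeg_grad_apply (f : E n → ℝ) (x : E n) (i : Fin n) : gradient f x i = pd i f x := by
  have h : ⟪gradient f x, EuclideanSpace.single i (1 : ℝ)⟫ = pd i f x := by
    unfold gradient pd
    rw [InnerProductSpace.toDual_symm_apply]
  rw [← h, EuclideanSpace.inner_single_right]
  simp

theorem nondeg_inner_grad (f g : E n → ℝ) (x : E n) :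
    ⟪gradient f x, gradient g x⟫ = ∑ i, pd i f x * pd i g x := by
  rw [PiLp.inner_apply]
  refine Finset.sum_congr rfl fun i _ => ?_
  rw [nondeg_grad_apply, nondeg_grad_apply]
  simp [mul_comm]

theorem nondeg_norm_sq (x : E n) : ‖x‖ ^ 2 = ∑ i, x i ^ 2 := by
  rw [EuclideanSpace.norm_sq_eq]
  simp

theorem nondeg_coord (i : Fin n) (x : E n) :
    HasFDerivAt (fun y : E n => y i) (EuclideanSpace.proj i : E n →L[ℝ] ℝ) x :=
  (EuclideanSpace.proj i : E n →L[ℝ] ℝ).hasFDerivAt

theorem nondeg_inner_fd (e x : E n) :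
    HasFDerivAt (fun y : E n => ⟪y, e⟫) (innerSL ℝ e) x := by
  have : (fun y : E n => ⟪y, e⟫) = fun y => innerSL ℝ e y := by
    funext y; simp [real_inner_comm]
  rw [this]
  exact (innerSL ℝ e).hasFDerivAt

theorem nondeg_nsq_fd (x : E n) :
    HasFDerivAt (fun y : E n => ‖y‖ ^ 2) ((2 : ℝ) • innerSL ℝ x) x := by
  have h := (hasStrictFDerivAt_norm_sq x).hasFDerivAt
  refine h.congr_fderiv ?_
  ext y
  simp

/-- Radial functions. -/
theorem nondeg_radial (F F1 F2 : ℝ → ℝ) (h1 : ∀ s, HasDerivAt F (F1 s) s)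
    (h2 : ∀ s, HasDerivAt F1 (F2 s) s) (x : E n) :
    lap (fun y : E n => F (‖y‖ ^ 2)) x = 4 * F2 (‖x‖ ^ 2) * ‖x‖ ^ 2 + 2 * n * F1 (‖x‖ ^ 2) ∧
    ‖gradient (fun y : E n => F (‖y‖ ^ 2)) x‖ ^ 2 = 4 * F1 (‖x‖ ^ 2) ^ 2 * ‖x‖ ^ 2 := by
  have hp : ∀ i, pd i (fun y : E n => F (‖y‖ ^ 2)) = fun y => 2 * (F1 (‖y‖ ^ 2) * y i) := by
    intro i
    funext y
    have := ((h1 (‖y‖ ^ 2)).comp_hasFDerivAt y (nondeg_nsq_fd y)).fderiv
    unfold pd
    rw [show (fun y : E n => F (‖y‖ ^ 2)) = F ∘ fun y : E n => ‖y‖ ^ 2 from rfl, this]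
    simp [EuclideanSpace.inner_single_right]
    ring
  constructor
  · unfold lap
    have hq : ∀ i, pd i (pd i (fun y : E n => F (‖y‖ ^ 2))) x =
        4 * F2 (‖x‖ ^ 2) * x i ^ 2 + 2 * F1 (‖x‖ ^ 2) := by
      intro i
      rw [hp]
      have := ((((h2 (‖x‖ ^ 2)).comp_hasFDerivAt x (nondeg_nsq_fd x)).mul
        (nondeg_coord i x)).const_mul 2).fderiv
      unfold pd
      rw [show (fun y : E n => 2 * (F1 (‖y‖ ^ 2) * y i)) = fun y : E n =>
        2 * (((F1 ∘ fun y : E n => ‖y‖ ^ 2) * fun y : E n => y i) y) from rfl, this]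
      simp [EuclideanSpace.inner_single_right]
      ring
    simp only [hq]
    rw [Finset.sum_add_distrib, ← Finset.mul_sum, ← nondeg_norm_sq]
    simp
    ring
  · rw [nondeg_norm_sq]
    simp only [nondeg_grad_apply, hp]
    rw [nondeg_norm_sq x, Finset.mul_sum]
    refine Finset.sum_congr rfl fun i _ => ?_
    ring

theorem nondeg_unit (h_ca : S_ca) (n : ℕ) : ∃ c : ℝ, 0 < c ∧ ∀ u : E n → ℝ, LMin u →
    (∀ x ∈ closedBall (0 : E n) 1, u x ≤ c) → ∀ x ∈ ball (0 : E n) (1 / 2), u x = 0 := by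
  set g : ℝ := 4 * n + 1 with hg
  have hn : (0 : ℝ) ≤ n := Nat.cast_nonneg n
  have g0 : 0 < g := by positivity
  set a : ℝ := 1 / (4 * g) with ha
  have a0 : 0 < a := by positivity
  have hag : a * g = 1 / 4 := by rw [ha]; field_simp
  have hexp : Real.exp (-g) < Real.exp (-g / 4) := Real.exp_lt_exp.2 (by linarith)
  set F : ℝ → ℝ := fun s => a * (Real.exp (-g / 4) - Real.exp (-g * s)) with hF
  set F1 : ℝ → ℝ := fun s => a * g * Real.exp (-g * s) with hF1
  set F2 : ℝ → ℝ := fun s => -(a * g * g * Real.exp (-g * s)) with hF2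
  have hE : ∀ s, HasDerivAt (fun s => Real.exp (-g * s)) (Real.exp (-g * s) * (-g)) s := by
    intro s
    have := ((hasDerivAt_id s).const_mul (-g)).exp
    simpa using this
  have h1 : ∀ s, HasDerivAt F (F1 s) s := by
    intro s
    have := ((hE s).const_sub (Real.exp (-g / 4))).const_mul a
    refine this.congr_deriv ?_
    simp only [hF1]; ring
  have h2 : ∀ s, HasDerivAt F1 (F2 s) s := by
    intro s
    have := (hE s).const_mul (a * g)
    refine this.congr_deriv ?_
    simp only [hF2]; ring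
  refine ⟨min (1 / (2 * (n + 1))) (a * (Real.exp (-g / 4) - Real.exp (-g))),
    lt_min (by positivity) (mul_pos a0 (by linarith)), fun u hu hb => ?_⟩
  have hsm : ContDiff ℝ 2 (fun y : E n => F (‖y‖ ^ 2)) := by
    have hN : ContDiff ℝ 2 (fun y : E n => ‖y‖ ^ 2) := contDiff_norm_sq ℝ
    exact contDiff_const.mul (contDiff_const.sub ((contDiff_const.mul hN).exp))
  have key := h_ca n u (fun y : E n => F (‖y‖ ^ 2)) 0 1 hu hsm ?_ ?_ ?_
  · intro x hx
    have hx1 : ‖x‖ < 1 / 2 := by simpa using hx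
    have hx2 : x ∈ ball (0 : E n) 1 := by simp only [mem_ball, dist_zero_right]; linarith
    have h := key x hx2
    have hs : ‖x‖ ^ 2 ≤ 1 / 4 := by nlinarith [norm_nonneg x]
    have hF0 : F (‖x‖ ^ 2) ≤ 0 := by
      have : Real.exp (-g / 4) ≤ Real.exp (-g * ‖x‖ ^ 2) := Real.exp_le_exp.2 (by nlinarith)
      simp only [hF]
      nlinarith
    rw [max_eq_right hF0] at h
    exact le_antisymm h (hu.nonneg x)
  · intro x hx
    have hx1 : ‖x‖ = 1 := by simpa using hx
    refine (hb x (sphere_subset_closedBall hx)).trans ((min_le_right _ _).trans ?_)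
    refine le_trans (le_of_eq ?_) (le_max_left _ _)
    simp [hF, hx1]
  · intro x _ hpos _
    rw [(nondeg_radial F F1 F2 h1 h2 x).1]
    have hs : 1 / 4 < ‖x‖ ^ 2 := by
      by_contra hc
      push Not at hc
      have : Real.exp (-g / 4) ≤ Real.exp (-g * ‖x‖ ^ 2) := Real.exp_le_exp.2 (by nlinarith)
      simp only [hF] at hpos
      nlinarith
    have he := Real.exp_pos (-g * ‖x‖ ^ 2)
    simp only [hF1, hF2, hag]
    have : 2 * (n : ℝ) < 4 * g * ‖x‖ ^ 2 := by nlinarith
    nlinarith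
  · intro x hx _ hpos
    rw [(nondeg_radial F F1 F2 h1 h2 x).1, (nondeg_radial F F1 F2 h1 h2 x).2]
    have hx1 : ‖x‖ < 1 := by simpa using hx
    have hs : ‖x‖ ^ 2 ≤ 1 := by nlinarith [norm_nonneg x]
    have hs0 : 0 ≤ ‖x‖ ^ 2 := by positivity
    have he := Real.exp_pos (-g * ‖x‖ ^ 2)
    have he1 : Real.exp (-g * ‖x‖ ^ 2) ≤ 1 := Real.exp_le_one_iff.2 (by nlinarith)
    have hc : u x ≤ 1 / (2 * (n + 1)) := (hb x (ball_subset_closedBall hx)).trans (min_le_left _ _)
    have hc2 : u x * n ≤ 1 / 2 := by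
      have : u x * (2 * (n + 1)) ≤ 1 := by
        rwa [le_div_iff₀ (by positivity)] at hc
      nlinarith
    simp only [hF1, hF2, hag]
    set e := Real.exp (-g * ‖x‖ ^ 2)
    set s := ‖x‖ ^ 2
    have t1 : 4 * (1 / 4 * e) ^ 2 * s ≤ 1 / 4 := by
      have : e ^ 2 * s ≤ 1 := by
        have : e ^ 2 ≤ 1 := by nlinarith
        nlinarith
      nlinarith
    have t2 : 0 ≤ u x * (g * e * s) := by positivity
    have t3 : u x * n * e ≤ 1 / 2 := by
      have : 0 ≤ u x * n := by positivity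
      nlinarith
    nlinarith

theorem nondeg (h_ca : S_ca) (h_inv_min : S_inv) : S_nondeg := by
  intro n
  obtain ⟨c, hc, h⟩ := nondeg_unit h_ca n
  refine ⟨c, hc, fun u x₀ r hu hr hb y hy => ?_⟩
  have hw := (h_inv_min n u hu).1 x₀ r hr
  have h1 := h _ hw ?_ (r⁻¹ • (y - x₀)) ?_
  · have : x₀ + r • r⁻¹ • (y - x₀) = y := by
      rw [smul_smul, mul_inv_cancel₀ hr.ne', one_smul]; abel
    simp only [resc, this] at h1
    exact (div_eq_zero_iff.1 h1).resolve_right hr.ne'
  · intro x hx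
    have hx1 : ‖x‖ ≤ 1 := by simpa using hx
    simp only [resc]
    rw [div_le_iff₀ hr]
    apply hb
    simp only [mem_closedBall, dist_self_add_left, norm_smul, Real.norm_eq_abs, abs_of_pos hr]
    nlinarith
  · have hy1 : ‖y - x₀‖ < r / 2 := by simpa [dist_eq_norm] using hy
    simp only [mem_ball, dist_zero_right, norm_smul, Real.norm_eq_abs, abs_inv, abs_of_pos hr]
    rw [inv_mul_lt_iff₀ hr]
    linarith

/-- Quadratic barriers. -/
theorem nondeg_quad (e : E n) (he : ‖e‖ = 1) (b d k m : ℝ) :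
    ContDiff ℝ 2 (fun y : E n => b * ⟪y, e⟫ + d + k * ‖y‖ ^ 2 + m * ⟪y, e⟫ ^ 2) ∧
    (∀ x, lap (fun y : E n => b * ⟪y, e⟫ + d + k * ‖y‖ ^ 2 + m * ⟪y, e⟫ ^ 2) x =
      2 * k * n + 2 * m) ∧
    ∀ x, gradient (fun y : E n => b * ⟪y, e⟫ + d + k * ‖y‖ ^ 2 + m * ⟪y, e⟫ ^ 2) x =
      b • e + (2 * k) • x + (2 * m * ⟪x, e⟫) • e := by
  have hp : ∀ i, pd i (fun y : E n => b * ⟪y, e⟫ + d + k * ‖y‖ ^ 2 + m * ⟪y, e⟫ ^ 2) =
      fun y => b * e i + (2 * k) * y i + (2 * m * e i) * ⟪y, e⟫ := by
    intro i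
    funext y
    have := (((((nondeg_inner_fd e y).const_mul b).add_const d).add
      ((nondeg_nsq_fd y).const_mul k)).add (((nondeg_inner_fd e y).pow 2).const_mul m)).fderiv
    unfold pd
    rw [show (fun y : E n => b * ⟪y, e⟫ + d + k * ‖y‖ ^ 2 + m * ⟪y, e⟫ ^ 2) =
      (((fun y : E n => b * ⟪y, e⟫ + d) + fun y : E n => k * ‖y‖ ^ 2) +
        fun y : E n => m * ⟪y, e⟫ ^ 2) from rfl, this]
    simp [EuclideanSpace.inner_single_right]
    ring
  refine ⟨?_, fun x => ?_, fun x => ?_⟩
  · have hN : ContDiff ℝ 2 (fun y : E n => ‖y‖ ^ 2) := contDiff_norm_sq ℝ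
    have hI : ContDiff ℝ 2 (fun y : E n => ⟪y, e⟫) := contDiff_id.inner ℝ contDiff_const
    exact (((contDiff_const.mul hI).add contDiff_const).add (contDiff_const.mul hN)).add
      (contDiff_const.mul (hI.pow 2))
  · unfold lap
    have hq : ∀ i, pd i (pd i (fun y : E n => b * ⟪y, e⟫ + d + k * ‖y‖ ^ 2 + m * ⟪y, e⟫ ^ 2)) x =
        2 * k + 2 * m * e i ^ 2 := by
      intro i
      rw [hp]
      have := ((((nondeg_coord i x).const_mul (2 * k)).const_add (b * e i)).add
        ((nondeg_inner_fd e x).const_mul (2 * m * e i))).fderiv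
      unfold pd
      rw [show (fun y : E n => b * e i + (2 * k) * y i + (2 * m * e i) * ⟪y, e⟫) =
        ((fun y : E n => b * e i + (2 * k) * y i) + fun y : E n => (2 * m * e i) * ⟪y, e⟫)
        from rfl, this]
      simp [EuclideanSpace.inner_single_right]
      ring
    simp only [hq]
    rw [Finset.sum_add_distrib, ← Finset.mul_sum _ _ (2 * m), ← nondeg_norm_sq, he]
    simp
    ring
  · ext i
    rw [nondeg_grad_apply, hp]
    simp
    ring

theorem nondeg_quad_norm (e x : E n) (he : ‖e‖ = 1) (hx : ‖x‖ ≤ 1) (k m : ℝ) :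
    ‖(2 * k) • x + (2 * m * ⟪x, e⟫) • e‖ ≤ 2 * |k| + 2 * |m| := by
  have ht : |⟪x, e⟫| ≤ 1 := by
    have := abs_real_inner_le_norm x e
    rw [he] at this
    linarith
  refine (norm_add_le _ _).trans (add_le_add ?_ ?_)
  · rw [norm_smul, Real.norm_eq_abs, abs_mul, abs_two]
    nlinarith [abs_nonneg k]
  · rw [norm_smul, he, Real.norm_eq_abs, abs_mul, abs_mul, abs_two]
    nlinarith [abs_nonneg m]

theorem slope (h_cb : S_cb) (h_ca : S_ca) : S_slope := by
  intro n e a he ha hu
  have hn : (0 : ℝ) ≤ n := Nat.cast_nonneg n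
  have hin : ∀ x : E n, ‖x‖ ≤ 1 → -1 ≤ ⟪x, e⟫ ∧ ⟪x, e⟫ ≤ 1 := by
    intro x hx
    have := abs_real_inner_le_norm x e
    rw [he] at this
    exact abs_le.1 (by linarith)
  rcases lt_trichotomy a 1 with h | h | h
  · exfalso
    set c : ℝ := (1 - a) / (4 * (n + 2)) with hc
    have c0 : 0 < c := div_pos (by linarith) (by positivity)
    have hc2 : c * (n + 2) = (1 - a) / 4 := by rw [hc]; field_simp
    obtain ⟨q1, q2, q3⟩ := nondeg_quad e he ((1 + a) / 2) (-c) c (-(c * (n + 1)))
    have key := h_ca n _ _ 0 1 hu q1 ?_ ?_ ?_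
    · have c1 : c < 1 := by nlinarith
      have hm : c • e ∈ ball (0 : E n) 1 := by
        simp [norm_smul, he, abs_of_pos c0, c1]
      have h3 := key _ hm
      have hi : ⟪c • e, e⟫ = c := by
        rw [real_inner_smul_left, real_inner_self_eq_norm_sq, he]; ring
      have hnn : ‖c • e‖ = c := by simp [norm_smul, he, abs_of_pos c0]
      simp only [hi, hnn] at h3
      rw [max_eq_left c0.le, max_eq_right] at h3
      · nlinarith
      · have : 0 ≤ c * n * c ^ 2 := by positivity
        nlinarith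
    · intro x hx
      have hx1 : ‖x‖ = 1 := by simpa using hx
      obtain ⟨t1, t2⟩ := hin x hx1.le
      rcases le_total ⟪x, e⟫ 0 with t0 | t0
      · rw [max_eq_right t0, mul_zero]
        exact le_max_right _ _
      · rw [max_eq_left t0]
        refine le_trans ?_ (le_max_left _ _)
        rw [hx1]
        set t := ⟪x, e⟫
        have : t ^ 2 ≤ t := by nlinarith
        have h5 : c * (n + 1) * t ^ 2 ≤ c * (n + 1) * t := by gcongr
        have h6 : c * (n + 1) * t ≤ (1 - a) / 4 * t := by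
          apply mul_le_mul_of_nonneg_right _ t0
          nlinarith
        nlinarith
    · intro x _ _ _
      rw [q2]
      nlinarith
    · intro x hx _ hpos
      have hx1 : ‖x‖ ≤ 1 := by simpa using (ball_subset_closedBall hx)
      rw [q2, q3]
      have h4 := nondeg_quad_norm e x he hx1 c (-(c * (n + 1)))
      rw [abs_neg, abs_of_pos c0, abs_of_pos (by positivity)] at h4
      have h5 : ‖((1 + a) / 2) • e + (2 * c) • x + (2 * -(c * (n + 1)) * ⟪x, e⟫) • e‖ ≤ 1 := by
        rw [add_assoc]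
        refine (norm_add_le _ _).trans ?_
        rw [norm_smul, he, Real.norm_eq_abs, abs_of_pos (by positivity)]
        nlinarith
      have h6 := pow_le_one₀ (n := 2) (norm_nonneg _) h5
      have h7 : 0 < a * max ⟪x, e⟫ 0 * c := mul_pos hpos c0
      nlinarith
  · exact h
  · exfalso
    set c : ℝ := (a - 1) / (4 * (n + 2)) with hc
    have c0 : 0 < c := div_pos (by linarith) (by positivity)
    have hc2 : c * (n + 2) = (a - 1) / 4 := by rw [hc]; field_simp
    obtain ⟨q1, q2, q3⟩ := nondeg_quad e he ((1 + a) / 2) c (-c) (c * (n + 1))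
    have key := h_cb n _ _ 0 1 hu q1 ?_ ?_ ?_
    · have h3 := key 0 (mem_ball_self one_pos)
      simp at h3
      linarith
    · intro x hx
      have hx1 : ‖x‖ = 1 := by simpa using hx
      obtain ⟨t1, t2⟩ := hin x hx1.le
      rw [hx1]
      set t := ⟪x, e⟫
      have h6 : c * (n + 1) ≤ (a - 1) / 4 := by nlinarith
      have h7 : 0 ≤ c * (n + 1) := by positivity
      rcases le_total t 0 with t0 | t0
      · rw [max_eq_right t0, mul_zero]
        have : t ^ 2 ≤ -t := by nlinarith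
        have h5 : c * (n + 1) * t ^ 2 ≤ c * (n + 1) * (-t) := by gcongr
        have h8 : c * (n + 1) * (-t) ≤ (a - 1) / 4 * (-t) :=
          mul_le_mul_of_nonneg_right h6 (by linarith)
        nlinarith
      · rw [max_eq_left t0]
        have : t ^ 2 ≤ t := by nlinarith
        have h5 : c * (n + 1) * t ^ 2 ≤ c * (n + 1) * t := by gcongr
        have h8 : c * (n + 1) * t ≤ (a - 1) / 4 * t := mul_le_mul_of_nonneg_right h6 t0
        nlinarith
    · intro x _ _
      rw [q2]
      nlinarith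
    · intro x hx _ _
      have hx1 : ‖x‖ ≤ 1 := by simpa using (ball_subset_closedBall hx)
      rw [q3]
      have h4 := nondeg_quad_norm e x he hx1 (-c) (c * (n + 1))
      rw [abs_neg, abs_of_pos c0, abs_of_pos (by positivity)] at h4
      have h5 := norm_sub_norm_le (((1 + a) / 2) • e)
        (-((2 * -c) • x + (2 * (c * (n + 1)) * ⟪x, e⟫) • e))
      rw [norm_neg, sub_neg_eq_add, norm_smul, he, Real.norm_eq_abs,
        abs_of_pos (by positivity)] at h5
      rw [add_assoc]
      nlinarith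

theorem nondeg_pd_bound {u : E n → ℝ} {L : ℝ≥0} (hL : LipschitzWith L u) (i : Fin n) (x : E n) :
    ‖pd i u x‖ ≤ L := by
  unfold pd
  refine ((fderiv ℝ u x).le_opNorm _).trans ?_
  rw [PiLp.norm_single, norm_one, mul_one]
  exact norm_fderiv_le_of_lipschitz ℝ hL

theorem nondeg_pd_meas (u : E n → ℝ) (i : Fin n) : Measurable (pd i u) :=
  measurable_fderiv_apply_const ℝ u _

theorem nondeg_pd_smooth {ψ : E n → ℝ} (h : ContDiff ℝ ∞ ψ) (i : Fin n) :
    ContDiff ℝ ∞ (pd i ψ) :=
  (h.fderiv_right (m := ∞) (by simp)).clm_apply contDiff_const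

theorem nondeg_pd_supp {ψ : E n → ℝ} (h : HasCompactSupport ψ) (i : Fin n) :
    HasCompactSupport (pd i ψ) :=
  h.fderiv_apply ℝ _

theorem nondeg_int_pd {u ψ : E n → ℝ} (hu : Lip u) (h1 : ContDiff ℝ ∞ ψ)
    (h2 : HasCompactSupport ψ) (i : Fin n) : Integrable (fun x => pd i u x * pd i ψ x) := by
  obtain ⟨L, hL⟩ := hu
  have hi : Integrable (pd i ψ) :=
    (nondeg_pd_smooth h1 i).continuous.integrable_of_hasCompactSupport (nondeg_pd_supp h2 i)
  exact hi.bdd_mul (nondeg_pd_meas u i).aestronglyMeasurable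
    (Eventually.of_forall (nondeg_pd_bound hL i))

theorem nondeg_weak {u ψ : E n → ℝ} (hu : Lip u) (h1 : ContDiff ℝ ∞ ψ)
    (h2 : HasCompactSupport ψ) :
    ∫ x, u x * lap ψ x = -∫ x, ⟪gradient u x, gradient ψ x⟫ := by
  have hint := nondeg_int_pd hu h1 h2
  obtain ⟨L, hL⟩ := hu
  simp only [nondeg_inner_grad, lap, Finset.mul_sum]
  rw [integral_finsetSum _ (fun i _ => hint i), integral_finsetSum, ← Finset.sum_neg_distrib]
  · refine Finset.sum_congr rfl fun i _ => ?_
    have s1 := nondeg_pd_smooth h1 i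
    obtain ⟨D, hD⟩ := s1.lipschitzWith_of_hasCompactSupport (nondeg_pd_supp h2 i) (by simp)
    have key := hL.integral_lineDeriv_mul_eq (μ := volume) hD (nondeg_pd_supp h2 i)
      (EuclideanSpace.single i (1 : ℝ))
    have e1 : ∫ x, lineDeriv ℝ u x (EuclideanSpace.single i (1 : ℝ)) * pd i ψ x =
        ∫ x, pd i u x * pd i ψ x := by
      refine integral_congr_ae ?_
      filter_upwards [hL.ae_differentiableAt (μ := volume)] with x hx
      rw [hx.lineDeriv_eq_fderiv]
      rfl
    have e2 : ∫ x, lineDeriv ℝ (pd i ψ) x (-EuclideanSpace.single i (1 : ℝ)) * u x =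
        -∫ x, u x * pd i (pd i ψ) x := by
      rw [← integral_neg]
      refine integral_congr_ae (Eventually.of_forall fun x => ?_)
      have hx : DifferentiableAt ℝ (pd i ψ) x := (s1.differentiable (by simp)) x
      simp only
      rw [hx.lineDeriv_eq_fderiv, map_neg]
      unfold pd
      ring
    rw [← e1, key, e2, neg_neg]
  · intro i _
    have s2 := nondeg_pd_smooth (nondeg_pd_smooth h1 i) i
    exact (hL.continuous.mul s2.continuous).integrable_of_hasCompactSupport
      (nondeg_pd_supp (nondeg_pd_supp h2 i) i).mul_left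

theorem nondeg_grad_int {u : E n → ℝ} (hu : Lip u) (R : ℝ) :
    IntegrableOn (fun x => ‖gradient u x‖ ^ 2) (ball (0 : E n) R) := by
  obtain ⟨L, hL⟩ := hu
  have e : (fun x => ‖gradient u x‖ ^ 2) = fun x => ‖fderiv ℝ u x‖ ^ 2 := by
    funext x
    simp [gradient]
  rw [e]
  refine Measure.integrableOn_of_bounded (M := (L : ℝ) ^ 2) measure_ball_lt_top.ne
    ((measurable_fderiv ℝ u).norm.pow_const 2).aestronglyMeasurable
    (Eventually.of_forall fun x => ?_)
  rw [Real.norm_eq_abs, abs_of_nonneg (by positivity)]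
  exact pow_le_pow_left₀ (norm_nonneg _) (norm_fderiv_le_of_lipschitz ℝ hL) 2

theorem nondeg_quad_zero (B C : ℝ) (h : ∀ t : ℝ, 0 ≤ 2 * t * B + t ^ 2 * C) : B = 0 := by
  by_contra hB
  have hp : 0 < |C| + 1 := by positivity
  have h1 := h (-B / (|C| + 1))
  have h2 : 2 * (-B / (|C| + 1)) * B + (-B / (|C| + 1)) ^ 2 * C =
      B ^ 2 * (C - 2 * (|C| + 1)) / (|C| + 1) ^ 2 := by
    field_simp
    ring
  rw [h2] at h1
  have h3 : B ^ 2 * (C - 2 * (|C| + 1)) / (|C| + 1) ^ 2 < 0 := by
    apply div_neg_of_neg_of_pos _ (by positivity)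
    apply mul_neg_of_pos_of_neg (by positivity)
    have := le_abs_self C
    have := abs_nonneg C
    linarith
  linarith

theorem nondeg_orth (h_aeq : S_aeq) {u ψ : E n → ℝ} {x₀ : E n} {r : ℝ} (hu : LMin u)
    (hz : volume (ball x₀ r ∩ {x | u x = 0}) = 0) (hψ : IsTest (ball x₀ r) ψ) :
    ∫ x, ⟪gradient u x, gradient ψ x⟫ = 0 := by
  obtain ⟨h1, h2, h3⟩ := hψ
  obtain ⟨D, hD⟩ := h1.lipschitzWith_of_hasCompactSupport h2 (by simp)
  obtain ⟨L, hL⟩ := hu.lip
  set R := ‖x₀‖ + r with hR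
  have hsub : ball x₀ r ⊆ ball 0 R := by
    intro x hx
    simp only [mem_ball, dist_zero_right]
    have : ‖x‖ ≤ ‖x₀‖ + ‖x - x₀‖ := by simpa using norm_add_le x₀ (x - x₀)
    have h4 : ‖x - x₀‖ < r := by simpa [dist_eq_norm] using hx
    linarith
  have hout : ∀ x, x ∉ ball x₀ r → ψ x = 0 := fun x hx =>
    image_eq_zero_of_notMem_tsupport fun h => hx (h3 h)
  have hres : ∫ x in ball (0 : E n) R, ⟪gradient u x, gradient ψ x⟫ =
      ∫ x, ⟪gradient u x, gradient ψ x⟫ := by
    refine setIntegral_eq_integral_of_forall_compl_eq_zero fun x hx => ?_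
    have : gradient ψ x = 0 := by
      have h5 : x ∉ tsupport ψ := fun h => hx (hsub (h3 h))
      have h6 : ψ =ᶠ[𝓝 x] fun _ => 0 := notMem_tsupport_iff_eventuallyEq.1 h5
      rw [h6.gradient_eq]
      simp
    rw [this, inner_zero_right]
  rw [← hres]
  have iu := nondeg_grad_int hu.lip R
  have ip := nondeg_grad_int ⟨D, hD⟩ R
  have iup : IntegrableOn (fun x => ⟪gradient u x, gradient ψ x⟫) (ball (0 : E n) R) := by
    simp only [nondeg_inner_grad]
    exact (integrable_finsetSum _ fun i _ => nondeg_int_pd hu.lip h1 h2 i).integrableOn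
  refine nondeg_quad_zero _ (∫ x in ball (0 : E n) R, ‖gradient ψ x‖ ^ 2) fun t => ?_
  have lw : LipschitzWith (L + ‖t‖₊ * D) (fun x => u x + t * ψ x) :=
    hL.add ((lipschitzWith_smul t).comp hD)
  have lv : Lip (fun x => max (u x + t * ψ x) 0) := ⟨_, lw.max_const 0⟩
  have hmin := hu.min R _ lv (fun x => le_max_right _ _) (fun x hx => by
    have : x ∉ ball x₀ r := fun h => by
      have := hsub h
      simp only [mem_ball, dist_zero_right] at this
      linarith
    simp only [hout x this, mul_zero, add_zero]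
    exact max_eq_left (hu.nonneg x))
  unfold en energy at hmin
  have hvol : (volume (ball (0 : E n) R ∩ {x | 0 < max (u x + t * ψ x) 0})).toReal ≤
      (volume (ball (0 : E n) R ∩ {x | 0 < u x})).toReal := by
    refine ENNReal.toReal_mono
      ((measure_mono inter_subset_left).trans_lt measure_ball_lt_top).ne ?_
    have : ball (0 : E n) R ∩ {x | 0 < max (u x + t * ψ x) 0} ⊆
        (ball (0 : E n) R ∩ {x | 0 < u x}) ∪ (ball x₀ r ∩ {x | u x = 0}) := by
      rintro x ⟨hx1, hx2⟩
      rcases (hu.nonneg x).lt_or_eq with h | h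
      · exact Or.inl ⟨hx1, h⟩
      · refine Or.inr ⟨?_, h.symm⟩
        by_contra hc
        simp only [mem_ofPred_eq, hout x hc, ← h] at hx2
        simp at hx2
    refine (measure_mono this).trans ((measure_union_le _ _).trans ?_)
    rw [hz, add_zero]
  have hgr : ∫ x in ball (0 : E n) R, ‖gradient (fun x => max (u x + t * ψ x) 0) x‖ ^ 2 ≤
      ∫ x in ball (0 : E n) R, (‖gradient u x‖ ^ 2 + 2 * t * ⟪gradient u x, gradient ψ x⟫ +
        t ^ 2 * ‖gradient ψ x‖ ^ 2) := by
    refine integral_mono_ae (nondeg_grad_int lv R)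
      ((iu.add (iup.const_mul _)).add (ip.const_mul _)) (ae_restrict_of_ae ?_)
    filter_upwards [hL.ae_differentiableAt (μ := volume), h_aeq n _ lv] with x hx1 hx2
    have e : ‖gradient u x‖ ^ 2 + 2 * t * ⟪gradient u x, gradient ψ x⟫ +
        t ^ 2 * ‖gradient ψ x‖ ^ 2 = ‖gradient u x + t • gradient ψ x‖ ^ 2 := by
      rw [norm_add_sq_real, inner_smul_right, norm_smul, mul_pow, Real.norm_eq_abs, sq_abs]
      ring
    rw [e]
    rcases (le_max_right (u x + t * ψ x) 0).lt_or_eq with h | h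
    · have hp : 0 < u x + t * ψ x := by
        rcases lt_max_iff.1 h with h | h
        · exact h
        · exact absurd h (lt_irrefl _)
      have hev : (fun x => max (u x + t * ψ x) 0) =ᶠ[𝓝 x] fun x => u x + t * ψ x := by
        filter_upwards [lw.continuous.continuousAt.eventually (lt_mem_nhds hp)] with y hy
        exact max_eq_left hy.le
      have hψx : DifferentiableAt ℝ ψ x := (h1.differentiable (by simp)) x
      have hg : gradient (fun x => u x + t * ψ x) x = gradient u x + t • gradient ψ x := by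
        have := (hx1.hasFDerivAt.add (hψx.hasFDerivAt.const_mul t)).fderiv
        unfold gradient
        rw [show (fun x => u x + t * ψ x) = u + fun x => t * ψ x from rfl, this]
        simp
      rw [hev.gradient_eq, hg]
    · have := hx2 h.symm
      have h7 : gradient (fun x => max (u x + t * ψ x) 0) x = 0 := by
        unfold gradient
        rw [this, map_zero]
      rw [h7, norm_zero]
      simp
  have ia : IntegrableOn (fun x => ‖gradient u x‖ ^ 2 + 2 * t * ⟪gradient u x, gradient ψ x⟫)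
      (ball (0 : E n) R) := iu.add (iup.const_mul _)
  rw [integral_add ia (ip.const_mul _), integral_add iu (iup.const_mul _),
    integral_const_mul, integral_const_mul] at hgr
  beta_reduce at hmin
  linarith

theorem zero_set (h_ibp : S_ibp) (h_aeq : S_aeq) (h_weyl : S_weyl) (h_harnack : S_harnack) :
    S_zero := by
  intro n u x₀ r hu hx hr hz
  have _ := h_ibp
  obtain ⟨L, hL⟩ := hu.lip
  have hw : Weak (ball x₀ r) u := fun ψ hψ => by
    rw [nondeg_weak hu.lip hψ.1 hψ.2.1, nondeg_orth h_aeq hu hz hψ, neg_zero]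
  have hh := h_weyl n _ u isOpen_ball hL.continuous.continuousOn hw
  obtain ⟨c, hc, hH⟩ := h_harnack n
  have h1 := hH _ u x₀ (r / 2) isOpen_ball hh (by positivity)
    (closedBall_subset_ball (by linarith)) (fun y _ => hu.nonneg y)
  have hsub : ball x₀ (r / 2 / 10) ⊆ ball x₀ r ∩ {x | u x = 0} := by
    intro y hy
    refine ⟨ball_subset_ball (by linarith) hy, ?_⟩
    have h2 := (h1 y (ball_subset_closedBall hy)).2
    rw [hx.1] at h2
    have h3 := hu.nonneg y
    exact le_antisymm (by by_contra h4; push Not at h4; nlinarith) h3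
  exact (measure_ball_pos volume x₀ (by positivity)).ne' (measure_mono_null hsub hz)

end Vale.Agent.P098
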