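import Vale.Agent.P098.Iface

open MeasureTheory Set Metric Filter
open scoped ContDiff RealInnerProductSpace Topology NNReal

noncomputable section
namespace Vale.Agent.P098

variable {n : ℕ}

theorem orth_norm (f : E n → ℝ) (x : E n) : ‖gradient f x‖ = ‖fderiv ℝ f x‖ := by
  unfold gradient
  exact LinearIsometryEquiv.norm_map _ _

theorem orth_meas (f : E n → ℝ) : Measurable (gradient f) := by
  unfold gradient
  exact (InnerProductSpace.toDual ℝ (E n)).symm.continuous.measurable.comp (measurable_fderiv ℝ f)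

theorem orth_bdd {f : E n → ℝ} (hf : Lip f) : ∃ C : ℝ, ∀ x, ‖gradient f x‖ ≤ C := by
  obtain ⟨L, hL⟩ := hf
  exact ⟨L, fun x => by rw [orth_norm]; exact norm_fderiv_le_of_lipschitz ℝ hL⟩

theorem orth_int {f g : E n → ℝ} (hf : Lip f) (hg : Lip g) (R : ℝ) :
    IntegrableOn (fun x => ⟪gradient f x, gradient g x⟫) (ball (0 : E n) R) := by
  obtain ⟨C, hC⟩ := orth_bdd hf
  obtain ⟨D, hD⟩ := orth_bdd hg
  refine Measure.integrableOn_of_bounded (M := C * D) measure_ball_lt_top.ne
    ((orth_meas f).inner (orth_meas g)).aestronglyMeasurable (Eventually.of_forall fun x => ?_)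
  exact (norm_inner_le_norm _ _).trans
    (mul_le_mul (hC x) (hD x) (norm_nonneg _) ((norm_nonneg _).trans (hC x)))

theorem orth_int2 {f : E n → ℝ} (hf : Lip f) (R : ℝ) :
    IntegrableOn (fun x => ‖gradient f x‖ ^ 2) (ball (0 : E n) R) := by
  simpa only [real_inner_self_eq_norm_sq] using orth_int hf hf R

theorem orth_ae {f : E n → ℝ} (hf : Lip f) : ∀ᵐ x, DifferentiableAt ℝ f x := by
  obtain ⟨L, hL⟩ := hf
  exact hL.ae_differentiableAt

theorem orth_lip {u ψ : E n → ℝ} (hu : Lip u) (hψ : Lip ψ) (t : ℝ) :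
    Lip fun x => u x + t * ψ x := by
  obtain ⟨L, hL⟩ := hu
  obtain ⟨K, hK⟩ := hψ
  exact ⟨_, hL.add ((lipschitzWith_smul t).comp hK)⟩

theorem orth_grad {u ψ : E n → ℝ} {x : E n} (hu : DifferentiableAt ℝ u x)
    (hψ : DifferentiableAt ℝ ψ x) (t : ℝ) :
    gradient (fun x => u x + t * ψ x) x = gradient u x + t • gradient ψ x := by
  unfold gradient
  rw [(hu.hasFDerivAt.fun_add (hψ.hasFDerivAt.const_mul t)).fderiv, map_add, map_smul]

theorem orth_expand {u ψ : E n → ℝ} (hu : Lip u) (hψ : Lip ψ) (t R : ℝ) :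
    ∫ x in ball (0 : E n) R, ‖gradient (fun x => u x + t * ψ x) x‖ ^ 2 =
      (∫ x in ball (0 : E n) R, ‖gradient u x‖ ^ 2) +
        2 * t * (∫ x in ball (0 : E n) R, ⟪gradient u x, gradient ψ x⟫) +
        t ^ 2 * ∫ x in ball (0 : E n) R, ‖gradient ψ x‖ ^ 2 := by
  have i1 : IntegrableOn (fun x => ‖gradient u x‖ ^ 2 + 2 * t * ⟪gradient u x, gradient ψ x⟫)
      (ball (0 : E n) R) := (orth_int2 hu R).add ((orth_int hu hψ R).const_mul _)
  rw [← integral_const_mul, ← integral_const_mul,
    ← integral_add (orth_int2 hu R) ((orth_int hu hψ R).const_mul _),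
    ← integral_add i1 ((orth_int2 hψ R).const_mul _)]
  refine integral_congr_ae (ae_restrict_of_ae ?_)
  filter_upwards [orth_ae hu, orth_ae hψ] with x h1 h2
  rw [orth_grad h1 h2, norm_add_sq_real, real_inner_smul_right, norm_smul, mul_pow,
    Real.norm_eq_abs, sq_abs]
  ring

theorem orth_pos (w : E n → ℝ) (hw : Continuous w) (x : E n) :
    ‖gradient (fun x => max (w x) 0) x‖ ≤ ‖gradient w x‖ := by
  rcases lt_or_ge 0 (w x) with h | h
  · have : (fun x => max (w x) 0) =ᶠ[𝓝 x] w := by
      filter_upwards [(isOpen_lt continuous_const hw).mem_nhds h] with y hy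
      exact max_eq_left (le_of_lt hy)
    rw [orth_norm, orth_norm, this.fderiv_eq]
  · have : IsLocalMin (fun x => max (w x) 0) x := Eventually.of_forall fun y => by
      simp only [max_eq_right h]
      exact le_max_right _ _
    rw [orth_norm, this.fderiv_eq_zero, norm_zero]
    exact norm_nonneg _

theorem orth_R {ψ : E n → ℝ} (hc : HasCompactSupport ψ) :
    ∃ R : ℝ, (∀ x, R ≤ ‖x‖ → ψ x = 0) ∧ ∀ x, x ∉ ball (0 : E n) R → gradient ψ x = 0 := by
  obtain ⟨R, hR⟩ := hc.isCompact.isBounded.subset_ball (0 : E n)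
  refine ⟨R, fun x hx => image_eq_zero_of_notMem_tsupport fun h => ?_, fun x hx => ?_⟩
  · have := mem_ball_zero_iff.1 (hR h)
    linarith
  · have : fderiv ℝ ψ x = 0 := by
      by_contra h
      exact hx (hR (support_fderiv_subset ℝ h))
    unfold gradient
    rw [this, map_zero]

theorem orth (h_aeq : S_aeq) : S_orth := by
  have _ := h_aeq
  intro n u ψ hu hψ hc h0
  obtain ⟨R, hR1, hR2⟩ := orth_R hc
  rw [← setIntegral_eq_integral_of_forall_compl_eq_zero (s := ball (0 : E n) R)
    fun x hx => by rw [hR2 x hx, inner_zero_right]]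
  have key : ∀ t : ℝ, 0 ≤ 2 * t * (∫ x in ball (0 : E n) R, ⟪gradient u x, gradient ψ x⟫) +
      t ^ 2 * ∫ x in ball (0 : E n) R, ‖gradient ψ x‖ ^ 2 := by
    intro t
    have hw := orth_lip hu.lip hψ t
    have hv : Lip fun x => max (u x + t * ψ x) 0 := by
      obtain ⟨L, hL⟩ := hw
      exact ⟨_, hL.max_const 0⟩
    have hwc : Continuous fun x => u x + t * ψ x := by
      obtain ⟨L, hL⟩ := hw
      exact hL.continuous
    have h1 := hu.min R _ hv (fun x => le_max_right _ _) fun x hx => by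
      rw [hR1 x hx, mul_zero, add_zero, max_eq_left (hu.nonneg x)]
    unfold en energy at h1
    have h2 : ∫ x in ball (0 : E n) R, ‖gradient (fun x => max (u x + t * ψ x) 0) x‖ ^ 2 ≤
        ∫ x in ball (0 : E n) R, ‖gradient (fun x => u x + t * ψ x) x‖ ^ 2 :=
      integral_mono (orth_int2 hv R) (orth_int2 hw R) fun x =>
        pow_le_pow_left₀ (norm_nonneg _) (orth_pos _ hwc x) 2
    have h3 : (volume (ball (0 : E n) R ∩ {x | 0 < max (u x + t * ψ x) 0})).toReal ≤
        (volume (ball (0 : E n) R ∩ {x | 0 < u x})).toReal := by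
      refine ENNReal.toReal_mono
        ((measure_mono inter_subset_left).trans_lt measure_ball_lt_top).ne
        (measure_mono (inter_subset_inter_right _ fun x hx => ?_))
      refine lt_of_le_of_ne (hu.nonneg x) fun h => ?_
      simp only [mem_ofPred_eq, ← h, h0 x h.symm, mul_zero, add_zero, max_self,
        lt_self_iff_false] at hx
    rw [orth_expand hu.lip hψ] at h2
    linarith
  have hJ : 0 ≤ ∫ x in ball (0 : E n) R, ‖gradient ψ x‖ ^ 2 :=
    integral_nonneg fun x => by positivity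
  generalize ∫ x in ball (0 : E n) R, ‖gradient ψ x‖ ^ 2 = J at key hJ
  generalize ∫ x in ball (0 : E n) R, ⟪gradient u x, gradient ψ x⟫ = I at key
  have h1 := key (-I / (J + 1))
  have h2 : 2 * (-I / (J + 1)) * I + (-I / (J + 1)) ^ 2 * J = -(I ^ 2 * ((J + 2) / (J + 1) ^ 2)) := by
    field_simp
    ring
  rw [h2] at h1
  have h3 : 0 < (J + 2) / (J + 1) ^ 2 := by positivity
  have h4 : I ^ 2 ≤ 0 := by
    by_contra h
    have := mul_pos (lt_of_not_ge h) h3
    linarith
  exact pow_eq_zero_iff (two_ne_zero) |>.1 (le_antisymm h4 (sq_nonneg I))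

theorem orth_comp (f : E n → ℝ) (x : E n) (i : Fin n) : gradient f x i = pd i f x := by
  unfold pd gradient
  rw [← InnerProductSpace.toDual_symm_apply, EuclideanSpace.inner_single_right]
  simp

theorem orth_inner (f g : E n → ℝ) (x : E n) :
    ⟪gradient f x, gradient g x⟫ = ∑ i, pd i f x * pd i g x := by
  rw [PiLp.inner_apply]
  refine Finset.sum_congr rfl fun i _ => ?_
  rw [orth_comp, orth_comp]
  simp [mul_comm]

theorem orth_pd {ψ : E n → ℝ} (h : ContDiff ℝ ∞ ψ) (hc : HasCompactSupport ψ) (i : Fin n) :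
    ContDiff ℝ ∞ (pd i ψ) ∧ HasCompactSupport (pd i ψ) := by
  constructor
  · unfold pd
    exact (h.fderiv_right (m := ∞) (by simp)).clm_apply contDiff_const
  · exact hc.fderiv_apply ℝ _

theorem harm (h_ibp : S_ibp) (h_weyl : S_weyl) (h_orth : S_orth) : S_harm := by
  have _ := h_ibp
  intro n u hu
  obtain ⟨L, hL⟩ := hu.lip
  refine h_weyl n _ u (isOpen_lt continuous_const hL.continuous) hL.continuous.continuousOn ?_
  rintro ψ ⟨h1, h2, h3⟩
  have h4 := h_orth n u ψ hu (h1.lipschitzWith_of_hasCompactSupport h2 (by simp)) h2 fun x hx =>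
    image_eq_zero_of_notMem_tsupport fun h => by
      have : 0 < u x := h3 h
      linarith
  have i1 : ∀ i, Integrable fun x => u x * pd i (pd i ψ) x := fun i => by
    obtain ⟨a1, a2⟩ := orth_pd h1 h2 i
    obtain ⟨a3, a4⟩ := orth_pd a1 a2 i
    exact (hL.continuous.mul a3.continuous).integrable_of_hasCompactSupport a4.mul_left
  have i2 : ∀ i, Integrable fun x => pd i u x * pd i ψ x := fun i => by
    obtain ⟨a1, a2⟩ := orth_pd h1 h2 i
    refine (a1.continuous.integrable_of_hasCompactSupport a2).bdd_mul (c := L)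
      (measurable_fderiv_apply_const ℝ u _).aestronglyMeasurable (Eventually.of_forall fun x => ?_)
    refine ((fderiv ℝ u x).le_opNorm _).trans ?_
    rw [PiLp.norm_single, norm_one, mul_one]
    exact norm_fderiv_le_of_lipschitz ℝ hL
  have e : ∀ i, ∫ x, u x * pd i (pd i ψ) x = -∫ x, pd i u x * pd i ψ x := fun i => by
    obtain ⟨a1, a2⟩ := orth_pd h1 h2 i
    obtain ⟨K, hK⟩ := a1.lipschitzWith_of_hasCompactSupport a2 (by simp)
    have h := hL.integral_lineDeriv_mul_eq (μ := volume) hK a2 (EuclideanSpace.single i 1)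
    have e1 : ∫ x, lineDeriv ℝ u x (EuclideanSpace.single i 1) * pd i ψ x =
        ∫ x, pd i u x * pd i ψ x := by
      refine integral_congr_ae ?_
      filter_upwards [hL.ae_differentiableAt (μ := volume)] with x hx
      rw [hx.lineDeriv_eq_fderiv]
      rfl
    rw [← e1, h, ← integral_neg]
    refine integral_congr_ae (Eventually.of_forall fun x => ?_)
    simp only
    rw [(a1.differentiable (by simp) x).lineDeriv_eq_fderiv, map_neg]
    unfold pd
    ring
  simp only [orth_inner] at h4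
  rw [integral_finsetSum _ fun i _ => i2 i] at h4
  simp only [lap, Finset.mul_sum]
  rw [integral_finsetSum _ fun i _ => i1 i]
  simp only [e, Finset.sum_neg_distrib, h4, neg_zero]

theorem stab (h_aeq : S_aeq) (h_orth : S_orth) : S_stab := by
  have _ := h_aeq
  intro n u ψ hu hψ hc h0 h1
  obtain ⟨R, hR1, hR2⟩ := orth_R hc
  have h4 := h_orth n u ψ hu hψ hc fun x hx => le_antisymm (hx ▸ h1 x) (h0 x)
  rw [← setIntegral_eq_integral_of_forall_compl_eq_zero (s := ball (0 : E n) R)
    fun x hx => by rw [hR2 x hx, inner_zero_right]] at h4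
  rw [← setIntegral_eq_integral_of_forall_compl_eq_zero (s := ball (0 : E n) R)
    fun x hx => by rw [hR2 x hx]; simp]
  have hw := orth_lip hu.lip hψ (-1)
  have h5 := hu.min R _ hw (fun x => by linarith [h1 x]) fun x hx => by
    rw [hR1 x hx, mul_zero, add_zero]
  unfold en energy at h5
  rw [orth_expand hu.lip hψ, h4] at h5
  have huc : Continuous u := by
    obtain ⟨L, hL⟩ := hu.lip
    exact hL.continuous
  have hψc : Continuous ψ := by
    obtain ⟨L, hL⟩ := hψ
    exact hL.continuous
  have hsub : {x | 0 < u x ∧ ψ x = u x} ⊆ ball (0 : E n) R := by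
    rintro x ⟨a1, a2⟩
    rw [mem_ball_zero_iff]
    by_contra h
    have := hR1 x (not_lt.1 h)
    linarith
  have hun : ball (0 : E n) R ∩ {x | 0 < u x} =
      (ball (0 : E n) R ∩ {x | 0 < u x + -1 * ψ x}) ∪ {x | 0 < u x ∧ ψ x = u x} := by
    ext x
    constructor
    · rintro ⟨a1, a2⟩
      rcases (h1 x).eq_or_lt with h | h
      · exact Or.inr ⟨a2, h⟩
      · exact Or.inl ⟨a1, by simp only [mem_ofPred_eq]; linarith⟩
    · rintro (⟨a1, a2⟩ | a)
      · refine ⟨a1, ?_⟩
        simp only [mem_ofPred_eq] at a2 ⊢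
        linarith [h0 x]
      · exact ⟨hsub a, a.1⟩
  have hm : MeasurableSet {x | 0 < u x ∧ ψ x = u x} :=
    (measurableSet_lt measurable_const huc.measurable).inter
      (measurableSet_eq_fun hψc.measurable huc.measurable)
  have hdis : Disjoint (ball (0 : E n) R ∩ {x | 0 < u x + -1 * ψ x}) {x | 0 < u x ∧ ψ x = u x} := by
    rw [Set.disjoint_left]
    rintro x ⟨_, a2⟩ ⟨_, a3⟩
    simp only [mem_ofPred_eq] at a2
    linarith
  rw [hun, measure_union hdis hm, ENNReal.toReal_add
    ((measure_mono inter_subset_left).trans_lt measure_ball_lt_top).ne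
    ((measure_mono hsub).trans_lt measure_ball_lt_top).ne] at h5
  linarith

end Vale.Agent.P098
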