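import Vale.Agent.P098.Osc2

open MeasureTheory Set Metric Filter
open scoped ContDiff RealInnerProductSpace Topology NNReal

noncomputable section
namespace Vale.Agent.P098

variable {n : ℕ}

/-- The interior alternative. -/
theorem osc_alt (h_harnack : S_harnack) (h_harm : S_harm) (n : ℕ) : ∃ c : ℝ, 0 < c ∧ c ≤ 1 / 2 ∧
    ∀ (u P : E n → ℝ) (d : ℝ) (z : E n), LMin u → ContDiff ℝ ∞ P → (∀ x, lap P x = 0) → 0 < d →
      Trap u P 0 d (closedBall z (1 / 20)) → (∀ y ∈ closedBall z (1 / 20), 0 < P y) →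
      (∀ y ∈ closedBall z (1 / 200), P y + c * d ≤ u y) ∨
        ∀ y ∈ closedBall z (1 / 200), u y ≤ P y + d - c * d := by
  obtain ⟨c, hc, h⟩ := h_harnack n
  refine ⟨min c 1 / 2, by positivity, by linarith [min_le_right c 1], ?_⟩
  intro u P d z hu hP hP0 hd hT hpos
  obtain ⟨L, hL⟩ := hu.lip
  have hU : IsOpen (Om u) := isOpen_lt continuous_const hL.continuous
  have hPh : Harm (Om u) P := ⟨hP.contDiffOn, fun x _ => hP0 x⟩
  have hsub : closedBall z (1 / 20) ⊆ Om u := fun y hy =>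
    show 0 < u y by linarith [(hT y hy).1, hpos y hy]
  have h1 := h _ _ z (1 / 20) hU (osc_harm_comb hU (h_harm n u hu) hPh 1 (-1) 0) (by norm_num)
    hsub fun y hy => by linarith [(hT y hy).1]
  have h2 := h _ _ z (1 / 20) hU (osc_harm_comb hU (h_harm n u hu) hPh (-1) 1 d) (by norm_num)
    hsub fun y hy => by
      have := (hT y hy).2
      rw [max_eq_left (by linarith [hpos y hy])] at this
      linarith
  have h3 : min c 1 / 2 * d ≤ c * (d / 2) := by nlinarith [min_le_left c 1]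
  rw [show (1 : ℝ) / 20 / 10 = 1 / 200 by norm_num] at h1 h2
  rcases le_total (d / 2) (u z - P z) with h4 | h4
  · exact .inl fun y hy => by nlinarith [(h1 y hy).1]
  · exact .inr fun y hy => by nlinarith [(h2 y hy).1]

/-- Properties of the barrier. -/
theorem osc_bar (n : ℕ) : ∃ m K c₂ : ℝ, 0 < m ∧ 0 < K ∧ 0 < c₂ ∧ c₂ ≤ 1 ∧ ∀ z : E n,
    ∃ (w : E n → ℝ) (γ : ℝ), ContDiff ℝ 2 w ∧ (∀ x ∈ sphere z (3 / 4), w x = γ) ∧
      (∀ x, w x ≤ γ + 1) ∧ (∀ x ∈ ball z (1 / 4), γ + c₂ ≤ w x) ∧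
      (∀ x, x ∉ closedBall z (1 / 200) → 0 < lap w x) ∧
      ∀ x ∈ ball z (3 / 4), ∃ t, m ≤ t ∧ t ≤ K ∧ gradient w x = t • (z - x) := by
  set g : ℝ := 20000 * (n + 1) with hg
  have hn : (0 : ℝ) ≤ n := n.cast_nonneg
  have g0 : 0 < g := by positivity
  have e0 := Real.exp_pos (-g * (3 / 4) ^ 2)
  have hle : ∀ {s t : ℝ}, 0 ≤ s → s ≤ t → Real.exp (-g * t ^ 2) ≤ Real.exp (-g * s ^ 2) :=
    fun hs hst => Real.exp_le_exp.2 (by nlinarith [pow_le_pow_left₀ hs hst 2])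
  have h1 : ∀ s : ℝ, Real.exp (-g * s ^ 2) ≤ 1 := fun s =>
    Real.exp_le_one_iff.2 (by nlinarith [sq_nonneg s])
  refine ⟨2 * g * Real.exp (-g * (3 / 4) ^ 2), 2 * g,
    Real.exp (-g * (1 / 4) ^ 2) - Real.exp (-g * (3 / 4) ^ 2), by positivity, by positivity,
    sub_pos.2 (Real.exp_lt_exp.2 (by nlinarith)), by linarith [h1 (1 / 4)], fun z =>
    ⟨osc_w g z, Real.exp (-g * (3 / 4) ^ 2), osc_w_smooth g z, fun x hx => ?_, fun x => ?_,
      fun x hx => ?_, fun x hx => ?_, fun x hx => ⟨_, ?_, ?_, osc_w_grad g z x⟩⟩⟩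
  · rw [osc_w, mem_sphere_iff_norm.1 hx]
  · linarith [h1 ‖x - z‖, show osc_w g z x = Real.exp (-g * ‖x - z‖ ^ 2) from rfl]
  · linarith [hle (norm_nonneg _) (mem_ball_iff_norm.1 hx).le,
      show osc_w g z x = Real.exp (-g * ‖x - z‖ ^ 2) from rfl]
  · rw [osc_w_lap]
    refine mul_pos (Real.exp_pos _) ?_
    have h2 : 1 / 200 < ‖x - z‖ := by rwa [mem_closedBall_iff_norm, not_le] at hx
    have h3 : (1 / 200) ^ 2 ≤ ‖x - z‖ ^ 2 := pow_le_pow_left₀ (by norm_num) h2.le 2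
    have h4 : n + 1 ≤ 2 * g * ‖x - z‖ ^ 2 := by nlinarith
    nlinarith
  · exact mul_le_mul_of_nonneg_left (hle (norm_nonneg _) (mem_ball_iff_norm.1 hx).le)
      (by positivity)
  · exact mul_le_of_le_one_right (by positivity) (h1 _)

theorem osc_ar1 {c d m σ p q s : ℝ} (hc : 0 < c) (hd : 0 < d) (hm : 0 < m) (h1 : σ ≤ c * m / 40)
    (h2 : |p - 1| ≤ σ * d) (h3 : m / 20 ≤ q) (h4 : 0 ≤ s) :
    1 ≤ p + 2 * (c * d) * q + (c * d) ^ 2 * s := by
  have cd0 := mul_pos hc hd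
  linarith [(abs_le.1 h2).1, mul_nonneg (sq_nonneg (c * d)) h4,
    mul_le_mul_of_nonneg_left h3 cd0.le, mul_le_mul_of_nonneg_right h1 hd.le, mul_pos cd0 hm]

theorem osc_ar2 {c d m σ p q s K : ℝ} (hc : 0 < c) (hc' : c ≤ 1 / 2) (hd : 0 < d) (hm : 0 < m)
    (h1 : σ ≤ c * m / 40) (h2 : |p - 1| ≤ σ * d) (h3 : m / 20 ≤ q) (h4 : s ≤ K ^ 2)
    (h5 : d * (40 * K ^ 2) ≤ m) : p + 2 * -(c * d) * q + (-(c * d)) ^ 2 * s < 1 := by
  have cd0 := mul_pos hc hd
  have h6 : c * d * s ≤ m / 40 := by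
    linarith [mul_le_mul_of_nonneg_left h4 cd0.le, mul_le_mul_of_nonneg_left h5 hc.le,
      mul_le_mul_of_nonneg_right hc' hm.le]
  linarith [(abs_le.1 h2).2, mul_le_mul_of_nonneg_left h6 cd0.le,
    mul_le_mul_of_nonneg_left h3 cd0.le, mul_le_mul_of_nonneg_right h1 hd.le, mul_pos cd0 hm]

/-- The normalized statement. -/
theorem osc_core (h_harnack : S_harnack) (h_harm : S_harm) (h_cb : S_cb) (h_ca : S_ca) (n : ℕ) :
    ∃ c σ θ : ℝ, 0 < c ∧ c ≤ 1 / 2 ∧ 0 < σ ∧ 0 < θ ∧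
    ∀ (u P : E n → ℝ) (e : E n) (d : ℝ), LMin u → ‖e‖ = 1 → ContDiff ℝ ∞ P →
      (∀ x, lap P x = 0) → 0 < d → d ≤ θ → (∀ x ∈ ball (0 : E n) 1, ‖gradient P x - e‖ ≤ σ) →
      (∀ x ∈ ball (0 : E n) 1, |P x| ≤ 2 * d → |‖gradient P x‖ ^ 2 - 1| ≤ σ * d) →
      Trap u P 0 d (ball 0 1) →
      Trap u P (c * d) d (ball 0 (1 / 200)) ∨ Trap u P 0 (d - c * d) (ball 0 (1 / 200)) := by
  obtain ⟨c, hc, hc', halt⟩ := osc_alt h_harnack h_harm n
  obtain ⟨m, K, c₂, hm, hK, h2, h2', hbar⟩ := osc_bar n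
  refine ⟨c * c₂, min (1 / 40) (c * m / 40), min (1 / 40) (m / (40 * K ^ 2)), by positivity,
    by nlinarith, by positivity, by positivity, ?_⟩
  intro u P e d hu he hP hP0 hd hθ hg hfb hT
  set σ := min (1 / 40) (c * m / 40) with hσ
  have σ0 : 0 < σ := by positivity
  have σ1 : σ ≤ 1 / 40 := min_le_left _ _
  have σ2 : σ ≤ c * m / 40 := min_le_right _ _
  have d1 : d ≤ 1 / 40 := hθ.trans (min_le_left _ _)
  have d2 : d * (40 * K ^ 2) ≤ m := (le_div_iff₀ (by positivity)).1 (hθ.trans (min_le_right _ _))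
  have hcd : c * c₂ * d ≤ c * d := by nlinarith [mul_pos hc hd]
  have hcd' : c * d ≤ d / 2 := by nlinarith
  have hlin : ∀ x ∈ ball (0 : E n) 1, |P x - P 0 - ⟪x, e⟫| ≤ ‖x‖ / 40 := fun x hx =>
    (osc_lin hP hg hx).trans (by nlinarith [norm_nonneg x])
  have hin : ∀ x : E n, |⟪x, e⟫| ≤ ‖x‖ := fun x => by
    simpa [he] using abs_real_inner_le_norm x e
  have hs1 : ball (0 : E n) (1 / 200) ⊆ ball 0 1 := ball_subset_ball (by norm_num)
  rcases le_or_gt (1 / 10) (P 0) with h0 | h0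
  · have hs : closedBall (0 : E n) (1 / 20) ⊆ ball 0 1 := closedBall_subset_ball (by norm_num)
    rcases halt u P d 0 hu hP hP0 hd (fun x hx => hT x (hs hx)) (fun y hy => by
      have h3 := abs_le.1 (hlin y (hs hy))
      have h4 := abs_le.1 (hin y)
      have h5 := mem_closedBall_zero_iff.1 hy
      linarith) with h | h
    · exact .inl fun x hx => ⟨by linarith [h x (ball_subset_closedBall hx)], (hT x (hs1 hx)).2⟩
    · exact .inr fun x hx => ⟨(hT x (hs1 hx)).1,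
        le_max_of_le_left (by linarith [h x (ball_subset_closedBall hx)])⟩
  rcases le_or_gt (P 0) (-(1 / 10)) with h0' | h0'
  · refine .inl fun x hx => ⟨?_, (hT x (hs1 hx)).2⟩
    have h3 := abs_le.1 (hlin x (hs1 hx))
    have h4 := abs_le.1 (hin x)
    have h5 := mem_ball_zero_iff.1 hx
    linarith [hu.nonneg x]
  set z : E n := (1 / 5 : ℝ) • e with hz
  have hzn : ‖z‖ = 1 / 5 := by rw [hz, norm_smul, he]; norm_num
  have hze : ⟪z, e⟫ = 1 / 5 := by
    rw [hz, real_inner_smul_left, real_inner_self_eq_norm_sq, he]; norm_num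
  have hs : closedBall z (3 / 4) ⊆ ball 0 1 := fun y hy => by
    have h3 := norm_le_norm_add_norm_sub' y z
    rw [mem_closedBall_iff_norm] at hy
    rw [mem_ball_zero_iff]
    linarith
  have hs' : closedBall z (1 / 20) ⊆ ball 0 1 :=
    (closedBall_subset_closedBall (by norm_num)).trans hs
  have hs2 : ball (0 : E n) (1 / 200) ⊆ ball z (1 / 4) := fun y hy => by
    have h3 := norm_sub_le y z
    rw [mem_ball_zero_iff] at hy
    rw [mem_ball_iff_norm]
    linarith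
  have hs3 : ball z (1 / 4) ⊆ ball z (3 / 4) := ball_subset_ball (by norm_num)
  obtain ⟨w, γ, w1, w2, w3, w4, w5, w6⟩ := hbar z
  have hP2 : ContDiff ℝ 2 P := hP.of_le osc_two
  have hsm : ∀ β δ : ℝ, ContDiff ℝ 2 fun y => 1 * P y + β * w y + δ := fun β δ =>
    ((contDiff_const.mul hP2).add (contDiff_const.mul w1)).add contDiff_const
  have hlap : ∀ (β δ : ℝ) (x : E n), lap (fun y => 1 * P y + β * w y + δ) x = β * lap w x :=
    fun β δ x => by rw [osc_lap_comb hP2.contDiffAt w1.contDiffAt, hP0, mul_zero, zero_add]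
  have hgr : ∀ (β δ : ℝ), ∀ x ∈ ball z (3 / 4), P x ≤ 0 → -d ≤ P x → ∃ p q s : ℝ, |p - 1| ≤ σ * d ∧
      m / 20 ≤ q ∧ 0 ≤ s ∧ s ≤ K ^ 2 ∧
      ‖gradient (fun y => 1 * P y + β * w y + δ) x‖ ^ 2 = p + 2 * β * q + β ^ 2 * s := by
    intro β δ x hx h3 h4
    have hx1 := hs (ball_subset_closedBall hx)
    obtain ⟨t, t1, t2, t3⟩ := w6 x hx
    have hx2 : ‖z - x‖ ≤ 1 := by rw [norm_sub_rev]; linarith [mem_ball_iff_norm.1 hx]
    refine ⟨‖gradient P x‖ ^ 2, ⟪gradient P x, gradient w x⟫, ‖gradient w x‖ ^ 2,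
      hfb x hx1 (abs_le.2 ⟨by linarith, by linarith⟩), ?_, sq_nonneg _, ?_, ?_⟩
    · have h5 := abs_le.1 (hlin x hx1)
      have h6 := mem_ball_zero_iff.1 hx1
      have h7 : |⟪gradient P x - e, z - x⟫| ≤ 1 / 40 :=
        (abs_real_inner_le_norm _ _).trans
          (by nlinarith [hg x hx1, norm_nonneg (z - x), norm_nonneg (gradient P x - e)])
      rw [inner_sub_left, real_inner_comm _ e, inner_sub_left z, hze] at h7
      have h8 : 1 / 20 ≤ ⟪gradient P x, z - x⟫ := by linarith [(abs_le.1 h7).1]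
      rw [t3, real_inner_smul_right]
      nlinarith
    · rw [t3, norm_smul, Real.norm_of_nonneg (by linarith)]
      exact pow_le_pow_left₀ (mul_nonneg (by linarith) (norm_nonneg _))
        (by nlinarith [norm_nonneg (z - x)]) 2
    · rw [osc_grad_comb (hP2.differentiable two_ne_zero x) (w1.differentiable two_ne_zero x),
        norm_add_sq_real, real_inner_smul_right, norm_smul, mul_pow, Real.norm_eq_abs, sq_abs]
      ring
  have cd0 : 0 < c * d := mul_pos hc hd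
  have w3' := fun x => mul_le_mul_of_nonneg_left (w3 x) cd0.le
  have w4' := fun x hx => mul_le_mul_of_nonneg_left (w4 x (hs2 hx)) cd0.le
  rcases halt u P d z hu hP hP0 hd (fun x hx => hT x (hs' hx)) (fun y hy => by
    have h3 := abs_le.1 (hlin y (hs' hy))
    have h4 := abs_le.1 (hin (y - z))
    have h5 := mem_closedBall_iff_norm.1 hy
    have h6 := mem_ball_zero_iff.1 (hs' hy)
    rw [inner_sub_left, hze] at h4
    linarith) with h | h
  · have h3 := h_cb n u _ z (3 / 4) hu (hsm (c * d) (-(c * d * γ))) (fun x hx => by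
      have := (hT x (hs (sphere_subset_closedBall hx))).1
      rw [w2 x hx]
      linarith) (fun x _ hx => by
      rw [hlap]
      refine mul_pos cd0 (w5 x fun h4 => ?_)
      linarith [h x h4, w3' x]) fun x hx h4 h5 => by
      have h6 := (hT x (hs (ball_subset_closedBall hx))).1
      obtain ⟨p, q, s, p1, q1, s1, -, h7⟩ := hgr (c * d) (-(c * d * γ)) x hx (by linarith)
        (by linarith [w3' x])
      refine (one_le_sq_iff₀ (norm_nonneg _)).1 ?_
      rw [h7]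
      exact osc_ar1 hc hd hm σ2 p1 q1 s1
    refine .inl fun x hx => ⟨?_, (hT x (hs1 hx)).2⟩
    linarith [h3 x (hs3 (hs2 hx)), w4' x hx]
  · have h4 : ∀ x, 1 * P x + -(c * d) * w x + (d + c * d * γ) < u x →
        lap (fun y => 1 * P y + -(c * d) * w y + (d + c * d * γ)) x < 0 := fun x hx => by
      rw [hlap, neg_mul, neg_lt_zero]
      refine mul_pos cd0 (w5 x fun h4 => ?_)
      linarith [h x h4, w3' x]
    have h3 := h_ca n u _ z (3 / 4) hu (hsm (-(c * d)) (d + c * d * γ)) (fun x hx => by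
      have := (hT x (hs (sphere_subset_closedBall hx))).2
      rw [w2 x hx]
      convert this using 2
      ring) (fun x _ _ hx => h4 x hx) fun x hx h5 h6 => by
      have h7 := (hT x (hs (ball_subset_closedBall hx))).2
      have h8 : 0 < P x + d := (lt_max_iff.1 (h6.trans_le h7)).resolve_right (lt_irrefl _)
      obtain ⟨p, q, s, p1, q1, -, s1, h9⟩ := hgr (-(c * d)) (d + c * d * γ) x hx
        (by linarith [w3' x]) (by linarith)
      have h10 := mul_pos h6 (neg_pos.2 (h4 x (h5.trans_lt h6)))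
      rw [h9]
      linarith [osc_ar2 hc hc' hd hm σ2 p1 q1 s1 d2]
    refine .inr fun x hx => ⟨(hT x (hs1 hx)).1,
      (h3 x (hs3 (hs2 hx))).trans (max_le_max_right _ ?_)⟩
    linarith [w4' x hx]

theorem osc (h_harnack : S_harnack) (h_harm : S_harm) (h_inv_min : S_inv) (h_cb : S_cb) (h_ca : S_ca) : S_osc := by
  intro n
  obtain ⟨c, σ, θ, hc, hc', hσ, hθ, h⟩ := osc_core h_harnack h_harm h_cb h_ca n
  refine ⟨c, σ, θ, hc, hc', hσ, hθ, fun u P e x₀ r a b hu he hP hP0 hr hab hd hg hfb hT => ?_⟩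
  have hi : 0 < r⁻¹ := inv_pos.2 hr
  have hm : ∀ y ∈ ball (0 : E n) 1, x₀ + r • y ∈ ball x₀ r := fun y hy => by
    rw [mem_ball_iff_norm, add_sub_cancel_left, norm_smul, Real.norm_of_nonneg hr.le]
    exact mul_lt_of_lt_one_right hr (mem_ball_zero_iff.1 hy)
  have hm' : ∀ x ∈ ball x₀ (r / 200), ∃ y ∈ ball (0 : E n) (1 / 200), x = x₀ + r • y :=
    fun x hx => ⟨r⁻¹ • (x - x₀), by
      rw [mem_ball_zero_iff, norm_smul, Real.norm_of_nonneg hi.le, inv_mul_lt_iff₀ hr]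
      linarith [mem_ball_iff_norm.1 hx], by rw [smul_inv_smul₀ hr.ne', add_sub_cancel]⟩
  have key : ∀ (s t : ℝ) (y : E n),
      ((P (x₀ + r • y) + a) * r⁻¹ + s * r⁻¹ ≤ resc u x₀ r y ∧
        resc u x₀ r y ≤ max ((P (x₀ + r • y) + a) * r⁻¹ + t * r⁻¹) 0) ↔
      (P (x₀ + r • y) + (a + s) ≤ u (x₀ + r • y) ∧
        u (x₀ + r • y) ≤ max (P (x₀ + r • y) + (a + t)) 0) := fun s t y => by
    rw [resc, div_eq_mul_inv, ← add_mul, ← add_mul, mul_le_mul_iff_left₀ hi, add_assoc, add_assoc,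
      ← mul_le_mul_iff_left₀ (b := u _) hi, max_mul_of_nonneg _ _ hi.le, zero_mul]
  have h1 := h (resc u x₀ r) (fun y => (P (x₀ + r • y) + a) * r⁻¹) e ((b - a) * r⁻¹)
    ((h_inv_min n u hu).1 x₀ r hr) he
    (((hP.comp (contDiff_const.add (contDiff_id.const_smul r))).add contDiff_const).mul
      contDiff_const)
    (fun x => by rw [osc_lap_scale hP, hP0, mul_zero]) (mul_pos (sub_pos.2 hab) hi)
    ((mul_inv_le_iff₀ hr).2 hd)
    (fun x hx => by rw [osc_grad_scale hP _ hr.ne']; exact hg _ (hm x hx))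
    (fun x hx h2 => by
      rw [osc_grad_scale hP _ hr.ne', ← mul_assoc, ← div_eq_mul_inv]
      rw [abs_mul, abs_of_pos hi, ← mul_assoc, mul_le_mul_iff_left₀ hi] at h2
      exact hfb _ (hm x hx) h2)
    (fun y hy => by
      have := (key 0 (b - a) y).2 (by simpa using hT _ (hm y hy))
      rwa [zero_mul] at this)
  refine h1.imp (fun h2 x hx => ?_) fun h2 x hx => ?_
  · obtain ⟨y, hy, rfl⟩ := hm' x hx
    have := (key (c * (b - a)) (b - a) y).1 (by rw [mul_assoc]; exact h2 y hy)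
    rwa [add_sub_cancel] at this
  · obtain ⟨y, hy, rfl⟩ := hm' x hx
    have := (key 0 (b - a - c * (b - a)) y).1 (by
      rw [zero_mul, sub_mul, mul_assoc]; exact h2 y hy)
    rwa [add_zero, ← add_sub_assoc, add_sub_cancel] at this

end Vale.Agent.P098
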