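import Vale.Agent.P098.Iface

open MeasureTheory Set Metric Filter
open scoped ContDiff RealInnerProductSpace Topology NNReal

noncomputable section
namespace Vale.Agent.P098

variable {n : ℕ}

def proj_N (b : T1 n) : T1 n := (√(∑ j, b j ^ 2))⁻¹ • b
def proj_v (b : T1 n) (A : T2 n) : T1 n := fun i => ∑ j, A i j * b j + hh b A * b i
def proj_A (b : T1 n) (A : T2 n) : T2 n :=
  fun i j => A i j - proj_v b A i * b j - b i * proj_v b A j
def proj_M (t : ℝ) (b : T1 n) (A : T2 n) (B : T3 n) : T2 n :=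
  fun i j => ∑ k, B i j k * b k + t * (∑ k, A i k * A k j + hh b A * A i j)
def proj_Q (b : T1 n) (M : T2 n) : T2 n :=
  fun i j => M i j - b i * (∑ k, M j k * b k) - (∑ k, M i k * b k) * b j - hh b M * b i * b j
def proj_S (b : T1 n) (T : T2 n) : T3 n :=
  fun i j k => T i j * b k + T i k * b j + T j k * b i - (∑ l, T l l) * b i * b j * b k
def proj_B (t : ℝ) (b : T1 n) (A : T2 n) (B : T3 n) : T3 n :=
  B - proj_S b (proj_Q b (proj_M t b A B))
def proj_P (z : T1 n × T2 n × T3 n) : T1 n × T2 n × T3 n :=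
  (proj_N z.1, proj_A (proj_N z.1) z.2.1,
    proj_B 1 (proj_N z.1) (proj_A (proj_N z.1) z.2.1) z.2.2)

lemma proj_hh (b : T1 n) (A : T2 n) : hh b A = -∑ i, (∑ j, A i j * b j) * b i := by
  unfold hh
  congr 1
  refine Finset.sum_congr rfl fun i _ => ?_
  rw [Finset.sum_mul]
  exact Finset.sum_congr rfl fun j _ => by ring

lemma proj_unit {b : T1 n} (hb : ∑ i, b i ^ 2 = 1) : ∑ i, b i * b i = 1 := by
  rw [← hb]; exact Finset.sum_congr rfl fun i _ => by ring

lemma proj_v_dot {b : T1 n} (hb : ∑ i, b i ^ 2 = 1) (A : T2 n) :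
    ∑ i, proj_v b A i * b i = 0 := by
  have h1 : ∑ i, proj_v b A i * b i
      = ∑ i, (∑ j, A i j * b j) * b i + hh b A * ∑ i, b i * b i := by
    rw [Finset.mul_sum, ← Finset.sum_add_distrib]
    exact Finset.sum_congr rfl fun i _ => by unfold proj_v; ring
  rw [h1, proj_unit hb, proj_hh]; ring

lemma proj_A_mul {b : T1 n} (hb : ∑ i, b i ^ 2 = 1) (A : T2 n) (i : Fin n) :
    ∑ j, proj_A b A i j * b j = -hh b A * b i := by
  have h1 : ∑ j, proj_A b A i j * b j = ∑ j, A i j * b j - proj_v b A i * ∑ j, b j * b j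
      - b i * ∑ j, proj_v b A j * b j := by
    rw [Finset.mul_sum, Finset.mul_sum, ← Finset.sum_sub_distrib, ← Finset.sum_sub_distrib]
    exact Finset.sum_congr rfl fun j _ => by unfold proj_A; ring
  rw [h1, proj_unit hb, proj_v_dot hb]
  unfold proj_v; ring

lemma proj_A_hh {b : T1 n} (hb : ∑ i, b i ^ 2 = 1) (A : T2 n) :
    hh b (proj_A b A) = hh b A := by
  rw [proj_hh]
  simp only [proj_A_mul hb, mul_assoc]
  rw [← Finset.mul_sum, proj_unit hb]; ring

lemma proj_A_tr {b : T1 n} (hb : ∑ i, b i ^ 2 = 1) (A : T2 n) :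
    ∑ i, proj_A b A i i = ∑ i, A i i := by
  have h1 : ∑ i, proj_A b A i i = ∑ i, A i i - 2 * ∑ i, proj_v b A i * b i := by
    rw [Finset.mul_sum, ← Finset.sum_sub_distrib]
    exact Finset.sum_congr rfl fun j _ => by unfold proj_A; ring
  rw [h1, proj_v_dot hb]; ring

lemma proj_Q_mul {b : T1 n} (hb : ∑ i, b i ^ 2 = 1) (M : T2 n) (i : Fin n) :
    ∑ j, proj_Q b M i j * b j = 0 := by
  have h1 : ∑ j, proj_Q b M i j * b j = ∑ j, M i j * b j
      - b i * (∑ j, (∑ k, M j k * b k) * b j) - (∑ k, M i k * b k) * (∑ j, b j * b j)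
      - hh b M * b i * ∑ j, b j * b j := by
    rw [Finset.mul_sum, Finset.mul_sum, Finset.mul_sum, ← Finset.sum_sub_distrib,
      ← Finset.sum_sub_distrib, ← Finset.sum_sub_distrib]
    exact Finset.sum_congr rfl fun j _ => by unfold proj_Q; ring
  rw [h1, proj_unit hb, proj_hh]; ring

lemma proj_rank (u w x y : T1 n) :
    ∑ i, ∑ j, u i * w j * x i * y j = (∑ i, u i * x i) * ∑ j, w j * y j := by
  rw [Finset.sum_mul_sum]
  exact Finset.sum_congr rfl fun i _ => Finset.sum_congr rfl fun j _ => by ring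

lemma proj_Q_tang (b : T1 n) (M : T2 n) (x y : T1 n) (hx : ∑ i, b i * x i = 0)
    (hy : ∑ i, b i * y i = 0) :
    ∑ i, ∑ j, proj_Q b M i j * x i * y j = ∑ i, ∑ j, M i j * x i * y j := by
  have h1 := proj_rank b (fun j => ∑ k, M j k * b k) x y
  have h2 := proj_rank (fun j => ∑ k, M j k * b k) b x y
  have h3 := proj_rank (fun i => hh b M * b i) b x y
  rw [hx, zero_mul] at h1
  rw [hy, mul_zero] at h2 h3
  rw [← sub_zero (∑ i, ∑ j, M i j * x i * y j), ← h1, ← sub_zero (_ - _), ← h2,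
    ← sub_zero (_ - _ - _), ← h3]
  simp only [← Finset.sum_sub_distrib]
  exact Finset.sum_congr rfl fun i _ => Finset.sum_congr rfl fun j _ => by unfold proj_Q; ring

lemma proj_S_mul {b : T1 n} (hb : ∑ i, b i ^ 2 = 1) (T : T2 n)
    (hT : ∀ i, ∑ j, T i j * b j = 0) (i j : Fin n) :
    ∑ k, proj_S b T i j k * b k = T i j - (∑ l, T l l) * b i * b j := by
  have h1 : ∑ k, proj_S b T i j k * b k = T i j * ∑ k, b k * b k + (∑ k, T i k * b k) * b j
      + (∑ k, T j k * b k) * b i - (∑ l, T l l) * b i * b j * ∑ k, b k * b k := by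
    generalize hs : ∑ l, T l l = s
    rw [Finset.mul_sum, Finset.mul_sum, Finset.sum_mul, Finset.sum_mul, ← Finset.sum_add_distrib,
      ← Finset.sum_add_distrib, ← Finset.sum_sub_distrib]
    exact Finset.sum_congr rfl fun k _ => by unfold proj_S; rw [hs]; ring
  rw [h1, proj_unit hb, hT, hT]; ring

lemma proj_S_tr {b : T1 n} (hb : ∑ i, b i ^ 2 = 1) (T : T2 n) (hs : ∀ i j, T i j = T j i)
    (hT : ∀ i, ∑ j, T i j * b j = 0) (k : Fin n) : ∑ i, proj_S b T i i k = 0 := by
  have h1 : ∑ i, proj_S b T i i k = (∑ i, T i i) * b k + 2 * (∑ i, T k i * b i)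
      - (∑ l, T l l) * b k * ∑ i, b i * b i := by
    rw [Finset.mul_sum, Finset.mul_sum, Finset.sum_mul, ← Finset.sum_add_distrib,
      ← Finset.sum_sub_distrib]
    refine Finset.sum_congr rfl fun i _ => ?_
    rw [← Finset.sum_mul]
    unfold proj_S; rw [hs k i]; ring
  rw [h1, proj_unit hb, hT]; ring

/-- The image of the projection is admissible. -/
lemma proj_adm {b : T1 n} (hb : ∑ i, b i ^ 2 = 1) {A : T2 n} {B : T3 n} (h : SymTr A B) :
    Adm b (proj_A b A) (proj_B 1 b (proj_A b A) B) := by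
  have hA : ∀ i j, proj_A b A i j = proj_A b A j i := fun i j => by
    unfold proj_A; rw [h.a i j]; ring
  set A' := proj_A b A with hA'
  have hM : ∀ i j, proj_M 1 b A' B i j = proj_M 1 b A' B j i := fun i j => by
    unfold proj_M
    rw [hA i j, Finset.sum_congr rfl fun k _ => show B i j k * b k = B j i k * b k by rw [h.b1],
      Finset.sum_congr rfl fun k _ => show A' i k * A' k j = A' j k * A' k i by
        rw [hA i k, hA k j]; ring]
  set M := proj_M 1 b A' B with hM'
  have hT : ∀ i j, proj_Q b M i j = proj_Q b M j i := fun i j => by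
    unfold proj_Q; rw [hM i j]; ring
  have hT0 := proj_Q_mul hb M
  have hTt := proj_Q_tang b M
  have hB : ∀ i j k, proj_B 1 b A' B i j k = B i j k - proj_S b (proj_Q b M) i j k :=
    fun _ _ _ => rfl
  set T := proj_Q b M with hT'
  refine ⟨⟨hA, fun i j k => ?_, fun i j k => ?_, ?_, fun k => ?_⟩, hb, fun i => ?_,
    fun x y hx hy => ?_⟩
  · rw [hB, hB, h.b1 i j k]; unfold proj_S; rw [hT i j]; ring
  · rw [hB, hB, h.b2 i j k]; unfold proj_S; rw [hT j k]; ring
  · rw [hA', proj_A_tr hb, h.ta]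
  · simp only [hB]
    rw [Finset.sum_sub_distrib, h.tb, proj_S_tr hb T hT hT0, sub_zero]
  · rw [hA', proj_A_mul hb, proj_A_hh hb]
  · have h1 : ∀ i j, ∑ k, proj_B 1 b A' B i j k * b k + ∑ k, A' i k * A' k j + hh b A' * A' i j
        = M i j - T i j + (∑ l, T l l) * b i * b j := by
      intro i j
      simp only [hB, sub_mul]
      rw [Finset.sum_sub_distrib, proj_S_mul hb T hT0, hM']
      unfold proj_M; ring
    have h3 := proj_rank (fun i => (∑ l, T l l) * b i) b x y
    rw [hy, mul_zero] at h3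
    simp only [h1, add_mul, sub_mul, Finset.sum_add_distrib, Finset.sum_sub_distrib]
    rw [h3, hTt x y hx hy]; ring

lemma proj_q_tang {b : T1 n} (hb : ∑ i, b i ^ 2 = 1) (i : Fin n) :
    ∑ k, b k * ((if k = i then 1 else 0) - b i * b k) = 0 := by
  have : ∑ k, b k * ((if k = i then 1 else 0) - b i * b k)
      = ∑ k, b k * (if k = i then 1 else 0) - b i * ∑ k, b k * b k := by
    rw [Finset.mul_sum, ← Finset.sum_sub_distrib]
    exact Finset.sum_congr rfl fun k _ => by ring
  rw [this, proj_unit hb]; simp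

lemma proj_q_sum (b u : T1 n) (i : Fin n) :
    ∑ k, u k * ((if k = i then 1 else 0) - b i * b k) = u i - b i * ∑ k, u k * b k := by
  have : ∑ k, u k * ((if k = i then 1 else 0) - b i * b k)
      = ∑ k, u k * (if k = i then 1 else 0) - b i * ∑ k, u k * b k := by
    rw [Finset.mul_sum, ← Finset.sum_sub_distrib]
    exact Finset.sum_congr rfl fun k _ => by ring
  rw [this]; simp

lemma proj_Q_zero {b : T1 n} (hb : ∑ i, b i ^ 2 = 1) (M : T2 n) (hs : ∀ i j, M i j = M j i)
    (h : ∀ x y : T1 n, ∑ i, b i * x i = 0 → ∑ i, b i * y i = 0 →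
      ∑ i, ∑ j, M i j * x i * y j = 0) : proj_Q b M = 0 := by
  funext i j
  have h1 := h _ _ (proj_q_tang hb i) (proj_q_tang hb j)
  have h2 : ∀ k, ∑ l, M k l * ((if k = i then 1 else 0) - b i * b k) *
      ((if l = j then 1 else 0) - b j * b l)
      = (M k j - b j * ∑ l, M k l * b l) * ((if k = i then 1 else 0) - b i * b k) := by
    intro k
    rw [← proj_q_sum b (M k) j, Finset.sum_mul]
    exact Finset.sum_congr rfl fun l _ => by ring
  simp only [h2] at h1
  rw [proj_q_sum b (fun k => M k j - b j * ∑ l, M k l * b l) i] at h1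
  have h3 : ∑ k, (M k j - b j * ∑ l, M k l * b l) * b k
      = ∑ k, M j k * b k - b j * ∑ k, (∑ l, M k l * b l) * b k := by
    rw [Finset.mul_sum, ← Finset.sum_sub_distrib]
    exact Finset.sum_congr rfl fun k _ => by rw [hs k j]; ring
  rw [h3] at h1
  simp only [proj_Q, proj_hh, Pi.zero_apply]
  linear_combination h1

lemma proj_v_zero {b : T1 n} (hb : ∑ i, b i ^ 2 = 1) (A : T2 n) (hs : ∀ i j, A i j = A j i)
    (h : ∀ x : T1 n, ∑ i, b i * x i = 0 → ∑ i, ∑ j, A i j * b i * x j = 0) :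
    proj_v b A = 0 := by
  funext i
  have h1 := h _ (proj_q_tang hb i)
  rw [Finset.sum_comm] at h1
  have h2 : ∀ k, ∑ l, A l k * b l * ((if k = i then 1 else 0) - b i * b k)
      = (∑ l, A k l * b l) * ((if k = i then 1 else 0) - b i * b k) := by
    intro k
    rw [Finset.sum_mul]
    exact Finset.sum_congr rfl fun l _ => by rw [hs l k]
  simp only [h2] at h1
  rw [proj_q_sum b (fun k => ∑ l, A k l * b l) i] at h1
  simp only [proj_v, proj_hh, Pi.zero_apply]
  linear_combination h1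

lemma proj_A_id {b : T1 n} {A : T2 n} (h : proj_v b A = 0) : proj_A b A = A := by
  funext i j; simp [proj_A, h]

lemma proj_B_id {t : ℝ} {b : T1 n} {A : T2 n} {B : T3 n} (h : proj_Q b (proj_M t b A B) = 0) :
    proj_B t b A B = B := by
  funext i j k; simp [proj_B, proj_S, h]

lemma proj_N_id {b : T1 n} (hb : ∑ i, b i ^ 2 = 1) : proj_N b = b := by
  simp [proj_N, hb]

lemma proj_N_unit {b : T1 n} (hb : 0 < ∑ i, b i ^ 2) : ∑ i, proj_N b i ^ 2 = 1 := by
  simp only [proj_N, Pi.smul_apply, smul_eq_mul, mul_pow]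
  rw [← Finset.mul_sum, inv_pow, Real.sq_sqrt hb.le, inv_mul_cancel₀ hb.ne']

lemma proj_P_id {b : T1 n} {A : T2 n} {B : T3 n} (h : Adm b A B) :
    proj_P (b, A, B) = (b, A, B) := by
  have h1 : proj_A b A = A := proj_A_id (by funext i; simp [proj_v, h.eig])
  have h2 : proj_B 1 b A B = B := by
    refine proj_B_id (proj_Q_zero h.unit _ (fun i j => ?_) fun x y hx hy => ?_)
    · unfold proj_M
      rw [h.st.a i j,
        Finset.sum_congr rfl fun k _ => show B i j k * b k = B j i k * b k by rw [h.st.b1],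
        Finset.sum_congr rfl fun k _ => show A i k * A k j = A j k * A k i by
          rw [h.st.a i k, h.st.a k j]; ring]
    · rw [← h.tang x y hx hy]
      exact Finset.sum_congr rfl fun i _ => Finset.sum_congr rfl fun j _ => by
        unfold proj_M; ring
  simp only [proj_P, proj_N_id h.unit, h1, h2]

lemma proj_N_smooth {b : T1 n} (hb : ∑ i, b i ^ 2 = 1) : ContDiffAt ℝ 1 proj_N b := by
  have h1 : ContDiffAt ℝ 1 (fun c : T1 n => ∑ j, c j ^ 2) b := by fun_prop
  have h2 := (h1.sqrt (by simp [hb])).inv (by simp [hb])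
  exact h2.smul contDiffAt_id

lemma proj_A_smooth : ContDiff ℝ 1 fun z : T1 n × T2 n => proj_A z.1 z.2 := by
  unfold proj_A proj_v hh
  fun_prop

lemma proj_B_smooth :
    ContDiff ℝ 1 fun z : ℝ × T1 n × T2 n × T3 n => proj_B z.1 z.2.1 z.2.2.1 z.2.2.2 := by
  have hM : ContDiff ℝ 1 fun z : ℝ × T1 n × T2 n × T3 n => proj_M z.1 z.2.1 z.2.2.1 z.2.2.2 := by
    unfold proj_M hh
    fun_prop
  have hQ : ContDiff ℝ 1 fun z : T1 n × T2 n => proj_Q z.1 z.2 := by
    unfold proj_Q hh
    fun_prop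
  have hS : ContDiff ℝ 1 fun z : T1 n × T2 n => proj_S z.1 z.2 := by
    unfold proj_S
    fun_prop
  have hb : ContDiff ℝ 1 fun z : ℝ × T1 n × T2 n × T3 n => z.2.1 := by fun_prop
  have hB : ContDiff ℝ 1 fun z : ℝ × T1 n × T2 n × T3 n => z.2.2.2 := by fun_prop
  exact hB.sub (hS.comp (hb.prodMk (hQ.comp (hb.prodMk hM))))

lemma proj_P_smooth {b : T1 n} (hb : ∑ i, b i ^ 2 = 1) :
    ContDiffAt ℝ 1 proj_P ((b, 0, 0) : T1 n × T2 n × T3 n) := by
  have h1 : ContDiffAt ℝ 1 (fun z : T1 n × T2 n × T3 n => proj_N z.1) (b, 0, 0) :=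
    (proj_N_smooth hb).comp ((b, 0, 0) : T1 n × T2 n × T3 n) contDiffAt_fst
  have h2 : ContDiffAt ℝ 1 (fun z : T1 n × T2 n × T3 n => proj_A (proj_N z.1) z.2.1) (b, 0, 0) :=
    proj_A_smooth.contDiffAt.comp ((b, 0, 0) : T1 n × T2 n × T3 n) (h1.prodMk (by fun_prop))
  have h3 : ContDiffAt ℝ 1 (fun z : T1 n × T2 n × T3 n =>
      proj_B 1 (proj_N z.1) (proj_A (proj_N z.1) z.2.1) z.2.2) (b, 0, 0) :=
    proj_B_smooth.contDiffAt.comp ((b, 0, 0) : T1 n × T2 n × T3 n)
      ((contDiffAt_const (c := (1 : ℝ))).prodMk (h1.prodMk (h2.prodMk (by fun_prop))))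
  exact h1.prodMk (h2.prodMk h3)

lemma proj_deriv {F : Type} [NormedAddCommGroup F] [NormedSpace ℝ F] (g : ℝ → F)
    (hg : ContinuousAt g 0) : HasDerivAt (fun t => t • g t) (g 0) 0 := by
  rw [hasDerivAt_iff_tendsto_slope_zero]
  refine (hg.tendsto.mono_left nhdsWithin_le_nhds).congr' ?_
  filter_upwards [self_mem_nhdsWithin] with t ht
  have : t ≠ 0 := ht
  simp [smul_smul, this]

lemma proj_hh_smul (t : ℝ) (b : T1 n) (A : T2 n) : hh b (t • A) = t * hh b A := by
  simp only [hh, Pi.smul_apply, smul_eq_mul, mul_neg, Finset.mul_sum, mul_assoc]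

lemma proj_A_smul (t : ℝ) (b : T1 n) (A : T2 n) : proj_A b (t • A) = t • proj_A b A := by
  funext i j
  simp only [proj_A, proj_v, proj_hh_smul, Pi.smul_apply, smul_eq_mul, mul_assoc,
    ← Finset.mul_sum]
  ring

lemma proj_B_smul (t : ℝ) (b : T1 n) (A : T2 n) (B : T3 n) :
    proj_B 1 b (t • A) (t • B) = t • proj_B t b A B := by
  have h1 : proj_M 1 b (t • A) (t • B) = t • proj_M t b A B := by
    funext i j
    have : ∀ k, t * A i k * (t * A k j) = t * t * (A i k * A k j) := fun k => by ring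
    simp only [proj_M, proj_hh_smul, Pi.smul_apply, smul_eq_mul, this, ← Finset.mul_sum]
    simp only [mul_assoc, ← Finset.mul_sum]
    ring
  have h2 : ∀ M : T2 n, proj_Q b (t • M) = t • proj_Q b M := fun M => by
    funext i j
    simp only [proj_Q, proj_hh_smul, Pi.smul_apply, smul_eq_mul, mul_assoc, ← Finset.mul_sum]
    ring
  have h3 : ∀ M : T2 n, proj_S b (t • M) = t • proj_S b M := fun M => by
    funext i j k
    simp only [proj_S, Pi.smul_apply, smul_eq_mul, ← Finset.mul_sum]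
    ring
  rw [proj_B, proj_B, h1, h2, h3, smul_sub]

lemma proj_line {e : E n} (he : ∑ i, e i ^ 2 = 1) {h1 : T1 n} {h2 : T2 n} {h3 : T3 n}
    (h : Even3 e h1 h2 h3) :
    HasDerivAt (fun t : ℝ => proj_P (((fun i => e i, 0, 0) : T1 n × T2 n × T3 n)
      + t • (h1, h2, h3))) (h1, h2, h3) 0 := by
  set b : T1 n := fun i => e i with hb
  have hb1 : ∑ i, b i ^ 2 = 1 := he
  have l1 : HasDerivAt (fun t : ℝ => b + t • h1) h1 0 := by
    simpa using ((hasDerivAt_id (0 : ℝ)).smul_const h1).const_add b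
  have l2 : HasDerivAt (fun t : ℝ => ∑ j, (b + t • h1) j ^ 2) 0 0 := by
    have := HasDerivAt.fun_sum (u := Finset.univ)
      fun j _ => ((hasDerivAt_pi.1 l1) j).fun_pow 2
    refine this.congr_deriv ?_
    have h0 := h.e1
    simp only [zero_smul, add_zero, Nat.cast_ofNat, Nat.add_one_sub_one, pow_one, mul_assoc,
      ← Finset.mul_sum]
    rw [Finset.sum_congr rfl fun j _ => mul_comm (b j) (h1 j), h0, mul_zero]
  have l3 := ((l2.sqrt (by simp [hb1])).fun_inv (by simp [hb1])).fun_smul l1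
  have c1 : HasDerivAt (fun t : ℝ => proj_N (b + t • h1)) h1 0 := by
    refine HasDerivAt.congr_deriv l3 ?_
    simp [hb1]
  have c0 : proj_N (b + (0 : ℝ) • h1) = b := by simp [proj_N_id hb1]
  have hA : proj_A b h2 = h2 := proj_A_id (proj_v_zero hb1 h2 h.st.a h.e2)
  have k1 := c1.continuousAt
  have k2 : ContinuousAt (fun t : ℝ => proj_A (proj_N (b + t • h1)) h2) 0 :=
    proj_A_smooth.continuous.continuousAt.comp (f := fun t : ℝ => (proj_N (b + t • h1), h2))
      (k1.prodMk continuousAt_const)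
  have k3 : ContinuousAt (fun t : ℝ =>
      proj_B t (proj_N (b + t • h1)) (proj_A (proj_N (b + t • h1)) h2) h3) 0 :=
    proj_B_smooth.continuous.continuousAt.comp
      (f := fun t : ℝ => (t, proj_N (b + t • h1), proj_A (proj_N (b + t • h1)) h2, h3))
      (continuousAt_id.prodMk (k1.prodMk (k2.prodMk continuousAt_const)))
  have c2 := proj_deriv _ k2
  have c3 := proj_deriv _ k3
  have hB : proj_B 0 b h2 h3 = h3 := by
    refine proj_B_id (proj_Q_zero hb1 _ (fun i j => ?_) fun x y hx hy => ?_)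
    · simp only [proj_M, zero_mul, add_zero]
      exact Finset.sum_congr rfl fun k _ => by rw [h.st.b1]
    · refine Eq.trans ?_ (h.e3 x y hx hy)
      refine Finset.sum_congr rfl fun i _ => Finset.sum_congr rfl fun j _ => ?_
      simp only [proj_M, zero_mul, add_zero, Finset.sum_mul]
      exact Finset.sum_congr rfl fun k _ => by ring
  simp only [c0, hA, hB] at c2 c3
  convert c1.prodMk (c2.prodMk c3) using 2 with t
  simp [proj_P, proj_A_smul, proj_B_smul]

theorem proj : S_proj := by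
  intro n e C η he hC hη
  have he2 : ∑ i, e i ^ 2 = 1 := by
    rw [← EuclideanSpace.real_norm_sq_eq, he]; norm_num
  set z0 : T1 n × T2 n × T3 n := (fun i => e i, 0, 0) with hz0
  have hs : ContDiffAt ℝ 1 proj_P z0 := proj_P_smooth he2
  have hd := hs.hasStrictFDerivAt one_ne_zero
  have ev1 := hd.isLittleO.bound (div_pos hη hC)
  have ev2 : ∀ᶠ p : (T1 n × T2 n × T3 n) × (T1 n × T2 n × T3 n) in 𝓝 (z0, z0),
      0 < ∑ i, p.1.1 i ^ 2 := by
    refine ContinuousAt.eventually_lt continuousAt_const (by fun_prop) ?_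
    simp [hz0, he2]
  obtain ⟨δ, hδ, hev⟩ := Metric.eventually_nhds_iff.1 (ev1.and ev2)
  refine ⟨δ / (2 * (1 + C)), by positivity, ?_⟩
  intro b A B h1 h2 h3 ε hadm nb nA nB hev3 n1 n2 n3 hε hεσ
  set σ := δ / (2 * (1 + C)) with hσ
  have hσ0 : 0 < σ := by positivity
  have hσ1 : σ * (1 + C) < δ := by
    have : σ * (1 + C) = δ / 2 := by rw [hσ]; field_simp
    linarith
  set z : T1 n × T2 n × T3 n := (b, A, B) with hz
  set h : T1 n × T2 n × T3 n := (h1, h2, h3) with hh'
  have nh : ‖h‖ ≤ C := by simp [hh', Prod.norm_def, n1, n2, n3]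
  have nz : ‖z - z0‖ ≤ σ := by
    simp only [hz, hz0, Prod.mk_sub_mk, Prod.norm_def, sub_zero, max_le_iff]
    exact ⟨nb, nA, nB⟩
  have nεh : ‖ε • h‖ ≤ ε * C := by
    rw [norm_smul, Real.norm_eq_abs, abs_of_pos hε]; gcongr
  have hdist : dist (z + ε • h, z) (z0, z0) < δ := by
    rw [Prod.dist_eq, max_lt_iff, dist_eq_norm, dist_eq_norm]
    constructor
    · calc ‖z + ε • h - z0‖ = ‖(z - z0) + ε • h‖ := by congr 1; abel
        _ ≤ σ + ε * C := (norm_add_le _ _).trans (add_le_add nz nεh)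
        _ ≤ σ * (1 + C) := by nlinarith
        _ < δ := hσ1
    · nlinarith
  obtain ⟨k1, k2⟩ := hev hdist
  have hD : fderiv ℝ proj_P z0 h = h := by
    have l1 : HasDerivAt (fun t : ℝ => z0 + t • h) h 0 := by
      simpa using ((hasDerivAt_id (0 : ℝ)).smul_const h).const_add z0
    have l2 := HasFDerivAt.comp_hasDerivAt_of_eq (0 : ℝ) hd.hasFDerivAt l1 (by simp)
    exact l2.unique (proj_line he2 hev3)
  simp only [add_sub_cancel_left, map_smul, hD] at k1
  rw [show proj_P z = z from proj_P_id hadm] at k1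
  have k3 : ‖proj_P (z + ε • h) - (z + ε • h)‖ ≤ η * ε := by
    calc _ = ‖proj_P (z + ε • h) - z - ε • h‖ := by congr 1; abel
      _ ≤ η / C * (ε * C) := k1.trans (by gcongr)
      _ = η * ε := by field_simp
  have st : SymTr (A + ε • h2) (B + ε • h3) := by
    refine ⟨fun i j => ?_, fun i j k => ?_, fun i j k => ?_, ?_, fun k => ?_⟩
    · simp [hadm.st.a i j, hev3.st.a i j]
    · simp [hadm.st.b1 i j k, hev3.st.b1 i j k]
    · simp [hadm.st.b2 i j k, hev3.st.b2 i j k]
    · simp [Finset.sum_add_distrib, ← Finset.mul_sum, hadm.st.ta, hev3.st.ta]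
    · simp [Finset.sum_add_distrib, ← Finset.mul_sum, hadm.st.tb, hev3.st.tb]
  refine ⟨_, _, _, proj_adm (proj_N_unit k2) st, ?_, ?_, ?_⟩
  · exact (norm_fst_le (proj_P (z + ε • h) - (z + ε • h))).trans k3
  · exact ((norm_fst_le _).trans (norm_snd_le (proj_P (z + ε • h) - (z + ε • h)))).trans k3
  · exact ((norm_snd_le _).trans (norm_snd_le (proj_P (z + ε • h) - (z + ε • h)))).trans k3

end Vale.Agent.P098
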