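import Vale.Agent.P098.Red2

open MeasureTheory Set Metric Filter
open scoped ContDiff RealInnerProductSpace Topology NNReal

noncomputable section
namespace Vale.Agent.P098

variable {n : ℕ}

theorem red_lip_mul {X : Type} [PseudoMetricSpace X] {f g : X → ℝ} {a b : ℝ≥0} (A B : ℝ≥0)
    (hf : LipschitzWith a f) (hg : LipschitzWith b g) (hA : ∀ x, |f x| ≤ A)
    (hB : ∀ x, |g x| ≤ B) : LipschitzWith (A * b + B * a) fun x => f x * g x :=
  LipschitzWith.of_dist_le_mul fun x y => by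
    have h1 := hf.dist_le_mul x y
    have h2 := hg.dist_le_mul x y
    rw [Real.dist_eq] at h1 h2 ⊢
    have e : f x * g x - f y * g y = f x * (g x - g y) + g y * (f x - f y) := by ring
    rw [e]
    refine (abs_add_le _ _).trans ?_
    rw [abs_mul, abs_mul]
    push_cast
    have a1 := mul_le_mul (hA x) h2 (abs_nonneg _) A.2
    have a2 := mul_le_mul (hB y) h1 (abs_nonneg _) B.2
    linarith

/-- The cut-off in the first variable. -/
def redZ (T : ℝ) (x : E (n + 1)) : ℝ := max 0 (min 1 (T + 1 - |x 0|))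

theorem red_Z_nonneg (T : ℝ) (x : E (n + 1)) : 0 ≤ redZ T x := le_max_left _ _

theorem red_Z_le (T : ℝ) (x : E (n + 1)) : redZ T x ≤ 1 := max_le zero_le_one (min_le_left _ _)

theorem red_Z_one {T : ℝ} {x : E (n + 1)} (h : |x 0| < T) : redZ T x = 1 := by
  unfold redZ
  rw [min_eq_left (by linarith), max_eq_right zero_le_one]

theorem red_Z_zero {T : ℝ} {x : E (n + 1)} (h : T + 1 ≤ |x 0|) : redZ T x = 0 :=
  max_eq_left ((min_le_right _ _).trans (by linarith))

theorem red_Z_lip (T : ℝ) : LipschitzWith 1 (redZ (n := n) T) := by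
  have h : LipschitzWith 1 fun x : E (n + 1) => T + 1 - |x 0| :=
    LipschitzWith.of_dist_le_mul fun x y => by
      rw [Real.dist_eq, dist_eq_norm, NNReal.coe_one, one_mul]
      have h1 : ‖(x - y) 0‖ ≤ ‖x - y‖ := PiLp.norm_apply_le (x - y) 0
      rw [PiLp.sub_apply, Real.norm_eq_abs] at h1
      have e : T + 1 - |x 0| - (T + 1 - |y 0|) = |y 0| - |x 0| := by ring
      rw [e, abs_sub_comm]
      exact (abs_abs_sub_abs_le_abs_sub _ _).trans h1
  exact (h.const_min 1).const_max 0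

theorem red_bound {φ : E n → ℝ} (hφ : Continuous φ) {R : ℝ} (h : ∀ y, R ≤ ‖y‖ → φ y = 0) :
    ∃ M : ℝ≥0, ∀ y, |φ y| ≤ M := by
  obtain ⟨C, hC⟩ := (isCompact_closedBall (0 : E n) R).exists_bound_of_continuousOn
    hφ.continuousOn
  refine ⟨C.toNNReal, fun y => ?_⟩
  by_cases hy : R ≤ ‖y‖
  · rw [h y hy, abs_zero]
    exact NNReal.coe_nonneg _
  · exact (hC y (mem_closedBall_zero_iff.2 (not_le.1 hy).le)).trans (Real.le_coe_toNNReal C)

theorem red_ae (h_aeq : S_aeq) {m : ℕ} {F V : E m → ℝ} (hF : Lip F) (hV : Lip V) :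
    ∀ᵐ x, F x = V x → redD F x = redD V x := by
  obtain ⟨a, ha⟩ := hF
  obtain ⟨b, hb⟩ := hV
  filter_upwards [h_aeq m (fun x => F x - V x) ⟨_, ha.sub hb⟩, ha.ae_differentiableAt,
    hb.ae_differentiableAt] with x h1 h2 h3 h4
  refine red_D_congr h4 ?_
  have h5 := h1 (sub_eq_zero.2 h4)
  rw [fderiv_fun_sub h2 h3] at h5
  exact sub_eq_zero.1 h5

/-- The comparison on a cylinder of length `T`. -/
theorem red_cyl (h_aeq : S_aeq) {w f : E n → ℝ} {F : E (n + 1) → ℝ} {R T : ℝ} {K : ℝ≥0}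
    (hV : LMin fun x => w (redP n x)) (hw : Lip w) (hf : Lip f) (hT : 0 ≤ T) (hR : 0 ≤ R)
    (hF : LipschitzWith K F) (hF0 : ∀ x, 0 ≤ F x)
    (h1 : ∀ x, x ∉ redC n (T + 1) R → F x = w (redP n x))
    (h2 : ∀ x ∈ redC n T R, F x = f (redP n x)) :
    T * (en (ball 0 R) w - en (ball 0 R) f) ≤ ∫ _ in ball (0 : E n) R, ((K : ℝ) ^ 2 + 1) := by
  have hb : ∀ (m : ℕ) (r : ℝ), volume (ball (0 : E m) r) ≠ ⊤ := fun m r => measure_ball_lt_top.ne
  have hc : ∀ a : ℝ, volume (redC n a R) ≠ ⊤ := fun a =>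
    ((measure_mono (red_C_sub a R)).trans_lt measure_ball_lt_top).ne
  have a1 := hV.min (T + 1 + R) F ⟨K, hF⟩ hF0 fun x hx => h1 x fun hc' =>
    absurd (mem_ball_zero_iff.1 (red_C_sub _ _ hc')) (not_lt.2 hx)
  rw [red_en hV.lip (hb _ _), red_en ⟨K, hF⟩ (hb _ _), ← sub_nonneg,
    ← integral_sub (red_int_D ⟨K, hF⟩ (hb _ _)) (red_int_D hV.lip (hb _ _)),
    setIntegral_eq_of_subset_of_ae_sdiff_eq_zero measurableSet_ball.nullMeasurableSet
      (red_C_sub (T + 1) R) (by
        filter_upwards [red_ae h_aeq ⟨K, hF⟩ hV.lip] with x hx hx'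
        exact sub_eq_zero.2 (hx (h1 x hx'.2)))] at a1
  have hi : ∀ a : ℝ, IntegrableOn (fun x => redD F x - redD (fun x => w (redP n x)) x)
      (redC n a R) := fun a => (red_int_D ⟨K, hF⟩ (hc a)).sub (red_int_D hV.lip (hc a))
  have a2 : ∫ x in redC n T R, ((K : ℝ) ^ 2 + 1 - (redD F x - redD (fun x => w (redP n x)) x)) ≤
      ∫ x in redC n (T + 1) R, ((K : ℝ) ^ 2 + 1 - (redD F x - redD (fun x => w (redP n x)) x)) :=
    setIntegral_mono_set ((integrableOn_const (hc _)).sub (hi _))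
      (Eventually.of_forall fun x => by
        have b1 := red_D_le hF x
        have b2 := red_D_nonneg (fun x => w (redP n x)) x
        simp only [Pi.zero_apply]
        linarith)
      (LE.le.eventuallyLE fun x hx => ⟨hx.1.trans (lt_add_one T), hx.2⟩)
  have hk : ∀ a : ℝ, IntegrableOn (fun _ => (K : ℝ) ^ 2 + 1) (redC n a R) := fun a =>
    integrableOn_const (hc a)
  rw [integral_sub (hk T) (hi T), integral_sub (hk (T + 1)) (hi (T + 1)),
    red_C_int (fun _ => (K : ℝ) ^ 2 + 1) hT R,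
    red_C_int (fun _ => (K : ℝ) ^ 2 + 1) (by linarith : 0 ≤ T + 1) R] at a2
  have a3 : ∫ x in redC n T R, (redD F x - redD (fun x => w (redP n x)) x) =
      2 * T * (en (ball 0 R) f - en (ball 0 R) w) := by
    rw [red_en hf (hb _ _), red_en hw (hb _ _),
      ← integral_sub (red_int_D hf (hb _ _)) (red_int_D hw (hb _ _)),
      ← red_C_int (fun y => redD f y - redD w y) hT R]
    refine setIntegral_congr_fun (red_C_open T R).measurableSet fun x hx => ?_
    beta_reduce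
    rw [red_D_comp, ← red_D_comp f]
    congr 1
    refine red_D_congr (h2 x hx) (Filter.EventuallyEq.fderiv_eq ?_)
    filter_upwards [(red_C_open T R).mem_nhds hx] with z hz using h2 z hz
  rw [a3] at a2
  linarith

theorem red_min (h_aeq : S_aeq) {w f : E n → ℝ} {R : ℝ} (hV : LMin fun x => w (redP n x))
    (hw : Lip w) (hw0 : ∀ y, 0 ≤ w y) (hf : Lip f) (hf0 : ∀ y, 0 ≤ f y)
    (h : ∀ y, R ≤ ‖y‖ → f y = w y) : en (ball 0 R) w ≤ en (ball 0 R) f := by
  rcases le_or_gt R 0 with hR | hR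
  · rw [show f = w from funext fun y => h y (hR.trans (norm_nonneg y))]
  obtain ⟨a, ha⟩ := id hw
  obtain ⟨b, hb⟩ := id hf
  obtain ⟨M, hM⟩ := red_bound (φ := fun y => f y - w y) (hb.sub ha).continuous
    fun y hy => sub_eq_zero.2 (h y hy)
  have key : ∀ T : ℝ, 0 ≤ T → T * (en (ball 0 R) w - en (ball 0 R) f) ≤
      ∫ _ in ball (0 : E n) R, (((a * 1 + (1 * ((b + a) * 1) + M * 1) : ℝ≥0) : ℝ) ^ 2 + 1) := by
    intro T hT
    refine red_cyl h_aeq (F := fun x => w (redP n x) + redZ T x * (f (redP n x) - w (redP n x)))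
      hV hw hf hT hR.le ((ha.comp red_lipP).add (red_lip_mul 1 M (red_Z_lip T)
        ((hb.sub ha).comp red_lipP) (fun x => ?_) fun x => hM _)) (fun x => ?_) (fun x hx => ?_)
      fun x hx => ?_
    · rw [abs_of_nonneg (red_Z_nonneg T x)]
      exact red_Z_le T x
    · have b1 := mul_nonneg (red_Z_nonneg T x) (hf0 (redP n x))
      have b2 := mul_nonneg (sub_nonneg.2 (red_Z_le T x)) (hw0 (redP n x))
      nlinarith
    · by_cases h0 : T + 1 ≤ |x 0|
      · simp only [red_Z_zero h0, zero_mul, add_zero]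
      · have h3 : R ≤ ‖redP n x‖ := not_lt.1 fun h4 => hx ⟨not_le.1 h0, h4⟩
        simp only [h _ h3, sub_self, mul_zero, add_zero]
    · simp only [red_Z_one hx.1, one_mul, add_sub_cancel]
  generalize (∫ _ in ball (0 : E n) R,
    (((a * 1 + (1 * ((b + a) * 1) + M * 1) : ℝ≥0) : ℝ) ^ 2 + 1)) = C at key
  by_contra hlt
  have hd : 0 < en (ball 0 R) w - en (ball 0 R) f := sub_pos.2 (not_le.1 hlt)
  have h1 := key ((|C| + 1) / (en (ball 0 R) w - en (ball 0 R) f)) (by positivity)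
  rw [div_mul_cancel₀ _ hd.ne'] at h1
  linarith [le_abs_self C]

theorem red_e0 (h_aeq : S_aeq) {V : E (n + 1) → ℝ} (hc : ConeFlat n) (hV : LMin V) (hH : Hom V)
    (h : ∀ (x : E (n + 1)) (t : ℝ),
      V (x + t • EuclideanSpace.single (0 : Fin (n + 1)) (1 : ℝ)) = V x) : Flat V := by
  have e : ∀ x, V x = V (redI n (redP n x)) := fun x => by
    conv_lhs => rw [red_split x, h]
  have hw : Lip fun y => V (redI n y) := by
    obtain ⟨L, hL⟩ := hV.lip
    exact ⟨_, hL.comp red_lipI⟩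
  have hV' : LMin fun x => (fun y => V (redI n y)) (redP n x) := by
    rw [show (fun x => (fun y => V (redI n y)) (redP n x)) = V from funext fun x => (e x).symm]
    exact hV
  have hm : LMin fun y => V (redI n y) :=
    ⟨hw, fun y => hV.nonneg _, fun R f hf hf0 hR =>
      red_min h_aeq hV' hw (fun y => hV.nonneg _) hf hf0 hR⟩
  rcases hc _ hm (fun r y hr => by simp only [map_smul, hH r _ hr]) with h0 | ⟨u, hu, h0⟩
  · exact Or.inl fun x => (e x).trans (h0 _)
  · exact Or.inr ⟨redI n u, (red_norm_I u).trans hu, fun x => by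
      rw [e x, red_inner]
      exact h0 _⟩

theorem red (h_aeq : S_aeq) (h_inv_min : S_inv) : S_red := by
  intro n v x₀ hc hx hv hH h
  have hn : ‖x₀‖ ≠ 0 := norm_ne_zero_iff.2 hx
  have h1 : ‖EuclideanSpace.single (0 : Fin (n + 1)) (1 : ℝ)‖ = ‖‖x₀‖⁻¹ • x₀‖ := by
    rw [norm_smul, norm_inv, norm_norm, inv_mul_cancel₀ hn]
    simp
  obtain ⟨R, hR⟩ : ∃ R : E (n + 1) ≃ₗᵢ[ℝ] E (n + 1),
      R (EuclideanSpace.single (0 : Fin (n + 1)) (1 : ℝ)) = ‖x₀‖⁻¹ • x₀ :=
    ⟨_, Submodule.reflection_sub h1⟩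
  have h2 : Flat (v ∘ R) := red_e0 h_aeq hc ((h_inv_min _ v hv).2 R)
    (fun r x hr => by simp only [Function.comp_apply, map_smul, hH r _ hr])
    fun x t => by simp only [Function.comp_apply, map_add, map_smul, hR, smul_smul, h]
  rcases h2 with h0 | ⟨u, hu, h0⟩
  · exact Or.inl fun x => by simpa using h0 (R.symm x)
  · refine Or.inr ⟨R u, (R.norm_map u).trans hu, fun x => ?_⟩
    have h3 := h0 (R.symm x)
    rw [Function.comp_apply, R.apply_symm_apply, ← R.inner_map_map, R.apply_symm_apply] at h3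
    exact h3

end Vale.Agent.P098
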