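import Vale.Agent.P098.Reg3

/-!
# P098: regularity of a cone up to the free boundary
-/

open MeasureTheory Set Metric Filter
open scoped ContDiff RealInnerProductSpace Topology NNReal

noncomputable section
namespace Vale.Agent.P098

variable {n : ℕ}

lemma reg_zero {u : E n → ℝ} (hh : Hom u) : u 0 = 0 := by
  have := hh 2 0 two_pos
  rw [smul_zero] at this
  linarith

/-- Points with a small value are close to the free boundary. -/
lemma reg_near {u : E n → ℝ} (hc : Continuous u) (h0 : ∀ x, 0 ≤ u x) (hz : u 0 = 0) (d₀ : ℝ)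
    (hd : 0 < d₀) : ∃ δ : ℝ, 0 < δ ∧ ∀ x ∈ Om u, ‖x‖ ≤ 2 → u x < δ → ∃ x₀, FB u x₀ ∧
      0 < ‖x - x₀‖ ∧ ‖x - x₀‖ < d₀ ∧ ∀ y ∈ ball x ‖x - x₀‖, 0 < u y := by
  have hZ : IsClosed {y | u y = 0} := isClosed_eq hc continuous_const
  have hne : ({y | u y = 0} : Set (E n)).Nonempty := ⟨0, hz⟩
  have hS : IsCompact (closedBall (0 : E n) 2 ∩ {x | d₀ ≤ infDist x {y | u y = 0}}) :=
    (isCompact_closedBall _ _).inter_right (isClosed_le continuous_const (continuous_infDist_pt _))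
  obtain ⟨δ, hδ, h⟩ := hS.exists_forall_le' hc.continuousOn (a := 0) fun x hx => by
    refine lt_of_le_of_ne (h0 x) fun e => ?_
    have h1 : d₀ ≤ infDist x {y | u y = 0} := hx.2
    rw [infDist_zero_of_mem (show x ∈ {y | u y = 0} from e.symm)] at h1
    linarith
  refine ⟨δ, hδ, fun x hx h2 hu => ?_⟩
  obtain ⟨x₀, hx₀, e⟩ := hZ.exists_infDist_eq_dist hne x
  rw [dist_eq_norm] at e
  have p1 : 0 < ‖x - x₀‖ := by
    refine norm_pos_iff.2 (sub_ne_zero.2 ?_)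
    rintro rfl
    exact absurd hx₀ (ne_of_gt hx)
  have p2 : ∀ y ∈ ball x ‖x - x₀‖, 0 < u y := by
    intro y hy
    refine lt_of_le_of_ne (h0 y) fun e' => ?_
    have := infDist_le_dist_of_mem (x := x) (show y ∈ {y | u y = 0} from e'.symm)
    rw [mem_ball, dist_comm] at hy
    linarith
  refine ⟨x₀, ⟨hx₀, ?_⟩, p1, ?_, p2⟩
  · refine closure_mono (s := ball x ‖x - x₀‖) p2 ?_
    rw [closure_ball x p1.ne', mem_closedBall, dist_comm, dist_eq_norm]
  · by_contra hh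
    have := h x ⟨mem_closedBall_zero_iff.2 h2, by
      change d₀ ≤ infDist x {y | u y = 0}
      rw [e]; exact not_lt.1 hh⟩
    linarith

/-- The key lemma. -/
lemma reg_key (h_est : S_est) (hc : S_cub) (h_admR : S_admR) {u : E n → ℝ} (hu : LMin u)
    (hh : Hom u) (hH : Harm (Om u) u) (hJ : JetU u) : ∃ C : ℝ, ∀ η : ℝ, 0 < η → ∃ δ : ℝ, 0 < δ ∧
      ∀ x ∈ Om u, 1 ≤ ‖x‖ → ‖x‖ ≤ 2 → u x < δ → ∃ (b : T1 n) (A : T2 n) (B : T3 n),
        (‖A‖ ≤ C ∧ ‖B‖ ≤ C) ∧ Adm b A B ∧ ‖D1 u x - b‖ ≤ η ∧ ‖D2 u x - A‖ ≤ η ∧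
        ‖D3 u x - B‖ ≤ η ∧ |(1 - ∑ i, D1 u x i ^ 2) / u x - 2 * Vale.Agent.P098.hh b A| ≤ η := by
  obtain ⟨Ce, -, he⟩ := h_est n
  obtain ⟨Ca, hCa, ha⟩ := h_admR n
  obtain ⟨C, r₀, hC, hr₀, hJ⟩ := hJ
  obtain ⟨L, hL⟩ := hu.lip
  refine ⟨C, fun η hη => ?_⟩
  obtain ⟨s₀, hs₀, hsm⟩ := reg_small n Ce Ca C η hη
  obtain ⟨δ, hδ, hn⟩ := reg_near hL.continuous hu.nonneg (reg_zero hh)
    (min (min (r₀ / 2) (1 / 2)) (s₀ ^ 2 / 2)) (by positivity)
  refine ⟨δ, hδ, fun x hx h1 h2 h3 => ?_⟩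
  obtain ⟨x₀, hFB, d0, d1, hpos⟩ := hn x hx h2 h3
  have d2 : ‖x - x₀‖ < r₀ / 2 := d1.trans_le ((min_le_left _ _).trans (min_le_left _ _))
  have d3 : ‖x - x₀‖ < 1 / 2 := d1.trans_le ((min_le_left _ _).trans (min_le_right _ _))
  have d4 : ‖x - x₀‖ < s₀ ^ 2 / 2 := d1.trans_le (min_le_right _ _)
  obtain ⟨s, hs, hd⟩ : ∃ s : ℝ, 0 < s ∧ ‖x - x₀‖ = s ^ 2 / 2 :=
    ⟨√(2 * ‖x - x₀‖), Real.sqrt_pos.2 (by linarith), by rw [Real.sq_sqrt (by linarith)]; ring⟩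
  have n1 := norm_sub_norm_le x x₀
  have n2 := norm_sub_norm_le x₀ x
  rw [norm_sub_rev] at n2
  obtain ⟨b, A, B, hadm, hA, hB, hT⟩ := hJ x₀ hFB (by linarith) (by linarith)
  have hT' := hT (s ^ 2) (by positivity) (by linarith)
  rw [Real.sqrt_sq hs.le] at hT'
  rw [hd] at hpos
  refine ⟨b, A, B, ⟨hA, hB⟩, hadm, reg_loc (fun U h x r a1 a2 a3 a4 => (he U h x r a1 a2 a3 a4).1)
    ha hCa.le hc u x x₀ b A B C η s hs hη hadm hA hB hd
    ⟨hH.1.mono hpos, fun y hy => hH.2 y (hpos y hy)⟩ hpos (fun y hy => ?_)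
    (hsm s hs (lt_of_pow_lt_pow_left₀ 2 hs₀.le (by linarith)))⟩
  have hy' : y ∈ ball x₀ (s ^ 2) := by
    have := dist_triangle y x x₀
    rw [dist_eq_norm x, hd] at this
    rw [mem_ball] at hy ⊢
    linarith
  obtain ⟨t1, t2⟩ := hT' y hy'
  have t3 := hpos y hy
  rw [abs_le]
  constructor
  · linarith
  · rcases le_max_iff.1 t2 with h | h <;> linarith

lemma reg_cpt {u : E n → ℝ} (hc : Continuous u) (δ : ℝ) :
    IsCompact {x : E n | 1 ≤ ‖x‖ ∧ ‖x‖ ≤ 2 ∧ δ ≤ u x} := by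
  refine (isCompact_closedBall (0 : E n) 2).of_isClosed_subset ?_ fun x hx =>
    mem_closedBall_zero_iff.2 hx.2.1
  exact (isClosed_le continuous_const continuous_norm).inter
    ((isClosed_le continuous_norm continuous_const).inter (isClosed_le continuous_const hc))

lemma reg_cont1 {U : Set (E n)} (hU : IsOpen U) {u : E n → ℝ} (hs : ContDiffOn ℝ ∞ u U) :
    ContinuousOn (D1 u) U := continuousOn_pi.2 fun i => (div_sm hU hs i).continuousOn

/-- If the gradient has a maximal length at an interior point, it is constant on a half space. -/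
lemma reg_half (h_harnack : S_harnack) {u : E n → ℝ} (hc : Continuous u) (hH : Harm (Om u) u)
    (hE : ∀ x ∈ Om u, ∑ i, x i * D1 u x i = u x) {y : E n} (hy : y ∈ Om u)
    (hm : ∀ x ∈ Om u, ∑ i, D1 u x i ^ 2 ≤ ∑ i, D1 u y i ^ 2) (x : E n)
    (hx : 0 < ∑ i, x i * D1 u y i) : x ∈ Om u ∧ D1 u x = D1 u y := by
  obtain ⟨c, hc0, hk⟩ := h_harnack n
  have hO : IsOpen (Om u) := isOpen_lt continuous_const hc
  have hyE := hE y hy
  obtain ⟨p, hp⟩ : ∃ p, D1 u y = p := ⟨_, rfl⟩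
  rw [hp] at hm hx hyE ⊢
  have hh := reg_harm_comb hO (∑ i, p i ^ 2) p (fun k => pd k u) (div_harm hO hH) Finset.univ
  have e : ∀ z, 2 * (∑ i, p i ^ 2 - ∑ k, p k * pd k u z) =
      ∑ i, (D1 u z i - p i) ^ 2 + (∑ i, p i ^ 2 - ∑ i, D1 u z i ^ 2) := by
    intro z
    simp only [D1, Finset.mul_sum, ← Finset.sum_sub_distrib, ← Finset.sum_add_distrib]
    exact Finset.sum_congr rfl fun i _ => by ring
  have s0 : ∀ z, 0 ≤ ∑ i, (D1 u z i - p i) ^ 2 := fun z => Finset.sum_nonneg fun i _ => sq_nonneg _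
  have hW : IsOpen {z | z ∈ Om u ∧ D1 u z = p} := by
    refine Metric.isOpen_iff.2 fun z hz => ?_
    obtain ⟨r, hr, hb⟩ := Metric.nhds_basis_closedBall.mem_iff.1 (hO.mem_nhds hz.1)
    refine ⟨r / 10, by positivity, fun w hw => ?_⟩
    have hw1 : w ∈ Om u := hb (closedBall_subset_closedBall (by linarith) (ball_subset_closedBall hw))
    have k := (hk _ _ z r hO hh hr hb (fun v hv => by
      have := e v
      have := s0 v
      have := hm v (hb hv)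
      linarith) w (ball_subset_closedBall hw)).2
    have k1 := e z
    rw [hz.2] at k1
    simp only [sub_self, ne_eq, OfNat.ofNat_ne_zero, not_false_eq_true, zero_pow,
      Finset.sum_const_zero, add_zero] at k1
    have k2 : ∑ i, p i ^ 2 - ∑ k, p k * pd k u w ≤ 0 := by
      by_contra hh'
      have := mul_pos hc0 (not_le.1 hh')
      linarith
    have k3 : ∑ i, (D1 u w i - p i) ^ 2 = 0 := by
      have := e w
      have := s0 w
      have := hm w hw1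
      linarith
    refine ⟨hw1, funext fun i => ?_⟩
    have := (Finset.sum_eq_zero_iff_of_nonneg fun i _ => sq_nonneg _).1 k3 i (Finset.mem_univ i)
    exact sub_eq_zero.1 (pow_eq_zero_iff two_ne_zero |>.1 this)
  have hl : Continuous fun z : E n => ∑ i, z i * p i := by fun_prop
  have hconv : Convex ℝ {z : E n | 0 < ∑ i, z i * p i} := by
    refine convex_halfSpace_gt ⟨fun a b => ?_, fun a b => ?_⟩ 0
    · simp [add_mul, Finset.sum_add_distrib]
    · simp [Finset.mul_sum, mul_assoc]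
  refine hconv.isPreconnected.subset_of_closure_inter_subset hW
    ⟨y, lt_of_lt_of_eq hy hyE.symm, hy, hp⟩ ?_ hx
  rintro z ⟨hz1, hz2⟩
  have a1 : u z = ∑ i, z i * p i := by
    refine closure_minimal (t := {z | u z = ∑ i, z i * p i}) ?_ (isClosed_eq hc hl) hz1
    intro w hw
    have := hE w hw.1
    rw [hw.2] at this
    exact this.symm
  have a2 : z ∈ Om u := by change 0 < u z; rw [a1]; exact hz2
  refine ⟨a2, ?_⟩
  have a3 : ContinuousWithinAt (D1 u) {z | z ∈ Om u ∧ D1 u z = p} z :=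
    ((reg_cont1 hO hH.1).continuousAt (hO.mem_nhds a2)).continuousWithinAt
  have a4 := a3.mem_closure hz1 (t := {p}) fun w hw => hw.2
  rwa [closure_singleton] at a4

lemma reg_perp (hn : 2 ≤ n) (p : T1 n) : ∃ v : E n, v ≠ 0 ∧ ∑ i, v i * p i = 0 := by
  have h := LinearMap.ker_ne_bot_of_finrank_lt
    (f := (innerSL ℝ (WithLp.toLp 2 p : E n) : E n →ₗ[ℝ] ℝ)) (by simp; omega)
  obtain ⟨v, hv, hv0⟩ := (Submodule.ne_bot_iff _).1 h
  refine ⟨v, hv0, ?_⟩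
  simpa [PiLp.inner_apply] using hv

theorem reg (h_est : S_est) (h_harnack : S_harnack) (h_cub_calc : S_cub) (h_admR : S_admR) (h_harm : S_harm) (h_jets : S_jets) : S_reg := by
  intro n u hn hu hh hJ
  have hH := h_harm n u hu
  obtain ⟨L, hL⟩ := hu.lip
  have hc := hL.continuous
  have hO : IsOpen (Om u) := isOpen_lt continuous_const hc
  have hcone : ∀ (t : ℝ) (x : E n), 0 < t → x ∈ Om u → t • x ∈ Om u := fun t x ht hx => by
    change 0 < u (t • x)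
    rw [hh t x ht]; exact mul_pos ht hx
  have hj := h_jets n u (Om u) hO hH hh hcone
  obtain ⟨C, hK⟩ := reg_key h_est h_cub_calc h_admR hu hh hH hJ
  refine ⟨fun y₁ hy₁ => ?_, ?_, fun η hη => ?_⟩
  · by_contra hgt
    rw [not_le] at hgt
    obtain ⟨η, η0, η1, η2⟩ : ∃ η : ℝ, 0 < η ∧ η ≤ 1 ∧ n * (η * 3) < ∑ i, D1 u y₁ i ^ 2 - 1 := by
      have hpos : 0 < (∑ i, D1 u y₁ i ^ 2 - 1) / (3 * n + 1) :=
        div_pos (by linarith) (by positivity)
      refine ⟨min 1 _, lt_min one_pos hpos, min_le_left _ _, ?_⟩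
      have a1 : min 1 ((∑ i, D1 u y₁ i ^ 2 - 1) / (3 * n + 1)) * (3 * n + 1) ≤
          ∑ i, D1 u y₁ i ^ 2 - 1 := by
        rw [← le_div_iff₀ (by positivity)]; exact min_le_right _ _
      linarith [lt_min one_pos hpos]
    obtain ⟨δ, hδ, hk⟩ := hK η η0
    have hnorm : ∀ x ∈ Om u, ∑ i, D1 u y₁ i ^ 2 ≤ ∑ i, D1 u x i ^ 2 → δ * ‖x‖ ≤ u x ∧
        ∃ x' ∈ {x : E n | 1 ≤ ‖x‖ ∧ ‖x‖ ≤ 2 ∧ δ ≤ u x}, D1 u x' = D1 u x := by
      intro x hx hs
      have x0 : 0 < ‖x‖ := by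
        refine norm_pos_iff.2 ?_
        rintro rfl
        exact absurd (reg_zero hh) (ne_of_gt hx)
      have t0 : 0 < ‖x‖⁻¹ := inv_pos.2 x0
      have e1 : ‖‖x‖⁻¹ • x‖ = 1 := by
        rw [norm_smul, norm_inv, norm_norm, inv_mul_cancel₀ x0.ne']
      have e2 := ((hj x hx).2.2.2.2.2 _ t0).1
      have e3 : δ ≤ u (‖x‖⁻¹ • x) := by
        by_contra hlt
        obtain ⟨b, A, B, -, hadm, k1, -⟩ := hk _ (hcone _ x t0 hx) e1.ge (by linarith)
          (not_le.1 hlt)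
        rw [e2] at k1
        have k2 : ∀ i, |D1 u x i - b i| ≤ η := fun i => (reg_n1 (D1 u x - b) i).trans k1
        have k3 := reg_sq_diff (D1 u x) b η 3 k2 fun i => by
          have a1 := abs_le.1 (k2 i)
          have a2 := abs_le.1 ((reg_unit b hadm.unit).2 i)
          rw [abs_le]
          constructor <;> linarith
        rw [hadm.unit] at k3
        linarith [(abs_le.1 k3).2]
      refine ⟨?_, _, ⟨e1.ge, by linarith, e3⟩, e2⟩
      rwa [hh _ x t0, ← div_eq_inv_mul, le_div_iff₀ x0] at e3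
    have hsub : {x : E n | 1 ≤ ‖x‖ ∧ ‖x‖ ≤ 2 ∧ δ ≤ u x} ⊆ Om u := fun x hx =>
      lt_of_lt_of_le hδ hx.2.2
    obtain ⟨-, y₂, hy₂, e₂⟩ := hnorm y₁ hy₁ le_rfl
    have hcs : ContinuousOn (fun x => ∑ i, D1 u x i ^ 2) (Om u) :=
      continuousOn_finsetSum _ fun i _ => ((div_sm hO hH.1 i).continuousOn).pow 2
    obtain ⟨y, hy, hmax⟩ := (reg_cpt hc δ).exists_isMaxOn ⟨y₂, hy₂⟩ (hcs.mono hsub)
    have m1 : ∑ i, D1 u y₁ i ^ 2 ≤ ∑ i, D1 u y i ^ 2 := by rw [← e₂]; exact hmax hy₂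
    have m2 : ∀ x ∈ Om u, ∑ i, D1 u x i ^ 2 ≤ ∑ i, D1 u y i ^ 2 := by
      intro x hx
      rcases le_total (∑ i, D1 u y₁ i ^ 2) (∑ i, D1 u x i ^ 2) with h | h
      · obtain ⟨-, x', hx', e'⟩ := hnorm x hx h
        rw [← e']; exact hmax hx'
      · exact h.trans m1
    have hhalf := reg_half h_harnack hc hH (fun x hx => (hj x hx).2.2.2.1) (hsub hy) m2
    obtain ⟨v, hv0, hv⟩ := reg_perp hn (D1 u y)
    obtain ⟨p, hp⟩ : ∃ p, D1 u y = p := ⟨_, rfl⟩
    rw [hp] at hhalf hv m1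
    obtain ⟨M, hM⟩ : ∃ M, ∑ i, p i ^ 2 = M := ⟨_, rfl⟩
    have hM0 : 0 < M := by linarith
    have hv1 : 0 < ‖v‖ := norm_pos_iff.2 hv0
    have hfin : ∀ t : ℝ, 0 < t → δ * (‖v‖ - t * ‖(WithLp.toLp 2 p : E n)‖) ≤ t * M := by
      intro t ht
      have e : ∑ i, (v + t • (WithLp.toLp 2 p : E n)) i * p i = t * M := by
        rw [← hM, Finset.mul_sum, ← zero_add (∑ i, t * p i ^ 2), ← hv, ← Finset.sum_add_distrib]
        refine Finset.sum_congr rfl fun i _ => ?_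
        simp only [PiLp.add_apply, PiLp.smul_apply, smul_eq_mul]
        ring
      obtain ⟨a1, a2⟩ := hhalf _ (by rw [e]; positivity)
      have a3 := (hnorm _ a1 (by rw [a2]; exact m1)).1
      have a4 := (hj _ a1).2.2.2.1
      rw [a2, e] at a4
      have a5 := norm_sub_norm_le v (-(t • (WithLp.toLp 2 p : E n)))
      rw [norm_neg, sub_neg_eq_add, norm_smul, Real.norm_eq_abs, abs_of_pos ht] at a5
      have a6 := mul_le_mul_of_nonneg_left a5 hδ.le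
      linarith
    have hden : 0 < M + δ * ‖(WithLp.toLp 2 p : E n)‖ := by positivity
    have := hfin (δ * ‖v‖ / 2 / (M + δ * ‖(WithLp.toLp 2 p : E n)‖)) (by positivity)
    have e := div_mul_cancel₀ (δ * ‖v‖ / 2) hden.ne'
    have := mul_pos hδ hv1
    linarith
  · obtain ⟨δ, hδ, hk⟩ := hK 1 one_pos
    have hsub : {x : E n | 1 ≤ ‖x‖ ∧ ‖x‖ ≤ 2 ∧ δ ≤ u x} ⊆ Om u := fun x hx =>
      lt_of_lt_of_le hδ hx.2.2
    have c2 : ContinuousOn (D2 u) (Om u) := continuousOn_pi.2 fun i => continuousOn_pi.2 fun j =>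
      (div_sm hO (div_sm hO hH.1 j) i).continuousOn
    have c3 : ContinuousOn (D3 u) (Om u) := continuousOn_pi.2 fun i => continuousOn_pi.2 fun j =>
      continuousOn_pi.2 fun k => (div_sm hO (div_sm hO (div_sm hO hH.1 k) j) i).continuousOn
    obtain ⟨C2, h2⟩ := (reg_cpt hc δ).exists_bound_of_continuousOn (c2.mono hsub)
    obtain ⟨C3, h3⟩ := (reg_cpt hc δ).exists_bound_of_continuousOn (c3.mono hsub)
    refine ⟨max (C + 1) (max C2 C3), fun x hx n1 n2 => ?_⟩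
    rcases lt_or_ge (u x) δ with h | h
    · obtain ⟨b, A, B, ⟨a1, a2⟩, -, -, a3, a4, -⟩ := hk x hx n1 n2 h
      exact ⟨le_max_of_le_left (by linarith [norm_sub_norm_le (D2 u x) A]),
        le_max_of_le_left (by linarith [norm_sub_norm_le (D3 u x) B])⟩
    · exact ⟨le_max_of_le_right (le_max_of_le_left (h2 x ⟨n1, n2, h⟩)),
        le_max_of_le_right (le_max_of_le_right (h3 x ⟨n1, n2, h⟩))⟩
  · obtain ⟨δ, hδ, hk⟩ := hK η hη
    refine ⟨δ, hδ, fun x hx n1 n2 h => ?_⟩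
    obtain ⟨b, A, B, -, a⟩ := hk x hx n1 n2 h
    exact ⟨b, A, B, a⟩

end Vale.Agent.P098
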