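import Vale.Agent.P098.Iface

open MeasureTheory Set Metric Filter
open scoped ContDiff RealInnerProductSpace Topology NNReal

noncomputable section
namespace Vale.Agent.P098

variable {n : ℕ}

theorem scale_sqA (a : ℝ) (A : T2 n) : sqA (a • A) = a ^ 2 • sqA A := by
  funext i j
  simp only [sqA, Pi.smul_apply, smul_eq_mul, Finset.mul_sum]
  exact Finset.sum_congr rfl fun k _ => by ring

theorem scale_nA (a : ℝ) (A : T2 n) : nA (a • A) = a ^ 2 * nA A := by
  simp only [nA, Pi.smul_apply, smul_eq_mul, Finset.mul_sum, mul_pow]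

theorem scale_tA (a : ℝ) (A : T2 n) : tA (a • A) = a ^ 3 * tA A := by
  simp only [tA, scale_sqA, Pi.smul_apply, smul_eq_mul, Finset.mul_sum]
  exact Finset.sum_congr rfl fun i _ => Finset.sum_congr rfl fun j _ => by ring

theorem scale_nB (b : ℝ) (B : T3 n) : nB (b • B) = b ^ 2 * nB B := by
  simp only [nB, Pi.smul_apply, smul_eq_mul, Finset.mul_sum, mul_pow]

theorem scale_ap (a : ℝ) (A : T2 n) (p : T1 n) (k : Fin n) : ap (a • A) p k = a * ap A p k := by
  simp only [ap, Pi.smul_apply, smul_eq_mul, Finset.mul_sum, mul_assoc]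

theorem scale_ct (a b : ℝ) (M : T2 n) (B : T3 n) (k : Fin n) :
    ct (a • M) (b • B) k = a * b * ct M B k := by
  simp only [ct, Pi.smul_apply, smul_eq_mul, Finset.mul_sum]
  exact Finset.sum_congr rfl fun i _ => Finset.sum_congr rfl fun j _ => by ring

theorem scale_hh (a : ℝ) (p : T1 n) (A : T2 n) : hh p (a • A) = a * hh p A := by
  simp only [hh, Pi.smul_apply, smul_eq_mul, Finset.mul_sum, mul_assoc, mul_neg]

theorem scale_abb (a b : ℝ) (A : T2 n) (B : T3 n) :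
    ∑ i, ∑ j, (a • A) i j * ∑ l, ∑ k, (b • B) i l k * (b • B) j l k =
      a * b ^ 2 * ∑ i, ∑ j, A i j * ∑ l, ∑ k, B i l k * B j l k := by
  simp only [Pi.smul_apply, smul_eq_mul, Finset.mul_sum]
  exact Finset.sum_congr rfl fun i _ => Finset.sum_congr rfl fun j _ =>
    Finset.sum_congr rfl fun l _ => Finset.sum_congr rfl fun k _ => by ring

theorem scale_sq (t : ℝ) (y : T1 n) : ∑ i, (t • y) i ^ 2 = t ^ 2 * ∑ i, y i ^ 2 := by
  simp only [Pi.smul_apply, smul_eq_mul, Finset.mul_sum, mul_pow]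

theorem scale_symTr {A : T2 n} {B : T3 n} (h : SymTr A B) (a b : ℝ) : SymTr (a • A) (b • B) where
  a i j := by simp only [Pi.smul_apply, h.a i j]
  b1 i j k := by simp only [Pi.smul_apply, h.b1 i j k]
  b2 i j k := by simp only [Pi.smul_apply, h.b2 i j k]
  ta := by simp only [Pi.smul_apply, smul_eq_mul, ← Finset.mul_sum, h.ta, mul_zero]
  tb k := by simp only [Pi.smul_apply, smul_eq_mul, ← Finset.mul_sum, h.tb k, mul_zero]

theorem scale_adm {p : T1 n} {A : T2 n} {B : T3 n} (h : Adm p A B) (a : ℝ) :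
    Adm p (a • A) (a ^ 2 • B) where
  st := scale_symTr h.st _ _
  unit := h.unit
  eig i := by
    simp only [scale_hh, Pi.smul_apply, smul_eq_mul, mul_assoc, ← Finset.mul_sum, h.eig i]
    ring
  tang x y hx hy := by
    have h1 := h.tang x y hx hy
    have h2 : ∀ i j, (∑ k, (a ^ 2 • B) i j k * p k + ∑ k, (a • A) i k * (a • A) k j +
        hh p (a • A) * (a • A) i j) * x i * y j =
        a ^ 2 * ((∑ k, B i j k * p k + ∑ k, A i k * A k j + hh p A * A i j) * x i * y j) := by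
      intro i j
      have e1 : ∑ k, (a ^ 2 • B) i j k * p k = a ^ 2 * ∑ k, B i j k * p k := by
        simp only [Pi.smul_apply, smul_eq_mul, Finset.mul_sum, mul_assoc]
      have e2 : ∑ k, (a • A) i k * (a • A) k j = a ^ 2 * ∑ k, A i k * A k j :=
        congrFun (congrFun (scale_sqA a A) i) j
      rw [e1, e2, scale_hh]
      simp only [Pi.smul_apply, smul_eq_mul]
      ring
    simp only [h2, ← Finset.mul_sum, h1, mul_zero]

theorem scale_nA_pos {A : T2 n} (h : A ≠ 0) : 0 < nA A := by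
  have h0 : 0 ≤ nA A := Finset.sum_nonneg fun i _ => Finset.sum_nonneg fun j _ => sq_nonneg _
  refine lt_of_le_of_ne h0 fun e => h ?_
  funext i j
  have h1 := (Finset.sum_eq_zero_iff_of_nonneg fun i _ =>
    Finset.sum_nonneg fun j _ => sq_nonneg (A i j)).1 e.symm i (Finset.mem_univ _)
  have h2 := (Finset.sum_eq_zero_iff_of_nonneg fun j _ => sq_nonneg (A i j)).1 h1 j
    (Finset.mem_univ _)
  exact pow_eq_zero_iff two_ne_zero |>.1 h2

theorem scale_x_pos {x : T1 n} (h : x ≠ 0) : 0 < ∑ i, x i ^ 2 := by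
  refine lt_of_le_of_ne (Finset.sum_nonneg fun i _ => sq_nonneg _) fun e => h ?_
  funext i
  have h2 := (Finset.sum_eq_zero_iff_of_nonneg fun j _ => sq_nonneg (x j)).1 e.symm i
    (Finset.mem_univ _)
  exact pow_eq_zero_iff two_ne_zero |>.1 h2

theorem scale_dom {x p : T1 n} {A : T2 n} {B : T3 n} {u : ℝ} (h : St x p A B u) :
    inv x p A u ∈ Dom := by
  refine ⟨scale_nA_pos h.a0, scale_x_pos h.x0, ?_⟩
  have : 0 ≤ u * √(nA A) := mul_nonneg h.u0 (Real.sqrt_nonneg _)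
  change -(1 / 2) < u * √(nA A)
  linarith

theorem scale_red {x p : T1 n} {A : T2 n} {B : T3 n} {u : ℝ} (h : St x p A B u) :
    ∃ (t : ℝ) (y : T1 n) (A' : T2 n) (B' : T3 n) (u' : ℝ), 0 < t ∧ St y p A' B' u' ∧
      ∑ i, y i ^ 2 = 1 ∧ x = t • y ∧ A = t⁻¹ • A' ∧ B = t⁻¹ ^ 2 • B' ∧ u = t * u' ∧
      (Adm p A B → Adm p A' B') := by
  have h0 := scale_x_pos h.x0
  have ht : 0 < √(∑ i, x i ^ 2) := Real.sqrt_pos.2 h0
  have ht2 : √(∑ i, x i ^ 2) ^ 2 = ∑ i, x i ^ 2 := Real.sq_sqrt h0.le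
  generalize √(∑ i, x i ^ 2) = t at ht ht2
  have hne := ht.ne'
  refine ⟨t, t⁻¹ • x, t • A, t ^ 2 • B, t⁻¹ * u, ht, ⟨scale_symTr h.st _ _, fun i => ?_,
    fun i j => ?_, ?_, mul_nonneg (inv_pos.2 ht).le h.u0, h.p1, smul_ne_zero (inv_ne_zero hne) h.x0,
    smul_ne_zero hne h.a0, ?_⟩, ?_, ?_, ?_, ?_, ?_, fun h => scale_adm h t⟩
  · have : ∀ j, (t • A) i j * (t⁻¹ • x) j = A i j * x j := fun j => by
      simp only [Pi.smul_apply, smul_eq_mul]
      field_simp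
    simp only [this, h.ax i]
  · have : ∀ k, (t ^ 2 • B) i j k * (t⁻¹ • x) k = t * (B i j k * x k) := fun k => by
      simp only [Pi.smul_apply, smul_eq_mul]
      field_simp
    simp only [this, ← Finset.mul_sum, h.bx i j]
    simp
  · simp only [Pi.smul_apply, smul_eq_mul, mul_assoc, ← Finset.mul_sum, h.px]
  · have e : (t⁻¹ * u) ^ 2 * nA (t • A) = u ^ 2 * nA A := by
      rw [scale_nA]
      field_simp
    exact e.trans_le h.uw
  · rw [scale_sq, ← ht2]
    field_simp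
  · rw [smul_smul, mul_inv_cancel₀ hne, one_smul]
  · rw [smul_smul, inv_mul_cancel₀ hne, one_smul]
  · rw [smul_smul, ← mul_pow, inv_mul_cancel₀ hne, one_pow, one_smul]
  · rw [← mul_assoc, mul_inv_cancel₀ hne, one_mul]

theorem scale_inv (t : ℝ) (y p : T1 n) (A : T2 n) (u : ℝ) :
    inv (t • y) p (t⁻¹ • A) (t * u) = sc t (inv y p A u) := by
  unfold inv sc
  rw [scale_nA, scale_tA, scale_sq]
  simp [div_eq_inv_mul]

/-- the weights of the invariants -/
def scale_w (t : ℝ) : Fin 5 → ℝ := ![t⁻¹ ^ 2, t⁻¹ ^ 3, 1, t, t ^ 2]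

theorem scale_sc (t : ℝ) (z : Fin 5 → ℝ) : sc t z = fun a => scale_w t a * z a := by
  funext a
  fin_cases a <;> simp [sc, scale_w, div_eq_inv_mul]

theorem scale_ginv {t : ℝ} (ht : 0 < t) (y p : T1 n) (A : T2 n) (B : T3 n) (a : Fin 5)
    (k : Fin n) : ginv (t • y) p (t⁻¹ • A) (t⁻¹ ^ 2 • B) a k =
      t⁻¹ * scale_w t a * ginv y p A B a k := by
  have hne := ht.ne'
  fin_cases a <;>
    simp only [ginv, scale_w, scale_sqA, scale_ct, scale_ap, Fin.zero_eta, Fin.mk_one,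
      Fin.reduceFinMk, Matrix.cons_val_zero, Matrix.cons_val_one, Matrix.cons_val, Pi.smul_apply,
      smul_eq_mul] <;> field_simp

theorem scale_open : IsOpen Dom := by
  have h0 : IsOpen {z : Fin 5 → ℝ | 0 < z 0} := isOpen_lt continuous_const (continuous_apply 0)
  have h4 : IsOpen {z : Fin 5 → ℝ | 0 < z 4} := isOpen_lt continuous_const (continuous_apply 4)
  have h3 : IsOpen {z : Fin 5 → ℝ | -(1 / 2) < z 3 * √(z 0)} :=
    isOpen_lt continuous_const (by fun_prop)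
  exact h0.inter (h4.inter h3)

theorem scale_dom_sc {t : ℝ} (ht : 0 < t) {z : Fin 5 → ℝ} (hz : z ∈ Dom) : sc t z ∈ Dom := by
  obtain ⟨h0, h4, h3⟩ := hz
  refine ⟨div_pos h0 (by positivity), mul_pos (by positivity : 0 < t ^ 2) h4, ?_⟩
  change -(1 / 2) < t * z 3 * √(z 0 / t ^ 2)
  rw [Real.sqrt_div' _ (sq_nonneg t), Real.sqrt_sq ht.le]
  have : t * z 3 * (√(z 0) / t) = z 3 * √(z 0) := by field_simp
  rwa [this]

theorem scale_dd {f : (Fin 5 → ℝ) → ℝ} (hf : ContDiffOn ℝ 1 f Dom) {t α β : ℝ} (ht : 0 < t)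
    (h : ∀ z ∈ Dom, α * f (sc t z) = β * f z) {z : Fin 5 → ℝ} (hz : z ∈ Dom) (a : Fin 5) :
    α * (scale_w t a * dd f a (sc t z)) = β * dd f a z := by
  let L : (Fin 5 → ℝ) →L[ℝ] (Fin 5 → ℝ) :=
    ContinuousLinearMap.pi fun a => scale_w t a • ContinuousLinearMap.proj a
  have hL : ∀ z, L z = sc t z := fun z => by
    rw [scale_sc]
    rfl
  have hd : ∀ z ∈ Dom, DifferentiableAt ℝ f z := fun z hz =>
    (hf.differentiableOn one_ne_zero z hz).differentiableAt (scale_open.mem_nhds hz)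
  have h1 : HasFDerivAt (fun z => α * f (L z)) (α • (fderiv ℝ f (L z)).comp L) z :=
    ((hd _ (hL z ▸ scale_dom_sc ht hz)).hasFDerivAt.comp z L.hasFDerivAt).const_mul α
  have h2 : HasFDerivAt (fun z => β * f z) (β • fderiv ℝ f z) z := (hd z hz).hasFDerivAt.const_mul β
  have h3 : (fun z => α * f (L z)) =ᶠ[𝓝 z] fun z => β * f z := by
    filter_upwards [scale_open.mem_nhds hz] with w hw
    rw [hL, h w hw]
  have h4 := (h2.congr_of_eventuallyEq h3).unique h1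
  have h5 := congrArg (fun T : (Fin 5 → ℝ) →L[ℝ] ℝ => T (Pi.single a 1)) h4
  have h6 : L (Pi.single a 1) = scale_w t a • Pi.single a 1 := by
    rw [hL, scale_sc]
    funext b
    by_cases hb : b = a
    · subst hb; simp
    · simp [hb]
  simp only [smul_apply, ContinuousLinearMap.comp_apply, h6, map_smul,
    smul_eq_mul, hL] at h5
  exact h5.symm

theorem scale_val {f : (Fin 5 → ℝ) → ℝ} {t β : ℝ} (ht : 0 < t)
    (h : ∀ z ∈ Dom, t ^ n * f (sc t z) = β * f z) {y p : T1 n} {A : T2 n} {B : T3 n} {u : ℝ}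
    (hs : St y p A B u) :
    f (inv (t • y) p (t⁻¹ • A) (t * u)) = t⁻¹ ^ n * β * f (inv y p A u) := by
  rw [scale_inv, mul_assoc, ← h _ (scale_dom hs), ← mul_assoc, ← mul_pow, inv_mul_cancel₀ ht.ne',
    one_pow, one_mul]

theorem scale_gr {f : (Fin 5 → ℝ) → ℝ} (hf : ContDiffOn ℝ 1 f Dom) {t β : ℝ} (ht : 0 < t)
    (h : ∀ z ∈ Dom, t ^ n * f (sc t z) = β * f z) {y p : T1 n} {A : T2 n} {B : T3 n} {u : ℝ}
    (hs : St y p A B u) (k : Fin n) :
    gr f (t • y) p (t⁻¹ • A) (t⁻¹ ^ 2 • B) (t * u) k = t⁻¹ ^ n * β * t⁻¹ * gr f y p A B u k := by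
  unfold gr
  rw [Finset.mul_sum]
  refine Finset.sum_congr rfl fun a _ => ?_
  have h1 := scale_dd hf ht h (scale_dom hs) a
  have h2 : t⁻¹ ^ n * t ^ n = 1 := by rw [← mul_pow, inv_mul_cancel₀ ht.ne', one_pow]
  rw [scale_inv, scale_ginv ht]
  calc dd f a (sc t (inv y p A u)) * (t⁻¹ * scale_w t a * ginv y p A B a k)
      = (t⁻¹ ^ n * t ^ n) * (dd f a (sc t (inv y p A u)) * (t⁻¹ * scale_w t a * ginv y p A B a k)) := by
        rw [h2, one_mul]
    _ = t⁻¹ ^ n * t⁻¹ * (t ^ n * (scale_w t a * dd f a (sc t (inv y p A u)))) *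
        ginv y p A B a k := by ring
    _ = _ := by rw [h1]; ring

theorem scale_vf {S : ℝ → Prop} {c : Co} (hc : CertOn n S c) {t : ℝ} (ht : 0 < t) {y p : T1 n}
    {A : T2 n} {B : T3 n} {u : ℝ} (hs : St y p A B u) (k : Fin n) :
    vf c (t • y) p (t⁻¹ • A) (t⁻¹ ^ 2 • B) (t * u) k = t⁻¹ ^ n * t * vf c y p A B u k := by
  have hne := ht.ne'
  unfold vf
  rw [scale_val ht (fun z hz => (hc.hom t ht z hz).2.1) hs,
    scale_val ht (fun z hz => (hc.hom t ht z hz).2.2.1) hs,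
    scale_val ht (fun z hz => (hc.hom t ht z hz).2.2.2.1) hs,
    scale_val ht (fun z hz => (hc.hom t ht z hz).2.2.2.2.1) hs,
    scale_val ht (fun z hz => (hc.hom t ht z hz).2.2.2.2.2) hs, scale_sqA, scale_ct, scale_ct,
    scale_ap, scale_ap]
  generalize t⁻¹ ^ n = w
  field_simp

theorem scale_dv {S : ℝ → Prop} {c : Co} (hc : CertOn n S c) {t : ℝ} (ht : 0 < t) {y p : T1 n}
    {A : T2 n} {B : T3 n} {u : ℝ} (hs : St y p A B u) :
    dv c (t • y) p (t⁻¹ • A) (t⁻¹ ^ 2 • B) (t * u) = t⁻¹ ^ n * dv c y p A B u := by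
  have hne := ht.ne'
  obtain ⟨-, s1, s2, s3, s4, s5⟩ := hc.sm
  unfold dv
  rw [scale_val ht (fun z hz => (hc.hom t ht z hz).2.1) hs,
    scale_val ht (fun z hz => (hc.hom t ht z hz).2.2.1) hs,
    scale_val ht (fun z hz => (hc.hom t ht z hz).2.2.2.2.1) hs,
    scale_val ht (fun z hz => (hc.hom t ht z hz).2.2.2.2.2) hs, scale_abb, scale_nA, scale_nB,
    scale_tA, mul_add (t⁻¹ ^ n) _ (∑ k, _), Finset.mul_sum Finset.univ _ (t⁻¹ ^ n)]
  congr 1
  · simp only [scale_ct, mul_assoc _ _ (p _), ← Finset.mul_sum]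
    generalize t⁻¹ ^ n = w
    field_simp
  · refine Finset.sum_congr rfl fun k _ => ?_
    rw [scale_gr s1 ht (fun z hz => (hc.hom t ht z hz).2.1) hs,
      scale_gr s2 ht (fun z hz => (hc.hom t ht z hz).2.2.1) hs,
      scale_gr s3 ht (fun z hz => (hc.hom t ht z hz).2.2.2.1) hs,
      scale_gr s4 ht (fun z hz => (hc.hom t ht z hz).2.2.2.2.1) hs,
      scale_gr s5 ht (fun z hz => (hc.hom t ht z hz).2.2.2.2.2) hs, scale_sqA, scale_ct, scale_ct,
      scale_ap, scale_ap]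
    generalize t⁻¹ ^ n = w
    field_simp

theorem scale_sqrt {t : ℝ} (ht : 0 < t) (A : T2 n) : √(nA (t⁻¹ • A)) = t⁻¹ * √(nA A) := by
  rw [scale_nA, Real.sqrt_mul (sq_nonneg _), Real.sqrt_sq (inv_pos.2 ht).le]

theorem scale_num {M t C w b a : ℝ} (hM : 1 ≤ M) (ht : 0 < t) (h1 : t ≤ M) (hC : 0 ≤ C)
    (hw : 0 ≤ w) {W : ℝ} (hW : w ≤ W) (hb : 0 ≤ b) (ha : 0 ≤ a) :
    w * t * (C * (b + a)) ≤ W * M ^ 3 * C * (t⁻¹ ^ 2 * b + t⁻¹ * a) := by
  have hi : 0 < t⁻¹ := inv_pos.2 ht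
  have e1 : t * b = t ^ 3 * (t⁻¹ ^ 2 * b) := by field_simp
  have e2 : t * a = t ^ 2 * (t⁻¹ * a) := by field_simp
  have h3 : t ^ 3 ≤ M ^ 3 := by gcongr
  have h2 : t ^ 2 ≤ M ^ 3 := (by gcongr : t ^ 2 ≤ M ^ 2).trans (pow_le_pow_right₀ hM (by norm_num))
  have h4 : t * (b + a) ≤ M ^ 3 * (t⁻¹ ^ 2 * b + t⁻¹ * a) := by
    rw [mul_add, mul_add, e1, e2]
    gcongr
  calc w * t * (C * (b + a)) = w * C * (t * (b + a)) := by ring
    _ ≤ W * C * (M ^ 3 * (t⁻¹ ^ 2 * b + t⁻¹ * a)) := by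
        have := hw.trans hW
        gcongr
    _ = _ := by ring

theorem scale : S_scale := by
  intro n c hc
  refine ⟨hc.sm, hc.hom, fun x p A B u h _ => ?_, ?_, fun x p A B h _ hA hh0 => ?_, fun M => ?_⟩
  · obtain ⟨t, y, A', B', u', ht, hs, h1, rfl, rfl, rfl, rfl, -⟩ := scale_red h
    rw [scale_val ht (fun z hz => (hc.hom t ht z hz).1) hs]
    have := hc.pos _ _ _ _ _ hs h1
    positivity
  · obtain ⟨c₀, hc₀, hi⟩ := hc.int
    refine ⟨c₀, hc₀, fun x p A B u h _ => ?_⟩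
    obtain ⟨t, y, A', B', u', ht, hs, h1, rfl, rfl, rfl, rfl, -⟩ := scale_red h
    have h2 := hi _ _ _ _ _ hs h1
    have h3 := hc.pos _ _ _ _ _ hs h1
    have hne := ht.ne'
    rw [h1, Real.sqrt_one, one_pow, div_one, mul_one] at h2
    simp only [scale_gr hc.sm.1 ht (fun z hz => (hc.hom t ht z hz).1) hs]
    rw [scale_val ht (fun z hz => (hc.hom t ht z hz).1) hs, scale_dv hc ht hs, scale_sqrt ht,
      scale_sq, h1, mul_one, Real.sqrt_sq ht.le]
    simp only [mul_pow _ (gr c.ρ y p A' B' u' _), ← Finset.mul_sum]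
    refine le_trans (le_of_eq ?_) (mul_le_mul_of_nonneg_left h2 (by positivity))
    rw [inv_pow]
    have : t ^ n ≠ 0 := pow_ne_zero _ hne
    generalize t ^ n = w at this
    field_simp
  · obtain ⟨t, y, A', B', u', ht, hs, h1, rfl, rfl, rfl, hu, hA'⟩ := scale_red h
    have hne := ht.ne'
    have hu' : u' = 0 := (mul_eq_zero.1 hu.symm).resolve_left hne
    subst hu'
    rw [scale_hh] at hh0
    have h2 := hc.bd _ _ _ _ hs h1 (hA' hA) ((mul_nonneg_iff_of_pos_left (inv_pos.2 ht)).1 hh0)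
    have v1 := scale_vf hc ht hs
    have v2 := scale_val ht (fun z hz => (hc.hom t ht z hz).1) hs
    rw [mul_zero] at v1 v2
    simp only [v1, mul_assoc _ _ (p _), ← Finset.mul_sum]
    rw [v2, scale_hh]
    refine le_trans (mul_nonneg (by positivity : 0 ≤ t⁻¹ ^ n * t) h2) (le_of_eq ?_)
    generalize t⁻¹ ^ n = w
    field_simp
  · obtain ⟨C, hC⟩ := hc.bnd (M ^ 2)
    refine ⟨M ^ n * M ^ 3 * max C 0, fun x p A B u h _ h3 h4 h5 => ?_⟩
    have hM0 : 0 < M := (scale_nA_pos h.a0).trans_le h5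
    have hM : 1 ≤ M := by
      by_contra hM
      have h6 : M⁻¹ ≤ M := h3.trans h4
      have h7 : 1 < M⁻¹ := one_lt_inv_iff₀.2 ⟨hM0, not_le.1 hM⟩
      linarith [not_le.1 hM]
    obtain ⟨t, y, A', B', u', ht, hs, h1, rfl, rfl, rfl, rfl, -⟩ := scale_red h
    have hne := ht.ne'
    have hi : 0 < t⁻¹ := inv_pos.2 ht
    rw [scale_sq, h1, mul_one] at h3 h4
    have hMM : M ≤ M ^ 2 := by nlinarith
    have ht1 : t ≤ M := (abs_le_of_sq_le_sq' (h4.trans hMM) hM0.le).2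
    have ht2 : t⁻¹ ≤ M := by
      refine (abs_le_of_sq_le_sq' (le_trans ?_ hMM) hM0.le).2
      rw [inv_pow]
      exact inv_le_of_inv_le₀ hM0 h3
    have hw : t⁻¹ ^ n ≤ M ^ n := by gcongr
    have hA' : nA A' ≤ M ^ 2 := by
      rw [scale_nA] at h5
      have e : nA A' = t ^ 2 * (t⁻¹ ^ 2 * nA A') := by field_simp
      rw [e, sq M]
      exact mul_le_mul h4 h5 (mul_nonneg (sq_nonneg _) (scale_nA_pos hs.a0).le) hM0.le
    have hM2 : 1 ≤ M ^ 2 := hM.trans hMM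
    obtain ⟨b1, b2, b3⟩ := hC _ _ _ _ _ hs h1 (by rw [h1]; exact inv_le_one_of_one_le₀ hM2)
      (by rw [h1]; exact hM2) hA'
    have hs0 := Real.sqrt_nonneg (nA A')
    have hB0 := norm_nonneg B'
    have hC0 : 0 ≤ max C 0 := le_max_right _ _
    have hC1 : C ≤ max C 0 := le_max_left _ _
    have hw0 : 0 ≤ t⁻¹ ^ n := by positivity
    have eB : ‖t⁻¹ ^ 2 • B'‖ = t⁻¹ ^ 2 * ‖B'‖ := by
      rw [norm_smul, Real.norm_of_nonneg (sq_nonneg _)]
    have key := scale_num hM ht ht1 hC0 hw0 hw hB0 hs0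
    rw [scale_sqrt ht, eB]
    refine ⟨?_, ?_, ?_⟩
    · rw [scale_val ht (fun z hz => (hc.hom t ht z hz).1) hs]
      have e : t⁻¹ ^ n * t ^ 2 * (max C 0 * √(nA A')) =
          t⁻¹ ^ n * t ^ 3 * max C 0 * (t⁻¹ * √(nA A')) := by
        generalize t⁻¹ ^ n = w
        field_simp
      calc t⁻¹ ^ n * t ^ 2 * c.ρ (inv y p A' u') ≤ t⁻¹ ^ n * t ^ 2 * (max C 0 * √(nA A')) :=
            mul_le_mul_of_nonneg_left (b1.trans (mul_le_mul_of_nonneg_right hC1 hs0))
              (by positivity)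
        _ = _ := e
        _ ≤ _ := by gcongr
    · have e : vf c (t • y) p (t⁻¹ • A') (t⁻¹ ^ 2 • B') (t * u') =
          (t⁻¹ ^ n * t) • vf c y p A' B' u' := funext fun k => scale_vf hc ht hs k
      rw [e, norm_smul, Real.norm_of_nonneg (by positivity)]
      exact le_trans (mul_le_mul_of_nonneg_left (b2.trans
        (mul_le_mul_of_nonneg_right hC1 (by positivity))) (by positivity)) key
    · have e : gr c.ρ (t • y) p (t⁻¹ • A') (t⁻¹ ^ 2 • B') (t * u') =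
          (t⁻¹ ^ n * t) • gr c.ρ y p A' B' u' := funext fun k => by
        rw [scale_gr hc.sm.1 ht (fun z hz => (hc.hom t ht z hz).1) hs, Pi.smul_apply, smul_eq_mul]
        generalize t⁻¹ ^ n = w
        field_simp
      rw [e, norm_smul, Real.norm_of_nonneg (by positivity)]
      exact le_trans (mul_le_mul_of_nonneg_left (b3.trans
        (mul_le_mul_of_nonneg_right hC1 (by positivity))) (by positivity)) key

end Vale.Agent.P098
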