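import Vale.Agent.P098.Iface

open MeasureTheory Set Metric Filter
open scoped ContDiff RealInnerProductSpace Topology NNReal

noncomputable section
namespace Vale.Agent.P098

variable {n : ℕ}

theorem step0_h1_congr {U : Set (E n)} {u v : E n → ℝ} {G G' : E n → E n} (h : IsH1 U u G)
    (h1 : u =ᵐ[volume.restrict U] v) (h2 : G =ᵐ[volume.restrict U] G') : IsH1 U v G' := by
  refine ⟨h.1.ae_eq h1, h.2.1.ae_eq h2, fun ψ hψ w => ?_⟩
  have e1 : ∫ x in U, v x * fderiv ℝ ψ x w = ∫ x in U, u x * fderiv ℝ ψ x w :=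
    integral_congr_ae (h1.mono fun x hx => by simp only [hx])
  have e2 : ∫ x in U, ⟪G' x, w⟫ * ψ x = ∫ x in U, ⟪G x, w⟫ * ψ x :=
    integral_congr_ae (h2.mono fun x hx => by simp only [hx])
  rw [e1, e2, h.2.2 ψ hψ w]

theorem step0_en_congr {U : Set (E n)} (hU : MeasurableSet U) {u v : E n → ℝ} {G G' : E n → E n}
    (h1 : ∀ᵐ x ∂volume.restrict U, (0 < u x ↔ 0 < v x)) (h2 : G =ᵐ[volume.restrict U] G') :
    energy U u G = energy U v G' := by
  unfold energy
  congr 1
  · exact integral_congr_ae (h2.mono fun x hx => by simp only [hx])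
  · congr 1
    refine measure_congr ?_
    filter_upwards [(ae_restrict_iff' hU).1 h1] with x hx
    exact propext ⟨fun h => ⟨h.1, (hx h.1).1 h.2⟩, fun h => ⟨h.1, (hx h.1).2 h.2⟩⟩

theorem step0_gm_congr {u v : E n → ℝ} (h : GlobalMin u) (huv : u =ᵐ[volume] v) :
    GlobalMin v := by
  obtain ⟨h0, G, hG⟩ := h
  refine ⟨(h0.and huv).mono fun x hx => hx.2 ▸ hx.1, G, fun c r hr => ?_⟩
  have h1 : u =ᵐ[volume.restrict (ball c r)] v := ae_restrict_of_ae huv
  refine ⟨step0_h1_congr (hG c r hr).1 h1 (ae_eq_refl _), fun w Gw hw hw1 hw2 => ?_⟩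
  have h2 : w - v =ᵐ[volume.restrict (ball c r)] w - u :=
    h1.mono fun x hx => by simp only [Pi.sub_apply, hx]
  rw [← step0_en_congr measurableSet_ball (u := u) (h1.mono fun x hx => by rw [hx]) (ae_eq_refl G)]
  refine (hG c r hr).2 w Gw hw hw1 ⟨step0_h1_congr hw2.1 h2 (ae_eq_refl _), fun δ hδ => ?_⟩
  obtain ⟨ψ, hψ, h3⟩ := hw2.2 δ hδ
  refine ⟨ψ, hψ, ?_⟩
  rwa [integral_congr_ae (h2.symm.mono fun x hx => by simp only [hx] :
    (fun x => ((w - u) x - ψ x) ^ 2) =ᵐ[_] fun x => ((w - v) x - ψ x) ^ 2)]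

theorem step0_test_pd {U : Set (E n)} {ψ : E n → ℝ} (h : IsTest U ψ) (w : E n) :
    IsTest U fun x => fderiv ℝ ψ x w :=
  ⟨(h.1.fderiv_right (m := ∞) (by simp)).clm_apply contDiff_const, h.2.1.fderiv_apply ℝ w,
    (tsupport_fderiv_apply_subset ℝ w).trans h.2.2⟩

theorem step0_test_l2 {U V : Set (E n)} {ψ : E n → ℝ} (h : IsTest U ψ) :
    MemLp ψ 2 (volume.restrict V) :=
  h.1.continuous.memLp_of_hasCompactSupport h.2.1

theorem step0_mul {μ : Measure (E n)} {f g : E n → ℝ} (hf : MemLp f 2 μ) (hg : MemLp g 2 μ) :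
    Integrable (fun x => f x * g x) μ := hf.integrable_mul hg

theorem step0_h1_lin {U : Set (E n)} {u v : E n → ℝ} {G H : E n → E n} (hu : IsH1 U u G)
    (hv : IsH1 U v H) (t : ℝ) : IsH1 U (fun x => u x + t * v x) (fun x => G x + t • H x) := by
  refine ⟨hu.1.add (hv.1.const_mul t), hu.2.1.add (hv.2.1.const_smul t), fun ψ hψ w => ?_⟩
  have i1 := step0_mul hu.1 (step0_test_l2 (step0_test_pd hψ w))
  have i2 := step0_mul hv.1 (step0_test_l2 (step0_test_pd hψ w))
  have i3 := step0_mul (hu.2.1.inner_const (𝕜 := ℝ) w) (step0_test_l2 hψ)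
  have i4 := step0_mul (hv.2.1.inner_const (𝕜 := ℝ) w) (step0_test_l2 hψ)
  have e1 : ∫ x in U, (u x + t * v x) * fderiv ℝ ψ x w =
      (∫ x in U, u x * fderiv ℝ ψ x w) + t * ∫ x in U, v x * fderiv ℝ ψ x w := by
    rw [← integral_const_mul, ← integral_add i1 (i2.const_mul t)]
    refine integral_congr_ae (Eventually.of_forall fun x => ?_)
    ring
  have e2 : ∫ x in U, ⟪G x + t • H x, w⟫ * ψ x =
      (∫ x in U, ⟪G x, w⟫ * ψ x) + t * ∫ x in U, ⟪H x, w⟫ * ψ x := by
    rw [← integral_const_mul, ← integral_add i3 (i4.const_mul t)]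
    refine integral_congr_ae (Eventually.of_forall fun x => ?_)
    simp only [inner_add_left, real_inner_smul_left]
    ring
  rw [e1, e2, hu.2.2 ψ hψ w, hv.2.2 ψ hψ w]
  ring

theorem step0_int_inner {μ : Measure (E n)} {G H : E n → E n} (hG : MemLp G 2 μ)
    (hH : MemLp H 2 μ) : Integrable (fun x => ⟪G x, H x⟫) μ :=
  (hG.norm.integrable_mul hH.norm).mono' (hG.1.inner hH.1)
    (Eventually.of_forall fun x => norm_inner_le_norm (G x) (H x))

theorem step0_inner_sum (a : E n) (ψ : E n → ℝ) (x : E n) :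
    ⟪a, gradient ψ x⟫ = ∑ i, ⟪a, EuclideanSpace.single i 1⟫ * pd i ψ x := by
  rw [real_inner_comm, inner_gradient_left]
  conv_lhs => rw [← (EuclideanSpace.basisFun (Fin n) ℝ).sum_repr a]
  simp [pd, EuclideanSpace.inner_single_right]

/-- the weak gradient tested against a gradient. -/
theorem step0_lap {U : Set (E n)} {v ψ : E n → ℝ} {G : E n → E n} (hv : IsH1 U v G)
    (hψ : IsTest U ψ) : ∫ x, v x * lap ψ x = -∫ x in U, ⟪G x, gradient ψ x⟫ := by
  have ht : ∀ i, IsTest U (pd i ψ) := fun i => step0_test_pd hψ _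
  have ht2 : ∀ i, IsTest U (pd i (pd i ψ)) := fun i => step0_test_pd (ht i) _
  have h0 : ∀ x, x ∉ U → v x * lap ψ x = 0 := fun x hx => by
    have : lap ψ x = 0 := Finset.sum_eq_zero fun i _ =>
      image_eq_zero_of_notMem_tsupport fun h => hx ((ht2 i).2.2 h)
    rw [this, mul_zero]
  rw [← setIntegral_eq_integral_of_forall_compl_eq_zero h0]
  simp only [lap, Finset.mul_sum, step0_inner_sum]
  rw [integral_finsetSum _ fun i _ => step0_mul hv.1 (step0_test_l2 (ht2 i)),
    integral_finsetSum _ fun i _ =>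
      step0_mul (hv.2.1.inner_const (𝕜 := ℝ) _) (step0_test_l2 (ht i)),
    ← Finset.sum_neg_distrib]
  exact Finset.sum_congr rfl fun i _ => hv.2.2 _ (ht i) _

theorem step0_quad {a b m : ℝ} (hm : 0 < m) (h : ∀ t, |t| < m → 0 ≤ 2 * t * a + t ^ 2 * b) :
    a = 0 := by
  by_contra ha
  have h1 : 0 < |b| + 1 := by positivity
  have h2 : 0 < |a| := abs_pos.2 ha
  obtain ⟨s, hs, hs1, hs2⟩ : ∃ s : ℝ, 0 < s ∧ s * |a| < m ∧ s * (|b| + 1) ≤ 1 := by
    refine ⟨min (m / (2 * |a|)) (1 / (|b| + 1)), by positivity, ?_, ?_⟩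
    · have := mul_le_mul_of_nonneg_right (min_le_left (m / (2 * |a|)) (1 / (|b| + 1))) h2.le
      have e : m / (2 * |a|) * |a| = m / 2 := by field_simp
      linarith
    · exact (le_div_iff₀ h1).1 (min_le_right _ _)
  have h3 := h (-(s * a)) (by rw [abs_neg, abs_mul, abs_of_pos hs]; exact hs1)
  have h4 : 0 < s * a ^ 2 := by positivity
  have h5 : s * b ≤ 1 := by nlinarith [le_abs_self b]
  nlinarith

theorem step0_weak (h_h10 : S_h10) (h_liph1 : S_liph1) {v : E n → ℝ} (hv : GlobalMin v)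
    (hc : Continuous v) (h0 : ∀ x, 0 ≤ v x) : Weak (Om v) v := by
  intro ψ hψ
  obtain ⟨-, G, hG⟩ := hv
  obtain ⟨R, hR, hRψ⟩ := (hψ.2.1.isBounded).subset_ball_lt 0 (0 : E n)
  obtain ⟨hv1, hmin⟩ := hG 0 R hR
  have hψ' : IsTest (ball 0 R) ψ := ⟨hψ.1, hψ.2.1, hRψ⟩
  have hψ1 := (h_liph1 n 0 R).1 ψ (hψ.1.lipschitzWith_of_hasCompactSupport hψ.2.1 (by simp))
  obtain ⟨m, hm, hm1⟩ := hψ.2.1.exists_forall_le' hc.continuousOn (a := 0) fun x hx => hψ.2.2 hx
  obtain ⟨M, hM⟩ := hψ.2.1.exists_bound_of_continuous hψ.1.continuous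
  have hM0 : 0 < |M| + 1 := by positivity
  rw [step0_lap hv1 hψ', neg_eq_zero]
  refine step0_quad (b := ∫ x in ball (0 : E n) R, ‖gradient ψ x‖ ^ 2) (m := m / (|M| + 1))
    (by positivity) fun t ht => ?_
  have key : ∀ x, 0 ≤ v x + t * ψ x ∧ (0 < v x + t * ψ x ↔ 0 < v x) := fun x => by
    by_cases hx : x ∈ tsupport ψ
    · have e1 : |t * ψ x| < m := by
        rw [abs_mul]
        have e2 : |ψ x| ≤ |M| + 1 := by linarith [hM x, le_abs_self M, Real.norm_eq_abs (ψ x)]
        exact (mul_le_mul_of_nonneg_left e2 (abs_nonneg t)).trans_lt ((lt_div_iff₀ hM0).1 ht)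
      have e3 := hm1 x hx
      have e4 := neg_abs_le (t * ψ x)
      exact ⟨by linarith, fun _ => by linarith, fun _ => by linarith⟩
    · rw [image_eq_zero_of_notMem_tsupport hx, mul_zero, add_zero]
      exact ⟨h0 x, Iff.rfl⟩
  have hw := step0_h1_lin hv1 hψ1 t
  have hd := step0_h1_lin hw hv1 (-1)
  have h1 := hmin _ _ (Eventually.of_forall fun x => (key x).1) hw
    (h_h10 n _ (tsupport ψ) _ _ isOpen_ball hψ.2.1 hRψ
      (step0_h1_congr hd (Eventually.of_forall fun x => by simp)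
        (Eventually.of_forall fun x => by simp))
      (Eventually.of_forall fun x hx => by simp [image_eq_zero_of_notMem_tsupport hx]))
  rw [step0_en_congr measurableSet_ball (Eventually.of_forall fun x => (key x).2) (ae_eq_refl _)]
    at h1
  have i1 := (memLp_two_iff_integrable_sq_norm hv1.2.1.1).1 hv1.2.1
  have i2 := (memLp_two_iff_integrable_sq_norm hψ1.2.1.1).1 hψ1.2.1
  have i3 := step0_int_inner hv1.2.1 hψ1.2.1
  have e : ∫ x in ball (0 : E n) R, ‖G x + t • gradient ψ x‖ ^ 2 =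
      (∫ x in ball (0 : E n) R, ‖G x‖ ^ 2) + (2 * t * (∫ x in ball (0 : E n) R, ⟪G x, gradient ψ x⟫) +
        t ^ 2 * ∫ x in ball (0 : E n) R, ‖gradient ψ x‖ ^ 2) := by
    have i4 : Integrable (fun x => 2 * t * ⟪G x, gradient ψ x⟫ + t ^ 2 * ‖gradient ψ x‖ ^ 2)
        (volume.restrict (ball (0 : E n) R)) := (i3.const_mul _).add (i2.const_mul _)
    rw [← integral_const_mul, ← integral_const_mul,
      ← integral_add (i3.const_mul _) (i2.const_mul _), ← integral_add i1 i4]
    refine integral_congr_ae (Eventually.of_forall fun x => ?_)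
    simp only [norm_add_sq_real, real_inner_smul_right, norm_smul, mul_pow,
      Real.norm_eq_abs, sq_abs]
    ring
  unfold energy at h1
  linarith

theorem step0_lip (h_glue : S_glue) (h_est : S_est) {v : E n → ℝ} {C : ℝ} (hC : 0 < C)
    (hc : Continuous v) (h0 : ∀ x, 0 ≤ v x) (hz : v 0 = 0) (hh : Harm (Om v) v)
    (hav : ∀ (x : E n) (r : ℝ), 0 < r → ∫ y in ball x r, v y ≤ C * r ^ n * (v x + r)) :
    Lip v := by
  obtain ⟨C1, hC1, H⟩ := h_est n
  have hO : IsOpen (Om v) := isOpen_lt continuous_const hc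
  have hb : ∀ x ∈ Om v, ‖fderiv ℝ v x‖ ≤ C1 * C * 4 ^ (n + 1) := fun x hx => by
    have hZ : IsClosed {y | v y = 0} := isClosed_eq hc continuous_const
    obtain ⟨z, hz1, hz2⟩ := hZ.exists_infDist_eq_dist ⟨0, hz⟩ x
    have hd : 0 < dist x z := dist_pos.2 fun e => (ne_of_gt hx) (e ▸ hz1)
    have hsub : closedBall x (dist x z / 2) ⊆ Om v := fun y hy => by
      refine lt_of_le_of_ne (h0 y) fun e => ?_
      have e1 := infDist_le_dist_of_mem (x := x) (show y ∈ {y | v y = 0} from e.symm)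
      rw [mem_closedBall, dist_comm] at hy
      linarith
    refine (H _ v x _ hO hh (half_pos hd) hsub).2.trans ?_
    have e1 : ∫ y in ball x (dist x z / 2), |v y| ≤ ∫ y in ball z (2 * dist x z), v y := by
      simp only [abs_of_nonneg (h0 _)]
      refine setIntegral_mono_set ((hc.continuousOn.integrableOn_compact
        (isCompact_closedBall z _)).mono_set ball_subset_closedBall)
        (Eventually.of_forall h0) (LE.le.eventuallyLE (ball_subset_ball' (by linarith)))
    have e2 := hav z (2 * dist x z) (by linarith)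
    rw [show v z = 0 from hz1, zero_add] at e2
    refine (mul_le_mul_of_nonneg_left (e1.trans e2) (by positivity)).trans (le_of_eq ?_)
    have e3 : (4 : ℝ) ^ (n + 1) = 2 ^ (n + 1) * 2 ^ (n + 1) := by rw [← mul_pow]; norm_num
    rw [e3, div_pow, mul_pow]
    field_simp
    ring
  refine ⟨⟨C1 * C * 4 ^ (n + 1), by positivity⟩, h_glue n v (Om v) _ hO hc
    (fun x hx => le_antisymm (not_lt.1 hx) (h0 x)) fun x hx => ?_⟩
  obtain ⟨ε, hε, hs⟩ := Metric.isOpen_iff.1 hO x hx
  exact ⟨ball x ε, ball_mem_nhds x hε, (convex_ball x ε).lipschitzOnWith_of_nnnorm_fderiv_le (𝕜 := ℝ)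
    (fun y hy => (hh.1.contDiffAt (hO.mem_nhds (hs hy))).differentiableAt (by simp))
    fun y hy => hb y (hs hy)⟩

theorem step0_split {c : E n} {r : ℝ} {A : Set (E n)} (hA : MeasurableSet A) (hs : A ⊆ ball c r)
    (f : E n → ℝ) {G : E n → E n} (hG : MemLp G 2 (volume.restrict (ball c r))) :
    energy (ball c r) f G = energy A f G + energy (ball c r \ A) f G := by
  have i1 : IntegrableOn (fun x => ‖G x‖ ^ 2) (ball c r) :=
    (memLp_two_iff_integrable_sq_norm hG.1).1 hG
  have e1 := integral_inter_add_sdiff hA i1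
  have e2 := measure_inter_add_sdiff (μ := volume) (ball c r ∩ {x | 0 < f x}) hA
  rw [inter_eq_right.2 hs] at e1
  have e3 : (ball c r ∩ {x | 0 < f x}) \ A = (ball c r \ A) ∩ {x | 0 < f x} := by
    ext x
    exact ⟨fun h => ⟨⟨h.1.1, h.2⟩, h.1.2⟩, fun h => ⟨⟨h.1.1, h.2⟩, h.1.2⟩⟩
  rw [inter_right_comm, inter_eq_right.2 hs, e3] at e2
  have f1 : volume (A ∩ {x | 0 < f x}) ≠ ⊤ :=
    ((measure_mono (inter_subset_left.trans hs)).trans_lt measure_ball_lt_top).ne
  have f2 : volume ((ball c r \ A) ∩ {x | 0 < f x}) ≠ ⊤ :=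
    ((measure_mono (inter_subset_left.trans sdiff_subset)).trans_lt measure_ball_lt_top).ne
  unfold energy
  rw [← e1, ← e2, ENNReal.toReal_add f1 f2]
  ring

theorem step0_min (h_aeq : S_aeq) (h_h10 : S_h10) (h_liph1 : S_liph1) {v : E n → ℝ}
    (hv : GlobalMin v) (hl : Lip v) (R : ℝ) (w : E n → ℝ) (hw : Lip w) (hw0 : ∀ x, 0 ≤ w x)
    (hwv : ∀ x, R ≤ ‖x‖ → w x = v x) : en (ball 0 R) v ≤ en (ball 0 R) w := by
  obtain ⟨-, G, hG⟩ := hv
  have hR : 0 < |R| + 1 := by positivity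
  have hR' : R < |R| + 1 := by linarith [le_abs_self R]
  obtain ⟨hv1, hmin⟩ := hG 0 _ hR
  have hv2 := (h_liph1 n 0 (|R| + 1)).1 v hl
  have hw2 := (h_liph1 n 0 (|R| + 1)).1 w hw
  have hGv := (h_liph1 n 0 (|R| + 1)).2 v v _ _ hv1 hv2 (ae_eq_refl _)
  have h1 := hmin w _ (Eventually.of_forall hw0) hw2
    (h_h10 n _ (closedBall 0 R) _ _ isOpen_ball (isCompact_closedBall _ _)
      (closedBall_subset_ball hR')
      (step0_h1_congr (step0_h1_lin hw2 hv1 (-1))
        (Eventually.of_forall fun x => by simp [sub_eq_add_neg])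
        (Eventually.of_forall fun x => by simp [sub_eq_add_neg]))
      (Eventually.of_forall fun x hx => by
        rw [mem_closedBall_zero_iff, not_le] at hx
        simp [hwv x hx.le]))
  rw [step0_en_congr measurableSet_ball (Eventually.of_forall fun x => Iff.rfl) hGv,
    step0_split measurableSet_ball (ball_subset_ball hR'.le) v hv2.2.1,
    step0_split measurableSet_ball (ball_subset_ball hR'.le) w hw2.2.1] at h1
  have hm : MeasurableSet (ball (0 : E n) (|R| + 1) \ ball 0 R) :=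
    measurableSet_ball.diff measurableSet_ball
  have hout : ∀ x ∈ ball (0 : E n) (|R| + 1) \ ball 0 R, w x = v x := fun x hx =>
    hwv x (by simpa using hx.2)
  have h2 : energy (ball 0 (|R| + 1) \ ball 0 R) w (gradient w) =
      energy (ball 0 (|R| + 1) \ ball 0 R) v (gradient v) := by
    obtain ⟨L, hL⟩ := hl
    obtain ⟨L', hL'⟩ := hw
    refine step0_en_congr hm ((ae_restrict_iff' hm).2 (Eventually.of_forall fun x hx => by
      rw [hout x hx])) ((ae_restrict_iff' hm).2 ?_)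
    filter_upwards [h_aeq n _ ⟨_, hL'.sub hL⟩, hL.ae_differentiableAt (μ := volume),
      hL'.ae_differentiableAt (μ := volume)] with x h3 h4 h5 hx
    have h6 := h3 (by rw [hout x hx, sub_self])
    rw [fderiv_fun_sub h5 h4, sub_eq_zero] at h6
    simp only [gradient, h6]
  unfold en
  linarith

theorem step0 (h_glue : S_glue) (h_aeq : S_aeq) (h_weyl : S_weyl) (h_est : S_est) (h_h10 : S_h10) (h_liph1 : S_liph1) (h_cont : S_cont) : S_step0 := by
  intro n u hu hhom
  obtain ⟨C, hC, H⟩ := h_cont n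
  obtain ⟨v, hc, huv, h0, hav⟩ := H u hu
  have hv := step0_gm_congr hu huv
  have hH : Hom v := fun r x hr => by
    have e1 : (fun x => v (r • x)) =ᵐ[volume] fun x => r * v x := by
      filter_upwards [hhom r hr, huv,
        (Measure.quasiMeasurePreserving_smul volume hr.ne').ae_eq_comp huv] with y h1 h2 h3
      rw [← h2, ← h1]
      exact h3.symm
    exact congrFun ((Continuous.ae_eq_iff_eq volume (by fun_prop) (by fun_prop)).1 e1) x
  have hz : v 0 = 0 := by
    have := hH 2 0 two_pos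
    rw [smul_zero] at this
    linarith
  have hl := step0_lip h_glue h_est hC hc h0 hz (h_weyl n _ v (isOpen_lt continuous_const hc)
    hc.continuousOn (step0_weak h_h10 h_liph1 hv hc h0)) hav
  exact ⟨v, huv, ⟨hl, h0, step0_min h_aeq h_h10 h_liph1 hv hl⟩, hH⟩

end Vale.Agent.P098
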