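import Vale.Agent.P098.Iface

open MeasureTheory Set Metric Filter
open scoped ContDiff RealInnerProductSpace Topology NNReal

noncomputable section
namespace Vale.Agent.P098

variable {n : ℕ}

theorem taylor_cons {h : E n → ℝ} (hs : ContDiff ℝ ∞ h) {k : ℕ} (i : Fin n) (m : Fin k → E n) :
    pd i (fun y => iteratedFDeriv ℝ k h y m) =
      fun y => iteratedFDeriv ℝ (k + 1) h y (Matrix.vecCons (EuclideanSpace.single i 1) m) := by
  funext y
  rw [pd, fderiv_continuousMultilinear_apply_const_apply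
    (hs.differentiable_iteratedFDeriv (by exact_mod_cast ENat.coe_lt_top k) y)]
  rfl

theorem taylor_pd1 {h : E n → ℝ} (hs : ContDiff ℝ ∞ h) (i : Fin n) :
    pd i h = fun y => iteratedFDeriv ℝ 1 h y ![EuclideanSpace.single i 1] := by
  rw [← taylor_cons hs]
  rfl

theorem taylor_pd2 {h : E n → ℝ} (hs : ContDiff ℝ ∞ h) (i j : Fin n) :
    pd i (pd j h) = fun y => iteratedFDeriv ℝ 2 h y
      ![EuclideanSpace.single i 1, EuclideanSpace.single j 1] := by
  rw [taylor_pd1 hs j, taylor_cons hs]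

theorem taylor_pd3 {h : E n → ℝ} (hs : ContDiff ℝ ∞ h) (i j k : Fin n) :
    pd i (pd j (pd k h)) = fun y => iteratedFDeriv ℝ 3 h y
      ![EuclideanSpace.single i 1, EuclideanSpace.single j 1, EuclideanSpace.single k 1] := by
  rw [taylor_pd2 hs j, taylor_cons hs]

theorem taylor_smooth {h : E n → ℝ} (hs : ContDiff ℝ ∞ h) (i : Fin n) : ContDiff ℝ ∞ (pd i h) :=
  (hs.fderiv_right (m := ∞) le_rfl).clm_apply contDiff_const

theorem taylor_comm {h : E n → ℝ} (hs : ContDiff ℝ ∞ h) (i j : Fin n) :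
    pd i (pd j h) = pd j (pd i h) := by
  rw [taylor_pd2 hs, taylor_pd2 hs]
  funext y
  refine IsSymmSndFDerivAt.iteratedFDeriv_cons (hf := hs.contDiffAt.isSymmSndFDerivAt ?_)
  rw [minSmoothness_of_isRCLikeNormedField]
  exact WithTop.coe_le_coe.2 (le_top (a := (2 : ℕ∞)))

theorem taylor_exp {k : ℕ} (T : ContinuousMultilinearMap ℝ (fun _ : Fin (k + 1) => E n) ℝ)
    (u : E n) (m : Fin k → E n) :
    T (Matrix.vecCons u m) = ∑ i, u i * T (Matrix.vecCons (EuclideanSpace.single i 1) m) := by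
  have hu : u = ∑ i, u i • EuclideanSpace.single i (1 : ℝ) := by
    simpa using ((EuclideanSpace.basisFun (Fin n) ℝ).sum_repr u).symm
  change T.curryLeft u m = ∑ i, u i * T.curryLeft (EuclideanSpace.single i 1) m
  conv_lhs => rw [hu]
  simp only [map_sum, map_smul, ContinuousMultilinearMap.sum_apply,
    ContinuousMultilinearMap.smul_apply, smul_eq_mul]

theorem taylor_exp1 (T : ContinuousMultilinearMap ℝ (fun _ : Fin 1 => E n) ℝ) (u : E n) :
    T ![u] = ∑ i, T ![EuclideanSpace.single i 1] * u i := by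
  rw [taylor_exp]
  exact Finset.sum_congr rfl fun _ _ => mul_comm _ _

theorem taylor_exp2 (T : ContinuousMultilinearMap ℝ (fun _ : Fin 2 => E n) ℝ) (u v : E n) :
    T ![u, v] =
      ∑ i, ∑ j, T ![EuclideanSpace.single i 1, EuclideanSpace.single j 1] * u i * v j := by
  rw [taylor_exp]
  refine Finset.sum_congr rfl fun i _ => ?_
  have := taylor_exp1 (T.curryLeft (EuclideanSpace.single i 1)) v
  change T ![_, _] = ∑ j, T ![_, _] * _ at this
  rw [this, Finset.mul_sum]
  exact Finset.sum_congr rfl fun _ _ => by ring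

theorem taylor_exp3 (T : ContinuousMultilinearMap ℝ (fun _ : Fin 3 => E n) ℝ) (u v w : E n) :
    T ![u, v, w] = ∑ i, ∑ j, ∑ k, T ![EuclideanSpace.single i 1, EuclideanSpace.single j 1,
      EuclideanSpace.single k 1] * u i * v j * w k := by
  rw [taylor_exp]
  refine Finset.sum_congr rfl fun i _ => ?_
  have := taylor_exp2 (T.curryLeft (EuclideanSpace.single i 1)) v w
  change T ![_, _, _] = ∑ j, ∑ k, T ![_, _, _] * _ * _ at this
  rw [this, Finset.mul_sum]
  refine Finset.sum_congr rfl fun _ _ => ?_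
  rw [Finset.mul_sum]
  exact Finset.sum_congr rfl fun _ _ => by ring

theorem taylor_refl {h : E n → ℝ} (hs : ContDiff ℝ ∞ h) {e : E n}
    (he : ∀ x, h (refl e x) = h x) (k : ℕ) (m : Fin k → E n) :
    iteratedFDeriv ℝ k h 0 (fun i => refl e (m i)) = iteratedFDeriv ℝ k h 0 m := by
  let R : E n →L[ℝ] E n := ContinuousLinearMap.id ℝ _ - ((2 : ℝ) • innerSL ℝ e).smulRight e
  have hR : ∀ x, R x = refl e x := fun x => by simp [R, refl, real_inner_comm]
  have h1 : h ∘ R = h := funext fun x => by rw [Function.comp_apply, hR, he]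
  have := R.iteratedFDeriv_comp_right hs 0 (i := k) (by exact_mod_cast le_top)
  rw [h1, map_zero] at this
  conv_rhs => rw [this]
  simp only [ContinuousMultilinearMap.compContinuousLinearMap_apply, hR]

theorem taylor_refl_self {e : E n} (he : ‖e‖ = 1) : refl e e = -e := by
  rw [refl, real_inner_self_eq_norm_sq, he]
  module

theorem taylor_refl_perp {e : E n} {x : T1 n} (hx : ∑ i, e i * x i = 0) :
    refl e (WithLp.toLp 2 x) = WithLp.toLp 2 x := by
  have : ⟪(WithLp.toLp 2 x : E n), e⟫ = 0 := by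
    rw [← hx]
    simp [PiLp.inner_apply]
  rw [refl, this, mul_zero, zero_smul, sub_zero]

theorem taylor_line {h : E n → ℝ} (hs : ContDiff ℝ ∞ h) (x : E n) (k : ℕ) (t : ℝ) :
    iteratedDeriv k (fun t : ℝ => h (t • x)) t = iteratedFDeriv ℝ k h (t • x) fun _ => x := by
  have := (ContinuousLinearMap.toSpanSingleton ℝ x).iteratedFDeriv_comp_right hs t (i := k)
    (by exact_mod_cast le_top)
  rw [iteratedDeriv_eq_iteratedFDeriv]
  refine (congrArg (fun T => T fun _ => (1 : ℝ)) this).trans ?_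
  simp

theorem taylor_rem {h : E n → ℝ} (hs : ContDiff ℝ ∞ h) (x : E n) : ∃ t ∈ Ioo (0 : ℝ) 1,
    h x - h 0 - cub (D1 h 0) (D2 h 0) (D3 h 0) x =
      iteratedFDeriv ℝ 4 h (t • x) (fun _ => x) / 24 := by
  have hg : ContDiff ℝ ∞ fun t : ℝ => h (t • x) := hs.comp (by fun_prop)
  obtain ⟨t, ht, e⟩ := taylor_mean_remainder_lagrange_iteratedDeriv (f := fun t : ℝ => h (t • x))
    (x₀ := 0) (x := 1) (n := 3) zero_ne_one
    (hg.of_le (WithTop.coe_le_coe.2 (le_top (a := (4 : ℕ∞))))).contDiffOn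
  refine ⟨t, by simpa using ht, ?_⟩
  have hw : ∀ k : ℕ, iteratedDerivWithin k (fun t : ℝ => h (t • x)) (uIcc 0 1) 0 =
      iteratedFDeriv ℝ k h 0 fun _ => x := fun k => by
    rw [iteratedDerivWithin_eq_iteratedDeriv (uniqueDiffOn_uIcc zero_ne_one)
      (hg.of_le (by exact_mod_cast le_top)).contDiffAt left_mem_uIcc, taylor_line hs, zero_smul]
  have a1 : (fun _ : Fin 1 => x) = ![x] := by ext i : 1; fin_cases i; rfl
  have a2 : (fun _ : Fin 2 => x) = ![x, x] := by ext i : 1; fin_cases i <;> rfl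
  have a3 : (fun _ : Fin 3 => x) = ![x, x, x] := by ext i : 1; fin_cases i <;> rfl
  have b1 := hw 1
  have b2 := hw 2
  have b3 := hw 3
  rw [a1, taylor_exp1] at b1
  rw [a2, taylor_exp2] at b2
  rw [a3, taylor_exp3] at b3
  rw [taylor_within_apply, taylor_line hs] at e
  simp only [Finset.sum_range_succ, Finset.sum_range_zero, hw 0, zero_add, b1, one_add_one_eq_two,
    b2, b3, iteratedFDeriv_zero_apply, one_smul] at e
  simp only [cub, D1, D2, D3, taylor_pd3 hs]
  simp only [taylor_pd2 hs]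
  simp only [taylor_pd1 hs]
  norm_num [Nat.factorial] at e ⊢
  linarith

theorem taylor (h_est : S_est) : S_taylor := by
  intro n
  obtain ⟨C, C0, hC⟩ := h_est n
  refine ⟨C * 2 * 16 ^ 4, by positivity, fun e h he hs hl hr hb => ?_⟩
  have bd : ∀ x ∈ ball (0 : E n) (1 / 8), ∀ k ≤ 4, ‖iteratedFDeriv ℝ k h x‖ ≤ C * 2 * 16 ^ 4 := by
    intro x hx k hk
    refine ((hC univ h x (1 / 16) isOpen_univ ⟨hs.contDiffOn, fun y _ => hl y⟩ (by norm_num)
      (subset_univ _)).1 2 (fun y hy => hb y ?_) k hk).trans ?_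
    · rw [mem_ball] at hx ⊢
      linarith [dist_triangle y x 0, mem_closedBall.1 hy]
    · rw [one_div, inv_pow, div_inv_eq_mul]
      exact mul_le_mul_of_nonneg_left (pow_le_pow_right₀ (by norm_num) hk) (by positivity)
  have bd0 : ∀ k ≤ 4, ∀ m : Fin k → E n, (∀ i, ‖m i‖ = 1) →
      ‖iteratedFDeriv ℝ k h 0 m‖ ≤ C * 2 * 16 ^ 4 := fun k hk m hm => by
    refine (ContinuousMultilinearMap.le_opNorm _ _).trans ?_
    simpa [hm] using bd 0 (mem_ball_self (by norm_num)) k hk
  have p : (0 : ℝ) ≤ C * 2 * 16 ^ 4 := by positivity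
  refine ⟨D1 h 0, D2 h 0, D3 h 0, ⟨⟨fun i j => ?_, fun i j k => ?_, fun i j k => ?_, hl 0,
    fun k => ?_⟩, ?_, fun x hx => ?_, fun x y hx hy => ?_⟩, ?_, ?_, ?_, fun x hx => ?_⟩
  · exact congrFun (taylor_comm hs i j) 0
  · exact congrFun (taylor_comm (taylor_smooth hs k) i j) 0
  · simp only [D3, taylor_comm hs j k]
  · have e1 : ∀ i, D3 h 0 i i k = pd k (pd i (pd i h)) 0 := fun i => by
      simp only [D3, taylor_comm hs i k, taylor_comm (taylor_smooth hs i) i k]
    have e2 : pd k (lap h) 0 = 0 := by simp [pd, show lap h = fun _ => 0 from funext hl]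
    simp only [e1]
    rw [← e2]
    change _ = fderiv ℝ (fun x => ∑ i, pd i (pd i h) x) 0 _
    rw [fderiv_fun_sum fun i _ => (taylor_smooth (taylor_smooth hs i) i).differentiable
      (by simp) 0, ContinuousLinearMap.sum_apply]
    rfl
  · have := taylor_refl hs hr 1 ![e]
    rw [show (fun i => refl e (![e] i)) = ![-e] by
      ext i : 1; fin_cases i; exact taylor_refl_self he, taylor_exp1, taylor_exp1 _ e] at this
    simp only [D1, taylor_pd1 hs]
    simp only [PiLp.neg_apply, mul_neg, Finset.sum_neg_distrib] at this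
    linarith
  · have := taylor_refl hs hr 2 ![e, WithLp.toLp 2 x]
    rw [show (fun i => refl e (![e, WithLp.toLp 2 x] i)) = ![-e, WithLp.toLp 2 x] by
      ext i : 1; fin_cases i; exacts [taylor_refl_self he, taylor_refl_perp hx], taylor_exp2,
      taylor_exp2 _ e] at this
    simp only [D2, taylor_pd2 hs]
    simp only [PiLp.neg_apply, mul_neg, neg_mul, Finset.sum_neg_distrib] at this
    linarith
  · have := taylor_refl hs hr 3 ![WithLp.toLp 2 x, WithLp.toLp 2 y, e]
    rw [show (fun i => refl e (![WithLp.toLp 2 x, WithLp.toLp 2 y, e] i)) =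
      ![WithLp.toLp 2 x, WithLp.toLp 2 y, -e] by
      ext i : 1; fin_cases i
      exacts [taylor_refl_perp hx, taylor_refl_perp hy, taylor_refl_self he], taylor_exp3,
      taylor_exp3 _ _ _ e] at this
    simp only [D3, taylor_pd3 hs]
    simp only [PiLp.neg_apply, mul_neg, Finset.sum_neg_distrib] at this
    linarith
  · refine (pi_norm_le_iff_of_nonneg p).2 fun i => ?_
    simp only [D1, taylor_pd1 hs]
    exact bd0 1 (by norm_num) _ fun j => by fin_cases j; simp
  · refine (pi_norm_le_iff_of_nonneg p).2 fun i => (pi_norm_le_iff_of_nonneg p).2 fun j => ?_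
    simp only [D2, taylor_pd2 hs]
    exact bd0 2 (by norm_num) _ fun j => by fin_cases j <;> simp
  · refine (pi_norm_le_iff_of_nonneg p).2 fun i => (pi_norm_le_iff_of_nonneg p).2 fun j =>
      (pi_norm_le_iff_of_nonneg p).2 fun k => ?_
    simp only [D3, taylor_pd3 hs]
    exact bd0 3 (by norm_num) _ fun j => by fin_cases j <;> simp
  · obtain ⟨t, ht, e1⟩ := taylor_rem hs x
    have h1 : t • x ∈ ball (0 : E n) (1 / 8) := by
      rw [mem_ball_zero_iff] at hx ⊢
      rw [norm_smul, Real.norm_of_nonneg ht.1.le]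
      exact (mul_le_of_le_one_left (norm_nonneg _) ht.2.le).trans_lt hx
    have h2 := (iteratedFDeriv ℝ 4 h (t • x)).le_opNorm fun _ => x
    rw [Finset.prod_const, Finset.card_univ, Fintype.card_fin, Real.norm_eq_abs] at h2
    have h3 := mul_le_mul_of_nonneg_right (bd _ h1 4 le_rfl) (pow_nonneg (norm_nonneg x) 4)
    rw [e1, abs_div, abs_of_pos (by norm_num : (0 : ℝ) < 24)]
    linarith [abs_nonneg (iteratedFDeriv ℝ 4 h (t • x) fun _ => x)]

end Vale.Agent.P098
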