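import Vale.Agent.P098.Iface

open MeasureTheory Set Metric Filter
open scoped ContDiff RealInnerProductSpace Topology NNReal

noncomputable section
namespace Vale.Agent.P098

variable {n : ℕ}

lemma trunc_dcont {U : Set (E n)} {ψ : E n → ℝ} (h : IsTest U ψ) (v : E n) :
    Continuous fun x => fderiv ℝ ψ x v :=
  (h.1.continuous_fderiv (by simp)).clm_apply continuous_const

lemma trunc_gcont {U : Set (E n)} {ψ : E n → ℝ} (h : IsTest U ψ) : Continuous (gradient ψ) :=
  (InnerProductSpace.toDual ℝ (E n)).symm.continuous.comp (h.1.continuous_fderiv (by simp))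

lemma trunc_gcs {U : Set (E n)} {ψ : E n → ℝ} (h : IsTest U ψ) : HasCompactSupport (gradient ψ) :=
  (h.2.1.fderiv ℝ).comp_left (g := (InnerProductSpace.toDual ℝ (E n)).symm) (map_zero _)

lemma trunc_L2 {U : Set (E n)} {ψ : E n → ℝ} (h : IsTest U ψ) : MemLp ψ 2 (volume.restrict U) :=
  (h.1.continuous.memLp_of_hasCompactSupport h.2.1).restrict U

lemma trunc_dL2 {U : Set (E n)} {ψ : E n → ℝ} (h : IsTest U ψ) (v : E n) :
    MemLp (fun x => fderiv ℝ ψ x v) 2 (volume.restrict U) :=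
  ((trunc_dcont h v).memLp_of_hasCompactSupport (h.2.1.fderiv_apply ℝ v)).restrict U

lemma trunc_gL2 {U : Set (E n)} {ψ : E n → ℝ} (h : IsTest U ψ) :
    MemLp (gradient ψ) 2 (volume.restrict U) :=
  ((trunc_gcont h).memLp_of_hasCompactSupport (trunc_gcs h)).restrict U

lemma trunc_inner {μ : Measure (E n)} {H : E n → E n} (h : MemLp H 2 μ) (v : E n) :
    MemLp (fun x => ⟪H x, v⟫) 2 μ :=
  h.of_le_mul (c := ‖v‖) (h.1.inner aestronglyMeasurable_const)
    (Eventually.of_forall fun x => by rw [mul_comm]; exact norm_inner_le_norm _ _)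

lemma trunc_int {μ : Measure (E n)} {a b : E n → ℝ} (ha : MemLp a 2 μ) (hb : MemLp b 2 μ) :
    Integrable (fun x => a x * b x) μ := ha.integrable_mul hb

lemma trunc_test_mul {U : Set (E n)} {χ ψ : E n → ℝ} (hχ : IsTest U χ) (hψ : IsTest U ψ) :
    IsTest U fun x => χ x * ψ x :=
  ⟨hχ.1.mul hψ.1, hψ.2.1.mul_left, (tsupport_mul_subset_right).trans hψ.2.2⟩

/-- product with a test function -/
lemma trunc_prod {U : Set (E n)} {f χ : E n → ℝ} {G : E n → E n} (hf : IsH1 U f G)
    (hχ : IsTest U χ) : IsH1 U (fun x => χ x * f x) (fun x => χ x • G x + f x • gradient χ x) := by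
  obtain ⟨C, hC⟩ := hχ.1.continuous.bounded_above_of_compact_support hχ.2.1
  obtain ⟨D, hD⟩ := (trunc_gcont hχ).bounded_above_of_compact_support (trunc_gcs hχ)
  have m1 : AEStronglyMeasurable χ (volume.restrict U) := hχ.1.continuous.aestronglyMeasurable
  refine ⟨hf.1.of_le_mul (c := C) (m1.mul hf.1.1) (Eventually.of_forall fun x => ?_),
    MemLp.add (f := fun x => χ x • G x) (g := fun x => f x • gradient χ x)
      (hf.2.1.of_le_mul (c := C) (m1.smul hf.2.1.1) (Eventually.of_forall fun x => ?_))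
      (hf.1.of_le_mul (c := D) (hf.1.1.smul (trunc_gcont hχ).aestronglyMeasurable)
        (Eventually.of_forall fun x => ?_)), fun ψ hψ v => ?_⟩
  · rw [norm_mul]
    exact mul_le_mul_of_nonneg_right (hC x) (norm_nonneg _)
  · rw [norm_smul]
    exact mul_le_mul_of_nonneg_right (hC x) (norm_nonneg _)
  · rw [norm_smul, mul_comm]
    exact mul_le_mul_of_nonneg_right (hD x) (norm_nonneg _)
  · have h1 := hf.2.2 _ (trunc_test_mul hχ hψ) v
    have i1 := trunc_int hf.1 (trunc_dL2 (trunc_test_mul hχ hψ) v)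
    have i2 := trunc_int (trunc_inner hf.2.1 v) (trunc_L2 (trunc_test_mul hχ hψ))
    have hm : MemLp (fun x => fderiv ℝ χ x v * ψ x) 2 (volume.restrict U) :=
      (((trunc_dcont hχ v).mul hψ.1.continuous).memLp_of_hasCompactSupport
        hψ.2.1.mul_left).restrict U
    have i3 := trunc_int hf.1 hm
    have e1 : ∀ x, χ x * f x * fderiv ℝ ψ x v =
        f x * fderiv ℝ (fun x => χ x * ψ x) x v - f x * (fderiv ℝ χ x v * ψ x) := fun x => by
      rw [fderiv_fun_mul (hχ.1.differentiable (by simp) x) (hψ.1.differentiable (by simp) x)]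
      simp only [add_apply, smul_apply, smul_eq_mul]
      ring
    have e2 : ∀ x, ⟪χ x • G x + f x • gradient χ x, v⟫ * ψ x =
        ⟪G x, v⟫ * (χ x * ψ x) + f x * (fderiv ℝ χ x v * ψ x) := fun x => by
      rw [inner_add_left, real_inner_smul_left, real_inner_smul_left, inner_gradient_left]
      ring
    simp only [e1, e2]
    rw [integral_sub i1 i3, integral_add i2 i3, h1]
    ring

/-- chain rule for test functions -/
lemma trunc_smooth {U : Set (E n)} {φ ψ : E n → ℝ} (hφ : IsTest U φ) (hψ : IsTest U ψ) (v : E n)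
    {F s : ℝ → ℝ} (hF : ∀ t, HasDerivAt F (s t) t) (hs : Continuous s) :
    ∫ x in U, F (φ x) * fderiv ℝ ψ x v = -∫ x in U, s (φ x) * ⟪gradient φ x, v⟫ * ψ x := by
  have hd : ∀ x, HasFDerivAt (fun x => F (φ x)) (s (φ x) • fderiv ℝ φ x) x := fun x =>
    (hF (φ x)).comp_hasFDerivAt x (hφ.1.differentiable (by simp) x).hasFDerivAt
  have e : ∀ x, fderiv ℝ (fun x => F (φ x)) x v = s (φ x) * ⟪gradient φ x, v⟫ := fun x => by
    rw [(hd x).fderiv, inner_gradient_left]
    rfl
  have hFc : Continuous F := continuous_iff_continuousAt.2 fun t => (hF t).continuousAt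
  have c1 : Continuous fun x => F (φ x) := hFc.comp hφ.1.continuous
  have c2 : Continuous fun x => s (φ x) * ⟪gradient φ x, v⟫ :=
    (hs.comp hφ.1.continuous).mul ((trunc_gcont hφ).inner continuous_const)
  have h := integral_mul_fderiv_eq_neg_fderiv_mul_of_integrable (μ := (volume : Measure (E n)))
    (f := fun x => F (φ x)) (g := ψ) (v := v)
    (by
      simp only [e]
      exact (c2.mul hψ.1.continuous).integrable_of_hasCompactSupport hψ.2.1.mul_left)
    ((c1.mul (trunc_dcont hψ v)).integrable_of_hasCompactSupport (hψ.2.1.fderiv_apply ℝ v).mul_left)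
    ((c1.mul hψ.1.continuous).integrable_of_hasCompactSupport hψ.2.1.mul_left)
    (fun x _ => (hd x).differentiableAt) (fun x _ => hψ.1.differentiable (by simp) x)
  simp only [e] at h
  rw [setIntegral_eq_integral_of_forall_compl_eq_zero, setIntegral_eq_integral_of_forall_compl_eq_zero,
    h]
  · intro x hx
    rw [image_eq_zero_of_notMem_tsupport fun h => hx (hψ.2.2 h), mul_zero]
  · intro x hx
    rw [fderiv_of_notMem_tsupport ℝ fun h => hx (hψ.2.2 h)]
    simp

lemma trunc_amgm {a b ε : ℝ} (hε : 0 < ε) : a * b ≤ ε⁻¹ * a ^ 2 + ε * b ^ 2 := by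
  have h1 : 0 ≤ ε⁻¹ * (a - ε * b) ^ 2 := by positivity
  have h2 : 0 ≤ ε⁻¹ * a ^ 2 := by positivity
  have h3 : 0 ≤ ε * b ^ 2 := by positivity
  have e : ε⁻¹ * (a - ε * b) ^ 2 = ε⁻¹ * a ^ 2 - 2 * (a * b) + ε * b ^ 2 := by
    field_simp
    ring
  linarith

lemma trunc_pt {Fa Fb sa sb a b d p M L ε : ℝ} {H K v : E n} (hε : 0 < ε) (hL : 0 ≤ L)
    (h1 : |Fa - Fb| ≤ |a - b|) (h2 : |sa - sb| ≤ L * |a - b|) (h3 : |sb| ≤ 1) (h4 : |p| ≤ M) :
    |(Fa * d + sa * ⟪H, v⟫ * p) - (Fb * d + sb * ⟪K, v⟫ * p)| ≤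
      ε⁻¹ * ((a - b) ^ 2 + ‖H - K‖ ^ 2) + ε * ((|d| + L * M * |⟪H, v⟫|) ^ 2 + (‖v‖ * p) ^ 2) := by
  have e : (Fa * d + sa * ⟪H, v⟫ * p) - (Fb * d + sb * ⟪K, v⟫ * p) =
      (Fa - Fb) * d + (sa - sb) * ⟪H, v⟫ * p + sb * ⟪H - K, v⟫ * p := by
    rw [inner_sub_left]
    ring
  have a1 : |(Fa - Fb) * d| ≤ |a - b| * |d| := by
    rw [abs_mul]
    exact mul_le_mul_of_nonneg_right h1 (abs_nonneg _)
  have a2 : |(sa - sb) * ⟪H, v⟫ * p| ≤ L * |a - b| * |⟪H, v⟫| * M := by
    rw [abs_mul, abs_mul]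
    exact mul_le_mul (mul_le_mul_of_nonneg_right h2 (abs_nonneg _)) h4 (abs_nonneg _)
      (by positivity)
  have a3 : |sb * ⟪H - K, v⟫ * p| ≤ 1 * (‖H - K‖ * ‖v‖) * |p| := by
    rw [abs_mul, abs_mul]
    exact mul_le_mul_of_nonneg_right (mul_le_mul h3 (abs_real_inner_le_norm _ _) (abs_nonneg _)
      zero_le_one) (abs_nonneg _)
  have b1 := trunc_amgm (a := |a - b|) (b := |d| + L * M * |⟪H, v⟫|) hε
  have b2 := trunc_amgm (a := ‖H - K‖) (b := ‖v‖ * |p|) hε
  rw [sq_abs] at b1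
  rw [mul_pow, sq_abs, ← mul_pow] at b2
  rw [e]
  refine (abs_add_le _ _).trans ((add_le_add_left (abs_add_le _ _) _).trans ?_)
  linarith

/-- chain rule in `H¹₀` -/
lemma trunc_chain {U : Set (E n)} {g ψ : E n → ℝ} {H : E n → E n} (hg : IsH10 U g H)
    (hψ : IsTest U ψ) (v : E n) {F s : ℝ → ℝ} {L : ℝ} (hF : ∀ t, HasDerivAt F (s t) t)
    (hs : Continuous s) (hL : 0 ≤ L) (hF0 : F 0 = 0) (hF1 : ∀ a b, |F a - F b| ≤ |a - b|)
    (hs1 : ∀ a, |s a| ≤ 1) (hsL : ∀ a b, |s a - s b| ≤ L * |a - b|) :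
    ∫ x in U, F (g x) * fderiv ℝ ψ x v = -∫ x in U, s (g x) * ⟪H x, v⟫ * ψ x := by
  have hFc : Continuous F := continuous_iff_continuousAt.2 fun t => (hF t).continuousAt
  have I1 : ∀ w : E n → ℝ, MemLp w 2 (volume.restrict U) →
      Integrable (fun x => F (w x) * fderiv ℝ ψ x v) (volume.restrict U) := fun w hw =>
    trunc_int (hw.of_le (hFc.comp_aestronglyMeasurable hw.1) (Eventually.of_forall fun x => by
      simpa [hF0] using hF1 (w x) 0)) (trunc_dL2 hψ v)
  have I2 : ∀ (w : E n → ℝ) (W : E n → E n), MemLp w 2 (volume.restrict U) →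
      MemLp W 2 (volume.restrict U) →
      Integrable (fun x => s (w x) * ⟪W x, v⟫ * ψ x) (volume.restrict U) := fun w W hw hW =>
    trunc_int ((trunc_inner hW v).of_le
      ((hs.comp_aestronglyMeasurable hw.1).mul (trunc_inner hW v).1)
      (Eventually.of_forall fun x => by
        rw [norm_mul]
        exact mul_le_of_le_one_left (norm_nonneg _) (hs1 _))) (trunc_L2 hψ)
  obtain ⟨M, hM⟩ := hψ.1.continuous.bounded_above_of_compact_support hψ.2.1
  have IW : Integrable (fun x => (|fderiv ℝ ψ x v| + L * M * |⟪H x, v⟫|) ^ 2 + (‖v‖ * ψ x) ^ 2)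
      (volume.restrict U) :=
    (MemLp.integrable_sq (MemLp.add (trunc_dL2 hψ v).abs
      ((trunc_inner hg.1.2.1 v).abs.const_mul (L * M)))).add
      ((trunc_L2 hψ).const_mul ‖v‖).integrable_sq
  obtain ⟨C, hC⟩ : ∃ C, C = ∫ x in U,
    ((|fderiv ℝ ψ x v| + L * M * |⟪H x, v⟫|) ^ 2 + (‖v‖ * ψ x) ^ 2) := ⟨_, rfl⟩
  have hC0 : 0 ≤ C := by
    rw [hC]
    exact integral_nonneg fun x => by positivity
  have key : ∀ ε : ℝ, 0 < ε → |(∫ x in U, F (g x) * fderiv ℝ ψ x v) +
      ∫ x in U, s (g x) * ⟪H x, v⟫ * ψ x| ≤ ε * (1 + C) := by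
    intro ε hε
    obtain ⟨φ, hφ, hδ⟩ := hg.2 (ε ^ 2) (by positivity)
    have J1 : Integrable (fun x => (g x - φ x) ^ 2) (volume.restrict U) :=
      (hg.1.1.sub (trunc_L2 hφ)).integrable_sq
    have J2 : Integrable (fun x => ‖H x - gradient φ x‖ ^ 2) (volume.restrict U) :=
      (hg.1.2.1.sub (trunc_gL2 hφ)).norm.integrable_sq
    have a1 := I1 g hg.1.1
    have a2 := I2 g H hg.1.1 hg.1.2.1
    have a3 := I1 φ (trunc_L2 hφ)
    have a4 := I2 φ _ (trunc_L2 hφ) (trunc_gL2 hφ)
    have e : (∫ x in U, F (g x) * fderiv ℝ ψ x v) + ∫ x in U, s (g x) * ⟪H x, v⟫ * ψ x =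
        ∫ x in U, ((F (g x) * fderiv ℝ ψ x v + s (g x) * ⟪H x, v⟫ * ψ x) -
          (F (φ x) * fderiv ℝ ψ x v + s (φ x) * ⟪gradient φ x, v⟫ * ψ x)) := by
      rw [integral_sub (f := fun x => F (g x) * fderiv ℝ ψ x v + s (g x) * ⟪H x, v⟫ * ψ x)
        (g := fun x => F (φ x) * fderiv ℝ ψ x v + s (φ x) * ⟪gradient φ x, v⟫ * ψ x)
        (a1.add a2) (a3.add a4), integral_add a1 a2, integral_add a3 a4,
        trunc_smooth hφ hψ v hF hs]
      ring
    have J3 : Integrable (fun x => (g x - φ x) ^ 2 + ‖H x - gradient φ x‖ ^ 2)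
      (volume.restrict U) := J1.add J2
    have b := norm_integral_le_of_norm_le (μ := volume.restrict U)
      (f := fun x => (F (g x) * fderiv ℝ ψ x v + s (g x) * ⟪H x, v⟫ * ψ x) -
          (F (φ x) * fderiv ℝ ψ x v + s (φ x) * ⟪gradient φ x, v⟫ * ψ x))
      (g := fun x => ε⁻¹ * ((g x - φ x) ^ 2 + ‖H x - gradient φ x‖ ^ 2) +
        ε * ((|fderiv ℝ ψ x v| + L * M * |⟪H x, v⟫|) ^ 2 + (‖v‖ * ψ x) ^ 2))
      ((J3.const_mul _).add (IW.const_mul _))
      (Eventually.of_forall fun x => trunc_pt hε hL (hF1 _ _) (hsL _ _) (hs1 _) (hM x))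
    rw [integral_add (J3.const_mul _) (IW.const_mul _), integral_const_mul, integral_const_mul,
      integral_add J1 J2, ← hC, ← e, Real.norm_eq_abs] at b
    have c := mul_le_mul_of_nonneg_left hδ.le (inv_nonneg.2 hε.le)
    have e2 : ε⁻¹ * ε ^ 2 = ε := by field_simp
    linarith
  have h0 : |(∫ x in U, F (g x) * fderiv ℝ ψ x v) + ∫ x in U, s (g x) * ⟪H x, v⟫ * ψ x| ≤ 0 := by
    refine le_of_forall_pos_le_add fun ε hε => ?_
    have := key (ε / (1 + C)) (by positivity)
    rw [div_mul_cancel₀ _ (by positivity)] at this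
    linarith
  have := abs_nonpos_iff.1 h0
  linarith

/-- Lipschitz approximation of the step function -/
def trunc_s (k : ℕ) (t : ℝ) : ℝ := min 1 (max 0 (k * t))

/-- its primitive -/
def trunc_F (k : ℕ) (t : ℝ) : ℝ := ∫ x in (0 : ℝ)..t, trunc_s k x

lemma trunc_s_cont (k : ℕ) : Continuous (trunc_s k) := by
  unfold trunc_s
  fun_prop

lemma trunc_s_le (k : ℕ) (t : ℝ) : |trunc_s k t| ≤ 1 := by
  have h : 0 ≤ trunc_s k t := le_min zero_le_one (le_max_left _ _)
  rw [abs_of_nonneg h]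
  exact min_le_left _ _

lemma trunc_s_lip (k : ℕ) (a b : ℝ) : |trunc_s k a - trunc_s k b| ≤ k * |a - b| := by
  unfold trunc_s
  refine (abs_min_sub_min_le_max _ _ _ _).trans (max_le (by simp; positivity) ?_)
  refine (abs_max_sub_max_le_max _ _ _ _).trans (max_le (by simp; positivity) ?_)
  rw [← mul_sub, abs_mul, Nat.abs_cast]

lemma trunc_F_deriv (k : ℕ) (t : ℝ) : HasDerivAt (trunc_F k) (trunc_s k t) t :=
  ((trunc_s_cont k).integral_hasStrictDerivAt 0 t).hasDerivAt

lemma trunc_F_lip (k : ℕ) (a b : ℝ) : |trunc_F k a - trunc_F k b| ≤ |a - b| := by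
  unfold trunc_F
  rw [intervalIntegral.integral_interval_sub_left ((trunc_s_cont k).intervalIntegrable _ _)
    ((trunc_s_cont k).intervalIntegrable _ _)]
  have := intervalIntegral.norm_integral_le_of_norm_le_const (a := b) (b := a) (C := 1)
    (f := trunc_s k) fun x _ => trunc_s_le k x
  simpa using this

lemma trunc_s_lim (t : ℝ) :
    Tendsto (fun k => trunc_s k t) atTop (𝓝 (if 0 < t then 1 else 0)) := by
  split_ifs with h
  · refine tendsto_const_nhds.congr' ?_
    filter_upwards [(tendsto_natCast_atTop_atTop.atTop_mul_const h).eventually_ge_atTop 1] with k hk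
    exact (min_eq_left (le_max_of_le_right hk)).symm
  · refine tendsto_const_nhds.congr fun k => ?_
    unfold trunc_s
    rw [max_eq_left (mul_nonpos_of_nonneg_of_nonpos (Nat.cast_nonneg k) (not_lt.1 h)),
      min_eq_right zero_le_one]

lemma trunc_F_lim (t : ℝ) : Tendsto (fun k => trunc_F k t) atTop (𝓝 (max t 0)) := by
  have h := intervalIntegral.tendsto_integral_filter_of_dominated_convergence (μ := volume)
    (l := atTop) (a := 0) (b := t) (F := fun k => trunc_s k)
    (f := fun _ => if 0 < t then (1 : ℝ) else 0) (fun _ => 1)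
    (Eventually.of_forall fun k => (trunc_s_cont k).aestronglyMeasurable)
    (Eventually.of_forall fun k => Eventually.of_forall fun x _ => trunc_s_le k x)
    intervalIntegrable_const (Eventually.of_forall fun x hx => by
      have h1 := trunc_s_lim x
      by_cases ht : 0 < t
      · rw [uIoc_of_le ht.le] at hx
        rw [if_pos hx.1] at h1
        rwa [if_pos ht]
      · rw [uIoc_of_ge (not_lt.1 ht)] at hx
        rw [if_neg (not_lt.2 hx.2)] at h1
        rwa [if_neg ht])
  have e : ∫ _ in (0 : ℝ)..t, (if 0 < t then (1 : ℝ) else 0) = max t 0 := by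
    by_cases ht : 0 < t
    · simp [ht, ht.le]
    · simp [ht, not_lt.1 ht]
  rw [e] at h
  exact h

lemma trunc_h10 {U : Set (E n)} {g ψ : E n → ℝ} {H : E n → E n} (hg : IsH10 U g H)
    (hψ : IsTest U ψ) (v : E n) :
    ∫ x in U, max (g x) 0 * fderiv ℝ ψ x v =
      -∫ x in U, (if 0 < g x then 1 else 0) * ⟪H x, v⟫ * ψ x := by
  have F0 : ∀ k, trunc_F k 0 = 0 := fun k => intervalIntegral.integral_same
  have h1 := tendsto_integral_of_dominated_convergence (μ := volume.restrict U)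
    (F := fun k x => trunc_F k (g x) * fderiv ℝ ψ x v)
    (f := fun x => max (g x) 0 * fderiv ℝ ψ x v) (fun x => ‖g x * fderiv ℝ ψ x v‖)
    (fun k => (Continuous.comp_aestronglyMeasurable (continuous_iff_continuousAt.2 fun t =>
      (trunc_F_deriv k t).continuousAt) hg.1.1.1).mul (trunc_dL2 hψ v).1)
    (trunc_int hg.1.1 (trunc_dL2 hψ v)).norm
    (fun k => Eventually.of_forall fun x => by
      rw [norm_mul, norm_mul]
      refine mul_le_mul_of_nonneg_right ?_ (norm_nonneg _)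
      simpa [F0] using trunc_F_lip k (g x) 0)
    (Eventually.of_forall fun x => (trunc_F_lim (g x)).mul_const _)
  have h2 := tendsto_integral_of_dominated_convergence (μ := volume.restrict U)
    (F := fun k x => trunc_s k (g x) * ⟪H x, v⟫ * ψ x)
    (f := fun x => (if 0 < g x then 1 else 0) * ⟪H x, v⟫ * ψ x) (fun x => ‖⟪H x, v⟫ * ψ x‖)
    (fun k => (((trunc_s_cont k).comp_aestronglyMeasurable hg.1.1.1).mul
      (trunc_inner hg.1.2.1 v).1).mul (trunc_L2 hψ).1)
    (trunc_int (trunc_inner hg.1.2.1 v) (trunc_L2 hψ)).norm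
    (fun k => Eventually.of_forall fun x => by
      rw [mul_assoc, norm_mul]
      exact mul_le_of_le_one_left (norm_nonneg _) (trunc_s_le k _))
    (Eventually.of_forall fun x => ((trunc_s_lim (g x)).mul_const _).mul_const _)
  refine tendsto_nhds_unique h1 (h2.neg.congr fun k => ?_)
  exact (trunc_chain hg hψ v (trunc_F_deriv k) (trunc_s_cont k) (Nat.cast_nonneg k) (F0 k)
    (trunc_F_lip k) (trunc_s_le k) (trunc_s_lip k)).symm

lemma trunc_cut {U K : Set (E n)} (hU : IsOpen U) (hK : IsCompact K) (hKU : K ⊆ U) :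
    ∃ χ, IsTest U χ ∧ ∀ x ∈ K, χ x = 1 := by
  obtain ⟨L, hL, h1, h2⟩ := exists_compact_between hK hU hKU
  obtain ⟨f, f0, f1, _⟩ := exists_contMDiffMap_zero_one_of_isClosed (modelWithCornersSelf ℝ (E n))
    (n := ⊤) (s := (interior L)ᶜ) (t := K) isOpen_interior.isClosed_compl hK.isClosed
    (disjoint_compl_left_iff_subset.2 h1)
  have hs : tsupport f ⊆ L := by
    refine closure_minimal (fun x hx => ?_) hL.isClosed
    by_contra hx'
    exact hx (f0 fun h => hx' (interior_subset h))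
  exact ⟨f, ⟨f.contMDiff.contDiff, hL.of_isClosed_subset (isClosed_tsupport _) hs, hs.trans h2⟩,
    fun x hx => f1 hx⟩

theorem trunc (h_h10 : S_h10) : S_trunc := by
  intro n U f G hU hf
  refine ⟨hf.1.pos_part, hf.2.1.of_le ?_ (Eventually.of_forall fun x => ?_), fun ψ hψ v => ?_⟩
  · have e : (fun x => if 0 < f x then G x else 0) = indicator {x | 0 < f x} G := by
      funext x
      simp only [indicator, mem_ofPred_eq]
    rw [e]
    exact hf.2.1.1.indicator₀ (nullMeasurableSet_lt aemeasurable_const hf.1.1.aemeasurable)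
  · split_ifs
    · exact le_rfl
    · simp
  · obtain ⟨χ, hχ, h1⟩ := trunc_cut hU hψ.2.1 hψ.2.2
    have h2 := h_h10 n U (tsupport χ) _ _ hU hχ.2.1 hχ.2.2 (trunc_prod hf hχ)
      (Eventually.of_forall fun x hx => by rw [image_eq_zero_of_notMem_tsupport hx, zero_mul])
    have h3 := trunc_h10 h2 hψ v
    have e1 : ∀ x, max (χ x * f x) 0 * fderiv ℝ ψ x v = max (f x) 0 * fderiv ℝ ψ x v := by
      intro x
      by_cases hx : x ∈ tsupport ψ
      · rw [h1 x hx, one_mul]
      · rw [fderiv_of_notMem_tsupport ℝ hx]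
        simp
    have e2 : ∀ x, (if 0 < χ x * f x then 1 else 0) * ⟪χ x • G x + f x • gradient χ x, v⟫ * ψ x =
        ⟪if 0 < f x then G x else 0, v⟫ * ψ x := by
      intro x
      by_cases hx : ψ x = 0
      · rw [hx, mul_zero, mul_zero]
      · have hev : χ =ᶠ[𝓝 x] fun _ => 1 :=
          (hψ.1.continuous.continuousAt.eventually_ne hx).mono fun y hy =>
            h1 y (subset_tsupport _ hy)
        rw [inner_add_left, real_inner_smul_left, real_inner_smul_left, inner_gradient_left,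
          hev.fderiv_eq, h1 x (subset_tsupport _ hx), one_mul]
        split_ifs <;> simp
    simp only [e1, e2] at h3
    exact h3

end Vale.Agent.P098
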