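import Vale.Agent.P098.Iface

open MeasureTheory Set Metric Filter
open scoped ContDiff RealInnerProductSpace Topology NNReal

noncomputable section
namespace Vale.Agent.P098

variable {n : ℕ}

theorem intg_pd_sm {U : Set (E n)} (hU : IsOpen U) {f : E n → ℝ} (hf : ContDiffOn ℝ ∞ f U)
    (i : Fin n) : ContDiffOn ℝ ∞ (pd i f) U :=
  (hf.fderiv_of_isOpen hU (by simp)).clm_apply contDiffOn_const

theorem intg_diff {U : Set (E n)} (hU : IsOpen U) {f : E n → ℝ} (hf : ContDiffOn ℝ ∞ f U)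
    {x : E n} (hx : x ∈ U) : DifferentiableAt ℝ f x :=
  (hf.contDiffAt (hU.mem_nhds hx)).differentiableAt (by simp)

theorem intg_pd_congr {f g : E n → ℝ} {x : E n} (h : f =ᶠ[𝓝 x] g) (i : Fin n) :
    pd i f x = pd i g x := by
  simp only [pd, h.fderiv_eq]

theorem intg_comm {U : Set (E n)} (hU : IsOpen U) {f : E n → ℝ} (hf : ContDiffOn ℝ ∞ f U)
    {x : E n} (hx : x ∈ U) (i j : Fin n) : pd i (pd j f) x = pd j (pd i f) x := by
  have h1 := hf.contDiffAt (hU.mem_nhds hx)
  have h2 : DifferentiableAt ℝ (fderiv ℝ f) x :=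
    (h1.fderiv_right (m := 1) (by norm_cast)).differentiableAt one_ne_zero
  have h3 : ∀ i j : Fin n, pd i (pd j f) x =
      fderiv ℝ (fderiv ℝ f) x (EuclideanSpace.single i 1) (EuclideanSpace.single j 1) := by
    intro i j
    show fderiv ℝ (fun y => fderiv ℝ f y (EuclideanSpace.single j 1)) x _ = _
    rw [fderiv_clm_apply h2 (differentiableAt_const _)]
    simp
  rw [h3, h3]
  exact (h1.isSymmSndFDerivAt (by simp; norm_cast)).eq _ _

theorem intg_line {f : E n → ℝ} {x : E n} (hf : DifferentiableAt ℝ f x) (k : Fin n) :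
    HasDerivAt (fun t : ℝ => f (x + t • EuclideanSpace.single k 1)) (pd k f x) 0 :=
  hf.hasFDerivAt.hasLineDerivAt _

theorem intg_harm_pd {U : Set (E n)} (hU : IsOpen U) {f : E n → ℝ} (hf : Harm U f) (i : Fin n) :
    Harm U (pd i f) := by
  refine ⟨intg_pd_sm hU hf.1 i, fun x hx => ?_⟩
  have h1 : ∀ k, pd k (pd k (pd i f)) x = pd i (pd k (pd k f)) x := fun k => by
    rw [← intg_comm hU (intg_pd_sm hU hf.1 k) hx]
    refine intg_pd_congr ?_ k
    filter_upwards [hU.mem_nhds hx] with y hy using intg_comm hU hf.1 hy k i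
  have h2 : ∀ k, DifferentiableAt ℝ (pd k (pd k f)) x := fun k =>
    intg_diff hU (intg_pd_sm hU (intg_pd_sm hU hf.1 k) k) hx
  have h3 := HasDerivAt.fun_sum (u := Finset.univ) fun k _ => intg_line (h2 k) i
  have h4 : (lap f) =ᶠ[𝓝 x] fun _ => 0 := by
    filter_upwards [hU.mem_nhds hx] with y hy using hf.2 y hy
  have h5 : DifferentiableAt ℝ (lap f) x := (differentiableAt_const _).congr_of_eventuallyEq h4
  have h6 := h3.unique (intg_line h5 i)
  rw [intg_pd_congr h4] at h6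
  rw [lap, Finset.sum_congr rfl fun k _ => h1 k, h6]
  simp [pd]

/-- The regularised norm. -/
def intg_w {ι : Type} [Fintype ι] (a : ι → E n → ℝ) (d : ℝ) (x : E n) : ℝ :=
  √(∑ i, a i x ^ 2 + d ^ 2)

/-- Its gradient. -/
def intg_Y {ι : Type} [Fintype ι] (a : ι → E n → ℝ) (d : ℝ) (k : Fin n) (x : E n) : ℝ :=
  (∑ i, a i x * pd k (a i) x) / intg_w a d x

theorem intg_w_pos {ι : Type} [Fintype ι] (a : ι → E n → ℝ) {d : ℝ} (hd : 0 < d) (x : E n) :
    0 < intg_w a d x := Real.sqrt_pos.2 (by positivity)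

theorem intg_Y_sm {ι : Type} [Fintype ι] {U : Set (E n)} (hU : IsOpen U) {a : ι → E n → ℝ}
    (ha : ∀ i, Harm U (a i)) {d : ℝ} (hd : 0 < d) (k : Fin n) :
    ContDiffOn ℝ ∞ (intg_Y a d k) U :=
  (ContDiffOn.sum fun i _ => (ha i).1.mul (intg_pd_sm hU (ha i).1 k)).div
    (((ContDiffOn.sum fun i _ => (ha i).1.pow 2).add contDiffOn_const).sqrt fun x _ => by
      positivity) fun x _ => (intg_w_pos a hd x).ne'

theorem intg_Y_le {ι : Type} [Fintype ι] (a : ι → E n → ℝ) {d : ℝ} (hd : 0 < d) (k : Fin n)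
    (x : E n) : |intg_Y a d k x| ≤ ∑ i, |pd k (a i) x| := by
  have hw := intg_w_pos a hd x
  rw [intg_Y, abs_div, abs_of_pos hw, div_le_iff₀ hw, Finset.sum_mul]
  refine (Finset.abs_sum_le_sum_abs _ _).trans (Finset.sum_le_sum fun i _ => ?_)
  rw [abs_mul, mul_comm]
  refine mul_le_mul_of_nonneg_left (Real.abs_le_sqrt ?_) (abs_nonneg _)
  have := Finset.single_le_sum (f := fun i => a i x ^ 2) (fun i _ => sq_nonneg _)
    (Finset.mem_univ i)
  nlinarith [sq_nonneg d]

theorem intg_div {ι : Type} [Fintype ι] {U : Set (E n)} (hU : IsOpen U) {a : ι → E n → ℝ}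
    (ha : ∀ i, Harm U (a i)) {d : ℝ} (hd : 0 < d) {x : E n} (hx : x ∈ U) :
    ∑ k, pd k (intg_Y a d k) x = (∑ k, ∑ i, pd k (a i) x ^ 2) / intg_w a d x -
      (∑ k, (∑ i, a i x * pd k (a i) x) ^ 2) / intg_w a d x ^ 3 := by
  have hw := intg_w_pos a hd x
  have h1 : ∀ k, pd k (intg_Y a d k) x =
      (∑ i, pd k (a i) x ^ 2 + ∑ i, a i x * pd k (pd k (a i)) x) / intg_w a d x -
        (∑ i, a i x * pd k (a i) x) ^ 2 / intg_w a d x ^ 3 := by
    intro k
    have k1 := fun i => intg_line (intg_diff hU (ha i).1 hx) k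
    have k2 := fun i => intg_line (intg_diff hU (intg_pd_sm hU (ha i).1 k) hx) k
    have k3 := (HasDerivAt.fun_sum (u := Finset.univ) fun i _ => (k1 i).fun_mul (k2 i)).fun_div
      (((HasDerivAt.fun_sum (u := Finset.univ) fun i _ => (k1 i).fun_pow 2).add_const
        (d ^ 2)).sqrt (by positivity)) (Real.sqrt_pos.2 (by positivity)).ne'
    have k4 := (intg_line (intg_diff hU (intg_Y_sm hU ha hd k) hx) k).unique k3
    simp only [zero_smul, add_zero] at k4
    rw [k4]
    have k5 : ∑ i, ((2 : ℕ) : ℝ) * a i x ^ (2 - 1) * pd k (a i) x =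
        2 * ∑ i, a i x * pd k (a i) x := by
      rw [Finset.mul_sum]
      exact Finset.sum_congr rfl fun i _ => by push_cast; ring
    have k6 : ∑ i, (pd k (a i) x * pd k (a i) x + a i x * pd k (pd k (a i)) x) =
        ∑ i, pd k (a i) x ^ 2 + ∑ i, a i x * pd k (pd k (a i)) x := by
      rw [← Finset.sum_add_distrib]
      exact Finset.sum_congr rfl fun i _ => by ring
    rw [k5, k6]
    show (_ * intg_w a d x - _ * (_ / (2 * intg_w a d x))) / intg_w a d x ^ 2 = _
    field_simp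
  have h2 : ∑ k, ∑ i, a i x * pd k (pd k (a i)) x = 0 := by
    rw [Finset.sum_comm]
    refine Finset.sum_eq_zero fun i _ => ?_
    rw [← Finset.mul_sum]
    exact mul_eq_zero_of_right _ ((ha i).2 x hx)
  rw [Finset.sum_congr rfl fun k _ => h1 k, Finset.sum_sub_distrib, ← Finset.sum_div,
    ← Finset.sum_div, Finset.sum_add_distrib, h2, add_zero]

end Vale.Agent.P098
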