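import Vale.Agent.P098.Ker
import Vale.Agent.P098.Intg2

open MeasureTheory Set Metric Filter
open scoped ContDiff RealInnerProductSpace Topology NNReal

noncomputable section
namespace Vale.Agent.P098

variable {n : ℕ}

theorem uw_int {κ G : E n → ℝ} (hκ : IsTest (ball 0 1) κ) (hG : ContinuousOn G (closedBall 0 1)) :
    Integrable fun y => κ y * G y := by
  refine IntegrableOn.integrable_of_forall_notMem_eq_zero (s := closedBall 0 1)
    (ContinuousOn.integrableOn_compact (isCompact_closedBall _ _)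
      (hκ.1.continuous.continuousOn.mul hG)) fun y hy => ?_
  rw [image_eq_zero_of_notMem_tsupport fun hc => hy (ball_subset_closedBall (hκ.2.2 hc)), zero_mul]

theorem uw_test_add {U : Set (E n)} {f g : E n → ℝ} (hf : IsTest U f) (hg : IsTest U g) (c : ℝ) :
    IsTest U fun y => c * (f y + g y) := by
  refine ⟨contDiff_const.mul (hf.1.add hg.1), (hf.2.1.add hg.2.1).mul_left, ?_⟩
  exact (tsupport_mul_subset_right.trans (tsupport_add f g)).trans (union_subset hf.2.2 hg.2.2)

theorem uw_maps {U : Set (E n)} {x : E n} {r : ℝ} (hr : 0 < r) (hsub : closedBall x r ⊆ U) :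
    MapsTo (fun y : E n => x + r • y) (closedBall 0 1) U := fun y hy => by
  refine hsub ?_
  rw [mem_closedBall, dist_eq_norm, add_sub_cancel_left, norm_smul, Real.norm_of_nonneg hr.le]
  exact mul_le_of_le_one_right hr.le (mem_closedBall_zero_iff.1 hy)

/-- Mean value property for a kernel that is not normalised. -/
theorem uw_mean (h_weak : S_weak) (h_mean : S_mean) {κ φ : E n → ℝ} (tk : IsTest (ball 0 1) κ)
    (tf : IsTest (ball 0 1) φ) (k0 : ∀ y, 0 ≤ κ y) (ev : ∀ y, κ (-y) = κ y)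
    (gr : ∀ y, HasGradientAt φ (κ y • y) y) {U : Set (E n)} {h : E n → ℝ} {x : E n} {r : ℝ}
    (hU : IsOpen U) (hh : Harm U h) (hr : 0 < r) (hsub : closedBall x r ⊆ U) :
    ∫ y, κ y * h (x + r • y) = (∫ y, κ y) * h x := by
  obtain ⟨κ₀, φ₀, c, K⟩ := ker n
  have hm : 0 ≤ ∫ y, κ y := integral_nonneg k0
  set m := ∫ y, κ y with hmd
  have hc : 0 < (m + 1)⁻¹ := by positivity
  have i1 : Integrable κ := tk.1.continuous.integrable_of_hasCompactSupport tk.2.1
  have i0 : Integrable κ₀ := K.tk.1.continuous.integrable_of_hasCompactSupport K.tk.2.1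
  have K' : Ker (fun y => (m + 1)⁻¹ * (κ y + κ₀ y)) (fun y => (m + 1)⁻¹ * (φ y + φ₀ y))
      ((m + 1)⁻¹ * c) := by
    refine ⟨mul_pos hc K.pos, uw_test_add tk K.tk _, uw_test_add tf K.tf _,
      fun y => mul_nonneg hc.le (add_nonneg (k0 y) (K.nonneg y)), ?_,
      fun y hy => mul_le_mul_of_nonneg_left ((K.low y hy).trans (le_add_of_nonneg_left (k0 y)))
        hc.le, fun y => by rw [ev, K.even], fun y => HasGradientAt.gradient ?_⟩
    · rw [integral_const_mul, integral_add i1 i0, K.one, inv_mul_cancel₀ (by positivity)]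
    · have g0 : HasGradientAt φ₀ (κ₀ y • y) y := by
        rw [← K.grad y]
        exact (K.tf.1.differentiable (by simp) y).hasGradientAt
      have g1 := gr y
      rw [hasGradientAt_iff_hasFDerivAt] at g0 g1 ⊢
      refine ((g1.add g0).const_mul (m + 1)⁻¹).congr_fderiv ?_
      rw [← map_add, ← map_smul, ← add_smul, smul_smul]
  have hw := h_weak n U h hU hh
  have e0 := h_mean n _ _ _ U h x r K hU hh.1.continuousOn hw hr hsub
  have e1 := h_mean n _ _ _ U h x r K' hU hh.1.continuousOn hw hr hsub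
  have hG : ContinuousOn (fun y : E n => h (x + r • y)) (closedBall 0 1) :=
    hh.1.continuousOn.comp (by fun_prop) (uw_maps hr hsub)
  simp only [mul_assoc, add_mul] at e1
  rw [integral_const_mul, integral_add (uw_int tk hG) (uw_int K.tk hG), ← e0,
    eq_inv_mul_iff_mul_eq₀ (by positivity)] at e1
  linarith

theorem uw_rad_test {F : ℝ → ℝ} (hF : ContDiff ℝ ∞ F) (h0 : ∀ t, 49 / 50 < t → F t = 0) :
    IsTest (ball 0 1) fun y : E n => F (‖y‖ ^ 2) := by
  have h1 : tsupport (fun y : E n => F (‖y‖ ^ 2)) ⊆ closedBall 0 (99 / 100) := by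
    refine closure_minimal (fun y hy => ?_) isClosed_closedBall
    rw [mem_closedBall_zero_iff]
    by_contra h
    exact hy (h0 _ (by nlinarith [not_le.1 h]))
  exact ⟨hF.comp (contDiff_norm_sq ℝ),
    (isCompact_closedBall _ _).of_isClosed_subset (isClosed_tsupport _) h1,
    h1.trans (closedBall_subset_ball (by norm_num))⟩

theorem uw_rad_grad {F : ℝ → ℝ} {y : E n} {d : ℝ} (hF : HasDerivAt F d (‖y‖ ^ 2)) :
    HasGradientAt (fun y : E n => F (‖y‖ ^ 2)) ((2 * d) • y) y := by
  have h1 := hF.comp_hasFDerivAt y (hasStrictFDerivAt_norm_sq y).hasFDerivAt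
  rw [hasGradientAt_iff_hasFDerivAt]
  refine h1.congr_fderiv ?_
  ext v
  simp
  ring

/-- A kernel concentrated near the unit sphere, with two primitives. -/
theorem uw_ker (n : ℕ) : ∃ κ φ ψ : E n → ℝ, IsTest (ball 0 1) κ ∧ IsTest (ball 0 1) φ ∧
    IsTest (ball 0 1) ψ ∧ (∀ y, 0 ≤ κ y) ∧ (∀ y, κ (-y) = κ y) ∧ (∀ y, φ y ≤ 0) ∧
    (∀ y, φ (-y) = φ y) ∧ φ 0 ≠ 0 ∧ (∀ y, HasGradientAt φ (κ y • y) y) ∧
    (∀ y, HasGradientAt ψ (-φ y • y) y) ∧ ∀ y, κ y ≤ 25 / 24 * (κ y * ‖y‖ ^ 2) := by
  let K : ℝ → ℝ := fun t => -Real.smoothTransition (49 - 50 * t)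
  have hK : ContDiff ℝ ∞ K :=
    (Real.smoothTransition.contDiff.comp (contDiff_const.sub (contDiff_const.mul contDiff_id))).neg
  have hKd : ∀ t, HasDerivAt K (deriv K t) t := fun t =>
    (hK.differentiable (by simp) t).hasDerivAt
  have hK' : ContDiff ℝ ∞ (deriv K) := (contDiff_infty_iff_deriv.1 hK).2
  have Kz : ∀ t, 49 / 50 ≤ t → K t = 0 := fun t ht => by
    simp only [K]
    rw [Real.smoothTransition.zero_of_nonpos (by linarith), neg_zero]
  have Ko : ∀ t, t ≤ 24 / 25 → K t = -1 := fun t ht => by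
    simp only [K]
    rw [Real.smoothTransition.one_of_one_le (by linarith)]
  have Km : Monotone K := fun s t h =>
    neg_le_neg (Real.smoothTransition.monotone (by linarith))
  have dz : ∀ t, 49 / 50 < t → deriv K t = 0 := fun t ht => by
    have : K =ᶠ[𝓝 t] fun _ => 0 := by
      filter_upwards [Ioi_mem_nhds ht] with s hs using Kz s (le_of_lt hs)
    rw [this.deriv_eq, deriv_const]
  have do' : ∀ t, t < 24 / 25 → deriv K t = 0 := fun t ht => by
    have : K =ᶠ[𝓝 t] fun _ => -1 := by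
      filter_upwards [Iio_mem_nhds ht] with s hs using Ko s (le_of_lt hs)
    rw [this.deriv_eq, deriv_const]
  let L : ℝ → ℝ := fun t => ∫ s in (49 / 50 : ℝ)..t, -K s / 2
  have hc : Continuous fun s => -K s / 2 := hK.continuous.neg.div_const 2
  have hLd : ∀ t, HasDerivAt L (-K t / 2) t := fun t => (hc.integral_hasStrictDerivAt _ t).hasDerivAt
  have hL : ContDiff ℝ ∞ L := by
    refine contDiff_infty_iff_deriv.2 ⟨fun t => (hLd t).differentiableAt, ?_⟩
    rw [show deriv L = fun t => -K t / 2 from funext fun t => (hLd t).deriv]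
    exact hK.neg.div_const 2
  have Lz : ∀ t, 49 / 50 < t → L t = 0 := fun t ht => by
    refine intervalIntegral.integral_zero_ae (ae_of_all _ fun s hs => ?_)
    rw [uIoc_of_le ht.le] at hs
    rw [Kz s hs.1.le, neg_zero, zero_div]
  refine ⟨fun y => 2 * deriv K (‖y‖ ^ 2), fun y => K (‖y‖ ^ 2), fun y => L (‖y‖ ^ 2),
    uw_rad_test (F := fun t => 2 * deriv K t) (contDiff_const.mul hK')
      fun t ht => by rw [dz t ht, mul_zero],
    uw_rad_test hK fun t ht => Kz t ht.le, uw_rad_test hL Lz,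
    fun y => mul_nonneg zero_le_two Km.deriv_nonneg, fun y => by simp only [norm_neg],
    fun y => neg_nonpos.2 (Real.smoothTransition.nonneg _), fun y => by simp only [norm_neg], ?_,
    fun y => uw_rad_grad (hKd _), fun y => ?_, fun y => ?_⟩
  · beta_reduce
    rw [Ko _ (by norm_num)]
    norm_num
  · have := uw_rad_grad (hLd (‖y‖ ^ 2))
    rwa [mul_div_cancel₀ _ two_ne_zero] at this
  · rcases lt_or_ge (‖y‖ ^ 2) (24 / 25) with h | h
    · simp [do' _ h]
    · have : 0 ≤ deriv K (‖y‖ ^ 2) := Km.deriv_nonneg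
      nlinarith

theorem uw_pd_aff (p : ℝ) (a : Fin n → ℝ) (x : E n) (i : Fin n) :
    pd i (fun z : E n => p + ∑ k, a k * (z k - x k)) = fun _ => a i := by
  funext z
  have h : HasFDerivAt (fun z : E n => p + ∑ k, a k * (z k - x k))
      (∑ k, a k • (EuclideanSpace.proj k : E n →L[ℝ] ℝ)) z :=
    (HasFDerivAt.fun_sum fun k _ =>
      (((EuclideanSpace.proj k : E n →L[ℝ] ℝ).hasFDerivAt).sub_const (x k)).const_mul
        (a k)).const_add p
  simp [pd, h.fderiv]

theorem uw_harm_aff (p : ℝ) (a : Fin n → ℝ) (x : E n) :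
    Harm univ fun z : E n => p + ∑ k, a k * (z k - x k) := by
  refine ⟨ContDiff.contDiffOn (by fun_prop), fun z _ => ?_⟩
  simp [lap, uw_pd_aff, pd]

/-- The Bessel inequality for one harmonic function. -/
theorem uw_bessel (h_ibp : S_ibp) (h_weak : S_weak) (h_mean : S_mean) {κ φ ψ : E n → ℝ}
    (tk : IsTest (ball 0 1) κ) (tf : IsTest (ball 0 1) φ) (tp : IsTest (ball 0 1) ψ)
    (k0 : ∀ y, 0 ≤ κ y) (ev : ∀ y, κ (-y) = κ y) (f0 : ∀ y, φ y ≤ 0) (ef : ∀ y, φ (-y) = φ y)
    (gr : ∀ y, HasGradientAt φ (κ y • y) y) (gp : ∀ y, HasGradientAt ψ (-φ y • y) y) :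
    (∫ y, κ y * ‖y‖ ^ 2 = n * ∫ y, -φ y) ∧
    ∀ (U : Set (E n)) (h : E n → ℝ) (x : E n) (r : ℝ), IsOpen U → Harm U h → 0 < r →
      closedBall x r ⊆ U → (∫ y, κ y) * h x ^ 2 + r ^ 2 * (∫ y, -φ y) * ∑ i, pd i h x ^ 2 ≤
        ∫ y, κ y * h (x + r • y) ^ 2 := by
  have tn : IsTest (ball 0 1) fun y => -φ y :=
    ⟨tf.1.neg, tf.2.1.neg, (tsupport_neg φ).le.trans tf.2.2⟩
  have cont : ∀ {U : Set (E n)} {h : E n → ℝ} {x : E n} {r : ℝ}, Harm U h → 0 < r →
      closedBall x r ⊆ U → ContinuousOn (fun y : E n => h (x + r • y)) (closedBall 0 1) :=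
    fun hh hr hsub => hh.1.continuousOn.comp (by fun_prop) (uw_maps hr hsub)
  have first : ∀ {U : Set (E n)} {h : E n → ℝ} {x : E n} {r : ℝ}, IsOpen U → Harm U h → 0 < r →
      closedBall x r ⊆ U → ∀ i, ∫ y, κ y * (y i * h (x + r • y)) = r * (∫ y, -φ y) * pd i h x := by
    intro U h x r hU hh hr hsub i
    have hc : Continuous fun y : E n => x + r • y := by fun_prop
    have hsm : ContDiffOn ℝ 1 (fun y : E n => h (x + r • y)) ((fun y : E n => x + r • y) ⁻¹' U) :=
      (hh.1.of_le (by simp)).comp (by fun_prop) fun y hy => hy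
    have hb : ball (0 : E n) 1 ⊆ (fun y : E n => x + r • y) ⁻¹' U := fun y hy =>
      uw_maps hr hsub (ball_subset_closedBall hy)
    have e := (h_ibp n φ _ _ (EuclideanSpace.single i 1) (ker_lip tf) tf.2.1 (hU.preimage hc)
      (tf.2.2.trans hb) hsm).2.2
    have e1 : ∀ y, fderiv ℝ φ y (EuclideanSpace.single i 1) = κ y * y i := fun y => by
      rw [(gr y).hasFDerivAt.fderiv]
      simp [InnerProductSpace.toDual_apply_apply, EuclideanSpace.inner_single_right]
    have e2 : ∀ y, φ y * fderiv ℝ (fun y : E n => h (x + r • y)) y (EuclideanSpace.single i 1) =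
        -(r * (-φ y * pd i h (x + r • y))) := fun y => by
      by_cases hy : y ∈ ball (0 : E n) 1
      · have h1 : HasFDerivAt (fun y : E n => x + r • y) (r • ContinuousLinearMap.id ℝ (E n)) y :=
          ((hasFDerivAt_id y).const_smul r).const_add x
        have h2 := (intg_diff hU hh.1 (hb hy)).hasFDerivAt.comp y h1
        rw [show (fun y : E n => h (x + r • y)) = h ∘ fun y : E n => x + r • y from rfl, h2.fderiv]
        simp [pd]
        ring
      · rw [image_eq_zero_of_notMem_tsupport fun hc => hy (tf.2.2 hc)]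
        simp
    simp only [e1, e2, mul_assoc] at e ⊢
    rw [e, integral_neg, neg_neg, integral_const_mul, uw_mean h_weak h_mean tn tp
      (fun y => neg_nonneg.2 (f0 y)) (fun y => by rw [ef]) gp hU (intg_harm_pd hU hh i) hr hsub]
  have pair : ∀ {U : Set (E n)} {h : E n → ℝ} {x : E n} {r : ℝ}, IsOpen U → Harm U h → 0 < r →
      closedBall x r ⊆ U → ∀ (p : ℝ) (a : Fin n → ℝ),
      ∫ y, κ y * ((p + ∑ k, a k * (r * y k)) * h (x + r • y)) =
        (∫ y, κ y) * (p * h x) + r ^ 2 * (∫ y, -φ y) * ∑ k, a k * pd k h x := by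
    intro U h x r hU hh hr hsub p a
    have e : ∀ y : E n, κ y * ((p + ∑ k, a k * (r * y k)) * h (x + r • y)) =
        p * (κ y * h (x + r • y)) + ∑ k, a k * r * (κ y * (y k * h (x + r • y))) := fun y => by
      rw [add_mul, mul_add, Finset.sum_mul, Finset.mul_sum]
      congr 1
      · ring
      · exact Finset.sum_congr rfl fun k _ => by ring
    have hi : ∀ k, Integrable fun y : E n => a k * r * (κ y * (y k * h (x + r • y))) := fun k =>
      (uw_int tk (ContinuousOn.mul (by fun_prop) (cont hh hr hsub))).const_mul _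
    simp only [e]
    rw [integral_add ((uw_int tk (cont hh hr hsub)).const_mul _)
      (integrable_finsetSum _ fun k _ => hi k), integral_finsetSum _ fun k _ => hi k,
      integral_const_mul, uw_mean h_weak h_mean tk tf k0 ev gr hU hh hr hsub, Finset.mul_sum]
    congr 1
    · ring
    · refine Finset.sum_congr rfl fun k _ => ?_
      rw [integral_const_mul, first hU hh hr hsub]
      ring
  constructor
  · have e : ∀ i : Fin n, ∫ y, κ y * (y i * y i) = ∫ y, -φ y := fun i => by
      have := first isOpen_univ (uw_harm_aff 0 (Pi.single i 1) 0) (x := 0) one_pos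
        (subset_univ _) i
      rw [uw_pd_aff] at this
      simpa [Pi.single_apply] using this
    have e' : ∀ y : E n, κ y * ‖y‖ ^ 2 = ∑ i, κ y * (y i * y i) := fun y => by
      rw [EuclideanSpace.real_norm_sq_eq, Finset.mul_sum]
      simp only [sq]
    simp only [e']
    rw [integral_finsetSum _ fun i _ => uw_int tk (by fun_prop)]
    simp [e]
  · intro U h x r hU hh hr hsub
    have e1 := pair hU hh hr hsub (h x) fun k => pd k h x
    have e2 := pair isOpen_univ (uw_harm_aff (h x) (fun k => pd k h x) x) (x := x) hr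
      (subset_univ _) (h x) fun k => pd k h x
    simp only [uw_pd_aff, PiLp.add_apply, PiLp.smul_apply, smul_eq_mul, add_sub_cancel_left,
      sub_self, mul_zero, Finset.sum_const_zero, add_zero] at e2
    have cH := cont hh hr hsub
    have cl : ContinuousOn (fun y : E n => h x + ∑ k, pd k h x * (r * y k)) (closedBall 0 1) := by
      fun_prop
    have i1 : Integrable fun y : E n => κ y * h (x + r • y) ^ 2 := uw_int tk (cH.pow 2)
    have i2 : Integrable fun y : E n =>
        2 * (κ y * ((h x + ∑ k, pd k h x * (r * y k)) * h (x + r • y))) :=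
      (uw_int tk (cl.mul cH)).const_mul 2
    have i3 : Integrable fun y : E n =>
        κ y * ((h x + ∑ k, pd k h x * (r * y k)) * (h x + ∑ k, pd k h x * (r * y k))) :=
      uw_int tk (cl.mul cl)
    have i4 : Integrable fun y : E n => κ y * h (x + r • y) ^ 2 -
        2 * (κ y * ((h x + ∑ k, pd k h x * (r * y k)) * h (x + r • y))) := i1.sub i2
    have e3 : 0 ≤ ∫ y, (κ y * h (x + r • y) ^ 2 -
        2 * (κ y * ((h x + ∑ k, pd k h x * (r * y k)) * h (x + r • y))) +
        κ y * ((h x + ∑ k, pd k h x * (r * y k)) * (h x + ∑ k, pd k h x * (r * y k)))) :=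
      integral_nonneg fun y => by
        have := mul_nonneg (k0 y) (sq_nonneg (h (x + r • y) - (h x + ∑ k, pd k h x * (r * y k))))
        simp only [Pi.zero_apply]
        linarith
    rw [integral_add i4 i3, integral_sub i1 i2, integral_const_mul, e1, e2] at e3
    simp only [← sq] at e3
    linarith

theorem uw_lip (h_glue : S_glue) {u : E n → ℝ} (hu : LMin u) (hh : Harm (Om u) u)
    (hO : IsOpen (Om u)) (hg : ∀ x ∈ Om u, ∑ i, D1 u x i ^ 2 ≤ 1) : LipschitzWith 1 u := by
  obtain ⟨L, hL⟩ := hu.lip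
  refine h_glue n u (Om u) 1 hO hL.continuous
    (fun x hx => le_antisymm (not_lt.1 hx) (hu.nonneg x)) fun x hx => ?_
  obtain ⟨ε, hε, hs⟩ := Metric.isOpen_iff.1 hO x hx
  refine ⟨ball x ε, ball_mem_nhds x hε, (convex_ball x ε).lipschitzOnWith_of_nnnorm_fderiv_le
    (𝕜 := ℝ) (fun y hy => intg_diff hO hh.1 (hs hy)) fun y hy => ?_⟩
  rw [← NNReal.coe_le_coe, coe_nnnorm, NNReal.coe_one]
  refine ContinuousLinearMap.opNorm_le_bound _ zero_le_one fun v => ?_
  have e : v = ∑ i, v i • EuclideanSpace.single i (1 : ℝ) := by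
    simpa using ((EuclideanSpace.basisFun (Fin n) ℝ).sum_repr v).symm
  have e1 : fderiv ℝ u y v = ∑ i, v i * D1 u y i := by
    conv_lhs => rw [e, map_sum]
    simp only [map_smul, smul_eq_mul, D1, pd]
  rw [one_mul, e1, Real.norm_eq_abs]
  refine abs_le_of_sq_le_sq ?_ (norm_nonneg v)
  refine (Finset.sum_mul_sq_le_sq_mul_sq _ _ _).trans ?_
  rw [EuclideanSpace.real_norm_sq_eq]
  exact mul_le_of_le_one_right (Finset.sum_nonneg fun i _ => sq_nonneg _) (hg y (hs hy))

theorem uw (h_glue : S_glue) (h_ibp : S_ibp) (h_weak : S_weak) (h_mean : S_mean)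
    (h_harm : S_harm) : S_uw := by
  intro n u hu hg x hx
  have hh := h_harm n u hu
  have hO : IsOpen (Om u) := by
    obtain ⟨L, hL⟩ := hu.lip
    exact isOpen_lt continuous_const hL.continuous
  have hL := uw_lip h_glue hu hh hO hg
  obtain ⟨κ, φ, ψ, tk, tf, tp, k0, ev, f0, ef, f1, gr, gp, hk⟩ := uw_ker n
  obtain ⟨mom, bes⟩ := uw_bessel h_ibp h_weak h_mean tk tf tp k0 ev f0 ef gr gp
  have i1 : Integrable κ := tk.1.continuous.integrable_of_hasCompactSupport tk.2.1
  have hmm : 0 < ∫ y, -φ y :=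
    tf.1.continuous.neg.integral_pos_of_hasCompactSupport_nonneg_nonzero (μ := volume)
      tf.2.1.neg (fun y => neg_nonneg.2 (f0 y)) (x := 0) (neg_ne_zero.2 f1)
  have hm : ∫ y, κ y ≤ 25 / 24 * (n * ∫ y, -φ y) := by
    rw [← mom, ← integral_const_mul]
    exact integral_mono i1 ((uw_int tk (by fun_prop)).const_mul _) hk
  have hs : 0 ≤ 1 - ∑ i, D1 u x i ^ 2 := sub_nonneg.2 (hg x hx)
  have key : ∀ r, 0 < r → r < u x →
      r ^ 2 * ∑ i, ∑ j, D2 u x i j ^ 2 ≤ 25 / 24 * n * (1 - ∑ i, D1 u x i ^ 2) := by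
    intro r hr hru
    have hsub : closedBall x r ⊆ Om u := fun y hy => by
      have h1 := hL.dist_le_mul x y
      rw [NNReal.coe_one, one_mul, dist_comm x y, Real.dist_eq] at h1
      have h2 := (le_abs_self _).trans (h1.trans (mem_closedBall.1 hy))
      change 0 < u y
      linarith
    have hi : ∀ j, Integrable fun y => κ y * pd j u (x + r • y) ^ 2 := fun j =>
      uw_int tk (((intg_harm_pd hO hh j).1.continuousOn.comp (by fun_prop)
        (uw_maps hr hsub)).pow 2)
    have h1 := Finset.sum_le_sum fun j (_ : j ∈ Finset.univ) =>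
      bes _ _ x r hO (intg_harm_pd hO hh j) hr hsub
    have h2 : ∑ j, ∫ y, κ y * pd j u (x + r • y) ^ 2 ≤ ∫ y, κ y := by
      rw [← integral_finsetSum _ fun j _ => hi j]
      refine integral_mono (integrable_finsetSum _ fun j _ => hi j) i1 fun y => ?_
      beta_reduce
      rw [← Finset.mul_sum]
      by_cases hy : y ∈ ball (0 : E n) 1
      · exact mul_le_of_le_one_right (k0 y) (hg _ (uw_maps hr hsub (ball_subset_closedBall hy)))
      · rw [image_eq_zero_of_notMem_tsupport fun hc => hy (tk.2.2 hc), zero_mul]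
    rw [Finset.sum_add_distrib, ← Finset.mul_sum, ← Finset.mul_sum, Finset.sum_comm] at h1
    have h3 := mul_le_mul_of_nonneg_right hm hs
    refine le_of_mul_le_mul_left ?_ hmm
    simp only [D1, D2] at h3 ⊢
    nlinarith
  have hc : Continuous fun r : ℝ => r ^ 2 * ∑ i, ∑ j, D2 u x i j ^ 2 := by fun_prop
  refine le_of_tendsto ((hc.tendsto (u x)).mono_left (nhdsWithin_le_nhds (s := Iio (u x)))) ?_
  filter_upwards [Ioo_mem_nhdsLT (show 0 < u x from hx)] with r hr using key r hr.1 hr.2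

end Vale.Agent.P098
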