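import Vale.Agent.P098.Weiss2

open MeasureTheory Set Metric Filter
open scoped ContDiff RealInnerProductSpace Topology NNReal

noncomputable section
namespace Vale.Agent.P098

variable {n : ℕ}

/-- the energy density -/
def weissA (v : E n → ℝ) (x : E n) : ℝ :=
  ‖gradient v x‖ ^ 2 + (Om v).indicator (fun _ => (1 : ℝ)) x

theorem weiss_meas (v : E n → ℝ) : Measurable (gradient v) :=
  (InnerProductSpace.toDual ℝ (E n)).symm.continuous.measurable.comp (measurable_fderiv ℝ v)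

theorem weiss_grad_le {v : E n → ℝ} {L : ℝ≥0} (h : LipschitzWith L v) (x : E n) :
    ‖gradient v x‖ ≤ L := by
  rw [gradient, LinearIsometryEquiv.norm_map]
  exact norm_fderiv_le_of_lipschitz ℝ h

theorem weiss_loc {f h : E n → ℝ} (hf : Measurable f) (hh : Continuous h)
    (hb : ∀ x, |f x| ≤ h x) : LocallyIntegrable f :=
  hh.locallyIntegrable.mono hf.aestronglyMeasurable
    (ae_of_all _ fun x => (hb x).trans (le_abs_self _))

theorem weiss_locG {v : E n → ℝ} (h : Lip v) : LocallyIntegrable fun x => ‖gradient v x‖ ^ 2 := by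
  obtain ⟨L, h⟩ := h
  refine weiss_loc ((weiss_meas v).norm.pow_const 2) (continuous_const (y := (L : ℝ) ^ 2))
    fun x => ?_
  rw [abs_pow, abs_norm]
  exact pow_le_pow_left₀ (norm_nonneg _) (weiss_grad_le h x) 2

theorem weiss_locA {v : E n → ℝ} (h : Lip v) : LocallyIntegrable (weissA v) := by
  refine (weiss_locG h).add (weiss_loc (measurable_const.indicator ?_)
    (continuous_const (y := 1)) fun x => ?_)
  · obtain ⟨L, h⟩ := h
    exact (isOpen_lt continuous_const h.continuous).measurableSet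
  · by_cases hx : x ∈ Om v <;> simp [hx]

theorem weiss_locP {v : E n → ℝ} (h : Lip v) {F : ℝ → ℝ → ℝ} (hF : Continuous F.uncurry)
    (hb : ∀ a b, |F a b| ≤ (|a| + |b|) ^ 2) :
    LocallyIntegrable fun x => F (v x) ⟪x, gradient v x⟫ := by
  obtain ⟨L, h⟩ := h
  have hc := h.continuous
  refine weiss_loc (hF.measurable.comp (hc.measurable.prodMk (measurable_id.inner (weiss_meas v))))
    (h := fun x => (|v x| + ‖x‖ * L) ^ 2) (by fun_prop) fun x => (hb _ _).trans ?_
  gcongr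
  exact (abs_real_inner_le_norm _ _).trans
    (mul_le_mul_of_nonneg_left (weiss_grad_le h x) (norm_nonneg _))

theorem weiss_key (h_ibp : S_ibp) (h_orth : S_orth) (h_iv : S_iv) {η : ℝ → ℝ} {c : ℝ}
    (hη : ContDiff ℝ ∞ η) (hs : HasCompactSupport η) (h0 : ∀ t, 0 ≤ t → deriv η t ≤ 0)
    (h1 : ∀ t, 0 ≤ t → t ≤ 1 → deriv η t ≤ -c) {v : E n → ℝ} (hv : LMin v) :
    (∫ y, weissA v y * (n * η (‖y‖ ^ 2) + 2 * deriv η (‖y‖ ^ 2) * ‖y‖ ^ 2)) +
      4 * (∫ y, v y ^ 2 * deriv η (‖y‖ ^ 2)) +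
      2 * ∫ y, v y ^ 2 * (n * deriv η (‖y‖ ^ 2) + 2 * deriv (deriv η) (‖y‖ ^ 2) * ‖y‖ ^ 2) ≤
      -(4 * c) * ∫ y in ball (0 : E n) 1, (⟪y, gradient v y⟫ - v y) ^ 2 := by
  have hη1 : ContDiff ℝ ∞ (deriv η) := hη.deriv'
  have hη2 : ContDiff ℝ ∞ (deriv (deriv η)) := hη1.deriv'
  have c0 := hη.continuous
  have c1 := hη1.continuous
  have c2 := hη2.continuous
  obtain ⟨L, hL⟩ := hv.lip
  have hae := hL.ae_differentiableAt (μ := volume)
  have lV : LocallyIntegrable fun x => v x ^ 2 := (hL.continuous.pow 2).locallyIntegrable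
  have lVP := weiss_locP hv.lip (F := fun a b => a * b) (by fun_prop) fun a b => by
    rw [abs_mul]; nlinarith [abs_nonneg a, abs_nonneg b]
  have lP := weiss_locP hv.lip (F := fun _ b => b ^ 2) (by fun_prop) fun a b => by
    rw [abs_pow]; nlinarith [abs_nonneg a, abs_nonneg b]
  have lD := weiss_locP hv.lip (F := fun a b => (b - a) ^ 2) (by fun_prop) fun a b => by
    rw [abs_pow]
    exact pow_le_pow_left₀ (abs_nonneg _) ((abs_sub _ _).trans (add_comm _ _).le) 2
  have iG := weiss_int1 (weiss_locG hv.lip) c0 hs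
  have iA := weiss_int1 (weiss_locA hv.lip) (φ := fun s => n * η s + 2 * deriv η s * s)
    (by fun_prop) (hs.mul_left.add hs.deriv.mul_left.mul_right)
  have iV := weiss_int1 lV c1 hs.deriv
  have iV2 := weiss_int1 lV (φ := fun s => 2 * deriv (deriv η) s * s) (by fun_prop)
    hs.deriv.deriv.mul_left.mul_right
  have iVP := weiss_int1 lVP c1 hs.deriv
  have iP := weiss_int1 lP c1 hs.deriv
  have iD := weiss_int1 lD c1 hs.deriv
  have hlip : ∀ φ : ℝ → ℝ, ContDiff ℝ ∞ φ → HasCompactSupport φ →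
      Lip fun x => v x * φ (‖x‖ ^ 2) := fun φ h1 h2 =>
    weiss_lip_mul hv.lip ((h1.comp (contDiff_norm_sq ℝ)).lipschitzWith_of_hasCompactSupport
      (weiss_cs1 h2) (by simp)) (weiss_cs1 h2)
  have hfd : ∀ φ : ℝ → ℝ, ContDiff ℝ ∞ φ → ∀ x : E n, HasFDerivAt (fun x : E n => φ (‖x‖ ^ 2))
      (deriv φ (‖x‖ ^ 2) • (2 • innerSL ℝ x)) x := fun φ h1 x =>
    (h1.differentiable (by simp) _).hasDerivAt.comp_hasFDerivAt x
      (hasStrictFDerivAt_norm_sq x).hasFDerivAt
  have hg : ∀ (f : E n → ℝ) (y w : E n), fderiv ℝ f y w = ⟪w, gradient f y⟫ := fun f y w => by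
    rw [real_inner_comm, inner_gradient_left]
  have e1 : (∫ y, weissA v y * (n * η (‖y‖ ^ 2) + 2 * deriv η (‖y‖ ^ 2) * ‖y‖ ^ 2)) -
      2 * (∫ y, ‖gradient v y‖ ^ 2 * η (‖y‖ ^ 2)) -
      4 * ∫ y, ⟪y, gradient v y⟫ ^ 2 * deriv η (‖y‖ ^ 2) = 0 := by
    rw [← h_iv n v η hv hη hs, ← integral_const_mul, ← integral_const_mul,
      ← integral_sub iA (iG.const_mul 2),
      ← integral_sub (iA.sub' (iG.const_mul 2)) (iP.const_mul 4)]
    congr 1
    ext y
    simp only [weissA]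
    ring
  have e2 : (∫ y, ‖gradient v y‖ ^ 2 * η (‖y‖ ^ 2)) +
      2 * ∫ y, v y * ⟪y, gradient v y⟫ * deriv η (‖y‖ ^ 2) = 0 := by
    rw [← h_orth n v _ hv (hlip η hη hs) (weiss_cs1 hs).mul_left (fun x hx => by simp [hx]),
      ← integral_const_mul, ← integral_add iG (iVP.const_mul 2)]
    refine integral_congr_ae (hae.mono fun y hy => ?_)
    simp only
    rw [← hg _ y (gradient v y), (hy.hasFDerivAt.fun_mul (hfd η hη y)).fderiv]
    simp only [add_apply, smul_apply, smul_eq_mul, hg v y,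
      innerSL_apply_apply, real_inner_self_eq_norm_sq, nsmul_eq_mul]
    ring
  have e3 : 2 * (∫ y, v y * ⟪y, gradient v y⟫ * deriv η (‖y‖ ^ 2)) +
      ∫ y, v y ^ 2 * (2 * deriv (deriv η) (‖y‖ ^ 2) * ‖y‖ ^ 2) =
      -n * ∫ y, v y ^ 2 * deriv η (‖y‖ ^ 2) := by
    have := weiss_euler h_ibp (weiss_lip_mul hv.lip (hlip _ hη1 hs.deriv)
      (weiss_cs1 hs.deriv).mul_left) (weiss_cs1 hs.deriv).mul_left.mul_left
    simp only [← mul_assoc, ← sq] at this
    rw [← this, ← integral_const_mul, ← integral_add (iVP.const_mul 2) iV2]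
    refine integral_congr_ae (hae.mono fun y hy => ?_)
    simp only
    rw [((hy.hasFDerivAt.pow 2).fun_mul (hfd _ hη1 y)).fderiv]
    simp only [add_apply, smul_apply, smul_eq_mul, hg v y,
      innerSL_apply_apply, real_inner_self_eq_norm_sq, nsmul_eq_mul]
    ring
  have e4 : ∫ y, v y ^ 2 * (n * deriv η (‖y‖ ^ 2) + 2 * deriv (deriv η) (‖y‖ ^ 2) * ‖y‖ ^ 2) =
      n * (∫ y, v y ^ 2 * deriv η (‖y‖ ^ 2)) +
        ∫ y, v y ^ 2 * (2 * deriv (deriv η) (‖y‖ ^ 2) * ‖y‖ ^ 2) := by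
    rw [← integral_const_mul, ← integral_add (iV.const_mul _) iV2]
    congr 1
    ext y
    ring
  have e5 : ∫ y, (⟪y, gradient v y⟫ - v y) ^ 2 * deriv η (‖y‖ ^ 2) =
      (∫ y, ⟪y, gradient v y⟫ ^ 2 * deriv η (‖y‖ ^ 2)) -
        2 * (∫ y, v y * ⟪y, gradient v y⟫ * deriv η (‖y‖ ^ 2)) +
        ∫ y, v y ^ 2 * deriv η (‖y‖ ^ 2) := by
    rw [← integral_const_mul, ← integral_sub iP (iVP.const_mul 2),
      ← integral_add (iP.sub' (iVP.const_mul 2)) iV]
    congr 1
    ext y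
    ring
  have e6 : ∫ y, (⟪y, gradient v y⟫ - v y) ^ 2 * deriv η (‖y‖ ^ 2) ≤
      -c * ∫ y in ball (0 : E n) 1, (⟪y, gradient v y⟫ - v y) ^ 2 := by
    rw [← integral_const_mul, ← integral_indicator measurableSet_ball]
    refine integral_mono iD ((integrable_indicator_iff measurableSet_ball).2
      (((lD.integrableOn_isCompact (isCompact_closedBall 0 1)).mono_set
        ball_subset_closedBall).const_mul _)) fun y => ?_
    by_cases hy : y ∈ ball (0 : E n) 1
    · rw [indicator_of_mem hy, mul_comm (-c)]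
      exact mul_le_mul_of_nonneg_left (h1 _ (sq_nonneg _)
        (pow_le_one₀ (norm_nonneg _) (mem_ball_zero_iff.1 hy).le)) (sq_nonneg _)
    · rw [indicator_of_notMem hy]
      exact mul_nonpos_of_nonneg_of_nonpos (sq_nonneg _) (h0 _ (sq_nonneg _))
  linarith

theorem weiss_resc (u : E n → ℝ) {r : ℝ} (hr : 0 < r) (y : E n) :
    weissA (resc u 0 r) y = weissA u (r • y) := by
  have h1 : resc u 0 r = r⁻¹ • fun x => u (r • x) := by
    ext x
    simp [resc, div_eq_inv_mul]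
  have h2 : gradient (resc u 0 r) y = gradient u (r • y) := by
    rw [gradient, gradient, h1, fderiv_const_smul_field, Pi.smul_apply, fderiv_comp_smul,
      inv_smul_smul₀ hr.ne']
  have h3 : y ∈ Om (resc u 0 r) ↔ r • y ∈ Om u := by simp [Om, resc, hr]
  rw [weissA, weissA, h2]
  by_cases h : r • y ∈ Om u <;> simp [h, h3]

theorem weiss (h_ibp : S_ibp) (h_orth : S_orth) (h_iv : S_iv) (h_inv_min : S_inv) : S_weiss := by
  intro n u δ r₀ hu h0 hδ hr₀
  by_contra! hn
  obtain ⟨η, c, hc, hη, hs, hp, hd0, hd1⟩ := weiss_eta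
  have hη1 : ContDiff ℝ ∞ (deriv η) := hη.deriv'
  obtain ⟨L, hL⟩ := hu.lip
  have lV : LocallyIntegrable fun x => u x ^ 2 := (hL.continuous.pow 2).locallyIntegrable
  let W : ℝ → ℝ := fun τ => (∫ y, weissA u (Real.exp (-τ) • y) * η (‖y‖ ^ 2)) +
    2 * Real.exp (2 * τ) * ∫ y, u (Real.exp (-τ) • y) ^ 2 * deriv η (‖y‖ ^ 2)
  have hsq : ∀ (τ : ℝ) (φ : E n → ℝ), Real.exp (2 * τ) * ∫ y, u (Real.exp (-τ) • y) ^ 2 * φ y =
      ∫ y, resc u 0 (Real.exp (-τ)) y ^ 2 * φ y := fun τ φ => by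
    rw [← integral_const_mul]
    congr 1
    ext y
    rw [resc, zero_add, div_pow, ← Real.exp_nat_mul, div_eq_mul_inv, ← Real.exp_neg]
    simp
    ring
  have hW : ∀ τ, ∃ D, HasDerivAt W D τ ∧ (Real.exp (-τ) < r₀ → D ≤ -(4 * c * δ)) := fun τ => by
    refine ⟨_, (weiss_deriv (weiss_locA hu.lip) (hη.of_le (by simp)) hs τ).fun_add
      ((((hasDerivAt_id τ).const_mul 2).exp.const_mul 2).fun_mul
        (weiss_deriv lV (hη1.of_le (by simp)) hs.deriv τ)), fun h => ?_⟩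
    have h1 := weiss_key h_ibp h_orth h_iv hη hs hd0 hd1
      ((h_inv_min n u hu).1 0 _ (Real.exp_pos (-τ)))
    have h2 := mul_le_mul_of_nonneg_left (hn _ (Real.exp_pos (-τ)) h).le
      (show 0 ≤ 4 * c by positivity)
    simp only [weiss_resc u (Real.exp_pos (-τ)), ← hsq] at h1
    simp only [id]
    linarith
  have hlow : ∀ τ, 2 * ∫ y : E n, (L * ‖y‖) ^ 2 * deriv η (‖y‖ ^ 2) ≤ W τ := fun τ => by
    have h1 : 0 ≤ ∫ y, weissA u (Real.exp (-τ) • y) * η (‖y‖ ^ 2) :=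
      integral_nonneg fun y => mul_nonneg (add_nonneg (sq_nonneg _)
        (indicator_nonneg (fun _ _ => zero_le_one) _)) (hp _)
    have h2 : ∫ y : E n, (L * ‖y‖) ^ 2 * deriv η (‖y‖ ^ 2) ≤
        ∫ y, resc u 0 (Real.exp (-τ)) y ^ 2 * deriv η (‖y‖ ^ 2) := by
      obtain ⟨L', hL'⟩ := ((h_inv_min n u hu).1 0 _ (Real.exp_pos (-τ))).lip
      refine integral_mono (weiss_int1 (Continuous.locallyIntegrable (by fun_prop))
        hη1.continuous hs.deriv) (weiss_int1 (hL'.continuous.pow 2).locallyIntegrable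
        hη1.continuous hs.deriv) fun y => mul_le_mul_of_nonpos_right ?_ (hd0 _ (sq_nonneg _))
      refine sq_le_sq' ?_ ?_
      · exact (neg_nonpos.2 (by positivity)).trans
          (div_nonneg (hu.nonneg _) (Real.exp_pos _).le)
      · have := hL.dist_le_mul (Real.exp (-τ) • y) 0
        rw [h0, dist_zero_right, dist_zero_right, norm_smul, Real.norm_of_nonneg (hu.nonneg _),
          Real.norm_of_nonneg (Real.exp_pos _).le] at this
        rw [resc, zero_add, div_le_iff₀ (Real.exp_pos _)]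
        linarith
    simp only [W]
    rw [mul_assoc, hsq]
    linarith
  set K := 2 * ∫ y : E n, (L * ‖y‖) ^ 2 * deriv η (‖y‖ ^ 2)
  set a := -Real.log r₀
  choose D hD hD' using hW
  have hpos : 0 < 4 * c * δ := by positivity
  have h1 := hlow a
  have h2 := (convex_Ici a).image_sub_le_mul_sub_of_deriv_le (f := W)
    (fun τ _ => (hD τ).continuousAt.continuousWithinAt)
    (fun τ _ => (hD τ).differentiableAt.differentiableWithinAt) (C := -(4 * c * δ))
    (fun τ hτ => by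
      rw [interior_Ici] at hτ
      rw [(hD τ).deriv]
      exact hD' τ ((Real.lt_log_iff_exp_lt hr₀).1 (neg_lt.1 hτ)))
    a self_mem_Ici (a + ((W a - K) / (4 * c * δ) + 1))
    (le_add_of_nonneg_right (add_nonneg (div_nonneg (sub_nonneg.2 h1) hpos.le) zero_le_one))
    (le_add_of_nonneg_right (add_nonneg (div_nonneg (sub_nonneg.2 h1) hpos.le) zero_le_one))
  rw [add_sub_cancel_left, mul_add, neg_mul, mul_div_cancel₀ _ hpos.ne'] at h2
  linarith [hlow (a + ((W a - K) / (4 * c * δ) + 1))]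

end Vale.Agent.P098
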