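import Vale.Agent.P098.Ibp
import Vale.Agent.P098.Ker
import Vale.Agent.P098.Mean
import Vale.Agent.P098.Est
import Vale.Agent.P098.Dir
import Vale.Agent.P098.Taylor
import Vale.Agent.P098.Cub
import Vale.Agent.P098.Proj
import Vale.Agent.P098.H10
import Vale.Agent.P098.Trunc
import Vale.Agent.P098.Liph1
import Vale.Agent.P098.Cont
import Vale.Agent.P098.Step0
import Vale.Agent.P098.Inv
import Vale.Agent.P098.Orth
import Vale.Agent.P098.Cb
import Vale.Agent.P098.Ca
import Vale.Agent.P098.Nondeg
import Vale.Agent.P098.Flatfin
import Vale.Agent.P098.Cpt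
import Vale.Agent.P098.Iv
import Vale.Agent.P098.Weiss
import Vale.Agent.P098.Blow
import Vale.Agent.P098.Red
import Vale.Agent.P098.FlatJ
import Vale.Agent.P098.Osc
import Vale.Agent.P098.Hol
import Vale.Agent.P098.Core
import Vale.Agent.P098.Jet
import Vale.Agent.P098.Reg
import Vale.Agent.P098.Scale
import Vale.Agent.P098.Lower
import Vale.Agent.P098.Jets
import Vale.Agent.P098.Div
import Vale.Agent.P098.Layer
import Vale.Agent.P098.Intg
import Vale.Agent.P098.Main1
import Vale.Agent.P098.Main2
import Vale.Agent.P098.Uw

namespace Vale.Agent.P098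

theorem ibp' : S_ibp := ibp
theorem glue' : S_glue := glue
theorem aeq' : S_aeq := aeq
theorem ker' : S_ker := ker
theorem weak' : S_weak := weak ibp'
theorem mean' : S_mean := mean
theorem weyl' : S_weyl := weyl ker' mean'
theorem est' : S_est := est ker' weak' mean'
theorem harnack' : S_harnack := harnack ker' weak' mean'
theorem maxp' : S_max := maxp
theorem dir' : S_dir := dir maxp'
theorem taylor' : S_taylor := taylor est'
theorem cub_calc' : S_cub := cub_calc
theorem admR' : S_admR := admR cub_calc'
theorem proj' : S_proj := proj
theorem h10' : S_h10 := h10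
theorem trunc' : S_trunc := trunc h10'
theorem liph1' : S_liph1 := liph1 ibp'
theorem cont' : S_cont := cont ker' h10' trunc'
theorem step0' : S_step0 := step0 glue' aeq' weyl' est' h10' liph1' cont'
theorem inv_min' : S_inv := inv_min aeq'
theorem orth' : S_orth := orth aeq'
theorem harm' : S_harm := harm ibp' weyl' orth'
theorem stab' : S_stab := stab aeq' orth'
theorem cb' : S_cb := cb ibp' glue' aeq'
theorem ca' : S_ca := ca ibp' glue' aeq'
theorem nondeg' : S_nondeg := nondeg ca' inv_min'
theorem zero_set' : S_zero := zero_set ibp' aeq' weyl' harnack'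
theorem slope' : S_slope := slope cb' ca'
theorem jets' : S_jets := jets
theorem flatfin' : S_flatfin := flatfin harm' zero_set' slope' jets'
theorem cpt' : S_cpt := cpt ibp' aeq'
theorem iv' : S_iv := iv
theorem weiss' : S_weiss := weiss ibp' orth' iv' inv_min'
theorem blow' : S_blow := blow nondeg' inv_min' cpt' weiss'
theorem red' : S_red := red aeq' inv_min'
theorem flat' : S_flat := flat nondeg' inv_min' blow' red'
theorem osc' : S_osc := osc harnack' harm' inv_min' cb' ca'
theorem hol' : S_hol := hol osc'
theorem core' : S_core := core maxp' dir' cb' ca' hol'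
theorem jet' : S_jet := jet taylor' cub_calc' admR' proj' inv_min' core'
theorem jetU' : S_jetU := jetU inv_min' flat' jet'
theorem reg' : S_reg := reg est' harnack' cub_calc' admR' harm' jets'
theorem scale' : S_scale := scale
theorem lower' : S_lower := lower
theorem kato' : S_kato := kato
theorem div_formula' : S_div := div_formula
theorem layer' : S_layer := layer aeq' orth' harm' jets'
theorem intg' : S_int := intg ibp' aeq' harm' jets' div_formula' kato' layer'
theorem uw' : S_uw := uw glue' ibp' weak' mean' harm'
theorem main1' : S_main1 := main1 ibp' glue' aeq' harm' stab' jets' div_formula' layer' uw'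
theorem main2' : S_main2 := main2 harm' jets' div_formula' intg' main1' uw'

end Vale.Agent.P098
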