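import Vale.Agent.P098.Iface

/-!
# P098: the shape of the certificate in dimension six and its reduction to five parameters
-/

open MeasureTheory Set Metric Filter
open scoped ContDiff RealInnerProductSpace Topology NNReal

noncomputable section
namespace Vale.Agent.P098

/-- Functions of the normalised invariants `(u w, |p|² - u², u, tr A³ / w³)`. -/
abbrev F4 : Type := (Fin 4 → ℝ) → ℝ

structure Fam where
  f0 : F4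
  f1 : F4
  g0 : F4
  g1 : F4
  g2 : F4
  h0 : F4
  h1 : F4
  h2 : F4

def D4 : Set (Fin 4 → ℝ) := {v | -(1 / 2) < v 0}

structure Fam.Sm (F : Fam) : Prop where
  f0 : ContDiffOn ℝ 1 F.f0 D4
  f1 : ContDiffOn ℝ 1 F.f1 D4
  g0 : ContDiffOn ℝ 1 F.g0 D4
  g1 : ContDiffOn ℝ 1 F.g1 D4
  g2 : ContDiffOn ℝ 1 F.g2 D4
  h0 : ContDiffOn ℝ 1 F.h0 D4
  h1 : ContDiffOn ℝ 1 F.h1 D4
  h2 : ContDiffOn ℝ 1 F.h2 D4

def d4 (f : F4) (a : Fin 4) (v : Fin 4 → ℝ) : ℝ := fderiv ℝ f v (Pi.single a 1)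

/-- Normalised invariants. -/
def nz (z : Fin 5 → ℝ) : Fin 4 → ℝ :=
  ![z 3 * √(z 0), z 2 - z 3 ^ 2 / z 4, z 3 / √(z 4), z 1 / √(z 0) ^ 3]

def ww (z : Fin 5 → ℝ) : ℝ := √(z 0) * √(z 4)

/-- The certificate built from a family of functions. -/
def co (F : Fam) : Co where
  ρ z := ww z * F.f0 (nz z) / z 4 ^ 2
  F1 z := F.f1 (nz z) / (ww z * z 4)
  F2 _ := 0
  G0 z := ww z * (F.g0 (nz z) + ww z * F.h0 (nz z)) / √(z 4) ^ 5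
  G1 z := (F.g1 (nz z) + ww z * F.h1 (nz z)) / z 4 ^ 2
  G2 z := (F.g2 (nz z) + ww z * F.h2 (nz z)) / (ww z * √(z 4) ^ 3)

/-! ## Shapes -/

/-- One eigenvalue is `x`, the other four are `-x/4 + β yᵢ`; `c` encodes `∑ yᵢ³`. -/
structure Shape (x β c : ℝ) : Prop where
  ell : 5 * x ^ 2 + 16 * β ^ 2 = 4
  b0 : 0 ≤ β
  c1 : 3 * c ^ 2 ≤ 1

def sγ (c : ℝ) : ℝ := 3 * (c ^ 3 - c)
def se (c : ℝ) : ℝ := (1 - 3 * c ^ 2) * (1 - c ^ 2 / 2)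
def sτ (x β c : ℝ) : ℝ := 15 / 16 * x ^ 3 - 3 * x * β ^ 2 + 4 * sγ c * β ^ 3
def l1 (x β b0 b1 : ℝ) : ℝ := -(5 / 2) * x * b0 + 2 * β * b1
def l2 (x β c b0 b1 ζ : ℝ) : ℝ :=
  (-(15 / 8) * x ^ 2 + 2 * β ^ 2) * b0 + (-(x * β) + 2 * β ^ 2 * sγ c) * b1 + 2 * β ^ 2 * se c * ζ

/-- Tangential derivative of `f` in an eigendirection. -/
def tg (f : F4) (v : Fin 4 → ℝ) (x w L1 L2 qk : ℝ) : ℝ :=
  (v 0 * d4 f 0 v - 3 * v 3 * d4 f 3 v) * L1 + 3 * d4 f 3 v * L2 +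
    qk * (w * d4 f 0 v + 2 * (w * x - v 2) * d4 f 1 v + d4 f 2 v)

/-- Tangential derivative of `g + w h`. -/
def tgb (g h : F4) (v : Fin 4 → ℝ) (x w L1 L2 qk : ℝ) : ℝ :=
  tg g v x w L1 L2 qk + w * (tg h v x w L1 L2 qk + h v * L1)

/-- The part of `div V / w` coming from one eigendirection. -/
def blk (F : Fam) (v : Fin 4 → ℝ) (x w Q L1 L2 qk : ℝ) : ℝ :=
  F.f1 v * Q + (tg F.f1 v x w L1 L2 qk - F.f1 v * L1) * L1 +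
    qk * ((F.g0 v + w * F.h0 v) * L1 + tgb F.g0 F.h0 v x w L1 L2 qk) +
    x * qk * tgb F.g1 F.h1 v x w L1 L2 qk +
    x ^ 2 * qk * (tgb F.g2 F.h2 v x w L1 L2 qk - (F.g2 v + w * F.h2 v) * L1) +
    (F.g2 v + w * F.h2 v) * L1 * qk

/-- The zero order part. -/
def zz (F : Fam) (v : Fin 4 → ℝ) (w : ℝ) : ℝ :=
  5 * F.f1 v - 4 * F.f0 v - 5 * v 2 * (F.g0 v + w * F.h0 v) + w * (F.g1 v + w * F.h1 v) +
    (w * v 3 - v 2) * (F.g2 v + w * F.h2 v)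

/-- The reduced quadratic form in `(b0, b1, ζ, ξ, z)`. -/
def form (F : Fam) (x β c w u q b0 b1 ζ ξ z : ℝ) : ℝ :=
  blk F ![u * w, q ^ 2, u, sτ x β c] x w (7 * b0 ^ 2 + 3 * b1 ^ 2 + 3 * ζ ^ 2) (l1 x β b0 b1)
      (l2 x β c b0 b1 ζ) (q * z) +
    F.f0 ![u * w, q ^ 2, u, sτ x β c] * ξ ^ 2 -
    ξ * (F.f0 ![u * w, q ^ 2, u, sτ x β c] * l1 x β b0 b1 +
      tg F.f0 ![u * w, q ^ 2, u, sτ x β c] x w (l1 x β b0 b1) (l2 x β c b0 b1 ζ) (q * z)) +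
    z ^ 2 * zz F ![u * w, q ^ 2, u, sτ x β c] w

/-- Admissible values of `w = |A|`, `u` and `q`, the length of the tangential part of `p`. -/
structure Phys (w u q : ℝ) : Prop where
  w0 : 0 < w
  u0 : 0 ≤ u
  q0 : 0 ≤ q
  e1 : q ^ 2 + u ^ 2 + 4 / 25 * (u * w) ^ 2 ≤ 1

def RedInt (F : Fam) : Prop := ∃ c₀ : ℝ, 0 < c₀ ∧ ∀ x β c w u q : ℝ, Shape x β c → Phys w u q →
  ∀ b0 b1 ζ ξ z : ℝ, c₀ * (ξ ^ 2 + z ^ 2) ≤ form F x β c w u q b0 b1 ζ ξ z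

def RedBd (F : Fam) : Prop := ∀ x β c : ℝ, Shape x β c → x ≤ 0 →
  0 ≤ F.g0 ![0, 1, 0, sτ x β c] + x * F.g1 ![0, 1, 0, sτ x β c] + x ^ 2 * F.g2 ![0, 1, 0, sτ x β c] ∧
    0 ≤ F.f1 ![0, 1, 0, sτ x β c] * (2 * x - sτ x β c) + F.h0 ![0, 1, 0, sτ x β c] +
      x * F.h1 ![0, 1, 0, sτ x β c] + x ^ 2 * F.h2 ![0, 1, 0, sτ x β c] -
      x * F.f0 ![0, 1, 0, sτ x β c]

def RedE (F : Fam) : Prop := ∀ x β c w u q : ℝ, Shape x β c → Phys w u q →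
  0 ≤ 5 / 4 * F.f0 ![u * w, q ^ 2, u, sτ x β c] - F.f1 ![u * w, q ^ 2, u, sτ x β c] +
    u * (F.g0 ![u * w, q ^ 2, u, sτ x β c] + w * F.h0 ![u * w, q ^ 2, u, sτ x β c])

/-! ## Statements of the reduction -/

/-- Smoothness and homogeneity. -/
def S_cosm : Prop := ∀ F : Fam, F.Sm →
  (ContDiffOn ℝ 1 (co F).ρ Dom ∧ ContDiffOn ℝ 1 (co F).F1 Dom ∧ ContDiffOn ℝ 1 (co F).F2 Dom ∧
    ContDiffOn ℝ 1 (co F).G0 Dom ∧ ContDiffOn ℝ 1 (co F).G1 Dom ∧ ContDiffOn ℝ 1 (co F).G2 Dom) ∧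
  ∀ t : ℝ, 0 < t → ∀ z ∈ Dom, t ^ 6 * (co F).ρ (sc t z) = t ^ 2 * (co F).ρ z ∧
    t ^ 6 * (co F).F1 (sc t z) = t ^ 4 * (co F).F1 z ∧
    t ^ 6 * (co F).F2 (sc t z) = t ^ 5 * (co F).F2 z ∧
    t ^ 6 * (co F).G0 (sc t z) = t * (co F).G0 z ∧
    t ^ 6 * (co F).G1 (sc t z) = t ^ 2 * (co F).G1 z ∧
    t ^ 6 * (co F).G2 (sc t z) = t ^ 3 * (co F).G2 z

/-- Gradient of `f ∘ nz` along a state on the unit sphere. -/
def gf {n : ℕ} (f : F4) (x p : T1 n) (A : T2 n) (B : T3 n) (u : ℝ) (k : Fin n) : ℝ :=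
  d4 f 0 (nz (inv x p A u)) * (u * ct A B k / √(nA A) + √(nA A) * p k) +
    d4 f 1 (nz (inv x p A u)) * (2 * ap A p k - 2 * u * (p k - u * x k)) +
    d4 f 2 (nz (inv x p A u)) * (p k - u * x k) +
    d4 f 3 (nz (inv x p A u)) *
      (3 * ct (sqA A) B k / √(nA A) ^ 3 - 3 * (tA A / √(nA A) ^ 3) * (ct A B k / nA A))

/-- Gradient of `log (|A| |x|)`. -/
def lw {n : ℕ} (x : T1 n) (A : T2 n) (B : T3 n) (k : Fin n) : ℝ := ct A B k / nA A + x k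

/-- Gradient of `(g + w h) ∘ nz`. -/
def gfb {n : ℕ} (g h : F4) (x p : T1 n) (A : T2 n) (B : T3 n) (u : ℝ) (k : Fin n) : ℝ :=
  gf g x p A B u k + √(nA A) * (gf h x p A B u k + h (nz (inv x p A u)) * lw x A B k)

/-- Values and gradients of the coefficients on the unit sphere. -/
def S_cogr : Prop := ∀ (n : ℕ) (F : Fam) (x p : T1 n) (A : T2 n) (B : T3 n) (u : ℝ), F.Sm →
  St x p A B u → ∑ i, x i ^ 2 = 1 →
  let w := √(nA A)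
  let z := inv x p A u
  let v := nz z
  0 < w ∧ v = ![u * w, ∑ i, p i ^ 2 - u ^ 2, u, tA A / w ^ 3] ∧
  (co F).ρ z = w * F.f0 v ∧ (co F).F1 z = F.f1 v / w ∧ (co F).G0 z = w * (F.g0 v + w * F.h0 v) ∧
  (co F).G1 z = F.g1 v + w * F.h1 v ∧ (co F).G2 z = (F.g2 v + w * F.h2 v) / w ∧ ∀ k,
    gr (co F).ρ x p A B u k = w * (F.f0 v * lw x A B k + gf F.f0 x p A B u k - 4 * F.f0 v * x k) ∧
    gr (co F).F1 x p A B u k = (gf F.f1 x p A B u k - F.f1 v * lw x A B k - 2 * F.f1 v * x k) / w ∧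
    gr (co F).F2 x p A B u k = 0 ∧
    gr (co F).G0 x p A B u k = w * ((F.g0 v + w * F.h0 v) * lw x A B k +
      gfb F.g0 F.h0 x p A B u k - 5 * (F.g0 v + w * F.h0 v) * x k) ∧
    gr (co F).G1 x p A B u k = gfb F.g1 F.h1 x p A B u k - 4 * (F.g1 v + w * F.h1 v) * x k ∧
    gr (co F).G2 x p A B u k = (gfb F.g2 F.h2 x p A B u k - (F.g2 v + w * F.h2 v) * lw x A B k -
      3 * (F.g2 v + w * F.h2 v) * x k) / w

/-- First basis vector and diagonal matrices. -/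
def e0 (n : ℕ) : T1 (n + 1) := fun i => if i = 0 then 1 else 0
def dg {n : ℕ} (a : T1 n) : T2 n := fun i j => if i = j then a i else 0

/-- Rotation to a diagonal state. -/
def S_rot : Prop := ∀ (n : ℕ) (x p : T1 (n + 1)) (A : T2 (n + 1)) (B : T3 (n + 1)) (u : ℝ),
  St x p A B u → ∑ i, x i ^ 2 = 1 → ∃ (a p' : T1 (n + 1)) (B' : T3 (n + 1)),
    St (e0 n) p' (dg a) B' u ∧ inv (e0 n) p' (dg a) u = inv x p A u ∧
    (∀ c : Co, dv c (e0 n) p' (dg a) B' u = dv c x p A B u ∧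
      ∑ k, gr c.ρ (e0 n) p' (dg a) B' u k ^ 2 = ∑ k, gr c.ρ x p A B u k ^ 2) ∧
    ∀ μ : ℝ, (∀ i, ap A p i = μ * p i) → ∀ i, a i * p' i = μ * p' i

/-- Reduction of one block to three variables. -/
def S_shape : Prop := ∀ (x : ℝ) (a b : Fin 4 → ℝ), x + ∑ i, a i = 0 → x ^ 2 + ∑ i, a i ^ 2 = 1 →
  ∃ β c b0 b1 ζ : ℝ, Shape x β c ∧ x ^ 3 + ∑ i, a i ^ 3 = sτ x β c ∧
    ∑ i, (a i - x) * b i = l1 x β b0 b1 ∧ ∑ i, (a i ^ 2 - x ^ 2) * b i = l2 x β c b0 b1 ζ ∧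
    7 * b0 ^ 2 + 3 * b1 ^ 2 + 3 * ζ ^ 2 ≤ (∑ i, b i) ^ 2 + 3 * ∑ i, b i ^ 2

/-- The interior inequality. -/
def S_coint : Prop := ∀ F : Fam, F.Sm → RedInt F →
  (∀ (x p : T1 6) (A : T2 6) (B : T3 6) (u : ℝ), St x p A B u → ∑ i, x i ^ 2 = 1 →
    0 < (co F).ρ (inv x p A u)) ∧
  ∃ c₀ : ℝ, 0 < c₀ ∧ ∀ (x p : T1 6) (A : T2 6) (B : T3 6) (u : ℝ), St x p A B u →
    ∑ i, x i ^ 2 = 1 → (∑ k, gr (co F).ρ x p A B u k ^ 2) / (4 * (co F).ρ (inv x p A u)) +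
      c₀ * √(nA A) ≤ dv (co F) x p A B u

/-- The boundary inequality and the radial inequality. -/
def S_cobd : Prop := ∀ F : Fam, F.Sm →
  (RedBd F → ∀ (x p : T1 6) (A : T2 6) (B : T3 6), St x p A B 0 → ∑ i, x i ^ 2 = 1 → Adm p A B →
    0 ≤ hh p A → 0 ≤ ∑ k, vf (co F) x p A B 0 k * p k + hh p A * (co F).ρ (inv x p A 0)) ∧
  (RedE F → ∀ (x p : T1 6) (A : T2 6) (B : T3 6) (u : ℝ), St x p A B u → ∑ i, x i ^ 2 = 1 →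
    0 ≤ ∑ k, x k * vf (co F) x p A B u k + 5 / 4 * (co F).ρ (inv x p A u))

/-- Growth bounds. -/
def S_cobnd : Prop := ∀ F : Fam, F.Sm → ∀ M : ℝ, ∃ C : ℝ,
  ∀ (x p : T1 6) (A : T2 6) (B : T3 6) (u : ℝ), St x p A B u → ∑ i, x i ^ 2 = 1 → nA A ≤ M →
    (co F).ρ (inv x p A u) ≤ C * √(nA A) ∧ ‖vf (co F) x p A B u‖ ≤ C * (‖B‖ + √(nA A)) ∧
      ‖gr (co F).ρ x p A B u‖ ≤ C * (‖B‖ + √(nA A))

theorem cert_of (h_cosm : S_cosm) (h_coint : S_coint) (h_cobd : S_cobd) (h_cobnd : S_cobnd)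
    (h_lower : S_lower) (F : Fam) (hF : F.Sm) (hI : RedInt F) (hB : RedBd F) (hE : RedE F) :
    ∀ n, 3 ≤ n → n ≤ 6 → ∃ c, CertOn n (fun R => R = 1) c := by
  have h6 : CertOn 6 (fun R => R = 1) (co F) := by
    refine ⟨(h_cosm F hF).1, (h_cosm F hF).2, (h_coint F hF hI).1, ?_, (h_cobd F hF).1 hB, ?_⟩
    · obtain ⟨c₀, h0, h⟩ := (h_coint F hF hI).2
      refine ⟨c₀, h0, fun x p A B u hs h1 => ?_⟩
      have := h x p A B u hs h1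
      rw [h1]
      simpa using this
    · intro M
      obtain ⟨C, h⟩ := h_cobnd F hF M
      exact ⟨C, fun x p A B u hs h1 _ _ hM => h x p A B u hs h1 hM⟩
  intro n h3 hn
  refine h_lower 6 n (co F) h3 hn le_rfl h6 fun x p A B u hs h1 => ?_
  have := (h_cobd F hF).2 hE x p A B u hs h1
  norm_num at this ⊢
  exact this

end Vale.Agent.P098
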