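import Mathlib
import Vale.Agent.P098.CkDefs

/-!
# P098: meaning of the kernel checker and the statements of its soundness
-/

open Finset

noncomputable section
namespace Vale.Agent.P098.Ck

abbrev Pt : Type := ℕ → ℝ
def tl (e : Pt) : Pt := fun n => e (n + 1)
def cs (x : ℝ) (e : Pt) : Pt := fun n => Nat.casesOn n x e
def Box (e : Pt) : Prop := ∀ n, |e n| ≤ 1

/-- The number with digits `u 0, …, u (J - 1)` of width `L` (the digits may overflow). -/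
def pk (L J : ℕ) (u : ℕ → ℕ) : ℕ := ∑ j ∈ range J, u j * 2 ^ (L * j)

/-- `p` represents the `J` polynomial functions `F · j`. -/
def Rep (L J : ℕ) : P → (Pt → ℕ → ℝ) → Prop
  | P.nil, F => ∀ e j, j < J → F e j = 0
  | P.lf a b m, F => ∃ u v : ℕ → ℕ, a = pk L J u ∧ b = pk L J v ∧
      (∀ j, j < J → u j ≤ m ∧ v j ≤ m) ∧ ∀ e j, j < J → F e j = (u j : ℝ) - (v j : ℝ)
  | P.cons c r, F => ∃ C R : Pt → ℕ → ℝ, Rep L J c C ∧ Rep L J r R ∧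
      ∀ e j, j < J → F e j = C (tl e) j + e 0 * R e j

/-- Value of a scalar polynomial. -/
def ev : P → Pt → ℝ
  | P.nil, _ => 0
  | P.lf a b _, _ => (a : ℝ) - (b : ℝ)
  | P.cons c r, e => ev c (tl e) + e 0 * ev r e

def evl : PL → Pt → Pt
  | PL.nil, _ => fun _ => 0
  | PL.cons p l, e => cs (ev p e) (evl l e)

def lenP : PL → ℕ
  | PL.nil => 0
  | PL.cons _ l => lenP l + 1

/-- A list of `n` constant vectors. -/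
def RepL (L J : ℕ) : PL → (ℕ → ℕ → ℝ) → ℕ → Prop
  | PL.nil, _, n => n = 0
  | PL.cons p l, S, n => ∃ n', n = n' + 1 ∧ Rep L J p (fun _ => S 0) ∧
      RepL L J l (fun j => S (j + 1)) n'

def Nrm (g : ℕ → ℕ → ℕ) (L J sh : ℕ) : Prop := ∀ u v : ℕ → ℕ,
  (∀ j, j < J → u j < 2 ^ (L - 1) ∧ v j < 2 ^ (L - 1)) →
    g (pk L J u) (pk L J v) = pk L J (fun j => (u j - v j) / 2 ^ sh)

def TMr (t : TM) (f : Pt → ℝ) : Prop := ∀ e, Box e → |2 ^ 32 * f e - ev t.p e| ≤ (t.r : ℝ)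

def RepE : EL → (Pt → ℕ → ℝ) → Prop
  | EL.nil, F => ∀ e k, F e k = 0
  | EL.cons k t l, F => ∃ (f : Pt → ℝ) (G : Pt → ℕ → ℝ), TMr t f ∧ RepE l G ∧
      ∀ e k', F e k' = (if k' = k then f e else 0) + G e k'

def RepS : SL → (ℕ → Pt → ℕ → ℝ) → ℕ → Prop
  | SL.nil, _, n => n = 0
  | SL.cons e l, S, n => ∃ n', n = n' + 1 ∧ RepE e (S 0) ∧ RepS l (fun j => S (j + 1)) n'

def cv : P → ℝ
  | P.lf a b _ => (a : ℝ) - (b : ℝ)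
  | _ => 0

def co1 : P → ℕ → ℝ
  | P.nil, _ => 0
  | P.lf a b _, j => if j = 0 then (a : ℝ) - (b : ℝ) else 0
  | P.cons c _, 0 => cv c
  | P.cons _ r, j + 1 => co1 r j

/-- Coefficients of a polynomial in two variables. -/
def co : P → ℕ → ℕ → ℝ
  | P.nil, _, _ => 0
  | P.lf a b _, i, j => if i = 0 ∧ j = 0 then (a : ℝ) - (b : ℝ) else 0
  | P.cons c _, 0, j => co1 c j
  | P.cons _ r, i + 1, j => co r i j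

/-- The double sum over `i, j ≤ 5`. -/
def ds (f : ℕ → ℕ → ℝ) : ℝ := ∑ i ∈ range 6, ∑ j ∈ range 6, f i j

/-- Grid points. -/
def gp (n k : ℕ) : ℝ := -1 + 2 * (k : ℝ) / (n : ℝ)

def wp (n3 n4 i j x : ℕ) : ℝ := 8 ^ 5 * (gp n3 (x / (n4 + 1)) ^ i * gp n4 (x % (n4 + 1)) ^ j)

def wc (i j x : ℕ) : ℝ :=
  (if x = pos 5 i j then 1 else 0) + (if x = 21 + pos 3 (i - 2) j then (i : ℝ) * ((i : ℝ) - 1) else 0) +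
    (if x = 31 + pos 3 i (j - 2) then (j : ℝ) * ((j : ℝ) - 1) else 0)

/-- The quadratic form of a symmetric five by five matrix. -/
def qf (M v : ℕ → ℝ) : ℝ :=
  M 0 * v 0 ^ 2 + 2 * M 1 * v 0 * v 1 + 2 * M 2 * v 0 * v 2 + 2 * M 3 * v 0 * v 3 +
    2 * M 4 * v 0 * v 4 + M 5 * v 1 ^ 2 + 2 * M 6 * v 1 * v 2 + 2 * M 7 * v 1 * v 3 +
    2 * M 8 * v 1 * v 4 + M 9 * v 2 ^ 2 + 2 * M 10 * v 2 * v 3 + 2 * M 11 * v 2 * v 4 +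
    M 12 * v 3 ^ 2 + 2 * M 13 * v 3 * v 4 + M 14 * v 4 ^ 2

def Qf (M v : ℕ → ℝ) : ℝ := qf M v + M 15 * v 5 ^ 2

/-- The sixteen numbers of `X` have `V` digits; every `M` with `A M` occurs among them. -/
def Cov (V : ℕ) (X : NL) (A : (ℕ → ℝ) → Prop) : Prop :=
  len X ≤ 16 ∧ (len X = 16 → ∃ U : ℕ → ℕ → ℕ, (∀ k, k < 16 → nth X k = pk 112 V (U k)) ∧
    (∀ k, k < 16 → ∀ i, i < V → 2 ^ 110 < U k i ∧ U k i < 2 ^ 111 + 2 ^ 110) ∧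
    ∀ M, A M → ∃ i, i < V ∧ ∀ k, k < 16 → (U k i : ℝ) - 2 ^ 111 = M k)

def In (l h : ℕ) (t : ℝ) : Prop := (l : ℝ) ≤ t ∧ t ≤ (h : ℝ)

def Dm (t0 t1 t2 : ℝ) : Prop := t0 ≤ 512 ∧ t1 ≤ 512 ∧ t2 ≤ 512 ∧
  t1 ^ 2 * (25 * (512 - t0) ^ 2 + 4 * t0 ^ 2) ≤ 25 * (512 - t1) ^ 2 * (262144 - t2 ^ 2)

def p3 (a b c : ℝ) : Pt := cs a (cs b (cs c (fun _ => 0)))

def Good3 (G : Pt → ℕ → ℝ) (A : (ℕ → ℝ) → Prop) (S : ℕ → ℕ → ℝ) (l0 h0 l1 h1 l2 h2 : ℕ) : Prop :=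
  ∀ t0 t1 t2 : ℝ, In l0 h0 t0 → In l1 h1 t1 → In l2 h2 t2 → Dm t0 t1 t2 →
    ∃ Z, A Z ∧ ∀ v, 2 ^ 126 * (v 3 ^ 2 + v 4 ^ 2) ≤
      Qf (fun k => G (p3 (2 * t0) (2 * t1) (2 * t2)) 0 * Z k +
        ∑ j ∈ range 49, G (p3 (2 * t0) (2 * t1) (2 * t2)) (j + 1) * S j k) v

def AI (Z : ℕ → ℝ) : Prop := ∀ v, Qf Z v ≤ 0
def AB (Z : ℕ → ℝ) : Prop := Z 14 = 0

/-! ## The shape matrices -/

def rDn (k c : ℝ) : ℝ :=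
  ((((4294967296 : ℕ) : ℝ) / 2 ^ 32) + (((5 : ℕ) : ℝ) * (k * k))) / 2 ^ 0
def rR (k c : ℝ) : ℝ :=
  1 / (rDn k c)
def rX (k c : ℝ) : ℝ :=
  ((4 : ℕ) : ℝ) * (k * (rR k c))
def rB (k c : ℝ) : ℝ :=
  ((rR k c) + (-((1 : ℕ) : ℝ) * (((2147483648 : ℕ) : ℝ) / 2 ^ 32))) / 2 ^ 0
def rC2 (k c : ℝ) : ℝ :=
  c * c
def rGa (k c : ℝ) : ℝ :=
  ((((3 : ℕ) : ℝ) * ((rC2 k c) * c)) + (-((3 : ℕ) : ℝ) * c)) / 2 ^ 0
def rE2 (k c : ℝ) : ℝ :=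
  (((((4294967296 : ℕ) : ℝ) / 2 ^ 32) + (-((3 : ℕ) : ℝ) * (rC2 k c))) / 2 ^ 0) * (((((8589934592 : ℕ) : ℝ) / 2 ^ 32) + (-((1 : ℕ) : ℝ) * (rC2 k c))) / 2 ^ 0)
def rX2 (k c : ℝ) : ℝ :=
  (rX k c) * (rX k c)
def rB2 (k c : ℝ) : ℝ :=
  (rB k c) * (rB k c)
def rXB (k c : ℝ) : ℝ :=
  (rX k c) * (rB k c)
def rX3 (k c : ℝ) : ℝ :=
  (rX2 k c) * (rX k c)
def rBG (k c : ℝ) : ℝ :=
  (rB2 k c) * (rGa k c)
def rT1 (k c : ℝ) : ℝ :=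
  ((((15 : ℕ) : ℝ) * (rX3 k c)) + ((-((48 : ℕ) : ℝ) * ((rXB k c) * (rB k c))) + (((64 : ℕ) : ℝ) * ((rB k c) * (rBG k c))))) / 2 ^ 4
def rT2 (k c : ℝ) : ℝ :=
  (rT1 k c) * (rT1 k c)
def rT3 (k c : ℝ) : ℝ :=
  (rT2 k c) * (rT1 k c)
def rXT11 (k c : ℝ) : ℝ :=
  (rX k c) * (rT1 k c)
def rXT12 (k c : ℝ) : ℝ :=
  (rX k c) * (rT2 k c)
def rXT21 (k c : ℝ) : ℝ :=
  (rX2 k c) * (rT1 k c)
def rXT22 (k c : ℝ) : ℝ :=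
  (rX2 k c) * (rT2 k c)
def rXT31 (k c : ℝ) : ℝ :=
  (rX3 k c) * (rT1 k c)
def rXT32 (k c : ℝ) : ℝ :=
  (rX3 k c) * (rT2 k c)
def rBX01 (k c : ℝ) : ℝ :=
  (rB k c) * (rT1 k c)
def rBX02 (k c : ℝ) : ℝ :=
  (rB k c) * (rT2 k c)
def rBX11 (k c : ℝ) : ℝ :=
  (rB k c) * (rXT11 k c)
def rBX12 (k c : ℝ) : ℝ :=
  (rB k c) * (rXT12 k c)
def rBX20 (k c : ℝ) : ℝ :=
  (rB k c) * (rX2 k c)
def rBX21 (k c : ℝ) : ℝ :=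
  (rB k c) * (rXT21 k c)
def rBX22 (k c : ℝ) : ℝ :=
  (rB k c) * (rXT22 k c)
def rAX00 (k c : ℝ) : ℝ :=
  (-((15 : ℕ) : ℝ) * (rX k c)) / 2 ^ 4
def rAX01 (k c : ℝ) : ℝ :=
  (-((15 : ℕ) : ℝ) * (rXT11 k c)) / 2 ^ 4
def rAX02 (k c : ℝ) : ℝ :=
  (-((15 : ℕ) : ℝ) * (rXT12 k c)) / 2 ^ 4
def rAX10 (k c : ℝ) : ℝ :=
  (-((15 : ℕ) : ℝ) * (rX2 k c)) / 2 ^ 4
def rAX11 (k c : ℝ) : ℝ :=
  (-((15 : ℕ) : ℝ) * (rXT21 k c)) / 2 ^ 4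
def rAX12 (k c : ℝ) : ℝ :=
  (-((15 : ℕ) : ℝ) * (rXT22 k c)) / 2 ^ 4
def rAX20 (k c : ℝ) : ℝ :=
  (-((15 : ℕ) : ℝ) * (rX3 k c)) / 2 ^ 4
def rAX21 (k c : ℝ) : ℝ :=
  (-((15 : ℕ) : ℝ) * (rXT31 k c)) / 2 ^ 4
def rAX22 (k c : ℝ) : ℝ :=
  (-((15 : ℕ) : ℝ) * (rXT32 k c)) / 2 ^ 4
def rCT000 (k c : ℝ) : ℝ :=
  ((((48 : ℕ) : ℝ) * (rB2 k c)) + ((-((45 : ℕ) : ℝ) * (rX2 k c)) + (((60 : ℕ) : ℝ) * (rXT11 k c)))) / 2 ^ 6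
def rCT001 (k c : ℝ) : ℝ :=
  ((((2 : ℕ) : ℝ) * (rBG k c)) + ((-((1 : ℕ) : ℝ) * (rXB k c)) + (-((2 : ℕ) : ℝ) * (rBX01 k c)))) / 2 ^ 1
def rCT002 (k c : ℝ) : ℝ :=
  ((rB2 k c) * (rE2 k c)) / 2 ^ 1
def rCT010 (k c : ℝ) : ℝ :=
  (rT1 k c) * (rCT000 k c)
def rCT011 (k c : ℝ) : ℝ :=
  (rT1 k c) * (rCT001 k c)
def rCT012 (k c : ℝ) : ℝ :=
  (rT1 k c) * (rCT002 k c)
def rCT100 (k c : ℝ) : ℝ :=
  (rX k c) * (rCT000 k c)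
def rCT101 (k c : ℝ) : ℝ :=
  (rX k c) * (rCT001 k c)
def rCT102 (k c : ℝ) : ℝ :=
  (rX k c) * (rCT002 k c)
def rCT110 (k c : ℝ) : ℝ :=
  (rXT11 k c) * (rCT000 k c)
def rCT111 (k c : ℝ) : ℝ :=
  (rXT11 k c) * (rCT001 k c)
def rCT112 (k c : ℝ) : ℝ :=
  (rXT11 k c) * (rCT002 k c)
def rCT200 (k c : ℝ) : ℝ :=
  (rX2 k c) * (rCT000 k c)
def rCT201 (k c : ℝ) : ℝ :=
  (rX2 k c) * (rCT001 k c)
def rCT202 (k c : ℝ) : ℝ :=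
  (rX2 k c) * (rCT002 k c)
def rCT210 (k c : ℝ) : ℝ :=
  (rXT21 k c) * (rCT000 k c)
def rCT211 (k c : ℝ) : ℝ :=
  (rXT21 k c) * (rCT001 k c)
def rCT212 (k c : ℝ) : ℝ :=
  (rXT21 k c) * (rCT002 k c)
def rBC00 (k c : ℝ) : ℝ :=
  (rB k c) * (rCT000 k c)
def rBC01 (k c : ℝ) : ℝ :=
  (rB k c) * (rCT001 k c)
def rBC02 (k c : ℝ) : ℝ :=
  (rB k c) * (rCT002 k c)
def rBC10 (k c : ℝ) : ℝ :=
  (rB k c) * (rCT010 k c)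
def rBC11 (k c : ℝ) : ℝ :=
  (rB k c) * (rCT011 k c)
def rBC12 (k c : ℝ) : ℝ :=
  (rB k c) * (rCT012 k c)
def rBB1 (k c : ℝ) : ℝ :=
  (rB k c) * (rBX01 k c)
def rBB2 (k c : ℝ) : ℝ :=
  (rB k c) * (rBX02 k c)

def rS1 (k c : ℝ) (s : ℕ) : ℝ :=
  (if s = 0 then (((((252 : ℕ) : ℝ) * (((4294967296 : ℕ) : ℝ) / 2 ^ 32)) + (-((225 : ℕ) : ℝ) * (rX2 k c))) / 2 ^ 7) else 0) +
    ((if s = 1 then ((((30 : ℕ) : ℝ) * (rXB k c)) / 2 ^ 4) else 0) +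
    ((if s = 5 then (((((3 : ℕ) : ℝ) * (((4294967296 : ℕ) : ℝ) / 2 ^ 32)) + (-((4 : ℕ) : ℝ) * (rB2 k c))) / 2 ^ 1) else 0) +
    ((if s = 9 then ((((3 : ℕ) : ℝ) * (((4294967296 : ℕ) : ℝ) / 2 ^ 32)) / 2 ^ 1) else 0) +
    0)))
def rS2 (k c : ℝ) (s : ℕ) : ℝ :=
  (if s = 0 then (((((252 : ℕ) : ℝ) * (rT1 k c)) + ((-((225 : ℕ) : ℝ) * (rXT21 k c)) + (-((720 : ℕ) : ℝ) * (rCT100 k c)))) / 2 ^ 7) else 0) +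
    ((if s = 1 then (((((30 : ℕ) : ℝ) * (rBX11 k c)) + ((-((45 : ℕ) : ℝ) * (rCT101 k c)) + (((48 : ℕ) : ℝ) * (rBC00 k c)))) / 2 ^ 4) else 0) +
    ((if s = 5 then (((((3 : ℕ) : ℝ) * (rT1 k c)) + ((-((4 : ℕ) : ℝ) * (rBB1 k c)) + (((12 : ℕ) : ℝ) * (rBC01 k c)))) / 2 ^ 1) else 0) +
    ((if s = 9 then ((((3 : ℕ) : ℝ) * (rT1 k c)) / 2 ^ 1) else 0) +
    ((if s = 2 then ((-((45 : ℕ) : ℝ) * (rCT102 k c)) / 2 ^ 4) else 0) +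
    ((if s = 6 then (((3 : ℕ) : ℝ) * (rBC02 k c)) else 0) +
    0)))))
def rS3 (k c : ℝ) (s : ℕ) : ℝ :=
  (if s = 0 then (((((252 : ℕ) : ℝ) * (rT2 k c)) + ((-((225 : ℕ) : ℝ) * (rXT22 k c)) + (-((1440 : ℕ) : ℝ) * (rCT110 k c)))) / 2 ^ 7) else 0) +
    ((if s = 1 then (((((30 : ℕ) : ℝ) * (rBX12 k c)) + ((-((90 : ℕ) : ℝ) * (rCT111 k c)) + (((96 : ℕ) : ℝ) * (rBC10 k c)))) / 2 ^ 4) else 0) +
    ((if s = 5 then (((((3 : ℕ) : ℝ) * (rT2 k c)) + ((-((4 : ℕ) : ℝ) * (rBB2 k c)) + (((24 : ℕ) : ℝ) * (rBC11 k c)))) / 2 ^ 1) else 0) +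
    ((if s = 9 then ((((3 : ℕ) : ℝ) * (rT2 k c)) / 2 ^ 1) else 0) +
    ((if s = 2 then ((-((90 : ℕ) : ℝ) * (rCT112 k c)) / 2 ^ 4) else 0) +
    ((if s = 6 then (((6 : ℕ) : ℝ) * (rBC12 k c)) else 0) +
    0)))))
def rS4 (k c : ℝ) (s : ℕ) : ℝ :=
  (if s = 0 then ((((225 : ℕ) : ℝ) * (rX2 k c)) / 2 ^ 7) else 0) +
    ((if s = 1 then ((-((15 : ℕ) : ℝ) * (rXB k c)) / 2 ^ 3) else 0) +
    ((if s = 5 then (((2 : ℕ) : ℝ) * (rB2 k c)) else 0) +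
    0))
def rS5 (k c : ℝ) (s : ℕ) : ℝ :=
  (if s = 0 then ((((225 : ℕ) : ℝ) * (rXT21 k c)) / 2 ^ 7) else 0) +
    ((if s = 1 then ((-((15 : ℕ) : ℝ) * (rBX11 k c)) / 2 ^ 3) else 0) +
    ((if s = 5 then (((2 : ℕ) : ℝ) * (rBB1 k c)) else 0) +
    0))
def rS6 (k c : ℝ) (s : ℕ) : ℝ :=
  (if s = 0 then ((((225 : ℕ) : ℝ) * (rXT22 k c)) / 2 ^ 7) else 0) +
    ((if s = 1 then ((-((15 : ℕ) : ℝ) * (rBX12 k c)) / 2 ^ 3) else 0) +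
    ((if s = 5 then (((2 : ℕ) : ℝ) * (rBB2 k c)) else 0) +
    0))
def rS7 (k c : ℝ) (s : ℕ) : ℝ :=
  (if s = 12 then (((2 : ℕ) : ℝ) * (((4294967296 : ℕ) : ℝ) / 2 ^ 32)) else 0) +
    ((if s = 3 then (-((1 : ℕ) : ℝ) * (rAX00 k c)) else 0) +
    ((if s = 7 then (-((1 : ℕ) : ℝ) * (rB k c)) else 0) +
    0))
def rS8 (k c : ℝ) (s : ℕ) : ℝ :=
  (if s = 12 then (((2 : ℕ) : ℝ) * (rT1 k c)) else 0) +
    ((if s = 3 then (((-((1 : ℕ) : ℝ) * (rAX01 k c)) + (-((3 : ℕ) : ℝ) * (rCT000 k c))) / 2 ^ 0) else 0) +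
    ((if s = 7 then (((-((1 : ℕ) : ℝ) * (rBX01 k c)) + (-((3 : ℕ) : ℝ) * (rCT001 k c))) / 2 ^ 0) else 0) +
    ((if s = 10 then (-((3 : ℕ) : ℝ) * (rCT002 k c)) else 0) +
    0)))
def rS9 (k c : ℝ) (s : ℕ) : ℝ :=
  (if s = 12 then (((2 : ℕ) : ℝ) * (rT2 k c)) else 0) +
    ((if s = 3 then (((-((1 : ℕ) : ℝ) * (rAX02 k c)) + (-((6 : ℕ) : ℝ) * (rCT010 k c))) / 2 ^ 0) else 0) +
    ((if s = 7 then (((-((1 : ℕ) : ℝ) * (rBX02 k c)) + (-((6 : ℕ) : ℝ) * (rCT011 k c))) / 2 ^ 0) else 0) +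
    ((if s = 10 then (-((6 : ℕ) : ℝ) * (rCT012 k c)) else 0) +
    0)))
def rS10 (k c : ℝ) (s : ℕ) : ℝ :=
  (if s = 3 then (-((1 : ℕ) : ℝ) * (rAX00 k c)) else 0) +
    ((if s = 7 then (-((1 : ℕ) : ℝ) * (rB k c)) else 0) +
    0)
def rS11 (k c : ℝ) (s : ℕ) : ℝ :=
  (if s = 3 then (-((1 : ℕ) : ℝ) * (rAX01 k c)) else 0) +
    ((if s = 7 then (-((1 : ℕ) : ℝ) * (rBX01 k c)) else 0) +
    0)
def rS12 (k c : ℝ) (s : ℕ) : ℝ :=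
  (if s = 3 then (-((1 : ℕ) : ℝ) * (rAX02 k c)) else 0) +
    ((if s = 7 then (-((1 : ℕ) : ℝ) * (rBX02 k c)) else 0) +
    0)
def rS13 (k c : ℝ) (s : ℕ) : ℝ :=
  (if s = 4 then (rAX00 k c) else 0) +
    ((if s = 8 then (rB k c) else 0) +
    0)
def rS14 (k c : ℝ) (s : ℕ) : ℝ :=
  (if s = 4 then (rAX01 k c) else 0) +
    ((if s = 8 then (rBX01 k c) else 0) +
    0)
def rS15 (k c : ℝ) (s : ℕ) : ℝ :=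
  (if s = 4 then (rAX02 k c) else 0) +
    ((if s = 8 then (rBX02 k c) else 0) +
    0)
def rS16 (k c : ℝ) (s : ℕ) : ℝ :=
  (if s = 4 then (rAX10 k c) else 0) +
    ((if s = 8 then (rXB k c) else 0) +
    0)
def rS17 (k c : ℝ) (s : ℕ) : ℝ :=
  (if s = 4 then (rAX11 k c) else 0) +
    ((if s = 8 then (rBX11 k c) else 0) +
    0)
def rS18 (k c : ℝ) (s : ℕ) : ℝ :=
  (if s = 4 then (rAX12 k c) else 0) +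
    ((if s = 8 then (rBX12 k c) else 0) +
    0)
def rS19 (k c : ℝ) (s : ℕ) : ℝ :=
  (if s = 4 then (rAX20 k c) else 0) +
    ((if s = 8 then (rBX20 k c) else 0) +
    0)
def rS20 (k c : ℝ) (s : ℕ) : ℝ :=
  (if s = 4 then (rAX21 k c) else 0) +
    ((if s = 8 then (rBX21 k c) else 0) +
    0)
def rS21 (k c : ℝ) (s : ℕ) : ℝ :=
  (if s = 4 then (rAX22 k c) else 0) +
    ((if s = 8 then (rBX22 k c) else 0) +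
    0)
def rS22 (k c : ℝ) (s : ℕ) : ℝ :=
  (if s = 4 then (((3 : ℕ) : ℝ) * (rCT000 k c)) else 0) +
    ((if s = 8 then (((3 : ℕ) : ℝ) * (rCT001 k c)) else 0) +
    ((if s = 11 then (((3 : ℕ) : ℝ) * (rCT002 k c)) else 0) +
    0))
def rS23 (k c : ℝ) (s : ℕ) : ℝ :=
  (if s = 4 then (((3 : ℕ) : ℝ) * (rCT010 k c)) else 0) +
    ((if s = 8 then (((3 : ℕ) : ℝ) * (rCT011 k c)) else 0) +
    ((if s = 11 then (((3 : ℕ) : ℝ) * (rCT012 k c)) else 0) +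
    0))
def rS24 (k c : ℝ) (s : ℕ) : ℝ :=
  (if s = 4 then (((3 : ℕ) : ℝ) * (rCT100 k c)) else 0) +
    ((if s = 8 then (((3 : ℕ) : ℝ) * (rCT101 k c)) else 0) +
    ((if s = 11 then (((3 : ℕ) : ℝ) * (rCT102 k c)) else 0) +
    0))
def rS25 (k c : ℝ) (s : ℕ) : ℝ :=
  (if s = 4 then (((3 : ℕ) : ℝ) * (rCT110 k c)) else 0) +
    ((if s = 8 then (((3 : ℕ) : ℝ) * (rCT111 k c)) else 0) +
    ((if s = 11 then (((3 : ℕ) : ℝ) * (rCT112 k c)) else 0) +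
    0))
def rS26 (k c : ℝ) (s : ℕ) : ℝ :=
  (if s = 4 then (((3 : ℕ) : ℝ) * (rCT200 k c)) else 0) +
    ((if s = 8 then (((3 : ℕ) : ℝ) * (rCT201 k c)) else 0) +
    ((if s = 11 then (((3 : ℕ) : ℝ) * (rCT202 k c)) else 0) +
    0))
def rS27 (k c : ℝ) (s : ℕ) : ℝ :=
  (if s = 4 then (((3 : ℕ) : ℝ) * (rCT210 k c)) else 0) +
    ((if s = 8 then (((3 : ℕ) : ℝ) * (rCT211 k c)) else 0) +
    ((if s = 11 then (((3 : ℕ) : ℝ) * (rCT212 k c)) else 0) +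
    0))
def rS28 (k c : ℝ) (s : ℕ) : ℝ :=
  (if s = 13 then (-((1 : ℕ) : ℝ) * (((4294967296 : ℕ) : ℝ) / 2 ^ 32)) else 0) +
    0
def rS29 (k c : ℝ) (s : ℕ) : ℝ :=
  (if s = 13 then (-((1 : ℕ) : ℝ) * (rT1 k c)) else 0) +
    0
def rS30 (k c : ℝ) (s : ℕ) : ℝ :=
  (if s = 13 then (-((1 : ℕ) : ℝ) * (rT2 k c)) else 0) +
    0
def rS31 (k c : ℝ) (s : ℕ) : ℝ :=
  (if s = 13 then (-((1 : ℕ) : ℝ) * (rX k c)) else 0) +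
    0
def rS32 (k c : ℝ) (s : ℕ) : ℝ :=
  (if s = 13 then (-((1 : ℕ) : ℝ) * (rXT11 k c)) else 0) +
    0
def rS33 (k c : ℝ) (s : ℕ) : ℝ :=
  (if s = 13 then (-((1 : ℕ) : ℝ) * (rXT12 k c)) else 0) +
    0
def rS34 (k c : ℝ) (s : ℕ) : ℝ :=
  (if s = 14 then (((2 : ℕ) : ℝ) * (((4294967296 : ℕ) : ℝ) / 2 ^ 32)) else 0) +
    0
def rS35 (k c : ℝ) (s : ℕ) : ℝ :=
  (if s = 14 then (((2 : ℕ) : ℝ) * (rT1 k c)) else 0) +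
    0
def rS36 (k c : ℝ) (s : ℕ) : ℝ :=
  (if s = 14 then (((2 : ℕ) : ℝ) * (rT2 k c)) else 0) +
    0
def rS37 (k c : ℝ) (s : ℕ) : ℝ :=
  (if s = 14 then (((2 : ℕ) : ℝ) * (rX k c)) else 0) +
    0
def rS38 (k c : ℝ) (s : ℕ) : ℝ :=
  (if s = 14 then (((2 : ℕ) : ℝ) * (rXT11 k c)) else 0) +
    0
def rS39 (k c : ℝ) (s : ℕ) : ℝ :=
  (if s = 14 then (((2 : ℕ) : ℝ) * (rXT12 k c)) else 0) +
    0
def rS40 (k c : ℝ) (s : ℕ) : ℝ :=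
  (if s = 14 then (((2 : ℕ) : ℝ) * (rX2 k c)) else 0) +
    0
def rS41 (k c : ℝ) (s : ℕ) : ℝ :=
  (if s = 14 then (((2 : ℕ) : ℝ) * (rXT21 k c)) else 0) +
    0
def rS42 (k c : ℝ) (s : ℕ) : ℝ :=
  (if s = 14 then (((2 : ℕ) : ℝ) * (rXT22 k c)) else 0) +
    0
def rS43 (k c : ℝ) (s : ℕ) : ℝ :=
  (if s = 14 then (((2 : ℕ) : ℝ) * (rX3 k c)) else 0) +
    0
def rS44 (k c : ℝ) (s : ℕ) : ℝ :=
  (if s = 14 then (((2 : ℕ) : ℝ) * (rXT31 k c)) else 0) +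
    0
def rS45 (k c : ℝ) (s : ℕ) : ℝ :=
  (if s = 14 then (((2 : ℕ) : ℝ) * (rXT32 k c)) else 0) +
    0
def rS46 (k c : ℝ) (s : ℕ) : ℝ :=
  (if s = 14 then (((2 : ℕ) : ℝ) * (rT3 k c)) else 0) +
    0
def rS47 (k c : ℝ) (s : ℕ) : ℝ :=
  (if s = 15 then (((4294967296 : ℕ) : ℝ) / 2 ^ 32) else 0) +
    0
def rS48 (k c : ℝ) (s : ℕ) : ℝ :=
  (if s = 15 then (rT1 k c) else 0) +
    0
def rS49 (k c : ℝ) (s : ℕ) : ℝ :=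
  (if s = 15 then (rT2 k c) else 0) +
    0

def Sr (k c : ℝ) : ℕ → ℕ → ℝ
  | 0 => rS1 k c
  | 1 => rS2 k c
  | 2 => rS3 k c
  | 3 => rS4 k c
  | 4 => rS5 k c
  | 5 => rS6 k c
  | 6 => rS7 k c
  | 7 => rS8 k c
  | 8 => rS9 k c
  | 9 => rS10 k c
  | 10 => rS11 k c
  | 11 => rS12 k c
  | 12 => rS13 k c
  | 13 => rS14 k c
  | 14 => rS15 k c
  | 15 => rS16 k c
  | 16 => rS17 k c
  | 17 => rS18 k c
  | 18 => rS19 k c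
  | 19 => rS20 k c
  | 20 => rS21 k c
  | 21 => rS22 k c
  | 22 => rS23 k c
  | 23 => rS24 k c
  | 24 => rS25 k c
  | 25 => rS26 k c
  | 26 => rS27 k c
  | 27 => rS28 k c
  | 28 => rS29 k c
  | 29 => rS30 k c
  | 30 => rS31 k c
  | 31 => rS32 k c
  | 32 => rS33 k c
  | 33 => rS34 k c
  | 34 => rS35 k c
  | 35 => rS36 k c
  | 36 => rS37 k c
  | 37 => rS38 k c
  | 38 => rS39 k c
  | 39 => rS40 k c
  | 40 => rS41 k c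
  | 41 => rS42 k c
  | 42 => rS43 k c
  | 43 => rS44 k c
  | 44 => rS45 k c
  | 45 => rS46 k c
  | 46 => rS47 k c
  | 47 => rS48 k c
  | 48 => rS49 k c
  | _ => fun _ => 0

def kap (l h : ℕ) (e : Pt) : ℝ := ((l : ℝ) + h - 512 + ((h - l : ℕ) : ℝ) * e 0) / 1024
def cap (l h : ℕ) (e : Pt) : ℝ := ((l : ℝ) + h - 1024 + ((h - l : ℕ) : ℝ) * e 1) / 1024

def Good5 (G : Pt → ℕ → ℝ) (A : (ℕ → ℝ) → Prop) (l0 h0 l1 h1 l2 h2 l3 h3 l4 h4 : ℕ) : Prop :=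
  ∀ t3 t4 : ℝ, In l3 h3 t3 → In l4 h4 t4 →
    Good3 G A (Sr ((t3 - 256) / 512) ((t4 - 512) / 512)) l0 h0 l1 h1 l2 h2

/-! ## The global polynomials -/

def GB (V : ℕ → ℕ → ℝ) (D : ℕ → ℕ → ℕ → ℝ) (t y q : ℝ) (f d : ℕ) : ℝ :=
  ((1 - y) * (D 0 f d)) + (-1 * (((1 - t) * y) * (D 2 f d)))
def GA (V : ℕ → ℕ → ℝ) (D : ℕ → ℕ → ℕ → ℝ) (t y q : ℝ) (f d : ℕ) : ℝ :=
  t * (y * (GB V D t y q f d))
def GC (V : ℕ → ℕ → ℝ) (D : ℕ → ℕ → ℕ → ℝ) (t y q : ℝ) (f d : ℕ) : ℝ :=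
  ((1 - y) * ((1 - y) * (GB V D t y q f d))) + (((1 - t) * ((1 - y) * ((1 - y) * (D 2 f d)))) + (-2 * ((1 - t) * ((1 - t) * (y * (D 1 f d))))))
def GE (V : ℕ → ℕ → ℝ) (D : ℕ → ℕ → ℕ → ℝ) (t y q : ℝ) (f d : ℕ) : ℝ :=
  2 * (t * ((1 - y) * (D 1 f d)))
def GH (V : ℕ → ℕ → ℝ) (D : ℕ → ℕ → ℕ → ℝ) (t y q : ℝ) (f g d : ℕ) : ℝ :=
  ((1 - t) * (V f d)) + (t * (V g d))
def GW (V : ℕ → ℕ → ℝ) (D : ℕ → ℕ → ℕ → ℝ) (t y q : ℝ) (f g d : ℕ) : ℝ :=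
  ((1 - t) * (GA V D t y q f d)) + (t * ((GA V D t y q g d) + (V g d)))
def GC2 (V : ℕ → ℕ → ℝ) (D : ℕ → ℕ → ℕ → ℝ) (t y q : ℝ) (f g d : ℕ) : ℝ :=
  ((1 - t) * (GC V D t y q f d)) + (t * (GC V D t y q g d))
def GE2 (V : ℕ → ℕ → ℝ) (D : ℕ → ℕ → ℕ → ℝ) (t y q : ℝ) (f g d : ℕ) : ℝ :=
  ((1 - t) * (GE V D t y q f d)) + (t * (GE V D t y q g d))

def GR (V : ℕ → ℕ → ℝ) (D : ℕ → ℕ → ℕ → ℝ) (t y q : ℝ) : ℕ → ℝ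
  | 0 => 2097152 * ((25 * ((1 - y) * ((1 - y) * (1 + (-1 * (q * q)))))) + (-1 * (y * (y * ((25 * ((1 - t) * (1 - t))) + (4 * (t * t)))))))
  | 1 => 64 * (V 1 0)
  | 2 => 64 * (V 1 1)
  | 3 => 64 * (V 1 2)
  | 4 => 64 * (GA V D t y q 1 0)
  | 5 => 64 * (GA V D t y q 1 1)
  | 6 => 64 * (GA V D t y q 1 2)
  | 7 => 64 * (V 0 0)
  | 8 => 64 * (V 0 1)
  | 9 => 64 * (V 0 2)
  | 10 => 64 * (GA V D t y q 0 0)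
  | 11 => 64 * (GA V D t y q 0 1)
  | 12 => 64 * (GA V D t y q 0 2)
  | 13 => 64 * ((q * (GC V D t y q 1 0)) + (q * ((1 - y) * ((GH V D t y q 2 5 0) + ((GH V D t y q 4 7 0) + (GW V D t y q 2 5 0))))))
  | 14 => 64 * ((q * (GC V D t y q 1 1)) + (q * ((1 - y) * ((GH V D t y q 2 5 1) + ((GH V D t y q 4 7 1) + (GW V D t y q 2 5 1))))))
  | 15 => 64 * ((q * (GC V D t y q 1 2)) + (q * ((1 - y) * ((GH V D t y q 2 5 2) + ((GH V D t y q 4 7 2) + (GW V D t y q 2 5 2))))))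
  | 16 => 64 * ((q * (GE V D t y q 1 0)) + (q * ((1 - y) * (GW V D t y q 3 6 0))))
  | 17 => 64 * ((q * (GE V D t y q 1 1)) + (q * ((1 - y) * (GW V D t y q 3 6 1))))
  | 18 => 64 * ((q * (GE V D t y q 1 2)) + (q * ((1 - y) * (GW V D t y q 3 6 2))))
  | 19 => 64 * (q * ((1 - y) * ((GW V D t y q 4 7 0) + (-1 * (GH V D t y q 4 7 0)))))
  | 20 => 64 * (q * ((1 - y) * ((GW V D t y q 4 7 1) + (-1 * (GH V D t y q 4 7 1)))))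
  | 21 => 64 * (q * ((1 - y) * ((GW V D t y q 4 7 2) + (-1 * (GH V D t y q 4 7 2)))))
  | 22 => 64 * (1 * (q * ((1 - y) * (GH V D t y q 2 5 1))))
  | 23 => 64 * (2 * (q * ((1 - y) * (GH V D t y q 2 5 2))))
  | 24 => 64 * (1 * (q * ((1 - y) * (GH V D t y q 3 6 1))))
  | 25 => 64 * (2 * (q * ((1 - y) * (GH V D t y q 3 6 2))))
  | 26 => 64 * (1 * (q * ((1 - y) * (GH V D t y q 4 7 1))))
  | 27 => 64 * (2 * (q * ((1 - y) * (GH V D t y q 4 7 2))))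
  | 28 => 64 * (q * (GC V D t y q 0 0))
  | 29 => 64 * (q * (GC V D t y q 0 1))
  | 30 => 64 * (q * (GC V D t y q 0 2))
  | 31 => 64 * (q * (GE V D t y q 0 0))
  | 32 => 64 * (q * (GE V D t y q 0 1))
  | 33 => 64 * (q * (GE V D t y q 0 2))
  | 34 => 64 * (((q * q) * ((1 - y) * (GC2 V D t y q 2 5 0))) + (((1 - t) * ((1 - t) * ((1 - y) * ((1 - y) * ((5 * (V 1 0)) + (-4 * (V 0 0))))))) + ((-1 * ((1 - t) * ((1 - t) * (y * ((1 - y) * ((5 * (GH V D t y q 2 5 0)) + (GH V D t y q 4 7 0))))))) + (t * ((1 - y) * ((1 - y) * (GH V D t y q 3 6 0)))))))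
  | 35 => 64 * (((q * q) * ((1 - y) * (GC2 V D t y q 2 5 1))) + (((1 - t) * ((1 - t) * ((1 - y) * ((1 - y) * ((5 * (V 1 1)) + (-4 * (V 0 1))))))) + ((-1 * ((1 - t) * ((1 - t) * (y * ((1 - y) * ((5 * (GH V D t y q 2 5 1)) + (GH V D t y q 4 7 1))))))) + ((t * ((1 - y) * ((1 - y) * (GH V D t y q 3 6 1)))) + (t * ((1 - y) * ((1 - y) * (GH V D t y q 4 7 0))))))))
  | 36 => 64 * (((q * q) * ((1 - y) * (GC2 V D t y q 2 5 2))) + (((1 - t) * ((1 - t) * ((1 - y) * ((1 - y) * ((5 * (V 1 2)) + (-4 * (V 0 2))))))) + ((-1 * ((1 - t) * ((1 - t) * (y * ((1 - y) * ((5 * (GH V D t y q 2 5 2)) + (GH V D t y q 4 7 2))))))) + ((t * ((1 - y) * ((1 - y) * (GH V D t y q 3 6 2)))) + (t * ((1 - y) * ((1 - y) * (GH V D t y q 4 7 1))))))))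
  | 37 => 64 * ((q * q) * ((1 - y) * ((GE2 V D t y q 2 5 0) + (GC2 V D t y q 3 6 0))))
  | 38 => 64 * ((q * q) * ((1 - y) * ((GE2 V D t y q 2 5 1) + (GC2 V D t y q 3 6 1))))
  | 39 => 64 * ((q * q) * ((1 - y) * ((GE2 V D t y q 2 5 2) + (GC2 V D t y q 3 6 2))))
  | 40 => 64 * ((q * q) * ((1 - y) * ((GE2 V D t y q 3 6 0) + (GC2 V D t y q 4 7 0))))
  | 41 => 64 * ((q * q) * ((1 - y) * ((GE2 V D t y q 3 6 1) + (GC2 V D t y q 4 7 1))))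
  | 42 => 64 * ((q * q) * ((1 - y) * ((GE2 V D t y q 3 6 2) + (GC2 V D t y q 4 7 2))))
  | 43 => 64 * ((q * q) * ((1 - y) * (GE2 V D t y q 4 7 0)))
  | 44 => 64 * ((q * q) * ((1 - y) * (GE2 V D t y q 4 7 1)))
  | 45 => 64 * ((q * q) * ((1 - y) * (GE2 V D t y q 4 7 2)))
  | 46 => 64 * (t * ((1 - y) * ((1 - y) * (GH V D t y q 4 7 2))))
  | 47 => 16 * (((1 - y) * ((5 * (V 0 0)) + (-4 * (V 1 0)))) + (4 * (y * (GH V D t y q 2 5 0))))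
  | 48 => 16 * (((1 - y) * ((5 * (V 0 1)) + (-4 * (V 1 1)))) + (4 * (y * (GH V D t y q 2 5 1))))
  | 49 => 16 * (((1 - y) * ((5 * (V 0 2)) + (-4 * (V 1 2)))) + (4 * (y * (GH V D t y q 2 5 2))))
  | _ => 0

def GB1 (V : ℕ → ℕ → ℝ) : ℕ → ℝ
  | 0 => 67108864
  | 34 => (32 * (V 2 0))
  | 35 => (32 * (V 2 1))
  | 36 => (32 * (V 2 2))
  | 37 => (32 * (V 3 0))
  | 38 => (32 * (V 3 1))
  | 39 => (32 * (V 3 2))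
  | 40 => (32 * (V 4 0))
  | 41 => (32 * (V 4 1))
  | 42 => (32 * (V 4 2))
  | _ => 0

def GB2 (V : ℕ → ℕ → ℝ) : ℕ → ℝ
  | 0 => 67108864
  | 34 => (32 * (V 5 0))
  | 35 => (32 * ((V 5 1) + (-1 * (V 1 0))))
  | 36 => (32 * ((V 5 2) + (-1 * (V 1 1))))
  | 37 => (32 * ((2 * (V 1 0)) + ((V 6 0) + (-1 * (V 0 0)))))
  | 38 => (32 * ((2 * (V 1 1)) + ((V 6 1) + (-1 * (V 0 1)))))
  | 39 => (32 * ((2 * (V 1 2)) + ((V 6 2) + (-1 * (V 0 2)))))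
  | 40 => (32 * (V 7 0))
  | 41 => (32 * (V 7 1))
  | 42 => (32 * (V 7 2))
  | 46 => (-32 * (V 1 2))
  | _ => 0

/-- The values of the tables and of their derivatives at the invariants of `(t, y, q)`. -/
def tV (W : ℕ → ℕ → P) (t y q : ℝ) (f d : ℕ) : ℝ := ev (W f d) (p3 y (q * q) ((1 - t) * y))
def tD (W : ℕ → ℕ → P) (t y q : ℝ) (i f d : ℕ) : ℝ :=
  ev (der i (W f d)) (p3 y (q * q) ((1 - t) * y))

def Gint (W : ℕ → ℕ → P) (e : Pt) (j : ℕ) : ℝ :=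
  1024 ^ 16 * GR (tV W (e 0 / 1024) (e 1 / 1024) (e 2 / 1024))
    (tD W (e 0 / 1024) (e 1 / 1024) (e 2 / 1024)) (e 0 / 1024) (e 1 / 1024) (e 2 / 1024) j
def Gb1 (W : ℕ → ℕ → P) (_ : Pt) (j : ℕ) : ℝ := 1024 ^ 16 * GB1 (tV W 1 0 1) j
def Gb2 (W : ℕ → ℕ → P) (_ : Pt) (j : ℕ) : ℝ := 1024 ^ 16 * GB2 (tV W 1 0 1) j

/-! ## Statements -/

structure S_alg : Prop where
  congr : ∀ (L J : ℕ) (p : P) (F G : Pt → ℕ → ℝ), Rep L J p F →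
    (∀ e j, j < J → G e j = F e j) → Rep L J p G
  addL : ∀ (L J a b m : ℕ) (q : P) (F G : Pt → ℕ → ℝ), Rep L J (P.lf a b m) F → Rep L J q G →
    Rep L J (addL a b m q) (fun e j => F e j + G e j)
  padd : ∀ (L J : ℕ) (p q : P) (F G : Pt → ℕ → ℝ), Rep L J p F → Rep L J q G →
    Rep L J (padd p q) (fun e j => F e j + G e j)
  pmn : ∀ (L J k : ℕ) (p : P) (F : Pt → ℕ → ℝ), Rep L J p F →
    Rep L J (pmn k p) (fun e j => (k : ℝ) * F e j)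
  pmm : ∀ (L J k : ℕ) (p : P) (F : Pt → ℕ → ℝ), Rep L J p F →
    Rep L J (pmm k p) (fun e j => -(k : ℝ) * F e j)
  zsm : ∀ (L J a b : ℕ) (p : P) (F : Pt → ℕ → ℝ), Rep L J p F →
    Rep L J (zsm a b p) (fun e j => ((a : ℝ) - (b : ℝ)) * F e j)
  place : ∀ (L n J o : ℕ) (p : P) (F : Pt → ℕ → ℝ), Rep L n p F → o + n ≤ J →
    Rep L J (place (L * o) p) (fun e x => if o ≤ x ∧ x < o + n then F e (x - o) else 0)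
  okm_mono : ∀ (M M' : ℕ) (p : P), okm M p = true → M ≤ M' → okm M' p = true

structure S_sub : Prop where
  sub0 : ∀ (L J a b : ℕ) (p : P) (F : Pt → ℕ → ℝ), Rep L J p F →
    Rep L J (sub0 a b p) (fun e j => F (cs ((a : ℝ) - (b : ℝ)) e) j)
  pre : ∀ (L J K d : ℕ) (p : P) (F : Pt → ℕ → ℝ), 0 < K → Rep L J p F → dg p d = true →
    Rep L J (pre K p d) (fun e j => (K : ℝ) ^ d * F (fun n => e n / (K : ℝ)) j)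
  shift3 : ∀ (L J l0 h0 l1 h1 l2 h2 : ℕ) (p : P) (F : Pt → ℕ → ℝ), Rep L J p F →
    Rep L J (shift3 p l0 h0 l1 h1 l2 h2) (fun e j =>
      F (cs ((l0 : ℝ) + h0 + ((h0 - l0 : ℕ) : ℝ) * e 0) (cs ((l1 : ℝ) + h1 + ((h1 - l1 : ℕ) : ℝ) * e 1)
        (cs ((l2 : ℝ) + h2 + ((h2 - l2 : ℕ) : ℝ) * e 2) (tl (tl (tl e)))))) j)

def S_der : Prop := ∀ (L J i : ℕ) (p : P) (F : Pt → ℕ → ℝ), Rep L J p F →
  ∃ F' : Pt → ℕ → ℝ, Rep L J (der i p) F' ∧ ∀ e j, j < J →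
    HasDerivAt (fun t => F (Function.update e i t) j) (F' e j) (e i)

structure S_nm : Prop where
  nm : ∀ (L J : ℕ) (p : P) (F : Pt → ℕ → ℝ), Rep L J p F → ∃ u : ℕ → ℕ, va (nm p) = pk L J u ∧
    Rep L J (nm p) (fun _ j => (u j : ℝ)) ∧ (∀ e, Box e → ∀ j, j < J → |F e j| ≤ (u j : ℝ)) ∧
    ∀ M, 0 < M → okm M (nm p) = true → ∀ j, j < J → u j < M
  trcr : ∀ (L J d : ℕ) (p : P) (F : Pt → ℕ → ℝ), Rep L J p F →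
    ∃ (T : Pt → ℕ → ℝ) (N : ℕ → ℝ), Rep L J (tr p d) T ∧ Rep L J (cr p d) (fun _ => N) ∧
      ∀ e, Box e → ∀ j, j < J → |F e j - T e j| ≤ N j

structure S_nzs : Prop where
  ones : ∀ L J : ℕ, 0 < L → ones L J = pk L J (fun _ => 1)
  nzs : ∀ L J sh : ℕ, 0 < L → sh ≤ L → Nrm (nzs L J sh) L J sh

structure S_keep : Prop where
  keep : ∀ (g : ℕ → ℕ → ℕ) (L J sh d : ℕ) (p : P) (F : Pt → ℕ → ℝ), Nrm g L J sh → Rep L J p F →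
    okm (2 ^ (L - 1)) p = true → okm (2 ^ (L - 1)) (cr p d) = true →
    ∃ (T : Pt → ℕ → ℝ) (N : ℕ → ℝ), Rep L J (keep g sh p d) T ∧
      Rep L J (kerr g sh (pk L J (fun _ => 1)) p d) (fun _ => N) ∧
      ∀ e, Box e → ∀ j, j < J → |F e j / 2 ^ sh - T e j| ≤ N j
  keep0 : ∀ (g : ℕ → ℕ → ℕ) (L J d : ℕ) (p : P) (F : Pt → ℕ → ℝ), Nrm g L J 0 → Rep L J p F →
    okm (2 ^ (L - 1)) p = true → dg p d = true → Rep L J (Ck.keep g 0 p d) F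

structure S_cut : Prop where
  setm : ∀ (L J b : ℕ) (p : P) (F : Pt → ℕ → ℝ), Rep L J p F → okm (2 ^ L) p = true → b ≤ L →
    dlt L (pk L J (fun _ => 1)) b p = true → Rep L J (setm (2 ^ b) p) F
  plo : ∀ (L J K : ℕ) (p : P) (F : Pt → ℕ → ℝ), Rep L (J + K) p F → okm (2 ^ L) p = true →
    Rep L J (plo (L * J) p) F
  phi : ∀ (L J K : ℕ) (p : P) (F : Pt → ℕ → ℝ), Rep L (J + K) p F → okm (2 ^ L) p = true →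
    Rep L K (phi (L * J) p) (fun e x => F e (J + x))

structure S_comb : Prop where
  comb : ∀ (L J L' M n : ℕ) (S : PL) (Sf : ℕ → ℕ → ℝ) (u v : ℕ → ℕ), M + 1 = 2 ^ L' →
    RepL L J S Sf n → (∀ j, j < n → u j < 2 ^ L' ∧ v j < 2 ^ L') →
    Rep L J (comb L' M S (pk L' n u) (pk L' n v))
      (fun _ x => ∑ j ∈ range n, ((u j : ℝ) - (v j : ℝ)) * Sf j x)
  tens0 : ∀ (L J L' M n : ℕ) (S : PL) (Sf : ℕ → ℕ → ℝ) (G : P) (Gf : Pt → ℕ → ℝ), M + 1 = 2 ^ L' →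
    RepL L J S Sf n → Rep L' n G Gf → okm (2 ^ L') G = true →
    Rep L J (tens0 L' M S G) (fun e x => ∑ j ∈ range n, Gf e j * Sf j x)

structure S_ctr : Prop where
  val : ∀ p : P, dp p 2 = true → dg p 5 = true →
    (∀ e, ev p e = ds (fun i j => co p i j * (e 0 ^ i * e 1 ^ j))) ∧ ∀ i j, 5 < i + j → co p i j = 0
  ctr : ∀ (L J : ℕ) (W : ℕ → ℕ → P) (w : ℕ → ℕ → ℕ → ℝ) (p : P), dp p 2 = true → dg p 5 = true →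
    (∀ i j, i + j ≤ 5 → Rep L J (W i j) (fun _ => w i j)) →
    Rep L J (ctr0 W p 0) (fun _ x => ds (fun i j => co p i j * w i j x))

def S_wpt : Prop := ∀ n3 n4 i j : ℕ, nok n3 = true → nok n4 = true → i + j ≤ 5 →
  Rep 112 ((n3 + 1) * (n4 + 1)) (wpt n3 n4 i j) (fun _ => wp n3 n4 i j)

structure S_wco : Prop where
  rep : ∀ i j : ℕ, i + j ≤ 5 → Rep 112 41 (wco i j) (fun _ => wc i j)
  sum : ∃ m m' : ℝ → ℝ → ℕ → ℝ,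
    (∀ a b, |a| ≤ 1 → |b| ≤ 1 → ∀ t, |m a b t| ≤ 1 ∧ |m' a b t| ≤ 1) ∧
    ∀ (a b : ℝ) (c : ℕ → ℕ → ℝ), (∀ i j, 5 < i + j → c i j = 0) →
      ds (fun i j => c i j * (a ^ i * b ^ j)) =
        ∑ t ∈ range 21, ds (fun i j => c i j * wc i j t) * m a b t ∧
      ds (fun i j => c i j * ((i : ℝ) * ((i : ℝ) - 1) * a ^ (i - 2) * b ^ j)) =
        ∑ t ∈ range 10, ds (fun i j => c i j * wc i j (21 + t)) * m' a b t ∧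
      ds (fun i j => c i j * (a ^ i * ((j : ℝ) * ((j : ℝ) - 1) * b ^ (j - 2)))) =
        ∑ t ∈ range 10, ds (fun i j => c i j * wc i j (31 + t)) * m' a b t

def S_sm : Prop := ∀ (n : ℕ) (a x b c : ℕ → ℕ),
  (∀ i, i < n → a i < 2 ^ 27 ∧ x i < 2 ^ 27 ∧ b i < 2 ^ 27 ∧ c i < 2 ^ 27) →
  sm (pk 56 n (fun _ => 1)) (pk 56 n a) (pk 56 n x) (pk 56 n b) (pk 56 n c) =
    pk 56 n (fun i => a i * x i + b i * c i)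

structure S_rok : Prop where
  rok : ∀ (L n s : ℕ) (y : ℕ → ℕ), s + 27 < L → (∀ i, i < n → y i < 2 ^ L) →
    rok L (pk L n (fun _ => 1)) s (pk L n y) = true →
    (∀ i, i < n → 2 ^ (L - 1) ≤ y i ∧ y i < 2 ^ (L - 1) + 2 ^ (s + 27)) ∧
      rsh (pk L n (fun _ => 1)) s (pk L n y) = pk L n (fun i => (y i - 2 ^ (L - 1)) / 2 ^ s)
  top : ∀ (n : ℕ) (x : ℕ → ℕ), (∀ i, i < n → x i < 2 ^ 27) →
    top (pk 56 n (fun _ => 1)) (pk 56 n x) = true → (∀ i, i < n → 2 ^ 26 ≤ x i) ∧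
      piv (pk 56 n (fun _ => 1)) (pk 56 n x) = pk 56 n (fun i => x i - 2 ^ 26 + 1)
  neg : ∀ (n : ℕ) (x : ℕ → ℕ), (∀ i, i < n → x i < 2 ^ 27) →
    neg (pk 56 n (fun _ => 1)) (pk 56 n x) = pk 56 n (fun i => 2 ^ 27 - 1 - x i)
  hi : ∀ (n : ℕ) (y : ℕ → ℕ), (∀ i, i < n → y i < 2 ^ 112) →
    Nat.land (pk 112 n y) (Nat.shiftLeft (pk 112 n (fun _ => 1)) 111) =
      Nat.shiftLeft (pk 112 n (fun _ => 1)) 111 → ∀ i, i < n → 2 ^ 111 ≤ y i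
  il : ∀ (V : ℕ) (y : ℕ → ℕ), (∀ i, i < V → y i < 2 ^ 27) →
    il V (pk 112 V y) = pk 56 (2 * ((V + 1) / 2))
      (fun i => if i % 2 = 0 then y (i / 2) else y (V / 2 + i / 2))

/-- One elimination step, digitwise. -/
def S_el : Prop := ∀ (n s z : ℕ) (a x b c : ℕ → ℕ), s ≤ 28 → z ≤ 5 →
  (∀ i, i < n → a i ≤ 2 ^ 26 ∧ x i < 2 ^ 27 ∧ b i < 2 ^ 27 ∧ c i < 2 ^ 27) →
  rok 56 (pk 56 n (fun _ => 1)) s (el (pk 56 n (fun _ => 1)) s z (pk 56 n a) (pk 56 n x)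
    (neg (pk 56 n (fun _ => 1)) (pk 56 n b)) (pk 56 n c)) = true →
  ∃ y : ℕ → ℕ, rsh (pk 56 n (fun _ => 1)) s (el (pk 56 n (fun _ => 1)) s z (pk 56 n a) (pk 56 n x)
      (neg (pk 56 n (fun _ => 1)) (pk 56 n b)) (pk 56 n c)) = pk 56 n y ∧
    ∀ i, i < n → y i < 2 ^ 27 ∧ ∃ δ : ℝ, 0 ≤ δ ∧ δ ≤ 1 ∧
      (a i : ℝ) * ((x i : ℝ) - 2 ^ 26) - ((b i : ℝ) - 2 ^ 26) * ((c i : ℝ) - 2 ^ 26) =
        2 ^ s * ((y i : ℝ) - 2 ^ 26 + z + δ)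

def S_sq5 : Prop := ∀ (n s1 s2 s3 s4 : ℕ) (x : ℕ → ℕ → ℕ), (∀ k i, k < 15 → i < n → x k i < 2 ^ 27) →
  sq5 (pk 56 n (fun _ => 1)) s1 s2 s3 s4 (pk 56 n (x 0)) (pk 56 n (x 1)) (pk 56 n (x 2))
    (pk 56 n (x 3)) (pk 56 n (x 4)) (pk 56 n (x 5)) (pk 56 n (x 6)) (pk 56 n (x 7)) (pk 56 n (x 8))
    (pk 56 n (x 9)) (pk 56 n (x 10)) (pk 56 n (x 11)) (pk 56 n (x 12)) (pk 56 n (x 13))
    (pk 56 n (x 14)) = true →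
  ∀ i, i < n → ∀ v : ℕ → ℝ, 0 ≤ qf (fun k => (x k i : ℝ) - 2 ^ 26) v +
    (v 0 ^ 2 + v 1 ^ 2 + v 2 ^ 2 + v 3 ^ 2 + v 4 ^ 2)

structure S_gm : Prop where
  lfs : ∀ (Q : ℕ) (p : P) (F : Pt → ℕ → ℝ), Rep 112 (16 * Q) p F →
    Cov Q (lfs Q p) (fun M => ∃ e x, x < Q ∧ ∀ k, k < 16 → M k = F e (Q * k + x))
  gm : ∀ (L J n V : ℕ) (f : P → NL) (B : (Pt → ℕ → ℝ) → (ℕ → ℝ) → Prop),
    (∀ p F, Rep L J p F → Cov V (f p) (B F)) → ∀ p F, Rep L J p F →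
    Cov ((n + 1) * V) (gm n V f p)
      (fun M => ∃ k, k ≤ n ∧ B (fun e j => F (cs (((k * (16 / n) : ℕ) : ℝ) - ((8 : ℕ) : ℝ)) e) j) M)

/-- The second stage of the final test. -/
def S_fin1 : Prop := ∀ (X : NL) (V s0 s1 s2 s3 s4 w0 w1 w2 w3 w4 d0 d1 d2 d3 d4 d5 : ℕ)
  (A : (ℕ → ℝ) → Prop), Cov V X A → w0 ≤ 7 → w1 ≤ 7 → w2 ≤ 7 → w3 ≤ 7 → w4 ≤ 7 →
  fin1 X V (ones 112 V) s0 s1 s2 s3 s4 w0 w1 w2 w3 w4 d0 d1 d2 d3 d4 d5 = true →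
  ∀ M, A M → ∀ v : ℕ → ℝ, (d0 : ℝ) * v 0 ^ 2 + d1 * v 1 ^ 2 + d2 * v 2 ^ 2 + d3 * v 3 ^ 2 +
    d4 * v 4 ^ 2 + d5 * v 5 ^ 2 ≤ Qf M v

def S_fin : Prop := ∀ (X : NL) (V n s w : ℕ) (u : ℕ → ℕ) (A : (ℕ → ℝ) → Prop), Cov V X A →
  656 ≤ n → (∀ t, t < n → u t < 2 ^ 112) → fin X V (pk 112 n u) s w = true →
  ∀ M, A M → ∀ v : ℕ → ℝ,
    2 ^ 21 * Qf (fun k => (u (41 * k + 40) : ℝ)) (fun i => |v i|) ≤ Qf M v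

def S_etot : Prop := ∀ (A B E : P) (n3 n4 : ℕ) (a b c : ℕ → ℕ), va A = pk 112 656 a →
  va B = pk 112 656 b → va E = pk 112 656 c →
  (∀ t, t < 656 → a t < 2 ^ 104 ∧ b t < 2 ^ 96 ∧ c t < 2 ^ 98) →
  ∃ u : ℕ → ℕ, etot A B E n3 n4 = pk 112 697 u ∧ (∀ t, t < 697 → u t < 2 ^ 112) ∧
    ∀ k, k < 16 → u (41 * k + 40) = ∑ t ∈ range 21, a (41 * k + t) +
      sq n3 * ∑ t ∈ range 10, b (41 * k + (21 + t)) +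
      sq n4 * ∑ t ∈ range 10, b (41 * k + (31 + t)) + 512 * c (41 * k + 40)

/-- Lower bound by the values on a grid and upper bounds of the pure second derivatives. -/
def S_interp : Prop := ∀ (m : ℕ) (g : Pt → ℝ) (g1 g2 : ℕ → Pt → ℝ) (U : ℕ → ℝ) (n : ℕ → ℕ) (B : ℝ),
  (∀ i, i < m → 0 < n i ∧ 0 ≤ U i) →
  (∀ i, i < m → ∀ e, HasDerivAt (fun t => g (Function.update e i t)) (g1 i e) (e i)) →
  (∀ i, i < m → ∀ e, HasDerivAt (fun t => g1 i (Function.update e i t)) (g2 i e) (e i)) →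
  (∀ i, i < m → ∀ e, Box e → g2 i e ≤ U i) →
  (∀ e, Box e → (∀ i, i < m → ∃ k, k ≤ n i ∧ e i = gp (n i) k) → B ≤ g e) →
  ∀ e, Box e → B - ∑ i ∈ range m, U i / (2 * (n i : ℝ) ^ 2) ≤ g e

/-- The values on the grid dominate the bound `u`. -/
def S_pair5 : Prop := ∀ (A B E Tv : P) (n0 n1 n2 n3 n4 s w Q : ℕ) (a b c : ℕ → ℕ) (F : Pt → ℕ → ℝ),
  va A = pk 112 656 a → va B = pk 112 656 b → va E = pk 112 656 c →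
  (∀ t, t < 656 → a t < 2 ^ 104 ∧ b t < 2 ^ 96 ∧ c t < 2 ^ 98) →
  nok n0 = true → nok n1 = true → nok n2 = true → Rep 112 (16 * Q) Tv F →
  pair5 A B E Tv n0 n1 n2 n3 n4 s w Q = true →
  ∀ (e : Pt) (x : ℕ), x < Q → (∃ k, k ≤ n0 ∧ e 0 = gp n0 k) → (∃ k, k ≤ n1 ∧ e 1 = gp n1 k) →
    (∃ k, k ≤ n2 ∧ e 2 = gp n2 k) → ∀ v : ℕ → ℝ,
    2 ^ 6 * Qf (fun k => ((∑ t ∈ range 21, a (41 * k + t) +
      sq n3 * ∑ t ∈ range 10, b (41 * k + (21 + t)) +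
      sq n4 * ∑ t ∈ range 10, b (41 * k + (31 + t)) + 512 * c (41 * k + 40) : ℕ) : ℝ))
      (fun i => |v i|) ≤ Qf (fun k => F e (Q * k + x)) v

/-- The interpolation argument. -/
def S_pair4 : Prop := ∀ (Tc E Tv : P) (n0 n1 n2 n3 n4 s w : ℕ) (Fc Fv : Pt → ℕ → ℝ) (N : ℕ → ℝ)
  (c : Pt → ℕ → ℕ → ℕ → ℝ), nok n0 = true → nok n1 = true → nok n2 = true → nok n3 = true →
  nok n4 = true → Rep 112 656 Tc Fc → Rep 112 (16 * ((n3 + 1) * (n4 + 1))) Tv Fv →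
  Rep 112 656 E (fun _ => N) → (∀ e k i j, 5 < i + j → c e k i j = 0) →
  (∀ e k x, k < 16 → x < (n3 + 1) * (n4 + 1) →
    Fv e ((n3 + 1) * (n4 + 1) * k + x) = ds (fun i j => c e k i j * wp n3 n4 i j x)) →
  (∀ e k t, k < 16 → t < 41 → Fc e (41 * k + t) = ds (fun i j => c e k i j * wc i j t)) →
  pair4 Tc E Tv n0 n1 n2 n3 n4 s w ((n3 + 1) * (n4 + 1)) = true →
  ∀ (e : Pt) (a b : ℝ), Box e → |a| ≤ 1 → |b| ≤ 1 → ∀ v : ℕ → ℝ,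
    Qf (fun k => |N (41 * k + 40)|) (fun i => |v i|) ≤
      Qf (fun k => ds (fun i j => c e k i j * (a ^ i * b ^ j))) v

def S_pair2 : Prop := ∀ (T E : P) (n0 n1 n2 n3 n4 s w : ℕ) (F : Pt → ℕ → ℝ) (N : ℕ → ℝ)
  (c : Pt → ℕ → ℕ → ℕ → ℝ), nok n0 = true → nok n1 = true → nok n2 = true → nok n3 = true →
  nok n4 = true → Rep 112 (16 * ((n3 + 1) * (n4 + 1)) + 656) T F →
  Rep 112 656 E (fun _ => N) → (∀ e k i j, 5 < i + j → c e k i j = 0) →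
  (∀ e k x, k < 16 → x < (n3 + 1) * (n4 + 1) →
    F e ((n3 + 1) * (n4 + 1) * k + x) = ds (fun i j => c e k i j * wp n3 n4 i j x)) →
  (∀ e k t, k < 16 → t < 41 →
    F e (16 * ((n3 + 1) * (n4 + 1)) + (41 * k + t)) = ds (fun i j => c e k i j * wc i j t)) →
  pair2 T E n0 n1 n2 n3 n4 s w ((n3 + 1) * (n4 + 1)) = true →
  ∀ (e : Pt) (a b : ℝ), Box e → |a| ≤ 1 → |b| ≤ 1 → ∀ v : ℕ → ℝ,
    Qf (fun k => |N (41 * k + 40)|) (fun i => |v i|) ≤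
      Qf (fun k => ds (fun i j => c e k i j * (a ^ i * b ^ j))) v

/-- The three lists built from the shape matrices. -/
def S_sx : Prop := ∀ (S : SL) (Sf : ℕ → Pt → ℕ → ℝ) (n Q : ℕ) (W : ℕ → ℕ → P) (w : ℕ → ℕ → ℕ → ℝ),
  RepS S Sf n → sok S = true → (∀ i j, i + j ≤ 5 → Rep 112 Q (W i j) (fun _ => w i j)) →
  ∃ (c : ℕ → ℕ → ℕ → ℕ → ℝ) (z ρ ν : ℕ → ℕ → ℝ),
    RepL 112 (16 * Q + 656) (smap (sx Q W) S) z n ∧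
    RepL 112 656 (smap (srl (fun t => t.r)) S) ρ n ∧
    RepL 112 656 (smap (srl (fun t => Nat.add (nn t.p) t.r)) S) ν n ∧
    (∀ l k i j, 5 < i + j → c l k i j = 0) ∧ ∀ l k, l < n → k < 16 →
      (∀ x, x < Q → z l (Q * k + x) = ds (fun i j => c l k i j * w i j x)) ∧
      (∀ t, t < 41 → z l (16 * Q + (41 * k + t)) = ds (fun i j => c l k i j * wc i j t)) ∧
      ∀ e, Box e → |2 ^ 32 * Sf l e k - ds (fun i j => c l k i j * (e 0 ^ i * e 1 ^ j))| ≤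
        ρ l (41 * k + 40) ∧ |2 ^ 32 * Sf l e k| ≤ ν l (41 * k + 40)

def S_pair1 : Prop := ∀ (S : SL) (Sf : ℕ → Pt → ℕ → ℝ) (G1 EG : P) (n0 n1 n2 n3 n4 s w : ℕ)
  (T : Pt → ℕ → ℝ) (N : ℕ → ℝ), nok n0 = true → nok n1 = true → nok n2 = true → nok n3 = true →
  nok n4 = true → RepS S Sf 50 → sok S = true → Rep 256 50 G1 T → Rep 256 50 EG (fun _ => N) →
  pair1 S G1 EG n0 n1 n2 n3 n4 s w ((n3 + 1) * (n4 + 1)) = true →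
  ∀ (e e' : Pt) (g : ℕ → ℝ), Box e → Box e' → (∀ j, j < 50 → |g j - T e j| ≤ N j) →
    ∀ v : ℕ → ℝ, v 3 ^ 2 + v 4 ^ 2 ≤ Qf (fun k => ∑ j ∈ range 50, g j * (2 ^ 32 * Sf j e' k)) v

def S_pair0 : Prop := ∀ (D : ℕ) (S : SL) (Sf : ℕ → Pt → ℕ → ℝ) (Gs : P) (n0 n1 n2 n3 n4 s w : ℕ)
  (Gf : Pt → ℕ → ℝ), RepS S Sf 50 → sok S = true → Rep 256 50 Gs Gf →
  pair0 D S Gs n0 n1 n2 n3 n4 s w = true →
  ∀ e e' : Pt, Box e → Box e' → ∀ v : ℕ → ℝ,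
    2 ^ 126 * (v 3 ^ 2 + v 4 ^ 2) ≤ Qf (fun k => ∑ j ∈ range 50, Gf e j * Sf j e' k) v

def S_go : Prop := ∀ (D : ℕ) (G : P) (Gf : Pt → ℕ → ℝ) (Z : ℕ → EL) (A : (ℕ → ℝ) → Prop) (S : SL)
  (Sf : ℕ → Pt → ℕ → ℝ), Rep 256 50 G Gf →
  (∀ mu, eok (Z mu) = true ∧ ∃ z, A z ∧ RepE (Z mu) (fun _ => z)) → RepS S Sf 49 → sok S = true →
  ∀ (t : Tr) (l0 h0 l1 h1 l2 h2 : ℕ), go D G Z S t l0 h0 l1 h1 l2 h2 = true →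
    ∀ e', Box e' → Good3 Gf A (fun j k => Sf j e' k) l0 h0 l1 h1 l2 h2

structure S_ev : Prop where
  addL : ∀ (a b m : ℕ) (q : P) (e : Pt), ev (addL a b m q) e = (a : ℝ) - (b : ℝ) + ev q e
  padd : ∀ (p q : P) (e : Pt), ev (padd p q) e = ev p e + ev q e
  pmn : ∀ (k : ℕ) (p : P) (e : Pt), ev (pmn k p) e = (k : ℝ) * ev p e
  pmm : ∀ (k : ℕ) (p : P) (e : Pt), ev (pmm k p) e = -(k : ℝ) * ev p e
  zsm : ∀ (a b : ℕ) (p : P) (e : Pt), ev (zsm a b p) e = ((a : ℝ) - (b : ℝ)) * ev p e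
  pmul : ∀ (p q : P) (e : Pt), ev (pmul p q) e = ev p e * ev q e
  cmp : ∀ (p : P) (L : PL) (e : Pt), ev (cmp p L) e = ev p (evl L e)
  trim : ∀ (p : P) (e : Pt), ev (trim p) e = ev p e
  nn : ∀ (p : P) (e : Pt), Box e → |ev p e| ≤ (nn p : ℝ)
  rep : ∀ (L : ℕ) (p : P), Rep L 1 (Ck.trim p) (fun e _ => ev p e)
  peq : ∀ p q : P, peq p q = true → p = q
  seq : ∀ S T : SL, seq S T = true → S = T

structure S_tm : Prop where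
  con : ∀ a : ℕ, TMr (tc a) (fun _ => (a : ℝ) / 2 ^ 32)
  add : ∀ {s t : TM} {f g : Pt → ℝ}, TMr s f → TMr t g → TMr (tadd s t) (fun e => f e + g e)
  mn : ∀ (k : ℕ) {t : TM} {f : Pt → ℝ}, TMr t f → TMr (tmn k t) (fun e => (k : ℝ) * f e)
  mm : ∀ (k : ℕ) {t : TM} {f : Pt → ℝ}, TMr t f → TMr (tmm k t) (fun e => -(k : ℝ) * f e)
  dv : ∀ (D sh : ℕ) {t : TM} {f : Pt → ℝ}, TMr t f → TMr (tdv D sh t) (fun e => f e / 2 ^ sh)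
  mul : ∀ (D : ℕ) {s t : TM} {f g : Pt → ℝ}, TMr s f → TMr t g →
    TMr (tmul D s t) (fun e => f e * g e)
  inv : ∀ (D : ℕ) {s : TM} {f : Pt → ℝ}, TMr s f → (∀ e, 1 ≤ f e) →
    TMr (tinv D s) (fun e => 1 / f e)
  ka : ∀ l h : ℕ, TMr (tka l h) (kap l h)
  cc : ∀ l h : ℕ, TMr (tcc l h) (cap l h)

def S_shp : Prop := ∀ D a b c d : ℕ,
  RepS (shp D a b c d) (fun j e k => Sr (kap a b e) (cap c d e) j k) 49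

structure S_good : Prop where
  mk5 : ∀ (G : P) (Gf : Pt → ℕ → ℝ) (Z : ℕ → EL) (A : (ℕ → ℝ) → Prop), Rep 256 50 G Gf →
    (∀ mu, eok (Z mu) = true ∧ ∃ z, A z ∧ RepE (Z mu) (fun _ => z)) →
    ∀ (S : SL) (l3 h3 l4 h4 : ℕ), band (seq (shp 5 l3 h3 l4 h4) S) (sok S) = true →
    ∀ (D : ℕ) (t : Tr) (l0 h0 l1 h1 l2 h2 : ℕ), go D G Z S t l0 h0 l1 h1 l2 h2 = true →
      Good5 Gf A l0 h0 l1 h1 l2 h2 l3 h3 l4 h4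
  out : ∀ (Gf : Pt → ℕ → ℝ) (A : (ℕ → ℝ) → Prop) (l0 h0 l1 h1 l2 h2 l3 h3 l4 h4 : ℕ),
    outside l0 h0 l1 l2 = true → Good5 Gf A l0 h0 l1 h1 l2 h2 l3 h3 l4 h4
  mult : ∀ mu, eok (mult mu) = true ∧ ∃ z, AI z ∧ RepE (mult mu) (fun _ => z)
  idm : ∀ mu, eok (idm mu) = true ∧ ∃ z, AB z ∧ RepE (idm mu) (fun _ => z)

def S_pack : Prop := ∀ S : PL, dgl16 S = true → lenP S = 50 →
  Rep 256 50 (pack S 0) (fun e j => 1024 ^ 16 * evl S (fun n => e n / 1024) j)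

structure S_gl : Prop where
  gi : ∀ W : ℕ → ℕ → P, dgl16 (gL W) = true → Rep 256 50 (pack (gL W) 0) (Gint W)
  b1 : ∀ W : ℕ → ℕ → P, dgl16 (bL1 W) = true → Rep 256 50 (pack (bL1 W) 0) (Gb1 W)
  b2 : ∀ W : ℕ → ℕ → P, dgl16 (bL2 W) = true → Rep 256 50 (pack (bL2 W) 0) (Gb2 W)

end Vale.Agent.P098.Ck
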