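import Vale.Agent.P098.CoInt

/-!
# P098: the boundary inequality and the radial inequality
-/

open MeasureTheory Set Metric Filter
open scoped ContDiff RealInnerProductSpace Topology NNReal

noncomputable section
namespace Vale.Agent.P098

section gen
variable {n : ℕ} {x p : T1 n} {A : T2 n} {B : T3 n} {u : ℝ}

theorem cobd_sq (A : T2 n) (p : T1 n) : ap (sqA A) p = ap A (ap A p) := by
  funext i
  simp only [ap, sqA, Finset.sum_mul, Finset.mul_sum, mul_assoc]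
  exact Finset.sum_comm

theorem cobd_apx (h : St x p A B u) (q : T1 n) : ∑ i, x i * ap A q i = 0 := by
  simp only [ap, Finset.mul_sum]
  rw [Finset.sum_comm]
  refine Finset.sum_eq_zero fun j _ => ?_
  rw [← mul_zero (q j), ← h.ax j, Finset.mul_sum]
  exact Finset.sum_congr rfl fun i _ => by rw [h.st.a j i]; ring

theorem cobd_ctx (h : St x p A B u) : ∑ i, x i * ct A B i = -nA A := by
  simp only [ct, nA, Finset.mul_sum]
  rw [Finset.sum_comm, ← Finset.sum_neg_distrib]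
  refine Finset.sum_congr rfl fun i _ => ?_
  rw [Finset.sum_comm, ← Finset.sum_neg_distrib]
  refine Finset.sum_congr rfl fun j _ => ?_
  rw [sq, ← mul_neg, ← h.bx i j, Finset.mul_sum]
  exact Finset.sum_congr rfl fun k _ => by ring

theorem cobd_flux (h : Adm p A B) : ∑ k, ct A B k * p k = -tA A - 2 * hh p A * nA A := by
  obtain ⟨H, hH⟩ : ∃ H, hh p A = H := ⟨_, rfl⟩
  have eig := h.eig
  have tang := h.tang
  rw [hH] at eig tang ⊢
  obtain ⟨C, hC⟩ : ∃ C : T2 n, ∀ i j, ∑ k, B i j k * p k = C i j := ⟨_, fun _ _ => rfl⟩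
  obtain ⟨N, hN⟩ : ∃ N : T2 n, ∀ i j, N i j = A i j + if i = j then H else 0 :=
    ⟨_, fun _ _ => rfl⟩
  have n1 : ∀ j, ∑ a, N j a * p a = 0 := fun j => by
    simp [hN, add_mul, Finset.sum_add_distrib, eig]
  have n2 : ∀ j, ∑ a, p a * N a j = 0 := fun j => by
    rw [← n1 j]
    exact Finset.sum_congr rfl fun a _ => by simp only [hN, h.st.a a j, eq_comm, mul_comm]
  have q1 : ∀ a, ∑ i, p i * ((if i = a then 1 else 0) - p i * p a) = 0 := fun a => by
    simp [mul_sub, ← mul_assoc, ← sq, ← Finset.sum_mul, h.unit]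
  have q2 : ∀ i j, ∑ a, ((if i = a then 1 else 0) - p i * p a) * N j a = N j i := fun i j => by
    simp [sub_mul, mul_assoc, ← Finset.mul_sum, mul_comm (p _) (N j _), n1]
  have h2 : ∑ i, ∑ j, (C i j + sqA A i j + H * A i j) * N j i = 0 := by
    have h3 := Finset.sum_eq_zero fun a (_ : a ∈ Finset.univ) => tang _ _ (q1 a) (n2 a)
    rw [← h3, eq_comm, Finset.sum_comm]
    refine Finset.sum_congr rfl fun i _ => ?_
    rw [Finset.sum_comm]
    refine Finset.sum_congr rfl fun j _ => ?_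
    rw [← q2 i j, Finset.mul_sum, hC]
    exact Finset.sum_congr rfl fun a _ => mul_assoc _ _ _
  have t1 : ∑ i, C i i = 0 := by
    simp only [← hC]
    rw [Finset.sum_comm]
    simp [← Finset.sum_mul, h.st.tb]
  have t2 : ∑ i, sqA A i i = nA A :=
    Finset.sum_congr rfl fun i _ => Finset.sum_congr rfl fun j _ => by rw [h.st.a j i, sq]
  have t3 : ∑ k, ct A B k * p k = ∑ i, ∑ j, C i j * A i j := by
    simp only [ct, ← hC, Finset.sum_mul]
    rw [Finset.sum_comm]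
    refine Finset.sum_congr rfl fun i _ => ?_
    rw [Finset.sum_comm]
    exact Finset.sum_congr rfl fun j _ => Finset.sum_congr rfl fun k _ => by ring
  have t4 : ∀ i j, (C i j + sqA A i j + H * A i j) * N j i = C i j * A i j + sqA A i j * A i j +
      H * A i j ^ 2 + if j = i then H * (C i j + sqA A i j + H * A i j) else 0 := fun i j => by
    rw [hN, h.st.a j i]
    split_ifs <;> ring
  simp only [t4, Finset.sum_add_distrib, Finset.sum_ite_eq', Finset.mem_univ, if_true,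
    ← Finset.mul_sum, t1, t2, h.st.ta] at h2
  rw [t3, tA, nA]
  rw [nA] at h2
  linarith

end gen

theorem cobd_shape (h_shape : S_shape) {a p : T1 6} {B : T3 6} {u : ℝ}
    (hs : St (e0 5) p (dg a) B u) (w0 : 0 < √(nA (dg a))) (k : Fin 5) : ∃ β c : ℝ,
      Shape (a k.succ / √(nA (dg a))) β c ∧
        tA (dg a) / √(nA (dg a)) ^ 3 = sτ (a k.succ / √(nA (dg a))) β c := by
  obtain ⟨β, c, -, -, -, s0, s1, -⟩ := coint_block h_shape (a := a) (b := 0) w0 k
    (by simpa [dg, e0] using hs.ax 0) rfl (by simpa [dg] using hs.st.ta) (by simp)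
    (by rw [Real.sq_sqrt (Real.sqrt_pos.1 w0).le, coint_nA])
  exact ⟨β, c, s0, coint_tA a ▸ s1⟩

theorem cobd_total (h_cogr : S_cogr) (h_rot : S_rot) (h_shape : S_shape) {F : Fam} (hF : F.Sm)
    {x p : T1 6} {A : T2 6} {B : T3 6} (hs : St x p A B 0) (h1 : ∑ i, x i ^ 2 = 1)
    (ha : Adm p A B) (hH : 0 ≤ hh p A) : ∃ w y β c : ℝ, 0 < w ∧ Shape y β c ∧ y ≤ 0 ∧
      ∑ k, vf (co F) x p A B 0 k * p k + hh p A * (co F).ρ (inv x p A 0) =
        w * (F.g0 ![0, 1, 0, sτ y β c] + y * F.g1 ![0, 1, 0, sτ y β c] +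
          y ^ 2 * F.g2 ![0, 1, 0, sτ y β c]) +
        w ^ 2 * (F.f1 ![0, 1, 0, sτ y β c] * (2 * y - sτ y β c) + F.h0 ![0, 1, 0, sτ y β c] +
          y * F.h1 ![0, 1, 0, sτ y β c] + y ^ 2 * F.h2 ![0, 1, 0, sτ y β c] -
            y * F.f0 ![0, 1, 0, sτ y β c]) := by
  obtain ⟨w0, hv, hρ, hF1, hG0, hG1, hG2, -⟩ := h_cogr 6 F x p A B 0 hF hs h1
  obtain ⟨a, p', B', hs', hi, -, he⟩ := h_rot 5 x p A B 0 hs h1
  have i0 : nA (dg a) = nA A := congrFun hi 0
  have i1 : tA (dg a) = tA A := congrFun hi 1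
  have i2 : ∑ i, p' i ^ 2 = ∑ i, p i ^ 2 := congrFun hi 2
  have p0 : p' 0 = 0 := by simpa [e0] using hs'.px
  obtain ⟨k, hk⟩ : ∃ k : Fin 5, p' k.succ ≠ 0 := by
    by_contra h
    simp only [not_exists, not_not] at h
    rw [ha.unit, Fin.sum_univ_succ, p0] at i2
    simp [h] at i2
  have ak : a k.succ = -hh p A := mul_right_cancel₀ hk (he _ ha.eig _)
  obtain ⟨β, c, s0, s1⟩ := cobd_shape h_shape hs' (i0 ▸ w0) k
  rw [i0] at s0
  rw [i0, i1] at s1
  have hn := Real.sq_sqrt (Real.sqrt_pos.1 w0).le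
  obtain ⟨w, hw⟩ : ∃ w, √(nA A) = w := ⟨_, rfl⟩
  rw [hw] at w0 hv hρ hF1 hG0 hG1 hG2 s0 s1 hn
  have y0 : a k.succ / w ≤ 0 := div_nonpos_of_nonpos_of_nonneg (by linarith) w0.le
  have eH : hh p A = -(a k.succ / w * w) := by rw [div_mul_cancel₀ _ w0.ne', ak, neg_neg]
  obtain ⟨y, hy⟩ : ∃ y, a k.succ / w = y := ⟨_, rfl⟩
  rw [hy] at s0 s1 y0 eH
  rw [s1, ha.unit, zero_mul, zero_pow two_ne_zero, sub_zero] at hv
  rw [hv] at hρ hF1 hG0 hG1 hG2
  refine ⟨w, y, β, c, w0, s0, y0, ?_⟩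
  have e1 : ap A p = fun i => -hh p A * p i := funext ha.eig
  have e2 : ∀ i, ap (sqA A) p i = hh p A ^ 2 * p i := fun i => by
    have : ap A (fun i => -hh p A * p i) i = -hh p A * ap A p i := by
      simp only [ap, Finset.mul_sum, mul_left_comm (-hh p A)]
    rw [cobd_sq, e1, this, e1]
    ring
  have e3 : ∀ k, vf (co F) x p A B 0 k * p k = (co F).F1 (inv x p A 0) * (ct A B k * p k) +
      ((co F).G0 (inv x p A 0) - (co F).G1 (inv x p A 0) * hh p A +
        (co F).G2 (inv x p A 0) * hh p A ^ 2) * p k ^ 2 := fun k => by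
    have : (co F).F2 (inv x p A 0) = 0 := rfl
    rw [vf, this, e2, e1]
    ring
  simp only [e3, Finset.sum_add_distrib, ← Finset.mul_sum]
  rw [cobd_flux ha, ha.unit, hρ, hF1, hG0, hG1, hG2, ← hn, eH,
    (div_eq_iff (pow_pos w0 3).ne').1 s1]
  field_simp
  ring

theorem cobd_rad (h_cogr : S_cogr) (h_rot : S_rot) (h_shape : S_shape) {F : Fam} (hF : F.Sm)
    (hE : RedE F) {x p : T1 6} {A : T2 6} {B : T3 6} {u : ℝ} (hs : St x p A B u)
    (h1 : ∑ i, x i ^ 2 = 1) :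
    0 ≤ ∑ k, x k * vf (co F) x p A B u k + 5 / 4 * (co F).ρ (inv x p A u) := by
  obtain ⟨w0, hv, hρ, hF1, hG0, -⟩ := h_cogr 6 F x p A B u hF hs h1
  obtain ⟨a, p', B', hs', hi, -⟩ := h_rot 5 x p A B u hs h1
  have i0 : nA (dg a) = nA A := congrFun hi 0
  have i1 : tA (dg a) = tA A := congrFun hi 1
  obtain ⟨β, c, s0, s1⟩ := cobd_shape h_shape hs' (i0 ▸ w0) 0
  rw [i0] at s0
  rw [i0, i1] at s1
  have hn := Real.sq_sqrt (Real.sqrt_pos.1 w0).le
  obtain ⟨w, hw⟩ : ∃ w, √(nA A) = w := ⟨_, rfl⟩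
  rw [hw] at w0 hv hρ hF1 hG0 s0 s1 hn
  have us : u ^ 2 ≤ ∑ i, p i ^ 2 := by
    have h := Finset.sum_mul_sq_le_sq_mul_sq Finset.univ x p
    rwa [hs.px, h1, one_mul] at h
  have q2 := Real.sq_sqrt (sub_nonneg.2 us)
  have h2 := hE _ β c w u _ s0 ⟨w0, hs.u0, Real.sqrt_nonneg (∑ i, p i ^ 2 - u ^ 2), by
    have h3 := hs.uw
    rw [← nA, ← hn] at h3
    push_cast at h3
    rw [q2]
    nlinarith⟩
  rw [q2, ← s1, ← hv] at h2
  have e3 : ∀ k, x k * vf (co F) x p A B u k = (co F).F1 (inv x p A u) * (x k * ct A B k) +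
      (co F).G0 (inv x p A u) * (x k * p k) + (co F).G1 (inv x p A u) * (x k * ap A p k) +
        (co F).G2 (inv x p A u) * (x k * ap A (ap A p) k) := fun k => by
    have : (co F).F2 (inv x p A u) = 0 := rfl
    rw [vf, this, cobd_sq]
    ring
  simp only [e3, Finset.sum_add_distrib, ← Finset.mul_sum]
  rw [cobd_ctx hs, hs.px, cobd_apx hs, cobd_apx hs, hρ, hF1, hG0, ← hn]
  refine (mul_nonneg w0.le h2).trans_eq ?_
  field_simp
  ring

theorem cobd (h_cogr : S_cogr) (h_rot : S_rot) (h_shape : S_shape) : S_cobd := by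
  refine fun F hF => ⟨fun hB x p A B hs h1 ha hH => ?_, fun hE x p A B u hs h1 =>
    cobd_rad h_cogr h_rot h_shape hF hE hs h1⟩
  obtain ⟨w, y, β, c, w0, s0, y0, e⟩ := cobd_total h_cogr h_rot h_shape hF hs h1 ha hH
  obtain ⟨b1, b2⟩ := hB y β c s0 y0
  rw [e]
  exact add_nonneg (mul_nonneg w0.le (by linarith)) (mul_nonneg (sq_nonneg w) (by linarith))

end Vale.Agent.P098
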