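import Vale.Agent.P098.CertDefs

/-!
# P098: growth bounds for the certificate
-/

open MeasureTheory Set Metric Filter
open scoped ContDiff RealInnerProductSpace Topology NNReal

noncomputable section
namespace Vale.Agent.P098

theorem cobnd_mul {a b A B : ℝ} (ha : |a| ≤ A) (hb : |b| ≤ B) : |a * b| ≤ A * B :=
  (abs_mul a b).trans_le (mul_le_mul ha hb (abs_nonneg _) ((abs_nonneg _).trans ha))

theorem cobnd_add {a b A B : ℝ} (ha : |a| ≤ A) (hb : |b| ≤ B) : |a + b| ≤ A + B :=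
  (abs_add_le a b).trans (add_le_add ha hb)

theorem cobnd_sub {a b A B : ℝ} (ha : |a| ≤ A) (hb : |b| ≤ B) : |a - b| ≤ A + B :=
  (abs_sub a b).trans (add_le_add ha hb)

theorem cobnd_sum {f : Fin 6 → ℝ} {A : ℝ} (h : ∀ i, |f i| ≤ A) : |∑ i, f i| ≤ 6 * A :=
  (Finset.abs_sum_le_sum_abs _ _).trans ((Finset.sum_le_sum fun i _ => h i).trans_eq (by simp))

theorem cobnd_div {a A w : ℝ} (w0 : 0 < w) (h : |a| ≤ A * w) : |a / w| ≤ A := by
  rwa [abs_div, abs_of_pos w0, div_le_iff₀ w0]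

theorem cobnd_one {f : Fin 6 → ℝ} (h : ∑ i, f i ^ 2 ≤ 1) (i : Fin 6) : |f i| ≤ 1 :=
  (sq_le_one_iff_abs_le_one _).1 ((Finset.single_le_sum (f := fun i => f i ^ 2)
    (fun _ _ => sq_nonneg _) (Finset.mem_univ i)).trans h)

theorem cobnd_bd {f : F4} (hf : ContDiffOn ℝ 1 f D4) (R : ℝ) : ∃ N : ℝ, 0 ≤ N ∧
    ∀ v : Fin 4 → ℝ, ‖v‖ ≤ R → 0 ≤ v 0 → |f v| ≤ N ∧ ∀ a, |d4 f a v| ≤ N := by
  have hK : IsCompact (closedBall (0 : Fin 4 → ℝ) R ∩ {v | 0 ≤ v 0}) :=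
    (isCompact_closedBall _ _).inter_right (isClosed_le continuous_const (continuous_apply 0))
  have hs : closedBall (0 : Fin 4 → ℝ) R ∩ {v | 0 ≤ v 0} ⊆ D4 := fun v hv =>
    lt_of_lt_of_le (by norm_num) (show (0 : ℝ) ≤ v 0 from hv.2)
  have ho : IsOpen D4 := isOpen_lt continuous_const (continuous_apply 0)
  obtain ⟨N, hN⟩ := hK.exists_bound_of_continuousOn (hf.continuousOn.mono hs)
  obtain ⟨N', hN'⟩ := hK.exists_bound_of_continuousOn
    ((hf.continuousOn_fderiv_of_isOpen ho le_rfl).mono hs)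
  refine ⟨|N| + |N'|, by positivity, fun v h1 h2 => ?_⟩
  have hv : v ∈ closedBall (0 : Fin 4 → ℝ) R ∩ {v | 0 ≤ v 0} := ⟨mem_closedBall_zero_iff.2 h1, h2⟩
  refine ⟨(hN v hv).trans ((le_abs_self N).trans (le_add_of_nonneg_right (abs_nonneg _))),
    fun a => ((fderiv ℝ f v).le_opNorm _).trans ?_⟩
  rw [Pi.norm_single, norm_one, mul_one]
  exact (hN' v hv).trans ((le_abs_self N').trans (le_add_of_nonneg_left (abs_nonneg _)))

theorem cobnd_u {x p : T1 6} {A : T2 6} {B : T3 6} {u : ℝ} (hs : St x p A B u)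
    (h1 : ∑ i, x i ^ 2 = 1) : u ^ 2 ≤ ∑ i, p i ^ 2 := by
  have h := Finset.sum_mul_sq_le_sq_mul_sq Finset.univ x p
  rwa [hs.px, h1, one_mul] at h

theorem cobnd (h_cogr : S_cogr) : S_cobnd := by
  intro F hF M
  obtain ⟨W, hW⟩ : ∃ W, W = √M := ⟨_, rfl⟩
  have W0 : 0 ≤ W := hW ▸ Real.sqrt_nonneg M
  obtain ⟨N0, p0, b0⟩ := cobnd_bd hF.f0 (216 + W)
  obtain ⟨N1, p1, b1⟩ := cobnd_bd hF.f1 (216 + W)
  obtain ⟨N2, p2, b2⟩ := cobnd_bd hF.g0 (216 + W)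
  obtain ⟨N3, p3, b3⟩ := cobnd_bd hF.g1 (216 + W)
  obtain ⟨N4, p4, b4⟩ := cobnd_bd hF.g2 (216 + W)
  obtain ⟨N5, p5, b5⟩ := cobnd_bd hF.h0 (216 + W)
  obtain ⟨N6, p6, b6⟩ := cobnd_bd hF.h1 (216 + W)
  obtain ⟨N7, p7, b7⟩ := cobnd_bd hF.h2 (216 + W)
  obtain ⟨C1, hC1⟩ : ∃ C1, C1 = 36 * N1 + (N2 + W * N5) + 6 * (N3 + W * N6) +
    36 * (N4 + W * N7) := ⟨_, rfl⟩
  obtain ⟨C2, hC2⟩ : ∃ C2, C2 = N0 * (24021 + 49 * W) := ⟨_, rfl⟩
  have c1 : 0 ≤ C1 := by rw [hC1]; positivity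
  have c2 : 0 ≤ C2 := by rw [hC2]; positivity
  refine ⟨N0 + C1 + C2, fun x p A B u hs h1 hM => ?_⟩
  obtain ⟨w0, hv, hρ, hF1, hG0, hG1, hG2, hgr⟩ := h_cogr 6 F x p A B u hF hs h1
  have wW : √(nA A) ≤ W := hW ▸ Real.sqrt_le_sqrt hM
  have hA : ∀ i j, |A i j| ≤ √(nA A) := fun i j => Real.abs_le_sqrt
    ((Finset.single_le_sum (f := fun j => A i j ^ 2) (fun _ _ => sq_nonneg _)
      (Finset.mem_univ j)).trans (Finset.single_le_sum (f := fun i => ∑ j, A i j ^ 2)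
        (fun _ _ => Finset.sum_nonneg fun _ _ => sq_nonneg _) (Finset.mem_univ i)))
  have hn := Real.sq_sqrt (Real.sqrt_pos.1 w0).le
  obtain ⟨w, hw⟩ : ∃ w, √(nA A) = w := ⟨_, rfl⟩
  obtain ⟨v, hz⟩ : ∃ v, nz (inv x p A u) = v := ⟨_, rfl⟩
  rw [hw] at w0 wW hA hn
  rw [hw, hz] at hv hρ hF1 hG0 hG1 hG2 hgr
  rw [hw]
  obtain ⟨S, hS⟩ : ∃ S, ‖B‖ + w = S := ⟨_, rfl⟩
  rw [hS]
  have hB : ∀ i j k, |B i j k| ≤ S := fun i j k =>
    ((norm_le_pi_norm (B i j) k).trans ((norm_le_pi_norm (B i) j).trans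
      (norm_le_pi_norm B i))).trans (hS ▸ le_add_of_nonneg_right w0.le)
  have wS : |w| ≤ S := (abs_of_pos w0).trans_le (hS ▸ le_add_of_nonneg_left (norm_nonneg _))
  have ww : |w| ≤ W := (abs_of_pos w0).trans_le wW
  have S0 : 0 ≤ S := (abs_nonneg _).trans wS
  have hp := cobnd_one hs.p1
  have hx := cobnd_one h1.le
  have us := cobnd_u hs h1
  have hu : |u| ≤ 1 := (sq_le_one_iff_abs_le_one _).1 (us.trans hs.p1)
  have hQ : ∀ i j, |sqA A i j| ≤ 6 * (w * w) := fun i j =>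
    cobnd_sum fun k => cobnd_mul (hA i k) (hA k j)
  have t0 : |tA A / w ^ 3| ≤ 216 := cobnd_div (pow_pos w0 3)
    ((cobnd_sum fun i => cobnd_sum fun j => cobnd_mul (hQ i j) (hA i j)).trans_eq (by ring))
  have t1 : ∀ k, |ct A B k / w| ≤ 36 * S := fun k => cobnd_div w0
    ((cobnd_sum fun i => cobnd_sum fun j => cobnd_mul (hA i j) (hB i j k)).trans_eq (by ring))
  have t2 : ∀ k, |ct (sqA A) B k / w ^ 2| ≤ 216 * S := fun k => cobnd_div (pow_pos w0 2)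
    ((cobnd_sum fun i => cobnd_sum fun j => cobnd_mul (hQ i j) (hB i j k)).trans_eq (by ring))
  have t3 : ∀ k, |ap A p k / w| ≤ 6 := fun k => cobnd_div w0
    ((cobnd_sum fun j => cobnd_mul (hA k j) (hp j)).trans_eq (by ring))
  have t4 : ∀ k, |ap (sqA A) p k / w ^ 2| ≤ 36 := fun k => cobnd_div (pow_pos w0 2)
    ((cobnd_sum fun j => cobnd_mul (hQ k j) (hp j)).trans_eq (by ring))
  have v0 : 0 ≤ v 0 := by
    rw [hv]
    exact mul_nonneg hs.u0 w0.le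
  have vn : ‖v‖ ≤ 216 + W := by
    refine (pi_norm_le_iff_of_nonneg (by positivity)).2 fun i => ?_
    rw [hv, Real.norm_eq_abs]
    fin_cases i
    · exact (cobnd_mul hu ww).trans (by linarith)
    · refine abs_le.2 ⟨?_, ?_⟩
      · exact le_trans (by linarith) (sub_nonneg.2 us)
      · exact ((sub_le_self _ (sq_nonneg u)).trans hs.p1).trans (by linarith)
    · exact hu.trans (by linarith)
    · exact t0.trans (by linarith)
  obtain ⟨f0, d0⟩ := b0 v vn v0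
  have k0 : N0 * S ≥ 0 := mul_nonneg p0 S0
  have k1 : C1 * S ≥ 0 := mul_nonneg c1 S0
  have k2 : C2 * S ≥ 0 := mul_nonneg c2 S0
  refine ⟨?_, (pi_norm_le_iff_of_nonneg (by positivity)).2 fun k => ?_,
    (pi_norm_le_iff_of_nonneg (by positivity)).2 fun k => ?_⟩
  · rw [hρ, mul_comm]
    exact mul_le_mul_of_nonneg_right ((le_abs_self _).trans (f0.trans (by linarith))) w0.le
  · have e : vf (co F) x p A B u k = F.f1 v * (ct A B k / w) +
        (F.g0 v + w * F.h0 v) * (w * p k) + (F.g1 v + w * F.h1 v) * (w * (ap A p k / w)) +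
        (F.g2 v + w * F.h2 v) * (w * (ap (sqA A) p k / w ^ 2)) := by
      have : (co F).F2 (inv x p A u) = 0 := rfl
      rw [vf, hF1, hG0, hG1, hG2, this]
      field_simp
      ring
    rw [e, Real.norm_eq_abs]
    refine (cobnd_add (cobnd_add (cobnd_add (cobnd_mul (b1 v vn v0).1 (t1 k))
      (cobnd_mul (cobnd_add (b2 v vn v0).1 (cobnd_mul ww (b5 v vn v0).1)) (cobnd_mul wS (hp k))))
      (cobnd_mul (cobnd_add (b3 v vn v0).1 (cobnd_mul ww (b6 v vn v0).1)) (cobnd_mul wS (t3 k))))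
      (cobnd_mul (cobnd_add (b4 v vn v0).1 (cobnd_mul ww (b7 v vn v0).1))
        (cobnd_mul wS (t4 k)))).trans (le_trans (le_of_eq (b := C1 * S) ?_) (by linarith))
    rw [hC1]
    ring
  · have a2 : |(2 : ℝ)| ≤ 2 := by norm_num
    have a3 : |(3 : ℝ)| ≤ 3 := by norm_num
    have e : gr (co F).ρ x p A B u k = F.f0 v * (ct A B k / w - 3 * (w * x k)) +
        d4 F.f0 0 v * (u * (w * (ct A B k / w)) + w * (w * p k)) +
        d4 F.f0 1 v * (2 * (w * (w * (ap A p k / w)) - w * (u * (p k - u * x k)))) +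
        d4 F.f0 2 v * (w * (p k - u * x k)) +
        d4 F.f0 3 v * (3 * (ct (sqA A) B k / w ^ 2 - tA A / w ^ 3 * (ct A B k / w))) := by
      rw [(hgr k).1, lw, gf, hw, hz, ← hn]
      field_simp
      ring
    have a4 := cobnd_sub (hp k) (cobnd_mul hu (hx k))
    rw [e, Real.norm_eq_abs]
    refine (cobnd_add (cobnd_add (cobnd_add (cobnd_add
      (cobnd_mul f0 (cobnd_sub (t1 k) (cobnd_mul a3 (cobnd_mul wS (hx k)))))
      (cobnd_mul (d0 0) (cobnd_add (cobnd_mul hu (cobnd_mul ww (t1 k)))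
        (cobnd_mul ww (cobnd_mul wS (hp k))))))
      (cobnd_mul (d0 1) (cobnd_mul a2 (cobnd_sub (cobnd_mul ww (cobnd_mul wS (t3 k)))
        (cobnd_mul wS (cobnd_mul hu a4))))))
      (cobnd_mul (d0 2) (cobnd_mul wS a4)))
      (cobnd_mul (d0 3) (cobnd_mul a3 (cobnd_sub (t2 k) (cobnd_mul t0 (t1 k)))))).trans
        (le_trans (le_of_eq (b := C2 * S) ?_) (by linarith))
    rw [hC2]
    ring

end Vale.Agent.P098
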