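import Vale.Agent.P098.CoSm
import Vale.Agent.P098.Scale

open MeasureTheory Set Metric Filter
open scoped ContDiff RealInnerProductSpace Topology NNReal

noncomputable section
namespace Vale.Agent.P098

theorem cogr_lin {m : ℕ} (T : (Fin m → ℝ) →L[ℝ] ℝ) (y : Fin m → ℝ) :
    T y = ∑ a, T (Pi.single a 1) * y a := by
  conv_lhs => rw [pi_eq_sum_univ' y, map_sum]
  exact Finset.sum_congr rfl fun a _ => by rw [map_smul, smul_eq_mul, mul_comm]

/-- `d` is the derivative of `f` at `z` in the direction `g`. -/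
def cogrL (z g : Fin 5 → ℝ) (f : (Fin 5 → ℝ) → ℝ) (d : ℝ) : Prop :=
  HasDerivAt (fun s : ℝ => f (z + s • g)) d 0

theorem cogr_line (z g : Fin 5 → ℝ) : HasDerivAt (fun s : ℝ => z + s • g) g 0 := by
  simpa using ((hasDerivAt_id (0 : ℝ)).smul_const g).const_add z

theorem cogr_eq {z g : Fin 5 → ℝ} {f : (Fin 5 → ℝ) → ℝ} {d : ℝ} (hf : ContDiffOn ℝ 1 f Dom)
    (hz : z ∈ Dom) (h : cogrL z g f d) : ∑ a, dd f a z * g a = d := by
  have h1 : HasFDerivAt f (fderiv ℝ f z) (z + (0 : ℝ) • g) := by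
    rw [zero_smul, add_zero]
    exact ((hf.differentiableOn one_ne_zero z hz).differentiableAt
      (scale_open.mem_nhds hz)).hasFDerivAt
  exact (cogr_lin _ g).symm.trans ((h1.comp_hasDerivAt (0 : ℝ) (cogr_line z g)).unique h)

variable {z g : Fin 5 → ℝ} {f f' : (Fin 5 → ℝ) → ℝ} {d d' : ℝ}

theorem cogr_c (a : Fin 5) : cogrL z g (fun z => z a) (g a) := hasDerivAt_pi.1 (cogr_line z g) a

theorem cogrL.add (h : cogrL z g f d) (h' : cogrL z g f' d') :
    cogrL z g (fun z => f z + f' z) (d + d') := HasDerivAt.fun_add h h'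

theorem cogrL.sub (h : cogrL z g f d) (h' : cogrL z g f' d') :
    cogrL z g (fun z => f z - f' z) (d - d') := HasDerivAt.fun_sub h h'

theorem cogrL.mul (h : cogrL z g f d) (h' : cogrL z g f' d') :
    cogrL z g (fun z => f z * f' z) (d * f' z + f z * d') := by
  simpa [cogrL] using HasDerivAt.fun_mul h h'

theorem cogrL.pow (h : cogrL z g f d) (k : ℕ) :
    cogrL z g (fun z => f z ^ k) (k * f z ^ (k - 1) * d) := by
  simpa [cogrL] using HasDerivAt.fun_pow h k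

theorem cogrL.div (h : cogrL z g f d) (h' : cogrL z g f' d') (h0 : f' z ≠ 0) :
    cogrL z g (fun z => f z / f' z) ((d * f' z - f z * d') / f' z ^ 2) := by
  simpa [cogrL] using HasDerivAt.fun_div h h' (by simpa using h0)

theorem cogrL.sqrt (h : cogrL z g f d) (h0 : f z ≠ 0) :
    cogrL z g (fun z => √(f z)) (d / (2 * √(f z))) := by
  simpa [cogrL] using HasDerivAt.sqrt h (by simpa using h0)

theorem cogrL.cast (h : cogrL z g f d) (e : d = d') : cogrL z g f d' := e ▸ h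

theorem cogr_D4 : IsOpen D4 := isOpen_lt continuous_const (continuous_apply 0)

theorem cogr_s4 (h4 : z 4 = 1) : cogrL z g (fun z => √(z 4)) (g 4 / 2) :=
  ((cogr_c 4).sqrt (by rw [h4]; exact one_ne_zero)).cast (by rw [h4, Real.sqrt_one, mul_one])

theorem cogr_comp {φ : F4} (hφ : ContDiffOn ℝ 1 φ D4) (hz : z ∈ Dom) (h4 : z 4 = 1) :
    cogrL z g (fun z => φ (nz z))
      (d4 φ 0 (nz z) * (z 3 * (g 0 / 2) / √(z 0) + √(z 0) * g 3) +
        d4 φ 1 (nz z) * (g 2 - 2 * z 3 * (g 3 - z 3 * (g 4 / 2))) +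
        d4 φ 2 (nz z) * (g 3 - z 3 * (g 4 / 2)) +
        d4 φ 3 (nz z) * (g 1 / √(z 0) ^ 3 - 3 * (z 1 / √(z 0) ^ 3) * (g 0 / 2 / z 0))) := by
  have w0 := (cosm_p0 hz).ne'
  have s0 : cogrL z g (fun z => √(z 0)) _ := (cogr_c 0).sqrt hz.1.ne'
  have h1 : HasDerivAt (fun s : ℝ => nz (z + s • g))
      ![z 3 * (g 0 / 2) / √(z 0) + √(z 0) * g 3, g 2 - 2 * z 3 * (g 3 - z 3 * (g 4 / 2)),
        g 3 - z 3 * (g 4 / 2), g 1 / √(z 0) ^ 3 - 3 * (z 1 / √(z 0) ^ 3) * (g 0 / 2 / z 0)] 0 := by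
    refine hasDerivAt_pi.2 fun a => ?_
    fin_cases a
    · refine ((cogr_c 3).mul s0).cast ?_
      simp only [Fin.zero_eta, Matrix.cons_val_zero]
      field_simp
      ring
    · refine ((cogr_c 2).sub (((cogr_c 3).pow 2).div (cogr_c 4) hz.2.1.ne')).cast ?_
      simp only [Fin.mk_one, Matrix.cons_val_one, Matrix.cons_val_zero, h4]
      ring
    · refine ((cogr_c 3).div (cogr_s4 h4) (cosm_p4 hz).ne').cast ?_
      simp only [Fin.reduceFinMk, Matrix.cons_val, h4, Real.sqrt_one]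
      ring
    · refine ((cogr_c 1).div (s0.pow 3) (pow_ne_zero 3 w0)).cast ?_
      simp only [Fin.reduceFinMk, Matrix.cons_val]
      have e := Real.sq_sqrt hz.1.le
      generalize √(z 0) = w at w0 e
      rw [← e]
      field_simp
      ring
  have h2 : HasFDerivAt φ (fderiv ℝ φ (nz z)) (nz (z + (0 : ℝ) • g)) := by
    rw [zero_smul, add_zero]
    exact ((hφ.differentiableOn one_ne_zero _ hz.2.2).differentiableAt
      (cogr_D4.mem_nhds hz.2.2)).hasFDerivAt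
  refine cogrL.cast (h2.comp_hasDerivAt (0 : ℝ) h1) ?_
  rw [cogr_lin, Fin.sum_univ_four]
  rfl

theorem cogr_ww (hz : z ∈ Dom) (h4 : z 4 = 1) :
    cogrL z g ww (√(z 0) * (g 0 / 2 / z 0 + g 4 / 2)) := by
  refine (((cogr_c 0).sqrt hz.1.ne').mul (cogr_s4 h4)).cast ?_
  have w0 := (cosm_p0 hz).ne'
  have e := Real.sq_sqrt hz.1.le
  rw [h4, Real.sqrt_one]
  generalize √(z 0) = w at w0 e
  rw [← e]
  field_simp

theorem cogr : S_cogr := by
  intro n F x p A B u hF hs h1 w z v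
  have hz : z ∈ Dom := scale_dom hs
  have h4 : z 4 = 1 := h1
  have w0 : 0 < w := cosm_p0 hz
  have w1 := w0.ne'
  have s4 : √(z 4) = 1 := by rw [h4, Real.sqrt_one]
  have ew : ww z = w := by
    rw [ww, s4, mul_one]
    rfl
  have ev : nz z = v := rfl
  obtain ⟨⟨m0, m1, -, m2, m3, m4⟩, -⟩ := cosm F hF
  refine ⟨w0, ?_, ?_, ?_, ?_, ?_, ?_, fun k => ?_⟩
  · rw [← ev, nz, s4, h4, div_one, div_one]
    rfl
  · simp only [co, ew, ev, h4, one_pow, div_one]
  · simp only [co, ew, ev, h4, mul_one]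
  · simp only [co, ew, ev, s4, one_pow, div_one]
  · simp only [co, ew, ev, h4, one_pow, div_one]
  · simp only [co, ew, ev, s4, one_pow, mul_one]
  set g : Fin 5 → ℝ := fun a => ginv x p A B a k with hg
  have g0 : g 0 / 2 = ct A B k := mul_div_cancel_left₀ _ two_ne_zero
  have g4 : g 4 / 2 = x k := mul_div_cancel_left₀ _ two_ne_zero
  have c4 : cogrL z g (fun z => z 4) (2 * x k) := cogr_c 4
  have r4 : cogrL z g (fun z => √(z 4)) (x k) := (cogr_s4 h4).cast g4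
  have W : cogrL z g ww (w * lw x A B k) := (cogr_ww hz h4).cast (by rw [g0, g4]; rfl)
  have G : ∀ {φ : F4}, ContDiffOn ℝ 1 φ D4 → cogrL z g (fun z => φ (nz z)) (gf φ x p A B u k) :=
    fun hφ => (cogr_comp hφ hz h4).cast (by rw [g0, g4]; rfl)
  have n4 : z 4 ≠ 0 := hz.2.1.ne'
  have n5 : √(z 4) ≠ 0 := (cosm_p4 hz).ne'
  have n6 : ww z ≠ 0 := (cosm_pw hz).ne'
  refine ⟨cogr_eq m0 hz (((W.mul (G hF.f0)).div (c4.pow 2) (pow_ne_zero 2 n4)).cast ?_),
    cogr_eq m1 hz (((G hF.f1).div (W.mul c4) (mul_ne_zero n6 n4)).cast ?_),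
    cogr_eq contDiffOn_const hz (hasDerivAt_const _ _),
    cogr_eq m2 hz (((W.mul ((G hF.g0).add (W.mul (G hF.h0)))).div (r4.pow 5)
      (pow_ne_zero 5 n5)).cast ?_),
    cogr_eq m3 hz ((((G hF.g1).add (W.mul (G hF.h1))).div (c4.pow 2) (pow_ne_zero 2 n4)).cast ?_),
    cogr_eq m4 hz ((((G hF.g2).add (W.mul (G hF.h2))).div (W.mul (r4.pow 3))
      (mul_ne_zero n6 (pow_ne_zero 3 n5))).cast ?_)⟩ <;>
  simp only [gfb, ew, h4, Real.sqrt_one, show √(nA A) = w from rfl,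
    show nz (inv x p A u) = v from rfl, ev] <;>
  field_simp <;>
  ring

end Vale.Agent.P098
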