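import Vale.Agent.P098.CertDefs

/-!
# P098: the interior inequality from the reduced quadratic form
-/

open MeasureTheory Set Metric Filter
open scoped ContDiff RealInnerProductSpace Topology NNReal

noncomputable section
namespace Vale.Agent.P098

section gen
variable {n : ℕ}

theorem coint_nB {A : T2 n} {B : T3 n} (h : SymTr A B) :
    ∑ k, (3 * ∑ i, B i i k ^ 2 - 2 * B k k k ^ 2) ≤ nB B := by
  have h1 : ∑ i, ∑ j, ∑ k, ((if i = j then B i j k ^ 2 else 0) + (if j = k then B i j k ^ 2 else 0) +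
      (if i = k then B i j k ^ 2 else 0) -
        2 * (if i = j then (if j = k then B i j k ^ 2 else 0) else 0)) ≤ nB B := by
    refine Finset.sum_le_sum fun i _ => Finset.sum_le_sum fun j _ => Finset.sum_le_sum fun k _ => ?_
    have := sq_nonneg (B i j k)
    split_ifs <;> first | linarith | omega
  have e1 : ∑ i, ∑ j, ∑ k, (if i = j then B i j k ^ 2 else 0) = ∑ k, ∑ i, B i i k ^ 2 := by
    rw [Finset.sum_comm (f := fun k i => B i i k ^ 2)]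
    simp
  have e2 : ∑ i, ∑ j, ∑ k, (if j = k then B i j k ^ 2 else 0) = ∑ k, ∑ i, B i i k ^ 2 := by
    simp only [Finset.sum_ite_eq, Finset.mem_univ, if_true]
    exact Finset.sum_congr rfl fun i _ => Finset.sum_congr rfl fun j _ => by
      rw [h.b1 i j j, h.b2 j i j]
  have e3 : ∑ i, ∑ j, ∑ k, (if i = k then B i j k ^ 2 else 0) = ∑ k, ∑ i, B i i k ^ 2 := by
    simp only [Finset.sum_ite_eq, Finset.mem_univ, if_true]
    rw [Finset.sum_comm]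
    exact Finset.sum_congr rfl fun i _ => Finset.sum_congr rfl fun j _ => by rw [h.b2 j i j]
  have e4 : ∑ i, ∑ j, ∑ k, (if i = j then (if j = k then B i j k ^ 2 else 0) else 0) =
      ∑ k, B k k k ^ 2 := by
    simp
  simp only [Finset.sum_sub_distrib, Finset.sum_add_distrib, ← Finset.mul_sum] at h1 ⊢
  rw [e1, e2, e3, e4] at h1
  linarith

theorem coint_sq (a : T1 n) : sqA (dg a) = dg fun i => a i ^ 2 := by
  funext i j
  by_cases h : i = j <;> simp [sqA, dg, h, sq]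

theorem coint_nA (a : T1 n) : nA (dg a) = ∑ i, a i ^ 2 := by
  simp [nA, dg]

theorem coint_tA (a : T1 n) : tA (dg a) = ∑ i, a i ^ 3 := by
  simp [tA, coint_sq, dg, pow_succ]

theorem coint_ct (a : T1 n) (B : T3 n) (k : Fin n) : ct (dg a) B k = ∑ i, a i * B i i k := by
  simp [ct, dg]

theorem coint_ap (a p : T1 n) (k : Fin n) : ap (dg a) p k = a k * p k := by
  simp [ap, dg]

variable {x p : T1 n} {A : T2 n} {B : T3 n} {u w : ℝ} {v : Fin 4 → ℝ} {k : Fin n}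

theorem coint_gf (hv : nz (inv x p A u) = v) (hw : √(nA A) = w) (w0 : w ≠ 0)
    (hn : nA A = w ^ 2) (v0 : v 0 = u * w) (v2 : v 2 = u) (v3 : v 3 = tA A / w ^ 3)
    {y L1 L2 : ℝ} (hx : x k = 0) (h1 : ct A B k = w ^ 2 * L1) (h2 : ct (sqA A) B k = w ^ 3 * L2)
    (h3 : ap A p k = w * y * p k) : lw x A B k = L1 ∧
      (∀ f, gf f x p A B u k = tg f v y w L1 L2 (p k)) ∧
      ∀ g h, gfb g h x p A B u k = tgb g h v y w L1 L2 (p k) := by
  have a1 : lw x A B k = L1 := by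
    rw [lw, hn, hx, h1]
    field_simp
    ring
  have a2 : ∀ f, gf f x p A B u k = tg f v y w L1 L2 (p k) := fun f => by
    rw [gf, tg, hv, hw, hn, hx, h1, h2, h3, v0, v2, v3]
    field_simp
    ring
  exact ⟨a1, a2, fun g h => by rw [gfb, tgb, a1, a2, a2, hv, hw]⟩

theorem coint_gf0 (hw : √(nA A) = w) (w0 : w ≠ 0) (hn : nA A = w ^ 2) (hx : x k = 1)
    (hp : p k = u) (h1 : ct A B k = -w ^ 2) (h2 : ct (sqA A) B k = -tA A) (h3 : ap A p k = 0) :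
    lw x A B k = 0 ∧ (∀ f, gf f x p A B u k = 0) ∧ ∀ g h, gfb g h x p A B u k = 0 := by
  have a1 : lw x A B k = 0 := by
    rw [lw, hn, hx, h1]
    field_simp
    ring
  have a2 : ∀ f, gf f x p A B u k = 0 := fun f => by
    rw [gf, hw, hn, hx, h1, h2, h3, hp]
    field_simp
    ring
  exact ⟨a1, a2, fun g h => by rw [gfb, a1, a2, a2]; ring⟩

end gen

theorem coint_split (k : Fin 5) (g : Fin 6 → ℝ) :
    ∑ i, g i = g 0 + (g k.succ + ∑ j : Fin 4, g (k.succAbove j).succ) := by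
  rw [Fin.sum_univ_succ, Fin.sum_univ_succAbove _ k]

theorem coint_dir (p : Fin 5 → ℝ) : ∃ (q : ℝ) (z : Fin 5 → ℝ), 0 ≤ q ∧ q ^ 2 = ∑ k, p k ^ 2 ∧
    ∑ k, z k ^ 2 = 1 ∧ ∀ k, q * z k = p k := by
  have h0 : 0 ≤ ∑ k, p k ^ 2 := Finset.sum_nonneg fun _ _ => sq_nonneg _
  rcases h0.eq_or_lt with h | h
  · refine ⟨0, Pi.single 0 1, le_rfl, by rw [← h]; ring, by simp [Fin.sum_univ_five], fun k => ?_⟩
    rw [zero_mul, eq_comm, ← sq_eq_zero_iff]
    exact (Finset.sum_eq_zero_iff_of_nonneg fun _ _ => sq_nonneg _).1 h.symm k (Finset.mem_univ _)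
  · have h1 := Real.sqrt_pos.2 h
    refine ⟨√(∑ k, p k ^ 2), fun k => p k / √(∑ k, p k ^ 2), h1.le, Real.sq_sqrt h0, ?_,
      fun k => mul_div_cancel₀ _ h1.ne'⟩
    simp only [div_pow, Real.sq_sqrt h0, ← Finset.sum_div]
    exact div_self h.ne'

theorem coint_block (h_shape : S_shape) {a : T1 6} {b : T1 6} {w : ℝ} (w0 : 0 < w) (k : Fin 5)
    (a0 : a 0 = 0) (b0 : b 0 = 0) (sa : ∑ i, a i = 0) (sb : ∑ i, b i = 0)
    (hn : ∑ i, a i ^ 2 = w ^ 2) : ∃ β c b0 b1 ζ : ℝ, Shape (a k.succ / w) β c ∧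
      (∑ i, a i ^ 3) / w ^ 3 = sτ (a k.succ / w) β c ∧
      ∑ i, a i * b i = w ^ 2 * l1 (a k.succ / w) β b0 b1 ∧
      ∑ i, a i ^ 2 * b i = w ^ 3 * l2 (a k.succ / w) β c b0 b1 ζ ∧
      w ^ 2 * (7 * b0 ^ 2 + 3 * b1 ^ 2 + 3 * ζ ^ 2) ≤ 3 * ∑ i, b i ^ 2 - 2 * b k.succ ^ 2 := by
  have w1 := w0.ne'
  simp only [coint_split k, a0, b0, Fin.sum_univ_four] at sa sb hn ⊢
  obtain ⟨β, c, b0, b1, ζ, s0, s1, s2, s3, s4⟩ := h_shape (a k.succ / w)
    (fun j => a (k.succAbove j).succ / w) (fun j => b (k.succAbove j).succ / w)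
    (by rw [Fin.sum_univ_four]; field_simp; linarith)
    (by rw [Fin.sum_univ_four]; field_simp; linarith)
  simp only [Fin.sum_univ_four] at s1 s2 s3 s4
  have e : b k.succ = -(b (k.succAbove 0).succ + b (k.succAbove 1).succ +
      b (k.succAbove 2).succ + b (k.succAbove 3).succ) := by linarith
  refine ⟨β, c, b0, b1, ζ, s0, ?_, ?_, ?_, (mul_le_mul_of_nonneg_left s4 (sq_nonneg w)).trans_eq ?_⟩
  · rw [← s1]
    field_simp
    ring
  · rw [← s2, e]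
    field_simp
    ring
  · rw [← s3, e]
    field_simp
    ring
  · rw [e]
    field_simp
    ring

theorem coint_main (h_cogr : S_cogr) (h_shape : S_shape) {F : Fam} (hF : F.Sm) {c₀ : ℝ}
    (c0 : 0 < c₀) (hR : ∀ x β c w u q : ℝ, Shape x β c → Phys w u q →
      ∀ b0 b1 ζ ξ z : ℝ, c₀ * (ξ ^ 2 + z ^ 2) ≤ form F x β c w u q b0 b1 ζ ξ z)
    {a p : T1 6} {B : T3 6} {u : ℝ} (hs : St (e0 5) p (dg a) B u) :
    0 < (co F).ρ (inv (e0 5) p (dg a) u) ∧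
      (∑ k, gr (co F).ρ (e0 5) p (dg a) B u k ^ 2) / (4 * (co F).ρ (inv (e0 5) p (dg a) u)) +
        c₀ * √(nA (dg a)) ≤ dv (co F) (e0 5) p (dg a) B u := by
  obtain ⟨w0, hv, hρ, hF1, -, hG1, hG2, hgr⟩ := h_cogr 6 F (e0 5) p (dg a) B u hF hs (by simp [e0])
  obtain ⟨w, hw⟩ : ∃ w, √(nA (dg a)) = w := ⟨_, rfl⟩
  obtain ⟨v, hz⟩ : ∃ v, nz (inv (e0 5) p (dg a) u) = v := ⟨_, rfl⟩
  rw [hw] at w0
  rw [hw, hz] at hv hρ hF1 hG1 hG2 hgr
  have w1 := w0.ne'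
  have hn : nA (dg a) = w ^ 2 := by
    rw [← hw, Real.sq_sqrt (Real.sqrt_pos.1 (hw ▸ w0)).le]
  have hn' : ∑ i, a i ^ 2 = w ^ 2 := (coint_nA a).symm.trans hn
  have a0 : a 0 = 0 := by simpa [dg, e0] using hs.ax 0
  have sa : ∑ i, a i = 0 := by simpa [dg] using hs.st.ta
  have p0 : p 0 = u := by simpa [e0] using hs.px
  have B0 : ∀ i j, B i j 0 = -dg a i j := fun i j => by simpa [e0] using hs.bx i j
  have Bd : ∀ i, B i i 0 = -a i := fun i => by rw [B0, dg, if_pos rfl]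
  have B00 : ∀ k : Fin 5, B 0 0 k.succ = 0 := fun k => by
    rw [hs.st.b2, B0, dg, if_neg (Fin.succ_ne_zero k).symm, neg_zero]
  obtain ⟨q, z, q0, q2, z1, qz⟩ := coint_dir fun k => p k.succ
  have sp : ∑ i, p i ^ 2 = q ^ 2 + u ^ 2 := by rw [Fin.sum_univ_succ, p0, q2, add_comm]
  have ph : Phys w u q := ⟨w0, hs.u0, q0, by
    have h1 := hs.uw
    rw [sp, ← nA, hn] at h1
    push_cast at h1
    nlinarith⟩
  choose β c b0 b1 ζ s0 s1 s2 s3 s4 using fun k : Fin 5 =>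
    coint_block h_shape (b := fun i => B i i k.succ) w0 k a0 (B00 k) sa (hs.st.tb _) hn'
  have hv' : ∀ k, ![u * w, q ^ 2, u, sτ (a k.succ / w) (β k) (c k)] = v := fun k => by
    rw [hv, sp, ← s1, coint_tA, add_sub_cancel_right]
  have f0 : c₀ ≤ F.f0 v := by
    rw [← hv' 0]
    simpa [form, blk, tg, tgb, l1, l2] using hR _ _ _ w u q (s0 0) ph 0 0 0 1 0
  have f1 : 0 ≤ F.f1 v := by
    rw [← hv' 0]
    simpa [form, blk, l1] using hR _ _ _ w u q (s0 0) ph 0 0 1 0 0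
  have f0' := c0.trans_le f0
  obtain ⟨L1, hL1⟩ : ∃ L1 : Fin 5 → ℝ, ∀ k, l1 (a k.succ / w) (β k) (b0 k) (b1 k) = L1 k :=
    ⟨_, fun _ => rfl⟩
  obtain ⟨L2, hL2⟩ : ∃ L2 : Fin 5 → ℝ,
    ∀ k, l2 (a k.succ / w) (β k) (c k) (b0 k) (b1 k) (ζ k) = L2 k := ⟨_, fun _ => rfl⟩
  obtain ⟨Q, hQ⟩ : ∃ Q : Fin 5 → ℝ, ∀ k, 7 * b0 k ^ 2 + 3 * b1 k ^ 2 + 3 * ζ k ^ 2 = Q k :=
    ⟨_, fun _ => rfl⟩
  obtain ⟨X, hX⟩ : ∃ X : Fin 5 → ℝ, ∀ k,
    F.f0 v * L1 k + tg F.f0 v (a k.succ / w) w (L1 k) (L2 k) (p k.succ) = X k := ⟨_, fun _ => rfl⟩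
  obtain ⟨T, hT⟩ : ∃ T : Fin 5 → ℝ, ∀ k, T k = blk F v (a k.succ / w) w 0 (L1 k) (L2 k) (p k.succ) -
    (F.g2 v + w * F.h2 v) * (L1 k * p k.succ) := ⟨_, fun _ => rfl⟩
  have key : ∀ k, c₀ * z k ^ 2 ≤ F.f1 v * Q k + T k + (F.g2 v + w * F.h2 v) * (L1 k * p k.succ) -
      X k ^ 2 / (4 * F.f0 v) + z k ^ 2 * zz F v w := fun k => by
    have h1 := hR _ _ _ w u q (s0 k) ph (b0 k) (b1 k) (ζ k) (X k / (2 * F.f0 v)) (z k)
    rw [form, hv', hL1, hL2, hQ, qz, hX] at h1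
    refine le_trans (mul_le_mul_of_nonneg_left (le_add_of_nonneg_left (sq_nonneg _)) c0.le)
      (h1.trans_eq ?_)
    rw [hT, blk, blk]
    field_simp
    ring
  have c1 : ∀ k : Fin 5, ct (dg a) B k.succ = w ^ 2 * L1 k := fun k => by
    rw [coint_ct, s2, hL1]
  have c2 : ∀ k : Fin 5, ct (sqA (dg a)) B k.succ = w ^ 3 * L2 k := fun k => by
    rw [coint_sq, coint_ct, s3, hL2]
  have c3 : ∀ k : Fin 5, ap (dg a) p k.succ = w * (a k.succ / w) * p k.succ := fun k => by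
    rw [coint_ap, mul_div_cancel₀ _ w1]
  have c4 : ∀ k : Fin 5, ap (sqA (dg a)) p k.succ = w ^ 2 * (a k.succ / w) ^ 2 * p k.succ :=
    fun k => by rw [coint_sq, coint_ap, ← mul_pow, mul_div_cancel₀ _ w1]
  have x1 : ∀ k : Fin 5, e0 5 k.succ = 0 := fun k => if_neg (Fin.succ_ne_zero k)
  have x0 : e0 5 0 = 1 := if_pos rfl
  have d1 : ct (dg a) B 0 = -w ^ 2 := by
    simp only [coint_ct, Bd, ← hn', mul_neg, Finset.sum_neg_distrib, sq]
  have d2 : ct (sqA (dg a)) B 0 = -tA (dg a) := by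
    simp only [coint_sq, coint_ct, coint_tA, Bd, mul_neg, Finset.sum_neg_distrib, ← pow_succ]
  have d3 : ap (dg a) p 0 = 0 := by rw [coint_ap, a0, zero_mul]
  have d4 : ap (sqA (dg a)) p 0 = 0 := by
    rw [coint_sq, coint_ap, a0]
    ring
  have v2 : v 2 = u := by rw [hv]; rfl
  have v3 : v 3 = tA (dg a) / w ^ 3 := by rw [hv]; rfl
  have g1 := fun k : Fin 5 => coint_gf hz hw w1 hn (by rw [hv]; rfl) v2 v3 (x1 k) (c1 k) (c2 k) (c3 k)
  obtain ⟨m1, m2, m3⟩ := coint_gf0 (x := e0 5) hw w1 hn x0 p0 d1 d2 d3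
  have hN : w ^ 2 * (3 + ∑ k, Q k) ≤ nB B := by
    refine le_trans ?_ (coint_nB hs.st)
    rw [Fin.sum_univ_succ (n := 5), mul_add, Finset.mul_sum]
    refine add_le_add (le_of_eq ?_) (Finset.sum_le_sum fun k _ => hQ k ▸ s4 k)
    simp only [Bd, neg_sq, hn', a0]
    ring
  have e1 : ∑ k, gr (co F).ρ (e0 5) p (dg a) B u k ^ 2 =
      w ^ 2 * (16 * F.f0 v ^ 2 + ∑ k, X k ^ 2) := by
    rw [Fin.sum_univ_succ, mul_add, Finset.mul_sum, (hgr 0).1, m1, m2, x0]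
    refine congrArg₂ _ (by ring) (Finset.sum_congr rfl fun k _ => ?_)
    rw [(hgr _).1, (g1 k).1, (g1 k).2.1, x1, ← hX]
    ring
  have e2 : ∑ k, ct (dg a) B k * p k = w ^ 2 * (-u + ∑ k, L1 k * p k.succ) := by
    rw [Fin.sum_univ_succ, mul_add, Finset.mul_sum, d1, p0]
    refine congrArg₂ _ (by ring) (Finset.sum_congr rfl fun k _ => ?_)
    rw [c1, mul_assoc]
  have e3 : dv (co F) (e0 5) p (dg a) B u = w * (F.f1 v * (nB B / w ^ 2) +
      w * (F.g1 v + w * F.h1 v) + (F.g2 v + w * F.h2 v) * (-u + ∑ k, L1 k * p k.succ + w * v 3)) +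
      (w * (2 * F.f1 v - 5 * u * (F.g0 v + w * F.h0 v)) + w * ∑ k, T k) := by
    rw [dv, e2, hF1, hG1, hG2, hn, v3, Finset.mul_sum _ T, Fin.sum_univ_succ (n := 5) fun k =>
      gr (co F).F1 (e0 5) p (dg a) B u k * ct (dg a) B k + _ + _ + _ + _]
    refine congrArg₂ _ ?_ (congrArg₂ _ ?_ (Finset.sum_congr rfl fun k _ => ?_))
    · have : (co F).F2 (inv (e0 5) p (dg a) u) = 0 := rfl
      rw [this]
      field_simp
      ring
    · obtain ⟨-, r1, r2, r3, -⟩ := hgr 0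
      rw [r1, r2, r3, d1, d3, d4, m1, m2, m3, x0, p0]
      field_simp
      ring
    · obtain ⟨-, r1, r2, r3, r4, r5⟩ := hgr k.succ
      obtain ⟨n1, n2, n3⟩ := g1 k
      rw [r1, r2, r3, r4, r5, n1, n2, n3, n3, n3, x1, c1, c3, c4, hT, blk]
      generalize a k.succ / w = y
      field_simp
      ring
  refine ⟨hρ ▸ mul_pos w0 f0', ?_⟩
  have k1 := Finset.sum_le_sum fun k (_ : k ∈ Finset.univ) => key k
  simp only [Finset.sum_add_distrib, Finset.sum_sub_distrib, ← Finset.mul_sum, ← Finset.sum_mul,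
    ← Finset.sum_div, z1] at k1
  have k2 : F.f1 v * (3 + ∑ k, Q k) ≤ F.f1 v * (nB B / w ^ 2) :=
    mul_le_mul_of_nonneg_left ((le_div_iff₀' (by positivity)).2 hN) f1
  have e4 : w ^ 2 * (16 * F.f0 v ^ 2 + ∑ k, X k ^ 2) / (4 * (w * F.f0 v)) + c₀ * w =
      w * (4 * F.f0 v + (∑ k, X k ^ 2) / (4 * F.f0 v) + c₀) := by
    field_simp
    ring
  rw [e1, e3, hρ, hw, e4, ← mul_add, ← mul_add]
  refine mul_le_mul_of_nonneg_left ?_ w0.le
  rw [zz, v2] at k1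
  linarith

theorem coint (h_cogr : S_cogr) (h_rot : S_rot) (h_shape : S_shape) : S_coint := by
  intro F hF ⟨c₀, c0, hR⟩
  refine ⟨fun x p A B u hs h1 => ?_, c₀, c0, fun x p A B u hs h1 => ?_⟩
  · obtain ⟨a, p', B', hs', hi, -⟩ := h_rot 5 x p A B u hs h1
    exact hi ▸ (coint_main h_cogr h_shape hF c0 hR hs').1
  · obtain ⟨a, p', B', hs', hi, hc, -⟩ := h_rot 5 x p A B u hs h1
    have h2 := (coint_main h_cogr h_shape hF c0 hR hs').2
    have h3 : nA (dg a) = nA A := congrFun hi 0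
    rwa [hi, (hc _).1, (hc _).2, h3] at h2

end Vale.Agent.P098
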