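import Vale.Agent.P098.CertDefs

open MeasureTheory Set Metric Filter
open scoped ContDiff RealInnerProductSpace Topology NNReal

noncomputable section
namespace Vale.Agent.P098

theorem cosm_c (a : Fin 5) : ContDiffOn ℝ 1 (fun z : Fin 5 → ℝ => z a) Dom :=
  (contDiff_apply ℝ ℝ a).contDiffOn

theorem cosm_s0 : ContDiffOn ℝ 1 (fun z : Fin 5 → ℝ => √(z 0)) Dom :=
  (cosm_c 0).sqrt fun _ hz => hz.1.ne'

theorem cosm_s4 : ContDiffOn ℝ 1 (fun z : Fin 5 → ℝ => √(z 4)) Dom :=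
  (cosm_c 4).sqrt fun _ hz => hz.2.1.ne'

theorem cosm_p0 {z : Fin 5 → ℝ} (hz : z ∈ Dom) : 0 < √(z 0) := Real.sqrt_pos.2 hz.1

theorem cosm_p4 {z : Fin 5 → ℝ} (hz : z ∈ Dom) : 0 < √(z 4) := Real.sqrt_pos.2 hz.2.1

theorem cosm_pw {z : Fin 5 → ℝ} (hz : z ∈ Dom) : 0 < ww z := mul_pos (cosm_p0 hz) (cosm_p4 hz)

theorem cosm_ww : ContDiffOn ℝ 1 ww Dom := cosm_s0.mul cosm_s4

theorem cosm_nz : ContDiffOn ℝ 1 nz Dom := by
  refine contDiffOn_pi.2 fun a => ?_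
  fin_cases a
  · exact (cosm_c 3).mul cosm_s0
  · exact (cosm_c 2).sub (((cosm_c 3).pow 2).div (cosm_c 4) fun _ hz => hz.2.1.ne')
  · exact (cosm_c 3).div cosm_s4 fun _ hz => (cosm_p4 hz).ne'
  · exact (cosm_c 1).div (cosm_s0.pow 3) fun _ hz => (pow_pos (cosm_p0 hz) 3).ne'

theorem cosm_comp {f : F4} (hf : ContDiffOn ℝ 1 f D4) : ContDiffOn ℝ 1 (fun z => f (nz z)) Dom :=
  hf.comp cosm_nz fun _ hz => hz.2.2

theorem cosm_sc0 {t : ℝ} (ht : 0 < t) (z : Fin 5 → ℝ) : √(sc t z 0) = √(z 0) / t := by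
  change √(z 0 / t ^ 2) = _
  rw [Real.sqrt_div' _ (sq_nonneg t), Real.sqrt_sq ht.le]

theorem cosm_sc4 {t : ℝ} (ht : 0 < t) (z : Fin 5 → ℝ) : √(sc t z 4) = t * √(z 4) := by
  change √(t ^ 2 * z 4) = _
  rw [Real.sqrt_mul (sq_nonneg t), Real.sqrt_sq ht.le]

theorem cosm_sc_ww {t : ℝ} (ht : 0 < t) (z : Fin 5 → ℝ) : ww (sc t z) = ww z := by
  rw [ww, ww, cosm_sc0 ht, cosm_sc4 ht]
  field_simp

theorem cosm_sc_nz {t : ℝ} (ht : 0 < t) (z : Fin 5 → ℝ) : nz (sc t z) = nz z := by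
  have hne := ht.ne'
  rw [nz, nz, cosm_sc0 ht, cosm_sc4 ht]
  change ![t * z 3 * (√(z 0) / t), z 2 - (t * z 3) ^ 2 / (t ^ 2 * z 4), t * z 3 / (t * √(z 4)),
    z 1 / t ^ 3 / (√(z 0) / t) ^ 3] = _
  rw [mul_pow, mul_div_mul_left _ _ (pow_ne_zero 2 hne), mul_div_mul_left _ _ hne, div_pow,
    div_div_div_cancel_right₀ (pow_ne_zero 3 hne),
    show t * z 3 * (√(z 0) / t) = z 3 * √(z 0) by field_simp]

theorem cosm : S_cosm := by
  intro F hF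
  refine ⟨⟨?_, ?_, contDiffOn_const, ?_, ?_, ?_⟩, fun t ht z hz => ?_⟩
  · exact (cosm_ww.mul (cosm_comp hF.f0)).div ((cosm_c 4).pow 2)
      fun _ hz => (pow_pos hz.2.1 2).ne'
  · exact (cosm_comp hF.f1).div (cosm_ww.mul (cosm_c 4)) fun _ hz => (mul_pos (cosm_pw hz) hz.2.1).ne'
  · exact (cosm_ww.mul ((cosm_comp hF.g0).add (cosm_ww.mul (cosm_comp hF.h0)))).div (cosm_s4.pow 5)
      fun _ hz => (pow_pos (cosm_p4 hz) 5).ne'
  · exact ((cosm_comp hF.g1).add (cosm_ww.mul (cosm_comp hF.h1))).div ((cosm_c 4).pow 2)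
      fun _ hz => (pow_pos hz.2.1 2).ne'
  · exact ((cosm_comp hF.g2).add (cosm_ww.mul (cosm_comp hF.h2))).div (cosm_ww.mul (cosm_s4.pow 3))
      fun _ hz => (mul_pos (cosm_pw hz) (pow_pos (cosm_p4 hz) 3)).ne'
  · have h1 := ht.ne'
    have h2 := hz.2.1.ne'
    have h3 := (cosm_p4 hz).ne'
    have h4 := (cosm_pw hz).ne'
    have e : sc t z 4 = t ^ 2 * z 4 := rfl
    simp only [co, cosm_sc_ww ht, cosm_sc_nz ht, cosm_sc4 ht]
    simp only [e, mul_zero, true_and]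
    refine ⟨?_, ?_, ?_, ?_, ?_⟩ <;> field_simp

end Vale.Agent.P098
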