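import Vale.Agent.P098.Iface

/-!
# P098: induction on the dimension
-/

open MeasureTheory Set Metric Filter
open scoped ContDiff RealInnerProductSpace Topology NNReal

noncomputable section
namespace Vale.Agent.P098

theorem isOpen_Om {n : ℕ} {u : E n → ℝ} (h : LMin u) : IsOpen (Om u) := by
  obtain ⟨L, hL⟩ := h.lip
  exact isOpen_lt continuous_const hL.continuous

theorem cone_Om {n : ℕ} {u : E n → ℝ} (h : Hom u) (t : ℝ) (x : E n) (ht : 0 < t)
    (hx : x ∈ Om u) : t • x ∈ Om u := by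
  have : u (t • x) = t * u x := h t x ht
  simp only [Om, mem_setOf_eq] at hx ⊢
  rw [this]; positivity

theorem ne_zero_Om {n : ℕ} {u : E n → ℝ} (h : Hom u) {x : E n} (hx : x ∈ Om u) : x ≠ 0 := by
  rintro rfl
  have h2 := h 2 0 (by norm_num)
  simp only [Om, mem_setOf_eq, smul_zero] at hx h2
  linarith

theorem low_dim {n : ℕ} (hn : n ≤ 2) (A : T2 n) (x : E n) (hx : x ≠ 0)
    (ha : ∀ i j, A i j = A j i) (ht : ∑ i, A i i = 0) (hax : ∀ i, ∑ j, A i j * x j = 0) :
    A = 0 := by
  interval_cases n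
  · funext i; exact i.elim0
  · funext i j
    have : i = 0 := Subsingleton.elim _ _
    have : j = 0 := Subsingleton.elim _ _
    subst_vars
    simpa using ht
  · have h0 := hax 0
    have h1 := hax 1
    have hs := ha 0 1
    simp only [Fin.sum_univ_two] at h0 h1 ht
    have hx' : x 0 ^ 2 + x 1 ^ 2 ≠ 0 := by
      intro h
      apply hx
      ext i
      fin_cases i
      · simp; nlinarith [sq_nonneg (x 0), sq_nonneg (x 1)]
      · simp; nlinarith [sq_nonneg (x 0), sq_nonneg (x 1)]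
    have e11 : A 1 1 = -A 0 0 := by linarith
    rw [e11, ← hs] at h1
    have a00 : A 0 0 = 0 := by
      have : A 0 0 * (x 0 ^ 2 + x 1 ^ 2) = 0 := by linear_combination x 0 * h0 - x 1 * h1
      exact (mul_eq_zero.1 this).resolve_right hx'
    have a01 : A 0 1 = 0 := by
      have : A 0 1 * (x 0 ^ 2 + x 1 ^ 2) = 0 := by linear_combination x 1 * h0 + x 0 * h1
      exact (mul_eq_zero.1 this).resolve_right hx'
    funext i j
    fin_cases i <;> fin_cases j <;> simp [a00, a01, e11, ← hs]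

theorem coneFlat (N : ℕ) (h_harm : S_harm) (h_jets : S_jets) (h_flatfin : S_flatfin)
    (h_jetU : S_jetU) (h_reg : S_reg) (h_scale : S_scale) (h_main2 : S_main2)
    (cert : ∀ n, 3 ≤ n → n ≤ N → ∃ c, CertOn n (fun R => R = 1) c) :
    ∀ n, n ≤ N → ConeFlat n := by
  have low : ∀ n, n ≤ 2 → ConeFlat n := by
    intro n hn u hu hh
    refine h_flatfin n u hu hh fun x hx => ?_
    obtain ⟨h1, h2, -⟩ := h_jets n u (Om u) (isOpen_Om hu) (h_harm n u hu) hh (cone_Om hh) x hx
    exact low_dim hn _ x (ne_zero_Om hh hx) h1.a h1.ta h2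
  intro n
  induction n with
  | zero => intro _; exact low 0 (by norm_num)
  | succ n ih =>
    intro hn
    by_cases h2 : n + 1 ≤ 2
    · exact low _ h2
    intro u hu hh
    obtain ⟨c, hc⟩ := cert (n + 1) (by omega) hn
    have hr : Reg u := h_reg _ u (by omega) hu hh (h_jetU n u (ih (by omega)) hu hh)
    exact h_flatfin _ u hu hh (h_main2 _ u c hu hh hr (h_scale _ c hc))

theorem final_of (n : ℕ) (h_step0 : S_step0) (hc : ConeFlat n) (u : E n → ℝ) (hu : GlobalMin u)
    (hh : OneHomog u) :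
    (∀ᵐ x, u x = 0) ∨ ∃ e : E n, ‖e‖ = 1 ∧ ∀ᵐ x, u x = max ⟪x, e⟫ 0 := by
  obtain ⟨v, huv, hv, hvh⟩ := h_step0 n u hu hh
  rcases hc v hv hvh with h | ⟨e, he, h⟩
  · left; filter_upwards [huv] with x hx; rw [hx, h]
  · right; exact ⟨e, he, by filter_upwards [huv] with x hx; rw [hx, h]⟩

end Vale.Agent.P098
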