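import Vale.Agent.P098.Iface

open MeasureTheory Set Metric Filter
open scoped ContDiff RealInnerProductSpace Topology NNReal

noncomputable section
namespace Vale.Agent.P098

variable {n : ℕ}

theorem cont_l2 {F : Type} [NormedAddCommGroup F] (U : Set (E n)) {g : E n → F} (hg : Continuous g)
    (hc : HasCompactSupport g) : MemLp g 2 (volume.restrict U) :=
  (hg.memLp_of_hasCompactSupport hc).restrict U

theorem cont_fd {ψ : E n → ℝ} (h : ContDiff ℝ ∞ ψ) (v : E n) :
    Continuous fun x => fderiv ℝ ψ x v :=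
  (h.continuous_fderiv (by simp)).clm_apply continuous_const

theorem cont_grad_c {f : E n → ℝ} (h : ContDiff ℝ ∞ f) : Continuous (gradient f) :=
  (InnerProductSpace.toDual ℝ (E n)).symm.continuous.comp (h.continuous_fderiv (by simp))

theorem cont_grad_s {f : E n → ℝ} (h : HasCompactSupport f) : HasCompactSupport (gradient f) :=
  (h.fderiv ℝ).comp_left (g := fun L => (InnerProductSpace.toDual ℝ (E n)).symm L) (map_zero _)

theorem cont_grad_inner (f : E n → ℝ) (x v : E n) : ⟪gradient f x, v⟫ = fderiv ℝ f x v := by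
  simp [gradient]

theorem cont_i1 {U : Set (E n)} {u ψ : E n → ℝ} (h : MemLp u 2 (volume.restrict U))
    (hψ : IsTest U ψ) (v : E n) :
    Integrable (fun x => u x * fderiv ℝ ψ x v) (volume.restrict U) :=
  h.integrable_mul (cont_l2 U (cont_fd hψ.1 v) (hψ.2.1.fderiv_apply ℝ v))

theorem cont_i2 {U : Set (E n)} {G : E n → E n} {ψ : E n → ℝ} (h : MemLp G 2 (volume.restrict U))
    (hψ : IsTest U ψ) (v : E n) :
    Integrable (fun x => ⟪G x, v⟫ * ψ x) (volume.restrict U) :=
  (h.inner_const v).integrable_mul (cont_l2 U hψ.1.continuous hψ.2.1)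

theorem cont_sub {U : Set (E n)} {u f : E n → ℝ} {G F : E n → E n} (h1 : IsH1 U u G)
    (h2 : IsH1 U f F) : IsH1 U (u - f) (G - F) := by
  refine ⟨h1.1.sub h2.1, h1.2.1.sub h2.2.1, fun ψ hψ v => ?_⟩
  simp only [Pi.sub_apply, sub_mul, inner_sub_left]
  rw [integral_sub (cont_i1 h1.1 hψ v) (cont_i1 h2.1 hψ v),
    integral_sub (cont_i2 h1.2.1 hψ v) (cont_i2 h2.2.1 hψ v), h1.2.2 ψ hψ v, h2.2.2 ψ hψ v]
  ring

theorem cont_smooth (U : Set (E n)) {f : E n → ℝ} (hf : ContDiff ℝ ∞ f)
    (hc : HasCompactSupport f) : IsH1 U f (gradient f) := by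
  refine ⟨cont_l2 U hf.continuous hc, cont_l2 U (cont_grad_c hf) (cont_grad_s hc),
    fun ψ hψ v => ?_⟩
  have h0 : ∀ x, x ∉ U → ψ x = 0 := fun x hx =>
    image_eq_zero_of_notMem_tsupport fun h => hx (hψ.2.2 h)
  have h1 : ∀ x, x ∉ U → fderiv ℝ ψ x = 0 := fun x hx =>
    image_eq_zero_of_notMem_tsupport fun h => hx (hψ.2.2 (tsupport_fderiv_subset ℝ h))
  rw [setIntegral_eq_integral_of_forall_compl_eq_zero fun x hx => by simp [h1 x hx],
    setIntegral_eq_integral_of_forall_compl_eq_zero fun x hx => by simp [h0 x hx]]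
  simp only [cont_grad_inner]
  refine integral_mul_fderiv_eq_neg_fderiv_mul_of_integrable ?_ ?_ ?_
    (fun x _ => hf.differentiable (by simp) x) (fun x _ => hψ.1.differentiable (by simp) x)
  · exact ((cont_fd hf v).mul hψ.1.continuous).integrable_of_hasCompactSupport hψ.2.1.mul_left
  · exact (hf.continuous.mul (cont_fd hψ.1 v)).integrable_of_hasCompactSupport hc.mul_right
  · exact (hf.continuous.mul hψ.1.continuous).integrable_of_hasCompactSupport hc.mul_right

theorem cont_inner_int {U : Set (E n)} {G F : E n → E n} (h1 : MemLp G 2 (volume.restrict U))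
    (h2 : MemLp F 2 (volume.restrict U)) :
    Integrable (fun x => ⟪G x, F x⟫) (volume.restrict U) :=
  (h1.norm.integrable_mul h2.norm).mono' (h1.1.inner h2.1)
    (Eventually.of_forall fun _ => norm_inner_le_norm _ _)

theorem cont_energy (h_h10 : S_h10) (h_trunc : S_trunc) {u f : E n → ℝ} {G : E n → E n}
    (h0 : ∀ᵐ x, 0 ≤ u x) {c : E n} {r : ℝ} (hH : IsH1 (ball c r) u G)
    (hmin : ∀ (v : E n → ℝ) (Gv : E n → E n), (∀ᵐ x ∂volume.restrict (ball c r), 0 ≤ v x) →
      IsH1 (ball c r) v Gv → IsH10 (ball c r) (v - u) (Gv - G) →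
      energy (ball c r) u G ≤ energy (ball c r) v Gv)
    {K : Set (E n)} (hK : IsCompact K) (hKU : K ⊆ ball c r) (hf : ContDiff ℝ ∞ f)
    (hfK : ∀ x, x ∉ K → f x = 0) :
    2 * ∫ x in ball c r, ⟪G x, gradient f x⟫ ≤
      (∫ x in ball c r, ‖gradient f x‖ ^ 2) + volume.real K := by
  have hc : HasCompactSupport f := HasCompactSupport.intro hK hfK
  have hF := cont_smooth (ball c r) hf hc
  have hw := cont_sub hH hF
  have hv := h_trunc n _ _ _ isOpen_ball hw
  have h10 := h_h10 n _ K _ _ isOpen_ball hK hKU (cont_sub hv hH) (by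
    filter_upwards [ae_restrict_of_ae h0] with x hx hxK
    simp [hfK x hxK, hx])
  have hm := hmin _ _ (Eventually.of_forall fun x => le_max_right _ _) hv h10
  unfold energy at hm
  beta_reduce at hm
  have a1 : ∫ x in ball c r, ‖if 0 < (u - f) x then (G - gradient f) x else 0‖ ^ 2 ≤
      ∫ x in ball c r, ‖(G - gradient f) x‖ ^ 2 := by
    refine integral_mono hv.2.1.norm.integrable_sq hw.2.1.norm.integrable_sq fun x => ?_
    dsimp only
    split_ifs
    · exact le_rfl
    · simp
  have a2 : ∫ x in ball c r, ‖(G - gradient f) x‖ ^ 2 = (∫ x in ball c r, ‖G x‖ ^ 2)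
      - 2 * (∫ x in ball c r, ⟪G x, gradient f x⟫) + ∫ x in ball c r, ‖gradient f x‖ ^ 2 := by
    have i1 := hH.2.1.norm.integrable_sq
    have i2 := (cont_inner_int hH.2.1 hF.2.1).const_mul 2
    have i3 := hF.2.1.norm.integrable_sq
    have i4 : Integrable (fun a => ‖G a‖ ^ 2 - 2 * ⟪G a, gradient f a⟫)
      (volume.restrict (ball c r)) := i1.sub i2
    rw [← integral_const_mul, ← integral_sub i1 i2, ← integral_add i4 i3]
    refine integral_congr_ae (Eventually.of_forall fun x => ?_)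
    exact norm_sub_sq_real _ _
  have a3 : (volume (ball c r ∩ {x | 0 < max ((u - f) x) 0})).toReal ≤
      (volume (ball c r ∩ {x | 0 < u x})).toReal + volume.real K := by
    have s : ball c r ∩ {x | 0 < max ((u - f) x) 0} ⊆ (ball c r ∩ {x | 0 < u x}) ∪ K := by
      intro x hx
      by_cases hxK : x ∈ K
      · exact Or.inr hxK
      · refine Or.inl ⟨hx.1, ?_⟩
        have := hx.2
        simpa [hfK x hxK] using this
    have fin1 : volume (ball c r ∩ {x | 0 < u x}) ≠ ⊤ :=
      ne_top_of_le_ne_top measure_ball_lt_top.ne (measure_mono inter_subset_left)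
    exact (measureReal_mono s (measure_union_ne_top fin1 hK.measure_lt_top.ne)).trans
      (measureReal_union_le _ _)
  linarith

theorem cont_out {F : Type} [Zero F] {g : E n → F} (h : ∀ y, y ∉ ball (0 : E n) 1 → g y = 0)
    {x z : E n} {s : ℝ} (hs : 0 < s) (hz : z ∉ closedBall x s) : g (s⁻¹ • (z - x)) = 0 := by
  refine h _ fun hy => hz ?_
  rw [mem_ball_zero_iff, norm_smul, norm_inv, Real.norm_of_nonneg hs.le, inv_mul_lt_iff₀ hs,
    mul_one] at hy
  rw [mem_closedBall, dist_eq_norm]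
  exact hy.le

theorem cont_t0 {g : E n → ℝ} (h : IsTest (ball 0 1) g) : ∀ y, y ∉ ball (0 : E n) 1 → g y = 0 :=
  fun _ hy => image_eq_zero_of_notMem_tsupport fun h' => hy (h.2.2 h')

theorem cont_t1 {g : E n → ℝ} (h : IsTest (ball 0 1) g) :
    ∀ y, y ∉ ball (0 : E n) 1 → fderiv ℝ g y = 0 :=
  fun _ hy => image_eq_zero_of_notMem_tsupport fun h' => hy (h.2.2 (tsupport_fderiv_subset ℝ h'))

theorem cont_scale_cd {g : E n → ℝ} (h : ContDiff ℝ ∞ g) (x : E n) (a : ℝ) :
    ContDiff ℝ ∞ fun z => g (a • (z - x)) :=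
  h.comp ((contDiff_id.sub contDiff_const).const_smul a)

theorem cont_scale_fd {g : E n → ℝ} (h : ContDiff ℝ ∞ g) (x z v : E n) (a : ℝ) :
    fderiv ℝ (fun z => g (a • (z - x))) z v = a * fderiv ℝ g (a • (z - x)) v := by
  have h1 : HasFDerivAt (fun z : E n => a • (z - x)) (a • ContinuousLinearMap.id ℝ (E n)) z :=
    ((hasFDerivAt_id z).sub_const x).const_smul a
  have h2 := ((h.differentiable (by simp) (a • (z - x))).hasFDerivAt.comp z h1).fderiv
  have e : (fun z => g (a • (z - x))) = g ∘ fun z : E n => a • (z - x) := rfl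
  rw [e, h2]
  simp

theorem cont_scale_test {g : E n → ℝ} (h : ContDiff ℝ ∞ g)
    (h0 : ∀ y, y ∉ ball (0 : E n) 1 → g y = 0) (x : E n) {s : ℝ} (hs : 0 < s) :
    IsTest (ball x (2 * s)) fun z => g (s⁻¹ • (z - x)) := by
  refine ⟨cont_scale_cd h x _,
    HasCompactSupport.intro (isCompact_closedBall x s) fun z hz => cont_out h0 hs hz, ?_⟩
  refine (closure_minimal (fun z hz => ?_) isClosed_closedBall).trans
    (closedBall_subset_ball (by linarith : s < 2 * s))
  by_contra h'
  exact hz (cont_out h0 hs h')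

theorem cont_sum_fd (L : E n →L[ℝ] ℝ) (y : E n) :
    ∑ i, L (EuclideanSpace.single i 1) * y i = L y := by
  have : y = ∑ i, y i • (EuclideanSpace.single i 1 : E n) := by
    simpa using ((EuclideanSpace.basisFun (Fin n) ℝ).sum_repr y).symm
  conv_rhs => rw [this]
  simp [mul_comm]

/-- weak divergence of the radial field -/
theorem cont_div {κ : E n → ℝ} (hκ : IsTest (ball 0 1) κ) {u : E n → ℝ} {G : E n → E n} {x : E n}
    {s : ℝ} (hs : 0 < s) (hH : IsH1 (ball x (2 * s)) u G) :
    s⁻¹ * ∫ z, u z * (n * κ (s⁻¹ • (z - x)) + fderiv ℝ κ (s⁻¹ • (z - x)) (s⁻¹ • (z - x))) =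
      -∫ z in ball x (2 * s), ⟪G z, κ (s⁻¹ • (z - x)) • s⁻¹ • (z - x)⟫ := by
  have hcd : ∀ i : Fin n, ContDiff ℝ ∞ fun y : E n => κ y * y i := fun i =>
    hκ.1.mul (EuclideanSpace.proj i : E n →L[ℝ] ℝ).contDiff
  have ht : ∀ i : Fin n, IsTest (ball x (2 * s))
      fun z => κ (s⁻¹ • (z - x)) * (s⁻¹ • (z - x)) i := fun i =>
    cont_scale_test (hcd i) (fun y hy => by rw [cont_t0 hκ y hy, zero_mul]) x hs
  have hfd : ∀ (i : Fin n) (y : E n), fderiv ℝ (fun y : E n => κ y * y i) y
      (EuclideanSpace.single i 1) = κ y + fderiv ℝ κ y (EuclideanSpace.single i 1) * y i := by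
    intro i y
    have h1 := (hκ.1.differentiable (by simp) y).hasFDerivAt
    have h2 : HasFDerivAt (fun y : E n => y i) (EuclideanSpace.proj i : E n →L[ℝ] ℝ) y :=
      (EuclideanSpace.proj i : E n →L[ℝ] ℝ).hasFDerivAt
    have h3 := (h1.mul h2).fderiv
    have e : (fun y : E n => κ y * y i) = κ * fun y : E n => y i := rfl
    rw [e, h3]
    simp [mul_comm]
  have h1 := Finset.sum_congr (rfl : (Finset.univ : Finset (Fin n)) = _)
    fun i _ => hH.2.2 _ (ht i) (EuclideanSpace.single i 1)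
  rw [← integral_finsetSum _ fun i _ => cont_i1 hH.1 (ht i) _, Finset.sum_neg_distrib,
    ← integral_finsetSum _ fun i _ => cont_i2 hH.2.1 (ht i) _] at h1
  rw [← setIntegral_eq_integral_of_forall_compl_eq_zero (s := ball x (2 * s)) fun z hz => by
    have hz' : z ∉ closedBall x s := fun h => hz (closedBall_subset_ball (by linarith) h)
    have a := cont_out (cont_t0 hκ) hs hz'
    have b := cont_out (cont_t1 hκ) hs hz'
    simp only [a, b]; simp, ← integral_const_mul]
  refine Eq.trans (integral_congr_ae (Eventually.of_forall fun z => ?_)) (h1.trans ?_)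
  · have e : ∀ i : Fin n, fderiv ℝ (fun z => κ (s⁻¹ • (z - x)) * (s⁻¹ • (z - x)) i) z
        (EuclideanSpace.single i 1) = s⁻¹ * (κ (s⁻¹ • (z - x)) +
          fderiv ℝ κ (s⁻¹ • (z - x)) (EuclideanSpace.single i 1) * (s⁻¹ • (z - x)) i) := fun i => by
      rw [← hfd]; exact cont_scale_fd (hcd i) x z _ _
    simp only [e, ← Finset.mul_sum, Finset.sum_add_distrib, cont_sum_fd, Finset.sum_const,
      Finset.card_univ, Fintype.card_fin, nsmul_eq_mul]
    ring
  · congr 1
    refine integral_congr_ae (Eventually.of_forall fun z => ?_)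
    dsimp only
    generalize s⁻¹ • (z - x) = y
    rw [real_inner_smul_right, ← innerSL_apply_apply (𝕜 := ℝ) (G z) y, ← cont_sum_fd, Finset.mul_sum]
    refine Finset.sum_congr rfl fun i _ => ?_
    rw [innerSL_apply_apply]; ring

end Vale.Agent.P098
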