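import Vale.Agent.P098.Iface

open MeasureTheory Set Metric Filter
open scoped ContDiff RealInnerProductSpace Topology NNReal

noncomputable section
namespace Vale.Agent.P098

variable {n : ℕ}

theorem core_pd_smooth {f : E n → ℝ} (hf : ContDiff ℝ ∞ f) (i : Fin n) :
    ContDiff ℝ ∞ (pd i f) :=
  (hf.fderiv_right (m := ∞) (by simp)).clm_apply contDiff_const

theorem core_fderiv_add_mul {f g : E n → ℝ} (hf : ContDiff ℝ ∞ f) (hg : ContDiff ℝ ∞ g) (c : ℝ)
    (x : E n) : fderiv ℝ (fun x => f x + c * g x) x = fderiv ℝ f x + c • fderiv ℝ g x := by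
  have h1 := (hf.differentiable (by simp) x).hasFDerivAt
  have h2 := (hg.differentiable (by simp) x).hasFDerivAt
  exact (h1.add (h2.const_mul c)).fderiv

theorem core_pd_add_mul {f g : E n → ℝ} (hf : ContDiff ℝ ∞ f) (hg : ContDiff ℝ ∞ g) (c : ℝ)
    (i : Fin n) : pd i (fun x => f x + c * g x) = fun x => pd i f x + c * pd i g x := by
  funext x
  simp only [pd, core_fderiv_add_mul hf hg, ContinuousLinearMap.add_apply,
    ContinuousLinearMap.smul_apply, smul_eq_mul]

theorem core_lap_add_mul {f g : E n → ℝ} (hf : ContDiff ℝ ∞ f) (hg : ContDiff ℝ ∞ g) (c : ℝ)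
    (x : E n) : lap (fun x => f x + c * g x) x = lap f x + c * lap g x := by
  simp only [lap, core_pd_add_mul hf hg, core_pd_add_mul (core_pd_smooth hf _)
    (core_pd_smooth hg _), Finset.sum_add_distrib, Finset.mul_sum]

theorem core_grad_add_mul {f g : E n → ℝ} (hf : ContDiff ℝ ∞ f) (hg : ContDiff ℝ ∞ g) (c : ℝ)
    (x : E n) : gradient (fun x => f x + c * g x) x = gradient f x + c • gradient g x := by
  simp only [gradient, core_fderiv_add_mul hf hg, map_add, map_smul]

/-- the quadratic correction. -/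
def core_Q (e x : E n) : ℝ := -4 + ⟪x, e⟫ + ‖x‖ ^ 2

theorem core_Q_smooth (e : E n) : ContDiff ℝ ∞ (core_Q e) :=
  (contDiff_const.add (contDiff_id.inner ℝ contDiff_const)).add (contDiff_norm_sq ℝ)

theorem core_Q_fderiv (e x v : E n) : fderiv ℝ (core_Q e) x v = ⟪v, e⟫ + 2 * ⟪x, v⟫ := by
  have h1 : HasFDerivAt (fun y : E n => ⟪y, e⟫) (innerSL ℝ e) x := by
    have := (innerSL ℝ e).hasFDerivAt (x := x)
    refine this.congr_of_eventuallyEq (Eventually.of_forall fun y => ?_)
    simp only [innerSL_apply_apply, real_inner_comm]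
  have h2 := (hasStrictFDerivAt_norm_sq x).hasFDerivAt
  have h3 : HasFDerivAt (core_Q e) (innerSL ℝ e + 2 • innerSL ℝ x) x :=
    (h1.const_add (-4)).add h2
  rw [h3.fderiv]
  simp only [ContinuousLinearMap.add_apply, innerSL_apply_apply, ContinuousLinearMap.smul_apply,
    nsmul_eq_mul, Nat.cast_ofNat, real_inner_comm]

theorem core_Q_lap (e x : E n) : lap (core_Q e) x = 2 * n := by
  have h1 : ∀ i : Fin n, pd i (pd i (core_Q e)) x = 2 := by
    intro i
    have h2 : pd i (core_Q e) = fun y => ⟪EuclideanSpace.single i (1 : ℝ), e⟫ +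
        2 * innerSL ℝ (EuclideanSpace.single i (1 : ℝ)) y := by
      funext y
      rw [pd, core_Q_fderiv, innerSL_apply_apply, real_inner_comm y]
    have h3 := (((innerSL ℝ (EuclideanSpace.single i (1 : ℝ))).hasFDerivAt (x := x)).const_mul
      2).const_add ⟪EuclideanSpace.single i (1 : ℝ), e⟫
    rw [h2, pd, h3.fderiv]
    simp
  simp only [lap, h1, Finset.sum_const, Finset.card_univ, Fintype.card_fin, nsmul_eq_mul]
  ring

theorem core_Q_bound {e x : E n} (he : ‖e‖ = 1) (hx : ‖x‖ ≤ 3 / 8) :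
    -5 ≤ core_Q e x ∧ core_Q e x ≤ -3 := by
  have h1 := abs_real_inner_le_norm x e
  rw [he, mul_one, abs_le] at h1
  have h2 := norm_nonneg x
  unfold core_Q
  constructor <;> nlinarith

theorem core_even_deriv {e : E n} (he : ‖e‖ = 1) {h : E n → ℝ} (hs : ContDiff ℝ ∞ h)
    (hev : ∀ x, h (refl e x) = h x) {x : E n} (hx : ⟪x, e⟫ = 0) : fderiv ℝ h x e = 0 := by
  have hd : HasFDerivAt h (fderiv ℝ h x) x := (hs.differentiable (by simp) x).hasFDerivAt
  have hl : ∀ v : E n, HasDerivAt (fun t : ℝ => h (x + t • v)) (fderiv ℝ h x v) 0 := by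
    intro v
    have h1 : HasDerivAt (fun t : ℝ => x + t • v) v 0 := by
      simpa using ((hasDerivAt_id (0 : ℝ)).smul_const v).const_add x
    have hd' : HasFDerivAt h (fderiv ℝ h x) (x + (0 : ℝ) • v) := by simpa using hd
    exact hd'.comp_hasDerivAt (0 : ℝ) h1
  have heq : (fun t : ℝ => h (x + t • (-e))) = fun t : ℝ => h (x + t • e) := by
    funext t
    rw [← hev (x + t • e)]
    congr 1
    rw [refl, inner_add_left, hx, real_inner_smul_left, real_inner_self_eq_norm_sq, he]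
    module
  have h1 := hl (-e)
  rw [heq] at h1
  have h2 := h1.unique (hl e)
  rw [map_neg] at h2
  linarith

theorem core_small_deriv {e : E n} (he : ‖e‖ = 1) {h : E n → ℝ} (hs : ContDiff ℝ ∞ h)
    (hev : ∀ x, h (refl e x) = h x) {κ : ℝ} (hκ : 0 < κ) :
    ∃ δ : ℝ, 0 < δ ∧ ∀ x : E n, ‖x‖ ≤ 3 / 8 → |⟪x, e⟫| ≤ δ → |⟪gradient h x, e⟫| ≤ κ := by
  have hc : Continuous fun x => fderiv ℝ h x e :=
    (hs.continuous_fderiv (by simp)).clm_apply continuous_const
  have hu := (isCompact_closedBall (0 : E n) 1).uniformContinuousOn_of_continuous hc.continuousOn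
  obtain ⟨δ, hδ, hδ'⟩ := Metric.uniformContinuousOn_iff.1 hu κ hκ
  refine ⟨δ / 2, by positivity, fun x hx hxe => ?_⟩
  have h1 := abs_real_inner_le_norm x e
  rw [he, mul_one] at h1
  have hn : ‖⟪x, e⟫ • e‖ = |⟪x, e⟫| := by rw [norm_smul, he, mul_one, Real.norm_eq_abs]
  have h0 : fderiv ℝ h (x - ⟪x, e⟫ • e) e = 0 := by
    apply core_even_deriv he hs hev
    rw [inner_sub_left, real_inner_smul_left, real_inner_self_eq_norm_sq, he]
    ring
  have h2 := hδ' x (mem_closedBall_zero_iff.2 (by linarith)) (x - ⟪x, e⟫ • e)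
    (mem_closedBall_zero_iff.2 ((norm_sub_le _ _).trans (by rw [hn]; linarith)))
    (by rw [dist_eq_norm, sub_sub_cancel, hn]; linarith)
  rw [h0, Real.dist_eq, sub_zero] at h2
  rw [inner_gradient_left]
  exact h2.le

theorem core_grad_bound {ψ : E n → ℝ} (hs : ContDiff ℝ ∞ ψ) :
    ∃ M : ℝ, 0 < M ∧ ∀ x : E n, ‖x‖ ≤ 3 / 8 → ‖gradient ψ x‖ ≤ M := by
  have hc : Continuous fun x => fderiv ℝ ψ x := hs.continuous_fderiv (by simp)
  obtain ⟨M, hM⟩ := (isCompact_closedBall (0 : E n) 1).exists_bound_of_continuousOn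
    hc.continuousOn
  refine ⟨max M 1, by positivity, fun x hx => ?_⟩
  rw [gradient, LinearIsometryEquiv.norm_map]
  exact (hM x (mem_closedBall_zero_iff.2 (by linarith))).trans (le_max_left _ _)

section Pfacts

variable {u P : E n → ℝ} {e : E n} {σ ε : ℝ}

theorem core_sigma_nonneg (hG : Good e σ ε P) : 0 ≤ σ :=
  (norm_nonneg _).trans (hG.grad 0 (mem_ball_self one_pos))

theorem core_P_mv (hG : Good e σ ε P) {x y : E n} (hx : ‖x‖ < 1) (hy : ‖y‖ < 1) :
    |P y - P x - ⟪y - x, e⟫| ≤ σ * ‖y - x‖ := by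
  have h := (convex_ball (0 : E n) 1).norm_image_sub_le_of_norm_fderiv_le' (𝕜 := ℝ) (f := P)
    (C := σ) (φ := innerSL ℝ e) (fun z _ => hG.sm.differentiable (by simp) z)
    (fun z hz => by
      refine ContinuousLinearMap.opNorm_le_bound _ (core_sigma_nonneg hG) fun v => ?_
      rw [ContinuousLinearMap.sub_apply, ← inner_gradient_left, innerSL_apply_apply,
        ← inner_sub_left]
      exact (abs_real_inner_le_norm _ _).trans
        (mul_le_mul_of_nonneg_right (hG.grad z hz) (norm_nonneg v)))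
    (mem_ball_zero_iff.2 hx) (mem_ball_zero_iff.2 hy)
  rwa [innerSL_apply_apply, real_inner_comm] at h

theorem core_P_lin (hG : Good e σ ε P) {y : E n} (hy : ‖y‖ < 1) : |P y - ⟪y, e⟫| ≤ σ := by
  have h := core_P_mv hG (x := 0) (by simp) hy
  rw [hG.zero, sub_zero, sub_zero] at h
  exact h.trans (mul_le_of_le_one_right (core_sigma_nonneg hG) hy.le)

theorem core_P_mono (he : ‖e‖ = 1) (hG : Good e σ ε P) (hσ : σ ≤ 1 / 2) {x : E n} {t : ℝ}
    (ht : 0 ≤ t) (hx : ‖x‖ + t < 1) : P x + t / 2 ≤ P (x + t • e) := by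
  have hn : ‖t • e‖ = t := by rw [norm_smul, he, mul_one, Real.norm_of_nonneg ht]
  have h := core_P_mv hG (x := x) (y := x + t • e) (by linarith)
    ((norm_add_le _ _).trans_lt (by rw [hn]; exact hx))
  rw [add_sub_cancel_left, hn, real_inner_smul_left, real_inner_self_eq_norm_sq, he, abs_le] at h
  nlinarith [h.1]

theorem core_w_bound (hu : LMin u) (hG : Good e σ ε P) (hT : Trap u P (-ε) ε (ball 0 1))
    {y : E n} (hy : ‖y‖ < 1) (hc : y ∈ closure (Om u)) : |u y - P y| ≤ ε := by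
  obtain ⟨L, hL⟩ := hu.lip
  have hcl : IsClosed {z : E n | u z ≤ P z + ε} :=
    isClosed_le hL.continuous (hG.sm.continuous.add continuous_const)
  have hsub : ball (0 : E n) 1 ∩ Om u ⊆ {z : E n | u z ≤ P z + ε} := by
    rintro z ⟨hz1, hz2⟩
    have h1 := (hT z hz1).2
    have h2 : 0 < u z := hz2
    rcases le_max_iff.1 h1 with h | h
    · exact h
    · linarith
  have h3 : u y ≤ P y + ε :=
    closure_minimal hsub hcl (isOpen_ball.inter_closure ⟨mem_ball_zero_iff.2 hy, hc⟩)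
  have h4 := (hT y (mem_ball_zero_iff.2 hy)).1
  rw [abs_le]
  constructor <;> linarith

theorem core_hit (hu : LMin u) {x : E n} {T : ℝ} (hT : 0 ≤ T) (hx : x ∉ closure (Om u))
    (hxT : x + T • e ∈ Om u) :
    ∃ t : ℝ, 0 ≤ t ∧ t ≤ T ∧ x + t • e ∈ closure (Om u) ∧ u (x + t • e) = 0 := by
  obtain ⟨L, hL⟩ := hu.lip
  by_contra hcon
  push Not at hcon
  have hc : Continuous fun t : ℝ => x + t • e := by fun_prop
  have hO : IsOpen (Om u) := isOpen_lt continuous_const hL.continuous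
  have h := isPreconnected_Icc (a := (0 : ℝ)) (b := T) _ _ (hO.preimage hc)
    (isClosed_closure.isOpen_compl.preimage hc) (fun t ht => by
      by_cases h1 : x + t • e ∈ closure (Om u)
      · exact Or.inl (lt_of_le_of_ne (hu.nonneg _) (hcon t ht.1 ht.2 h1).symm)
      · exact Or.inr h1) ⟨T, ⟨hT, le_rfl⟩, hxT⟩ ⟨0, ⟨le_rfl, hT⟩, by simpa using hx⟩
  obtain ⟨t, -, h1, h2⟩ := h
  exact h2 (subset_closure h1)

end Pfacts

end Vale.Agent.P098
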