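import Vale.Agent.P098.Core2

open MeasureTheory Set Metric Filter
open scoped ContDiff RealInnerProductSpace Topology NNReal

noncomputable section
namespace Vale.Agent.P098

variable {n : ℕ}

/-- the normalised difference `(u - P) / ε` is close to `g`. -/
def core_Close (u P : E n → ℝ) (ε : ℝ) (g : E n → ℝ) (γ : ℝ) : Prop :=
  ∀ x : E n, ‖x‖ ≤ 3 / 8 → ∀ y ∈ closure (Om u), ‖y - x‖ ≤ 8 * ε →
    |u y - P y - ε * g x| ≤ γ * ε

theorem core_norm_sq {p q e : E n} {σ M ε : ℝ} (hp : ‖p - e‖ ≤ σ) (hq : ‖q‖ ≤ M) (hε : 0 ≤ ε) :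
    ‖p‖ ^ 2 + 2 * ε * (⟪q, e⟫ - σ * M) ≤ ‖p + ε • q‖ ^ 2 ∧
      ‖p + ε • q‖ ^ 2 ≤ ‖p‖ ^ 2 + 2 * ε * (⟪q, e⟫ + σ * M) + ε ^ 2 * M ^ 2 := by
  have h1 : ‖p + ε • q‖ ^ 2 = ‖p‖ ^ 2 + 2 * ε * ⟪q, p⟫ + ε ^ 2 * ‖q‖ ^ 2 := by
    rw [norm_add_sq_real, real_inner_smul_right, norm_smul, mul_pow, Real.norm_eq_abs, sq_abs,
      real_inner_comm]
    ring
  have h2 : |⟪q, p⟫ - ⟪q, e⟫| ≤ σ * M := by
    rw [← inner_sub_right]
    refine (abs_real_inner_le_norm _ _).trans ?_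
    rw [mul_comm]
    exact mul_le_mul hp hq (norm_nonneg _) ((norm_nonneg _).trans hp)
  rw [abs_le] at h2
  have h3 : ‖q‖ ^ 2 ≤ M ^ 2 := pow_le_pow_left₀ (norm_nonneg _) hq 2
  have h4 : ε ^ 2 * ‖q‖ ^ 2 ≤ ε ^ 2 * M ^ 2 := mul_le_mul_of_nonneg_left h3 (sq_nonneg _)
  have h5 : 0 ≤ ε ^ 2 * ‖q‖ ^ 2 := by positivity
  rw [h1]
  constructor <;> nlinarith [h2.1, h2.2]

theorem core_psi_e {e : E n} (he : ‖e‖ = 1) {h : E n → ℝ} (hs : ContDiff ℝ ∞ h) (c : ℝ)
    (x : E n) : ⟪gradient (fun x => h x + c * core_Q e x) x, e⟫ =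
      ⟪gradient h x, e⟫ + c * (1 + 2 * ⟪x, e⟫) := by
  rw [core_grad_add_mul hs (core_Q_smooth e), inner_add_left, real_inner_smul_left,
    inner_gradient_left (f := core_Q e), core_Q_fderiv, real_inner_self_eq_norm_sq, he]
  ring

theorem core_two {f : E n → ℝ} (hf : ContDiff ℝ ∞ f) : ContDiff ℝ 2 f := by
  exact_mod_cast contDiff_infty.1 hf 2

theorem core_pos {e : E n} (he : ‖e‖ = 1) : (0 : ℝ) < n := by
  rcases Nat.eq_zero_or_pos n with rfl | h
  · rw [Subsingleton.elim e 0, norm_zero] at he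
    exact absurd he zero_ne_one
  · exact_mod_cast h

theorem core_lower (h_cb : S_cb) {e : E n} (he : ‖e‖ = 1) {h : E n → ℝ} (hs : ContDiff ℝ ∞ h)
    (hl : ∀ x, lap h x = 0) (hev : ∀ x, h (refl e x) = h x)
    (hb : ∀ x : E n, ‖x‖ ≤ 3 / 8 → |h x| ≤ 2) {γ : ℝ} (hγ : 0 < γ) :
    ∃ δ : ℝ, 0 < δ ∧ ∀ (u P g : E n → ℝ) (σ ε : ℝ), LMin u → Good e σ ε P → σ ≤ δ → 0 < ε →
      ε ≤ δ → Trap u P (-ε) ε (ball 0 1) → core_Close u P ε g γ →
      (∀ x ∈ sphere (0 : E n) (3 / 8), |h x - g x| ≤ γ) →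
      ∀ x ∈ ball (0 : E n) (1 / 4), P x + ε * h x + -(5 * γ * ε) ≤ u x := by
  obtain ⟨δ1, hδ1, hsm⟩ := core_small_deriv he hs hev (κ := γ / 4) (by positivity)
  have hψ : ContDiff ℝ ∞ fun x => h x + γ * core_Q e x :=
    hs.add (contDiff_const.mul (core_Q_smooth e))
  obtain ⟨M, hM, hMb⟩ := core_grad_bound hψ
  refine ⟨min (1 / 24) (min (δ1 / 3) (γ / (2 * M + 3))), by positivity, ?_⟩
  intro u P g σ ε hu hG hσ hε hεδ hT hC hg
  have hσ0 := core_sigma_nonneg hG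
  obtain ⟨hσ1, hσ2, hσ3⟩ : σ ≤ 1 / 24 ∧ σ ≤ δ1 / 3 ∧ σ ≤ γ / (2 * M + 3) := by
    simpa only [le_min_iff] using hσ
  obtain ⟨hε1, hε2, -⟩ : ε ≤ 1 / 24 ∧ ε ≤ δ1 / 3 ∧ ε ≤ γ / (2 * M + 3) := by
    simpa only [le_min_iff] using hεδ
  have hσ4 : σ * (2 * M + 3) ≤ γ := (le_div_iff₀ (by positivity)).1 hσ3
  have hφ : ContDiff ℝ ∞ fun x => P x + ε * (h x + γ * core_Q e x) :=
    hG.sm.add (contDiff_const.mul hψ)
  have hγε : 0 < γ * ε := mul_pos hγ hε
  have key := h_cb n u (fun x => P x + ε * (h x + γ * core_Q e x)) 0 (3 / 8) hu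
    (core_two hφ) ?_ ?_ ?_
  · intro x hx
    have hx' := mem_ball_zero_iff.1 hx
    have h1 : P x + ε * (h x + γ * core_Q e x) ≤ u x :=
      key x (mem_ball_zero_iff.2 (by linarith))
    have h2 := (core_Q_bound he (x := x) (by linarith)).1
    nlinarith
  · intro x hx
    have hx' : ‖x‖ = 3 / 8 := mem_sphere_zero_iff_norm.1 hx
    have hQ := (core_Q_bound he hx'.le).2
    have hgx := abs_le.1 (hg x hx)
    have hhx := abs_le.1 (hb x hx'.le)
    have hQ' : ε * (γ * core_Q e x) ≤ -3 * (γ * ε) := by nlinarith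
    have hhg : ε * h x ≤ ε * g x + γ * ε := by nlinarith [hgx.2]
    change P x + ε * (h x + γ * core_Q e x) ≤ u x
    rw [mul_add]
    by_cases hc : x ∈ closure (Om u)
    · have h1 := abs_le.1 (hC x hx'.le x hc (by simp; positivity))
      linarith [h1.1]
    · have hu0 := hu.nonneg x
      by_cases hP : P x ≤ -3 * ε
      · nlinarith [hhx.2]
      · have hn : ‖(8 * ε) • e‖ = 8 * ε := by
          rw [norm_smul, he, mul_one, Real.norm_of_nonneg (by positivity)]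
        have hin : x + (8 * ε) • e ∈ Om u := by
          have h1 := core_P_mono he hG (by linarith) (x := x) (t := 8 * ε) (by positivity)
            (by linarith)
          have h2 := (hT (x + (8 * ε) • e) (mem_ball_zero_iff.2
            ((norm_add_le _ _).trans_lt (by rw [hn]; linarith)))).1
          change 0 < u (x + (8 * ε) • e)
          linarith
        obtain ⟨t, ht0, ht1, hcl, hz⟩ := core_hit hu (by positivity) hc hin
        have h1 := core_P_mono he hG (by linarith) (x := x) ht0 (by linarith)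
        have h2 := abs_le.1 (hC x hx'.le _ hcl (by
          rw [add_sub_cancel_left, norm_smul, he, mul_one, Real.norm_of_nonneg ht0]; exact ht1))
        rw [hz] at h2
        linarith [h2.1]
  · intro x _ _
    rw [core_lap_add_mul hG.sm hψ, core_lap_add_mul hs (core_Q_smooth e), hG.harm, hl, core_Q_lap]
    have := core_pos he
    positivity
  · intro x hx hz hpos
    have hx' := mem_ball_zero_iff.1 hx
    have hx1 : x ∈ ball (0 : E n) 1 := mem_ball_zero_iff.2 (by linarith)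
    have hQ := (core_Q_bound he hx'.le).2
    have hhx := abs_le.1 (hb x hx'.le)
    have hP1 := (hT x hx1).1
    rw [hz] at hP1
    have hpos' : 0 < P x + ε * (h x + γ * core_Q e x) := hpos
    have hP : |P x| ≤ 2 * ε := by
      rw [abs_le]
      constructor
      · nlinarith [hhx.2]
      · linarith
    have hlin := abs_le.1 (core_P_lin hG (y := x) (by linarith))
    have hP' := abs_le.1 hP
    have hxe : |⟪x, e⟫| ≤ 2 * ε + σ := by
      rw [abs_le]; constructor <;> linarith [hlin.1, hlin.2]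
    have h1 := abs_le.1 (hsm x hx'.le (by linarith))
    have h2 := (core_norm_sq (hG.grad x hx1) (hMb x hx'.le) hε.le).1
    rw [core_psi_e he hs] at h2
    have h3 := (abs_le.1 (hG.fb x hx1)).1
    have hxe' := abs_le.1 hxe
    have h4 : γ / 2 ≤ ⟪gradient h x, e⟫ + γ * (1 + 2 * ⟪x, e⟫) := by nlinarith [h1.1, hxe'.1]
    have h5 : σ * (|P x| + ε) ≤ σ * (3 * ε) := mul_le_mul_of_nonneg_left (by linarith) hσ0
    rw [core_grad_add_mul hG.sm hψ]
    refine (one_le_sq_iff₀ (norm_nonneg _)).1 (le_trans ?_ h2)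
    nlinarith

theorem core_upper (h_ca : S_ca) {e : E n} (he : ‖e‖ = 1) {h : E n → ℝ} (hs : ContDiff ℝ ∞ h)
    (hl : ∀ x, lap h x = 0) (hev : ∀ x, h (refl e x) = h x)
    (hb : ∀ x : E n, ‖x‖ ≤ 3 / 8 → |h x| ≤ 2) {γ : ℝ} (hγ : 0 < γ) :
    ∃ δ : ℝ, 0 < δ ∧ ∀ (u P g : E n → ℝ) (σ ε : ℝ), LMin u → Good e σ ε P → σ ≤ δ → 0 < ε →
      ε ≤ δ → Trap u P (-ε) ε (ball 0 1) → core_Close u P ε g γ →
      (∀ x ∈ sphere (0 : E n) (3 / 8), |h x - g x| ≤ γ) →
      ∀ x ∈ ball (0 : E n) (1 / 4), u x ≤ max (P x + ε * h x + 5 * γ * ε) 0 := by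
  obtain ⟨δ1, hδ1, hsm⟩ := core_small_deriv he hs hev (κ := γ / 4) (by positivity)
  have hψ : ContDiff ℝ ∞ fun x => h x + -γ * core_Q e x :=
    hs.add (contDiff_const.mul (core_Q_smooth e))
  obtain ⟨M, hM, hMb⟩ := core_grad_bound hψ
  refine ⟨min (1 / 24) (min (δ1 / 3) (γ / (2 * (2 * M + 3 + M ^ 2)))), by positivity, ?_⟩
  intro u P g σ ε hu hG hσ hε hεδ hT hC hg
  have hσ0 := core_sigma_nonneg hG
  obtain ⟨hσ1, hσ2, hσ3⟩ : σ ≤ 1 / 24 ∧ σ ≤ δ1 / 3 ∧ σ ≤ γ / (2 * (2 * M + 3 + M ^ 2)) := by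
    simpa only [le_min_iff] using hσ
  obtain ⟨hε1, hε2, hε3⟩ : ε ≤ 1 / 24 ∧ ε ≤ δ1 / 3 ∧ ε ≤ γ / (2 * (2 * M + 3 + M ^ 2)) := by
    simpa only [le_min_iff] using hεδ
  have hσ4 : σ * (2 * (2 * M + 3 + M ^ 2)) ≤ γ := (le_div_iff₀ (by positivity)).1 hσ3
  have hε4 : ε * (2 * (2 * M + 3 + M ^ 2)) ≤ γ := (le_div_iff₀ (by positivity)).1 hε3
  have hφ : ContDiff ℝ ∞ fun x => P x + ε * (h x + -γ * core_Q e x) :=
    hG.sm.add (contDiff_const.mul hψ)
  have hγε : 0 < γ * ε := mul_pos hγ hε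
  have hlap : ∀ x, lap (fun x => P x + ε * (h x + -γ * core_Q e x)) x < 0 := by
    intro x
    rw [core_lap_add_mul hG.sm hψ, core_lap_add_mul hs (core_Q_smooth e), hG.harm, hl, core_Q_lap]
    have := mul_pos hγε (core_pos he)
    nlinarith
  have key := h_ca n u (fun x => P x + ε * (h x + -γ * core_Q e x)) 0 (3 / 8) hu
    (core_two hφ) ?_ (fun x _ _ _ => hlap x) ?_
  · intro x hx
    have hx' := mem_ball_zero_iff.1 hx
    have h1 : u x ≤ max (P x + ε * (h x + -γ * core_Q e x)) 0 :=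
      key x (mem_ball_zero_iff.2 (by linarith))
    have h2 := (core_Q_bound he (x := x) (by linarith)).1
    exact h1.trans (max_le_max_right _ (by nlinarith))
  · intro x hx
    have hx' : ‖x‖ = 3 / 8 := mem_sphere_zero_iff_norm.1 hx
    have hQ := (core_Q_bound he hx'.le).2
    have hgx := abs_le.1 (hg x hx)
    have hQ' : 3 * (γ * ε) ≤ ε * (-γ * core_Q e x) := by nlinarith
    have hhg : ε * g x ≤ ε * h x + γ * ε := by nlinarith [hgx.1]
    change u x ≤ max (P x + ε * (h x + -γ * core_Q e x)) 0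
    rcases (hu.nonneg x).eq_or_lt with h0 | h0
    · rw [← h0]; exact le_max_right _ _
    · have h1 := abs_le.1 (hC x hx'.le x (subset_closure h0) (by simp; positivity))
      refine le_trans ?_ (le_max_left _ _)
      rw [mul_add]
      linarith [h1.2]
  · intro x hx hneg hpos
    have hx' := mem_ball_zero_iff.1 hx
    have hx1 : x ∈ ball (0 : E n) 1 := mem_ball_zero_iff.2 (by linarith)
    have hQ := (core_Q_bound he hx'.le).2
    have hhx := abs_le.1 (hb x hx'.le)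
    have hP1 : u x ≤ P x + ε := by
      rcases le_max_iff.1 (hT x hx1).2 with h | h
      · exact h
      · linarith
    have hneg' : P x + ε * (h x + -γ * core_Q e x) ≤ 0 := hneg
    have hP : |P x| ≤ 2 * ε := by
      rw [abs_le]
      constructor
      · linarith
      · nlinarith [hhx.1]
    have hlin := abs_le.1 (core_P_lin hG (y := x) (by linarith))
    have hP' := abs_le.1 hP
    have hxe : |⟪x, e⟫| ≤ 2 * ε + σ := by
      rw [abs_le]; constructor <;> linarith [hlin.1, hlin.2]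
    have h1 := abs_le.1 (hsm x hx'.le (by linarith))
    have h2 := (core_norm_sq (hG.grad x hx1) (hMb x hx'.le) hε.le).2
    rw [core_psi_e he hs] at h2
    have h3 := (abs_le.1 (hG.fb x hx1)).2
    have hxe' := abs_le.1 hxe
    have h4 : ⟪gradient h x, e⟫ + -γ * (1 + 2 * ⟪x, e⟫) ≤ -(γ / 2) := by
      nlinarith [h1.2, hxe'.1]
    have h5 : σ * (|P x| + ε) ≤ σ * (3 * ε) := mul_le_mul_of_nonneg_left (by linarith) hσ0
    have h6 : u x * lap (fun x => P x + ε * (h x + -γ * core_Q e x)) x < 0 :=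
      mul_neg_of_pos_of_neg hpos (hlap x)
    have h7 : σ * (2 * M + 3) + ε * M ^ 2 ≤ γ := by
      have a1 : 0 ≤ σ * M ^ 2 := by positivity
      have a2 : 0 ≤ ε * (2 * M + 3) := by positivity
      linarith
    have h8 : ε * (σ * (2 * M + 3) + ε * M ^ 2) ≤ ε * γ := mul_le_mul_of_nonneg_left h7 hε.le
    have h9 : ε * (⟪gradient h x, e⟫ + -γ * (1 + 2 * ⟪x, e⟫)) ≤ ε * -(γ / 2) :=
      mul_le_mul_of_nonneg_left h4 hε.le
    rw [core_grad_add_mul hG.sm hψ]
    linarith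

end Vale.Agent.P098
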