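import Vale.Agent.P098.Iface

open MeasureTheory Set Metric Filter
open scoped ContDiff RealInnerProductSpace Topology NNReal

noncomputable section
namespace Vale.Agent.P098

variable {n : ℕ}

theorem cpt_grad_le {f : E n → ℝ} {K : ℝ≥0} (hf : LipschitzWith K f) (x : E n) :
    ‖gradient f x‖ ≤ K := by
  rw [gradient, LinearIsometryEquiv.norm_map]
  exact norm_fderiv_le_of_lipschitz ℝ hf

theorem cpt_grad_meas (f : E n → ℝ) : Measurable (gradient f) :=
  (InnerProductSpace.toDual ℝ (E n)).symm.continuous.measurable.comp (measurable_fderiv ℝ f)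

theorem cpt_int {f : E n → ℝ} {K : ℝ≥0} (hf : LipschitzWith K f) (r : ℝ) :
    IntegrableOn (fun x => ‖gradient f x‖ ^ 2) (ball (0 : E n) r) := by
  refine Measure.integrableOn_of_bounded (M := (K : ℝ) ^ 2) measure_ball_lt_top.ne
    ((cpt_grad_meas f).norm.pow_const 2).aestronglyMeasurable (Eventually.of_forall fun x => ?_)
  rw [Real.norm_eq_abs, abs_of_nonneg (by positivity)]
  exact pow_le_pow_left₀ (norm_nonneg _) (cpt_grad_le hf x) 2

theorem cpt_small (c : ℝ) (hc : 0 < c) (R : ℝ) : ∀ᶠ ε in 𝓝[>] (0 : ℝ), 0 < ε ∧ ε ≤ c ∧ R ≤ ε⁻¹ := by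
  filter_upwards [Ioc_mem_nhdsGT hc, tendsto_inv_nhdsGT_zero.eventually_ge_atTop R] with ε h1 h2
  exact ⟨h1.1, h1.2, h2⟩

theorem cpt_weak (g : E n → ℝ) (hg : Integrable g) (v : E n) (M : ℝ≥0) (η : ℝ) (hη : 0 < η) :
    ∀ᶠ ε in 𝓝[>] (0 : ℝ), ∀ f : E n → ℝ, LipschitzWith M f →
      (∀ x ∈ ball (0 : E n) ε⁻¹, |f x| ≤ ε) → |∫ x, fderiv ℝ f x v * g x| ≤ η := by
  have hA : (0 : ℝ) < M * ‖v‖ + 1 := by positivity
  obtain ⟨φ, hc, hs, hd⟩ := (memLp_one_iff_integrable.2 hg).exist_eLpNorm_sub_le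
    ENNReal.one_ne_top le_rfl (ε := η / 2 / (M * ‖v‖ + 1)) (by positivity)
  have hφi : Integrable φ := hs.continuous.integrable_of_hasCompactSupport hc
  have hd' : ∫ x, ‖g x - φ x‖ ≤ η / 2 / (M * ‖v‖ + 1) := by
    rw [eLpNorm_one_eq_lintegral_enorm, ← ofReal_integral_norm_eq_lintegral_enorm (hg.sub hφi),
      ENNReal.ofReal_le_ofReal_iff (by positivity)] at hd
    exact hd
  obtain ⟨D, hD⟩ := ContDiff.lipschitzWith_of_hasCompactSupport hc hs (by simp)
  have hψ : Integrable fun x => fderiv ℝ φ x (-v) :=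
    ((hs.continuous_fderiv (by simp)).clm_apply continuous_const).integrable_of_hasCompactSupport
      (hc.fderiv_apply ℝ (-v))
  obtain ⟨R, hR⟩ := hc.isCompact.isBounded.subset_ball (0 : E n)
  have hI : 0 ≤ ∫ x, ‖fderiv ℝ φ x (-v)‖ := integral_nonneg fun _ => norm_nonneg _
  filter_upwards [cpt_small (η / 2 / ((∫ x, ‖fderiv ℝ φ x (-v)‖) + 1)) (by positivity) R]
    with ε ⟨h0, h1, h2⟩ f hf hb
  have hm : AEStronglyMeasurable (fun x => fderiv ℝ f x v) volume :=
    (measurable_fderiv_apply_const ℝ f v).aestronglyMeasurable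
  have hbd : ∀ x, ‖fderiv ℝ f x v‖ ≤ M * ‖v‖ + 1 := fun x =>
    ((fderiv ℝ f x).le_of_opNorm_le (norm_fderiv_le_of_lipschitz ℝ hf) v).trans (by linarith)
  have i1 : Integrable fun x => fderiv ℝ f x v * (g x - φ x) :=
    (hg.sub hφi).bdd_mul hm (Eventually.of_forall hbd)
  have i2 : Integrable fun x => fderiv ℝ f x v * φ x := hφi.bdd_mul hm (Eventually.of_forall hbd)
  have e1 : ∫ x, fderiv ℝ f x v * g x =
      (∫ x, fderiv ℝ f x v * (g x - φ x)) + ∫ x, fderiv ℝ f x v * φ x := by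
    rw [← integral_add i1 i2]
    exact integral_congr_ae (Eventually.of_forall fun x => by ring)
  have b1 : ‖∫ x, fderiv ℝ f x v * (g x - φ x)‖ ≤ η / 2 := by
    have h3 : ‖∫ x, fderiv ℝ f x v * (g x - φ x)‖ ≤ ∫ x, (M * ‖v‖ + 1) * ‖g x - φ x‖ := by
      refine norm_integral_le_of_norm_le ((hg.sub hφi).norm.const_mul _)
        (Eventually.of_forall fun x => ?_)
      rw [norm_mul]
      exact mul_le_mul_of_nonneg_right (hbd x) (norm_nonneg _)
    rw [integral_const_mul] at h3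
    refine h3.trans ?_
    rw [le_div_iff₀ hA] at hd'
    linarith
  have e2 : ∫ x, fderiv ℝ f x v * φ x = ∫ x, fderiv ℝ φ x (-v) * f x := by
    have h3 := LipschitzWith.integral_lineDeriv_mul_eq (μ := volume) hf hD hc v
    have h4 : ∫ x, fderiv ℝ f x v * φ x = ∫ x, lineDeriv ℝ f x v * φ x := by
      refine integral_congr_ae ?_
      filter_upwards [hf.ae_differentiableAt (μ := volume)] with x hx
      rw [hx.lineDeriv_eq_fderiv]
    rw [h4, h3]
    refine integral_congr_ae (Eventually.of_forall fun x => ?_)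
    simp only [(hs.differentiable (by simp)).differentiableAt.lineDeriv_eq_fderiv]
  have b2 : ‖∫ x, fderiv ℝ φ x (-v) * f x‖ ≤ η / 2 := by
    have h3 : ‖∫ x, fderiv ℝ φ x (-v) * f x‖ ≤ ∫ x, ε * ‖fderiv ℝ φ x (-v)‖ := by
      refine norm_integral_le_of_norm_le (hψ.norm.const_mul _) (Eventually.of_forall fun x => ?_)
      by_cases hx : x ∈ tsupport φ
      · rw [norm_mul, mul_comm]
        exact mul_le_mul_of_nonneg_right (hb x (ball_subset_ball h2 (hR hx))) (norm_nonneg _)
      · rw [fderiv_of_notMem_tsupport ℝ hx]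
        simp
    rw [integral_const_mul] at h3
    refine h3.trans ?_
    rw [le_div_iff₀ (by positivity)] at h1
    nlinarith
  rw [e1, e2]
  refine (abs_add_le _ _).trans ?_
  rw [Real.norm_eq_abs] at b1 b2
  linarith

theorem cpt_weakV {u : E n → ℝ} {L : ℝ≥0} (hu : LipschitzWith L u) (R : ℝ) (M : ℝ≥0) (η : ℝ)
    (hη : 0 < η) : ∀ᶠ ε in 𝓝[>] (0 : ℝ), ∀ f : E n → ℝ, LipschitzWith M f →
      (∀ x ∈ ball (0 : E n) ε⁻¹, |f x| ≤ ε) →
      |∫ x in ball (0 : E n) R, fderiv ℝ f x (gradient u x)| ≤ η := by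
  have hG : IntegrableOn (gradient u) (ball (0 : E n) R) :=
    Measure.integrableOn_of_bounded (M := L) measure_ball_lt_top.ne
      (cpt_grad_meas u).aestronglyMeasurable (Eventually.of_forall (cpt_grad_le hu))
  have hGi : ∀ i : Fin n, IntegrableOn (fun x => gradient u x i) (ball (0 : E n) R) := fun i =>
    (EuclideanSpace.proj i : E n →L[ℝ] ℝ).integrable_comp hG
  have h1 : ∀ i : Fin n, ∀ᶠ ε in 𝓝[>] (0 : ℝ), ∀ f : E n → ℝ, LipschitzWith M f →
      (∀ x ∈ ball (0 : E n) ε⁻¹, |f x| ≤ ε) → |∫ x, fderiv ℝ f x (EuclideanSpace.single i 1) *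
        (ball (0 : E n) R).indicator (fun x => gradient u x i) x| ≤ η / (n + 1) := fun i =>
    cpt_weak _ ((integrable_indicator_iff measurableSet_ball).2 (hGi i)) _ M _ (by positivity)
  filter_upwards [eventually_all.2 h1] with ε hε f hf hb
  have e1 : ∀ x, fderiv ℝ f x (gradient u x) =
      ∑ i, fderiv ℝ f x (EuclideanSpace.single i 1) * gradient u x i := by
    intro x
    conv_lhs => rw [← (EuclideanSpace.basisFun (Fin n) ℝ).sum_repr (gradient u x)]
    simp [mul_comm]
  have i1 : ∀ i : Fin n, IntegrableOn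
      (fun x => fderiv ℝ f x (EuclideanSpace.single i 1) * gradient u x i) (ball (0 : E n) R) :=
    fun i => (hGi i).bdd_mul (c := M * ‖(EuclideanSpace.single i 1 : E n)‖)
      (measurable_fderiv_apply_const ℝ f _).aestronglyMeasurable (Eventually.of_forall fun x =>
        (fderiv ℝ f x).le_of_opNorm_le (norm_fderiv_le_of_lipschitz ℝ hf) _)
  have e2 : ∀ i : Fin n, ∫ x in ball (0 : E n) R,
      fderiv ℝ f x (EuclideanSpace.single i 1) * gradient u x i =
      ∫ x, fderiv ℝ f x (EuclideanSpace.single i 1) *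
        (ball (0 : E n) R).indicator (fun x => gradient u x i) x := by
    intro i
    rw [← integral_indicator measurableSet_ball]
    refine integral_congr_ae (Eventually.of_forall fun x => ?_)
    by_cases hx : x ∈ ball (0 : E n) R
    · simp only [indicator_of_mem hx]
    · simp only [indicator_of_notMem hx, mul_zero]
  simp only [e1]
  rw [integral_finsetSum _ fun i _ => i1 i]
  refine (Finset.abs_sum_le_sum_abs _ _).trans ?_
  have h2 : ∑ i : Fin n, |∫ x in ball (0 : E n) R,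
      fderiv ℝ f x (EuclideanSpace.single i 1) * gradient u x i| ≤ ∑ _i : Fin n, η / (n + 1) :=
    Finset.sum_le_sum fun i _ => by
      rw [e2 i]
      exact hε i f hf hb
  refine h2.trans ?_
  rw [Finset.sum_const, Finset.card_univ, Fintype.card_fin, nsmul_eq_mul, ← mul_div_assoc,
    div_le_iff₀ (by positivity)]
  nlinarith

theorem cpt_vol {u : E n → ℝ} (R η : ℝ) (hη : 0 < η) : ∃ d : ℝ, 0 < d ∧
    (volume (ball (0 : E n) R ∩ {x | 0 < u x})).toReal ≤
      (volume (ball (0 : E n) R ∩ {x | d < u x})).toReal + η := by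
  have hm : Monotone fun k : ℕ => ball (0 : E n) R ∩ {x | 1 / ((k : ℝ) + 1) < u x} := by
    intro k l hkl x hx
    have h1 : 1 / ((k : ℝ) + 1) < u x := hx.2
    have h2 : 1 / ((l : ℝ) + 1) < u x := (Nat.one_div_le_one_div hkl).trans_lt h1
    exact ⟨hx.1, h2⟩
  have hU : ⋃ k : ℕ, ball (0 : E n) R ∩ {x | 1 / ((k : ℝ) + 1) < u x} =
      ball (0 : E n) R ∩ {x | 0 < u x} := by
    ext x
    simp only [mem_iUnion, mem_inter_iff, mem_ofPred_eq]
    constructor
    · rintro ⟨k, h1, h2⟩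
      exact ⟨h1, lt_trans (by positivity) h2⟩
    · rintro ⟨h1, h2⟩
      obtain ⟨k, hk⟩ := exists_nat_one_div_lt h2
      exact ⟨k, h1, hk⟩
  have h1 := tendsto_measure_iUnion_atTop (μ := volume) hm
  rw [hU] at h1
  have hfin : volume (ball (0 : E n) R ∩ {x | 0 < u x}) ≠ ⊤ :=
    ((measure_mono inter_subset_left).trans_lt measure_ball_lt_top).ne
  have h2 := (ENNReal.tendsto_toReal hfin).comp h1
  obtain ⟨k, hk⟩ := (h2.eventually (lt_mem_nhds (sub_lt_self _ hη))).exists
  refine ⟨1 / ((k : ℝ) + 1), by positivity, ?_⟩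
  simp only [Function.comp_apply] at hk
  linarith

theorem cpt_lsc {u : E n → ℝ} {L : ℝ≥0} (hu : LipschitzWith L u) (R η : ℝ) (hη : 0 < η) :
    ∀ᶠ ε in 𝓝[>] (0 : ℝ), ∀ w : E n → ℝ, LipschitzWith L w →
      (∀ x ∈ ball (0 : E n) ε⁻¹, |w x - u x| ≤ ε) →
      en (ball 0 R) u ≤ en (ball 0 R) w + 3 * η := by
  obtain ⟨d, hd, hv⟩ := cpt_vol (u := u) R η hη
  filter_upwards [cpt_weakV hu R (L + L) η hη, cpt_small d hd R] with ε h1 ⟨h0, h2, h3⟩ w hw hb
  have h4 := h1 (fun x => w x - u x) (hw.sub hu) hb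
  have h5 : (volume (ball (0 : E n) R ∩ {x | d < u x})).toReal ≤
      (volume (ball (0 : E n) R ∩ {x | 0 < w x})).toReal := by
    refine ENNReal.toReal_mono
      ((measure_mono inter_subset_left).trans_lt measure_ball_lt_top).ne (measure_mono ?_)
    rintro x ⟨hx, hx'⟩
    refine ⟨hx, ?_⟩
    have h6 := (abs_le.1 (hb x (ball_subset_ball h3 hx))).1
    have h7 : d < u x := hx'
    show 0 < w x
    linarith
  have i1 : IntegrableOn (fun x => fderiv ℝ (fun x => w x - u x) x (gradient u x))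
      (ball (0 : E n) R) := by
    refine Measure.integrableOn_of_bounded (M := ((L + L : ℝ≥0) : ℝ) * L) measure_ball_lt_top.ne
      ?_ (Eventually.of_forall fun x => ?_)
    · have h6 : Measurable fun x => (fderiv ℝ (fun x => w x - u x) x, gradient u x) :=
        (measurable_fderiv ℝ _).prodMk (cpt_grad_meas u)
      exact (isBoundedBilinearMap_apply.continuous.measurable.comp h6).aestronglyMeasurable
    · refine ((fderiv ℝ _ x).le_of_opNorm_le (norm_fderiv_le_of_lipschitz ℝ (hw.sub hu)) _).trans ?_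
      exact mul_le_mul_of_nonneg_left (cpt_grad_le hu x) (by positivity)
  have h6 : ∫ x in ball (0 : E n) R, (‖gradient u x‖ ^ 2 +
      2 * fderiv ℝ (fun x => w x - u x) x (gradient u x)) ≤
      ∫ x in ball (0 : E n) R, ‖gradient w x‖ ^ 2 := by
    refine integral_mono_ae ((cpt_int hu R).add (i1.const_mul 2)) (cpt_int hw R) ?_
    refine ae_restrict_of_ae ?_
    filter_upwards [hw.ae_differentiableAt (μ := volume), hu.ae_differentiableAt (μ := volume)]
      with x hx hx'
    rw [fderiv_fun_sub hx hx', ContinuousLinearMap.sub_apply, ← inner_gradient_left,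
      ← inner_gradient_left, real_inner_self_eq_norm_sq]
    have h7 := norm_sub_sq_real (gradient w x) (gradient u x)
    nlinarith [sq_nonneg ‖gradient w x - gradient u x‖]
  rw [integral_add (cpt_int hu R) (i1.const_mul 2), integral_const_mul] at h6
  have h7 := (abs_le.1 h4).1
  unfold en energy
  linarith

theorem cpt_mono {f : E n → ℝ} {K : ℝ≥0} (hf : LipschitzWith K f) {r s : ℝ} (h : r ≤ s) :
    en (ball 0 r) f ≤ en (ball 0 s) f ∧ en (ball 0 s) f ≤ en (ball 0 r) f +
      ((K : ℝ) ^ 2 + 1) * (volume.real (ball (0 : E n) s) - volume.real (ball (0 : E n) r)) := by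
  have hsub : ball (0 : E n) r ⊆ ball 0 s := ball_subset_ball h
  have h1 := setIntegral_sdiff measurableSet_ball (cpt_int hf s) hsub
  have h2 : 0 ≤ ∫ x in ball (0 : E n) s \ ball 0 r, ‖gradient f x‖ ^ 2 :=
    integral_nonneg fun _ => by positivity
  have hfin : volume (ball (0 : E n) s \ ball 0 r) < ⊤ :=
    (measure_mono sdiff_subset).trans_lt measure_ball_lt_top
  have h3 : ‖∫ x in ball (0 : E n) s \ ball 0 r, ‖gradient f x‖ ^ 2‖ ≤
      (K : ℝ) ^ 2 * volume.real (ball (0 : E n) s \ ball 0 r) :=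
    norm_setIntegral_le_of_norm_le_const hfin fun x _ => by
      rw [Real.norm_eq_abs, abs_of_nonneg (by positivity)]
      exact pow_le_pow_left₀ (norm_nonneg _) (cpt_grad_le hf x) 2
  rw [Real.norm_eq_abs, abs_of_nonneg h2] at h3
  have h4 : volume.real (ball (0 : E n) s \ ball 0 r) =
      volume.real (ball (0 : E n) s) - volume.real (ball (0 : E n) r) :=
    measureReal_sdiff hsub measurableSet_ball measure_ball_lt_top.ne
  have h5 : volume.real (ball (0 : E n) r ∩ {x | 0 < f x}) ≤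
      volume.real (ball (0 : E n) s ∩ {x | 0 < f x}) :=
    measureReal_mono (inter_subset_inter_left _ hsub)
      ((measure_mono inter_subset_left).trans_lt measure_ball_lt_top).ne
  have h6 : volume.real (ball (0 : E n) s ∩ {x | 0 < f x}) ≤
      volume.real (ball (0 : E n) r ∩ {x | 0 < f x}) + volume.real (ball (0 : E n) s \ ball 0 r) := by
    refine le_trans (measureReal_mono ?_ ?_) (measureReal_union_le _ _)
    · rintro x ⟨hx, hx'⟩
      by_cases h7 : x ∈ ball (0 : E n) r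
      · exact Or.inl ⟨h7, hx'⟩
      · exact Or.inr ⟨hx, h7⟩
    · exact (measure_union_lt_top
        ((measure_mono inter_subset_left).trans_lt measure_ball_lt_top) hfin).ne
  rw [← h4]
  unfold en energy
  simp only [← measureReal_def]
  constructor <;> linarith

theorem cpt_congr {f g : E n → ℝ} {r : ℝ} (h : ∀ x ∈ ball (0 : E n) r, f x = g x) :
    en (ball 0 r) f = en (ball 0 r) g := by
  unfold en energy
  congr 1
  · refine setIntegral_congr_fun measurableSet_ball fun x hx => ?_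
    have h1 : f =ᶠ[𝓝 x] g := by
      filter_upwards [isOpen_ball.mem_nhds hx] with y hy using h y hy
    simp only [h1.gradient_eq]
  · congr 2
    ext x
    constructor
    · rintro ⟨h1, h2⟩
      exact ⟨h1, by simpa [h x h1] using h2⟩
    · rintro ⟨h1, h2⟩
      exact ⟨h1, by simpa [h x h1] using h2⟩

theorem cpt_ann (R : ℝ) (hR : 0 < R) (C η : ℝ) (hη : 0 < η) : ∀ᶠ ε in 𝓝[>] (0 : ℝ),
    C * (volume.real (ball (0 : E n) (R + ε)) - volume.real (ball (0 : E n) R)) ≤ η := by
  have e1 : ∀ r : ℝ, 0 < r → volume.real (ball (0 : E n) r) =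
      r ^ Module.finrank ℝ (E n) * volume.real (ball (0 : E n) 1) := by
    intro r hr
    rw [measureReal_def, Measure.addHaar_ball_of_pos _ _ hr, ENNReal.toReal_mul,
      ENNReal.toReal_ofReal (by positivity), measureReal_def]
  have h1 : Continuous fun ε : ℝ => C * ((R + ε) ^ Module.finrank ℝ (E n) *
      volume.real (ball (0 : E n) 1) - R ^ Module.finrank ℝ (E n) * volume.real (ball (0 : E n) 1)) := by
    fun_prop
  have h2 := (h1.tendsto 0).eventually (gt_mem_nhds (a := η) (by simpa using hη))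
  filter_upwards [h2.filter_mono nhdsWithin_le_nhds, self_mem_nhdsWithin] with ε h3 h4
  have h5 : 0 < ε := h4
  rw [e1 _ (by linarith), e1 R hR]
  exact h3.le

theorem cpt_usc {u v : E n → ℝ} {L K : ℝ≥0} (hu : LipschitzWith L u) (hu0 : ∀ x, 0 ≤ u x)
    (hv : LipschitzWith K v) (hv0 : ∀ x, 0 ≤ v x) (R : ℝ) (hR : 0 < R)
    (hvu : ∀ x, R ≤ ‖x‖ → v x = u x) (η : ℝ) (hη : 0 < η) :
    ∀ᶠ ε in 𝓝[>] (0 : ℝ), ∀ w : E n → ℝ, LMin w → LipschitzWith L w →
      (∀ x ∈ ball (0 : E n) ε⁻¹, |w x - u x| ≤ ε) →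
      en (ball 0 R) w ≤ en (ball 0 R) v + η := by
  filter_upwards [cpt_ann (n := n) R hR
    (((K + (L + L) + max 1 (max (L + L) 1) : ℝ≥0) : ℝ) ^ 2 + 1) η hη, cpt_small 1 one_pos R]
    with ε h1 ⟨h0, _, h3⟩ w hm hw hb
  have hρ : LipschitzWith 1 fun x : E n => max (R + ε - ‖x‖) 0 := by
    refine LipschitzWith.max_const ?_ 0
    have h4 := (LipschitzWith.const (α := E n) (R + ε)).sub lipschitzWith_one_norm
    simpa using h4
  have hT : LipschitzWith (max 1 (max (L + L) 1)) fun x : E n =>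
      max (-max (R + ε - ‖x‖) 0) (min (w x - u x) (max (R + ε - ‖x‖) 0)) :=
    hρ.neg.max ((hw.sub hu).min hρ)
  have hV := (hv.add (hw.sub hu)).sub hT
  have hin : ∀ x ∈ ball (0 : E n) R, v x + (w x - u x) -
      max (-max (R + ε - ‖x‖) 0) (min (w x - u x) (max (R + ε - ‖x‖) 0)) = v x := by
    intro x hx
    have h4 := abs_le.1 (hb x (ball_subset_ball h3 hx))
    have h5 : ‖x‖ < R := mem_ball_zero_iff.1 hx
    have h6 : max (R + ε - ‖x‖) 0 = R + ε - ‖x‖ := max_eq_left (by linarith)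
    rw [h6, min_eq_left (by linarith), max_eq_right (by linarith)]
    ring
  have h4 := hm.min (R + ε) _ ⟨_, hV⟩ ?_ ?_
  · have h5 := (cpt_mono hw (show R ≤ R + ε by linarith)).1
    have h6 := (cpt_mono hV (show R ≤ R + ε by linarith)).2
    have h7 := cpt_congr hin
    linarith
  · intro x
    by_cases hx : x ∈ ball (0 : E n) R
    · rw [hin x hx]
      exact hv0 x
    · rw [hvu x (not_lt.1 fun h => hx (mem_ball_zero_iff.2 h))]
      have h5 := hu0 x
      have h6 := hm.nonneg x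
      have h7 : 0 ≤ max (R + ε - ‖x‖) 0 := le_max_right _ _
      have h8 := min_le_left (w x - u x) (max (R + ε - ‖x‖) 0)
      have h9 : max (-max (R + ε - ‖x‖) 0) (min (w x - u x) (max (R + ε - ‖x‖) 0)) ≤ w x :=
        max_le (by linarith) (by linarith)
      linarith
  · intro x hx
    have h5 : max (R + ε - ‖x‖) 0 = 0 := max_eq_right (by linarith)
    rw [hvu x (by linarith), h5, neg_zero, max_eq_left (min_le_right _ _)]
    ring

theorem cpt (h_ibp : S_ibp) (h_aeq : S_aeq) : S_cpt := by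
  intro n L u h
  have hu : LipschitzWith L u := by
    refine LipschitzWith.of_dist_le_mul fun x y => le_of_forall_pos_le_add fun ε hε => ?_
    obtain ⟨w, _, hw, hb⟩ := h (‖x‖ + ‖y‖ + 1) (ε / 2) (by positivity)
    have h1 := abs_le.1 (hb x (mem_ball_zero_iff.2 (by linarith [norm_nonneg y])))
    have h2 := abs_le.1 (hb y (mem_ball_zero_iff.2 (by linarith [norm_nonneg x])))
    have h3 := hw.dist_le_mul x y
    rw [Real.dist_eq] at h3 ⊢
    rw [abs_le] at h3 ⊢
    constructor <;> linarith [h1.1, h1.2, h2.1, h2.2, h3.1, h3.2]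
  have hu0 : ∀ x, 0 ≤ u x := by
    intro x
    refine le_of_forall_pos_le_add fun ε hε => ?_
    obtain ⟨w, hm, _, hb⟩ := h (‖x‖ + 1) ε hε
    have h1 := abs_le.1 (hb x (mem_ball_zero_iff.2 (by linarith)))
    linarith [hm.nonneg x, h1.2]
  refine ⟨⟨L, hu⟩, hu0, ?_⟩
  intro R v ⟨K, hv⟩ hv0 hvu
  rcases le_or_gt R 0 with hR | hR
  · rw [ball_eq_empty.2 hR]
    simp [en, energy]
  refine le_of_forall_pos_le_add fun η hη => ?_
  obtain ⟨ε, h1, h2, h3⟩ := ((cpt_lsc hu R (η / 4) (by positivity)).and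
    ((cpt_usc hu hu0 hv hv0 R hR hvu (η / 4) (by positivity)).and self_mem_nhdsWithin)).exists
  obtain ⟨w, hm, hw, hb⟩ := h ε⁻¹ ε h3
  linarith [h1 w hw hb, h2 w hm hw hb]

end Vale.Agent.P098
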