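import Mathlib

/-!
# P098: statement-level definitions (one-phase Bernoulli problem)
-/

open MeasureTheory Set Metric
open scoped ContDiff RealInnerProductSpace

noncomputable section
namespace Vale.Agent.P098

/-- Euclidean space of dimension `n`. -/
abbrev E (n : ℕ) : Type := EuclideanSpace ℝ (Fin n)

variable {n : ℕ}

/-- Smooth compactly supported functions with support inside `U`. -/
def IsTest (U : Set (E n)) (ψ : E n → ℝ) : Prop :=
  ContDiff ℝ ∞ ψ ∧ HasCompactSupport ψ ∧ tsupport ψ ⊆ U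

/-- `u` lies in `H¹(U)` with weak gradient `G`. -/
def IsH1 (U : Set (E n)) (u : E n → ℝ) (G : E n → E n) : Prop :=
  MemLp u 2 (volume.restrict U) ∧ MemLp G 2 (volume.restrict U) ∧
    ∀ ψ, IsTest U ψ → ∀ v : E n,
      ∫ x in U, u x * fderiv ℝ ψ x v = -∫ x in U, ⟪G x, v⟫ * ψ x

/-- `u` lies in `H¹₀(U)` (the `H¹`-closure of the test functions) with weak gradient `G`. -/
def IsH10 (U : Set (E n)) (u : E n → ℝ) (G : E n → E n) : Prop :=
  IsH1 U u G ∧ ∀ δ : ℝ, 0 < δ → ∃ ψ, IsTest U ψ ∧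
    (∫ x in U, (u x - ψ x) ^ 2) + ∫ x in U, ‖G x - gradient ψ x‖ ^ 2 < δ

/-- The one-phase Bernoulli energy `J(v; B)` of `v` with weak gradient `G`. -/
def energy (B : Set (E n)) (v : E n → ℝ) (G : E n → E n) : ℝ :=
  (∫ x in B, ‖G x‖ ^ 2) + (volume (B ∩ {x | 0 < v x})).toReal

/-- Nonnegative `u ∈ H¹_loc` minimizing the energy in every ball among nonnegative `H¹`
competitors `v` with `v - u ∈ H¹₀`. -/
def GlobalMin (u : E n → ℝ) : Prop :=
  (∀ᵐ x, 0 ≤ u x) ∧ ∃ G : E n → E n, ∀ (c : E n) (r : ℝ), 0 < r → IsH1 (ball c r) u G ∧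
    ∀ (v : E n → ℝ) (Gv : E n → E n), (∀ᵐ x ∂volume.restrict (ball c r), 0 ≤ v x) →
      IsH1 (ball c r) v Gv → IsH10 (ball c r) (v - u) (Gv - G) →
      energy (ball c r) u G ≤ energy (ball c r) v Gv

/-- One-homogeneity: `u (r x) = r u x` for every `r > 0` and almost every `x`. -/
def OneHomog (u : E n → ℝ) : Prop :=
  ∀ r : ℝ, 0 < r → ∀ᵐ x, u (r • x) = r * u x

end Vale.Agent.P098
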