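import Vale.Agent.P098.Iface

open MeasureTheory Set Metric Filter
open scoped ContDiff RealInnerProductSpace Topology NNReal

noncomputable section
namespace Vale.Agent.P098

theorem ibp_cut {n : ℕ} {g : E n → ℝ} {K U : Set (E n)} (hK : IsCompact K) (hU : IsOpen U)
    (hKU : K ⊆ U) (hg : ContDiffOn ℝ 1 g U) :
    ∃ h : E n → ℝ, ContDiff ℝ 1 h ∧ HasCompactSupport h ∧ ∀ x ∈ K, h =ᶠ[𝓝 x] g := by
  obtain ⟨L, hL, hKL, hLU⟩ := exists_compact_between hK hU hKU
  obtain ⟨χ, h1, h0, -⟩ := exists_contMDiffMap_one_nhds_of_subset_interior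
    (modelWithCornersSelf ℝ (E n)) (n := 1) hK.isClosed hKL
  have hχ : ContDiff ℝ 1 χ := χ.contMDiff.contDiff
  refine ⟨fun x => χ x * g x, contDiff_iff_contDiffAt.2 fun x => ?_,
    HasCompactSupport.intro hL fun x hx => by rw [h0 x hx, zero_mul], fun x hx => ?_⟩
  · by_cases hx : x ∈ L
    · exact hχ.contDiffAt.mul (hg.contDiffAt (hU.mem_nhds (hLU hx)))
    · refine (contDiffAt_const (c := (0 : ℝ))).congr_of_eventuallyEq ?_
      filter_upwards [hL.isClosed.isOpen_compl.mem_nhds hx] with y hy
      rw [h0 y hy, zero_mul]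
  · filter_upwards [h1.filter_mono (nhds_le_nhdsSet hx)] with y hy
    rw [hy, one_mul]

theorem ibp : S_ibp := by
  intro n f g U v ⟨L, hL⟩ hf hU hfU hg
  obtain ⟨h, hh, hc, he⟩ := ibp_cut hf hU hfU hg
  have e1 : (fun x => fderiv ℝ f x v * g x) = fun x => fderiv ℝ f x v * h x := by
    funext x
    by_cases hx : x ∈ tsupport f
    · rw [(he x hx).self_of_nhds]
    · have : fderiv ℝ f x = 0 := by
        by_contra h0
        exact hx (support_fderiv_subset ℝ h0)
      simp [this]
  have e2 : (fun x => f x * fderiv ℝ g x v) = fun x => f x * fderiv ℝ h x v := by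
    funext x
    by_cases hx : x ∈ tsupport f
    · rw [(he x hx).fderiv_eq]
    · simp [image_eq_zero_of_notMem_tsupport hx]
  have hd : Continuous fun x => fderiv ℝ h x v :=
    (hh.continuous_fderiv one_ne_zero).clm_apply continuous_const
  rw [e1, e2]
  refine ⟨?_, (hL.continuous.mul hd).integrable_of_hasCompactSupport hf.mul_right, ?_⟩
  · refine (hh.continuous.integrable_of_hasCompactSupport hc).bdd_mul (c := L * ‖v‖)
      (measurable_fderiv_apply_const ℝ f v).aestronglyMeasurable (Eventually.of_forall fun x => ?_)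
    exact ((fderiv ℝ f x).le_opNorm v).trans
      (mul_le_mul_of_nonneg_right (norm_fderiv_le_of_lipschitz ℝ hL) (norm_nonneg _))
  · obtain ⟨D, hD⟩ := ContDiff.lipschitzWith_of_hasCompactSupport hc hh one_ne_zero
    have key := LipschitzWith.integral_lineDeriv_mul_eq (μ := volume) hL hD hc v
    have k1 : ∫ x, lineDeriv ℝ f x v * h x = ∫ x, fderiv ℝ f x v * h x := by
      refine integral_congr_ae ?_
      filter_upwards [hL.ae_differentiableAt] with x hx
      rw [hx.lineDeriv_eq_fderiv]
    rw [← k1, key, ← integral_neg]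
    refine integral_congr_ae (Eventually.of_forall fun x => ?_)
    simp only [(hh.differentiable one_ne_zero x).lineDeriv_eq_fderiv, map_neg]
    ring

theorem ibp_loc {n : ℕ} {h : E n → ℝ} {L : ℝ} (hc : Continuous h)
    (hl : ∀ x, ∀ᶠ y in 𝓝 x, h y - h x ≤ L * dist y x) (x y : E n) :
    h y ≤ h x + L * dist y x := by
  have hγ : Continuous fun t : ℝ => x + t • (y - x) := by fun_prop
  have key := image_le_of_liminf_slope_right_le_deriv_boundary
    (f := fun t : ℝ => h (x + t • (y - x))) (a := 0) (b := 1)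
    (B := fun t => h x + L * dist y x * t) (B' := fun _ => L * dist y x)
    (hc.comp hγ).continuousOn (by simp) (by fun_prop)
    (fun t _ => by
      simpa using (((hasDerivAt_id t).const_mul (L * dist y x)).const_add (h x)).hasDerivWithinAt)
    (fun t _ r hr => by
      refine Eventually.frequently ?_
      filter_upwards [mem_nhdsWithin_of_mem_nhds ((hγ.tendsto t).eventually (hl _)),
        self_mem_nhdsWithin] with z hz hzt
      have h1 : 0 < z - t := sub_pos.2 hzt
      have h2 : dist (x + z • (y - x)) (x + t • (y - x)) = (z - t) * dist y x := by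
        rw [dist_eq_norm, dist_eq_norm, add_sub_add_left_eq_sub, ← sub_smul, norm_smul,
          Real.norm_of_nonneg h1.le]
      rw [slope_def_field, div_lt_iff₀ h1]
      rw [h2] at hz
      nlinarith)
    (right_mem_Icc.2 zero_le_one)
  simpa using key

/-- Truncation near zero. -/
def ibp_T (ε t : ℝ) : ℝ := max (t - ε) 0 + min (t + ε) 0

theorem ibp_T_lip {ε : ℝ} (hε : 0 < ε) (a b : ℝ) : ibp_T ε a - ibp_T ε b ≤ |a - b| := by
  have h1 := le_abs_self (a - b)
  have h2 := abs_nonneg (a - b)
  simp only [ibp_T, max_def, min_def]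
  split_ifs <;> linarith

theorem ibp_T_near {ε : ℝ} (hε : 0 < ε) (a : ℝ) : a - ε ≤ ibp_T ε a ∧ ibp_T ε a ≤ a + ε := by
  simp only [ibp_T, max_def, min_def]
  split_ifs <;> constructor <;> linarith

theorem ibp_T_zero {ε a : ℝ} (h : |a| < ε) : ibp_T ε a = 0 := by
  have := abs_lt.1 h
  rw [ibp_T, max_eq_right (by linarith), min_eq_right (by linarith), add_zero]

theorem glue : S_glue := by
  intro n f U L _ hf h0 hl
  refine LipschitzWith.of_le_add_mul L fun y x => le_of_forall_pos_le_add fun ε hε => ?_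
  have hε2 : 0 < ε / 2 := half_pos hε
  have key := ibp_loc (h := fun z => ibp_T (ε / 2) (f z)) (L := L) (by unfold ibp_T; fun_prop)
    (fun z => by
      by_cases hz : z ∈ U
      · obtain ⟨W, hW, h1⟩ := hl z hz
        filter_upwards [hW] with w hw
        exact (ibp_T_lip hε2 _ _).trans (h1.dist_le_mul w hw z (mem_of_mem_nhds hW))
      · have h1 : ∀ᶠ w in 𝓝 z, |f w| < ε / 2 :=
          hf.abs.continuousAt.eventually_lt continuousAt_const (by rw [h0 z hz]; simpa)
        filter_upwards [h1] with w hw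
        rw [ibp_T_zero hw, ibp_T_zero h1.self_of_nhds, sub_zero]
        positivity) x y
  have h1 := (ibp_T_near hε2 (f y)).1
  have h2 := (ibp_T_near hε2 (f x)).2
  linarith

theorem aeq : S_aeq := by
  intro n f ⟨L, hL⟩
  filter_upwards [(hL.max_const 0).ae_differentiableAt (μ := volume),
    (hL.min_const 0).ae_differentiableAt (μ := volume)] with x h1 h2 hx
  have k1 : fderiv ℝ (fun y => max (f y) 0) x = 0 :=
    IsLocalMin.fderiv_eq_zero (Eventually.of_forall fun y => by simp [hx])
  have k2 : fderiv ℝ (fun y => min (f y) 0) x = 0 :=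
    IsLocalMax.fderiv_eq_zero (Eventually.of_forall fun y => by simp [hx])
  have e : f = fun y => max (f y) 0 + min (f y) 0 := funext fun y => by simp
  rw [e, fderiv_fun_add h1 h2, k1, k2, add_zero]

end Vale.Agent.P098
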