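import Vale.Agent.P098.Defs

/-!
# P098: working definitions and the statements of all steps (see skel/P098/BLUEPRINT.md)
-/

open MeasureTheory Set Metric Filter
open scoped ContDiff RealInnerProductSpace Topology NNReal

noncomputable section
namespace Vale.Agent.P098

variable {n : ℕ}

/-- Partial derivative. -/
def pd (i : Fin n) (f : E n → ℝ) : E n → ℝ := fun x => fderiv ℝ f x (EuclideanSpace.single i 1)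

/-- Laplacian. -/
def lap (f : E n → ℝ) (x : E n) : ℝ := ∑ i, pd i (pd i f) x

/-- Smooth and harmonic on `U`. -/
def Harm (U : Set (E n)) (h : E n → ℝ) : Prop := ContDiffOn ℝ ∞ h U ∧ ∀ x ∈ U, lap h x = 0

/-- Globally Lipschitz. -/
def Lip (f : E n → ℝ) : Prop := ∃ L : ℝ≥0, LipschitzWith L f

/-- Energy with the classical (a.e.) gradient. -/
def en (B : Set (E n)) (u : E n → ℝ) : ℝ := energy B u (gradient u)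

/-- Lipschitz global minimizers. -/
structure LMin (u : E n → ℝ) : Prop where
  lip : Lip u
  nonneg : ∀ x, 0 ≤ u x
  min : ∀ (R : ℝ) (v : E n → ℝ), Lip v → (∀ x, 0 ≤ v x) → (∀ x, R ≤ ‖x‖ → v x = u x) →
    en (ball 0 R) u ≤ en (ball 0 R) v

/-- Positivity set. -/
def Om (u : E n → ℝ) : Set (E n) := {x | 0 < u x}

/-- Free boundary points. -/
def FB (u : E n → ℝ) (x : E n) : Prop := u x = 0 ∧ x ∈ closure (Om u)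

/-- Homogeneous of degree one (everywhere). -/
def Hom (u : E n → ℝ) : Prop := ∀ (r : ℝ) (x : E n), 0 < r → u (r • x) = r * u x

/-- Zero or a half-space solution. -/
def Flat (u : E n → ℝ) : Prop :=
  (∀ x, u x = 0) ∨ ∃ e : E n, ‖e‖ = 1 ∧ ∀ x, u x = max ⟪x, e⟫ 0

/-- Rescaling around `x₀`. -/
def resc (u : E n → ℝ) (x₀ : E n) (r : ℝ) : E n → ℝ := fun x => u (x₀ + r • x) / r

/-- `(P + a)₊ ≤ u ≤ (P + b)₊` on `S`. -/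
def Trap (u P : E n → ℝ) (a b : ℝ) (S : Set (E n)) : Prop :=
  ∀ x ∈ S, P x + a ≤ u x ∧ u x ≤ max (P x + b) 0

/-- Reflection in the hyperplane orthogonal to the unit vector `e`. -/
def refl (e x : E n) : E n := x - (2 * ⟪x, e⟫) • e

/-- All Lipschitz minimizing cones in dimension `n` are flat. -/
def ConeFlat (n : ℕ) : Prop := ∀ u : E n → ℝ, LMin u → Hom u → Flat u

abbrev T1 (n : ℕ) : Type := Fin n → ℝ
abbrev T2 (n : ℕ) : Type := Fin n → Fin n → ℝ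
abbrev T3 (n : ℕ) : Type := Fin n → Fin n → Fin n → ℝ

def D1 (u : E n → ℝ) (x : E n) : T1 n := fun i => pd i u x
def D2 (u : E n → ℝ) (x : E n) : T2 n := fun i j => pd i (pd j u) x
def D3 (u : E n → ℝ) (x : E n) : T3 n := fun i j k => pd i (pd j (pd k u)) x

/-- Cubic polynomial with the given jets at the origin. -/
def cub (b : T1 n) (A : T2 n) (B : T3 n) (x : E n) : ℝ :=
  ∑ i, b i * x i + (1 / 2) * ∑ i, ∑ j, A i j * x i * x j +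
    (1 / 6) * ∑ i, ∑ j, ∑ k, B i j k * x i * x j * x k

/-- Symmetric and trace free. -/
structure SymTr (A : T2 n) (B : T3 n) : Prop where
  a : ∀ i j, A i j = A j i
  b1 : ∀ i j k, B i j k = B j i k
  b2 : ∀ i j k, B i j k = B i k j
  ta : ∑ i, A i i = 0
  tb : ∀ k, ∑ i, B i i k = 0

/-- Mean curvature `H = - A(b, b)`. -/
def hh (b : T1 n) (A : T2 n) : ℝ := -∑ i, ∑ j, A i j * b i * b j

/-- Jets of order three of a smooth solution at a free boundary point. -/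
structure Adm (b : T1 n) (A : T2 n) (B : T3 n) : Prop where
  st : SymTr A B
  unit : ∑ i, b i ^ 2 = 1
  eig : ∀ i, ∑ j, A i j * b j = -hh b A * b i
  tang : ∀ x y : T1 n, ∑ i, b i * x i = 0 → ∑ i, b i * y i = 0 →
    ∑ i, ∑ j, (∑ k, B i j k * b k + ∑ k, A i k * A k j + hh b A * A i j) * x i * y j = 0

/-- Jets even in the direction `e`. -/
structure Even3 (e : E n) (h1 : T1 n) (h2 : T2 n) (h3 : T3 n) : Prop where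
  st : SymTr h2 h3
  e1 : ∑ i, h1 i * e i = 0
  e2 : ∀ x : T1 n, ∑ i, e i * x i = 0 → ∑ i, ∑ j, h2 i j * e i * x j = 0
  e3 : ∀ x y : T1 n, ∑ i, e i * x i = 0 → ∑ i, e i * y i = 0 →
    ∑ i, ∑ j, ∑ k, h3 i j k * x i * y j * e k = 0

/-- Hypotheses on the comparison function in the improvement of flatness. -/
structure Good (e : E n) (σ ε : ℝ) (P : E n → ℝ) : Prop where
  sm : ContDiff ℝ ∞ P
  harm : ∀ x, lap P x = 0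
  zero : P 0 = 0
  grad : ∀ x ∈ ball (0 : E n) 1, ‖gradient P x - e‖ ≤ σ
  fb : ∀ x ∈ ball (0 : E n) 1, |‖gradient P x‖ ^ 2 - 1| ≤ σ * (|P x| + ε)

/-- Regularity of a cone up to the free boundary, away from the vertex. -/
structure Reg (u : E n → ℝ) : Prop where
  grad_le : ∀ x ∈ Om u, ∑ i, D1 u x i ^ 2 ≤ 1
  bdd : ∃ C : ℝ, ∀ x ∈ Om u, 1 ≤ ‖x‖ → ‖x‖ ≤ 2 → ‖D2 u x‖ ≤ C ∧ ‖D3 u x‖ ≤ C
  bd : ∀ η : ℝ, 0 < η → ∃ δ : ℝ, 0 < δ ∧ ∀ x ∈ Om u, 1 ≤ ‖x‖ → ‖x‖ ≤ 2 → u x < δ →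
    ∃ (b : T1 n) (A : T2 n) (B : T3 n), Adm b A B ∧ ‖D1 u x - b‖ ≤ η ∧ ‖D2 u x - A‖ ≤ η ∧
      ‖D3 u x - B‖ ≤ η ∧ |(1 - ∑ i, D1 u x i ^ 2) / u x - 2 * hh b A| ≤ η

/-! ## Lipschitz calculus -/

/-- Integration by parts. -/
def S_ibp : Prop := ∀ (n : ℕ) (f g : E n → ℝ) (U : Set (E n)) (v : E n), Lip f →
  HasCompactSupport f → IsOpen U → tsupport f ⊆ U → ContDiffOn ℝ 1 g U →
  Integrable (fun x => fderiv ℝ f x v * g x) ∧ Integrable (fun x => f x * fderiv ℝ g x v) ∧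
    ∫ x, fderiv ℝ f x v * g x = -∫ x, f x * fderiv ℝ g x v

/-- Gluing of local Lipschitz bounds. -/
def S_glue : Prop := ∀ (n : ℕ) (f : E n → ℝ) (U : Set (E n)) (L : ℝ≥0), IsOpen U → Continuous f →
  (∀ x, x ∉ U → f x = 0) → (∀ x ∈ U, ∃ W ∈ 𝓝 x, LipschitzOnWith L f W) → LipschitzWith L f

/-- The gradient vanishes a.e. on the zero set. -/
def S_aeq : Prop := ∀ (n : ℕ) (f : E n → ℝ), Lip f → ∀ᵐ x, f x = 0 → fderiv ℝ f x = 0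

/-! ## Harmonic functions -/

/-- A radial mollifier `κ` such that `κ(y) y` is the gradient of a test function `φ`. -/
structure Ker (κ φ : E n → ℝ) (c : ℝ) : Prop where
  pos : 0 < c
  tk : IsTest (ball 0 1) κ
  tf : IsTest (ball 0 1) φ
  nonneg : ∀ y, 0 ≤ κ y
  one : ∫ y, κ y = 1
  low : ∀ y ∈ ball (0 : E n) (1 / 2), c ≤ κ y
  even : ∀ y, κ (-y) = κ y
  grad : ∀ y, gradient φ y = κ y • y

def S_ker : Prop := ∀ n : ℕ, ∃ (κ φ : E n → ℝ) (c : ℝ), Ker κ φ c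

/-- Weakly harmonic on `U`. -/
def Weak (U : Set (E n)) (u : E n → ℝ) : Prop := ∀ ψ, IsTest U ψ → ∫ x, u x * lap ψ x = 0

def S_weak : Prop := ∀ (n : ℕ) (U : Set (E n)) (h : E n → ℝ), IsOpen U → Harm U h → Weak U h

/-- Mean value property. -/
def S_mean : Prop := ∀ (n : ℕ) (κ φ : E n → ℝ) (c : ℝ) (U : Set (E n)) (u : E n → ℝ) (x : E n)
  (r : ℝ), Ker κ φ c → IsOpen U → ContinuousOn u U → Weak U u → 0 < r → closedBall x r ⊆ U →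
    u x = ∫ y, κ y * u (x + r • y)

def S_weyl : Prop := ∀ (n : ℕ) (U : Set (E n)) (u : E n → ℝ), IsOpen U → ContinuousOn u U →
  Weak U u → Harm U u

def S_est : Prop := ∀ n : ℕ, ∃ C : ℝ, 0 < C ∧ ∀ (U : Set (E n)) (h : E n → ℝ) (x : E n) (r : ℝ),
  IsOpen U → Harm U h → 0 < r → closedBall x r ⊆ U →
    (∀ M : ℝ, (∀ y ∈ closedBall x r, |h y| ≤ M) → ∀ k : ℕ, k ≤ 4 →
      ‖iteratedFDeriv ℝ k h x‖ ≤ C * M / r ^ k) ∧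
    ‖fderiv ℝ h x‖ ≤ C / r ^ (n + 1) * ∫ y in ball x r, |h y|

def S_harnack : Prop := ∀ n : ℕ, ∃ c : ℝ, 0 < c ∧ ∀ (U : Set (E n)) (h : E n → ℝ) (x : E n)
  (r : ℝ), IsOpen U → Harm U h → 0 < r → closedBall x r ⊆ U → (∀ y ∈ closedBall x r, 0 ≤ h y) →
    ∀ y ∈ closedBall x (r / 10), c * h x ≤ h y ∧ c * h y ≤ h x

def S_max : Prop := ∀ (n : ℕ) (h : E n → ℝ) (x : E n) (r M : ℝ), 0 < n → ContDiff ℝ 2 h →
  (∀ y ∈ ball x r, 0 ≤ lap h y) → (∀ y ∈ sphere x r, h y ≤ M) → ∀ y ∈ closedBall x r, h y ≤ M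

/-- Approximate Dirichlet problem with even data. -/
def S_dir : Prop := ∀ (n : ℕ) (e : E n) (g : E n → ℝ) (r γ : ℝ), ‖e‖ = 1 → 0 < r → 0 < γ →
  ContinuousOn g (sphere 0 r) → (∀ x, g (refl e x) = g x) →
  ∃ h : E n → ℝ, ContDiff ℝ ∞ h ∧ (∀ x, lap h x = 0) ∧ (∀ x, h (refl e x) = h x) ∧
    ∀ x ∈ sphere (0 : E n) r, |h x - g x| ≤ γ

/-- Taylor expansion of even harmonic functions. -/
def S_taylor : Prop := ∀ n : ℕ, ∃ C : ℝ, 0 < C ∧ ∀ (e : E n) (h : E n → ℝ), ‖e‖ = 1 →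
  ContDiff ℝ ∞ h → (∀ x, lap h x = 0) → (∀ x, h (refl e x) = h x) →
  (∀ x ∈ ball (0 : E n) (1 / 4), |h x| ≤ 2) →
  ∃ (h1 : T1 n) (h2 : T2 n) (h3 : T3 n), Even3 e h1 h2 h3 ∧ ‖h1‖ ≤ C ∧ ‖h2‖ ≤ C ∧ ‖h3‖ ≤ C ∧
    ∀ x ∈ ball (0 : E n) (1 / 8), |h x - h 0 - cub h1 h2 h3 x| ≤ C * ‖x‖ ^ 4

/-- Calculus of cubic polynomials. -/
def S_cub : Prop := ∀ (n : ℕ) (b : T1 n) (A : T2 n) (B : T3 n), SymTr A B →
  ContDiff ℝ ∞ (cub b A B) ∧ (∀ x, lap (cub b A B) x = 0) ∧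
  (∀ x i, gradient (cub b A B) x i =
    b i + ∑ j, A i j * x j + (1 / 2) * ∑ j, ∑ k, B i j k * x j * x k) ∧
  (∀ x i, D1 (cub b A B) x i =
    b i + ∑ j, A i j * x j + (1 / 2) * ∑ j, ∑ k, B i j k * x j * x k) ∧
  (∀ x i j, D2 (cub b A B) x i j = A i j + ∑ k, B i j k * x k) ∧ ∀ x, D3 (cub b A B) x = B

/-- The free boundary condition along admissible cubics. -/
def S_admR : Prop := ∀ n : ℕ, ∃ C : ℝ, 0 < C ∧ ∀ (b : T1 n) (A : T2 n) (B : T3 n), Adm b A B →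
  ∃ q : T1 n, ‖q‖ ≤ C * (‖B‖ + ‖A‖ ^ 2) ∧ ∀ x : E n, ‖x‖ ≤ 1 →
    |‖gradient (cub b A B) x‖ ^ 2 - 1 - cub b A B x * (-2 * hh b A + ∑ i, q i * x i)| ≤
      C * (‖A‖ * ‖B‖ + ‖B‖ ^ 2 + ‖A‖ ^ 3 + ‖A‖ ^ 2 * ‖B‖) * ‖x‖ ^ 3

/-- Projection onto admissible jets. -/
def S_proj : Prop := ∀ (n : ℕ) (e : E n) (C η : ℝ), ‖e‖ = 1 → 0 < C → 0 < η →
  ∃ σ : ℝ, 0 < σ ∧ ∀ (b : T1 n) (A : T2 n) (B : T3 n) (h1 : T1 n) (h2 : T2 n) (h3 : T3 n)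
    (ε : ℝ), Adm b A B → ‖b - (fun i => e i)‖ ≤ σ → ‖A‖ ≤ σ → ‖B‖ ≤ σ → Even3 e h1 h2 h3 →
    ‖h1‖ ≤ C → ‖h2‖ ≤ C → ‖h3‖ ≤ C → 0 < ε → ε ≤ σ →
    ∃ (b' : T1 n) (A' : T2 n) (B' : T3 n), Adm b' A' B' ∧ ‖b' - (b + ε • h1)‖ ≤ η * ε ∧
      ‖A' - (A + ε • h2)‖ ≤ η * ε ∧ ‖B' - (B + ε • h3)‖ ≤ η * ε

/-! ## From `H¹` to Lipschitz minimizers -/

def S_h10 : Prop := ∀ (n : ℕ) (U K : Set (E n)) (f : E n → ℝ) (G : E n → E n), IsOpen U →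
  IsCompact K → K ⊆ U → IsH1 U f G → (∀ᵐ x ∂volume.restrict U, x ∉ K → f x = 0) → IsH10 U f G

def S_trunc : Prop := ∀ (n : ℕ) (U : Set (E n)) (f : E n → ℝ) (G : E n → E n), IsOpen U →
  IsH1 U f G → IsH1 U (fun x => max (f x) 0) (fun x => if 0 < f x then G x else 0)

/-- Lipschitz functions are `H¹`; weak gradients are unique. -/
def S_liph1 : Prop := ∀ (n : ℕ) (c : E n) (r : ℝ),
  (∀ f : E n → ℝ, Lip f → IsH1 (ball c r) f (gradient f)) ∧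
  ∀ (f f' : E n → ℝ) (G G' : E n → E n), IsH1 (ball c r) f G → IsH1 (ball c r) f' G' →
    f =ᵐ[volume.restrict (ball c r)] f' → G =ᵐ[volume.restrict (ball c r)] G'

/-- A global minimizer has a continuous representative with linear growth of the averages. -/
def S_cont : Prop := ∀ n : ℕ, ∃ C : ℝ, 0 < C ∧ ∀ u : E n → ℝ, GlobalMin u →
  ∃ v : E n → ℝ, Continuous v ∧ u =ᵐ[volume] v ∧ (∀ x, 0 ≤ v x) ∧
    ∀ (x : E n) (r : ℝ), 0 < r → ∫ y in ball x r, v y ≤ C * r ^ n * (v x + r)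

def S_step0 : Prop := ∀ (n : ℕ) (u : E n → ℝ), GlobalMin u → OneHomog u →
  ∃ v : E n → ℝ, u =ᵐ[volume] v ∧ LMin v ∧ Hom v

/-! ## Lipschitz minimizers -/

def S_inv : Prop := ∀ (n : ℕ) (u : E n → ℝ), LMin u →
  (∀ (x₀ : E n) (r : ℝ), 0 < r → LMin (resc u x₀ r)) ∧ ∀ R : E n ≃ₗᵢ[ℝ] E n, LMin (u ∘ R)

def S_harm : Prop := ∀ (n : ℕ) (u : E n → ℝ), LMin u → Harm (Om u) u

def S_orth : Prop := ∀ (n : ℕ) (u ψ : E n → ℝ), LMin u → Lip ψ → HasCompactSupport ψ →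
  (∀ x, u x = 0 → ψ x = 0) → ∫ x, ⟪gradient u x, gradient ψ x⟫ = 0

/-- Comparison from below. -/
def S_cb : Prop := ∀ (n : ℕ) (u φ : E n → ℝ) (c : E n) (r : ℝ), LMin u → ContDiff ℝ 2 φ →
  (∀ x ∈ sphere c r, φ x ≤ u x) → (∀ x ∈ ball c r, u x < φ x → 0 < lap φ x) →
  (∀ x ∈ ball c r, u x = 0 → 0 < φ x → 1 ≤ ‖gradient φ x‖) → ∀ x ∈ ball c r, φ x ≤ u x

/-- Comparison from above. -/
def S_ca : Prop := ∀ (n : ℕ) (u φ : E n → ℝ) (c : E n) (r : ℝ), LMin u → ContDiff ℝ 2 φ →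
  (∀ x ∈ sphere c r, u x ≤ max (φ x) 0) →
  (∀ x ∈ ball c r, 0 < φ x → φ x < u x → lap φ x < 0) →
  (∀ x ∈ ball c r, φ x ≤ 0 → 0 < u x → ‖gradient φ x‖ ^ 2 + 2 * u x * lap φ x < 1) →
  ∀ x ∈ ball c r, u x ≤ max (φ x) 0

def S_nondeg : Prop := ∀ n : ℕ, ∃ c : ℝ, 0 < c ∧ ∀ (u : E n → ℝ) (x₀ : E n) (r : ℝ), LMin u →
  0 < r → (∀ x ∈ closedBall x₀ r, u x ≤ c * r) → ∀ x ∈ ball x₀ (r / 2), u x = 0

def S_zero : Prop := ∀ (n : ℕ) (u : E n → ℝ) (x₀ : E n) (r : ℝ), LMin u → FB u x₀ → 0 < r →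
  volume (ball x₀ r ∩ {x | u x = 0}) ≠ 0

def S_slope : Prop := ∀ (n : ℕ) (e : E n) (a : ℝ), ‖e‖ = 1 → 0 < a →
  LMin (fun x : E n => a * max ⟪x, e⟫ 0) → a = 1

def S_flatfin : Prop := ∀ (n : ℕ) (u : E n → ℝ), LMin u → Hom u →
  (∀ x ∈ Om u, D2 u x = 0) → Flat u

def S_cpt : Prop := ∀ (n : ℕ) (L : ℝ≥0) (u : E n → ℝ),
  (∀ R ε : ℝ, 0 < ε → ∃ v : E n → ℝ, LMin v ∧ LipschitzWith L v ∧
    ∀ x ∈ ball (0 : E n) R, |v x - u x| ≤ ε) → LMin u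

/-- Inner variations along radial fields. -/
def S_iv : Prop := ∀ (n : ℕ) (u : E n → ℝ) (η : ℝ → ℝ), LMin u → ContDiff ℝ ∞ η →
  HasCompactSupport η →
  ∫ x : E n, ((‖gradient u x‖ ^ 2 + (Om u).indicator (fun _ => (1 : ℝ)) x) *
      (n * η (‖x‖ ^ 2) + 2 * deriv η (‖x‖ ^ 2) * ‖x‖ ^ 2) - 2 * η (‖x‖ ^ 2) * ‖gradient u x‖ ^ 2 -
      4 * deriv η (‖x‖ ^ 2) * ⟪x, gradient u x⟫ ^ 2) = 0

/-- Consequence of the Weiss monotonicity formula. -/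
def S_weiss : Prop := ∀ (n : ℕ) (u : E n → ℝ) (η r₀ : ℝ), LMin u → u 0 = 0 → 0 < η → 0 < r₀ →
  ∃ r : ℝ, 0 < r ∧ r < r₀ ∧
    ∫ x in ball (0 : E n) 1, (⟪x, gradient (resc u 0 r) x⟫ - resc u 0 r x) ^ 2 ≤ η

def S_blow : Prop := ∀ (n : ℕ) (u : E n → ℝ) (x₀ : E n), LMin u → Hom u → FB u x₀ →
  ∃ v : E n → ℝ, LMin v ∧ Hom v ∧ (∀ (x : E n) (t : ℝ), v (x + t • x₀) = v x) ∧ (∃ x, v x ≠ 0) ∧
    ∀ ε : ℝ, 0 < ε → ∃ r : ℝ, 0 < r ∧ ∀ x ∈ ball (0 : E n) 1, |resc u x₀ r x - v x| ≤ ε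

def S_red : Prop := ∀ (n : ℕ) (v : E (n + 1) → ℝ) (x₀ : E (n + 1)), ConeFlat n → x₀ ≠ 0 →
  LMin v → Hom v → (∀ (x : E (n + 1)) (t : ℝ), v (x + t • x₀) = v x) → Flat v

def S_flat : Prop := ∀ (n : ℕ) (u : E (n + 1) → ℝ) (x₀ : E (n + 1)), ConeFlat n → LMin u →
  Hom u → FB u x₀ → x₀ ≠ 0 → ∃ e : E (n + 1), ‖e‖ = 1 ∧ ∀ ε : ℝ, 0 < ε → ∃ r : ℝ, 0 < r ∧
    Trap (resc u x₀ r) (fun x => ⟪x, e⟫) (-ε) ε (ball 0 1)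

/-! ## Improvement of flatness -/

def S_osc : Prop := ∀ n : ℕ, ∃ c σ θ : ℝ, 0 < c ∧ c ≤ 1 / 2 ∧ 0 < σ ∧ 0 < θ ∧
  ∀ (u P : E n → ℝ) (e x₀ : E n) (r a b : ℝ), LMin u → ‖e‖ = 1 → ContDiff ℝ ∞ P →
    (∀ x, lap P x = 0) → 0 < r → a < b → b - a ≤ θ * r →
    (∀ x ∈ ball x₀ r, ‖gradient P x - e‖ ≤ σ) →
    (∀ x ∈ ball x₀ r, |P x + a| ≤ 2 * (b - a) → |‖gradient P x‖ ^ 2 - 1| ≤ σ * (b - a) / r) →
    Trap u P a b (ball x₀ r) →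
    Trap u P (a + c * (b - a)) b (ball x₀ (r / 200)) ∨
      Trap u P a (b - c * (b - a)) (ball x₀ (r / 200))

def S_hol : Prop := ∀ n : ℕ, ∃ σ₀ : ℝ, 0 < σ₀ ∧ ∀ η : ℝ, 0 < η → ∃ ρ ε₀ : ℝ, 0 < ρ ∧ 0 < ε₀ ∧
  ∀ (u P : E n → ℝ) (e : E n) (σ ε : ℝ), LMin u → ‖e‖ = 1 → Good e σ ε P → σ ≤ σ₀ → 0 < ε →
    ε ≤ ε₀ → Trap u P (-ε) ε (ball 0 1) → ∀ x ∈ ball (0 : E n) (1 / 2),
    ∀ y ∈ ball (0 : E n) (1 / 2), x ∈ closure (Om u) → y ∈ closure (Om u) → ‖x - y‖ ≤ ρ →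
      |(u x - P x) - (u y - P y)| ≤ η * ε

def S_core : Prop := ∀ (n : ℕ) (e : E n) (γ : ℝ), ‖e‖ = 1 → 0 < γ → ∃ σ₀ : ℝ, 0 < σ₀ ∧
  ∀ (u P : E n → ℝ) (σ ε : ℝ), LMin u → Good e σ ε P → σ ≤ σ₀ → 0 < ε → ε ≤ σ₀ →
    Trap u P (-ε) ε (ball 0 1) →
    ∃ h : E n → ℝ, ContDiff ℝ ∞ h ∧ (∀ x, lap h x = 0) ∧ (∀ x, h (refl e x) = h x) ∧
      (∀ x ∈ ball (0 : E n) (1 / 4), |h x| ≤ 2) ∧
      Trap u (fun x => P x + ε * h x) (-(γ * ε)) (γ * ε) (ball 0 (1 / 4))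

def S_jet : Prop := ∀ (n : ℕ) (e : E n), ‖e‖ = 1 → ∃ ε C : ℝ, 0 < ε ∧ 0 < C ∧
  ∀ u : E n → ℝ, LMin u → FB u 0 → Trap u (fun x => ⟪x, e⟫) (-ε) ε (ball 0 1) →
    ∃ (b : T1 n) (A : T2 n) (B : T3 n), Adm b A B ∧ ‖A‖ ≤ 1 ∧ ‖B‖ ≤ 1 ∧
      ∀ r : ℝ, 0 < r → r ≤ 1 →
        Trap u (cub b A B) (-(C * r ^ 3 * √r)) (C * r ^ 3 * √r) (ball 0 r)

/-- Uniform expansions along the free boundary of a cone. -/
def JetU (u : E n → ℝ) : Prop := ∃ C r₀ : ℝ, 0 < C ∧ 0 < r₀ ∧ ∀ x₀ : E n, FB u x₀ →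
  1 / 2 ≤ ‖x₀‖ → ‖x₀‖ ≤ 3 → ∃ (b : T1 n) (A : T2 n) (B : T3 n), Adm b A B ∧ ‖A‖ ≤ C ∧ ‖B‖ ≤ C ∧
    ∀ r : ℝ, 0 < r → r ≤ r₀ → Trap u (fun x => cub b A B (x - x₀)) (-(C * r ^ 3 * √r))
      (C * r ^ 3 * √r) (ball x₀ r)

def S_jetU : Prop := ∀ (n : ℕ) (u : E (n + 1) → ℝ), ConeFlat n → LMin u → Hom u → JetU u

def S_reg : Prop := ∀ (n : ℕ) (u : E n → ℝ), 2 ≤ n → LMin u → Hom u → JetU u → Reg u

/-! ## Certificates -/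

/-- Jets at an interior point of a cone. -/
structure St (x p : T1 n) (A : T2 n) (B : T3 n) (u : ℝ) : Prop where
  st : SymTr A B
  ax : ∀ i, ∑ j, A i j * x j = 0
  bx : ∀ i j, ∑ k, B i j k * x k = -A i j
  px : ∑ i, x i * p i = u
  u0 : 0 ≤ u
  p1 : ∑ i, p i ^ 2 ≤ 1
  x0 : x ≠ 0
  a0 : A ≠ 0
  uw : u ^ 2 * ∑ i, ∑ j, A i j ^ 2 ≤ 25 / 24 * n * (1 - ∑ i, p i ^ 2)

def sqA (A : T2 n) : T2 n := fun i j => ∑ k, A i k * A k j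
def nA (A : T2 n) : ℝ := ∑ i, ∑ j, A i j ^ 2
def tA (A : T2 n) : ℝ := ∑ i, ∑ j, sqA A i j * A i j
def nB (B : T3 n) : ℝ := ∑ i, ∑ j, ∑ k, B i j k ^ 2
def ap (A : T2 n) (p : T1 n) : T1 n := fun i => ∑ j, A i j * p j
def ct (M : T2 n) (B : T3 n) : T1 n := fun k => ∑ i, ∑ j, M i j * B i j k

/-- The invariants `|A|², tr A³, |p|², u, |x|²`. -/
def inv (x p : T1 n) (A : T2 n) (u : ℝ) : Fin 5 → ℝ :=
  ![nA A, tA A, ∑ i, p i ^ 2, u, ∑ i, x i ^ 2]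

/-- Gradients of the invariants. -/
def ginv (x p : T1 n) (A : T2 n) (B : T3 n) : Fin 5 → T1 n :=
  ![fun k => 2 * ct A B k, fun k => 3 * ct (sqA A) B k, fun k => 2 * ap A p k, p, fun k => 2 * x k]

def dd (f : (Fin 5 → ℝ) → ℝ) (a : Fin 5) (z : Fin 5 → ℝ) : ℝ := fderiv ℝ f z (Pi.single a 1)

/-- Gradient of `f` composed with the invariants. -/
def gr (f : (Fin 5 → ℝ) → ℝ) (x p : T1 n) (A : T2 n) (B : T3 n) (u : ℝ) : T1 n :=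
  fun k => ∑ a, dd f a (inv x p A u) * ginv x p A B a k

/-- Coefficient functions: `ρ` and the coefficients of the vector field. -/
structure Co where
  ρ : (Fin 5 → ℝ) → ℝ
  F1 : (Fin 5 → ℝ) → ℝ
  F2 : (Fin 5 → ℝ) → ℝ
  G0 : (Fin 5 → ℝ) → ℝ
  G1 : (Fin 5 → ℝ) → ℝ
  G2 : (Fin 5 → ℝ) → ℝ

/-- The vector field. -/
def vf (c : Co) (x p : T1 n) (A : T2 n) (B : T3 n) (u : ℝ) : T1 n := fun k =>
  c.F1 (inv x p A u) * ct A B k + c.F2 (inv x p A u) * ct (sqA A) B k +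
    c.G0 (inv x p A u) * p k + c.G1 (inv x p A u) * ap A p k +
    c.G2 (inv x p A u) * ap (sqA A) p k

/-- The divergence of the vector field. -/
def dv (c : Co) (x p : T1 n) (A : T2 n) (B : T3 n) (u : ℝ) : ℝ :=
  c.F1 (inv x p A u) * nB B +
    c.F2 (inv x p A u) * (2 * ∑ i, ∑ j, A i j * ∑ l, ∑ k, B i l k * B j l k) +
    c.G1 (inv x p A u) * nA A + c.G2 (inv x p A u) * (∑ k, ct A B k * p k + tA A) +
    ∑ k, (gr c.F1 x p A B u k * ct A B k + gr c.F2 x p A B u k * ct (sqA A) B k +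
      gr c.G0 x p A B u k * p k + gr c.G1 x p A B u k * ap A p k +
      gr c.G2 x p A B u k * ap (sqA A) p k)

/-- Scaling of the invariants under `x ↦ t x`. -/
def sc (t : ℝ) (z : Fin 5 → ℝ) : Fin 5 → ℝ :=
  ![z 0 / t ^ 2, z 1 / t ^ 3, z 2, t * z 3, t ^ 2 * z 4]

/-- The common domain of the coefficient functions. -/
def Dom : Set (Fin 5 → ℝ) := {z | 0 < z 0 ∧ 0 < z 4 ∧ -(1 / 2) < z 3 * √(z 0)}

/-- A certificate in dimension `n`, the inequalities being required where `S (|x|²)` holds. -/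
structure CertOn (n : ℕ) (S : ℝ → Prop) (c : Co) : Prop where
  sm : ContDiffOn ℝ 1 c.ρ Dom ∧ ContDiffOn ℝ 1 c.F1 Dom ∧ ContDiffOn ℝ 1 c.F2 Dom ∧
    ContDiffOn ℝ 1 c.G0 Dom ∧ ContDiffOn ℝ 1 c.G1 Dom ∧ ContDiffOn ℝ 1 c.G2 Dom
  hom : ∀ t : ℝ, 0 < t → ∀ z ∈ Dom, t ^ n * c.ρ (sc t z) = t ^ 2 * c.ρ z ∧
    t ^ n * c.F1 (sc t z) = t ^ 4 * c.F1 z ∧ t ^ n * c.F2 (sc t z) = t ^ 5 * c.F2 z ∧
    t ^ n * c.G0 (sc t z) = t * c.G0 z ∧ t ^ n * c.G1 (sc t z) = t ^ 2 * c.G1 z ∧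
    t ^ n * c.G2 (sc t z) = t ^ 3 * c.G2 z
  pos : ∀ (x p : T1 n) (A : T2 n) (B : T3 n) (u : ℝ), St x p A B u → S (∑ i, x i ^ 2) →
    0 < c.ρ (inv x p A u)
  int : ∃ c₀ : ℝ, 0 < c₀ ∧ ∀ (x p : T1 n) (A : T2 n) (B : T3 n) (u : ℝ), St x p A B u →
    S (∑ i, x i ^ 2) → (∑ k, gr c.ρ x p A B u k ^ 2) / (4 * c.ρ (inv x p A u)) +
      c₀ * √(nA A) / √(∑ i, x i ^ 2) ^ n * √(∑ i, x i ^ 2) ≤ dv c x p A B u
  bd : ∀ (x p : T1 n) (A : T2 n) (B : T3 n), St x p A B 0 → S (∑ i, x i ^ 2) → Adm p A B →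
    0 ≤ hh p A → 0 ≤ ∑ k, vf c x p A B 0 k * p k + hh p A * c.ρ (inv x p A 0)
  bnd : ∀ M : ℝ, ∃ C : ℝ, ∀ (x p : T1 n) (A : T2 n) (B : T3 n) (u : ℝ), St x p A B u →
    S (∑ i, x i ^ 2) → M⁻¹ ≤ ∑ i, x i ^ 2 → ∑ i, x i ^ 2 ≤ M → nA A ≤ M →
    c.ρ (inv x p A u) ≤ C * √(nA A) ∧ ‖vf c x p A B u‖ ≤ C * (‖B‖ + √(nA A)) ∧
      ‖gr c.ρ x p A B u‖ ≤ C * (‖B‖ + √(nA A))

/-- From the unit sphere to all radii. -/
def S_scale : Prop := ∀ (n : ℕ) (c : Co), CertOn n (fun R => R = 1) c → CertOn n (fun _ => True) c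

/-- From dimension `N ≤ 6` to lower dimensions (zero padding of the jets). -/
def S_lower : Prop := ∀ (N n : ℕ) (c : Co), 3 ≤ n → n ≤ N → N ≤ 6 → CertOn N (fun R => R = 1) c →
  (∀ (x p : T1 N) (A : T2 N) (B : T3 N) (u : ℝ), St x p A B u → ∑ i, x i ^ 2 = 1 →
    0 ≤ ∑ k, x k * vf c x p A B u k + (N - 1) / 4 * c.ρ (inv x p A u)) →
  ∃ c' : Co, CertOn n (fun R => R = 1) c'

/-- Stability inequality. -/
def S_stab : Prop := ∀ (n : ℕ) (u ψ : E n → ℝ), LMin u → Lip ψ → HasCompactSupport ψ →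
  (∀ x, 0 ≤ ψ x) → (∀ x, ψ x ≤ u x) →
  (volume {x | 0 < u x ∧ ψ x = u x}).toReal ≤ ∫ x, ‖gradient ψ x‖ ^ 2

/-- Jets of a harmonic homogeneous function. -/
def S_jets : Prop := ∀ (n : ℕ) (u : E n → ℝ) (U : Set (E n)), IsOpen U → Harm U u → Hom u →
  (∀ (t : ℝ) (x : E n), 0 < t → x ∈ U → t • x ∈ U) → ∀ x ∈ U,
    SymTr (D2 u x) (D3 u x) ∧ (∀ i, ∑ j, D2 u x i j * x j = 0) ∧
    (∀ i j, ∑ k, D3 u x i j k * x k = -D2 u x i j) ∧ ∑ i, x i * D1 u x i = u x ∧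
    (∀ i, gradient u x i = D1 u x i) ∧
    ∀ t : ℝ, 0 < t → D1 u (t • x) = D1 u x ∧ t • D2 u (t • x) = D2 u x ∧
      t ^ 2 • D3 u (t • x) = D3 u x

/-- The invariants along `u`. -/
def invU (u : E n → ℝ) (x : E n) : Fin 5 → ℝ := inv (fun i => x i) (D1 u x) (D2 u x) (u x)

/-- The vector field along `u`. -/
def vfU (c : Co) (u : E n → ℝ) (k : Fin n) (x : E n) : ℝ :=
  vf c (fun i => x i) (D1 u x) (D2 u x) (D3 u x) (u x) k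

/-- Chain rule and divergence formula. -/
def S_div : Prop := ∀ (n : ℕ) (u : E n → ℝ) (U : Set (E n)), IsOpen U → Harm U u →
  (∀ x ∈ U, invU u x ∈ Dom) →
  (∀ f : (Fin 5 → ℝ) → ℝ, ContDiffOn ℝ 1 f Dom → ContDiffOn ℝ 1 (fun x => f (invU u x)) U ∧
    ∀ x ∈ U, ∀ k, pd k (fun x => f (invU u x)) x =
      gr f (fun i => x i) (D1 u x) (D2 u x) (D3 u x) (u x) k) ∧
  ∀ c : Co, ContDiffOn ℝ 1 c.F1 Dom → ContDiffOn ℝ 1 c.F2 Dom → ContDiffOn ℝ 1 c.G0 Dom →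
    ContDiffOn ℝ 1 c.G1 Dom → ContDiffOn ℝ 1 c.G2 Dom →
    (∀ k, ContDiffOn ℝ 1 (vfU c u k) U) ∧ ∀ x ∈ U, ∑ k, pd k (vfU c u k) x =
      dv c (fun i => x i) (D1 u x) (D2 u x) (D3 u x) (u x)

/-- Kato inequality with a constant below one. -/
def S_kato : Prop := ∀ n : ℕ, ∃ θ : ℝ, θ < 1 ∧ ∀ (A : T2 n) (B : T3 n), SymTr A B →
  ∑ k, ct A B k ^ 2 ≤ θ * nA A * nB B

/-- Interior Hessian bound (Bessel inequality for the harmonic map `∇u`). -/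
def S_uw : Prop := ∀ (n : ℕ) (u : E n → ℝ), LMin u → (∀ x ∈ Om u, ∑ i, D1 u x i ^ 2 ≤ 1) →
  ∀ x ∈ Om u, u x ^ 2 * ∑ i, ∑ j, D2 u x i j ^ 2 ≤ 25 / 24 * n * (1 - ∑ i, D1 u x i ^ 2)

/-- Thin layers have small volume. -/
def S_layer : Prop := ∀ (n : ℕ) (u : E n → ℝ) (R : ℝ), LMin u → Hom u → Reg u → 0 < R →
  ∃ C : ℝ, ∀ δ : ℝ, 0 < δ →
    (volume {x : E n | R⁻¹ ≤ ‖x‖ ∧ ‖x‖ ≤ R ∧ 0 < u x ∧ u x ≤ δ}).toReal ≤ C * δ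

/-- Integrability of `|D³u|² / |D²u|`. -/
def S_int : Prop := ∀ (n : ℕ) (u : E n → ℝ) (R : ℝ), LMin u → Hom u → Reg u → 0 < R →
  IntegrableOn (fun x => nB (D3 u x) / √(nA (D2 u x))) {x : E n | R⁻¹ ≤ ‖x‖ ∧ ‖x‖ ≤ R ∧ 0 < u x}

/-- Admissible cut-off functions. -/
structure Cut (u Z : E n → ℝ) : Prop where
  sm : ContDiffOn ℝ 1 Z (Om u)
  nonneg : ∀ x, 0 ≤ Z x
  bdd : ∃ C : ℝ, ∀ x ∈ Om u, Z x ≤ C ∧ ‖fderiv ℝ Z x‖ ≤ C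
  supp : ∃ R δ : ℝ, 0 < R ∧ 0 < δ ∧ ∀ x ∈ Om u, Z x ≠ 0 →
    R⁻¹ ≤ ‖x‖ ∧ ‖x‖ ≤ R ∧ δ ≤ nA (D2 u x)

/-- The tested stability inequality combined with the divergence theorem. -/
def S_main1 : Prop := ∀ (n : ℕ) (u Z : E n → ℝ) (c : Co), LMin u → Hom u → Reg u → Cut u Z →
  CertOn n (fun _ => True) c →
  0 ≤ ∫ x in Om u, (Z x ^ 2 * ((∑ k, gr c.ρ (fun i => x i) (D1 u x) (D2 u x) (D3 u x) (u x) k ^ 2) /
        (4 * c.ρ (invU u x)) - dv c (fun i => x i) (D1 u x) (D2 u x) (D3 u x) (u x)) +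
      Z x * ∑ k, pd k Z x * gr c.ρ (fun i => x i) (D1 u x) (D2 u x) (D3 u x) (u x) k +
      c.ρ (invU u x) * ∑ k, pd k Z x ^ 2 - 2 * Z x * ∑ k, pd k Z x * vfU c u k x)

def S_main2 : Prop := ∀ (n : ℕ) (u : E n → ℝ) (c : Co), LMin u → Hom u → Reg u →
  CertOn n (fun _ => True) c → ∀ x ∈ Om u, D2 u x = 0

end Vale.Agent.P098
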