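import Vale.Agent.P098.Iface

/-!
# P098: pointwise computations for the inner variation
-/

open MeasureTheory Set Metric Filter
open scoped ContDiff RealInnerProductSpace Topology NNReal

noncomputable section
namespace Vale.Agent.P098

variable {n : ℕ}

/-- The derivative of a radial field. -/
def iv_M (α γ : ℝ) (x : E n) : E n →L[ℝ] E n :=
  α • ContinuousLinearMap.id ℝ (E n) + γ • (innerSL ℝ x).smulRight x

lemma iv_M_apply (α γ : ℝ) (x h : E n) : iv_M α γ x h = α • h + (γ * ⟪x, h⟫) • x := by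
  simp [iv_M, mul_smul]

lemma iv_M_symm (α γ : ℝ) (x w h : E n) : ⟪w, iv_M α γ x h⟫ = ⟪iv_M α γ x w, h⟫ := by
  rw [iv_M_apply, iv_M_apply, inner_add_left, inner_add_right, real_inner_smul_left,
    real_inner_smul_left, real_inner_smul_right, real_inner_smul_right, real_inner_comm x w]
  ring

lemma iv_M_self (α γ : ℝ) (x g : E n) :
    ⟪g, iv_M α γ x g⟫ = α * ‖g‖ ^ 2 + γ * ⟪x, g⟫ ^ 2 := by
  rw [iv_M_apply, inner_add_right, real_inner_smul_right, real_inner_smul_right,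
    real_inner_self_eq_norm_sq, real_inner_comm x g]
  ring

lemma iv_M_norm (α γ K : ℝ) (x h : E n) (h1 : |α| ≤ K) (h2 : |γ * ‖x‖ ^ 2| ≤ K) :
    ‖iv_M α γ x h‖ ≤ 2 * K * ‖h‖ := by
  rw [iv_M_apply]
  refine (norm_add_le _ _).trans ?_
  rw [norm_smul, norm_smul, Real.norm_eq_abs, Real.norm_eq_abs, abs_mul]
  rw [abs_mul, abs_of_nonneg (sq_nonneg ‖x‖)] at h2
  have a1 : |α| * ‖h‖ ≤ K * ‖h‖ := mul_le_mul_of_nonneg_right h1 (norm_nonneg _)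
  have a2 : |γ| * |⟪x, h⟫| * ‖x‖ ≤ |γ| * (‖x‖ * ‖h‖) * ‖x‖ := by
    gcongr
    exact abs_real_inner_le_norm x h
  have a3 : |γ| * ‖x‖ ^ 2 * ‖h‖ ≤ K * ‖h‖ := mul_le_mul_of_nonneg_right h2 (norm_nonneg _)
  nlinarith

lemma iv_det (m : ℕ) (α γ t : ℝ) (x : E (m + 1)) (ha : 1 + t * α ≠ 0) :
    (ContinuousLinearMap.id ℝ (E (m + 1)) + t • iv_M α γ x).det =
      (1 + t * α) ^ m * (1 + t * α + t * (γ * ‖x‖ ^ 2)) := by
  rw [ContinuousLinearMap.det, ← LinearMap.det_toMatrix (EuclideanSpace.basisFun _ ℝ).toBasis]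
  have e : LinearMap.toMatrix (EuclideanSpace.basisFun (Fin (m + 1)) ℝ).toBasis
      (EuclideanSpace.basisFun (Fin (m + 1)) ℝ).toBasis
      ((ContinuousLinearMap.id ℝ (E (m + 1)) + t • iv_M α γ x : E (m + 1) →L[ℝ] E (m + 1)) :
        E (m + 1) →ₗ[ℝ] E (m + 1)) =
      (1 + t * α) • (1 + Matrix.replicateCol Unit (fun i => t * γ / (1 + t * α) * x i) *
        Matrix.replicateRow Unit (fun i => x i)) := by
    ext i j
    rw [LinearMap.toMatrix_apply]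
    simp only [OrthonormalBasis.coe_toBasis, EuclideanSpace.basisFun_apply,
      ContinuousLinearMap.coe_coe, add_apply, ContinuousLinearMap.id_apply,
      smul_apply, iv_M_apply, OrthonormalBasis.coe_toBasis_repr_apply,
      EuclideanSpace.basisFun_repr, PiLp.add_apply, PiLp.smul_apply, smul_eq_mul,
      EuclideanSpace.inner_single_right, Matrix.smul_apply, Matrix.add_apply, Matrix.mul_apply,
      Matrix.replicateCol_apply, Matrix.replicateRow_apply, Matrix.one_apply, PiLp.single_apply]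
    simp
    split_ifs <;> field_simp <;> ring
  rw [e, Matrix.det_smul, Matrix.det_one_add_replicateCol_mul_replicateRow, Fintype.card_fin,
    EuclideanSpace.real_norm_sq_eq]
  have : (fun i => x i) ⬝ᵥ (fun i => t * γ / (1 + t * α) * x i) =
      t * γ / (1 + t * α) * ∑ i, x i ^ 2 := by
    rw [dotProduct, Finset.mul_sum]
    exact Finset.sum_congr rfl fun i _ => by ring
  rw [this]
  field_simp
  ring

lemma iv_pow (m : ℕ) : ∃ C : ℝ, 0 ≤ C ∧ ∀ s : ℝ, |s| ≤ 1 → |(1 + s) ^ m - 1 - m * s| ≤ C * s ^ 2 := by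
  induction m with
  | zero => exact ⟨0, le_rfl, fun s _ => by simp⟩
  | succ m ih =>
    obtain ⟨C, hC, h⟩ := ih
    refine ⟨2 * C + m, by positivity, fun s hs => ?_⟩
    have e : (1 + s) ^ (m + 1) - 1 - ((m + 1 : ℕ) : ℝ) * s =
        (1 + s) * ((1 + s) ^ m - 1 - m * s) + m * s ^ 2 := by push_cast; ring
    rw [e]
    refine (abs_add_le _ _).trans ?_
    rw [abs_mul, abs_of_nonneg (by positivity : 0 ≤ (m : ℝ) * s ^ 2)]
    have a1 : |1 + s| ≤ 2 := (abs_add_le _ _).trans (by rw [abs_one]; linarith)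
    have a2 := mul_le_mul a1 (h s hs) (abs_nonneg _) (by norm_num)
    linarith

lemma iv_det_est (m : ℕ) (K : ℝ) (hK : 0 ≤ K) : ∃ C : ℝ, 0 ≤ C ∧ ∀ α β t : ℝ, |α| ≤ K → |β| ≤ K →
    |t| * (2 * K) ≤ 1 / 2 →
    |(1 + t * α) ^ m * (1 + t * α + t * β) - 1 - t * (((m + 1 : ℕ) : ℝ) * α + β)| ≤ C * t ^ 2 := by
  obtain ⟨C, hC, h⟩ := iv_pow m
  refine ⟨2 * C * K ^ 2 + 2 * m * K ^ 2, by positivity, fun α β t h1 h2 ht => ?_⟩
  have t0 := abs_nonneg t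
  have s1 : |t * α| ≤ |t| * K := by rw [abs_mul]; gcongr
  have s2 : |t * α + t * β| ≤ 2 * (|t| * K) := by
    refine (abs_add_le _ _).trans ?_
    have : |t * β| ≤ |t| * K := by rw [abs_mul]; gcongr
    linarith
  have e : (1 + t * α) ^ m * (1 + t * α + t * β) - 1 - t * (((m + 1 : ℕ) : ℝ) * α + β) =
      ((1 + t * α) ^ m - 1 - m * (t * α)) * (1 + (t * α + t * β)) +
        m * ((t * α) * (t * α + t * β)) := by push_cast; ring
  rw [e]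
  refine (abs_add_le _ _).trans ?_
  rw [abs_mul, abs_mul (m : ℝ), abs_mul (t * α), Nat.abs_cast]
  have a1 : |1 + (t * α + t * β)| ≤ 2 := (abs_add_le _ _).trans (by rw [abs_one]; linarith)
  have a2 : (t * α) ^ 2 ≤ K ^ 2 * t ^ 2 := by
    have := pow_le_pow_left₀ (abs_nonneg _) s1 2
    rw [sq_abs, mul_pow |t|, sq_abs] at this
    linarith
  have a3 := mul_le_mul ((h (t * α) (by linarith)).trans (mul_le_mul_of_nonneg_left a2 hC)) a1
    (abs_nonneg _) (by positivity)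
  have a4 : |t * α| * |t * α + t * β| ≤ (|t| * K) * (2 * (|t| * K)) :=
    mul_le_mul s1 s2 (abs_nonneg _) (by positivity)
  have a5 : (|t| * K) * (2 * (|t| * K)) = 2 * K ^ 2 * t ^ 2 := by rw [← sq_abs t]; ring
  have a6 := mul_le_mul_of_nonneg_left (a4.trans a5.le) (Nat.cast_nonneg (α := ℝ) m)
  linarith

lemma iv_real (T Q c1 c2 W t τ q S δ1 δ2 : ℝ) (ht : |t| ≤ 1) (hτ : |τ| ≤ T) (hq : |q| ≤ Q)
    (h1 : |δ1| ≤ c1 * t ^ 2) (h2 : |δ2| ≤ c2 * t ^ 2) (h3 : 0 ≤ S - 2 * t * q + δ1)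
    (h4 : S - 2 * t * q + δ1 ≤ W) :
    (1 + t * τ + δ2) * (S - 2 * t * q + δ1) ≤
      S + t * (τ * S - 2 * q) + (c1 + 2 * T * Q + T * c1 + c2 * W) * t ^ 2 := by
  have hT : 0 ≤ T := (abs_nonneg _).trans hτ
  have a1 : δ1 ≤ c1 * t ^ 2 := (le_abs_self _).trans h1
  have a2 : -(τ * q) ≤ T * Q := by
    refine (neg_le_abs _).trans ?_
    rw [abs_mul]; exact mul_le_mul hτ hq (abs_nonneg _) hT
  have a3 : t * τ * δ1 ≤ T * (c1 * t ^ 2) := by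
    refine (le_abs_self _).trans ?_
    rw [abs_mul, abs_mul]
    have : |t| * |τ| ≤ T := by nlinarith [abs_nonneg t, abs_nonneg τ]
    exact mul_le_mul this h1 (abs_nonneg _) hT
  have a4 : δ2 * (S - 2 * t * q + δ1) ≤ c2 * t ^ 2 * W :=
    mul_le_mul ((le_abs_self _).trans h2) h4 h3 ((abs_nonneg _).trans h2)
  have a5 := mul_le_mul_of_nonneg_left a2 (sq_nonneg t)
  nlinarith

lemma iv_vec (M : E n →L[ℝ] E n) (κ L t : ℝ) (g w : E n) (hκ : 0 ≤ κ)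
    (hM : ∀ h, ‖M h‖ ≤ κ * ‖h‖) (hs : ∀ a b, ⟪a, M b⟫ = ⟪M a, b⟫) (ht : |t| * κ ≤ 1 / 2)
    (hg : g = w + t • M w) (hL : ‖g‖ ≤ L) :
    ‖w‖ ^ 2 ≤ 4 * L ^ 2 ∧ |⟪g, M g⟫| ≤ κ * L ^ 2 ∧
      |‖w‖ ^ 2 - ‖g‖ ^ 2 + 2 * t * ⟪g, M g⟫| ≤ 8 * κ ^ 2 * L ^ 2 * t ^ 2 := by
  have hL0 : 0 ≤ L := (norm_nonneg _).trans hL
  have hw : w = g - t • M w := by rw [hg]; abel
  have w1 : ‖w‖ ≤ 2 * L := by
    have a1 : ‖w‖ ≤ ‖g‖ + ‖t • M w‖ := by
      conv_lhs => rw [hw]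
      exact norm_sub_le _ _
    have a2 : ‖t • M w‖ ≤ |t| * κ * ‖w‖ := by
      rw [norm_smul, Real.norm_eq_abs, mul_assoc]
      exact mul_le_mul_of_nonneg_left (hM w) (abs_nonneg _)
    have a3 := mul_le_mul_of_nonneg_right ht (norm_nonneg w)
    linarith
  have m1 : ‖M g‖ ≤ κ * L := (hM g).trans (mul_le_mul_of_nonneg_left hL hκ)
  have m2 : ‖M w‖ ≤ κ * (2 * L) := (hM w).trans (mul_le_mul_of_nonneg_left w1 hκ)
  refine ⟨by nlinarith [norm_nonneg w], ?_, ?_⟩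
  · refine (abs_real_inner_le_norm _ _).trans ?_
    have := mul_le_mul hL m1 (norm_nonneg _) hL0
    linarith
  · have e1 : ‖w‖ ^ 2 = ‖g‖ ^ 2 - 2 * (t * ⟪g, M w⟫) + t ^ 2 * ‖M w‖ ^ 2 := by
      conv_lhs => rw [hw]
      rw [norm_sub_sq_real, real_inner_smul_right, norm_smul, Real.norm_eq_abs, mul_pow, sq_abs]
    have e2 : ⟪g, M w⟫ = ⟪g, M g⟫ - t * ⟪M g, M w⟫ := by
      rw [hs g w]
      conv_lhs => rw [hw]
      rw [inner_sub_right, real_inner_smul_right, hs g g]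
    have e3 : ‖w‖ ^ 2 - ‖g‖ ^ 2 + 2 * t * ⟪g, M g⟫ =
        (2 * ⟪M g, M w⟫ + ‖M w‖ ^ 2) * t ^ 2 := by rw [e1, e2]; ring
    rw [e3, abs_mul, abs_of_nonneg (sq_nonneg t)]
    refine mul_le_mul_of_nonneg_right ((abs_add_le _ _).trans ?_) (sq_nonneg t)
    rw [abs_mul, abs_of_nonneg (sq_nonneg ‖M w‖), abs_two]
    have a1 := (abs_real_inner_le_norm (M g) (M w)).trans
      (mul_le_mul m1 m2 (norm_nonneg _) (by positivity))
    have a2 := pow_le_pow_left₀ (norm_nonneg _) m2 2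
    nlinarith

/-- The pointwise expansion of the transformed energy density. -/
lemma iv_pt (m : ℕ) (K L : ℝ) (hK : 0 ≤ K) : ∃ C : ℝ, ∀ (α γ t χ : ℝ) (x g w : E (m + 1)),
    |α| ≤ K → |γ * ‖x‖ ^ 2| ≤ K → |t| ≤ 1 → |t| * (2 * K) ≤ 1 / 2 → 0 ≤ χ → χ ≤ 1 →
    g = w + t • iv_M α γ x w → ‖g‖ ≤ L →
    (1 + t * α) ^ m * (1 + t * α + t * (γ * ‖x‖ ^ 2)) * (‖w‖ ^ 2 + χ) ≤ ‖g‖ ^ 2 + χ +
      t * ((‖g‖ ^ 2 + χ) * (((m + 1 : ℕ) : ℝ) * α + γ * ‖x‖ ^ 2) - 2 * α * ‖g‖ ^ 2 -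
        2 * γ * ⟪x, g⟫ ^ 2) + C * t ^ 2 := by
  obtain ⟨C, hC, h⟩ := iv_det_est m K hK
  refine ⟨8 * (2 * K) ^ 2 * L ^ 2 + 2 * (((m + 1 : ℕ) : ℝ) * K + K) * (2 * K * L ^ 2) +
    (((m + 1 : ℕ) : ℝ) * K + K) * (8 * (2 * K) ^ 2 * L ^ 2) + C * (4 * L ^ 2 + 1),
    fun α γ t χ x g w h1 h2 t1 t2 c0 c1 hg hL => ?_⟩
  obtain ⟨v1, v2, v3⟩ := iv_vec (iv_M α γ x) (2 * K) L t g w (by positivity)
    (fun h => iv_M_norm α γ K x h h1 h2) (fun a b => iv_M_symm α γ x a b) t2 hg hL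
  have hτ : |((m + 1 : ℕ) : ℝ) * α + γ * ‖x‖ ^ 2| ≤ ((m + 1 : ℕ) : ℝ) * K + K := by
    refine (abs_add_le _ _).trans (add_le_add ?_ h2)
    rw [abs_mul, Nat.abs_cast]
    exact mul_le_mul_of_nonneg_left h1 (Nat.cast_nonneg _)
  have key := iv_real _ _ _ _ (4 * L ^ 2 + 1) t _ _ (‖g‖ ^ 2 + χ) _ _ t1 hτ v2 v3
    (h α _ t h1 h2 t2) (by nlinarith [sq_nonneg ‖w‖]) (by linarith)
  rw [iv_M_self] at key
  refine le_trans (le_of_eq ?_) (key.trans (le_of_eq ?_))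
  · ring
  · ring

end Vale.Agent.P098
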