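import Vale.Agent.P098.CkSem

/-!
# P098: the algebraic operations of the checker
-/

open Finset

noncomputable section
namespace Vale.Agent.P098.Ck

theorem kalg_pk_add (L J : ℕ) (u v : ℕ → ℕ) :
    pk L J (fun j => u j + v j) = pk L J u + pk L J v := by
  unfold pk
  rw [← Finset.sum_add_distrib]
  exact Finset.sum_congr rfl fun j _ => by ring

theorem kalg_pk_mul (L J k : ℕ) (u : ℕ → ℕ) :
    pk L J (fun j => k * u j) = k * pk L J u := by
  unfold pk
  rw [Finset.mul_sum]
  exact Finset.sum_congr rfl fun j _ => by ring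

theorem kalg_pk_place (L n J o : ℕ) (u : ℕ → ℕ) (h : o + n ≤ J) :
    pk L J (fun x => if o ≤ x ∧ x < o + n then u (x - o) else 0) = pk L n u * 2 ^ (L * o) := by
  unfold pk
  have h1 : ∑ j ∈ range J, (if o ≤ j ∧ j < o + n then u (j - o) else 0) * 2 ^ (L * j) =
      ∑ j ∈ Ico o (o + n), u (j - o) * 2 ^ (L * j) := by
    rw [← Finset.sum_subset (s₁ := Ico o (o + n))]
    · refine Finset.sum_congr rfl fun j hj => ?_
      rw [if_pos (Finset.mem_Ico.mp hj)]
    · intro j hj
      have := Finset.mem_Ico.mp hj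
      exact Finset.mem_range.mpr (by omega)
    · intro j _ hj
      rw [if_neg (fun h' => hj (Finset.mem_Ico.mpr h')), zero_mul]
  rw [h1, Finset.sum_Ico_eq_sum_range, Finset.sum_mul, Nat.add_sub_cancel_left]
  refine Finset.sum_congr rfl fun j _ => ?_
  rw [Nat.add_sub_cancel_left, Nat.mul_add, pow_add]
  ring

theorem kalg_congr (L J : ℕ) (p : P) (F G : Pt → ℕ → ℝ) (h : Rep L J p F)
    (hG : ∀ e j, j < J → G e j = F e j) : Rep L J p G := by
  cases p with
  | nil => exact fun e j hj => (hG e j hj).trans (h e j hj)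
  | lf a b m =>
    obtain ⟨u, v, h1, h2, h3, h4⟩ := h
    exact ⟨u, v, h1, h2, h3, fun e j hj => (hG e j hj).trans (h4 e j hj)⟩
  | cons c r =>
    obtain ⟨C, R, h1, h2, h3⟩ := h
    exact ⟨C, R, h1, h2, fun e j hj => (hG e j hj).trans (h3 e j hj)⟩

theorem kalg_addL (L J a b m : ℕ) (q : P) (F G : Pt → ℕ → ℝ) (hF : Rep L J (P.lf a b m) F)
    (hG : Rep L J q G) : Rep L J (addL a b m q) (fun e j => F e j + G e j) := by
  induction q generalizing G with
  | nil =>
    refine kalg_congr L J (P.lf a b m) F _ hF fun e j hj => ?_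
    have : G e j = 0 := hG e j hj
    rw [this, add_zero]
  | lf a' b' m' =>
    obtain ⟨u, v, h1, h2, h3, h4⟩ := hF
    obtain ⟨u', v', h1', h2', h3', h4'⟩ := hG
    refine ⟨fun j => u j + u' j, fun j => v j + v' j, ?_, ?_, ?_, ?_⟩
    · rw [kalg_pk_add, ← h1, ← h1']; rfl
    · rw [kalg_pk_add, ← h2, ← h2']; rfl
    · intro j hj
      have k1 := h3 j hj
      have k2 := h3' j hj
      exact ⟨Nat.add_le_add k1.1 k2.1, Nat.add_le_add k1.2 k2.2⟩
    · intro e j hj
      show F e j + G e j = _
      rw [h4 e j hj, h4' e j hj]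
      push_cast
      ring
  | cons c r ic _ =>
    obtain ⟨C, R, h1, h2, h3⟩ := hG
    refine ⟨fun e j => F e j + C e j, R, ic C h1, h2, fun e j hj => ?_⟩
    obtain ⟨u, v, _, _, _, h4⟩ := hF
    show F e j + G e j = F (tl e) j + C (tl e) j + e 0 * R e j
    rw [h3 e j hj, h4 e j hj, h4 (tl e) j hj]
    ring

theorem kalg_padd (L J : ℕ) (p q : P) (F G : Pt → ℕ → ℝ) (hF : Rep L J p F)
    (hG : Rep L J q G) : Rep L J (padd p q) (fun e j => F e j + G e j) := by
  induction p generalizing q F G with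
  | nil =>
    refine kalg_congr L J q G _ hG fun e j hj => ?_
    have : F e j = 0 := hF e j hj
    rw [this, zero_add]
  | lf a b m => exact kalg_addL L J a b m q F G hF hG
  | cons c r ic ir =>
    cases q with
    | nil =>
      refine kalg_congr L J (P.cons c r) F _ hF fun e j hj => ?_
      have : G e j = 0 := hG e j hj
      rw [this, add_zero]
    | lf a b m =>
      refine kalg_congr L J _ _ _ (kalg_addL L J a b m (P.cons c r) G F hG hF) fun e j _ => ?_
      exact add_comm _ _
    | cons c' r' =>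
      obtain ⟨C, R, h1, h2, h3⟩ := hF
      obtain ⟨C', R', h1', h2', h3'⟩ := hG
      refine ⟨_, _, ic c' C C' h1 h1', ir r' R R' h2 h2', fun e j hj => ?_⟩
      show F e j + G e j = C (tl e) j + C' (tl e) j + e 0 * (R e j + R' e j)
      rw [h3 e j hj, h3' e j hj]
      ring

theorem kalg_pmn (L J k : ℕ) (p : P) (F : Pt → ℕ → ℝ) (hF : Rep L J p F) :
    Rep L J (pmn k p) (fun e j => (k : ℝ) * F e j) := by
  induction p generalizing F with
  | nil =>
    intro e j hj
    have : F e j = 0 := hF e j hj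
    show (k : ℝ) * F e j = 0
    rw [this, mul_zero]
  | lf a b m =>
    obtain ⟨u, v, h1, h2, h3, h4⟩ := hF
    refine ⟨fun j => k * u j, fun j => k * v j, ?_, ?_, ?_, ?_⟩
    · rw [kalg_pk_mul, ← h1]; rfl
    · rw [kalg_pk_mul, ← h2]; rfl
    · intro j hj
      have k1 := h3 j hj
      exact ⟨Nat.mul_le_mul_left k k1.1, Nat.mul_le_mul_left k k1.2⟩
    · intro e j hj
      show (k : ℝ) * F e j = _
      rw [h4 e j hj]
      push_cast
      ring
  | cons c r ic ir =>
    obtain ⟨C, R, h1, h2, h3⟩ := hF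
    refine ⟨_, _, ic C h1, ir R h2, fun e j hj => ?_⟩
    show (k : ℝ) * F e j = (k : ℝ) * C (tl e) j + e 0 * ((k : ℝ) * R e j)
    rw [h3 e j hj]
    ring

theorem kalg_pmm (L J k : ℕ) (p : P) (F : Pt → ℕ → ℝ) (hF : Rep L J p F) :
    Rep L J (pmm k p) (fun e j => -(k : ℝ) * F e j) := by
  induction p generalizing F with
  | nil =>
    intro e j hj
    have : F e j = 0 := hF e j hj
    show -(k : ℝ) * F e j = 0
    rw [this, mul_zero]
  | lf a b m =>
    obtain ⟨u, v, h1, h2, h3, h4⟩ := hF
    refine ⟨fun j => k * v j, fun j => k * u j, ?_, ?_, ?_, ?_⟩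
    · rw [kalg_pk_mul, ← h2]; rfl
    · rw [kalg_pk_mul, ← h1]; rfl
    · intro j hj
      have k1 := h3 j hj
      exact ⟨Nat.mul_le_mul_left k k1.2, Nat.mul_le_mul_left k k1.1⟩
    · intro e j hj
      show -(k : ℝ) * F e j = _
      rw [h4 e j hj]
      push_cast
      ring
  | cons c r ic ir =>
    obtain ⟨C, R, h1, h2, h3⟩ := hF
    refine ⟨_, _, ic C h1, ir R h2, fun e j hj => ?_⟩
    show -(k : ℝ) * F e j = -(k : ℝ) * C (tl e) j + e 0 * (-(k : ℝ) * R e j)
    rw [h3 e j hj]
    ring

theorem kalg_zsm (L J a b : ℕ) (p : P) (F : Pt → ℕ → ℝ) (hF : Rep L J p F) :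
    Rep L J (zsm a b p) (fun e j => ((a : ℝ) - (b : ℝ)) * F e j) := by
  unfold zsm
  cases hab : Nat.ble a b with
  | false =>
    have h : b ≤ a := by
      by_contra hh
      have : Nat.ble a b = true := Nat.ble_eq_true_of_le (by omega)
      rw [this] at hab
      exact absurd hab (by simp)
    refine kalg_congr L J _ _ _ (kalg_pmn L J (a - b) p F hF) fun e j _ => ?_
    rw [Nat.cast_sub h]
  | true =>
    have h : a ≤ b := Nat.le_of_ble_eq_true hab
    cases hba : Nat.ble b a with
    | false =>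
      refine kalg_congr L J _ _ _ (kalg_pmm L J (b - a) p F hF) fun e j _ => ?_
      rw [Nat.cast_sub h]
      ring
    | true =>
      have h' : b ≤ a := Nat.le_of_ble_eq_true hba
      intro e j _
      have : a = b := le_antisymm h h'
      show ((a : ℝ) - (b : ℝ)) * F e j = 0
      rw [this, sub_self, zero_mul]

theorem kalg_place (L n J o : ℕ) (p : P) (F : Pt → ℕ → ℝ) (hF : Rep L n p F) (h : o + n ≤ J) :
    Rep L J (place (L * o) p) (fun e x => if o ≤ x ∧ x < o + n then F e (x - o) else 0) := by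
  induction p generalizing F with
  | nil =>
    intro e j _
    show (if o ≤ j ∧ j < o + n then F e (j - o) else 0) = 0
    split_ifs with hj
    · exact hF e (j - o) (by omega)
    · rfl
  | lf a b m =>
    obtain ⟨u, v, h1, h2, h3, h4⟩ := hF
    refine ⟨fun x => if o ≤ x ∧ x < o + n then u (x - o) else 0,
      fun x => if o ≤ x ∧ x < o + n then v (x - o) else 0, ?_, ?_, ?_, ?_⟩
    · rw [kalg_pk_place L n J o u h, ← h1]
      exact Nat.shiftLeft_eq a (L * o)
    · rw [kalg_pk_place L n J o v h, ← h2]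
      exact Nat.shiftLeft_eq b (L * o)
    · intro j _
      show (if o ≤ j ∧ j < o + n then u (j - o) else 0) ≤ m ∧
        (if o ≤ j ∧ j < o + n then v (j - o) else 0) ≤ m
      split_ifs with hj
      · exact h3 (j - o) (by omega)
      · exact ⟨Nat.zero_le _, Nat.zero_le _⟩
    · intro e j _
      show (if o ≤ j ∧ j < o + n then F e (j - o) else 0) =
        ((if o ≤ j ∧ j < o + n then u (j - o) else 0 : ℕ) : ℝ) -
          ((if o ≤ j ∧ j < o + n then v (j - o) else 0 : ℕ) : ℝ)
      split_ifs with hj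
      · exact h4 e (j - o) (by omega)
      · simp
  | cons c r ic ir =>
    obtain ⟨C, R, h1, h2, h3⟩ := hF
    refine ⟨_, _, ic C h1, ir R h2, fun e j _ => ?_⟩
    show (if o ≤ j ∧ j < o + n then F e (j - o) else 0) =
      (if o ≤ j ∧ j < o + n then C (tl e) (j - o) else 0) +
        e 0 * (if o ≤ j ∧ j < o + n then R e (j - o) else 0)
    split_ifs with hj
    · exact h3 e (j - o) (by omega)
    · simp

theorem kalg_band (a b : Bool) : band a b = true ↔ a = true ∧ b = true := by
  cases a <;> cases b <;> simp [band]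

theorem kalg_okm (M M' : ℕ) (p : P) (h : okm M p = true) (hM : M ≤ M') : okm M' p = true := by
  induction p with
  | nil => rfl
  | lf a b m =>
    have h1 : Nat.blt m M = true := h
    show Nat.blt m M' = true
    rw [Nat.blt_eq] at h1 ⊢
    omega
  | cons c r ic ir =>
    have h1 : band (okm M c) (okm M r) = true := h
    show band (okm M' c) (okm M' r) = true
    rw [kalg_band] at h1 ⊢
    exact ⟨ic h1.1, ir h1.2⟩

theorem alg : S_alg :=
  ⟨kalg_congr, kalg_addL, kalg_padd, kalg_pmn, kalg_pmm, kalg_zsm, kalg_place, kalg_okm⟩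

end Vale.Agent.P098.Ck
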