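import Vale.Agent.P098.CkSem

open Finset

noncomputable section
namespace Vale.Agent.P098.Ck

theorem kctr_band {a b : Bool} (h : band a b = true) : a = true ∧ b = true := by
  cases a <;> cases b <;> first | exact ⟨rfl, rfl⟩ | exact absurd h (by decide)

theorem kctr_nil {r : P} (h : isNil r = true) : r = P.nil := by
  cases r with
  | nil => rfl
  | lf a b m => exact absurd h Bool.false_ne_true
  | cons c r => exact absurd h Bool.false_ne_true

theorem kctr_dg {c r : P} {d : ℕ} (h : dg (P.cons c r) d = true) :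
    dg c d = true ∧ (r = P.nil ∨ ∃ d', d = d' + 1 ∧ dg r d' = true) := by
  cases d with
  | zero =>
    have h1 : band (dg c 0) (isNil r) = true := h
    exact ⟨(kctr_band h1).1, Or.inl (kctr_nil (kctr_band h1).2)⟩
  | succ d =>
    have h1 : band (dg c (d + 1)) (dg r d) = true := h
    exact ⟨(kctr_band h1).1, Or.inr ⟨d, rfl, (kctr_band h1).2⟩⟩

theorem kctr_dp {c r : P} {k : ℕ} (h : dp (P.cons c r) (k + 1) = true) :
    dp c k = true ∧ dp r (k + 1) = true := by
  have h1 : band (dp c k) (dp r (k + 1)) = true := h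
  exact kctr_band h1

theorem kctr_cv {c : P} (h : dp c 0 = true) (e : Pt) : ev c e = cv c := by
  cases c with
  | nil => rfl
  | lf a b m => rfl
  | cons c r => exact absurd h Bool.false_ne_true

theorem kctr_z1 (p : P) : ∀ d j, dg p d = true → d < j → co1 p j = 0 := by
  induction p with
  | nil => intro d j _ _; simp [co1]
  | lf a b m => intro d j _ hj; simp [co1, show j ≠ 0 by omega]
  | cons c r _ ih =>
    intro d j h hj
    obtain ⟨j, rfl⟩ : ∃ j', j = j' + 1 := ⟨j - 1, by omega⟩
    rcases (kctr_dg h).2 with rfl | ⟨d', rfl, h'⟩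
    · simp [co1]
    · exact ih d' j h' (by omega)

theorem kctr_z2 (p : P) : ∀ d i j, dg p d = true → d < i + j → co p i j = 0 := by
  induction p with
  | nil => intro d i j _ _; simp [co]
  | lf a b m => intro d i j _ hj; simp only [co]; rw [if_neg (by omega)]
  | cons c r _ ih =>
    intro d i j h hj
    cases i with
    | zero => exact kctr_z1 c d j (kctr_dg h).1 (by omega)
    | succ i =>
      rcases (kctr_dg h).2 with rfl | ⟨d', rfl, h'⟩
      · simp [co]
      · exact ih d' i j h' (by omega)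

theorem kctr_v1 (e : Pt) (p : P) : ∀ d n, dp p 1 = true → dg p d = true → d < n →
    ev p e = ∑ j ∈ range n, co1 p j * e 0 ^ j := by
  induction p with
  | nil => intro d n _ _ _; simp [co1, ev]
  | lf a b m =>
    intro d n _ _ hn
    obtain ⟨n, rfl⟩ : ∃ n', n = n' + 1 := ⟨n - 1, by omega⟩
    simp [co1, ev, sum_range_succ']
  | cons c r _ ih =>
    intro d n hp h hn
    obtain ⟨n, rfl⟩ : ∃ n', n = n' + 1 := ⟨n - 1, by omega⟩
    rw [sum_range_succ', ev, kctr_cv (kctr_dp hp).1]
    rcases (kctr_dg h).2 with rfl | ⟨d', rfl, h'⟩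
    · simp [co1, ev]
    · rw [ih d' n (kctr_dp hp).2 h' (by omega), mul_sum, add_comm]
      simp only [co1, pow_zero, mul_one]
      congr 1
      exact sum_congr rfl fun j _ => by ring

theorem kctr_v2 (e : Pt) (m : ℕ) (p : P) : ∀ d n, dp p 2 = true → dg p d = true → d < n → d < m →
    ev p e = ∑ i ∈ range n, ∑ j ∈ range m, co p i j * (e 0 ^ i * e 1 ^ j) := by
  induction p with
  | nil => intro d n _ _ _ _; simp [co, ev]
  | lf a b k =>
    intro d n _ _ hn hm
    obtain ⟨n, rfl⟩ : ∃ n', n = n' + 1 := ⟨n - 1, by omega⟩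
    obtain ⟨m, rfl⟩ : ∃ n', m = n' + 1 := ⟨m - 1, by omega⟩
    simp [co, ev, sum_range_succ']
  | cons c r _ ih =>
    intro d n hp h hn hm
    obtain ⟨n, rfl⟩ : ∃ n', n = n' + 1 := ⟨n - 1, by omega⟩
    rw [sum_range_succ', ev, kctr_v1 (tl e) c d m (kctr_dp hp).1 (kctr_dg h).1 hm]
    rcases (kctr_dg h).2 with rfl | ⟨d', rfl, h'⟩
    · simp [co, ev, tl]
    · rw [ih d' n (kctr_dp hp).2 h' (by omega) (by omega), mul_sum, add_comm]
      simp only [co, pow_zero, one_mul, tl, zero_add]
      congr 1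
      refine sum_congr rfl fun i _ => ?_
      rw [mul_sum]
      exact sum_congr rfl fun j _ => by ring

theorem kctr_clf (h : S_alg) {L J : ℕ} (c : P) {W : P} {w : ℕ → ℝ} (hW : Rep L J W fun _ => w) :
    Rep L J (clf c W) fun _ x => cv c * w x := by
  cases c with
  | nil => intro e j _; simp [cv]
  | lf a b m => exact h.zsm L J a b W _ hW
  | cons c r => intro e j _; simp [cv]

theorem kctr_c1 (h : S_alg) {L J : ℕ} {W : ℕ → P} {w : ℕ → ℕ → ℝ} (p : P) :
    ∀ j d n, dg p d = true → d < n → (∀ j', j' ≤ j + d → Rep L J (W j') fun _ => w j') →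
      Rep L J (ctr1 W p j) fun _ x => ∑ t ∈ range n, co1 p t * w (j + t) x := by
  induction p with
  | nil => intro j d n _ _ _ e x _; simp [co1]
  | lf a b m =>
    intro j d n _ hn hW
    obtain ⟨n, rfl⟩ : ∃ n', n = n' + 1 := ⟨n - 1, by omega⟩
    refine h.congr L J _ _ _ (h.zsm L J a b _ _ (hW j (by omega))) fun e x _ => ?_
    simp [co1, sum_range_succ']
  | cons c r _ ih =>
    intro j d n hd hn hW
    obtain ⟨n, rfl⟩ : ∃ n', n = n' + 1 := ⟨n - 1, by omega⟩
    have h2 : Rep L J (ctr1 W r (j + 1)) fun _ x => ∑ t ∈ range n, co1 r t * w (j + 1 + t) x := by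
      rcases (kctr_dg hd).2 with rfl | ⟨d', rfl, h'⟩
      · intro e x _; simp [co1]
      · exact ih (j + 1) d' n h' (by omega) fun j' hj => hW j' (by omega)
    refine h.congr L J _ _ _ (h.padd L J _ _ _ _ (kctr_clf h c (hW j (by omega))) h2)
      fun e x _ => ?_
    rw [sum_range_succ', add_comm]
    simp only [co1, add_zero]
    congr 1
    exact sum_congr rfl fun t _ => by rw [show j + (t + 1) = j + 1 + t by omega]

theorem kctr_c0 (h : S_alg) {L J m : ℕ} {W : ℕ → ℕ → P} {w : ℕ → ℕ → ℕ → ℝ} (p : P) :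
    ∀ i d n, dg p d = true → d < n → d < m →
      (∀ i' j, i' + j ≤ i + d → Rep L J (W i' j) fun _ => w i' j) →
      Rep L J (ctr0 W p i) fun _ x =>
        ∑ s ∈ range n, ∑ t ∈ range m, co p s t * w (i + s) t x := by
  induction p with
  | nil => intro j d n _ _ _ _ e x _; simp [co]
  | lf a b k =>
    intro i d n _ hn hm hW
    obtain ⟨n, rfl⟩ : ∃ n', n = n' + 1 := ⟨n - 1, by omega⟩
    obtain ⟨m, rfl⟩ : ∃ n', m = n' + 1 := ⟨m - 1, by omega⟩
    refine h.congr L J _ _ _ (h.zsm L J a b _ _ (hW i 0 (by omega))) fun e x _ => ?_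
    simp [co, sum_range_succ']
  | cons c r _ ih =>
    intro i d n hd hn hm hW
    obtain ⟨n, rfl⟩ : ∃ n', n = n' + 1 := ⟨n - 1, by omega⟩
    have h1 := kctr_c1 h (W := W i) (w := w i) c 0 d m (kctr_dg hd).1 hm
      fun j' hj => hW i j' (by omega)
    have h2 : Rep L J (ctr0 W r (i + 1)) fun _ x =>
        ∑ s ∈ range n, ∑ t ∈ range m, co r s t * w (i + 1 + s) t x := by
      rcases (kctr_dg hd).2 with rfl | ⟨d', rfl, h'⟩
      · intro e x _; simp [co]
      · exact ih (i + 1) d' n h' (by omega) (by omega) fun i' j hj => hW i' j (by omega)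
    refine h.congr L J _ _ _ (h.padd L J _ _ _ _ h1 h2) fun e x _ => ?_
    rw [sum_range_succ', add_comm]
    simp only [co, add_zero, zero_add]
    congr 1
    exact sum_congr rfl fun s _ => by rw [show i + (s + 1) = i + 1 + s by omega]

theorem ctr_ok (h_alg : S_alg) : S_ctr where
  val p hp hd := ⟨fun e => kctr_v2 e 6 p 5 6 hp hd (by norm_num) (by norm_num),
    fun i j hij => kctr_z2 p 5 i j hd hij⟩
  ctr L J W w p _ hd hW := by
    have h := kctr_c0 h_alg (m := 6) p 0 5 6 hd (by norm_num) (by norm_num)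
      fun i j hij => hW i j (by omega)
    simpa only [zero_add, ds] using h

end Vale.Agent.P098.Ck
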