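import Vale.Agent.P098.CkSem

open Finset

noncomputable section
namespace Vale.Agent.P098.Ck

theorem kcut_succ (L J : ℕ) (u : ℕ → ℕ) :
    pk L (J + 1) u = u 0 + 2 ^ L * pk L J (fun j => u (j + 1)) := by
  rw [pk, sum_range_succ', pk, mul_sum, add_comm, mul_zero, pow_zero, mul_one]
  congr 1
  refine sum_congr rfl fun j _ => ?_
  rw [mul_add, mul_one, pow_add]
  ring

theorem kcut_lt (L J : ℕ) (u : ℕ → ℕ) (h : ∀ j, j < J → u j < 2 ^ L) : pk L J u < 2 ^ (L * J) := by
  induction J generalizing u with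
  | zero => simp [pk]
  | succ J ih =>
    have h1 := ih (fun j => u (j + 1)) fun j hj => h (j + 1) (by omega)
    have h2 := h 0 (by omega)
    rw [kcut_succ, mul_add, mul_one, pow_add]
    nlinarith [Nat.mul_le_mul_left (2 ^ L) (Nat.succ_le_of_lt h1)]

theorem kcut_split (L J K : ℕ) (u : ℕ → ℕ) :
    pk L (J + K) u = pk L J u + 2 ^ (L * J) * pk L K (fun x => u (J + x)) := by
  rw [pk, sum_range_add, pk, pk, mul_sum]
  congr 1
  refine sum_congr rfl fun j _ => ?_
  rw [mul_add, pow_add]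
  ring

theorem kcut_lo (L J K : ℕ) (u : ℕ → ℕ) (h : ∀ j, j < J → u j < 2 ^ L) :
    Nat.land (pk L (J + K) u) (Nat.sub (Nat.pow 2 (L * J)) 1) = pk L J u := by
  change pk L (J + K) u &&& (2 ^ (L * J) - 1) = _
  rw [Nat.and_two_pow_sub_one_eq_mod, kcut_split, Nat.add_mul_mod_self_left,
    Nat.mod_eq_of_lt (kcut_lt L J u h)]

theorem kcut_hi (L J K : ℕ) (u : ℕ → ℕ) (h : ∀ j, j < J → u j < 2 ^ L) :
    Nat.shiftRight (pk L (J + K) u) (L * J) = pk L K (fun x => u (J + x)) := by
  change pk L (J + K) u >>> (L * J) = _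
  rw [Nat.shiftRight_eq_div_pow, kcut_split, Nat.add_mul_div_left _ _ (Nat.two_pow_pos _),
    Nat.div_eq_of_lt (kcut_lt L J u h), zero_add]

theorem kcut_and (L J c : ℕ) (hc : c < 2 ^ L) (u : ℕ → ℕ) (h : ∀ j, j < J → u j < 2 ^ L)
    (h0 : pk L J u &&& (c * pk L J (fun _ => 1)) = 0) : ∀ j, j < J → u j &&& c = 0 := by
  induction J generalizing u with
  | zero => intro j hj; omega
  | succ J ih =>
    have hu := h 0 (by omega)
    have e : c * pk L (J + 1) (fun _ => 1) = c + 2 ^ L * (c * pk L J (fun _ => 1)) := by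
      rw [kcut_succ]
      ring
    rw [e, kcut_succ] at h0
    have h1 := congrArg (· % 2 ^ L) h0
    have h2 := congrArg (· / 2 ^ L) h0
    simp only [Nat.and_mod_two_pow, Nat.add_mul_mod_self_left, Nat.mod_eq_of_lt hu,
      Nat.mod_eq_of_lt hc, Nat.zero_mod] at h1
    simp only [Nat.and_div_two_pow, Nat.add_mul_div_left _ _ (Nat.two_pow_pos L),
      Nat.div_eq_of_lt hu, Nat.div_eq_of_lt hc, Nat.zero_div, zero_add] at h2
    intro j hj
    rcases j with _ | j
    · exact h1
    · exact ih (fun j => u (j + 1)) (fun j hj => h (j + 1) (by omega)) h2 j (by omega)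

theorem kcut_digit {L b x : ℕ} (hb : b ≤ L) (hx : x < 2 ^ L) (h : x &&& (2 ^ L - 2 ^ b) = 0) :
    x < 2 ^ b := by
  refine Nat.lt_pow_two_of_testBit x fun i hi => ?_
  rcases lt_or_ge i L with h1 | h1
  · have e : 2 ^ L - 2 ^ b = 2 ^ b * (2 ^ (L - b) - 1) := by
      rw [Nat.mul_sub, ← pow_add, Nat.add_sub_cancel' hb, mul_one]
    have h2 := congrArg (fun y => Nat.testBit y i) h
    simp only [Nat.testBit_and, Nat.zero_testBit, e, Nat.testBit_two_pow_mul,
      Nat.testBit_two_pow_sub_one] at h2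
    have h3 : i - b < L - b := by omega
    simpa [hi, h3] using h2
  · exact Nat.testBit_lt_two_pow (hx.trans_le (Nat.pow_le_pow_right (by norm_num) h1))

theorem kcut_band {a b : Bool} (h : band a b = true) : a = true ∧ b = true := by
  cases a
  · exact absurd (show false = true from h) (by decide)
  · exact ⟨rfl, h⟩

theorem kcut_blt {m M : ℕ} (h : Nat.blt m M = true) : m < M := by
  simpa using h

theorem cut : S_cut := by
  refine ⟨fun L J b p => ?_, fun L J K p => ?_, fun L J K p => ?_⟩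
  · induction p with
    | nil => exact fun F h _ _ _ => h
    | lf x y m =>
      rintro F ⟨u, v, rfl, rfl, hm, hF⟩ ho hb hd
      have hlt : m < 2 ^ L := kcut_blt ho
      have h0 : (pk L J u ||| pk L J v) &&& ((2 ^ L - 2 ^ b) * pk L J (fun _ => 1)) = 0 :=
        Nat.eq_of_beq_eq_true hd
      rw [Nat.and_or_distrib_right, Nat.or_eq_zero_iff] at h0
      have hc : 2 ^ L - 2 ^ b < 2 ^ L := Nat.sub_lt (Nat.two_pow_pos _) (Nat.two_pow_pos _)
      have hu : ∀ j, j < J → u j < 2 ^ L := fun j hj => (hm j hj).1.trans_lt hlt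
      have hv : ∀ j, j < J → v j < 2 ^ L := fun j hj => (hm j hj).2.trans_lt hlt
      exact ⟨u, v, rfl, rfl, fun j hj =>
        ⟨(kcut_digit hb (hu j hj) (kcut_and L J _ hc u hu h0.1 j hj)).le,
          (kcut_digit hb (hv j hj) (kcut_and L J _ hc v hv h0.2 j hj)).le⟩, hF⟩
    | cons c r ic ir =>
      rintro F ⟨C, R, hC, hR, hF⟩ ho hb hd
      exact ⟨C, R, ic C hC (kcut_band ho).1 hb (kcut_band hd).1,
        ir R hR (kcut_band ho).2 hb (kcut_band hd).2, hF⟩
  · induction p with
    | nil => exact fun F h _ e j hj => h e j (by omega)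
    | lf x y m =>
      rintro F ⟨u, v, rfl, rfl, hm, hF⟩ ho
      have hlt : m < 2 ^ L := kcut_blt ho
      exact ⟨u, v, kcut_lo L J K u fun j hj => (hm j (by omega)).1.trans_lt hlt,
        kcut_lo L J K v fun j hj => (hm j (by omega)).2.trans_lt hlt,
        fun j hj => hm j (by omega), fun e j hj => hF e j (by omega)⟩
    | cons c r ic ir =>
      rintro F ⟨C, R, hC, hR, hF⟩ ho
      exact ⟨C, R, ic C hC (kcut_band ho).1, ir R hR (kcut_band ho).2,
        fun e j hj => hF e j (by omega)⟩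
  · induction p with
    | nil => exact fun F h _ e j hj => h e (J + j) (by omega)
    | lf x y m =>
      rintro F ⟨u, v, rfl, rfl, hm, hF⟩ ho
      have hlt : m < 2 ^ L := kcut_blt ho
      exact ⟨fun x => u (J + x), fun x => v (J + x),
        kcut_hi L J K u fun j hj => (hm j (by omega)).1.trans_lt hlt,
        kcut_hi L J K v fun j hj => (hm j (by omega)).2.trans_lt hlt,
        fun j hj => hm (J + j) (by omega), fun e j hj => hF e (J + j) (by omega)⟩
    | cons c r ic ir =>
      rintro F ⟨C, R, hC, hR, hF⟩ ho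
      exact ⟨fun e x => C e (J + x), fun e x => R e (J + x), ic C hC (kcut_band ho).1,
        ir R hR (kcut_band ho).2, fun e j hj => hF e (J + j) (by omega)⟩

end Vale.Agent.P098.Ck
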