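import Vale.Agent.P098.CkSem

/-!
# P098: derivatives in the checker
-/

open Finset

noncomputable section
namespace Vale.Agent.P098.Ck

theorem kder_tl0 (e : Pt) (t : ℝ) : tl (Function.update e 0 t) = tl e := by
  funext n
  simp [tl]

theorem kder_tls (e : Pt) (i : ℕ) (t : ℝ) :
    tl (Function.update e (i + 1) t) = Function.update (tl e) i t := by
  funext n
  by_cases h : n = i
  · subst h
    simp [tl]
  · simp [tl, h]

theorem kder_const (J i : ℕ) (F : Pt → ℕ → ℝ) (c : ℕ → ℝ) (h : ∀ e j, j < J → F e j = c j)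
    (e : Pt) (j : ℕ) (hj : j < J) :
    HasDerivAt (fun t => F (Function.update e i t) j) 0 (e i) := by
  have : (fun t => F (Function.update e i t) j) = fun _ => c j := funext fun t => h _ j hj
  rw [this]
  exact hasDerivAt_const _ _

theorem kder_zero (h_alg : S_alg) (L J : ℕ) (p : P) (F : Pt → ℕ → ℝ) (hF : Rep L J p F) :
    ∃ F' : Pt → ℕ → ℝ, Rep L J (der0 p) F' ∧ ∀ e j, j < J →
      HasDerivAt (fun t => F (Function.update e 0 t) j) (F' e j) (e 0) := by
  induction p generalizing F with
  | nil => exact ⟨fun _ _ => 0, fun _ _ _ => rfl, kder_const J 0 F (fun _ => 0) hF⟩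
  | lf a b m =>
    obtain ⟨u, v, _, _, _, h4⟩ := hF
    exact ⟨fun _ _ => 0, fun _ _ _ => rfl, kder_const J 0 F _ h4⟩
  | cons c r _ ir =>
    obtain ⟨C, R, _, h2, h3⟩ := hF
    obtain ⟨R', k1, k2⟩ := ir R h2
    have k3 : Rep L J (P.cons P.nil (der0 r)) (fun e j => 0 + e 0 * R' e j) :=
      ⟨fun _ _ => 0, R', fun _ _ _ => rfl, k1, fun _ _ _ => rfl⟩
    refine ⟨_, h_alg.padd L J _ _ _ _ h2 k3, fun e j hj => ?_⟩
    have : (fun t => F (Function.update e 0 t) j) =
        fun t => C (tl e) j + t * R (Function.update e 0 t) j := by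
      funext t
      rw [h3 _ j hj, kder_tl0, Function.update_self]
    rw [this]
    have k4 := ((hasDerivAt_id (e 0)).mul (k2 e j hj)).const_add (C (tl e) j)
    refine (k4.congr_deriv ?_)
    simp only [id, Function.update_eq_self, one_mul, zero_add]

theorem der_ok (h_alg : S_alg) : S_der := by
  intro L J i
  induction i with
  | zero => exact kder_zero h_alg L J
  | succ i ih =>
    intro p
    induction p with
    | nil => exact fun F hF => ⟨fun _ _ => 0, fun _ _ _ => rfl, kder_const J _ F (fun _ => 0) hF⟩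
    | lf a b m =>
      intro F hF
      obtain ⟨u, v, _, _, _, h4⟩ := hF
      exact ⟨fun _ _ => 0, fun _ _ _ => rfl, kder_const J _ F _ h4⟩
    | cons c r _ ir =>
      intro F hF
      obtain ⟨C, R, h1, h2, h3⟩ := hF
      obtain ⟨R', k1, k2⟩ := ir R h2
      obtain ⟨C', k3, k4⟩ := ih c C h1
      refine ⟨fun e j => C' (tl e) j + e 0 * R' e j, ⟨C', R', k3, k1, fun _ _ _ => rfl⟩,
        fun e j hj => ?_⟩
      have : (fun t => F (Function.update e (i + 1) t) j) =
          fun t => C (Function.update (tl e) i t) j + e 0 * R (Function.update e (i + 1) t) j := by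
        funext t
        rw [h3 _ j hj, kder_tls, Function.update_of_ne (Nat.succ_ne_zero i).symm]
      rw [this]
      exact (k4 (tl e) j hj).add ((k2 e j hj).const_mul (e 0))

end Vale.Agent.P098.Ck
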