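import Vale.Agent.P098.CkSem

/-! # P098: one elimination step of the packed test -/

open Finset

noncomputable section
namespace Vale.Agent.P098.Ck

theorem kel_add (L n : ℕ) (u v : ℕ → ℕ) :
    pk L n u + pk L n v = pk L n fun i => u i + v i := by
  unfold pk
  rw [← sum_add_distrib]
  exact sum_congr rfl fun i _ => (add_mul _ _ _).symm

theorem kel_mul (L n k : ℕ) (u : ℕ → ℕ) : k * pk L n u = pk L n fun i => k * u i := by
  unfold pk
  rw [mul_sum]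
  exact sum_congr rfl fun i _ => (mul_assoc _ _ _).symm

theorem kel_sub (L n : ℕ) (u v : ℕ → ℕ) (h : ∀ i, i < n → v i ≤ u i) :
    pk L n u - pk L n v = pk L n fun i => u i - v i := by
  have : pk L n u = pk L n (fun i => u i - v i) + pk L n v := by
    rw [kel_add]
    exact sum_congr rfl fun i hi => by
      beta_reduce
      rw [Nat.sub_add_cancel (h i (mem_range.1 hi))]
  rw [this, Nat.add_sub_cancel]

theorem kel_el (O s z a x b c : ℕ) : el O s z a x b c =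
    (sm O a x b c + (40532396579225600 + (67108864 - z) * 2 ^ s) * O) -
      (67108864 * (a + b) + 67108863 * c) := by
  show (sm O a x b c + (40532396579225600 + (67108864 - z) <<< s) * O) -
      ((a + b) <<< 26 + 67108863 * c) = _
  rw [Nat.shiftLeft_eq, Nat.shiftLeft_eq, mul_comm (a + b)]

theorem kel_digit (a x b c t : ℕ) (ha : a ≤ 2 ^ 26) (hx : x < 2 ^ 27) (hb : b < 2 ^ 27)
    (hc : c < 2 ^ 27) (ht : t ≤ 2 ^ 54) :
    ∃ Y : ℕ, a * x + (2 ^ 27 - 1 - b) * c + (40532396579225600 + t) * 1 =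
        Y + (67108864 * (a + (2 ^ 27 - 1 - b)) + 67108863 * c) ∧ Y < 2 ^ 56 ∧
      (Y : ℤ) = 2 ^ 55 + t + ((a : ℤ) * ((x : ℤ) - 2 ^ 26) - ((b : ℤ) - 2 ^ 26) * ((c : ℤ) - 2 ^ 26)) := by
  obtain ⟨d, hd⟩ : ∃ d, 2 ^ 27 - 1 = b + d := ⟨2 ^ 27 - 1 - b, by omega⟩
  have hd' : (d : ℤ) = 2 ^ 27 - 1 - b := by omega
  rw [hd, Nat.add_sub_cancel_left]
  have h1 : |(a : ℤ) * ((x : ℤ) - 2 ^ 26)| ≤ 2 ^ 26 * 2 ^ 26 := by
    rw [abs_mul]
    exact mul_le_mul (abs_le.2 ⟨by omega, by omega⟩) (abs_le.2 ⟨by omega, by omega⟩)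
      (abs_nonneg _) (by positivity)
  have h2 : |((b : ℤ) - 2 ^ 26) * ((c : ℤ) - 2 ^ 26)| ≤ 2 ^ 26 * 2 ^ 26 := by
    rw [abs_mul]
    exact mul_le_mul (abs_le.2 ⟨by omega, by omega⟩) (abs_le.2 ⟨by omega, by omega⟩)
      (abs_nonneg _) (by positivity)
  rw [abs_le] at h1 h2
  obtain ⟨Y, hY⟩ := Int.eq_ofNat_of_zero_le (a := 2 ^ 55 + t +
    ((a : ℤ) * ((x : ℤ) - 2 ^ 26) - ((b : ℤ) - 2 ^ 26) * ((c : ℤ) - 2 ^ 26))) (by omega)
  refine ⟨Y, ?_, by omega, hY.symm⟩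
  zify
  rw [← hY, hd']
  ring

theorem el_ok (h_sm : S_sm) (h_rok : S_rok) : S_el := by
  intro n s z a x b c hs hz h hr
  have ht : (67108864 - z) * 2 ^ s ≤ 2 ^ 54 :=
    calc _ ≤ 2 ^ 26 * 2 ^ 28 :=
          Nat.mul_le_mul (by omega) (Nat.pow_le_pow_right (by norm_num) hs)
      _ = _ := by norm_num
  have hd : ∀ i, ∃ Y : ℕ, i < n → a i * x i + (2 ^ 27 - 1 - b i) * c i +
        (40532396579225600 + (67108864 - z) * 2 ^ s) * 1 =
        Y + (67108864 * (a i + (2 ^ 27 - 1 - b i)) + 67108863 * c i) ∧ Y < 2 ^ 56 ∧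
      (Y : ℤ) = 2 ^ 55 + ((67108864 - z) * 2 ^ s : ℕ) + ((a i : ℤ) * ((x i : ℤ) - 2 ^ 26) -
        ((b i : ℤ) - 2 ^ 26) * ((c i : ℤ) - 2 ^ 26)) := by
    intro i
    by_cases hi : i < n
    · obtain ⟨Y, hY⟩ := kel_digit _ _ _ _ _ (h i hi).1 (h i hi).2.1 (h i hi).2.2.1 (h i hi).2.2.2 ht
      exact ⟨Y, fun _ => hY⟩
    · exact ⟨0, fun h' => absurd h' hi⟩
  choose Y hY using hd
  have e : el (pk 56 n (fun _ => 1)) s z (pk 56 n a) (pk 56 n x)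
      (neg (pk 56 n (fun _ => 1)) (pk 56 n b)) (pk 56 n c) = pk 56 n Y := by
    rw [h_rok.neg n b fun i hi => (h i hi).2.2.1, kel_el,
      h_sm n a x _ c fun i hi => ⟨lt_of_le_of_lt (h i hi).1 (by norm_num), (h i hi).2.1,
        by omega, (h i hi).2.2.2⟩,
      kel_mul, kel_add, kel_add, kel_mul, kel_mul, kel_add,
      kel_sub _ _ _ _ fun i hi => by rw [(hY i hi).1]; exact Nat.le_add_left _ _]
    exact sum_congr rfl fun i hi => by
      beta_reduce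
      rw [(hY i (mem_range.1 hi)).1, Nat.add_sub_cancel]
  rw [e] at hr ⊢
  obtain ⟨r1, r2⟩ := h_rok.rok 56 n s Y (by omega) (fun i hi => (hY i hi).2.1) hr
  refine ⟨_, r2, fun i hi => ?_⟩
  obtain ⟨k1, k2⟩ := r1 i hi
  obtain ⟨w, hw⟩ := Nat.exists_eq_add_of_le k1
  have hp : 0 < 2 ^ s := by positivity
  have hp' : (0 : ℝ) < 2 ^ s := by positivity
  simp only [hw, Nat.add_sub_cancel_left]
  refine ⟨?_, ((w % 2 ^ s : ℕ) : ℝ) / 2 ^ s, div_nonneg (Nat.cast_nonneg _) hp'.le, ?_, ?_⟩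
  · rw [Nat.div_lt_iff_lt_mul hp, ← pow_add, add_comm 27 s]
    omega
  · rw [div_le_one hp']
    exact_mod_cast (Nat.mod_lt w hp).le
  · have e1 := (hY i hi).2.2
    rw [hw] at e1
    have e2 : ((2 ^ (56 - 1) + w : ℕ) : ℝ) = 2 ^ 55 + ((67108864 - z) * 2 ^ s : ℕ) +
        ((a i : ℝ) * ((x i : ℝ) - 2 ^ 26) - ((b i : ℝ) - 2 ^ 26) * ((c i : ℝ) - 2 ^ 26)) := by
      exact_mod_cast e1
    have e3 : (w : ℝ) = 2 ^ s * ((w / 2 ^ s : ℕ) : ℝ) + ((w % 2 ^ s : ℕ) : ℝ) := by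
      exact_mod_cast (Nat.div_add_mod w (2 ^ s)).symm
    rw [Nat.cast_mul, Nat.cast_sub (by omega), Nat.cast_add] at e2
    simp only [Nat.cast_pow, Nat.cast_ofNat] at e2
    have e4 : (2 : ℝ) ^ s * (((w % 2 ^ s : ℕ) : ℝ) / 2 ^ s) = ((w % 2 ^ s : ℕ) : ℝ) := by
      field_simp
    linear_combination e3 - e2 - e4

end Vale.Agent.P098.Ck
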