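import Vale.Agent.P098.CkSem

/-! # P098: soundness of `etot` -/

open Finset

noncomputable section
namespace Vale.Agent.P098.Ck

/-- Digits shifted by `s` places. -/
def ketot_sh (a : ℕ → ℕ) (s x : ℕ) : ℕ := if s ≤ x ∧ x - s < 656 then a (x - s) else 0

theorem ketot_shift (L : ℕ) (a : ℕ → ℕ) (s : ℕ) (hs : s ≤ 41) :
    pk L 656 a * 2 ^ (L * s) = pk L 697 (ketot_sh a s) := by
  unfold pk
  have h1 : ∑ j ∈ range 697, ketot_sh a s j * 2 ^ (L * j) =
      ∑ j ∈ Ico s (s + 656), ketot_sh a s j * 2 ^ (L * j) := by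
    symm
    refine Finset.sum_subset (fun j hj => ?_) (fun j _ hj => ?_)
    · rw [Finset.mem_Ico] at hj
      rw [Finset.mem_range]
      omega
    · rw [Finset.mem_Ico] at hj
      unfold ketot_sh
      rw [if_neg (by omega), zero_mul]
  rw [h1, Finset.sum_Ico_eq_sum_range, Nat.add_sub_cancel_left, Finset.sum_mul]
  refine Finset.sum_congr rfl fun j hj => ?_
  rw [Finset.mem_range] at hj
  unfold ketot_sh
  rw [if_pos (by omega), Nat.add_sub_cancel_left, Nat.mul_add, pow_add]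
  ring

theorem ketot_add (L J : ℕ) (u v : ℕ → ℕ) :
    pk L J u + pk L J v = pk L J fun x => u x + v x := by
  unfold pk
  rw [← Finset.sum_add_distrib]
  exact Finset.sum_congr rfl fun j _ => (add_mul _ _ _).symm

theorem ketot_mul (L J k : ℕ) (u : ℕ → ℕ) : k * pk L J u = pk L J fun x => k * u x := by
  unfold pk
  rw [Finset.mul_sum]
  exact Finset.sum_congr rfl fun j _ => (mul_assoc _ _ _).symm

theorem ketot_sum (L J n : ℕ) (u : ℕ → ℕ → ℕ) :
    ∑ t ∈ range n, pk L J (u t) = pk L J fun x => ∑ t ∈ range n, u t x := by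
  unfold pk
  rw [Finset.sum_comm]
  exact Finset.sum_congr rfl fun j _ => (Finset.sum_mul _ _ _).symm

theorem ketot_conv (L : ℕ) (a : ℕ → ℕ) (n c : ℕ) (hc : c ≤ 41) :
    pk L 656 a * ∑ t ∈ range n, 2 ^ (L * (c - t)) =
      pk L 697 fun x => ∑ t ∈ range n, ketot_sh a (c - t) x := by
  rw [Finset.mul_sum, ← ketot_sum]
  exact Finset.sum_congr rfl fun t _ => ketot_shift L a _ (by omega)

theorem ketot_W0 : W0 = ∑ t ∈ range 21, 2 ^ (112 * (40 - t)) := by decide +kernel
theorem ketot_W1 : W1 = ∑ t ∈ range 10, 2 ^ (112 * (19 - t)) := by decide +kernel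
theorem ketot_W2 : W2 = ∑ t ∈ range 10, 2 ^ (112 * (9 - t)) := by decide +kernel

theorem ketot_sq (n : ℕ) : sq n ≤ 256 := by
  have h : 16 / n ≤ 16 := Nat.div_le_self _ _
  exact Nat.mul_le_mul h h

theorem ketot_sh_le {a : ℕ → ℕ} {M : ℕ} (h : ∀ t, t < 656 → a t < M) (s x : ℕ) :
    ketot_sh a s x ≤ M := by
  unfold ketot_sh
  split_ifs with h1
  · exact (h _ h1.2).le
  · exact Nat.zero_le _

theorem ketot_sum_le {a : ℕ → ℕ} {M : ℕ} (h : ∀ t, t < 656 → a t < M) (n c x : ℕ) :
    ∑ t ∈ range n, ketot_sh a (c - t) x ≤ n * M := by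
  have := Finset.sum_le_card_nsmul (range n) (fun t => ketot_sh a (c - t) x) M
    fun t _ => ketot_sh_le h _ _
  rwa [Finset.card_range, smul_eq_mul] at this

theorem ketot_eq (A B E : P) (n3 n4 : ℕ) :
    etot A B E n3 n4 = va A * W0 + va B * (sq n3 * W1 + sq n4 * W2) + va E <<< 9 := rfl

theorem ketot_alg (x y z p q w0 w1 w2 : ℕ) :
    x * w0 + y * (p * w1 + q * w2) + z * 2 ^ 9 =
      x * w0 + p * (y * w1) + q * (y * w2) + 512 * (z * 2 ^ (112 * 0)) := by ring

theorem etot_ok : S_etot := by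
  intro A B E n3 n4 a b c hA hB hE hb
  refine ⟨fun x => ∑ t ∈ range 21, ketot_sh a (40 - t) x +
    sq n3 * ∑ t ∈ range 10, ketot_sh b (19 - t) x +
    sq n4 * ∑ t ∈ range 10, ketot_sh b (9 - t) x + 512 * ketot_sh c 0 x, ?_, fun x _ => ?_,
    fun k hk => ?_⟩
  · rw [ketot_eq, Nat.shiftLeft_eq, ketot_alg, hA, hB, hE, ketot_W0, ketot_W1, ketot_W2,
      ketot_conv 112 a 21 40 (by norm_num), ketot_conv 112 b 10 19 (by norm_num),
      ketot_conv 112 b 10 9 (by norm_num), ketot_shift 112 c 0 (by norm_num),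
      ketot_mul, ketot_mul, ketot_mul, ketot_add, ketot_add, ketot_add]
  · have h1 := ketot_sum_le (fun t ht => (hb t ht).1) 21 40 x
    have h2 := Nat.mul_le_mul (ketot_sq n3) (ketot_sum_le (fun t ht => (hb t ht).2.1) 10 19 x)
    have h3 := Nat.mul_le_mul (ketot_sq n4) (ketot_sum_le (fun t ht => (hb t ht).2.1) 10 9 x)
    have h4 := Nat.mul_le_mul_left 512 (ketot_sh_le (fun t ht => (hb t ht).2.2) 0 x)
    exact (Nat.add_le_add (Nat.add_le_add (Nat.add_le_add h1 h2) h3) h4).trans_lt (by norm_num)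
  · have h1 : ∑ t ∈ range 21, ketot_sh a (40 - t) (41 * k + 40) =
        ∑ t ∈ range 21, a (41 * k + t) := Finset.sum_congr rfl fun t ht => by
      rw [Finset.mem_range] at ht
      unfold ketot_sh
      rw [if_pos (by omega), show 41 * k + 40 - (40 - t) = 41 * k + t by omega]
    have h2 : ∑ t ∈ range 10, ketot_sh b (19 - t) (41 * k + 40) =
        ∑ t ∈ range 10, b (41 * k + (21 + t)) := Finset.sum_congr rfl fun t ht => by
      rw [Finset.mem_range] at ht
      unfold ketot_sh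
      rw [if_pos (by omega), show 41 * k + 40 - (19 - t) = 41 * k + (21 + t) by omega]
    have h3 : ∑ t ∈ range 10, ketot_sh b (9 - t) (41 * k + 40) =
        ∑ t ∈ range 10, b (41 * k + (31 + t)) := Finset.sum_congr rfl fun t ht => by
      rw [Finset.mem_range] at ht
      unfold ketot_sh
      rw [if_pos (by omega), show 41 * k + 40 - (9 - t) = 41 * k + (31 + t) by omega]
    have h4 : ketot_sh c 0 (41 * k + 40) = c (41 * k + 40) := by
      unfold ketot_sh
      rw [if_pos (by omega), Nat.sub_zero]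
    simp only [h1, h2, h3, h4]

end Vale.Agent.P098.Ck
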