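import Vale.Agent.P098.CkSem

open Finset

noncomputable section
namespace Vale.Agent.P098.Ck

theorem kev_band {a b : Bool} (h : band a b = true) : a = true ∧ b = true := by
  cases a
  · exact absurd h Bool.false_ne_true
  · exact ⟨rfl, h⟩

theorem kev_addL (a b m : ℕ) (q : P) :
    ∀ e : Pt, ev (addL a b m q) e = (a : ℝ) - (b : ℝ) + ev q e := by
  induction q with
  | nil =>
    intro e
    change (a : ℝ) - (b : ℝ) = (a : ℝ) - (b : ℝ) + 0
    ring
  | lf a' b' m' =>
    intro e
    change ((a + a' : ℕ) : ℝ) - ((b + b' : ℕ) : ℝ) = (a : ℝ) - (b : ℝ) + ((a' : ℝ) - (b' : ℝ))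
    push_cast
    ring
  | cons c r ic _ =>
    intro e
    change ev (addL a b m c) (tl e) + e 0 * ev r e =
      (a : ℝ) - (b : ℝ) + (ev c (tl e) + e 0 * ev r e)
    rw [ic]
    ring

theorem kev_padd (p : P) : ∀ (q : P) (e : Pt), ev (padd p q) e = ev p e + ev q e := by
  induction p with
  | nil =>
    intro q e
    change ev q e = 0 + ev q e
    ring
  | lf a b m =>
    intro q e
    exact kev_addL a b m q e
  | cons c r ic ir =>
    intro q e
    cases q with
    | nil =>
      change ev (P.cons c r) e = ev (P.cons c r) e + 0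
      ring
    | lf a b m =>
      change ev (addL a b m c) (tl e) + e 0 * ev r e =
        ev c (tl e) + e 0 * ev r e + ((a : ℝ) - (b : ℝ))
      rw [kev_addL]
      ring
    | cons c' r' =>
      change ev (padd c c') (tl e) + e 0 * ev (padd r r') e =
        ev c (tl e) + e 0 * ev r e + (ev c' (tl e) + e 0 * ev r' e)
      rw [ic, ir]
      ring

theorem kev_pmn (k : ℕ) (p : P) : ∀ e : Pt, ev (pmn k p) e = (k : ℝ) * ev p e := by
  induction p with
  | nil =>
    intro e
    change (0 : ℝ) = k * 0
    ring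
  | lf a b m =>
    intro e
    change ((k * a : ℕ) : ℝ) - ((k * b : ℕ) : ℝ) = k * ((a : ℝ) - (b : ℝ))
    push_cast
    ring
  | cons c r ic ir =>
    intro e
    change ev (pmn k c) (tl e) + e 0 * ev (pmn k r) e = k * (ev c (tl e) + e 0 * ev r e)
    rw [ic, ir]
    ring

theorem kev_pmm (k : ℕ) (p : P) : ∀ e : Pt, ev (pmm k p) e = -(k : ℝ) * ev p e := by
  induction p with
  | nil =>
    intro e
    change (0 : ℝ) = -(k : ℝ) * 0
    ring
  | lf a b m =>
    intro e
    change ((k * b : ℕ) : ℝ) - ((k * a : ℕ) : ℝ) = -(k : ℝ) * ((a : ℝ) - (b : ℝ))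
    push_cast
    ring
  | cons c r ic ir =>
    intro e
    change ev (pmm k c) (tl e) + e 0 * ev (pmm k r) e = -(k : ℝ) * (ev c (tl e) + e 0 * ev r e)
    rw [ic, ir]
    ring

theorem kev_zsm (a b : ℕ) (p : P) (e : Pt) :
    ev (zsm a b p) e = ((a : ℝ) - (b : ℝ)) * ev p e := by
  unfold zsm
  cases h1 : Nat.ble a b with
  | false =>
    have h : b ≤ a := by
      have := Nat.not_le_of_not_ble_eq_true (n := a) (m := b) (by rw [h1]; decide)
      omega
    change ev (pmn (a - b) p) e = _
    rw [kev_pmn, Nat.cast_sub h]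
  | true =>
    have h : a ≤ b := Nat.le_of_ble_eq_true h1
    cases h2 : Nat.ble b a with
    | false =>
      change ev (pmm (b - a) p) e = _
      rw [kev_pmm, Nat.cast_sub h]
      ring
    | true =>
      have h' : a = b := le_antisymm h (Nat.le_of_ble_eq_true h2)
      change (0 : ℝ) = _
      rw [h']
      ring

/-- The first summand in the product. -/
def kev_L (c q : P) : P :=
  P.rec (motive := fun _ => P) P.nil (fun a b m => P.cons (pmul c (P.lf a b m)) P.nil)
    (fun c' _ _ ir' => P.cons (pmul c c') ir') q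

theorem kev_Lev (c : P) (ic : ∀ (q : P) (e : Pt), ev (pmul c q) e = ev c e * ev q e) (q : P) :
    ∀ e : Pt, ev (kev_L c q) e = ev c (tl e) * ev q e := by
  induction q with
  | nil =>
    intro e
    change (0 : ℝ) = _ * 0
    ring
  | lf a b m =>
    intro e
    change ev (pmul c (P.lf a b m)) (tl e) + e 0 * 0 = ev c (tl e) * ((a : ℝ) - (b : ℝ))
    rw [ic]
    change ev c (tl e) * ((a : ℝ) - (b : ℝ)) + e 0 * 0 = _
    ring
  | cons c' r' _ ir =>
    intro e
    change ev (pmul c c') (tl e) + e 0 * ev (kev_L c r') e =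
      ev c (tl e) * (ev c' (tl e) + e 0 * ev r' e)
    rw [ic, ir]
    ring

theorem kev_pmul (p : P) : ∀ (q : P) (e : Pt), ev (pmul p q) e = ev p e * ev q e := by
  induction p with
  | nil =>
    intro q e
    change (0 : ℝ) = 0 * _
    ring
  | lf a b m =>
    intro q e
    exact kev_zsm a b q e
  | cons c r ic ir =>
    intro q e
    change ev (padd (kev_L c q) (P.cons P.nil (pmul r q))) e =
      (ev c (tl e) + e 0 * ev r e) * ev q e
    rw [kev_padd, kev_Lev c ic]
    change ev c (tl e) * ev q e + (0 + e 0 * ev (pmul r q) e) = _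
    rw [ir]
    ring

theorem kev_cmp (p : P) : ∀ (L : PL) (e : Pt), ev (cmp p L) e = ev p (evl L e) := by
  induction p with
  | nil => intro L e; rfl
  | lf a b m => intro L e; rfl
  | cons c r ic ir =>
    intro L e
    cases L with
    | nil =>
      change ev (cmp c PL.nil) e = ev c (evl PL.nil e) + 0 * ev r (evl PL.nil e)
      rw [ic]
      ring
    | cons h t =>
      change ev (padd (cmp c t) (pmul h (cmp r (PL.cons h t)))) e =
        ev c (evl t e) + ev h e * ev r (evl (PL.cons h t) e)
      rw [kev_padd, kev_pmul, ic, ir]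

theorem kev_tcons (c r : P) (e : Pt) : ev (tcons c r) e = ev c (tl e) + e 0 * ev r e := by
  cases r with
  | nil =>
    cases c with
    | nil =>
      change (0 : ℝ) = 0 + e 0 * 0
      ring
    | lf a b m =>
      change (a : ℝ) - (b : ℝ) = (a : ℝ) - (b : ℝ) + e 0 * 0
      ring
    | cons c' r' => rfl
  | lf a b m => rfl
  | cons c' r' => rfl

theorem kev_sub (a b : ℕ) : ((a - b : ℕ) : ℝ) - ((b - a : ℕ) : ℝ) = (a : ℝ) - (b : ℝ) := by
  rcases le_total a b with h | h
  · rw [Nat.sub_eq_zero_of_le h, Nat.cast_sub h]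
    push_cast
    ring
  · rw [Nat.sub_eq_zero_of_le h, Nat.cast_sub h]
    push_cast
    ring

theorem kev_trim_lf (a b m : ℕ) : (trim (P.lf a b m) = P.nil ∧ a = b) ∨
    trim (P.lf a b m) = P.lf (a - b) (b - a) ((a - b) + (b - a)) := by
  have h0 : trim (P.lf a b m) = Bool.rec (motive := fun _ => P)
      (P.lf (a - b) (b - a) ((a - b) + (b - a))) P.nil (Nat.beq a b) := rfl
  rw [h0]
  cases h : Nat.beq a b with
  | false => exact Or.inr rfl
  | true => exact Or.inl ⟨rfl, Nat.eq_of_beq_eq_true h⟩

theorem kev_trim (p : P) : ∀ e : Pt, ev (trim p) e = ev p e := by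
  induction p with
  | nil => intro e; rfl
  | lf a b m =>
    intro e
    rcases kev_trim_lf a b m with ⟨h, h'⟩ | h
    · rw [h, h']
      change (0 : ℝ) = (b : ℝ) - (b : ℝ)
      ring
    · rw [h]
      exact kev_sub a b
  | cons c r ic ir =>
    intro e
    change ev (tcons (trim c) (trim r)) e = ev c (tl e) + e 0 * ev r e
    rw [kev_tcons, ic, ir]

theorem kev_nn (p : P) : ∀ e : Pt, Box e → |ev p e| ≤ (nn p : ℝ) := by
  induction p with
  | nil =>
    intro e _
    change |(0 : ℝ)| ≤ ((0 : ℕ) : ℝ)
    simp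
  | lf a b m =>
    intro e _
    change |(a : ℝ) - (b : ℝ)| ≤ ((a + b : ℕ) : ℝ)
    have h1 : (0 : ℝ) ≤ a := Nat.cast_nonneg a
    have h2 : (0 : ℝ) ≤ b := Nat.cast_nonneg b
    push_cast
    exact abs_le.2 ⟨by linarith, by linarith⟩
  | cons c r ic ir =>
    intro e he
    change |ev c (tl e) + e 0 * ev r e| ≤ ((nn c + nn r : ℕ) : ℝ)
    push_cast
    refine (abs_add_le _ _).trans (add_le_add (ic _ fun n => he (n + 1)) ?_)
    rw [abs_mul]
    exact (mul_le_of_le_one_left (abs_nonneg _) (he 0)).trans (ir e he)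

theorem kev_rep_tcons (L J : ℕ) (c r : P) (C R F : Pt → ℕ → ℝ) (hc : Rep L J c C)
    (hr : Rep L J r R) (h : ∀ e j, j < J → F e j = C (tl e) j + e 0 * R e j) :
    Rep L J (tcons c r) F := by
  cases r with
  | nil =>
    cases c with
    | nil =>
      intro e j hj
      rw [h e j hj, hc _ j hj, hr _ j hj]
      ring
    | lf a b m =>
      obtain ⟨u, v, h1, h2, h3, h4⟩ := hc
      refine ⟨u, v, h1, h2, h3, fun e j hj => ?_⟩
      rw [h e j hj, h4 _ j hj, hr _ j hj]
      ring
    | cons c' r' => exact ⟨C, R, hc, hr, h⟩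
  | lf a b m => exact ⟨C, R, hc, hr, h⟩
  | cons c' r' => exact ⟨C, R, hc, hr, h⟩

theorem kev_rep (L : ℕ) (p : P) : Rep L 1 (trim p) (fun e _ => ev p e) := by
  induction p with
  | nil => intro e j _; rfl
  | lf a b m =>
    rcases kev_trim_lf a b m with ⟨h, h'⟩ | h
    · rw [h, h']
      intro e j _
      change (b : ℝ) - (b : ℝ) = 0
      ring
    · rw [h]
      refine ⟨fun _ => a - b, fun _ => b - a, by simp [pk], by simp [pk],
        fun j _ => ⟨Nat.le_add_right _ _, Nat.le_add_left _ _⟩, fun e j _ => ?_⟩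
      exact (kev_sub a b).symm
  | cons c r ic ir =>
    exact kev_rep_tcons L 1 (trim c) (trim r) _ _ _ ic ir fun e j _ => rfl

theorem kev_peq (p : P) : ∀ q : P, peq p q = true → p = q := by
  induction p with
  | nil =>
    intro q h
    cases q with
    | nil => rfl
    | lf a b m => exact absurd h Bool.false_ne_true
    | cons c r => exact absurd h Bool.false_ne_true
  | lf a b m =>
    intro q h
    cases q with
    | nil => exact absurd h Bool.false_ne_true
    | lf a' b' m' =>
      obtain ⟨h1, h2⟩ := kev_band h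
      obtain ⟨h2, h3⟩ := kev_band h2
      rw [Nat.eq_of_beq_eq_true h1, Nat.eq_of_beq_eq_true h2, Nat.eq_of_beq_eq_true h3]
    | cons c r => exact absurd h Bool.false_ne_true
  | cons c r ic ir =>
    intro q h
    cases q with
    | nil => exact absurd h Bool.false_ne_true
    | lf a b m => exact absurd h Bool.false_ne_true
    | cons c' r' =>
      obtain ⟨h1, h2⟩ := kev_band h
      rw [ic c' h1, ir r' h2]

theorem kev_eeq (x : EL) : ∀ y : EL, eeq x y = true → x = y := by
  induction x with
  | nil =>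
    intro y h
    cases y with
    | nil => rfl
    | cons k t l => exact absurd h Bool.false_ne_true
  | cons k t l ih =>
    intro y h
    cases y with
    | nil => exact absurd h Bool.false_ne_true
    | cons k' t' l' =>
      obtain ⟨h1, h2⟩ := kev_band h
      obtain ⟨h1, h3⟩ := kev_band h1
      obtain ⟨h3, h4⟩ := kev_band h3
      have ht : t = t' := by
        cases t
        cases t'
        have p1 := kev_peq _ _ h3
        have p2 := Nat.eq_of_beq_eq_true h4
        simp only at p1 p2
        rw [p1, p2]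
      rw [Nat.eq_of_beq_eq_true h1, ht, ih l' h2]

theorem kev_seq (S : SL) : ∀ T : SL, seq S T = true → S = T := by
  induction S with
  | nil =>
    intro T h
    cases T with
    | nil => rfl
    | cons f T' => exact absurd h Bool.false_ne_true
  | cons x l ih =>
    intro T h
    cases T with
    | nil => exact absurd h Bool.false_ne_true
    | cons f T' =>
      obtain ⟨h1, h2⟩ := kev_band h
      rw [kev_eeq x f h1, ih T' h2]

theorem ev_ok : S_ev :=
  ⟨kev_addL, kev_padd, kev_pmn, kev_pmm, kev_zsm, kev_pmul, kev_cmp, kev_trim, kev_nn, kev_rep,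
    kev_peq, kev_seq⟩

end Vale.Agent.P098.Ck
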