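import Vale.Agent.P098.CkSem

/-! P098: the weighted Gershgorin bound of the final test. -/

open Finset

noncomputable section

namespace Vale.Agent.P098.Ck

theorem kfin_succ (L J : ℕ) (u : ℕ → ℕ) :
    pk L (J + 1) u = u 0 + 2 ^ L * pk L J (fun j => u (j + 1)) := by
  unfold pk
  rw [sum_range_succ', mul_sum, add_comm]
  simp only [mul_zero, pow_zero, mul_one]
  refine congrArg _ (sum_congr rfl fun j _ => ?_)
  rw [mul_add, mul_one, pow_add]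
  ring

theorem kfin_digit (L t : ℕ) : ∀ (n : ℕ) (u : ℕ → ℕ), t < n → (∀ j, j < n → u j < 2 ^ L) →
    pk L n u / 2 ^ (L * t) % 2 ^ L = u t := by
  induction t with
  | zero =>
    intro n u h hu
    obtain ⟨n, rfl⟩ : ∃ m, n = m + 1 := ⟨n - 1, by omega⟩
    rw [kfin_succ, mul_zero, pow_zero, Nat.div_one, Nat.add_mul_mod_self_left,
      Nat.mod_eq_of_lt (hu 0 h)]
  | succ t ih =>
    intro n u h hu
    obtain ⟨n, rfl⟩ : ∃ m, n = m + 1 := ⟨n - 1, by omega⟩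
    rw [kfin_succ, mul_add, mul_one, add_comm (L * t), pow_add, ← Nat.div_div_eq_div_mul,
      Nat.add_mul_div_left _ _ (by positivity), Nat.div_eq_of_lt (hu 0 (by omega)), zero_add]
    exact ih n _ (by omega) fun j hj => hu _ (by omega)

theorem kfin_dw {n : ℕ} {u : ℕ → ℕ} (hn : 656 ≤ n) (hu : ∀ t, t < n → u t < 2 ^ 112) {k : ℕ}
    (hk : k < 16) (w : ℕ) : dw (pk 112 n u) k w = u (41 * k + 40) * 2 ^ w := by
  have h1 : dw (pk 112 n u) k w =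
      ((pk 112 n u >>> (4592 * k + 4480)) &&& (2 ^ 112 - 1)) <<< w := rfl
  rw [h1, Nat.shiftLeft_eq, Nat.and_two_pow_sub_one_eq_mod, Nat.shiftRight_eq_div_pow,
    show 4592 * k + 4480 = 112 * (41 * k + 40) by ring, kfin_digit 112 _ n u (by omega) hu]

theorem kfin_sh (S w : ℕ) :
    (2 : ℝ) ^ 21 * ((S : ℝ) / 2 ^ w) ≤ (((S / 2 ^ w + 1) * 2 ^ 21 : ℕ) : ℝ) := by
  have h3 : S ≤ (S / 2 ^ w + 1) * 2 ^ w := by
    rw [add_mul, one_mul]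
    exact (Nat.lt_div_mul_add (by positivity)).le
  obtain ⟨T, hT⟩ : ∃ T, T = S / 2 ^ w + 1 := ⟨_, rfl⟩
  rw [← hT] at h3 ⊢
  have h4 : (S : ℝ) ≤ (T : ℝ) * 2 ^ w := by exact_mod_cast h3
  have h5 : (S : ℝ) / 2 ^ w ≤ T := (div_le_iff₀ (by positivity)).2 h4
  push_cast
  linarith

theorem kfin_row (a k0 k1 k2 k3 k4 w0 w1 w2 w3 w4 w : ℕ) :
    (2 : ℝ) ^ 21 * (((dw a k0 w0 : ℝ) + dw a k1 w1 + dw a k2 w2 + dw a k3 w3 + dw a k4 w4) /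
      2 ^ w) ≤ row a k0 k1 k2 k3 k4 w0 w1 w2 w3 w4 w := by
  have h1 : row a k0 k1 k2 k3 k4 w0 w1 w2 w3 w4 w =
      (((dw a k0 w0 + dw a k1 w1 + dw a k2 w2 + dw a k3 w3 + dw a k4 w4) >>> w) + 1) <<< 21 := rfl
  rw [h1, Nat.shiftLeft_eq, Nat.shiftRight_eq_div_pow, ← Nat.cast_add, ← Nat.cast_add,
    ← Nat.cast_add, ← Nat.cast_add]
  exact kfin_sh _ _

theorem kfin_pair {R s t : ℝ} (hR : 0 ≤ R) (hs : 0 < s) (ht : 0 < t) (x y : ℝ) :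
    2 * R * |x| * |y| ≤ R * t / s * x ^ 2 + R * s / t * y ^ 2 := by
  have h1 : R * t / s * x ^ 2 + R * s / t * y ^ 2 - 2 * R * |x| * |y| =
      R / (s * t) * (t * |x| - s * |y|) ^ 2 := by
    rw [← sq_abs x, ← sq_abs y]
    field_simp
    ring
  have h2 : 0 ≤ R / (s * t) * (t * |x| - s * |y|) ^ 2 := by positivity
  linarith

theorem kfin_ger (R s v : ℕ → ℝ) (hR : ∀ k, 0 ≤ R k) (hs : ∀ k, 0 < s k) :
    qf R (fun i => |v i|) ≤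
      (R 0 * s 0 + R 1 * s 1 + R 2 * s 2 + R 3 * s 3 + R 4 * s 4) / s 0 * v 0 ^ 2 +
      (R 1 * s 0 + R 5 * s 1 + R 6 * s 2 + R 7 * s 3 + R 8 * s 4) / s 1 * v 1 ^ 2 +
      (R 2 * s 0 + R 6 * s 1 + R 9 * s 2 + R 10 * s 3 + R 11 * s 4) / s 2 * v 2 ^ 2 +
      (R 3 * s 0 + R 7 * s 1 + R 10 * s 2 + R 12 * s 3 + R 13 * s 4) / s 3 * v 3 ^ 2 +
      (R 4 * s 0 + R 8 * s 1 + R 11 * s 2 + R 13 * s 3 + R 14 * s 4) / s 4 * v 4 ^ 2 := by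
  have h := fun k i j => kfin_pair (hR k) (hs i) (hs j) (v i) (v j)
  have e := fun k i => mul_div_cancel_right₀ (R k) (hs i).ne'
  simp only [qf, sq_abs, add_div, add_mul, e]
  linarith [h 1 0 1, h 2 0 2, h 3 0 3, h 4 0 4, h 6 1 2, h 7 1 3, h 8 1 4, h 10 2 3, h 11 2 4,
    h 13 3 4]

theorem fin_ok (h_fin1 : S_fin1) : S_fin := by
  intro X V n s w u A hX hn hu hf M hM v
  have h7 : ∀ x : ℕ, Nat.land x 7 ≤ 7 := fun x => Nat.and_le_right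
  obtain ⟨w0, w1, w2, w3, w4, h1⟩ : ∃ w0 w1 w2 w3 w4,
      (row (pk 112 n u) 0 1 2 3 4 w0 w1 w2 w3 w4 w0 : ℝ) * v 0 ^ 2 +
      row (pk 112 n u) 1 5 6 7 8 w0 w1 w2 w3 w4 w1 * v 1 ^ 2 +
      row (pk 112 n u) 2 6 9 10 11 w0 w1 w2 w3 w4 w2 * v 2 ^ 2 +
      row (pk 112 n u) 3 7 10 12 13 w0 w1 w2 w3 w4 w3 * v 3 ^ 2 +
      row (pk 112 n u) 4 8 11 13 14 w0 w1 w2 w3 w4 w4 * v 4 ^ 2 +
      dw (pk 112 n u) 15 21 * v 5 ^ 2 ≤ Qf M v :=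
    ⟨_, _, _, _, _, h_fin1 X V _ _ _ _ _ _ _ _ _ _ _ _ _ _ _ _ A hX (h7 _) (h7 _) (h7 _) (h7 _)
      (h7 _) hf M hM v⟩
  refine le_trans ?_ h1
  have hd : ∀ k, k < 16 → ∀ w, (dw (pk 112 n u) k w : ℝ) = (u (41 * k + 40) : ℝ) * 2 ^ w :=
    fun k hk w => by rw [kfin_dw hn hu hk]; push_cast; rfl
  have r0 := kfin_row (pk 112 n u) 0 1 2 3 4 w0 w1 w2 w3 w4 w0
  have r1 := kfin_row (pk 112 n u) 1 5 6 7 8 w0 w1 w2 w3 w4 w1
  have r2 := kfin_row (pk 112 n u) 2 6 9 10 11 w0 w1 w2 w3 w4 w2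
  have r3 := kfin_row (pk 112 n u) 3 7 10 12 13 w0 w1 w2 w3 w4 w3
  have r4 := kfin_row (pk 112 n u) 4 8 11 13 14 w0 w1 w2 w3 w4 w4
  rw [hd _ (by omega), hd _ (by omega), hd _ (by omega), hd _ (by omega), hd _ (by omega)]
    at r0 r1 r2 r3 r4
  have g := kfin_ger (fun k => (u (41 * k + 40) : ℝ)) (fun i => 2 ^ [w0, w1, w2, w3, w4].getD i 0)
    v (fun k => Nat.cast_nonneg _) fun k => by positivity
  simp only [List.getD_cons_zero, List.getD_cons_succ] at g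
  rw [hd 15 (by omega), Qf, sq_abs]
  have a0 := mul_le_mul_of_nonneg_right r0 (sq_nonneg (v 0))
  have a1 := mul_le_mul_of_nonneg_right r1 (sq_nonneg (v 1))
  have a2 := mul_le_mul_of_nonneg_right r2 (sq_nonneg (v 2))
  have a3 := mul_le_mul_of_nonneg_right r3 (sq_nonneg (v 3))
  have a4 := mul_le_mul_of_nonneg_right r4 (sq_nonneg (v 4))
  linarith

end Vale.Agent.P098.Ck
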