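import Vale.Agent.P098.CkSem

open Finset

noncomputable section
namespace Vale.Agent.P098.Ck

theorem kfin1_band {a b : Bool} (h : band a b = true) : a = true ∧ b = true := by
  cases a <;> cases b <;> simp_all [band]

theorem kfin1_lin (L V a d : ℕ) (u : ℕ → ℕ) (h : ∀ i, i < V → d ≤ u i + a) :
    pk L V u + pk L V (fun _ => 1) * a - d * pk L V (fun _ => 1) =
      pk L V (fun i => u i + a - d) := by
  refine Nat.sub_eq_of_eq_add ?_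
  unfold pk
  rw [sum_mul, mul_sum, ← sum_add_distrib, ← sum_add_distrib]
  refine sum_congr rfl fun i hi => ?_
  have h1 := Nat.sub_add_cancel (h i (mem_range.1 hi))
  calc u i * 2 ^ (L * i) + 1 * 2 ^ (L * i) * a = (u i + a) * 2 ^ (L * i) := by ring
    _ = (u i + a - d + d) * 2 ^ (L * i) := by rw [h1]
    _ = _ := by ring

/-- the interleaved digits -/
def kfin1_il (V : ℕ) (y : ℕ → ℕ) (i : ℕ) : ℕ := if i % 2 = 0 then y (i / 2) else y (V / 2 + i / 2)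

theorem kfin1_slot (h_rok : S_rok) {V s d : ℕ} {U : ℕ → ℕ}
    (h : rok 112 (pk 112 V (fun _ => 1)) s (fy (pk 112 V (fun _ => 1)) s d (pk 112 V U)) = true)
    (hs : s ≤ 80) (hd : d < 2 ^ 109)
    (hU : ∀ i, i < V → 2 ^ 110 < U i ∧ U i < 2 ^ 111 + 2 ^ 110) :
    ∃ y : ℕ → ℕ, il V (rsh (pk 112 V (fun _ => 1)) s (fy (pk 112 V (fun _ => 1)) s d (pk 112 V U))) =
      pk 56 (2 * ((V + 1) / 2)) (kfin1_il V y) ∧
      (∀ i, i < 2 * ((V + 1) / 2) → kfin1_il V y i < 2 ^ 27) ∧ ∀ i, i < V → ∃ δ : ℝ, 0 ≤ δ ∧ δ ≤ 1 ∧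
        (U i : ℝ) - 2 ^ 111 - d = 2 ^ s * ((y i : ℝ) - 2 ^ 26 + δ) := by
  have hp : 2 ^ (s + 26) ≤ 2 ^ 106 := Nat.pow_le_pow_right (by norm_num) (by omega)
  have h1 : fy (pk 112 V (fun _ => 1)) s d (pk 112 V U) =
      pk 112 V (fun i => U i + 2 ^ (s + 26) - d) := by
    rw [← kfin1_lin 112 V _ d U fun i hi => Nat.le_add_right_of_le (by have := hU i hi; omega),
      ← Nat.shiftLeft_eq]
    rfl
  rw [h1] at h ⊢
  obtain ⟨h2, h3⟩ := h_rok.rok 112 V s _ (by omega) (fun i hi => by have := hU i hi; omega) h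
  have h4 : ∀ i, i < V → (U i + 2 ^ (s + 26) - d - 2 ^ (112 - 1)) / 2 ^ s < 2 ^ 27 := by
    intro i hi
    rw [Nat.div_lt_iff_lt_mul (by positivity), ← pow_add, add_comm 27 s]
    have := h2 i hi
    omega
  refine ⟨fun i => (U i + 2 ^ (s + 26) - d - 2 ^ (112 - 1)) / 2 ^ s, ?_, fun i hi => ?_,
    fun i hi => ?_⟩
  · rw [h3]
    exact h_rok.il V _ h4
  · unfold kfin1_il
    split_ifs
    · exact h4 _ (by omega)
    · exact h4 _ (by omega)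
  · have h5 := (h2 i hi).1
    have h6 := hU i hi
    obtain ⟨t, ht⟩ : ∃ t, U i + 2 ^ (s + 26) - d - 2 ^ (112 - 1) = t := ⟨_, rfl⟩
    have h7 : U i + 2 ^ (s + 26) = t + d + 2 ^ 111 := by omega
    have h8 : (U i : ℝ) + 2 ^ s * 2 ^ 26 = t + d + 2 ^ 111 := by
      have := congrArg (Nat.cast : ℕ → ℝ) h7
      simp only [Nat.cast_add, Nat.cast_pow, Nat.cast_ofNat] at this
      rw [← pow_add]
      exact this
    have h9 : ((2 : ℝ) ^ s) * (t / 2 ^ s : ℕ) + (t % 2 ^ s : ℕ) = t := by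
      exact_mod_cast Nat.div_add_mod t (2 ^ s)
    have h10 : ((t % 2 ^ s : ℕ) : ℝ) < 2 ^ s := by
      exact_mod_cast Nat.mod_lt t (by positivity : 0 < 2 ^ s)
    have h11 : (0 : ℝ) < 2 ^ s := by positivity
    simp only [ht]
    refine ⟨(t % 2 ^ s : ℕ) / 2 ^ s, div_nonneg (Nat.cast_nonneg _) h11.le,
      (div_le_one h11).2 h10.le, ?_⟩
    rw [mul_add, mul_div_cancel₀ _ h11.ne']
    linarith

theorem kfin1_pos {V i : ℕ} (hi : i < V) :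
    ∃ j, j < 2 * ((V + 1) / 2) ∧ ∀ y, kfin1_il V y j = y i := by
  by_cases h : i < (V + 1) / 2
  · refine ⟨2 * i, by omega, fun y => ?_⟩
    unfold kfin1_il
    rw [if_pos (by omega)]
    congr 1
    omega
  · refine ⟨2 * (i - V / 2) + 1, by omega, fun y => ?_⟩
    unfold kfin1_il
    rw [if_neg (by omega)]
    congr 1
    omega

theorem kfin1_off {m y δ : ℝ} {s0 a b : ℕ} (h : a + b ≤ s0)
    (e : m - ((0 : ℕ) : ℝ) = 2 ^ (s0 - (a + b)) * (y + δ)) :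
    2 ^ a * 2 ^ b * m = 2 ^ s0 * (y + δ) := by
  obtain ⟨s, rfl⟩ := Nat.exists_eq_add_of_le h
  rw [Nat.add_sub_cancel_left, Nat.cast_zero, sub_zero] at e
  rw [e, pow_add, pow_add]
  ring

theorem kfin1_dia {m y δ : ℝ} {s0 a d : ℕ} (h : a + a ≤ s0)
    (e : m - ((d + 5 <<< (s0 - (a + a)) : ℕ) : ℝ) = 2 ^ (s0 - (a + a)) * (y + δ)) :
    2 ^ a * 2 ^ a * (m - d) = 2 ^ s0 * (y + 5 + δ) := by
  obtain ⟨s, rfl⟩ := Nat.exists_eq_add_of_le h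
  rw [Nat.add_sub_cancel_left, Nat.shiftLeft_eq] at e
  push_cast at e
  rw [pow_add, pow_add]
  linear_combination 2 ^ a * 2 ^ a * e

theorem kfin1_dlt {d s : ℕ} (hd : d < 2 ^ 108) (hs : s ≤ 80) : d + 5 <<< s < 2 ^ 109 := by
  have hp : 2 ^ s ≤ 2 ^ 80 := Nat.pow_le_pow_right (by norm_num) hs
  rw [Nat.shiftLeft_eq]
  omega

theorem kfin1_cross {δ : ℝ} (h0 : 0 ≤ δ) (h1 : δ ≤ 1) (x y : ℝ) :
    0 ≤ 2 * δ * x * y + x ^ 2 + y ^ 2 := by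
  nlinarith [mul_nonneg h0 (sq_nonneg (x + y)), mul_nonneg (sub_nonneg.2 h1) (sq_nonneg x),
    mul_nonneg (sub_nonneg.2 h1) (sq_nonneg y)]

theorem kfin1_real (M z u v : ℕ → ℝ) (c a0 a1 a2 a3 a4 d0 d1 d2 d3 d4 : ℝ)
    (D0 D1 D2 D3 D4 D5 D6 D7 D8 D9 D10 D11 D12 D13 D14 : ℝ) (hc : 0 ≤ c)
    (v0 : v 0 = a0 * u 0) (v1 : v 1 = a1 * u 1) (v2 : v 2 = a2 * u 2)
    (v3 : v 3 = a3 * u 3) (v4 : v 4 = a4 * u 4)
    (p0 : 0 ≤ D0) (e0 : a0 * a0 * (M 0 - d0) = c * (z 0 + 5 + D0))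
    (p1 : 0 ≤ D1) (q1 : D1 ≤ 1) (e1 : a0 * a1 * M 1 = c * (z 1 + D1))
    (p2 : 0 ≤ D2) (q2 : D2 ≤ 1) (e2 : a0 * a2 * M 2 = c * (z 2 + D2))
    (p3 : 0 ≤ D3) (q3 : D3 ≤ 1) (e3 : a0 * a3 * M 3 = c * (z 3 + D3))
    (p4 : 0 ≤ D4) (q4 : D4 ≤ 1) (e4 : a0 * a4 * M 4 = c * (z 4 + D4))
    (p5 : 0 ≤ D5) (e5 : a1 * a1 * (M 5 - d1) = c * (z 5 + 5 + D5))
    (p6 : 0 ≤ D6) (q6 : D6 ≤ 1) (e6 : a1 * a2 * M 6 = c * (z 6 + D6))
    (p7 : 0 ≤ D7) (q7 : D7 ≤ 1) (e7 : a1 * a3 * M 7 = c * (z 7 + D7))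
    (p8 : 0 ≤ D8) (q8 : D8 ≤ 1) (e8 : a1 * a4 * M 8 = c * (z 8 + D8))
    (p9 : 0 ≤ D9) (e9 : a2 * a2 * (M 9 - d2) = c * (z 9 + 5 + D9))
    (p10 : 0 ≤ D10) (q10 : D10 ≤ 1) (e10 : a2 * a3 * M 10 = c * (z 10 + D10))
    (p11 : 0 ≤ D11) (q11 : D11 ≤ 1) (e11 : a2 * a4 * M 11 = c * (z 11 + D11))
    (p12 : 0 ≤ D12) (e12 : a3 * a3 * (M 12 - d3) = c * (z 12 + 5 + D12))
    (p13 : 0 ≤ D13) (q13 : D13 ≤ 1) (e13 : a3 * a4 * M 13 = c * (z 13 + D13))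
    (p14 : 0 ≤ D14) (e14 : a4 * a4 * (M 14 - d4) = c * (z 14 + 5 + D14))
    (hq : 0 ≤ qf z u + (u 0 ^ 2 + u 1 ^ 2 + u 2 ^ 2 + u 3 ^ 2 + u 4 ^ 2)) :
    d0 * v 0 ^ 2 + d1 * v 1 ^ 2 + d2 * v 2 ^ 2 + d3 * v 3 ^ 2 + d4 * v 4 ^ 2 ≤ qf M v := by
  have r0 := mul_nonneg p0 (sq_nonneg (u 0))
  have r1 := kfin1_cross p1 q1 (u 0) (u 1)
  have r2 := kfin1_cross p2 q2 (u 0) (u 2)
  have r3 := kfin1_cross p3 q3 (u 0) (u 3)
  have r4 := kfin1_cross p4 q4 (u 0) (u 4)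
  have r5 := mul_nonneg p5 (sq_nonneg (u 1))
  have r6 := kfin1_cross p6 q6 (u 1) (u 2)
  have r7 := kfin1_cross p7 q7 (u 1) (u 3)
  have r8 := kfin1_cross p8 q8 (u 1) (u 4)
  have r9 := mul_nonneg p9 (sq_nonneg (u 2))
  have r10 := kfin1_cross p10 q10 (u 2) (u 3)
  have r11 := kfin1_cross p11 q11 (u 2) (u 4)
  have r12 := mul_nonneg p12 (sq_nonneg (u 3))
  have r13 := kfin1_cross p13 q13 (u 3) (u 4)
  have r14 := mul_nonneg p14 (sq_nonneg (u 4))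
  have h : 0 ≤ qf z u + 5 * (u 0 ^ 2 + u 1 ^ 2 + u 2 ^ 2 + u 3 ^ 2 + u 4 ^ 2) +
      (D0 * u 0 ^ 2 + 2 * D1 * u 0 * u 1 + 2 * D2 * u 0 * u 2 + 2 * D3 * u 0 * u 3 +
      2 * D4 * u 0 * u 4 + D5 * u 1 ^ 2 + 2 * D6 * u 1 * u 2 + 2 * D7 * u 1 * u 3 +
      2 * D8 * u 1 * u 4 + D9 * u 2 ^ 2 + 2 * D10 * u 2 * u 3 + 2 * D11 * u 2 * u 4 +
      D12 * u 3 ^ 2 + 2 * D13 * u 3 * u 4 + D14 * u 4 ^ 2) := by
    linarith
  have h2 := mul_nonneg hc h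
  unfold qf at h2 ⊢
  rw [v0, v1, v2, v3, v4]
  linear_combination h2 - (
    u 0 ^ 2 * e0 + 2 * u 0 * u 1 * e1 + 2 * u 0 * u 2 * e2 + 2 * u 0 * u 3 * e3 +
    2 * u 0 * u 4 * e4 + u 1 ^ 2 * e5 + 2 * u 1 * u 2 * e6 + 2 * u 1 * u 3 * e7 +
    2 * u 1 * u 4 * e8 + u 2 ^ 2 * e9 + 2 * u 2 * u 3 * e10 + 2 * u 2 * u 4 * e11 +
    u 3 ^ 2 * e12 + 2 * u 3 * u 4 * e13 + u 4 ^ 2 * e14)

theorem fin1_ok (h_nzs : S_nzs) (h_rok : S_rok) (h_sq5 : S_sq5) : S_fin1 := by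
  intro X V s0 s1 s2 s3 s4 w0 w1 w2 w3 w4 d0 d1 d2 d3 d4 d5 A hC b0 b1 b2 b3 b4 h M hM v
  unfold fin1 fin2 at h
  obtain ⟨h, g⟩ := kfin1_band h
  obtain ⟨h, h3⟩ := kfin1_band h
  obtain ⟨h0, h⟩ := kfin1_band h
  obtain ⟨h1, h2⟩ := kfin1_band h
  obtain ⟨h3, h4⟩ := kfin1_band h3
  have k1 : 14 ≤ s0 := Nat.le_of_ble_eq_true h1
  have k2 : s0 ≤ 80 := Nat.le_of_ble_eq_true h2
  have k3 : d0 + (d1 + (d2 + (d3 + (d4 + d5)))) < 324518553658426726783156020576256 :=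
    Nat.blt_eq.mp h3
  obtain ⟨U, hX, hU, hA⟩ := hC.2 (Nat.eq_of_beq_eq_true h0)
  obtain ⟨i, hi, hM⟩ := hA M hM
  obtain ⟨j, hj, hji⟩ := kfin1_pos hi
  rw [h_nzs.ones 112 V (by norm_num), h_nzs.ones 56 _ (by norm_num)] at g
  rw [h_nzs.ones 112 V (by norm_num), hX 15 (by norm_num)] at h4
  rw [hX 0 (by norm_num)] at g
  rw [hX 1 (by norm_num)] at g
  rw [hX 2 (by norm_num)] at g
  rw [hX 3 (by norm_num)] at g
  rw [hX 4 (by norm_num)] at g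
  rw [hX 5 (by norm_num)] at g
  rw [hX 6 (by norm_num)] at g
  rw [hX 7 (by norm_num)] at g
  rw [hX 8 (by norm_num)] at g
  rw [hX 9 (by norm_num)] at g
  rw [hX 10 (by norm_num)] at g
  rw [hX 11 (by norm_num)] at g
  rw [hX 12 (by norm_num)] at g
  rw [hX 13 (by norm_num)] at g
  rw [hX 14 (by norm_num)] at g
  obtain ⟨g0, g⟩ := kfin1_band g
  obtain ⟨y0, e0, l0, r0⟩ := kfin1_slot h_rok g0 ((Nat.sub_le _ _).trans k2)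
    (kfin1_dlt (by omega) ((Nat.sub_le _ _).trans k2)) (hU 0 (by norm_num))
  obtain ⟨D0, p0, q0, r0⟩ := r0 i hi
  rw [hM 0 (by norm_num), ← hji y0] at r0
  rw [e0] at g
  obtain ⟨g1, g⟩ := kfin1_band g
  obtain ⟨y1, e1, l1, r1⟩ := kfin1_slot h_rok g1 ((Nat.sub_le _ _).trans k2)
    (by norm_num) (hU 1 (by norm_num))
  obtain ⟨D1, p1, q1, r1⟩ := r1 i hi
  rw [hM 1 (by norm_num), ← hji y1] at r1
  rw [e1] at g
  obtain ⟨g2, g⟩ := kfin1_band g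
  obtain ⟨y2, e2, l2, r2⟩ := kfin1_slot h_rok g2 ((Nat.sub_le _ _).trans k2)
    (by norm_num) (hU 2 (by norm_num))
  obtain ⟨D2, p2, q2, r2⟩ := r2 i hi
  rw [hM 2 (by norm_num), ← hji y2] at r2
  rw [e2] at g
  obtain ⟨g3, g⟩ := kfin1_band g
  obtain ⟨y3, e3, l3, r3⟩ := kfin1_slot h_rok g3 ((Nat.sub_le _ _).trans k2)
    (by norm_num) (hU 3 (by norm_num))
  obtain ⟨D3, p3, q3, r3⟩ := r3 i hi
  rw [hM 3 (by norm_num), ← hji y3] at r3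
  rw [e3] at g
  obtain ⟨g4, g⟩ := kfin1_band g
  obtain ⟨y4, e4, l4, r4⟩ := kfin1_slot h_rok g4 ((Nat.sub_le _ _).trans k2)
    (by norm_num) (hU 4 (by norm_num))
  obtain ⟨D4, p4, q4, r4⟩ := r4 i hi
  rw [hM 4 (by norm_num), ← hji y4] at r4
  rw [e4] at g
  obtain ⟨g5, g⟩ := kfin1_band g
  obtain ⟨y5, e5, l5, r5⟩ := kfin1_slot h_rok g5 ((Nat.sub_le _ _).trans k2)
    (kfin1_dlt (by omega) ((Nat.sub_le _ _).trans k2)) (hU 5 (by norm_num))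
  obtain ⟨D5, p5, q5, r5⟩ := r5 i hi
  rw [hM 5 (by norm_num), ← hji y5] at r5
  rw [e5] at g
  obtain ⟨g6, g⟩ := kfin1_band g
  obtain ⟨y6, e6, l6, r6⟩ := kfin1_slot h_rok g6 ((Nat.sub_le _ _).trans k2)
    (by norm_num) (hU 6 (by norm_num))
  obtain ⟨D6, p6, q6, r6⟩ := r6 i hi
  rw [hM 6 (by norm_num), ← hji y6] at r6
  rw [e6] at g
  obtain ⟨g7, g⟩ := kfin1_band g
  obtain ⟨y7, e7, l7, r7⟩ := kfin1_slot h_rok g7 ((Nat.sub_le _ _).trans k2)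
    (by norm_num) (hU 7 (by norm_num))
  obtain ⟨D7, p7, q7, r7⟩ := r7 i hi
  rw [hM 7 (by norm_num), ← hji y7] at r7
  rw [e7] at g
  obtain ⟨g8, g⟩ := kfin1_band g
  obtain ⟨y8, e8, l8, r8⟩ := kfin1_slot h_rok g8 ((Nat.sub_le _ _).trans k2)
    (by norm_num) (hU 8 (by norm_num))
  obtain ⟨D8, p8, q8, r8⟩ := r8 i hi
  rw [hM 8 (by norm_num), ← hji y8] at r8
  rw [e8] at g
  obtain ⟨g9, g⟩ := kfin1_band g
  obtain ⟨y9, e9, l9, r9⟩ := kfin1_slot h_rok g9 ((Nat.sub_le _ _).trans k2)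
    (kfin1_dlt (by omega) ((Nat.sub_le _ _).trans k2)) (hU 9 (by norm_num))
  obtain ⟨D9, p9, q9, r9⟩ := r9 i hi
  rw [hM 9 (by norm_num), ← hji y9] at r9
  rw [e9] at g
  obtain ⟨g10, g⟩ := kfin1_band g
  obtain ⟨y10, e10, l10, r10⟩ := kfin1_slot h_rok g10 ((Nat.sub_le _ _).trans k2)
    (by norm_num) (hU 10 (by norm_num))
  obtain ⟨D10, p10, q10, r10⟩ := r10 i hi
  rw [hM 10 (by norm_num), ← hji y10] at r10
  rw [e10] at g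
  obtain ⟨g11, g⟩ := kfin1_band g
  obtain ⟨y11, e11, l11, r11⟩ := kfin1_slot h_rok g11 ((Nat.sub_le _ _).trans k2)
    (by norm_num) (hU 11 (by norm_num))
  obtain ⟨D11, p11, q11, r11⟩ := r11 i hi
  rw [hM 11 (by norm_num), ← hji y11] at r11
  rw [e11] at g
  obtain ⟨g12, g⟩ := kfin1_band g
  obtain ⟨y12, e12, l12, r12⟩ := kfin1_slot h_rok g12 ((Nat.sub_le _ _).trans k2)
    (kfin1_dlt (by omega) ((Nat.sub_le _ _).trans k2)) (hU 12 (by norm_num))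
  obtain ⟨D12, p12, q12, r12⟩ := r12 i hi
  rw [hM 12 (by norm_num), ← hji y12] at r12
  rw [e12] at g
  obtain ⟨g13, g⟩ := kfin1_band g
  obtain ⟨y13, e13, l13, r13⟩ := kfin1_slot h_rok g13 ((Nat.sub_le _ _).trans k2)
    (by norm_num) (hU 13 (by norm_num))
  obtain ⟨D13, p13, q13, r13⟩ := r13 i hi
  rw [hM 13 (by norm_num), ← hji y13] at r13
  rw [e13] at g
  obtain ⟨g14, g⟩ := kfin1_band g
  obtain ⟨y14, e14, l14, r14⟩ := kfin1_slot h_rok g14 ((Nat.sub_le _ _).trans k2)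
    (kfin1_dlt (by omega) ((Nat.sub_le _ _).trans k2)) (hU 14 (by norm_num))
  obtain ⟨D14, p14, q14, r14⟩ := r14 i hi
  rw [hM 14 (by norm_num), ← hji y14] at r14
  rw [e14] at g
  have hq := h_sq5 (2 * ((V + 1) / 2)) s1 s2 s3 s4 (fun k => kfin1_il V
    ([y0, y1, y2, y3, y4, y5, y6, y7, y8, y9, y10, y11, y12, y13, y14].getD k y0)) (fun k t hk ht => by
      interval_cases k
      exacts [l0 t ht, l1 t ht, l2 t ht, l3 t ht, l4 t ht, l5 t ht, l6 t ht, l7 t ht,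
        l8 t ht, l9 t ht, l10 t ht, l11 t ht, l12 t ht, l13 t ht, l14 t ht]) g j hj
    (fun a => v a / 2 ^ [w0, w1, w2, w3, w4].getD a 0)
  have hv : ∀ (x : ℝ) (a : ℕ), x = 2 ^ a * (x / 2 ^ a) := fun x a =>
    (mul_div_cancel₀ x (by positivity)).symm
  have hr := kfin1_real M _ _ v (2 ^ s0) (2 ^ w0) (2 ^ w1) (2 ^ w2) (2 ^ w3) (2 ^ w4) d0 d1 d2 d3 d4
    D0 D1 D2 D3 D4 D5 D6 D7 D8 D9 D10 D11 D12 D13 D14 (by positivity)
    (hv _ _) (hv _ _) (hv _ _) (hv _ _) (hv _ _)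
    p0 (kfin1_dia (by omega) r0)
    p1 q1 (kfin1_off (by omega) r1)
    p2 q2 (kfin1_off (by omega) r2)
    p3 q3 (kfin1_off (by omega) r3)
    p4 q4 (kfin1_off (by omega) r4)
    p5 (kfin1_dia (by omega) r5)
    p6 q6 (kfin1_off (by omega) r6)
    p7 q7 (kfin1_off (by omega) r7)
    p8 q8 (kfin1_off (by omega) r8)
    p9 (kfin1_dia (by omega) r9)
    p10 q10 (kfin1_off (by omega) r10)
    p11 q11 (kfin1_off (by omega) r11)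
    p12 (kfin1_dia (by omega) r12)
    p13 q13 (kfin1_off (by omega) r13)
    p14 (kfin1_dia (by omega) r14)
    hq
  have h5 : pk 112 V (U 15) - d5 * pk 112 V (fun _ => 1) = pk 112 V (fun t => U 15 t + 0 - d5) := by
    rw [← kfin1_lin 112 V 0 d5 _ fun t ht => by have := hU 15 (by norm_num) t ht; omega]
    rfl
  have h6 := h_rok.hi V (fun t => U 15 t + 0 - d5)
    (fun t ht => by have := hU 15 (by norm_num) t ht; omega)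
    (by rw [← h5]; exact Nat.eq_of_beq_eq_true h4) i hi
  have h7 : 2 ^ 111 + d5 ≤ U 15 i := by omega
  have h8 : (2 : ℝ) ^ 111 + d5 ≤ U 15 i := by exact_mod_cast h7
  have h9 : (d5 : ℝ) ≤ M 15 := by
    rw [← hM 15 (by norm_num)]
    linarith
  have h10 := mul_le_mul_of_nonneg_right h9 (sq_nonneg (v 5))
  unfold Qf
  linarith

end Vale.Agent.P098.Ck
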