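import Vale.Agent.P098.CkSem

open Finset

noncomputable section
namespace Vale.Agent.P098.Ck

theorem kgm_pk_congr (L J : ℕ) {u v : ℕ → ℕ} (h : ∀ j, j < J → u j = v j) :
    pk L J u = pk L J v :=
  Finset.sum_congr rfl fun j hj => by rw [h j (Finset.mem_range.1 hj)]

theorem kgm_pk_split (L J K : ℕ) (u : ℕ → ℕ) :
    pk L (J + K) u = pk L J u + 2 ^ (L * J) * pk L K (fun i => u (J + i)) := by
  unfold pk
  rw [Finset.sum_range_add, Finset.mul_sum]
  congr 1
  refine Finset.sum_congr rfl fun i _ => ?_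
  rw [mul_add, pow_add]; ring

theorem kgm_pk_lt (L J : ℕ) {u : ℕ → ℕ} (h : ∀ j, j < J → u j < 2 ^ L) :
    pk L J u < 2 ^ (L * J) := by
  induction J with
  | zero => simp [pk]
  | succ J ih =>
    have h1 := ih fun j hj => h j (by omega)
    have h2 : u J + 1 ≤ 2 ^ L := h J (by omega)
    have h3 : pk L (J + 1) u = pk L J u + u J * 2 ^ (L * J) := by
      unfold pk; rw [Finset.sum_range_succ]
    rw [h3, mul_add, mul_one, pow_add]
    calc pk L J u + u J * 2 ^ (L * J) < 2 ^ (L * J) + u J * 2 ^ (L * J) := by omega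
      _ = 2 ^ (L * J) * (u J + 1) := by ring
      _ ≤ 2 ^ (L * J) * 2 ^ L := Nat.mul_le_mul_left _ h2

theorem kgm_len_cons (a : ℕ) (X : NL) : len (NL.cons a X) = len X + 1 := rfl
theorem kgm_len_nil : len NL.nil = 0 := rfl
theorem kgm_nth_zero (a : ℕ) (X : NL) : nth (NL.cons a X) 0 = a := rfl
theorem kgm_nth_succ (a : ℕ) (X : NL) (k : ℕ) : nth (NL.cons a X) (k + 1) = nth X k := rfl
theorem kgm_spl_succ (z n c : ℕ) :
    spl z (n + 1) c = NL.cons (c &&& (2 ^ z - 1)) (spl z n (c >>> z)) := rfl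
theorem kgm_zmer_nil (z : ℕ) (Y : NL) : zmer z NL.nil Y = NL.nil := rfl
theorem kgm_zmer_nil' (z a : ℕ) (X : NL) : zmer z (NL.cons a X) NL.nil = NL.nil := rfl
theorem kgm_zmer_cons (z a b : ℕ) (X Y : NL) :
    zmer z (NL.cons a X) (NL.cons b Y) = NL.cons (a <<< z + b) (zmer z X Y) := rfl

theorem kgm_len_spl (z n c : ℕ) : len (spl z n c) = n := by
  induction n generalizing c with
  | zero => rfl
  | succ n ih => rw [kgm_spl_succ, kgm_len_cons, ih]

theorem kgm_nth_spl (L Q n : ℕ) (w : ℕ → ℕ) (hw : ∀ j, j < n * Q → w j < 2 ^ L) (k : ℕ)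
    (hk : k < n) : nth (spl (L * Q) n (pk L (n * Q) w)) k = pk L Q (fun i => w (Q * k + i)) := by
  induction n generalizing w k with
  | zero => omega
  | succ n ih =>
    have e : (n + 1) * Q = Q + n * Q := by ring
    have hlt : pk L Q w < 2 ^ (L * Q) := kgm_pk_lt L Q fun j hj => hw j (by rw [e]; omega)
    rw [kgm_spl_succ, e, kgm_pk_split]
    cases k with
    | zero =>
      rw [kgm_nth_zero, Nat.and_two_pow_sub_one_eq_mod, Nat.add_mul_mod_self_left,
        Nat.mod_eq_of_lt hlt]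
      simp
    | succ k =>
      rw [kgm_nth_succ, Nat.shiftRight_eq_div_pow, Nat.add_mul_div_left _ _ (by positivity),
        Nat.div_eq_of_lt hlt, zero_add,
        ih (fun i => w (Q + i)) (fun j hj => hw _ (by rw [e]; omega)) k (by omega)]
      refine kgm_pk_congr _ _ fun j _ => ?_
      congr 1; ring

theorem kgm_len_zmer (z : ℕ) (X Y : NL) : len (zmer z X Y) = min (len X) (len Y) := by
  induction X generalizing Y with
  | nil => rw [kgm_zmer_nil, kgm_len_nil]; simp
  | cons a X ih =>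
    cases Y with
    | nil => rw [kgm_zmer_nil', kgm_len_nil]; simp
    | cons b Y => rw [kgm_zmer_cons, kgm_len_cons, kgm_len_cons, kgm_len_cons, ih]; omega

theorem kgm_nth_zmer (z : ℕ) (X Y : NL) (k : ℕ) (hX : k < len X) (hY : k < len Y) :
    nth (zmer z X Y) k = nth X k * 2 ^ z + nth Y k := by
  induction X generalizing Y k with
  | nil => rw [kgm_len_nil] at hX; omega
  | cons a X ih =>
    cases Y with
    | nil => rw [kgm_len_nil] at hY; omega
    | cons b Y =>
      rw [kgm_zmer_cons]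
      rw [kgm_len_cons] at hX hY
      cases k with
      | zero => rw [kgm_nth_zero, kgm_nth_zero, kgm_nth_zero, Nat.shiftLeft_eq]
      | succ k => rw [kgm_nth_succ, kgm_nth_succ, kgm_nth_succ, ih Y k (by omega) (by omega)]

theorem kgm_cov_nil (V : ℕ) (A : (ℕ → ℝ) → Prop) : Cov V NL.nil A :=
  ⟨by rw [kgm_len_nil]; omega, fun h => by rw [kgm_len_nil] at h; omega⟩

theorem kgm_cov_mono {V : ℕ} {X : NL} {A A' : (ℕ → ℝ) → Prop} (h : Cov V X A)
    (hA : ∀ M, A' M → A M) : Cov V X A' := by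
  refine ⟨h.1, fun hl => ?_⟩
  obtain ⟨U, h1, h2, h3⟩ := h.2 hl
  exact ⟨U, h1, h2, fun M hM => h3 M (hA M hM)⟩

theorem kgm_cov_zmer {V V' : ℕ} {X Y : NL} {A A' : (ℕ → ℝ) → Prop} (hX : Cov V' X A')
    (hY : Cov V Y A) : Cov (V + V') (zmer (112 * V) X Y) (fun M => A' M ∨ A M) := by
  have h1 := hX.1
  have h2 := hY.1
  refine ⟨by rw [kgm_len_zmer]; omega, fun hl => ?_⟩
  rw [kgm_len_zmer] at hl
  have l1 : len X = 16 := by omega
  have l2 : len Y = 16 := by omega
  obtain ⟨U', a1, a2, a3⟩ := hX.2 l1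
  obtain ⟨U, b1, b2, b3⟩ := hY.2 l2
  refine ⟨fun k i => if i < V then U k i else U' k (i - V), fun k hk => ?_, fun k hk i hi => ?_,
    fun M hM => ?_⟩
  · rw [kgm_nth_zmer _ _ _ _ (by omega) (by omega), a1 k hk, b1 k hk, kgm_pk_split, add_comm,
      mul_comm]
    congr 1
    · exact kgm_pk_congr _ _ fun j hj => by simp only [if_pos hj]
    · congr 1
      exact kgm_pk_congr _ _ fun j _ => by
        have : ¬ V + j < V := by omega
        simp only [if_neg this, Nat.add_sub_cancel_left]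
  · by_cases h : i < V
    · simp only [if_pos h]; exact b2 k hk i h
    · simp only [if_neg h]; exact a2 k hk _ (by omega)
  · rcases hM with hM | hM
    · obtain ⟨i, hi, h⟩ := a3 M hM
      refine ⟨V + i, by omega, fun k hk => ?_⟩
      have : ¬ V + i < V := by omega
      simp only [if_neg this, Nat.add_sub_cancel_left]
      exact h k hk
    · obtain ⟨i, hi, h⟩ := b3 M hM
      refine ⟨i, by omega, fun k hk => ?_⟩
      simp only [if_pos hi]
      exact h k hk

theorem kgm_lfs_lf (Q a b m : ℕ) : lfs Q (P.lf a b m) =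
    Bool.rec (motive := fun _ => NL) NL.nil
      (spl (112 * Q) 16 (a + (ones 112 (16 * Q)) <<< 111 - b))
      (Nat.blt m 1298074214633706907132624082305024) := rfl

theorem kgm_bias (J : ℕ) (u v : ℕ → ℕ) (h : ∀ j, j < J → v j ≤ 2 ^ 111) :
    pk 112 J u + (pk 112 J (fun _ => 1)) <<< 111 - pk 112 J v =
      pk 112 J (fun j => u j + 2 ^ 111 - v j) := by
  refine Nat.sub_eq_of_eq_add ?_
  rw [Nat.shiftLeft_eq]
  unfold pk
  rw [Finset.sum_mul, ← Finset.sum_add_distrib, ← Finset.sum_add_distrib]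
  refine Finset.sum_congr rfl fun j hj => ?_
  have h1 := h j (Finset.mem_range.1 hj)
  have h2 : u j + 2 ^ 111 - v j + v j = u j + 2 ^ 111 := Nat.sub_add_cancel (by omega)
  rw [← add_mul, h2]; ring

theorem kgm_lfs (h_nzs : S_nzs) (Q : ℕ) (p : P) (F : Pt → ℕ → ℝ) (h : Rep 112 (16 * Q) p F) :
    Cov Q (lfs Q p) (fun M => ∃ e x, x < Q ∧ ∀ k, k < 16 → M k = F e (Q * k + x)) := by
  cases p with
  | nil => exact kgm_cov_nil _ _
  | cons c r => exact kgm_cov_nil _ _
  | lf a b m =>
    obtain ⟨u, v, rfl, rfl, hm, hF⟩ := h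
    rw [kgm_lfs_lf]
    cases hb : Nat.blt m 1298074214633706907132624082305024 with
    | false => exact kgm_cov_nil _ _
    | true =>
      have hm' : m < 2 ^ 110 := by
        have := Nat.blt_eq.mp hb
        norm_num; exact this
      have e1 : (2 : ℕ) ^ 111 = 2 * 2 ^ 110 := by norm_num
      have e2 : (2 : ℕ) ^ 112 = 4 * 2 ^ 110 := by norm_num
      have hi : ∀ k, k < 16 → ∀ i, i < Q → Q * k + i < 16 * Q := fun k hk i hi => by
        have : Q * k ≤ Q * 15 := Nat.mul_le_mul_left _ (by omega)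
        omega
      show Cov Q (spl (112 * Q) 16 _) _
      rw [h_nzs.ones 112 _ (by norm_num),
        kgm_bias _ _ _ (fun j hj => by have := (hm j hj).2; omega)]
      refine ⟨(kgm_len_spl _ _ _).le, fun _ =>
        ⟨fun k i => u (Q * k + i) + 2 ^ 111 - v (Q * k + i), fun k hk => ?_, fun k hk i hi' => ?_,
          ?_⟩⟩
      · exact kgm_nth_spl 112 Q 16 _ (fun j hj => by have := hm j hj; omega) k hk
      · have := hm _ (hi k hk i hi')
        beta_reduce
        constructor <;> omega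
      · rintro M ⟨e, x, hx, hM⟩
        refine ⟨x, hx, fun k hk => ?_⟩
        have h1 := hm _ (hi k hk x hx)
        rw [hM k hk, hF e _ (hi k hk x hx), Nat.cast_sub (by omega)]
        push_cast
        ring

/-- The recursion of `gm` with a free number of steps. -/
def kgmG (s V : ℕ) (f : P → NL) (p : P) (m : ℕ) : NL :=
  Nat.rec (motive := fun _ => NL) (f (sub0 0 8 p))
    (fun k ih => zmer (Nat.mul 112 V) ih (f (sub0 (Nat.mul (Nat.succ k) s) 8 p))) m

theorem kgm_gm_eq (n V : ℕ) (f : P → NL) (p : P) : gm n V f p = kgmG (16 / n) V f p n := rfl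

theorem kgm_G_succ (s V : ℕ) (f : P → NL) (p : P) (m : ℕ) : kgmG s V f p (m + 1) =
    zmer (112 * V) (kgmG s V f p m) (f (sub0 ((m + 1) * s) 8 p)) := rfl

theorem gm_ok (h_sub : S_sub) (h_nzs : S_nzs) : S_gm := by
  refine ⟨kgm_lfs h_nzs, fun L J n V f B hf p F hp => ?_⟩
  rw [kgm_gm_eq]
  generalize 16 / n = s
  induction n with
  | zero =>
    have h := hf _ _ (h_sub.sub0 L J 0 8 p F hp)
    rw [zero_add, one_mul]
    refine kgm_cov_mono h ?_
    rintro M ⟨k, hk, hM⟩
    have hk0 : k = 0 := by omega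
    subst hk0
    rw [zero_mul] at hM
    exact hM
  | succ m ih =>
    have h := hf _ _ (h_sub.sub0 L J ((m + 1) * s) 8 p F hp)
    have e : (m + 1 + 1) * V = V + (m + 1) * V := by ring
    rw [kgm_G_succ, e]
    refine kgm_cov_mono (kgm_cov_zmer ih h) ?_
    rintro M ⟨k, hk, hM⟩
    rcases Nat.lt_or_ge k (m + 1) with h1 | h1
    · exact Or.inl ⟨k, by omega, hM⟩
    · have hk1 : k = m + 1 := by omega
      subst hk1
      exact Or.inr hM

end Vale.Agent.P098.Ck
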