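import Vale.Agent.P098.CkSem

/-!
# P098: soundness of the top level pieces of the checker
-/

open Finset

noncomputable section
namespace Vale.Agent.P098.Ck

theorem kgood_band {a b : Bool} (h : band a b = true) : a = true ∧ b = true := by
  cases a <;> cases b <;> first | exact ⟨rfl, rfl⟩ | exact absurd h (by decide)

theorem kgood_ex (l h : ℕ) (t : ℝ) (ht : In l h t) :
    ∃ x : ℝ, |x| ≤ 1 ∧ (l : ℝ) + h + ((h - l : ℕ) : ℝ) * x = 2 * t := by
  obtain ⟨h1, h2⟩ := ht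
  have hlh : l ≤ h := by exact_mod_cast h1.trans h2
  rw [Nat.cast_sub hlh]
  rcases eq_or_lt_of_le (h1.trans h2) with he | hl
  · refine ⟨0, by simp, ?_⟩
    linarith
  · have hp : (0 : ℝ) < h - l := by linarith
    refine ⟨(2 * t - l - h) / (h - l), ?_, ?_⟩
    · rw [abs_le]
      constructor
      · rw [le_div_iff₀ hp]; linarith
      · rw [div_le_iff₀ hp]; linarith
    · field_simp
      ring

theorem kgood_real {a0 b0 a1 a2 t0 t1 t2 : ℝ} (h0 : 0 ≤ a0) (h0' : a0 ≤ t0) (hb : 0 ≤ b0)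
    (hb' : b0 ≤ 512 - t0) (h1 : 0 ≤ a1) (h1' : a1 ≤ t1) (h1'' : t1 ≤ 512) (h2 : 0 ≤ a2)
    (h2' : a2 ≤ t2) (h2'' : t2 ≤ 512)
    (hD : t1 ^ 2 * (25 * (512 - t0) ^ 2 + 4 * t0 ^ 2) ≤ 25 * (512 - t1) ^ 2 * (262144 - t2 ^ 2)) :
    a1 * a1 * (25 * (b0 * b0) + 4 * (a0 * a0)) ≤
      25 * ((512 - a1) * (512 - a1)) * (262144 - a2 * a2) := by
  have e1 : a1 * a1 ≤ t1 ^ 2 := by nlinarith
  have e2 : b0 * b0 ≤ (512 - t0) ^ 2 := by nlinarith
  have e3 : a0 * a0 ≤ t0 ^ 2 := by nlinarith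
  have e4 : (512 - t1) ^ 2 ≤ (512 - a1) * (512 - a1) := by nlinarith
  have e5 : 262144 - t2 ^ 2 ≤ 262144 - a2 * a2 := by nlinarith
  have e6 : 0 ≤ 262144 - t2 ^ 2 := by nlinarith
  calc a1 * a1 * (25 * (b0 * b0) + 4 * (a0 * a0))
      ≤ t1 ^ 2 * (25 * (512 - t0) ^ 2 + 4 * t0 ^ 2) :=
        mul_le_mul e1 (by linarith) (by positivity) (by positivity)
    _ ≤ 25 * (512 - t1) ^ 2 * (262144 - t2 ^ 2) := hD
    _ ≤ 25 * ((512 - a1) * (512 - a1)) * (262144 - a2 * a2) :=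
        mul_le_mul (by linarith) e5 e6 (mul_nonneg (by norm_num) (mul_self_nonneg _))

theorem kgood_outside (l0 h0 l1 l2 : ℕ) : outside l0 h0 l1 l2 =
    Nat.blt (25 * ((512 - l1) * (512 - l1)) * (262144 - l2 * l2))
      (l1 * l1 * (25 * ((512 - h0) * (512 - h0)) + 4 * (l0 * l0))) := rfl

theorem kgood_out (Gf : Pt → ℕ → ℝ) (A : (ℕ → ℝ) → Prop) (S : ℕ → ℕ → ℝ)
    (l0 h0 l1 h1 l2 h2 : ℕ) (h : outside l0 h0 l1 l2 = true) :
    Good3 Gf A S l0 h0 l1 h1 l2 h2 := by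
  intro t0 t1 t2 i0 i1 i2 hD
  exfalso
  rw [kgood_outside, Nat.blt_eq] at h
  obtain ⟨d0, d1, d2, hD⟩ := hD
  have c1 : l1 ≤ 512 := by exact_mod_cast i1.1.trans d1
  have c2 : l2 ≤ 512 := by exact_mod_cast i2.1.trans d2
  have c3 : l2 * l2 ≤ 262144 := Nat.mul_le_mul c2 c2
  have hb : ((512 - h0 : ℕ) : ℝ) ≤ 512 - t0 := by
    rcases le_total h0 512 with hh | hh
    · rw [Nat.cast_sub hh]
      have := i0.2
      push_cast
      linarith
    · rw [Nat.sub_eq_zero_of_le hh]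
      push_cast
      linarith
  have key := kgood_real (Nat.cast_nonneg l0) i0.1 (Nat.cast_nonneg _) hb (Nat.cast_nonneg l1) i1.1
    d1 (Nat.cast_nonneg l2) i2.1 d2 hD
  have h' : ((25 * ((512 - l1) * (512 - l1)) * (262144 - l2 * l2) : ℕ) : ℝ) <
      ((l1 * l1 * (25 * ((512 - h0) * (512 - h0)) + 4 * (l0 * l0)) : ℕ) : ℝ) := by
    exact_mod_cast h
  generalize 512 - h0 = b0 at h' key
  push_cast [Nat.cast_sub c1, Nat.cast_sub c3] at h'
  linarith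

theorem kgood_cons (k : ℕ) (t : TM) (l : EL) (a : ℝ) (z : ℕ → ℝ) (ht : TMr t (fun _ => a))
    (hl : RepE l (fun _ => z)) :
    RepE (EL.cons k t l) (fun _ k' => (if k' = k then a else 0) + z k') :=
  ⟨fun _ => a, fun _ => z, ht, hl, fun _ _ => rfl⟩

theorem kgood_nil : RepE EL.nil (fun _ _ => 0) := fun _ _ => rfl

theorem kgood_mu1 (mu k : ℕ) : ∃ a : ℝ, a ≤ 0 ∧ TMr (mu1 mu k) (fun _ => a) := by
  refine ⟨-((Nat.shiftLeft (Nat.land (Nat.shiftRight mu k) 65535) 22 : ℕ) : ℝ) / 2 ^ 32, ?_, ?_⟩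
  · rw [neg_div, neg_nonpos]
    positivity
  · intro e _
    have h1 : ev (mu1 mu k).p e = ((0 : ℕ) : ℝ) -
      ((Nat.shiftLeft (Nat.land (Nat.shiftRight mu k) 65535) 22 : ℕ) : ℝ) := rfl
    have h2 : (mu1 mu k).r = 0 := rfl
    rw [h1, h2]
    generalize ((Nat.shiftLeft (Nat.land (Nat.shiftRight mu k) 65535) 22 : ℕ) : ℝ) = x
    have : (2 : ℝ) ^ 32 * (-x / 2 ^ 32) - (((0 : ℕ) : ℝ) - x) = 0 := by
      push_cast
      ring
    rw [this]
    simp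

theorem kgood_tc : TMr (tc 4294967296) (fun _ => 1) := by
  intro e _
  have h1 : ev (tc 4294967296).p e = ((4294967296 : ℕ) : ℝ) - ((0 : ℕ) : ℝ) := rfl
  have h2 : (tc 4294967296).r = 0 := rfl
  rw [h1, h2]
  norm_num

theorem good_ok (h_ev : S_ev) (h_go : S_go) (h_shp : S_shp) : S_good where
  mk5 := by
    intro G Gf Z A hG hZ S l3 h3 l4 h4 hb D t l0 h0 l1 h1 l2 h2 hgo t3 t4 i3 i4
    obtain ⟨hs, hk⟩ := kgood_band hb
    have hS := h_ev.seq _ _ hs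
    have hR := h_shp 5 l3 h3 l4 h4
    rw [hS] at hR
    obtain ⟨x, hx, ex⟩ := kgood_ex l3 h3 t3 i3
    obtain ⟨y, hy, ey⟩ := kgood_ex l4 h4 t4 i4
    have hbox : Box (p3 x y 0) := by
      intro n
      rcases n with _ | _ | _ | n
      · exact hx
      · exact hy
      · exact (abs_zero (α := ℝ)).trans_le zero_le_one
      · exact (abs_zero (α := ℝ)).trans_le zero_le_one
    have := h_go D G Gf Z A S _ hG hZ hR hk t l0 h0 l1 h1 l2 h2 hgo _ hbox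
    have e1 : kap l3 h3 (p3 x y 0) = (t3 - 256) / 512 := by
      change ((l3 : ℝ) + h3 - 512 + ((h3 - l3 : ℕ) : ℝ) * x) / 1024 = _
      linarith
    have e2 : cap l4 h4 (p3 x y 0) = (t4 - 512) / 512 := by
      change ((l4 : ℝ) + h4 - 1024 + ((h4 - l4 : ℕ) : ℝ) * y) / 1024 = _
      linarith
    rw [← e1, ← e2]
    exact this
  out := fun Gf A l0 h0 l1 h1 l2 h2 _ _ _ _ h _ _ _ _ => kgood_out Gf A _ l0 h0 l1 h1 l2 h2 h
  mult := by
    intro mu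
    refine ⟨rfl, ?_⟩
    obtain ⟨a0, n0, r0⟩ := kgood_mu1 mu 0
    obtain ⟨a1, n1, r1⟩ := kgood_mu1 mu 16
    obtain ⟨a2, n2, r2⟩ := kgood_mu1 mu 32
    obtain ⟨a3, n3, r3⟩ := kgood_mu1 mu 48
    obtain ⟨a4, n4, r4⟩ := kgood_mu1 mu 64
    obtain ⟨a5, n5, r5⟩ := kgood_mu1 mu 80
    refine ⟨_, ?_, kgood_cons 0 _ _ _ _ r0 (kgood_cons 5 _ _ _ _ r1 (kgood_cons 9 _ _ _ _ r2
      (kgood_cons 12 _ _ _ _ r3 (kgood_cons 14 _ _ _ _ r4 (kgood_cons 15 _ _ _ _ r5 kgood_nil)))))⟩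
    intro v
    have b0 := mul_nonpos_of_nonpos_of_nonneg n0 (sq_nonneg (v 0))
    have b1 := mul_nonpos_of_nonpos_of_nonneg n1 (sq_nonneg (v 1))
    have b2 := mul_nonpos_of_nonpos_of_nonneg n2 (sq_nonneg (v 2))
    have b3 := mul_nonpos_of_nonpos_of_nonneg n3 (sq_nonneg (v 3))
    have b4 := mul_nonpos_of_nonpos_of_nonneg n4 (sq_nonneg (v 4))
    have b5 := mul_nonpos_of_nonpos_of_nonneg n5 (sq_nonneg (v 5))
    norm_num [Qf, qf]
    linarith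
  idm := by
    intro mu
    refine ⟨rfl, _, ?_, kgood_cons 0 _ _ _ _ kgood_tc (kgood_cons 5 _ _ _ _ kgood_tc
      (kgood_cons 9 _ _ _ _ kgood_tc (kgood_cons 12 _ _ _ _ kgood_tc
        (kgood_cons 15 _ _ _ _ kgood_tc kgood_nil))))⟩
    norm_num [AB]

theorem kgood_pack (h_alg : S_alg) (h_sub : S_sub) (h_ev : S_ev) (S : PL) :
    ∀ k : ℕ, dgl16 S = true → k + lenP S ≤ 50 → Rep 256 50 (pack S k)
      (fun e j => if k ≤ j then 1024 ^ 16 * evl S (fun n => e n / 1024) (j - k) else 0) := by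
  induction S with
  | nil =>
    intro k _ _ e j _
    change (if k ≤ j then (1024 : ℝ) ^ 16 * 0 else 0) = 0
    simp
  | cons p l ih =>
    intro k hd hk
    have hd' : band (dg (trim p) 16) (dgl16 l) = true := hd
    obtain ⟨d1, d2⟩ := kgood_band hd'
    have hk' : k + (lenP l + 1) ≤ 50 := hk
    have r1 := h_sub.pre 256 1 1024 16 _ _ (by norm_num) (h_ev.rep 256 p) d1
    have r2 := h_alg.place 256 1 50 k _ _ r1 (by omega)
    have r3 := h_alg.padd 256 50 _ _ _ _ r2 (ih (k + 1) d2 (by omega))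
    refine h_alg.congr 256 50 _ _ _ r3 fun e j _ => ?_
    have hc : ((1024 : ℕ) : ℝ) = 1024 := by norm_num
    rw [hc]
    rcases lt_trichotomy j k with h | h | h
    · rw [if_neg (by omega), if_neg (by omega), if_neg (by omega), add_zero]
    · subst h
      rw [if_pos le_rfl, if_pos ⟨le_rfl, by omega⟩, if_neg (by omega), add_zero, Nat.sub_self]
      rfl
    · rw [if_pos h.le, if_neg (by omega), if_pos (by omega), zero_add]
      have : j - k = (j - (k + 1)) + 1 := by omega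
      rw [this]
      rfl

theorem pack_ok (h_alg : S_alg) (h_sub : S_sub) (h_ev : S_ev) : S_pack := by
  intro S hd hl
  refine h_alg.congr 256 50 _ _ _ (kgood_pack h_alg h_sub h_ev S 0 hd (by omega)) fun e j _ => ?_
  rw [if_pos (Nat.zero_le j), Nat.sub_zero]

theorem kgood_congr {L J : ℕ} {p : P} {F G : Pt → ℕ → ℝ} (h : Rep L J p F)
    (hG : ∀ e j, j < J → G e j = F e j) : Rep L J p G := by
  cases p with
  | nil => exact fun e j hj => (hG e j hj).trans (h e j hj)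
  | lf a b m =>
    obtain ⟨u, v, h1, h2, h3, h4⟩ := h
    exact ⟨u, v, h1, h2, h3, fun e j hj => (hG e j hj).trans (h4 e j hj)⟩
  | cons c r =>
    obtain ⟨C, R, h1, h2, h3⟩ := h
    exact ⟨C, R, h1, h2, fun e j hj => (hG e j hj).trans (h3 e j hj)⟩

theorem kgood_p1 (e : Pt) : ev p1 e = 1 := by
  change ((1 : ℕ) : ℝ) - ((0 : ℕ) : ℝ) = 1
  simp

theorem kgood_pt (e : Pt) : ev pt e = e 0 := by
  change 0 + e 0 * ev p1 e = e 0
  rw [kgood_p1]; ring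

theorem kgood_py (e : Pt) : ev py e = e 1 := by
  change (0 + e 1 * ev p1 (tl e)) + e 0 * 0 = e 1
  rw [kgood_p1]; ring

theorem kgood_pq (e : Pt) : ev pq e = e 2 := by
  change ((0 + e 2 * ev p1 (tl (tl e))) + e 1 * 0) + e 0 * 0 = e 2
  rw [kgood_p1]; ring

theorem kgood_pe (e : Pt) : ev pe e = 1 - e 0 := by
  change ev p1 (tl e) + e 0 * (((0 : ℕ) : ℝ) - ((1 : ℕ) : ℝ)) = 1 - e 0
  rw [kgood_p1]; push_cast; ring

theorem kgood_ph (e : Pt) : ev ph e = 1 - e 1 := by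
  change (ev p1 (tl (tl e)) + e 1 * (((0 : ℕ) : ℝ) - ((1 : ℕ) : ℝ))) + e 0 * 0 = 1 - e 1
  rw [kgood_p1]; push_cast; ring

section
variable (h : S_ev) (W : ℕ → ℕ → P) (e : Pt)
include h

theorem kgood_ps : ev ps e = e 2 * e 2 := by
  rw [ps, h.pmul, kgood_pq]

theorem kgood_pu : ev pu e = (1 - e 0) * e 1 := by
  rw [pu, h.pmul, kgood_pe, kgood_py]

theorem kgood_pL : evl pL e = p3 (e 1) (e 2 * e 2) ((1 - e 0) * e 1) := by
  change cs (ev py e) (cs (ev ps e) (cs (ev pu e) fun _ => 0)) = _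
  rw [kgood_py, kgood_ps h, kgood_pu h]
  rfl

theorem kgood_gV (f d : ℕ) : ev (gV W f d) e = tV W (e 0) (e 1) (e 2) f d := by
  rw [gV, h.trim, h.cmp, kgood_pL h]
  rfl

theorem kgood_gD (i f d : ℕ) : ev (gD W i f d) e = tD W (e 0) (e 1) (e 2) i f d := by
  rw [gD, h.trim, h.cmp, kgood_pL h]
  rfl

theorem kgood_gB (f d : ℕ) : ev (gB W f d) e =
    GB (tV W (e 0) (e 1) (e 2)) (tD W (e 0) (e 1) (e 2)) (e 0) (e 1) (e 2) f d := by
  simp only [gB, GB, h.trim, h.padd, h.pmul, h.pmm, kgood_ph, kgood_pu h, kgood_gD h, Nat.cast_one]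

theorem kgood_gA (f d : ℕ) : ev (gA W f d) e =
    GA (tV W (e 0) (e 1) (e 2)) (tD W (e 0) (e 1) (e 2)) (e 0) (e 1) (e 2) f d := by
  simp only [gA, GA, h.trim, h.pmul, kgood_pt, kgood_py, kgood_gB h]

theorem kgood_gC (f d : ℕ) : ev (gC W f d) e =
    GC (tV W (e 0) (e 1) (e 2)) (tD W (e 0) (e 1) (e 2)) (e 0) (e 1) (e 2) f d := by
  simp only [gC, GC, h.trim, h.padd, h.pmul, h.pmm, kgood_ph, kgood_pe, kgood_py, kgood_gD h,
    kgood_gB h, Nat.cast_ofNat]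

theorem kgood_gE (f d : ℕ) : ev (gE W f d) e =
    GE (tV W (e 0) (e 1) (e 2)) (tD W (e 0) (e 1) (e 2)) (e 0) (e 1) (e 2) f d := by
  simp only [gE, GE, h.trim, h.pmul, h.pmn, kgood_ph, kgood_pt, kgood_gD h, Nat.cast_ofNat]

theorem kgood_gH (f g d : ℕ) : ev (gH W f g d) e =
    GH (tV W (e 0) (e 1) (e 2)) (tD W (e 0) (e 1) (e 2)) (e 0) (e 1) (e 2) f g d := by
  simp only [gH, GH, h.trim, h.padd, h.pmul, kgood_pe, kgood_pt, kgood_gV h]

theorem kgood_gW (f g d : ℕ) : ev (gW W f g d) e =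
    GW (tV W (e 0) (e 1) (e 2)) (tD W (e 0) (e 1) (e 2)) (e 0) (e 1) (e 2) f g d := by
  simp only [gW, GW, h.trim, h.padd, h.pmul, kgood_pe, kgood_pt, kgood_gV h, kgood_gA h]

theorem kgood_gC2 (f g d : ℕ) : ev (gC2 W f g d) e =
    GC2 (tV W (e 0) (e 1) (e 2)) (tD W (e 0) (e 1) (e 2)) (e 0) (e 1) (e 2) f g d := by
  simp only [gC2, GC2, h.trim, h.padd, h.pmul, kgood_pe, kgood_pt, kgood_gC h]

theorem kgood_gE2 (f g d : ℕ) : ev (gE2 W f g d) e =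
    GE2 (tV W (e 0) (e 1) (e 2)) (tD W (e 0) (e 1) (e 2)) (e 0) (e 1) (e 2) f g d := by
  simp only [gE2, GE2, h.trim, h.padd, h.pmul, kgood_pe, kgood_pt, kgood_gE h]

theorem kgood_bV (f d : ℕ) : ev (bV W f d) e = tV W 1 0 1 f d := by
  rw [bV, h.cmp, tV]
  congr 1
  change cs 0 (cs (ev p1 e) fun _ => 0) = _
  rw [kgood_p1]
  funext n
  rcases n with _ | _ | _ | n
  · rfl
  · exact (mul_one (1 : ℝ)).symm
  · exact (mul_zero _).symm
  · rfl

end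

theorem kgood_evl0 (p : P) (l : PL) (e : Pt) : evl (PL.cons p l) e 0 = ev p e := rfl

theorem kgood_evls (p : P) (l : PL) (e : Pt) (j : ℕ) :
    evl (PL.cons p l) e (j + 1) = evl l e j := rfl

theorem kgood_nil0 (e : Pt) : ev P.nil e = 0 := rfl

theorem kgood_lf (a : ℕ) (e : Pt) : ev (P.lf a 0 0) e = (a : ℝ) := by
  change (a : ℝ) - ((0 : ℕ) : ℝ) = a
  simp

theorem kgood_gL (h : S_ev) (W : ℕ → ℕ → P) (e : Pt) (j : ℕ) (hj : j < 50) : evl (gL W) e j =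
    GR (tV W (e 0) (e 1) (e 2)) (tD W (e 0) (e 1) (e 2)) (e 0) (e 1) (e 2) j := by
  interval_cases j <;>
    simp only [gL, kgood_evl0, kgood_evls, GR, h.padd, h.pmul, h.pmn, h.pmm, kgood_p1, kgood_pt,
      kgood_py, kgood_pq, kgood_pe, kgood_ph, kgood_ps h, kgood_gV h, kgood_gA h, kgood_gC h,
      kgood_gE h, kgood_gH h, kgood_gW h, kgood_gC2 h, kgood_gE2 h, Nat.cast_ofNat, Nat.cast_one]

theorem kgood_bL1 (h : S_ev) (W : ℕ → ℕ → P) (e : Pt) (j : ℕ) (hj : j < 50) :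
    evl (bL1 W) e j = GB1 (tV W 1 0 1) j := by
  interval_cases j <;>
    simp only [bL1, kgood_evl0, kgood_evls, GB1, h.pmn, kgood_bV h, kgood_nil0, kgood_lf,
      Nat.cast_ofNat]

theorem kgood_bL2 (h : S_ev) (W : ℕ → ℕ → P) (e : Pt) (j : ℕ) (hj : j < 50) :
    evl (bL2 W) e j = GB2 (tV W 1 0 1) j := by
  interval_cases j <;>
    simp only [bL2, kgood_evl0, kgood_evls, GB2, h.padd, h.pmn, h.pmm, kgood_bV h, kgood_nil0,
      kgood_lf, Nat.cast_ofNat, Nat.cast_one]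

theorem gl_ok (h_ev : S_ev) (h_pack : S_pack) : S_gl where
  gi := fun W hd => kgood_congr (h_pack _ hd rfl) fun e j hj => by
    rw [kgood_gL h_ev W _ j hj]
    rfl
  b1 := fun W hd => kgood_congr (h_pack _ hd rfl) fun e j hj => by
    rw [kgood_bL1 h_ev W _ j hj]
    rfl
  b2 := fun W hd => kgood_congr (h_pack _ hd rfl) fun e j hj => by
    rw [kgood_bL2 h_ev W _ j hj]
    rfl

end Vale.Agent.P098.Ck
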