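import Vale.Agent.P098.KIdent1

/-! P098: the matrix of the checker is the matrix of the reduced form. -/

open Finset

noncomputable section
namespace Vale.Agent.P098.Ck

theorem kident_lin (s : Finset ℕ) (G : ℕ → ℝ) (S : ℕ → ℕ → ℝ) (v : ℕ → ℝ) :
    Qf (fun k => ∑ j ∈ s, G j * S j k) v = ∑ j ∈ s, G j * Qf (S j) v := by
  induction s using Finset.induction_on with
  | empty => simp [Qf, qf]
  | insert a s ha ih =>
    rw [sum_insert ha, ← ih]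
    simp only [Qf, qf, sum_insert ha]
    ring

/-- a quadratic polynomial in `τ` -/
def kidentP (g : ℕ → ℝ) (τ : ℝ) : ℝ := (g 0 + g 1 * τ + g 2 * τ ^ 2) / 2 ^ 20

theorem kident_tg (h_d4 : S_d4) (W : ℕ → ℕ → P) (f : ℕ) {w u t y : ℝ} (x q τ L1 L2 z : ℝ)
    (ht : 1 - t ≠ 0) (hy : 1 - y ≠ 0) (hw : w = t / (1 - t)) (hu : u = (1 - t) * y / (1 - y))
    (h0 : 0 ≤ u * w + u) :
    ff W f ![u * w, q ^ 2, u, τ] = kidentP (tV W t y q f) τ ∧
    tg (ff W f) ![u * w, q ^ 2, u, τ] x w L1 L2 (q * ((1 - t) * (1 - y) * z)) =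
      kidentP (GA (tV W t y q) (tD W t y q) t y q f) τ * L1 +
        3 * ((tV W t y q f 1 + 2 * tV W t y q f 2 * τ) / 2 ^ 20) * (L2 - τ * L1) +
        q * z * (kidentP (GC (tV W t y q) (tD W t y q) t y q f) τ +
          x * kidentP (GE (tV W t y q) (tD W t y q) t y q f) τ) := by
  obtain ⟨e, d0, d1, d2, d3⟩ := h_d4 W f ![u * w, q ^ 2, u, τ] h0
  have hs : 1 + (u * w + u) = 1 / (1 - y) := by
    rw [hw, hu]
    field_simp
    ring
  have e1 : (u * w + u) / (1 + (u * w + u)) = y := by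
    rw [hs, hw, hu]
    field_simp
    ring
  have e2 : u / (1 + (u * w + u)) = (1 - t) * y := by
    rw [hs, hu]
    field_simp
  simp only [Matrix.cons_val_zero, Matrix.cons_val_one, Matrix.cons_val] at e d0 d1 d2 d3
  rw [e1, e2] at e
  have e' : p3 y (q * q) ((1 - t) * y) = p3 y (q ^ 2) ((1 - t) * y) := by rw [pow_two]
  rw [hs] at d0 d2
  refine ⟨?_, ?_⟩
  · simp only [ff, e, e', kidentP, tV, Matrix.cons_val]
  · simp only [tg, d0, d1, d2, d3, fd, Matrix.cons_val_zero, Matrix.cons_val, e, e', kidentP,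
      GA, GB, GC, GE, tV, tD]
    rw [hw, hu]
    field_simp
    ring

theorem kident_form (F : Fam) (x β c q b0 b1 ζ ξ z e : ℝ) {w u t y : ℝ}
    (ht : 1 - t ≠ 0) (hy : 1 - y ≠ 0) (hw : w = t / (1 - t)) (hu : u = (1 - t) * y / (1 - y))
    {p : Fin 4 → ℝ} (hp : p = ![u * w, q ^ 2, u, sτ x β c]) {L : ℝ} (hL : l1 x β b0 b1 = L)
    {T : F4 → ℝ} (hT : ∀ f, tg f p x w L (l2 x β c b0 b1 ζ) (q * ((1 - t) * (1 - y) * z)) = T f) :
    2 * form F x β c w u q b0 b1 ζ ξ ((1 - t) * (1 - y) * z) +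
      (1 - y) * (5 / 4 * F.f0 p - F.f1 p + u * (F.g0 p + w * F.h0 p)) * e =
    2 * (F.f1 p * (7 * b0 ^ 2 + 3 * b1 ^ 2 + 3 * ζ ^ 2) + (T F.f1 - F.f1 p * L) * L +
      q * z * (1 - y) * (((1 - t) * F.g0 p + t * F.h0 p) * L + (1 - t) * T F.g0 +
        t * (T F.h0 + F.h0 p * L)) +
      x * q * z * (1 - y) * ((1 - t) * T F.g1 + t * (T F.h1 + F.h1 p * L)) +
      x ^ 2 * q * z * (1 - y) * ((1 - t) * T F.g2 + t * (T F.h2 + F.h2 p * L) -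
        ((1 - t) * F.g2 p + t * F.h2 p) * L) +
      q * z * (1 - y) * ((1 - t) * F.g2 p + t * F.h2 p) * L +
      F.f0 p * ξ ^ 2 - ξ * (F.f0 p * L + T F.f0) +
      z ^ 2 * (1 - y) * ((1 - t) ^ 2 * (1 - y) * (5 * F.f1 p - 4 * F.f0 p) -
        5 * (1 - t) ^ 2 * y * ((1 - t) * F.g0 p + t * F.h0 p) +
        t * (1 - y) * ((1 - t) * F.g1 p + t * F.h1 p) +
        (t * (1 - y) * sτ x β c - (1 - t) ^ 2 * y) * ((1 - t) * F.g2 p + t * F.h2 p))) +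
      ((1 - y) * (5 / 4 * F.f0 p - F.f1 p) + y * ((1 - t) * F.g0 p + t * F.h0 p)) * e := by
  have h2 : p 2 = u := by rw [hp]; rfl
  have h3 : p 3 = sτ x β c := by rw [hp]; rfl
  simp only [form, blk, tgb, zz, ← hp, hL, hT, h2, h3]
  rw [hu, hw]
  field_simp
  ring

theorem kident_49 (f : ℕ → ℝ) : ∑ j ∈ range 49, f j =
    f 0 + f 1 + f 2 + f 3 + f 4 + f 5 + f 6 + f 7 + f 8 + f 9 + f 10 + f 11 + f 12 + f 13 + f 14
    + f 15 + f 16 + f 17 + f 18 + f 19 + f 20 + f 21 + f 22 + f 23 + f 24 + f 25 + f 26 + f 27 +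
    f 28 + f 29 + f 30 + f 31 + f 32 + f 33 + f 34 + f 35 + f 36 + f 37 + f 38 + f 39 + f 40 +
    f 41 + f 42 + f 43 + f 44 + f 45 + f 46 + f 47 + f 48 := by
  simp only [sum_range_succ, sum_range_zero, zero_add]

theorem kident_sum {k c x β γ e τ Q L M : ℝ} {v : ℕ → ℝ} (hK : KIdH k c x β γ e τ Q L M v)
    (G : ℕ → ℝ) : ∑ j ∈ range 49, G (j + 1) * Qf (Sr k c j) v =
      G 1 * (2 * (Q - L ^ 2)) +
      G 2 * (2 * τ * (Q - L ^ 2) + 6 * L * M) +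
      G 3 * (2 * τ ^ 2 * (Q - L ^ 2) + 12 * τ * L * M) +
      G 4 * (2 * L ^ 2) +
      G 5 * (2 * τ * L ^ 2) +
      G 6 * (2 * τ ^ 2 * L ^ 2) +
      G 7 * (2 * (v 3 ^ 2 - v 3 * L)) +
      G 8 * (2 * τ * (v 3 ^ 2 - v 3 * L) - 6 * v 3 * M) +
      G 9 * (2 * τ ^ 2 * (v 3 ^ 2 - v 3 * L) - 12 * τ * v 3 * M) +
      G 10 * (-2 * v 3 * L) +
      G 11 * (-2 * τ * v 3 * L) +
      G 12 * (-2 * τ ^ 2 * v 3 * L) +
      G 13 * (2 * L * v 4) +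
      G 14 * (2 * τ * L * v 4) +
      G 15 * (2 * τ ^ 2 * L * v 4) +
      G 16 * (2 * x * L * v 4) +
      G 17 * (2 * x * τ * L * v 4) +
      G 18 * (2 * x * τ ^ 2 * L * v 4) +
      G 19 * (2 * x ^ 2 * L * v 4) +
      G 20 * (2 * x ^ 2 * τ * L * v 4) +
      G 21 * (2 * x ^ 2 * τ ^ 2 * L * v 4) +
      G 22 * (6 * M * v 4) +
      G 23 * (6 * τ * M * v 4) +
      G 24 * (6 * x * M * v 4) +
      G 25 * (6 * x * τ * M * v 4) +
      G 26 * (6 * x ^ 2 * M * v 4) +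
      G 27 * (6 * x ^ 2 * τ * M * v 4) +
      G 28 * (-2 * v 3 * v 4) +
      G 29 * (-2 * τ * v 3 * v 4) +
      G 30 * (-2 * τ ^ 2 * v 3 * v 4) +
      G 31 * (-2 * x * v 3 * v 4) +
      G 32 * (-2 * x * τ * v 3 * v 4) +
      G 33 * (-2 * x * τ ^ 2 * v 3 * v 4) +
      G 34 * (2 * v 4 ^ 2) +
      G 35 * (2 * τ * v 4 ^ 2) +
      G 36 * (2 * τ ^ 2 * v 4 ^ 2) +
      G 37 * (2 * x * v 4 ^ 2) +
      G 38 * (2 * x * τ * v 4 ^ 2) +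
      G 39 * (2 * x * τ ^ 2 * v 4 ^ 2) +
      G 40 * (2 * x ^ 2 * v 4 ^ 2) +
      G 41 * (2 * x ^ 2 * τ * v 4 ^ 2) +
      G 42 * (2 * x ^ 2 * τ ^ 2 * v 4 ^ 2) +
      G 43 * (2 * x ^ 3 * v 4 ^ 2) +
      G 44 * (2 * x ^ 3 * τ * v 4 ^ 2) +
      G 45 * (2 * x ^ 3 * τ ^ 2 * v 4 ^ 2) +
      G 46 * (2 * τ ^ 3 * v 4 ^ 2) +
      G 47 * (v 5 ^ 2) +
      G 48 * (τ * v 5 ^ 2) +
      G 49 * (τ ^ 2 * v 5 ^ 2) := by
  have h : ∑ j ∈ range 49, G (j + 1) * Qf (Sr k c j) v =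
      G 1 * Qf (rS1 k c) v + G 2 * Qf (rS2 k c) v + G 3 * Qf (rS3 k c) v + G 4 * Qf (rS4 k c) v +
      G 5 * Qf (rS5 k c) v + G 6 * Qf (rS6 k c) v + G 7 * Qf (rS7 k c) v + G 8 * Qf (rS8 k c) v +
      G 9 * Qf (rS9 k c) v + G 10 * Qf (rS10 k c) v + G 11 * Qf (rS11 k c) v +
      G 12 * Qf (rS12 k c) v + G 13 * Qf (rS13 k c) v + G 14 * Qf (rS14 k c) v +
      G 15 * Qf (rS15 k c) v + G 16 * Qf (rS16 k c) v + G 17 * Qf (rS17 k c) v +
      G 18 * Qf (rS18 k c) v + G 19 * Qf (rS19 k c) v + G 20 * Qf (rS20 k c) v +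
      G 21 * Qf (rS21 k c) v + G 22 * Qf (rS22 k c) v + G 23 * Qf (rS23 k c) v +
      G 24 * Qf (rS24 k c) v + G 25 * Qf (rS25 k c) v + G 26 * Qf (rS26 k c) v +
      G 27 * Qf (rS27 k c) v + G 28 * Qf (rS28 k c) v + G 29 * Qf (rS29 k c) v +
      G 30 * Qf (rS30 k c) v + G 31 * Qf (rS31 k c) v + G 32 * Qf (rS32 k c) v +
      G 33 * Qf (rS33 k c) v + G 34 * Qf (rS34 k c) v + G 35 * Qf (rS35 k c) v +
      G 36 * Qf (rS36 k c) v + G 37 * Qf (rS37 k c) v + G 38 * Qf (rS38 k c) v +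
      G 39 * Qf (rS39 k c) v + G 40 * Qf (rS40 k c) v + G 41 * Qf (rS41 k c) v +
      G 42 * Qf (rS42 k c) v + G 43 * Qf (rS43 k c) v + G 44 * Qf (rS44 k c) v +
      G 45 * Qf (rS45 k c) v + G 46 * Qf (rS46 k c) v + G 47 * Qf (rS47 k c) v +
      G 48 * Qf (rS48 k c) v + G 49 * Qf (rS49 k c) v :=
    kident_49 _
  rw [h]
  simp only [kident_q1 hK, kident_q2 hK, kident_q3 hK, kident_q4 hK, kident_q5 hK, kident_q6 hK,
    kident_q7 hK, kident_q8 hK, kident_q9 hK, kident_q10 hK, kident_q11 hK, kident_q12 hK,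
    kident_q13 hK, kident_q14 hK, kident_q15 hK, kident_q16 hK, kident_q17 hK, kident_q18 hK,
    kident_q19 hK, kident_q20 hK, kident_q21 hK, kident_q22 hK, kident_q23 hK, kident_q24 hK,
    kident_q25 hK, kident_q26 hK, kident_q27 hK, kident_q28 hK, kident_q29 hK, kident_q30 hK,
    kident_q31 hK, kident_q32 hK, kident_q33 hK, kident_q34 hK, kident_q35 hK, kident_q36 hK,
    kident_q37 hK, kident_q38 hK, kident_q39 hK, kident_q40 hK, kident_q41 hK, kident_q42 hK,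
    kident_q43 hK, kident_q44 hK, kident_q45 hK, kident_q46 hK, kident_q47 hK, kident_q48 hK,
    kident_q49 hK]

theorem kident_alg (V : ℕ → ℕ → ℝ) (D : ℕ → ℕ → ℕ → ℝ) (t y q x τ Q L M ξ z e : ℝ) :
    GR V D t y q 1 * (2 * (Q - L ^ 2)) +
      GR V D t y q 2 * (2 * τ * (Q - L ^ 2) + 6 * L * M) +
      GR V D t y q 3 * (2 * τ ^ 2 * (Q - L ^ 2) + 12 * τ * L * M) +
      GR V D t y q 4 * (2 * L ^ 2) +
      GR V D t y q 5 * (2 * τ * L ^ 2) +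
      GR V D t y q 6 * (2 * τ ^ 2 * L ^ 2) +
      GR V D t y q 7 * (2 * (ξ ^ 2 - ξ * L)) +
      GR V D t y q 8 * (2 * τ * (ξ ^ 2 - ξ * L) - 6 * ξ * M) +
      GR V D t y q 9 * (2 * τ ^ 2 * (ξ ^ 2 - ξ * L) - 12 * τ * ξ * M) +
      GR V D t y q 10 * (-2 * ξ * L) +
      GR V D t y q 11 * (-2 * τ * ξ * L) +
      GR V D t y q 12 * (-2 * τ ^ 2 * ξ * L) +
      GR V D t y q 13 * (2 * L * z) +
      GR V D t y q 14 * (2 * τ * L * z) +
      GR V D t y q 15 * (2 * τ ^ 2 * L * z) +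
      GR V D t y q 16 * (2 * x * L * z) +
      GR V D t y q 17 * (2 * x * τ * L * z) +
      GR V D t y q 18 * (2 * x * τ ^ 2 * L * z) +
      GR V D t y q 19 * (2 * x ^ 2 * L * z) +
      GR V D t y q 20 * (2 * x ^ 2 * τ * L * z) +
      GR V D t y q 21 * (2 * x ^ 2 * τ ^ 2 * L * z) +
      GR V D t y q 22 * (6 * M * z) +
      GR V D t y q 23 * (6 * τ * M * z) +
      GR V D t y q 24 * (6 * x * M * z) +
      GR V D t y q 25 * (6 * x * τ * M * z) +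
      GR V D t y q 26 * (6 * x ^ 2 * M * z) +
      GR V D t y q 27 * (6 * x ^ 2 * τ * M * z) +
      GR V D t y q 28 * (-2 * ξ * z) +
      GR V D t y q 29 * (-2 * τ * ξ * z) +
      GR V D t y q 30 * (-2 * τ ^ 2 * ξ * z) +
      GR V D t y q 31 * (-2 * x * ξ * z) +
      GR V D t y q 32 * (-2 * x * τ * ξ * z) +
      GR V D t y q 33 * (-2 * x * τ ^ 2 * ξ * z) +
      GR V D t y q 34 * (2 * z ^ 2) +
      GR V D t y q 35 * (2 * τ * z ^ 2) +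
      GR V D t y q 36 * (2 * τ ^ 2 * z ^ 2) +
      GR V D t y q 37 * (2 * x * z ^ 2) +
      GR V D t y q 38 * (2 * x * τ * z ^ 2) +
      GR V D t y q 39 * (2 * x * τ ^ 2 * z ^ 2) +
      GR V D t y q 40 * (2 * x ^ 2 * z ^ 2) +
      GR V D t y q 41 * (2 * x ^ 2 * τ * z ^ 2) +
      GR V D t y q 42 * (2 * x ^ 2 * τ ^ 2 * z ^ 2) +
      GR V D t y q 43 * (2 * x ^ 3 * z ^ 2) +
      GR V D t y q 44 * (2 * x ^ 3 * τ * z ^ 2) +
      GR V D t y q 45 * (2 * x ^ 3 * τ ^ 2 * z ^ 2) +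
      GR V D t y q 46 * (2 * τ ^ 3 * z ^ 2) +
      GR V D t y q 47 * (e ^ 2) +
      GR V D t y q 48 * (τ * e ^ 2) +
      GR V D t y q 49 * (τ ^ 2 * e ^ 2) =
    2 ^ 26 * (2 * (kidentP (V 1) τ * Q + ((kidentP (GA V D t y q 1) τ * L + 3 * ((V 1 1 + 2 * V 1 2 * τ) / 2 ^ 20) * M +
        q * z * (kidentP (GC V D t y q 1) τ + x * kidentP (GE V D t y q 1) τ)) - kidentP (V 1) τ * L) * L +
      q * z * (1 - y) * (((1 - t) * kidentP (V 2) τ + t * kidentP (V 5) τ) * L + (1 - t) * (kidentP (GA V D t y q 2) τ * L + 3 * ((V 2 1 + 2 * V 2 2 * τ) / 2 ^ 20) * M +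
        q * z * (kidentP (GC V D t y q 2) τ + x * kidentP (GE V D t y q 2) τ)) +
        t * ((kidentP (GA V D t y q 5) τ * L + 3 * ((V 5 1 + 2 * V 5 2 * τ) / 2 ^ 20) * M +
        q * z * (kidentP (GC V D t y q 5) τ + x * kidentP (GE V D t y q 5) τ)) + kidentP (V 5) τ * L)) +
      x * q * z * (1 - y) * ((1 - t) * (kidentP (GA V D t y q 3) τ * L + 3 * ((V 3 1 + 2 * V 3 2 * τ) / 2 ^ 20) * M +
        q * z * (kidentP (GC V D t y q 3) τ + x * kidentP (GE V D t y q 3) τ)) + t * ((kidentP (GA V D t y q 6) τ * L + 3 * ((V 6 1 + 2 * V 6 2 * τ) / 2 ^ 20) * M +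
        q * z * (kidentP (GC V D t y q 6) τ + x * kidentP (GE V D t y q 6) τ)) + kidentP (V 6) τ * L)) +
      x ^ 2 * q * z * (1 - y) * ((1 - t) * (kidentP (GA V D t y q 4) τ * L + 3 * ((V 4 1 + 2 * V 4 2 * τ) / 2 ^ 20) * M +
        q * z * (kidentP (GC V D t y q 4) τ + x * kidentP (GE V D t y q 4) τ)) + t * ((kidentP (GA V D t y q 7) τ * L + 3 * ((V 7 1 + 2 * V 7 2 * τ) / 2 ^ 20) * M +
        q * z * (kidentP (GC V D t y q 7) τ + x * kidentP (GE V D t y q 7) τ)) + kidentP (V 7) τ * L) -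
        ((1 - t) * kidentP (V 4) τ + t * kidentP (V 7) τ) * L) +
      q * z * (1 - y) * ((1 - t) * kidentP (V 4) τ + t * kidentP (V 7) τ) * L +
      kidentP (V 0) τ * ξ ^ 2 - ξ * (kidentP (V 0) τ * L + (kidentP (GA V D t y q 0) τ * L + 3 * ((V 0 1 + 2 * V 0 2 * τ) / 2 ^ 20) * M +
        q * z * (kidentP (GC V D t y q 0) τ + x * kidentP (GE V D t y q 0) τ))) +
      z ^ 2 * (1 - y) * ((1 - t) ^ 2 * (1 - y) * (5 * kidentP (V 1) τ - 4 * kidentP (V 0) τ) -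
        5 * (1 - t) ^ 2 * y * ((1 - t) * kidentP (V 2) τ + t * kidentP (V 5) τ) +
        t * (1 - y) * ((1 - t) * kidentP (V 3) τ + t * kidentP (V 6) τ) +
        (t * (1 - y) * τ - (1 - t) ^ 2 * y) * ((1 - t) * kidentP (V 4) τ + t * kidentP (V 7) τ))) +
      ((1 - y) * (5 / 4 * kidentP (V 0) τ - kidentP (V 1) τ) + y * ((1 - t) * kidentP (V 2) τ + t * kidentP (V 5) τ)) * e ^ 2) := by
  simp only [GR, GH, GW, GC2, GE2, kidentP]
  ring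

theorem ident_ok (h_d4 : S_d4) (h_kap : S_kap) : S_ident := by
  intro W x β c w u q hS hw hu t y ht hy v
  obtain ⟨-, -, -, k1, k2, k3, k4, k5⟩ := h_kap x β c hS
  have h0 : 0 ≤ u * w + u := by positivity
  have a1 : 1 - t = 1 / (1 + w) := by
    rw [ht]
    field_simp
    ring
  have a2 : 1 - y = 1 / (1 + (u * w + u)) := by
    rw [hy]
    field_simp
    ring
  have t0 : 1 - t ≠ 0 := by rw [a1]; positivity
  have y0 : 1 - y ≠ 0 := by rw [a2]; positivity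
  have w0 : w = t / (1 - t) := by
    rw [a1, ht]
    field_simp
  have u0 : u = (1 - t) * y / (1 - y) := by
    rw [a1, a2, hy]
    field_simp
    ring
  obtain ⟨L, hL⟩ : ∃ L, l1 x β (3 / 8 * v 0) (v 1 / 2) = L := ⟨_, rfl⟩
  obtain ⟨L2, hL2⟩ : ∃ L, l2 x β c (3 / 8 * v 0) (v 1 / 2) (v 2 / 2) = L := ⟨_, rfl⟩
  obtain ⟨Q, hQ⟩ : ∃ Q, 7 * (3 / 8 * v 0) ^ 2 + 3 * (v 1 / 2) ^ 2 + 3 * (v 2 / 2) ^ 2 = Q :=
    ⟨_, rfl⟩
  obtain ⟨M, hM⟩ : ∃ M, L2 - sτ x β c * L = M := ⟨_, rfl⟩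
  have hK : KIdH (x / (4 * β + 2)) c x β (sγ c) (se c) (sτ x β c) Q L M v :=
    ⟨k1, k2, k3, k4, k5, by rw [← hQ]; ring, by rw [← hL, l1]; ring,
      by rw [← hM, ← hL, ← hL2, l1, l2]; ring⟩
  have key := fun f => kident_tg h_d4 W f x q (sτ x β c) L L2 (v 4) t0 y0 w0 u0 h0
  rw [kident_lin, kident_form (FF W) x β c q _ _ _ _ _ _ t0 y0 w0 u0 rfl hL fun _ => rfl, hL2, hQ]
  simp only [FF, fun f => (key f).1, fun f => (key f).2, hM]
  rw [kident_sum hK]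
  exact kident_alg _ _ _ _ _ _ _ _ _ _ _ _ _

end Vale.Agent.P098.Ck
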