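import Vale.Agent.P098.CkTop

/-!
# P098: from the checked matrix inequality to the interior and radial inequalities
-/

open Finset

noncomputable section
namespace Vale.Agent.P098.Ck

theorem kint_lin (a b : ℝ) (Z M v : ℕ → ℝ) :
    Qf (fun k => a * Z k + b * M k) v = a * Qf Z v + b * Qf M v := by
  unfold Qf qf
  ring

theorem kint_form0 (F : Fam) (x β c w u q : ℝ) : form F x β c w u q 0 0 0 0 0 = 0 := by
  simp [form, blk, tg, tgb, l1, l2]

theorem kint_gr0 (V : ℕ → ℕ → ℝ) (D : ℕ → ℕ → ℕ → ℝ) (t y q : ℝ) :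
    GR V D t y q 0 = 2097152 * (25 * (1 - y) ^ 2 * (1 - q ^ 2) -
      y ^ 2 * (25 * (1 - t) ^ 2 + 4 * t ^ 2)) := by
  show (2097152 : ℝ) * ((25 * ((1 - y) * ((1 - y) * (1 + (-1 * (q * q)))))) +
    (-1 * (y * (y * ((25 * ((1 - t) * (1 - t))) + (4 * (t * t))))))) = _
  ring

theorem kint_gint (W : ℕ → ℕ → P) (t y q : ℝ) (j : ℕ) :
    Gint W (p3 (2 * (512 * t)) (2 * (512 * y)) (2 * (512 * q))) j =
      1024 ^ 16 * GR (tV W t y q) (tD W t y q) t y q j := by
  have e0 : p3 (2 * (512 * t)) (2 * (512 * y)) (2 * (512 * q)) 0 / 1024 = t := by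
    show 2 * (512 * t) / 1024 = t
    ring
  have e1 : p3 (2 * (512 * t)) (2 * (512 * y)) (2 * (512 * q)) 1 / 1024 = y := by
    show 2 * (512 * y) / 1024 = y
    ring
  have e2 : p3 (2 * (512 * t)) (2 * (512 * y)) (2 * (512 * q)) 2 / 1024 = q := by
    show 2 * (512 * q) / 1024 = q
    ring
  unfold Gint
  rw [e0, e1, e2]

theorem kint_ty (w u q : ℝ) (hp : Phys w u q) (t y : ℝ) (ht : t = w / (1 + w))
    (hy : y = (u * w + u) / (1 + (u * w + u))) :
    0 ≤ t ∧ t < 1 ∧ 0 ≤ y ∧ y < 1 ∧ q ≤ 1 ∧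
      y ^ 2 * (25 * (1 - t) ^ 2 + 4 * t ^ 2) ≤ 25 * (1 - y) ^ 2 * (1 - q ^ 2) := by
  have hw := hp.w0
  have hu := hp.u0
  have hq := hp.q0
  have he := hp.e1
  have huw : 0 ≤ u * w := mul_nonneg hu hw.le
  have h1 : 0 < 1 + w := by linarith
  have h2 : 0 < 1 + (u * w + u) := by linarith
  have a1 : (1 - t) * y = u * (1 - y) := by
    rw [ht, hy]
    field_simp
    ring
  have a2 : t * y = u * w * (1 - y) := by
    rw [ht, hy]
    field_simp
    ring
  refine ⟨?_, ?_, ?_, ?_, ?_, ?_⟩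
  · rw [ht]
    positivity
  · rw [ht, div_lt_one h1]
    linarith
  · rw [hy]
    positivity
  · rw [hy, div_lt_one h2]
    linarith
  · nlinarith [sq_nonneg u, sq_nonneg (u * w)]
  · have a3 : y ^ 2 * (25 * (1 - t) ^ 2 + 4 * t ^ 2) =
        25 * ((1 - t) * y) ^ 2 + 4 * (t * y) ^ 2 := by ring
    have a4 : 0 ≤ (1 - y) ^ 2 * (1 - (q ^ 2 + u ^ 2 + 4 / 25 * (u * w) ^ 2)) :=
      mul_nonneg (sq_nonneg _) (by linarith)
    rw [a3, a1, a2]
    nlinarith

theorem kint_core (h_kap : S_kap) (W : ℕ → ℕ → P)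
    (hG : Good5 (Gint W) AI 0 512 0 512 0 512 24 488 216 808) (x β c w u q : ℝ)
    (hs : Shape x β c) (hp : Phys w u q) (t y : ℝ) (ht : t = w / (1 + w))
    (hy : y = (u * w + u) / (1 + (u * w + u))) (v : ℕ → ℝ) :
    2 ^ 126 * (v 3 ^ 2 + v 4 ^ 2) ≤ 1024 ^ 16 * Qf (fun k => ∑ j ∈ range 49,
      GR (tV W t y q) (tD W t y q) t y q (j + 1) * Sr (x / (4 * β + 2)) c j k) v := by
  obtain ⟨k1, k2, -⟩ := h_kap x β c hs
  obtain ⟨t0, t1, y0, y1, q1, hd⟩ := kint_ty w u q hp t y ht hy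
  have hq := hp.q0
  rw [abs_le] at k1 k2
  have i3 : In 24 488 (256 + 512 * (x / (4 * β + 2))) := by
    constructor
    · push_cast
      linarith [k1.1]
    · push_cast
      linarith [k1.2]
  have i4 : In 216 808 (512 + 512 * c) := by
    constructor
    · push_cast
      linarith [k2.1]
    · push_cast
      linarith [k2.2]
  have g3 := hG _ _ i3 i4
  have r3 : (256 + 512 * (x / (4 * β + 2)) - 256) / 512 = x / (4 * β + 2) := by ring
  have r4 : (512 + 512 * c - 512) / 512 = c := by ring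
  rw [r3, r4] at g3
  have i0 : In 0 512 (512 * t) := by
    constructor
    · push_cast
      linarith
    · push_cast
      linarith
  have i1 : In 0 512 (512 * y) := by
    constructor
    · push_cast
      linarith
    · push_cast
      linarith
  have i2 : In 0 512 (512 * q) := by
    constructor
    · push_cast
      linarith
    · push_cast
      linarith
  have dm : Dm (512 * t) (512 * y) (512 * q) := by
    refine ⟨by linarith, by linarith, by linarith, ?_⟩
    have b1 : (512 * y) ^ 2 * (25 * (512 - 512 * t) ^ 2 + 4 * (512 * t) ^ 2) =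
        512 ^ 4 * (y ^ 2 * (25 * (1 - t) ^ 2 + 4 * t ^ 2)) := by ring
    have b2 : 25 * (512 - 512 * y) ^ 2 * (262144 - (512 * q) ^ 2) =
        512 ^ 4 * (25 * (1 - y) ^ 2 * (1 - q ^ 2)) := by ring
    rw [b1, b2]
    exact mul_le_mul_of_nonneg_left hd (by positivity)
  obtain ⟨Z, hZ, h⟩ := g3 _ _ _ i0 i1 i2 dm
  have h1 := h v
  have e : (fun k => Gint W (p3 (2 * (512 * t)) (2 * (512 * y)) (2 * (512 * q))) 0 * Z k +
      ∑ j ∈ range 49, Gint W (p3 (2 * (512 * t)) (2 * (512 * y)) (2 * (512 * q))) (j + 1) *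
        Sr (x / (4 * β + 2)) c j k) =
      fun k => (1024 ^ 16 * GR (tV W t y q) (tD W t y q) t y q 0) * Z k +
        1024 ^ 16 * (fun k => ∑ j ∈ range 49,
          GR (tV W t y q) (tD W t y q) t y q (j + 1) * Sr (x / (4 * β + 2)) c j k) k := by
    funext k
    simp only [kint_gint]
    rw [Finset.mul_sum]
    congr 1
    exact Finset.sum_congr rfl fun j _ => mul_assoc _ _ _
  rw [e, kint_lin] at h1
  have g0 : 0 ≤ (1024 : ℝ) ^ 16 * GR (tV W t y q) (tD W t y q) t y q 0 := by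
    rw [kint_gr0]
    exact mul_nonneg (by positivity) (mul_nonneg (by norm_num) (sub_nonneg.2 hd))
  have g1 := mul_nonpos_of_nonneg_of_nonpos g0 (hZ v)
  linarith

theorem int_ok (h_kap : S_kap) (h_ident : S_ident) : S_int := by
  intro W hG
  constructor
  · refine ⟨2 ^ 126 / (1024 ^ 16 * 2 ^ 27), by positivity, ?_⟩
    intro x β c w u q hs hp b0 b1 ζ ξ z
    obtain ⟨t0, t1, y0, y1, -, -⟩ := kint_ty w u q hp _ _ rfl rfl
    generalize ht : w / (1 + w) = t at t0 t1
    generalize hy : (u * w + u) / (1 + (u * w + u)) = y at y0 y1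
    have hm : 0 < (1 - t) * (1 - y) := mul_pos (by linarith) (by linarith)
    have hm1 : (1 - t) * (1 - y) ≤ 1 := mul_le_one₀ (by linarith) (by linarith) (by linarith)
    let v : ℕ → ℝ := fun n => if n = 0 then 8 / 3 * b0 else if n = 1 then 2 * b1 else
      if n = 2 then 2 * ζ else if n = 3 then ξ else if n = 4 then z / ((1 - t) * (1 - y)) else 0
    have h1 := kint_core h_kap W hG x β c w u q hs hp t y ht.symm hy.symm v
    rw [h_ident W x β c w u q hs hp.w0 hp.u0 t y ht.symm hy.symm v] at h1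
    have v0 : 3 / 8 * v 0 = b0 := by
      show 3 / 8 * (8 / 3 * b0) = b0
      ring
    have v1 : v 1 / 2 = b1 := by
      show 2 * b1 / 2 = b1
      ring
    have v2 : v 2 / 2 = ζ := by
      show 2 * ζ / 2 = ζ
      ring
    have v3 : v 3 = ξ := rfl
    have v4 : (1 - t) * (1 - y) * v 4 = z := by
      show (1 - t) * (1 - y) * (z / ((1 - t) * (1 - y))) = z
      exact mul_div_cancel₀ _ hm.ne'
    have v5 : v 5 = 0 := rfl
    have hz : z ^ 2 ≤ v 4 ^ 2 := by
      rw [← v4, mul_pow]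
      exact mul_le_of_le_one_left (sq_nonneg _) (pow_le_one₀ hm.le hm1)
    rw [v0, v1, v2, v3, v4, v5] at h1
    rw [div_mul_eq_mul_div, div_le_iff₀ (by positivity)]
    generalize form (FF W) x β c w u q b0 b1 ζ ξ z = f at h1 ⊢
    have h2 : (2 : ℝ) ^ 126 * (ξ ^ 2 + z ^ 2) ≤ 2 ^ 126 * (ξ ^ 2 + v 4 ^ 2) :=
      mul_le_mul_of_nonneg_left (by linarith) (by positivity)
    refine h2.trans (h1.trans (le_of_eq ?_))
    ring
  · intro x β c w u q hs hp
    obtain ⟨t0, t1, y0, y1, -, -⟩ := kint_ty w u q hp _ _ rfl rfl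
    generalize ht : w / (1 + w) = t at t0 t1
    generalize hy : (u * w + u) / (1 + (u * w + u)) = y at y0 y1
    let v : ℕ → ℝ := fun n => if n = 5 then 1 else 0
    have h1 := kint_core h_kap W hG x β c w u q hs hp t y ht.symm hy.symm v
    rw [h_ident W x β c w u q hs hp.w0 hp.u0 t y ht.symm hy.symm v] at h1
    have v0 : 3 / 8 * v 0 = 0 := mul_zero _
    have v1 : v 1 / 2 = 0 := zero_div _
    have v2 : v 2 / 2 = 0 := zero_div _
    have v3 : v 3 = 0 := rfl
    have v4 : v 4 = 0 := rfl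
    have v5 : v 5 = 1 := rfl
    rw [v0, v1, v2, v3, v4, v5, mul_zero ((1 - t) * (1 - y)), kint_form0] at h1
    generalize 5 / 4 * (FF W).f0 ![u * w, q ^ 2, u, sτ x β c] -
      (FF W).f1 ![u * w, q ^ 2, u, sτ x β c] +
      u * ((FF W).g0 ![u * w, q ^ 2, u, sτ x β c] + w * (FF W).h0 ![u * w, q ^ 2, u, sτ x β c]) = E
      at h1 ⊢
    have h2 : 0 ≤ (1024 ^ 16 * 2 ^ 26 * (1 - y)) * E := by
      refine le_of_eq_of_le ?_ (h1.trans (le_of_eq ?_))
      · ring
      · ring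
    exact (mul_nonneg_iff_of_pos_left (mul_pos (by positivity) (by linarith))).1 h2

end Vale.Agent.P098.Ck
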