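import Vale.Agent.P098.CkSem

/-! P098: interpolation from a grid. -/

open Finset

noncomputable section
namespace Vale.Agent.P098.Ck

theorem kinterp_cell {G G1 G2 : ℝ → ℝ} {U B a b t : ℝ} (hU : 0 ≤ U)
    (h1 : ∀ s, HasDerivAt G (G1 s) s) (h2 : ∀ s, HasDerivAt G1 (G2 s) s)
    (h3 : ∀ s ∈ Set.Icc a b, G2 s ≤ U) (ha : B ≤ G a) (hb : B ≤ G b) (ht : t ∈ Set.Icc a b) :
    B - U * (b - a) ^ 2 / 8 ≤ G t := by
  have d1 : ∀ s, HasDerivAt (fun s => G s + U * ((s - a) * (b - s)) / 2)
      (G1 s + U * (a + b - 2 * s) / 2) s := by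
    intro s
    have e := (h1 s).add (((((hasDerivAt_id' s).sub_const a).mul
      ((hasDerivAt_id' s).const_sub b)).const_mul U).div_const 2)
    exact e.congr_deriv (by ring)
  have d2 : ∀ s, HasDerivAt (fun s => G1 s + U * (a + b - 2 * s) / 2) (G2 s - U) s := by
    intro s
    have e := (h2 s).add ((((((hasDerivAt_id' s).const_mul 2).const_sub (a + b))).const_mul
      U).div_const 2)
    exact e.congr_deriv (by ring)
  have hc : ConcaveOn ℝ (Set.Icc a b) fun s => G s + U * ((s - a) * (b - s)) / 2 := by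
    refine concaveOn_of_hasDerivWithinAt2_nonpos (convex_Icc a b)
      (f' := fun s => G1 s + U * (a + b - 2 * s) / 2) (f'' := fun s => G2 s - U)
      (fun s _ => (d1 s).continuousAt.continuousWithinAt)
      (fun s _ => (d1 s).hasDerivWithinAt) (fun s _ => (d2 s).hasDerivWithinAt) fun s hs => ?_
    exact sub_nonpos.2 (h3 s (interior_subset hs))
  have hab : a ≤ b := ht.1.trans ht.2
  have hm := hc.min_le_of_mem_Icc (Set.left_mem_Icc.2 hab) (Set.right_mem_Icc.2 hab) ht
  simp only [sub_self, zero_mul, mul_zero, zero_div, add_zero] at hm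
  have h4 : B ≤ G t + U * ((t - a) * (b - t)) / 2 := (le_min ha hb).trans hm
  have h5 : (t - a) * (b - t) ≤ (b - a) ^ 2 / 4 := by nlinarith [sq_nonneg (a + b - 2 * t)]
  have h6 := mul_le_mul_of_nonneg_left h5 hU
  linarith

theorem kinterp_gp {n k : ℕ} (hn : 0 < n) (hk : k ≤ n) : |gp n k| ≤ 1 := by
  have h0 : (0 : ℝ) < n := by exact_mod_cast hn
  have h1 : (k : ℝ) ≤ n := by exact_mod_cast hk
  have h2 : 0 ≤ 2 * (k : ℝ) / n := by positivity
  have h3 : 2 * (k : ℝ) / n ≤ 2 := by
    rw [div_le_iff₀ h0]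
    linarith
  unfold gp
  rw [abs_le]
  constructor <;> linarith

theorem kinterp_find {n : ℕ} (hn : 0 < n) {t : ℝ} (ht : |t| ≤ 1) :
    ∃ k, k < n ∧ t ∈ Set.Icc (gp n k) (gp n (k + 1)) := by
  have h0 : (0 : ℝ) < n := by exact_mod_cast hn
  obtain ⟨t1, t2⟩ := abs_le.1 ht
  have hx : 0 ≤ (t + 1) * n / 2 := by
    have : 0 ≤ t + 1 := by linarith
    positivity
  have key : ∀ k : ℕ, (k : ℝ) ≤ (t + 1) * n / 2 → (t + 1) * n / 2 ≤ k + 1 →
      t ∈ Set.Icc (gp n k) (gp n (k + 1)) := by
    intro k a b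
    unfold gp
    constructor
    · have : 2 * (k : ℝ) / n ≤ t + 1 := by
        rw [div_le_iff₀ h0]
        linarith
      linarith
    · have : t + 1 ≤ 2 * ((k + 1 : ℕ) : ℝ) / n := by
        rw [le_div_iff₀ h0]
        push_cast
        linarith
      linarith
  by_cases hk : ⌊(t + 1) * n / 2⌋₊ < n
  · exact ⟨_, hk, key _ (Nat.floor_le hx) (Nat.lt_floor_add_one _).le⟩
  · have h1 : (n : ℝ) ≤ (t + 1) * n / 2 := by
      have h2 : ((n : ℕ) : ℝ) ≤ (⌊(t + 1) * n / 2⌋₊ : ℝ) := by exact_mod_cast not_lt.1 hk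
      exact h2.trans (Nat.floor_le hx)
    obtain ⟨k, rfl⟩ : ∃ k, n = k + 1 := ⟨n - 1, by omega⟩
    refine ⟨k, Nat.lt_succ_self k, key k ?_ ?_⟩
    · push_cast at h1 ⊢
      linarith
    · push_cast at h0 ⊢
      nlinarith

theorem kinterp_one {G G1 G2 : ℝ → ℝ} {U B t : ℝ} {n : ℕ} (hn : 0 < n) (hU : 0 ≤ U)
    (h1 : ∀ s, HasDerivAt G (G1 s) s) (h2 : ∀ s, HasDerivAt G1 (G2 s) s)
    (h3 : ∀ s, |s| ≤ 1 → G2 s ≤ U) (h4 : ∀ k, k ≤ n → B ≤ G (gp n k)) (ht : |t| ≤ 1) :
    B - U / (2 * (n : ℝ) ^ 2) ≤ G t := by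
  obtain ⟨k, hk, hm⟩ := kinterp_find hn ht
  have h0 : (0 : ℝ) < n := by exact_mod_cast hn
  have a1 := abs_le.1 (kinterp_gp hn hk.le)
  have a2 := abs_le.1 (kinterp_gp hn (Nat.succ_le_of_lt hk))
  have := kinterp_cell hU h1 h2 (fun s hs => h3 s (abs_le.2 ⟨a1.1.trans hs.1, hs.2.trans a2.2⟩))
    (h4 k hk.le) (h4 (k + 1) hk) hm
  have e : U * (gp n (k + 1) - gp n k) ^ 2 / 8 = U / (2 * (n : ℝ) ^ 2) := by
    unfold gp
    push_cast
    field_simp
    ring
  rwa [e] at this

theorem kinterp_box {e : Pt} (he : Box e) (i : ℕ) {s : ℝ} (hs : |s| ≤ 1) :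
    Box (Function.update e i s) := by
  intro j
  by_cases h : j = i
  · rw [h, Function.update_self]
    exact hs
  · rw [Function.update_of_ne h]
    exact he j

theorem interp : S_interp := by
  intro m
  induction m with
  | zero =>
    intro g g1 g2 U n B _ _ _ _ h e he
    simpa using h e he fun i hi => absurd hi (Nat.not_lt_zero i)
  | succ m ih =>
    intro g g1 g2 U n B h0 h1 h2 h3 h4 e he
    have lt : ∀ i, i < m → i < m + 1 := fun i hi => Nat.lt_succ_of_lt hi
    have := ih g g1 g2 U n (B - U m / (2 * (n m : ℝ) ^ 2)) (fun i hi => h0 i (lt i hi))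
      (fun i hi => h1 i (lt i hi)) (fun i hi => h2 i (lt i hi)) (fun i hi => h3 i (lt i hi))
      (fun e he hg => by
        have hm := Nat.lt_succ_self m
        have k := kinterp_one (G := fun t => g (Function.update e m t))
          (G1 := fun t => g1 m (Function.update e m t))
          (G2 := fun t => g2 m (Function.update e m t)) (B := B) (t := e m) (h0 m hm).1
          (h0 m hm).2
          (fun s => by simpa using h1 m hm (Function.update e m s))
          (fun s => by simpa using h2 m hm (Function.update e m s))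
          (fun s hs => h3 m hm _ (kinterp_box he m hs))
          (fun k hk => h4 _ (kinterp_box he m (kinterp_gp (h0 m hm).1 hk)) fun i hi => by
            rcases Nat.lt_succ_iff_lt_or_eq.1 hi with h | h
            · rw [Function.update_of_ne h.ne]
              exact hg i h
            · rw [h, Function.update_self]
              exact ⟨k, hk, rfl⟩)
          (he m)
        simpa using k) e he
    rw [sum_range_succ]
    linarith

end Vale.Agent.P098.Ck
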