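import Vale.Agent.P098.CkTop

/-! # P098: the parametrisation of the shapes and the boundary inequality -/

open Finset

noncomputable section
namespace Vale.Agent.P098.Ck

theorem kkap_rR {x β c : ℝ} (h : Shape x β c) : rR (x / (4 * β + 2)) c = β + 1 / 2 := by
  have h0 := h.b0
  have h1 : (4 * β + 2) ≠ 0 := by positivity
  have h2 : rDn (x / (4 * β + 2)) c = 4 / (4 * β + 2) := by
    rw [rDn]
    field_simp
    push_cast
    linear_combination 4294967296 * h.ell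
  rw [rR, h2]
  field_simp
  ring

theorem kap_ok : S_kap := by
  intro x β c h
  have h0 := h.b0
  have h1 : 0 < 4 * β + 2 := by positivity
  have hX : rX (x / (4 * β + 2)) c = x := by
    rw [rX, kkap_rR h]
    field_simp
    push_cast
    ring
  have hB : rB (x / (4 * β + 2)) c = β := by
    rw [rB, kkap_rR h]
    norm_num
  have hG : rGa (x / (4 * β + 2)) c = sγ c := by
    rw [rGa, rC2, sγ]
    push_cast
    ring
  refine ⟨?_, ?_, fun hx => div_nonpos_of_nonpos_of_nonneg hx h1.le, hX, hB, hG, ?_, ?_⟩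
  · rw [abs_div, abs_of_pos h1, div_le_iff₀ h1]
    refine abs_le_of_sq_le_sq' ?_ (by positivity) |> abs_le.2
    nlinarith [h.ell, sq_nonneg β]
  · refine abs_le_of_sq_le_sq' ?_ (by positivity) |> abs_le.2
    nlinarith [h.c1]
  · rw [rE2, rC2, se]
    push_cast
    ring
  · rw [rT1, rX3, rX2, rXB, rBG, rB2, hX, hB, hG, sτ]
    push_cast
    ring

theorem kkap_sum1 (V : ℕ → ℕ → ℝ) (S : ℕ → ℝ) (a : ℝ) :
    ∑ j ∈ range 49, a * GB1 V (j + 1) * S j = a * (32 * (V 2 0 * S 33 + V 2 1 * S 34 +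
      V 2 2 * S 35 + V 3 0 * S 36 + V 3 1 * S 37 + V 3 2 * S 38 + V 4 0 * S 39 + V 4 1 * S 40 +
      V 4 2 * S 41)) := by
  simp only [sum_range_succ, sum_range_zero, Nat.reduceAdd, GB1]
  ring

theorem kkap_sum2 (V : ℕ → ℕ → ℝ) (S : ℕ → ℝ) (a : ℝ) :
    ∑ j ∈ range 49, a * GB2 V (j + 1) * S j = a * (32 * (V 5 0 * S 33 + (V 5 1 - V 1 0) * S 34 +
      (V 5 2 - V 1 1) * S 35 + (2 * V 1 0 + V 6 0 - V 0 0) * S 36 +
      (2 * V 1 1 + V 6 1 - V 0 1) * S 37 + (2 * V 1 2 + V 6 2 - V 0 2) * S 38 + V 7 0 * S 39 +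
      V 7 1 * S 40 + V 7 2 * S 41 - V 1 2 * S 45)) := by
  simp only [sum_range_succ, sum_range_zero, Nat.reduceAdd, GB2]
  ring

theorem kkap_sr (k c : ℝ) : Sr k c 33 14 = 2 ∧ Sr k c 34 14 = 2 * rT1 k c ∧
    Sr k c 35 14 = 2 * rT1 k c ^ 2 ∧ Sr k c 36 14 = 2 * rX k c ∧
    Sr k c 37 14 = 2 * rX k c * rT1 k c ∧ Sr k c 38 14 = 2 * rX k c * rT1 k c ^ 2 ∧
    Sr k c 39 14 = 2 * rX k c ^ 2 ∧ Sr k c 40 14 = 2 * rX k c ^ 2 * rT1 k c ∧
    Sr k c 41 14 = 2 * rX k c ^ 2 * rT1 k c ^ 2 ∧ Sr k c 45 14 = 2 * rT1 k c ^ 3 := by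
  simp only [Sr, rS34, rS35, rS36, rS37, rS38, rS39, rS40, rS41, rS42, rS46, if_true, rT2, rT3,
    rXT11, rXT12, rX2, rXT21, rXT22]
  push_cast
  refine ⟨?_, ?_, ?_, ?_, ?_, ?_, ?_, ?_, ?_, ?_⟩ <;> ring

theorem kkap_key {G : Pt → ℕ → ℝ} (hG : Good5 G AB 0 0 0 0 0 0 24 256 216 808) {k c : ℝ}
    (h1 : |k| ≤ 232 / 512) (h2 : |c| ≤ 296 / 512) (h3 : k ≤ 0) :
    ∃ e, 0 ≤ ∑ j ∈ range 49, G e (j + 1) * Sr k c j 14 := by
  obtain ⟨a1, -⟩ := abs_le.1 h1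
  obtain ⟨a2, a3⟩ := abs_le.1 h2
  have i0 : In 0 0 0 := ⟨by simp, by simp⟩
  obtain ⟨Z, hZ, hv⟩ := hG (256 + 512 * k) (512 + 512 * c)
    ⟨by push_cast; linarith, by push_cast; linarith⟩
    ⟨by push_cast; linarith, by push_cast; linarith⟩ 0 0 0 i0 i0 i0
    ⟨by norm_num, by norm_num, by norm_num, by norm_num⟩
  have h4 := hv fun i => if i = 4 then 1 else 0
  have e1 : (256 + 512 * k - 256) / 512 = k := by ring
  have e2 : (512 + 512 * c - 512) / 512 = c := by ring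
  have e3 : ∀ M : ℕ → ℝ, Qf M (fun i => if i = 4 then 1 else 0) = M 14 := fun M => by
    simp [Qf, qf]
  have e4 : Z 14 = 0 := hZ
  rw [e1, e2, e3, e4, mul_zero, zero_add] at h4
  exact ⟨_, le_trans (by positivity) h4⟩

theorem kkap_ff (W : ℕ → ℕ → P) (f : ℕ) (τ : ℝ) : ff W f ![0, 1, 0, τ] =
    (tV W 1 0 1 f 0 + tV W 1 0 1 f 1 * τ + tV W 1 0 1 f 2 * τ ^ 2) / 2 ^ 20 := by
  have e : pv ![0, 1, 0, τ] = p3 0 (1 * 1) ((1 - 1) * 0) := by
    simp [pv, gg]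
  rw [ff, e]
  rfl

theorem bd_ok : S_bd := by
  intro W h1 h2 x β c h hx
  obtain ⟨a1, a2, a3, a4, -, -, -, a5⟩ := kap_ok x β c h
  obtain ⟨e1, b1⟩ := kkap_key h1 a1 a2 (a3 hx)
  obtain ⟨e2, b2⟩ := kkap_key h2 a1 a2 (a3 hx)
  obtain ⟨s0, s1, s2, s3, s4, s5, s6, s7, s8, s9⟩ := kkap_sr (x / (4 * β + 2)) c
  simp only [Gb1] at b1
  simp only [Gb2] at b2
  rw [kkap_sum1 _ fun j => Sr (x / (4 * β + 2)) c j 14, s0, s1, s2, s3, s4, s5, s6, s7, s8, a4,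
    a5] at b1
  rw [kkap_sum2 _ fun j => Sr (x / (4 * β + 2)) c j 14, s0, s1, s2, s3, s4, s5, s6, s7, s8, s9, a4,
    a5] at b2
  have c1 := nonneg_of_mul_nonneg_right (nonneg_of_mul_nonneg_right b1 (by positivity))
    (by positivity)
  have c2 := nonneg_of_mul_nonneg_right (nonneg_of_mul_nonneg_right b2 (by positivity))
    (by positivity)
  simp only [FF, kkap_ff]
  constructor
  · linarith
  · linarith

end Vale.Agent.P098.Ck
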