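import Vale.Agent.P098.KNm

/-!
# P098: rounding of the kept terms in the checker
-/

open Finset

noncomputable section
namespace Vale.Agent.P098.Ck

theorem kkeep_band (a b : Bool) : band a b = true ↔ a = true ∧ b = true := by
  cases a <;> cases b <;> simp [band]

theorem kkeep_floor (x sh : ℕ) : ((x / 2 ^ sh : ℕ) : ℝ) ≤ (x : ℝ) / 2 ^ sh ∧
    (x : ℝ) / 2 ^ sh ≤ ((x / 2 ^ sh : ℕ) : ℝ) + 1 := by
  have h2 : (0 : ℝ) < 2 ^ sh := by positivity
  constructor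
  · have := @Nat.cast_div_le ℝ _ _ _ x (2 ^ sh)
    simpa using this
  · rw [div_le_iff₀ h2]
    have h3 : x < (x / 2 ^ sh + 1) * 2 ^ sh := by
      have := Nat.lt_div_mul_add (a := x) (b := 2 ^ sh) (by positivity)
      rw [add_mul, one_mul]
      exact this
    exact_mod_cast h3.le

theorem kkeep_round (x y sh : ℕ) :
    |((x : ℝ) - y) / 2 ^ sh - ((((x - y) / 2 ^ sh : ℕ) : ℝ) - (((y - x) / 2 ^ sh : ℕ) : ℝ))| ≤ 1 := by
  rcases le_total x y with h | h
  · have h1 := kkeep_floor (y - x) sh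
    rw [Nat.sub_eq_zero_of_le h, Nat.zero_div, Nat.cast_zero]
    rw [Nat.cast_sub h] at h1
    have : ((x : ℝ) - y) / 2 ^ sh = -(((y : ℝ) - x) / 2 ^ sh) := by ring
    rw [this, abs_le]
    constructor <;> linarith [h1.1, h1.2]
  · have h1 := kkeep_floor (x - y) sh
    rw [Nat.sub_eq_zero_of_le h, Nat.zero_div, Nat.cast_zero]
    rw [Nat.cast_sub h] at h1
    rw [abs_le]
    constructor <;> linarith [h1.1, h1.2]

theorem kkeep_leaf (g : ℕ → ℕ → ℕ) (L J sh m : ℕ) (u v : ℕ → ℕ) (hg : Nrm g L J sh)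
    (h3 : ∀ j, j < J → u j ≤ m ∧ v j ≤ m) (hm : m < 2 ^ (L - 1)) :
    Rep L J (P.lf (g (pk L J u) (pk L J v)) (g (pk L J v) (pk L J u)) (Nat.shiftRight m sh))
      (fun _ j => (((u j - v j) / 2 ^ sh : ℕ) : ℝ) - (((v j - u j) / 2 ^ sh : ℕ) : ℝ)) := by
  refine ⟨fun j => (u j - v j) / 2 ^ sh, fun j => (v j - u j) / 2 ^ sh,
    hg u v fun j hj => ⟨lt_of_le_of_lt (h3 j hj).1 hm, lt_of_le_of_lt (h3 j hj).2 hm⟩,
    hg v u fun j hj => ⟨lt_of_le_of_lt (h3 j hj).2 hm, lt_of_le_of_lt (h3 j hj).1 hm⟩,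
    fun j hj => ?_, fun _ _ _ => rfl⟩
  have e1 : Nat.shiftRight m sh = m / 2 ^ sh := Nat.shiftRight_eq_div_pow m sh
  rw [e1]
  exact ⟨Nat.div_le_div_right ((Nat.sub_le _ _).trans (h3 j hj).1),
    Nat.div_le_div_right ((Nat.sub_le _ _).trans (h3 j hj).2)⟩

theorem kkeep_main (g : ℕ → ℕ → ℕ) (L J sh : ℕ) (hg : Nrm g L J sh) (p : P) (d : ℕ)
    (F : Pt → ℕ → ℝ) (hF : Rep L J p F) (ho : okm (2 ^ (L - 1)) p = true) :
    ∃ (T : Pt → ℕ → ℝ) (u : ℕ → ℕ), Rep L J (keep g sh p d) T ∧ knmI L J (cr p d) u ∧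
      ∀ e, Box e → ∀ j, j < J → |F e j / 2 ^ sh - T e j| ≤ (cnt p d : ℝ) + (u j : ℝ) / 2 ^ sh := by
  have h2p : (0 : ℝ) < 2 ^ sh := by positivity
  induction p generalizing F d with
  | nil =>
    refine ⟨fun _ _ => 0, fun _ => 0, fun _ _ _ => rfl, Or.inl ⟨rfl, fun _ _ => rfl⟩,
      fun e _ j hj => ?_⟩
    have : F e j = 0 := hF e j hj
    have hc : cnt P.nil d = 0 := rfl
    simp [this, hc]
  | lf a b m =>
    obtain ⟨u, v, rfl, rfl, h3, h4⟩ := hF
    have h1 : Nat.blt m (2 ^ (L - 1)) = true := ho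
    rw [Nat.blt_eq] at h1
    refine ⟨_, fun _ => 0, kkeep_leaf g L J sh m u v hg h3 h1, Or.inl ⟨rfl, fun _ _ => rfl⟩,
      fun e _ j hj => ?_⟩
    have hc : cnt (P.lf (pk L J u) (pk L J v) m) d = 1 := rfl
    rw [h4 e j hj, hc]
    simpa using kkeep_round (u j) (v j) sh
  | cons c r ic ir =>
    obtain ⟨C, R, h1, h2, h3⟩ := hF
    have ho' : band (okm (2 ^ (L - 1)) c) (okm (2 ^ (L - 1)) r) = true := ho
    rw [kkeep_band] at ho'
    cases d with
    | zero =>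
      obtain ⟨T, u, k1, k2, k3⟩ := ic 0 C h1 ho'.1
      obtain ⟨v, k4, k5⟩ := knm_nm L J r R h2
      refine ⟨fun e j => T (tl e) j + e 0 * 0, _,
        ⟨T, fun _ _ => 0, k1, fun _ _ _ => rfl, fun _ _ _ => rfl⟩,
        knm_padd L J _ _ u v k2 k4, fun e he j hj => ?_⟩
      have hc : cnt (P.cons c r) 0 = cnt c 0 := rfl
      rw [h3 e j hj, hc]
      push_cast
      have k6 : |R e j / 2 ^ sh| ≤ (v j : ℝ) / 2 ^ sh := by
        rw [abs_div, abs_of_pos h2p]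
        exact div_le_div_of_nonneg_right (k5 e he j hj) h2p.le
      have := knm_tri _ _ _ _ _ (he 0) (k3 _ (knm_box e he) j hj) k6
      convert this using 1
      · congr 1
        ring
      · ring
    | succ d =>
      obtain ⟨T, u, k1, k2, k3⟩ := ic (d + 1) C h1 ho'.1
      obtain ⟨T', v, k4, k5, k6⟩ := ir d R h2 ho'.2
      refine ⟨fun e j => T (tl e) j + e 0 * T' e j, _, ⟨T, T', k1, k4, fun _ _ _ => rfl⟩,
        knm_padd L J _ _ u v k2 k5, fun e he j hj => ?_⟩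
      have hc : cnt (P.cons c r) (d + 1) = cnt c (d + 1) + cnt r d := rfl
      rw [h3 e j hj, hc]
      push_cast
      have := knm_tri _ _ _ _ _ (he 0) (k3 _ (knm_box e he) j hj) (k6 e he j hj)
      convert this using 1
      · congr 1
        ring
      · ring

theorem kkeep_err (g : ℕ → ℕ → ℕ) (L J sh : ℕ) (hg : Nrm g L J sh) (q : P) (u : ℕ → ℕ)
    (h : knmI L J q u) (ho : okm (2 ^ (L - 1)) q = true) :
    Rep L J (keep g sh q 0) (fun _ j => ((u j / 2 ^ sh : ℕ) : ℝ)) := by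
  rcases h with ⟨rfl, h⟩ | ⟨m, rfl, h⟩
  · intro e j hj
    show ((u j / 2 ^ sh : ℕ) : ℝ) = 0
    rw [h j hj, Nat.zero_div, Nat.cast_zero]
  · have h1 : Nat.blt m (2 ^ (L - 1)) = true := ho
    rw [Nat.blt_eq] at h1
    have h2 := kkeep_leaf g L J sh m u (fun _ => 0) hg (fun j hj => ⟨h j hj, Nat.zero_le _⟩) h1
    rw [knm_pk_zero L J (fun _ => 0) fun _ _ => rfl] at h2
    obtain ⟨a, b, k1, k2, k3, k4⟩ := h2
    refine ⟨a, b, k1, k2, k3, fun e j hj => ?_⟩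
    rw [← k4 e j hj]
    simp

theorem kkeep_nil (L J : ℕ) (r : P) (R : Pt → ℕ → ℝ) (h : Rep L J r R) (hr : isNil r = true) :
    ∀ e j, j < J → R e j = 0 := by
  cases r with
  | nil => exact h
  | lf a b m => exact absurd hr (by simp [isNil])
  | cons c r => exact absurd hr (by simp [isNil])

theorem kkeep_zero (g : ℕ → ℕ → ℕ) (L J : ℕ) (hg : Nrm g L J 0) (p : P) (d : ℕ)
    (F : Pt → ℕ → ℝ) (hF : Rep L J p F) (ho : okm (2 ^ (L - 1)) p = true) (hd : dg p d = true) :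
    Rep L J (keep g 0 p d) F := by
  induction p generalizing F d with
  | nil => exact hF
  | lf a b m =>
    obtain ⟨u, v, rfl, rfl, h3, h4⟩ := hF
    have h1 : Nat.blt m (2 ^ (L - 1)) = true := ho
    rw [Nat.blt_eq] at h1
    obtain ⟨a, b, k1, k2, k3, k4⟩ := kkeep_leaf g L J 0 m u v hg h3 h1
    refine ⟨a, b, k1, k2, k3, fun e j hj => ?_⟩
    rw [← k4 e j hj, h4 e j hj]
    simp only [pow_zero, Nat.div_one]
    rcases le_total (u j) (v j) with h | h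
    · rw [Nat.sub_eq_zero_of_le h, Nat.cast_sub h]; simp
    · rw [Nat.sub_eq_zero_of_le h, Nat.cast_sub h]; simp
  | cons c r ic ir =>
    obtain ⟨C, R, h1, h2, h3⟩ := hF
    have ho' : band (okm (2 ^ (L - 1)) c) (okm (2 ^ (L - 1)) r) = true := ho
    rw [kkeep_band] at ho'
    cases d with
    | zero =>
      have hd' : band (dg c 0) (isNil r) = true := hd
      rw [kkeep_band] at hd'
      exact ⟨C, R, ic 0 C h1 ho'.1 hd'.1, kkeep_nil L J r R h2 hd'.2, h3⟩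
    | succ d =>
      have hd' : band (dg c (d + 1)) (dg r d) = true := hd
      rw [kkeep_band] at hd'
      exact ⟨C, R, ic (d + 1) C h1 ho'.1 hd'.1, ir d R h2 ho'.2 hd'.2, h3⟩

theorem keep_ok (h_alg : S_alg) : S_keep := by
  refine ⟨fun g L J sh d p F hg hF ho hc => ?_,
    fun g L J d p F hg hF ho hd => kkeep_zero g L J hg p d F hF ho hd⟩
  obtain ⟨T, u, k1, k2, k3⟩ := kkeep_main g L J sh hg p d F hF ho
  have k4 := kkeep_err g L J sh hg _ u k2 hc
  have k5 : Rep L J (P.lf (Nat.mul (Nat.succ (cnt p d)) (pk L J (fun _ => 1))) 0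
      (Nat.succ (cnt p d))) (fun _ _ => (cnt p d : ℝ) + 1) := by
    refine ⟨fun _ => cnt p d + 1, fun _ => 0, ?_, (knm_pk_zero L J _ fun _ _ => rfl).symm,
      fun j _ => ⟨le_rfl, Nat.zero_le _⟩, fun e j _ => by simp⟩
    show (cnt p d + 1) * pk L J (fun _ => 1) = _
    unfold pk
    rw [Finset.mul_sum]
    exact Finset.sum_congr rfl fun j _ => by ring
  refine ⟨T, fun j => (cnt p d : ℝ) + 1 + ((u j / 2 ^ sh : ℕ) : ℝ), k1,
    h_alg.addL L J _ _ _ _ _ _ k5 k4, fun e he j hj => ?_⟩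
  have := (kkeep_floor (u j) sh).2
  have := k3 e he j hj
  linarith

end Vale.Agent.P098.Ck
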