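import Vale.Agent.P098.CkSem

/-!
# P098: norms and truncations in the checker
-/

open Finset

noncomputable section
namespace Vale.Agent.P098.Ck

/-- `q` is empty or a leaf with nonnegative digits `u`. -/
def knmI (L J : ℕ) (q : P) (u : ℕ → ℕ) : Prop :=
  (q = P.nil ∧ ∀ j, j < J → u j = 0) ∨ ∃ m, q = P.lf (pk L J u) 0 m ∧ ∀ j, j < J → u j ≤ m

theorem knm_pk_add (L J : ℕ) (u v : ℕ → ℕ) :
    pk L J (fun j => u j + v j) = pk L J u + pk L J v := by
  unfold pk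
  rw [← Finset.sum_add_distrib]
  exact Finset.sum_congr rfl fun j _ => by ring

theorem knm_pk_zero (L J : ℕ) (u : ℕ → ℕ) (h : ∀ j, j < J → u j = 0) : pk L J u = 0 := by
  unfold pk
  exact Finset.sum_eq_zero fun j hj => by rw [h j (Finset.mem_range.mp hj), zero_mul]

theorem knm_padd (L J : ℕ) (q q' : P) (u u' : ℕ → ℕ) (h : knmI L J q u) (h' : knmI L J q' u') :
    knmI L J (padd q q') (fun j => u j + u' j) := by
  rcases h with ⟨rfl, h⟩ | ⟨m, rfl, h⟩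
  · rcases h' with ⟨rfl, h'⟩ | ⟨m', rfl, h'⟩
    · exact Or.inl ⟨rfl, fun j hj => by have := h j hj; have := h' j hj; show u j + u' j = 0; omega⟩
    · refine Or.inr ⟨m', ?_, fun j hj => ?_⟩
      · rw [knm_pk_add, knm_pk_zero L J u h, zero_add]; rfl
      · have := h j hj; have := h' j hj; show u j + u' j ≤ m'; omega
  · rcases h' with ⟨rfl, h'⟩ | ⟨m', rfl, h'⟩
    · refine Or.inr ⟨m, ?_, fun j hj => ?_⟩
      · rw [knm_pk_add, knm_pk_zero L J u' h', add_zero]; rfl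
      · have := h j hj; have := h' j hj; show u j + u' j ≤ m; omega
    · refine Or.inr ⟨m + m', ?_, fun j hj => Nat.add_le_add (h j hj) (h' j hj)⟩
      rw [knm_pk_add]; rfl

theorem knm_va (L J : ℕ) (q : P) (u : ℕ → ℕ) (h : knmI L J q u) : va q = pk L J u := by
  rcases h with ⟨rfl, h⟩ | ⟨m, rfl, _⟩
  · rw [knm_pk_zero L J u h]; rfl
  · rfl

theorem knm_rep (L J : ℕ) (q : P) (u : ℕ → ℕ) (h : knmI L J q u) :
    Rep L J q (fun _ j => (u j : ℝ)) := by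
  rcases h with ⟨rfl, h⟩ | ⟨m, rfl, h⟩
  · intro e j hj
    show (u j : ℝ) = 0
    rw [h j hj, Nat.cast_zero]
  · refine ⟨u, fun _ => 0, rfl, (knm_pk_zero L J _ fun _ _ => rfl).symm,
      fun j hj => ⟨h j hj, Nat.zero_le _⟩, fun e j _ => ?_⟩
    simp

theorem knm_okm (L J : ℕ) (q : P) (u : ℕ → ℕ) (h : knmI L J q u) (M : ℕ) (hM : 0 < M)
    (ho : okm M q = true) (j : ℕ) (hj : j < J) : u j < M := by
  rcases h with ⟨rfl, h⟩ | ⟨m, rfl, h⟩
  · rw [h j hj]; exact hM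
  · have h1 : Nat.blt m M = true := ho
    rw [Nat.blt_eq] at h1
    exact lt_of_le_of_lt (h j hj) h1

theorem knm_box (e : Pt) (h : Box e) : Box (tl e) := fun n => h (n + 1)

theorem knm_tri (x y t a b : ℝ) (ht : |t| ≤ 1) (hx : |x| ≤ a) (hy : |y| ≤ b) :
    |x + t * y| ≤ a + b := by
  have h1 : |t * y| ≤ b := by
    rw [abs_mul]
    calc |t| * |y| ≤ 1 * |y| := mul_le_mul_of_nonneg_right ht (abs_nonneg _)
      _ ≤ b := by rw [one_mul]; exact hy
  exact (abs_add_le _ _).trans (add_le_add hx h1)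

theorem knm_nm (L J : ℕ) (p : P) (F : Pt → ℕ → ℝ) (hF : Rep L J p F) :
    ∃ u : ℕ → ℕ, knmI L J (nm p) u ∧ ∀ e, Box e → ∀ j, j < J → |F e j| ≤ (u j : ℝ) := by
  induction p generalizing F with
  | nil =>
    refine ⟨fun _ => 0, Or.inl ⟨rfl, fun _ _ => rfl⟩, fun e _ j hj => ?_⟩
    have : F e j = 0 := hF e j hj
    simp [this]
  | lf a b m =>
    obtain ⟨u, v, h1, h2, h3, h4⟩ := hF
    refine ⟨fun j => u j + v j, Or.inr ⟨m + m, ?_, fun j hj =>
      Nat.add_le_add (h3 j hj).1 (h3 j hj).2⟩, fun e _ j hj => ?_⟩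
    · rw [knm_pk_add, ← h1, ← h2]; rfl
    · rw [h4 e j hj]
      push_cast
      have k1 : (0 : ℝ) ≤ u j := Nat.cast_nonneg _
      have k2 : (0 : ℝ) ≤ v j := Nat.cast_nonneg _
      rw [abs_le]
      constructor <;> linarith
  | cons c r ic ir =>
    obtain ⟨C, R, h1, h2, h3⟩ := hF
    obtain ⟨u, k1, k2⟩ := ic C h1
    obtain ⟨v, k3, k4⟩ := ir R h2
    refine ⟨_, knm_padd L J _ _ u v k1 k3, fun e he j hj => ?_⟩
    rw [h3 e j hj]
    push_cast
    exact knm_tri _ _ _ _ _ (he 0) (k2 _ (knm_box e he) j hj) (k4 e he j hj)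

theorem knm_trcr (L J : ℕ) (p : P) (d : ℕ) (F : Pt → ℕ → ℝ) (hF : Rep L J p F) :
    ∃ (T : Pt → ℕ → ℝ) (u : ℕ → ℕ), Rep L J (tr p d) T ∧ knmI L J (cr p d) u ∧
      ∀ e, Box e → ∀ j, j < J → |F e j - T e j| ≤ (u j : ℝ) := by
  induction p generalizing F d with
  | nil =>
    refine ⟨F, fun _ => 0, hF, Or.inl ⟨rfl, fun _ _ => rfl⟩, fun e _ j _ => ?_⟩
    simp
  | lf a b m =>
    refine ⟨F, fun _ => 0, hF, Or.inl ⟨rfl, fun _ _ => rfl⟩, fun e _ j _ => ?_⟩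
    simp
  | cons c r ic ir =>
    obtain ⟨C, R, h1, h2, h3⟩ := hF
    cases d with
    | zero =>
      obtain ⟨T, u, k1, k2, k3⟩ := ic 0 C h1
      obtain ⟨v, k4, k5⟩ := knm_nm L J r R h2
      refine ⟨fun e j => T (tl e) j + e 0 * 0, _,
        ⟨T, fun _ _ => 0, k1, fun _ _ _ => rfl, fun _ _ _ => rfl⟩,
        knm_padd L J _ _ u v k2 k4, fun e he j hj => ?_⟩
      rw [h3 e j hj]
      push_cast
      have := knm_tri _ _ _ _ _ (he 0) (k3 _ (knm_box e he) j hj) (k5 e he j hj)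
      convert this using 2
      ring
    | succ d =>
      obtain ⟨T, u, k1, k2, k3⟩ := ic (d + 1) C h1
      obtain ⟨T', v, k4, k5, k6⟩ := ir d R h2
      refine ⟨fun e j => T (tl e) j + e 0 * T' e j, _, ⟨T, T', k1, k4, fun _ _ _ => rfl⟩,
        knm_padd L J _ _ u v k2 k5, fun e he j hj => ?_⟩
      rw [h3 e j hj]
      push_cast
      have := knm_tri _ _ _ _ _ (he 0) (k3 _ (knm_box e he) j hj) (k6 e he j hj)
      convert this using 2
      ring

theorem nm_ok (h_alg : S_alg) : S_nm := by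
  refine ⟨fun L J p F hF => ?_, fun L J d p F hF => ?_⟩
  · obtain ⟨u, k1, k2⟩ := knm_nm L J p F hF
    exact ⟨u, knm_va L J _ u k1, knm_rep L J _ u k1, k2, knm_okm L J _ u k1⟩
  · obtain ⟨T, u, k1, k2, k3⟩ := knm_trcr L J p d F hF
    exact ⟨T, fun j => (u j : ℝ), k1, knm_rep L J _ u k2, k3⟩

end Vale.Agent.P098.Ck
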