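import Vale.Agent.P098.CkSem

/-!
# P098: digitwise normalisation
-/

open Finset

noncomputable section
namespace Vale.Agent.P098.Ck

theorem knzs_succ (L J : ℕ) (u : ℕ → ℕ) : pk L (J + 1) u = 2 ^ (L * J) * u J + pk L J u := by
  unfold pk
  rw [Finset.sum_range_succ]
  ring

theorem knzs_lt (L J : ℕ) (u : ℕ → ℕ) (h : ∀ j, j < J → u j < 2 ^ L) : pk L J u < 2 ^ (L * J) := by
  induction J with
  | zero => simp [pk]
  | succ J ih =>
    rw [knzs_succ, Nat.mul_succ, pow_add]
    have h1 := ih fun j hj => h j (by omega)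
    have h2 : u J + 1 ≤ 2 ^ L := h J (by omega)
    have h3 := Nat.mul_le_mul_left (2 ^ (L * J)) h2
    rw [Nat.mul_add, Nat.mul_one] at h3
    omega

theorem knzs_congr (L J : ℕ) (u v : ℕ → ℕ) (h : ∀ j, j < J → u j = v j) : pk L J u = pk L J v := by
  unfold pk
  exact Finset.sum_congr rfl fun j hj => by rw [h j (Finset.mem_range.mp hj)]

theorem knzs_add (L J : ℕ) (u v : ℕ → ℕ) :
    pk L J (fun j => u j + v j) = pk L J u + pk L J v := by
  unfold pk
  rw [← Finset.sum_add_distrib]
  exact Finset.sum_congr rfl fun j _ => by ring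

theorem knzs_mul (L J k : ℕ) (u : ℕ → ℕ) : pk L J (fun j => u j * k) = pk L J u * k := by
  unfold pk
  rw [Finset.sum_mul]
  exact Finset.sum_congr rfl fun j _ => by ring

theorem knzs_bit (L J : ℕ) (hL : 0 < L) (u : ℕ → ℕ) (h : ∀ j, j < J → u j < 2 ^ L) (n : ℕ) :
    (pk L J u).testBit n = (decide (n / L < J) && (u (n / L)).testBit (n % L)) := by
  induction J with
  | zero => simp [pk]
  | succ J ih =>
    have h1 : ∀ j, j < J → u j < 2 ^ L := fun j hj => h j (by omega)
    rw [knzs_succ, Nat.testBit_two_pow_mul_add _ (knzs_lt L J u h1)]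
    have hd : n / L < J ↔ n < L * J := by
      rw [Nat.div_lt_iff_lt_mul hL, Nat.mul_comm]
    split_ifs with hn
    · rw [ih h1]
      have k1 := hd.mpr hn
      have k2 : n / L < J + 1 := by omega
      simp [k1, k2]
    · have k1 : J ≤ n / L := by
        by_contra hh
        exact hn (hd.mp (by omega))
      rcases k1.eq_or_lt with k2 | k2
      · have k3 : n - L * J = n % L := by
          have := Nat.div_add_mod n L
          rw [← k2] at this
          omega
        have k4 : n / L < J + 1 := by omega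
        rw [k3, ← k2]
        simp
      · have k3 : ¬ n / L < J + 1 := by omega
        have k4 : L * (J + 1) ≤ n := by
          have := Nat.div_add_mod n L
          have := Nat.mul_le_mul_left L (show J + 1 ≤ n / L from k2)
          omega
        rw [Nat.mul_succ] at k4
        have k5 : u J < 2 ^ (n - L * J) :=
          lt_of_lt_of_le (h J (by omega)) (Nat.pow_le_pow_right (by norm_num) (by omega))
        rw [Nat.testBit_lt_two_pow k5]
        simp [k3]

theorem knzs_and (L J : ℕ) (hL : 0 < L) (x y : ℕ → ℕ) (hx : ∀ j, j < J → x j < 2 ^ L)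
    (hy : ∀ j, j < J → y j < 2 ^ L) : pk L J x &&& pk L J y = pk L J (fun j => x j &&& y j) := by
  apply Nat.eq_of_testBit_eq
  intro n
  rw [Nat.testBit_and, knzs_bit L J hL x hx, knzs_bit L J hL y hy,
    knzs_bit L J hL _ fun j hj => lt_of_le_of_lt Nat.and_le_left (hx j hj), Nat.testBit_and]
  cases decide (n / L < J) <;> simp

theorem knzs_shift (L J k m : ℕ) (hL : 0 < L) (hk : k + m ≤ L) (x : ℕ → ℕ)
    (hx : ∀ j, j < J → x j < 2 ^ L) :
    (pk L J x >>> k) &&& pk L J (fun _ => 2 ^ m - 1) = pk L J (fun j => x j / 2 ^ k % 2 ^ m) := by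
  have hm : 2 ^ m ≤ 2 ^ L := Nat.pow_le_pow_right (by norm_num) (by omega)
  have hp : 0 < 2 ^ m := by positivity
  apply Nat.eq_of_testBit_eq
  intro n
  rw [Nat.testBit_and, Nat.testBit_shiftRight, knzs_bit L J hL x hx,
    knzs_bit L J hL _ fun j _ => by omega,
    knzs_bit L J hL _ fun j _ => lt_of_lt_of_le (Nat.mod_lt _ hp) hm,
    Nat.testBit_two_pow_sub_one, Nat.testBit_mod_two_pow, Nat.testBit_div_two_pow]
  by_cases hn : n % L < m
  · have e : k + n = L * (n / L) + (n % L + k) := by
      have := Nat.div_add_mod n L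
      omega
    have e1 : (k + n) / L = n / L := by
      rw [e, Nat.mul_add_div hL, Nat.div_eq_of_lt (show n % L + k < L by omega), add_zero]
    have e2 : (k + n) % L = n % L + k := by
      rw [e, Nat.mul_add_mod, Nat.mod_eq_of_lt (show n % L + k < L by omega)]
    rw [e1, e2]
    cases decide (n / L < J) <;> simp [hn]
  · simp [hn]

theorem knzs_ones (L J : ℕ) (hL : 0 < L) : ones L J = pk L J (fun _ => 1) := by
  have h1 : 1 < 2 ^ L := Nat.one_lt_two_pow hL.ne'
  have h2 : pk L J (fun _ => 1) * (2 ^ L - 1) + 1 = 2 ^ (L * J) := by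
    induction J with
    | zero => simp [pk]
    | succ J ih =>
      rw [knzs_succ, Nat.add_mul, add_assoc, ih, Nat.mul_one, Nat.mul_succ L J, pow_add]
      obtain ⟨t, ht⟩ : ∃ t, 2 ^ L = t + 1 := ⟨2 ^ L - 1, by omega⟩
      rw [ht, Nat.add_sub_cancel]
      ring
  show (2 ^ (L * J) - 1) / (2 ^ L - 1) = _
  rw [← h2, Nat.add_sub_cancel, Nat.mul_div_cancel _ (by omega)]

theorem knzs_nzs (L J sh : ℕ) (hL : 0 < L) (hs : sh ≤ L) : Nrm (nzs L J sh) L J sh := by
  intro u v h
  have hH : 2 ^ L = 2 ^ (L - 1) * 2 := by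
    rw [← pow_succ, Nat.sub_add_cancel hL]
  have hp : 0 < 2 ^ (L - 1) := by positivity
  have hc : pk L J u + (pk L J (fun _ => 1)) <<< (L - 1) - pk L J v =
      pk L J (fun j => u j + 2 ^ (L - 1) - v j) := by
    rw [Nat.shiftLeft_eq, ← knzs_mul, ← knzs_add]
    have : pk L J (fun j => u j + 1 * 2 ^ (L - 1)) =
        pk L J (fun j => (u j + 2 ^ (L - 1) - v j) + v j) :=
      knzs_congr L J _ _ fun j hj => by have := h j hj; omega
    rw [this, knzs_add, Nat.add_sub_cancel]
  have hcl : ∀ j, j < J → u j + 2 ^ (L - 1) - v j < 2 ^ L := fun j hj => by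
    have := h j hj; omega
  have hs1 : (pk L J (fun j => u j + 2 ^ (L - 1) - v j) >>> (L - 1)) &&& pk L J (fun _ => 1) =
      pk L J (fun j => if v j ≤ u j then 1 else 0) := by
    have := knzs_shift L J (L - 1) 1 hL (by omega) _ hcl
    refine this.trans (knzs_congr L J _ _ fun j hj => ?_)
    have k := h j hj
    split_ifs with hh
    · have : (u j + 2 ^ (L - 1) - v j) / 2 ^ (L - 1) = 1 := by
        rw [Nat.div_eq_iff hp]; omega
      rw [this]
      norm_num
    · rw [Nat.div_eq_of_lt (by omega), Nat.zero_mod]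
  have hs2 : (pk L J (fun j => if v j ≤ u j then 1 else 0)) <<< (L - 1) -
      pk L J (fun j => if v j ≤ u j then 1 else 0) =
      pk L J (fun j => if v j ≤ u j then 2 ^ (L - 1) - 1 else 0) := by
    rw [Nat.shiftLeft_eq, ← knzs_mul]
    have : pk L J (fun j => (if v j ≤ u j then 1 else 0) * 2 ^ (L - 1)) =
        pk L J (fun j => (if v j ≤ u j then 2 ^ (L - 1) - 1 else 0) +
          (if v j ≤ u j then 1 else 0)) :=
      knzs_congr L J _ _ fun j _ => by split_ifs <;> omega
    rw [this, knzs_add, Nat.add_sub_cancel]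
  have hs3 : pk L J (fun j => u j + 2 ^ (L - 1) - v j) &&&
      pk L J (fun j => if v j ≤ u j then 2 ^ (L - 1) - 1 else 0) = pk L J (fun j => u j - v j) := by
    rw [knzs_and L J hL _ _ hcl fun j _ => by split_ifs <;> omega]
    refine knzs_congr L J _ _ fun j hj => ?_
    have k := h j hj
    split_ifs with hh
    · rw [Nat.and_two_pow_sub_one_eq_mod]
      have : u j + 2 ^ (L - 1) - v j = (u j - v j) + 2 ^ (L - 1) := by omega
      rw [this, Nat.add_mod_right, Nat.mod_eq_of_lt (by omega)]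
    · rw [Nat.and_zero]; omega
  have hs4 : (2 ^ (L - sh) - 1) * pk L J (fun _ => 1) = pk L J (fun _ => 2 ^ (L - sh) - 1) := by
    rw [Nat.mul_comm, ← knzs_mul]
    exact knzs_congr L J _ _ fun j _ => Nat.one_mul _
  have hw : ∀ j, j < J → u j - v j < 2 ^ L := fun j hj => by have := h j hj; omega
  show (((pk L J u + ones L J <<< (L - 1) - pk L J v) &&&
      ((((pk L J u + ones L J <<< (L - 1) - pk L J v) >>> (L - 1)) &&& ones L J) <<< (L - 1) -
        (((pk L J u + ones L J <<< (L - 1) - pk L J v) >>> (L - 1)) &&& ones L J))) >>> sh) &&&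
      ((2 ^ (L - sh) - 1) * ones L J) = _
  rw [knzs_ones L J hL, hc, hs1, hs2, hs3, hs4, knzs_shift L J sh (L - sh) hL (by omega) _ hw]
  refine knzs_congr L J _ _ fun j hj => Nat.mod_eq_of_lt ?_
  rw [Nat.div_lt_iff_lt_mul (by positivity), ← pow_add, Nat.sub_add_cancel hs]
  exact hw j hj

theorem nzs_ok : S_nzs := ⟨knzs_ones, knzs_nzs⟩

end Vale.Agent.P098.Ck
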