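import Vale.Agent.P098.CkSem

/-!
# P098: the first stage of the checker and the subdivision tree
-/

open Finset

noncomputable section
namespace Vale.Agent.P098.Ck

theorem kpair0_band {a b : Bool} (h : band a b = true) : a = true ∧ b = true := by
  cases a <;> cases b <;> first | exact ⟨rfl, rfl⟩ | exact absurd h (by decide)

theorem kpair0_band' {a b : Bool} (ha : a = true) (hb : b = true) : band a b = true := by
  subst ha hb
  rfl

theorem kpair0_HG : HG = 2 ^ (256 - 1) := by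
  unfold HG
  norm_num

theorem kpair0_Qf (c : ℝ) (M v : ℕ → ℝ) : Qf (fun k => c * M k) v = c * Qf M v := by
  unfold Qf qf
  ring

theorem pair0_ok (h_alg : S_alg) (h_nm : S_nm) (h_nzs : S_nzs) (h_keep : S_keep)
    (h_pair1 : S_pair1) : S_pair0 := by
  intro D S Sf Gs n0 n1 n2 n3 n4 s w Gf hS hok hG h e e' he he' v
  unfold pair0 at h
  obtain ⟨h1, h2⟩ := kpair0_band h
  obtain ⟨h3, h4⟩ := kpair0_band h1
  obtain ⟨h5, h6⟩ := kpair0_band h3
  obtain ⟨k0, h4⟩ := kpair0_band h4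
  obtain ⟨k1, h4⟩ := kpair0_band h4
  obtain ⟨k2, h4⟩ := kpair0_band h4
  obtain ⟨k3, k4⟩ := kpair0_band h4
  rw [kpair0_HG] at h5 h6
  obtain ⟨T, N, hT, hN, hTN⟩ := h_keep.keep (nzs 256 50 158) 256 50 158 D Gs Gf
    (h_nzs.nzs 256 50 158 (by norm_num) (by norm_num)) hG h5 h6
  obtain ⟨T', N', hT', hN', hTN'⟩ := h_nm.trcr 256 50 5 _ T hT
  rw [← h_nzs.ones 256 50 (by norm_num)] at hN
  have hE := h_alg.padd 256 50 _ _ _ _ hN hN'
  have h7 := h_pair1 S Sf _ _ n0 n1 n2 n3 n4 s w T' (fun j => N j + N' j) k0 k1 k2 k3 k4 hS hok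
    hT' hE h2 e e' (fun j => Gf e j / 2 ^ 158) he he' (fun j hj => by
      have a1 := hTN e he j hj
      have a2 := hTN' e he j hj
      calc |Gf e j / 2 ^ 158 - T' e j| = |(Gf e j / 2 ^ 158 - T e j) + (T e j - T' e j)| := by
            congr 1
            ring
        _ ≤ |Gf e j / 2 ^ 158 - T e j| + |T e j - T' e j| := abs_add_le _ _
        _ ≤ N j + N' j := add_le_add a1 a2) v
  have h8 : (fun k => ∑ j ∈ range 50, Gf e j * Sf j e' k) =
      fun k => 2 ^ 126 * ∑ j ∈ range 50, Gf e j / 2 ^ 158 * (2 ^ 32 * Sf j e' k) := by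
    funext k
    rw [Finset.mul_sum]
    refine Finset.sum_congr rfl fun j _ => ?_
    have : (2 : ℝ) ^ 158 = 2 ^ 126 * 2 ^ 32 := by rw [← pow_add]
    rw [this]
    field_simp
  rw [h8, kpair0_Qf]
  exact mul_le_mul_of_nonneg_left h7 (by positivity)

theorem kpair0_out {G : Pt → ℕ → ℝ} {A : (ℕ → ℝ) → Prop} {S : ℕ → ℕ → ℝ}
    {l0 h0 l1 h1 l2 h2 : ℕ} (h : outside l0 h0 l1 l2 = true) :
    Good3 G A S l0 h0 l1 h1 l2 h2 := by
  intro t0 t1 t2 a0 a1 a2 hD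
  exfalso
  obtain ⟨d0, d1, d2, d3⟩ := hD
  obtain ⟨a0, b0⟩ := a0
  obtain ⟨a1, -⟩ := a1
  obtain ⟨a2, -⟩ := a2
  have h' : 25 * ((512 - l1) * (512 - l1)) * (262144 - l2 * l2) <
      l1 * l1 * (25 * ((512 - h0) * (512 - h0)) + 4 * (l0 * l0)) := by
    unfold outside at h
    exact Nat.blt_eq.mp h
  have c1 : l1 ≤ 512 := by exact_mod_cast a1.trans d1
  have c2 : l2 ≤ 512 := by exact_mod_cast a2.trans d2
  have c3 : l2 * l2 ≤ 262144 := Nat.mul_le_mul c2 c2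
  have c4 : ((512 - h0 : ℕ) : ℝ) ≤ 512 - t0 := by
    rcases le_total h0 512 with c | c
    · rw [Nat.cast_sub c]
      push_cast
      linarith
    · rw [Nat.sub_eq_zero_of_le c]
      push_cast
      linarith
  have h'' : (25 : ℝ) * ((512 - l1) * (512 - l1)) * (262144 - l2 * l2) <
      l1 * l1 * (25 * (((512 - h0 : ℕ) : ℝ) * ((512 - h0 : ℕ) : ℝ)) + 4 * (l0 * l0)) := by
    have := (Nat.cast_lt (α := ℝ)).mpr h'
    rw [Nat.cast_mul, Nat.cast_mul, Nat.cast_mul, Nat.cast_sub c1, Nat.cast_sub c3] at this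
    push_cast at this ⊢
    exact this
  have p0 : (0 : ℝ) ≤ l0 := Nat.cast_nonneg _
  have p1 : (0 : ℝ) ≤ l1 := Nat.cast_nonneg _
  have p2 : (0 : ℝ) ≤ l2 := Nat.cast_nonneg _
  have p3 : (0 : ℝ) ≤ ((512 - h0 : ℕ) : ℝ) := Nat.cast_nonneg _
  have q1 : (l1 : ℝ) * l1 * (25 * (((512 - h0 : ℕ) : ℝ) * ((512 - h0 : ℕ) : ℝ)) + 4 * (l0 * l0)) ≤
      t1 ^ 2 * (25 * (512 - t0) ^ 2 + 4 * t0 ^ 2) := by
    rw [pow_two, pow_two, pow_two]
    have e1 : (l1 : ℝ) * l1 ≤ t1 * t1 := mul_self_le_mul_self p1 a1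
    have e2 := mul_self_le_mul_self p3 c4
    have e3 : (l0 : ℝ) * l0 ≤ t0 * t0 := mul_self_le_mul_self p0 a0
    exact mul_le_mul e1 (by linarith) (by positivity) (mul_self_nonneg _)
  have q2 : 25 * (512 - t1) ^ 2 * (262144 - t2 ^ 2) ≤
      (25 : ℝ) * ((512 - l1) * (512 - l1)) * (262144 - l2 * l2) := by
    rw [pow_two, pow_two]
    have e1 : (512 - t1) * (512 - t1) ≤ ((512 : ℝ) - l1) * (512 - l1) :=
      mul_self_le_mul_self (by linarith) (by linarith)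
    have e2 : (l2 : ℝ) * l2 ≤ t2 * t2 := mul_self_le_mul_self p2 a2
    have e3 : t2 * t2 ≤ 512 * 512 := mul_self_le_mul_self (p2.trans a2) d2
    exact mul_le_mul (by linarith) (by linarith) (by linarith)
      (mul_nonneg (by norm_num) (mul_self_nonneg _))
  linarith

theorem kpair0_par {l h : ℕ} {t : ℝ} (ht : In l h t) :
    ∃ s : ℝ, |s| ≤ 1 ∧ (l : ℝ) + h + ((h - l : ℕ) : ℝ) * s = 2 * t := by
  obtain ⟨a, b⟩ := ht
  have c : l ≤ h := by exact_mod_cast a.trans b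
  rw [Nat.cast_sub c]
  rcases eq_or_lt_of_le (a.trans b) with d | d
  · refine ⟨0, by norm_num, ?_⟩
    linarith
  · have d' : (0 : ℝ) < h - l := by linarith
    refine ⟨(2 * t - l - h) / (h - l), ?_, ?_⟩
    · rw [abs_le, le_div_iff₀ d', div_le_iff₀ d']
      constructor <;> linarith
    · field_simp
      ring

theorem kpair0_box {a b c : ℝ} (ha : |a| ≤ 1) (hb : |b| ≤ 1) (hc : |c| ≤ 1) : Box (p3 a b c) := by
  intro n
  match n with
  | 0 => exact ha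
  | 1 => exact hb
  | 2 => exact hc
  | n + 3 =>
    show |(0 : ℝ)| ≤ 1
    norm_num

theorem kpair0_in {l h : ℕ} (m : ℕ) {t : ℝ} (ht : In l h t) : In l m t ∨ In m h t := by
  rcases le_total t m with c | c
  · exact Or.inl ⟨ht.1, c⟩
  · exact Or.inr ⟨c, ht.2⟩

theorem go_ok (h_sub : S_sub) (h_pair0 : S_pair0) : S_go := by
  intro D G Gf Z A S Sf hG hZ hS hok t
  induction t with
  | lf n s mu =>
    intro l0 h0 l1 h1 l2 h2 h e' he' t0 t1 t2 a0 a1 a2 _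
    obtain ⟨hz, z, hA, hz'⟩ := hZ mu
    obtain ⟨s0, b0, c0⟩ := kpair0_par a0
    obtain ⟨s1, b1, c1⟩ := kpair0_par a1
    obtain ⟨s2, b2, c2⟩ := kpair0_par a2
    refine ⟨z, hA, fun v => ?_⟩
    have hS' : RepS (SL.cons (Z mu) S) (fun j => Nat.casesOn j (fun _ => z) Sf) 50 :=
      ⟨49, rfl, hz', hS⟩
    have hok' : sok (SL.cons (Z mu) S) = true := kpair0_band' hz hok
    have h3 := h_pair0 D _ _ _ _ _ _ _ _ _ _ _ hS' hok'
      (h_sub.shift3 256 50 l0 h0 l1 h1 l2 h2 G Gf hG) h (p3 s0 s1 s2) e'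
      (kpair0_box b0 b1 b2) he' v
    have h4 : cs ((l0 : ℝ) + h0 + ((h0 - l0 : ℕ) : ℝ) * p3 s0 s1 s2 0)
        (cs ((l1 : ℝ) + h1 + ((h1 - l1 : ℕ) : ℝ) * p3 s0 s1 s2 1)
          (cs ((l2 : ℝ) + h2 + ((h2 - l2 : ℕ) : ℝ) * p3 s0 s1 s2 2)
            (tl (tl (tl (p3 s0 s1 s2)))))) = p3 (2 * t0) (2 * t1) (2 * t2) := by
      rw [← c0, ← c1, ← c2]
      rfl
    simp only [h4] at h3
    refine h3.trans (le_of_eq ?_)
    refine congrArg (fun M => Qf M v) (funext fun k => ?_)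
    rw [Finset.sum_range_succ', add_comm]
    rfl
  | skip =>
    intro l0 h0 l1 h1 l2 h2 h e' _
    exact kpair0_out h
  | sp i m l r ihl ihr =>
    intro l0 h0 l1 h1 l2 h2 h e' he' t0 t1 t2 a0 a1 a2 hD
    match i with
    | 0 =>
      obtain ⟨b1, b2⟩ := kpair0_band (a := go D G Z S l l0 m l1 h1 l2 h2)
        (b := go D G Z S r m h0 l1 h1 l2 h2) h
      rcases kpair0_in m a0 with c | c
      · exact ihl _ _ _ _ _ _ b1 e' he' t0 t1 t2 c a1 a2 hD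
      · exact ihr _ _ _ _ _ _ b2 e' he' t0 t1 t2 c a1 a2 hD
    | 1 =>
      obtain ⟨b1, b2⟩ := kpair0_band (a := go D G Z S l l0 h0 l1 m l2 h2)
        (b := go D G Z S r l0 h0 m h1 l2 h2) h
      rcases kpair0_in m a1 with c | c
      · exact ihl _ _ _ _ _ _ b1 e' he' t0 t1 t2 a0 c a2 hD
      · exact ihr _ _ _ _ _ _ b2 e' he' t0 t1 t2 a0 c a2 hD
    | i + 2 =>
      obtain ⟨b1, b2⟩ := kpair0_band (a := go D G Z S l l0 h0 l1 h1 l2 m)
        (b := go D G Z S r l0 h0 l1 h1 m h2) h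
      rcases kpair0_in m a2 with c | c
      · exact ihl _ _ _ _ _ _ b1 e' he' t0 t1 t2 a0 a1 c hD
      · exact ihr _ _ _ _ _ _ b2 e' he' t0 t1 t2 a0 a1 c hD

end Vale.Agent.P098.Ck
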