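import Vale.Agent.P098.CkSem

open Finset

noncomputable section
namespace Vale.Agent.P098.Ck

theorem kpair2_band {a b : Bool} (h : band a b = true) : a = true ∧ b = true := by
  cases a <;> cases b <;> first | exact ⟨rfl, rfl⟩ | exact absurd h (by decide)

theorem kpair2_HC : HC = 2 ^ (112 - 1) := by
  unfold HC
  norm_num

theorem pair2_ok (h_alg : S_alg) (h_nzs : S_nzs) (h_keep : S_keep) (h_cut : S_cut)
    (h_pair4 : S_pair4) : S_pair2 := by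
  intro T E n0 n1 n2 n3 n4 s w F N c k0 k1 k2 k3 k4 hT hE hc hv hw hp
  obtain ⟨Q, hQ⟩ : ∃ Q, Q = (n3 + 1) * (n4 + 1) := ⟨_, rfl⟩
  have e1 : Nat.mul 1792 Q = 112 * (16 * Q) := by
    rw [Nat.mul_eq]
    ring
  have e2 : Nat.add (Nat.mul 16 Q) 656 = 16 * Q + 656 := rfl
  have e3 : Nat.mul 16 Q = 16 * Q := rfl
  have hle : HC ≤ 2 ^ 112 := by
    rw [kpair2_HC]
    exact Nat.pow_le_pow_right (by norm_num) (by norm_num)
  rw [← hQ] at hT hp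
  unfold pair2 at hp
  rw [e1, e2] at hp
  obtain ⟨h1, h2⟩ := kpair2_band hp
  obtain ⟨h1, h3⟩ := kpair2_band h1
  obtain ⟨h1, h4⟩ := kpair2_band h1
  unfold pair3 at h2
  rw [e3, h_nzs.ones 112 656 (by norm_num), h_nzs.ones 112 (16 * Q) (by norm_num)] at h2
  obtain ⟨h5, h6⟩ := kpair2_band h2
  obtain ⟨h5, h7⟩ := kpair2_band h5
  obtain ⟨h5, h8⟩ := kpair2_band h5
  obtain ⟨h7, h9⟩ := kpair2_band h7
  have r1 := h_keep.keep0 _ 112 (16 * Q + 656) 5 T F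
    (h_nzs.nzs 112 (16 * Q + 656) 0 (by norm_num) (by norm_num)) hT (kpair2_HC ▸ h1) h4
  have r2 := h_cut.plo 112 (16 * Q) 656 _ F r1 (h_alg.okm_mono _ _ _ h3 hle)
  have r3 := h_cut.phi 112 (16 * Q) 656 _ F r1 (h_alg.okm_mono _ _ _ h3 hle)
  have r4 := h_cut.setm 112 (16 * Q) 86 _ _ r2 (h_alg.okm_mono _ _ _ h8 hle) (by norm_num) h9
  have r5 := h_cut.setm 112 656 74 _ _ r3 (h_alg.okm_mono _ _ _ h5 hle) (by norm_num) h7
  subst hQ
  exact h_pair4 _ E _ n0 n1 n2 n3 n4 s w _ F N c k0 k1 k2 k3 k4 r5 r4 hE hc hv hw h6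

end Vale.Agent.P098.Ck
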