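import Vale.Agent.P098.CkSem

/-!
# P098: the interpolation argument of the checker
-/

open Finset

noncomputable section
namespace Vale.Agent.P098.Ck

/-- The weights of the quadratic form. -/
def kpair4wt (v : ℕ → ℝ) : ℕ → ℝ
  | 0 => v 0 ^ 2
  | 1 => 2 * v 0 * v 1
  | 2 => 2 * v 0 * v 2
  | 3 => 2 * v 0 * v 3
  | 4 => 2 * v 0 * v 4
  | 5 => v 1 ^ 2
  | 6 => 2 * v 1 * v 2
  | 7 => 2 * v 1 * v 3
  | 8 => 2 * v 1 * v 4
  | 9 => v 2 ^ 2
  | 10 => 2 * v 2 * v 3
  | 11 => 2 * v 2 * v 4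
  | 12 => v 3 ^ 2
  | 13 => 2 * v 3 * v 4
  | 14 => v 4 ^ 2
  | 15 => v 5 ^ 2
  | _ => 0

theorem kpair4_qf (M v : ℕ → ℝ) : Qf M v = ∑ k ∈ range 16, kpair4wt v k * M k := by
  simp only [Qf, qf, sum_range_succ, sum_range_zero, kpair4wt]
  ring

theorem kpair4_abs (v : ℕ → ℝ) (k : ℕ) (hk : k < 16) :
    |kpair4wt v k| = kpair4wt (fun i => |v i|) k := by
  interval_cases k <;> simp [kpair4wt, abs_mul, abs_pow]

theorem kpair4_nonneg (v : ℕ → ℝ) (k : ℕ) (hk : k < 16) : 0 ≤ kpair4wt (fun i => |v i|) k := by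
  rw [← kpair4_abs v k hk]; exact abs_nonneg _

theorem kpair4_le (v M U : ℕ → ℝ) (h : ∀ k, k < 16 → |M k| ≤ U k) :
    ∑ k ∈ range 16, kpair4wt v k * M k ≤ ∑ k ∈ range 16, kpair4wt (fun i => |v i|) k * U k := by
  refine sum_le_sum fun k hk => ?_
  have hk' := mem_range.1 hk
  calc kpair4wt v k * M k ≤ |kpair4wt v k * M k| := le_abs_self _
    _ = kpair4wt (fun i => |v i|) k * |M k| := by rw [abs_mul, kpair4_abs v k hk']
    _ ≤ _ := mul_le_mul_of_nonneg_left (h k hk') (kpair4_nonneg v k hk')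

theorem kpair4_sum (n : ℕ) (f m u : ℕ → ℝ) (hf : ∀ t, t < n → |f t| ≤ u t)
    (hm : ∀ t, |m t| ≤ 1) : |∑ t ∈ range n, f t * m t| ≤ ∑ t ∈ range n, u t := by
  refine (abs_sum_le_sum_abs _ _).trans (sum_le_sum fun t ht => ?_)
  rw [abs_mul]
  calc |f t| * |m t| ≤ |f t| * 1 := mul_le_mul_of_nonneg_left (hm t) (abs_nonneg _)
    _ ≤ u t := by rw [mul_one]; exact hf t (mem_range.1 ht)

theorem kpair4_band {a b : Bool} (h : band a b = true) : a = true ∧ b = true := by
  cases a <;> cases b <;> first | exact ⟨rfl, rfl⟩ | exact absurd h (by decide)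

theorem kpair4_nok (n : ℕ) (h : nok n = true) :
    0 < n ∧ ∀ U : ℝ, U / (2 * (n : ℝ) ^ 2) = (sq n : ℝ) * U / 512 := by
  obtain ⟨h1, h2⟩ := kpair4_band h
  have h1' : n ≤ 8 := Nat.le_of_ble_eq_true h1
  have h2' : n * (16 / n) = 16 := Nat.eq_of_beq_eq_true h2
  have hs : sq n = (16 / n) * (16 / n) := rfl
  have hn : 0 < n := by
    rcases Nat.eq_zero_or_pos n with h0 | h0
    · subst h0; simp at h2'
    · exact h0
  refine ⟨hn, fun U => ?_⟩
  have hr : (n : ℝ) * ((16 / n : ℕ) : ℝ) = 16 := by exact_mod_cast h2'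
  have hn' : (n : ℝ) ≠ 0 := by positivity
  rw [hs, Nat.cast_mul]
  have hq : ((16 / n : ℕ) : ℝ) = 16 / (n : ℝ) := by
    rw [eq_div_iff hn', mul_comm]; exact hr
  rw [hq]
  field_simp
  ring

/-- The first three coordinates from `z`, the others from `e`. -/
def kpair4ph (e z : Pt) : Pt := fun n => if n < 3 then z n else e n

theorem kpair4_ph_lt (e z : Pt) (i : ℕ) (hi : i < 3) (t : ℝ) :
    kpair4ph e (Function.update z i t) = Function.update (kpair4ph e z) i t := by
  funext n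
  by_cases hn : n = i
  · subst hn; simp [kpair4ph, hi]
  · simp [kpair4ph, Function.update_of_ne hn]

theorem kpair4_ph_ge (e z : Pt) (i : ℕ) (hi : 3 ≤ i) (t : ℝ) :
    kpair4ph e (Function.update z i t) = kpair4ph e z := by
  funext n
  by_cases hn : n < 3
  · have : n ≠ i := by omega
    simp [kpair4ph, hn, Function.update_of_ne this]
  · simp [kpair4ph, hn]

theorem kpair4_ph_box (e z : Pt) (he : Box e) (hz : Box z) : Box (kpair4ph e z) := by
  intro n
  unfold kpair4ph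
  split_ifs
  · exact hz n
  · exact he n

theorem kpair4_der_lt (e v : ℕ → ℝ) (m : ℝ → ℝ → ℕ → ℝ) (F F' : Pt → ℕ → ℝ) (i : ℕ) (hi : i < 3)
    (h : ∀ e j, j < 656 → HasDerivAt (fun t => F (Function.update e i t) j) (F' e j) (e i))
    (z : Pt) :
    HasDerivAt (fun s => ∑ k ∈ range 16, kpair4wt v k * ∑ t ∈ range 21,
        F (kpair4ph e (Function.update z i s)) (41 * k + t) *
          m (Function.update z i s 3) (Function.update z i s 4) t)
      (∑ k ∈ range 16, kpair4wt v k * ∑ t ∈ range 21,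
        F' (kpair4ph e z) (41 * k + t) * m (z 3) (z 4) t) (z i) := by
  have h3 : (3 : ℕ) ≠ i := by omega
  have h4 : (4 : ℕ) ≠ i := by omega
  simp only [kpair4_ph_lt e z i hi, Function.update_of_ne h3, Function.update_of_ne h4]
  refine HasDerivAt.fun_sum fun k hk => HasDerivAt.const_mul _ ?_
  refine HasDerivAt.fun_sum fun t ht => HasDerivAt.mul_const ?_ _
  have hk' := mem_range.1 hk
  have ht' := mem_range.1 ht
  have hz : z i = kpair4ph e z i := by simp [kpair4ph, hi]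
  rw [hz]
  exact h _ _ (by omega)

theorem kpair4_ds_der (c : ℕ → ℕ → ℝ) (f : ℕ → ℕ → ℝ → ℝ) (f' : ℕ → ℕ → ℝ) (x : ℝ)
    (h : ∀ i j, HasDerivAt (f i j) (f' i j) x) :
    HasDerivAt (fun s => ds (fun i j => c i j * f i j s)) (ds (fun i j => c i j * f' i j)) x := by
  unfold ds
  exact HasDerivAt.fun_sum fun i _ => HasDerivAt.fun_sum fun j _ => (h i j).const_mul _

theorem kpair4_pow2 (i : ℕ) (x : ℝ) :
    HasDerivAt (fun s : ℝ => (i : ℝ) * s ^ (i - 1)) ((i : ℝ) * ((i : ℝ) - 1) * x ^ (i - 2)) x := by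
  have h := (hasDerivAt_pow (i - 1) x).const_mul (i : ℝ)
  refine h.congr_deriv ?_
  rcases i with _ | i
  · simp
  · have : i + 1 - 2 = i + 1 - 1 - 1 := by omega
    rw [this]
    simp only [Nat.add_sub_cancel, Nat.cast_add, Nat.cast_one]
    ring

/-- The five grid sizes. -/
def kpair4n (n0 n1 n2 n3 n4 : ℕ) : ℕ → ℕ
  | 0 => n0
  | 1 => n1
  | 2 => n2
  | 3 => n3
  | _ => n4

theorem kpair4_ds_mul (f : ℕ → ℕ → ℝ) (r : ℝ) : ds (fun i j => r * f i j) = r * ds f := by
  simp only [ds, mul_sum]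

theorem pair4_ok (h_alg : S_alg) (h_der : S_der) (h_nm : S_nm) (h_wco : S_wco)
    (h_interp : S_interp) (h_pair5 : S_pair5) : S_pair4 := by
  intro Tc E Tv n0 n1 n2 n3 n4 s w Fc Fv N c k0 k1 k2 k3 k4 hTc hTv hE hc0 hFv hFc hp e a b he ha hb v
  obtain ⟨m, m', hm, hsum⟩ := h_wco.sum
  choose F1 hF1 hD1 using fun i => h_der 112 656 i Tc Fc hTc
  choose F2 hF2 hD2 using fun i => h_der 112 656 i (der i Tc) (F1 i) (hF1 i)
  choose u _hu1 hu2 hu3 _hu4 using fun i => h_nm.nm 112 656 (der2 Tc i) (F2 i) (hF2 i)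
  have hA0 := h_alg.padd _ _ _ _ _ _ (h_alg.pmn _ _ (sq n0) _ _ (hu2 0))
    (h_alg.padd _ _ _ _ _ _ (h_alg.pmn _ _ (sq n1) _ _ (hu2 1)) (h_alg.pmn _ _ (sq n2) _ _ (hu2 2)))
  obtain ⟨ua, ha1, -, ha3, ha4⟩ := h_nm.nm _ _ _ _ hA0
  obtain ⟨ub, hb1, -, hb3, hb4⟩ := h_nm.nm _ _ _ _ hTc
  obtain ⟨uc, hc1, -, hc3, hc4⟩ := h_nm.nm _ _ _ _ hE
  have hp' := hp
  unfold pair4 at hp'
  have hp'' := hp'
  unfold pair5 at hp''
  obtain ⟨hq, -⟩ := kpair4_band hp''
  obtain ⟨hq1, hq2⟩ := kpair4_band hq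
  obtain ⟨hqa, -⟩ := kpair4_band hq1
  obtain ⟨hqb, hqc⟩ := kpair4_band hq2
  have hbd : ∀ t, t < 656 → ua t < 2 ^ 104 ∧ ub t < 2 ^ 96 ∧ uc t < 2 ^ 98 := fun t ht =>
    ⟨ha4 _ (Nat.two_pow_pos 104) hqa t ht, hb4 _ (Nat.two_pow_pos 96) hqb t ht,
      hc4 _ (Nat.two_pow_pos 98) hqc t ht⟩
  have H5 := h_pair5 _ _ _ _ n0 n1 n2 n3 n4 s w _ ua ub uc Fv ha1 hb1 hc1 hbd k0 k1 k2 hTv hp'
  clear hp hp' hp'' hq hq1 hq2 hqa hqb hqc ha1 hb1 hc1 ha4 hb4 hc4 hbd _hu1 _hu4 hA0 hu2
  -- the function and its derivatives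
  have hg : ∀ z : Pt, ∑ k ∈ range 16, kpair4wt v k *
      ds (fun i j => c (kpair4ph e z) k i j * (z 3 ^ i * z 4 ^ j)) =
      ∑ k ∈ range 16, kpair4wt v k * ∑ t ∈ range 21,
        Fc (kpair4ph e z) (41 * k + t) * m (z 3) (z 4) t := by
    intro z
    refine sum_congr rfl fun k hk => ?_
    rw [(hsum (z 3) (z 4) _ (hc0 (kpair4ph e z) k)).1]
    congr 1
    refine sum_congr rfl fun t ht => ?_
    rw [hFc _ k t (mem_range.1 hk) (by have := mem_range.1 ht; omega)]
  have key := h_interp 5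
    (fun z => ∑ k ∈ range 16, kpair4wt v k *
      ds (fun i j => c (kpair4ph e z) k i j * (z 3 ^ i * z 4 ^ j)))
    (fun i z => if i < 3 then ∑ k ∈ range 16, kpair4wt v k * ∑ t ∈ range 21,
        F1 i (kpair4ph e z) (41 * k + t) * m (z 3) (z 4) t
      else if i = 3 then ∑ k ∈ range 16, kpair4wt v k *
        ds (fun i j => c (kpair4ph e z) k i j * ((i : ℝ) * z 3 ^ (i - 1) * z 4 ^ j))
      else ∑ k ∈ range 16, kpair4wt v k *
        ds (fun i j => c (kpair4ph e z) k i j * (z 3 ^ i * ((j : ℝ) * z 4 ^ (j - 1)))))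
    (fun i z => if i < 3 then ∑ k ∈ range 16, kpair4wt v k * ∑ t ∈ range 21,
        F2 i (kpair4ph e z) (41 * k + t) * m (z 3) (z 4) t
      else if i = 3 then ∑ k ∈ range 16, kpair4wt v k *
        ds (fun i j => c (kpair4ph e z) k i j *
          ((i : ℝ) * ((i : ℝ) - 1) * z 3 ^ (i - 2) * z 4 ^ j))
      else ∑ k ∈ range 16, kpair4wt v k *
        ds (fun i j => c (kpair4ph e z) k i j *
          (z 3 ^ i * ((j : ℝ) * ((j : ℝ) - 1) * z 4 ^ (j - 2)))))
    (fun i => if i < 3 then ∑ k ∈ range 16, kpair4wt (fun i => |v i|) k *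
        ∑ t ∈ range 21, (u i (41 * k + t) : ℝ)
      else if i = 3 then ∑ k ∈ range 16, kpair4wt (fun i => |v i|) k *
        ∑ t ∈ range 10, (ub (41 * k + (21 + t)) : ℝ)
      else ∑ k ∈ range 16, kpair4wt (fun i => |v i|) k *
        ∑ t ∈ range 10, (ub (41 * k + (31 + t)) : ℝ))
    (kpair4n n0 n1 n2 n3 n4)
    (Qf (fun k => ((∑ t ∈ range 21, ua (41 * k + t) +
      sq n3 * ∑ t ∈ range 10, ub (41 * k + (21 + t)) +
      sq n4 * ∑ t ∈ range 10, ub (41 * k + (31 + t)) + 512 * uc (41 * k + 40) : ℕ) : ℝ))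
      (fun i => |v i|) / 512) ?_ ?_ ?_ ?_ ?_
    (fun n => if n = 3 then a else if n = 4 then b else e n) ?_
  · have hph : kpair4ph e (fun n => if n = 3 then a else if n = 4 then b else e n) = e := by
      funext n
      by_cases hn : n < 3
      · have h3 : n ≠ 3 := by omega
        have h4 : n ≠ 4 := by omega
        simp only [kpair4ph, hn, h3, h4, if_true, if_false]
      · simp only [kpair4ph, hn, if_false]
    simp only [hph, if_true, show ((4 : ℕ) = 3) = False by simp, if_false] at key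
    rw [kpair4_qf (fun k => ds (fun i j => c e k i j * (a ^ i * b ^ j)))]
    refine le_trans ?_ key
    simp only [sum_range_succ (n := 4), sum_range_succ (n := 3), sum_range_succ (n := 2),
      sum_range_succ (n := 1), sum_range_one, kpair4n, (kpair4_nok _ k0).2, (kpair4_nok _ k1).2,
      (kpair4_nok _ k2).2, (kpair4_nok _ k3).2, (kpair4_nok _ k4).2,
      show (0 : ℕ) < 3 by norm_num, show (1 : ℕ) < 3 by norm_num, show (2 : ℕ) < 3 by norm_num,
      show ¬ (3 : ℕ) < 3 by norm_num, show ¬ (4 : ℕ) < 3 by norm_num,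
      show ((4 : ℕ) = 3) = False by simp, if_true, if_false]
    rw [kpair4_qf, kpair4_qf]
    simp only [mul_sum (range 16), sum_div, ← sum_add_distrib, ← sum_sub_distrib]
    refine sum_le_sum fun k hk => ?_
    have hk' := mem_range.1 hk
    have hw := kpair4_nonneg v k hk'
    have h1 : |N (41 * k + 40)| ≤ (uc (41 * k + 40) : ℝ) := hc3 e he _ (by omega)
    have h2 : (sq n0 : ℝ) * ∑ t ∈ range 21, (u 0 (41 * k + t) : ℝ) +
        (sq n1 : ℝ) * ∑ t ∈ range 21, (u 1 (41 * k + t) : ℝ) +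
        (sq n2 : ℝ) * ∑ t ∈ range 21, (u 2 (41 * k + t) : ℝ) ≤
        ∑ t ∈ range 21, (ua (41 * k + t) : ℝ) := by
      simp only [mul_sum, ← sum_add_distrib]
      refine sum_le_sum fun t ht => ?_
      have ht' := mem_range.1 ht
      have := ha3 e he (41 * k + t) (by omega)
      have h' := le_trans (le_abs_self _) this
      linarith
    push_cast
    have h3 := mul_le_mul_of_nonneg_left h1 hw
    have h4 := mul_le_mul_of_nonneg_left h2 hw
    linarith
  · intro i hi
    refine ⟨?_, ?_⟩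
    · interval_cases i
      · exact (kpair4_nok _ k0).1
      · exact (kpair4_nok _ k1).1
      · exact (kpair4_nok _ k2).1
      · exact (kpair4_nok _ k3).1
      · exact (kpair4_nok _ k4).1
    · split_ifs <;>
        exact sum_nonneg fun k hk => mul_nonneg (kpair4_nonneg v k (mem_range.1 hk))
          (sum_nonneg fun t _ => Nat.cast_nonneg _)
  · intro i hi z
    by_cases h3 : i < 3
    · simp only [hg, h3, if_true]
      exact kpair4_der_lt e v m Fc (F1 i) i h3 (hD1 i) z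
    · by_cases h3' : i = 3
      · subst h3'
        simp only [h3, if_false, if_true, kpair4_ph_ge e z 3 le_rfl, Function.update_self,
          Function.update_of_ne (show (4 : ℕ) ≠ 3 by norm_num)]
        refine HasDerivAt.fun_sum fun k _ => HasDerivAt.const_mul _ ?_
        exact kpair4_ds_der _ (fun i j s => s ^ i * z 4 ^ j) _ _
          fun i j => (hasDerivAt_pow i (z 3)).mul_const _
      · have h4 : i = 4 := by omega
        subst h4
        simp only [h3, h3', if_false, kpair4_ph_ge e z 4 (by norm_num), Function.update_self,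
          Function.update_of_ne (show (3 : ℕ) ≠ 4 by norm_num)]
        refine HasDerivAt.fun_sum fun k _ => HasDerivAt.const_mul _ ?_
        exact kpair4_ds_der _ (fun i j s => z 3 ^ i * s ^ j) _ _
          fun i j => (hasDerivAt_pow j (z 4)).const_mul _
  · intro i hi z
    by_cases h3 : i < 3
    · simp only [h3, if_true]
      exact kpair4_der_lt e v m (F1 i) (F2 i) i h3 (hD2 i) z
    · by_cases h3' : i = 3
      · subst h3'
        simp only [h3, if_false, if_true, kpair4_ph_ge e z 3 le_rfl, Function.update_self,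
          Function.update_of_ne (show (4 : ℕ) ≠ 3 by norm_num)]
        refine HasDerivAt.fun_sum fun k _ => HasDerivAt.const_mul _ ?_
        exact kpair4_ds_der _ (fun i j s => (i : ℝ) * s ^ (i - 1) * z 4 ^ j) _ _
          fun i j => (kpair4_pow2 i (z 3)).mul_const _
      · have h4 : i = 4 := by omega
        subst h4
        simp only [h3, h3', if_false, kpair4_ph_ge e z 4 (by norm_num), Function.update_self,
          Function.update_of_ne (show (3 : ℕ) ≠ 4 by norm_num)]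
        refine HasDerivAt.fun_sum fun k _ => HasDerivAt.const_mul _ ?_
        exact kpair4_ds_der _ (fun i j s => z 3 ^ i * ((j : ℝ) * s ^ (j - 1))) _ _
          fun i j => (kpair4_pow2 j (z 4)).const_mul _
  · intro i hi z hz
    have hbox := kpair4_ph_box e z he hz
    have hmz := hm (z 3) (z 4) (hz 3) (hz 4)
    split_ifs with h3 h3'
    · refine kpair4_le v _ _ fun k hk => ?_
      exact kpair4_sum 21 _ _ _ (fun t ht => hu3 i _ hbox _ (by omega)) fun t => (hmz t).1
    · refine kpair4_le v _ _ fun k hk => ?_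
      rw [(hsum (z 3) (z 4) _ (hc0 (kpair4ph e z) k)).2.1]
      refine kpair4_sum 10 _ _ _ (fun t ht => ?_) fun t => (hmz t).2
      rw [← hFc _ k (21 + t) hk (by omega)]
      exact hb3 _ hbox _ (by omega)
    · refine kpair4_le v _ _ fun k hk => ?_
      rw [(hsum (z 3) (z 4) _ (hc0 (kpair4ph e z) k)).2.2]
      refine kpair4_sum 10 _ _ _ (fun t ht => ?_) fun t => (hmz t).2
      rw [← hFc _ k (31 + t) hk (by omega)]
      exact hb3 _ hbox _ (by omega)
  · intro z _ hz
    obtain ⟨j3, hj3, e3⟩ := hz 3 (by norm_num)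
    obtain ⟨j4, hj4, e4⟩ := hz 4 (by norm_num)
    have hj3' : j3 ≤ n3 := hj3
    have hj4' : j4 ≤ n4 := hj4
    have e3' : z 3 = gp n3 j3 := e3
    have e4' : z 4 = gp n4 j4 := e4
    have hx : j4 + (n4 + 1) * j3 < (n3 + 1) * (n4 + 1) := by
      have := Nat.mul_le_mul_left (n4 + 1) hj3'
      rw [add_mul n3 1 (n4 + 1), mul_comm n3]
      omega
    have hdiv : (j4 + (n4 + 1) * j3) / (n4 + 1) = j3 := by
      rw [Nat.add_mul_div_left _ _ (Nat.succ_pos n4), Nat.div_eq_of_lt (by omega), zero_add]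
    have hmod : (j4 + (n4 + 1) * j3) % (n4 + 1) = j4 := by
      rw [Nat.add_mul_mod_self_left, Nat.mod_eq_of_lt (by omega)]
    have H := H5 (kpair4ph e z) _ hx (hz 0 (by norm_num)) (hz 1 (by norm_num))
      (hz 2 (by norm_num)) v
    rw [kpair4_qf (fun k => Fv (kpair4ph e z) _)] at H
    have hs : ∑ k ∈ range 16, kpair4wt v k *
        Fv (kpair4ph e z) ((n3 + 1) * (n4 + 1) * k + (j4 + (n4 + 1) * j3)) =
        8 ^ 5 * ∑ k ∈ range 16, kpair4wt v k *
          ds (fun i j => c (kpair4ph e z) k i j * (z 3 ^ i * z 4 ^ j)) := by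
      rw [mul_sum]
      refine sum_congr rfl fun k hk => ?_
      rw [hFv _ k _ (mem_range.1 hk) hx, mul_left_comm,
        ← kpair4_ds_mul (fun i j => c (kpair4ph e z) k i j * (z 3 ^ i * z 4 ^ j))]
      congr 2
      funext i j
      simp only [wp, hdiv, hmod, e3', e4']
      ring
    rw [hs] at H
    linarith
  · intro n
    dsimp only
    split_ifs
    · exact ha
    · exact hb
    · exact he n

end Vale.Agent.P098.Ck
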