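import Vale.Agent.P098.CkSem

open Finset

noncomputable section
namespace Vale.Agent.P098.Ck

theorem kpair5_band {a b : Bool} (h : band a b = true) : a = true ∧ b = true := by
  cases a
  · exact absurd h Bool.false_ne_true
  · exact ⟨rfl, h⟩

theorem kpair5_congr {M M' : ℕ → ℝ} (h : ∀ k, k < 16 → M k = M' k) (v : ℕ → ℝ) :
    Qf M v = Qf M' v := by
  unfold Qf qf
  rw [h 0 (by norm_num), h 1 (by norm_num), h 2 (by norm_num), h 3 (by norm_num),
    h 4 (by norm_num), h 5 (by norm_num), h 6 (by norm_num), h 7 (by norm_num), h 8 (by norm_num),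
    h 9 (by norm_num), h 10 (by norm_num), h 11 (by norm_num), h 12 (by norm_num),
    h 13 (by norm_num), h 14 (by norm_num), h 15 (by norm_num)]

theorem kpair5_smul (c : ℝ) (M v : ℕ → ℝ) : Qf (fun k => c * M k) v = c * Qf M v := by
  unfold Qf qf
  ring

theorem kpair5_gp {n : ℕ} (h : nok n = true) (k : ℕ) :
    (((k * (16 / n) : ℕ) : ℝ) - ((8 : ℕ) : ℝ)) / ((8 : ℕ) : ℝ) = gp n k := by
  have h1 : n * (16 / n) = 16 := Nat.eq_of_beq_eq_true (kpair5_band h).2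
  have h2 : (n : ℝ) * ((16 / n : ℕ) : ℝ) = 16 := by exact_mod_cast h1
  have h3 : (n : ℝ) ≠ 0 := by
    rintro h0
    rw [h0, zero_mul] at h2
    norm_num at h2
  have h4 : ((16 / n : ℕ) : ℝ) = 16 / n := by rw [eq_div_iff h3, mul_comm, h2]
  rw [Nat.cast_mul, h4, gp]
  push_cast
  ring

theorem pair5_ok (h_sub : S_sub) (h_gm : S_gm) (h_fin : S_fin) (h_etot : S_etot) : S_pair5 := by
  intro A B E Tv n0 n1 n2 n3 n4 s w Q a b c F ha hb hc habc h0 h1 h2 hF hp e x hx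
    ⟨k0, hk0, e0⟩ ⟨k1, hk1, e1⟩ ⟨k2, hk2, e2⟩ v
  obtain ⟨p1, p2⟩ := kpair5_band hp
  have hdg := (kpair5_band (kpair5_band p1).1).2
  have c3 := h_gm.gm 112 (16 * Q) n0 _ _ _
    (h_gm.gm 112 (16 * Q) n1 _ _ _ (h_gm.gm 112 (16 * Q) n2 Q _ _ (h_gm.lfs Q))) _ _
    (h_sub.pre 112 (16 * Q) 8 5 Tv F (by norm_num) hF hdg)
  obtain ⟨u, hu, hu1, hu2⟩ := h_etot A B E n3 n4 a b c ha hb hc habc
  rw [hu] at p2
  have h3 := h_fin _ _ 697 s w u _ c3 (by norm_num) hu1 p2 (fun k => 8 ^ 5 * F e (Q * k + x))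
    ⟨k0, hk0, k1, hk1, k2, hk2, fun n => 8 * e (n + 3), x, hx, fun k _ => by
      have : (fun n => cs (((k0 * (16 / n0) : ℕ) : ℝ) - ((8 : ℕ) : ℝ))
          (cs (((k1 * (16 / n1) : ℕ) : ℝ) - ((8 : ℕ) : ℝ))
            (cs (((k2 * (16 / n2) : ℕ) : ℝ) - ((8 : ℕ) : ℝ)) fun n => 8 * e (n + 3))) n /
              ((8 : ℕ) : ℝ)) = e := by
        funext n
        rcases n with _ | _ | _ | n
        · exact (kpair5_gp h0 k0).trans e0.symm
        · exact (kpair5_gp h1 k1).trans e1.symm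
        · exact (kpair5_gp h2 k2).trans e2.symm
        · show 8 * e (n + 3) / ((8 : ℕ) : ℝ) = e (n + 3)
          push_cast
          ring
      beta_reduce
      rw [this]
      norm_num⟩ v
  rw [kpair5_smul, kpair5_congr (fun k hk => congrArg Nat.cast (hu2 k hk))] at h3
  linarith

end Vale.Agent.P098.Ck
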