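import Vale.Agent.P098.CkSem

open Finset

noncomputable section
namespace Vale.Agent.P098.Ck

theorem krok_succ (L n : ℕ) (u : ℕ → ℕ) :
    pk L (n + 1) u = u 0 + 2 ^ L * pk L n (fun j => u (j + 1)) := by
  rw [pk, sum_range_succ', pk, mul_sum, add_comm]
  simp only [mul_zero, pow_zero, mul_one]
  congr 1
  refine sum_congr rfl fun j _ => ?_
  rw [mul_add, mul_one, pow_add]
  ring

theorem krok_congr {L n : ℕ} {u v : ℕ → ℕ} (h : ∀ i, i < n → u i = v i) : pk L n u = pk L n v :=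
  sum_congr rfl fun j hj => by rw [h j (mem_range.1 hj)]

theorem krok_lt {L : ℕ} (n : ℕ) : ∀ u : ℕ → ℕ, (∀ i, i < n → u i < 2 ^ L) →
    pk L n u < 2 ^ (L * n) := by
  induction n with
  | zero => intro u _; simp [pk]
  | succ n ih =>
    intro u h
    have h1 := ih (fun j => u (j + 1)) fun i hi => h _ (by omega)
    have h2 := h 0 (by omega)
    rw [krok_succ, mul_add, mul_one, pow_add, mul_comm (2 ^ (L * n))]
    calc u 0 + 2 ^ L * pk L n (fun j => u (j + 1))
        < 2 ^ L * (pk L n (fun j => u (j + 1)) + 1) := by rw [mul_add, mul_one]; omega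
      _ ≤ 2 ^ L * 2 ^ (L * n) := Nat.mul_le_mul_left _ h1

theorem krok_mod {L a b : ℕ} (h : a < 2 ^ L) : (a + 2 ^ L * b) % 2 ^ L = a := by
  rw [Nat.add_mul_mod_self_left, Nat.mod_eq_of_lt h]

theorem krok_div {L a b : ℕ} (h : a < 2 ^ L) : (a + 2 ^ L * b) / 2 ^ L = b := by
  rw [Nat.add_mul_div_left _ _ (Nat.two_pow_pos L), Nat.div_eq_of_lt h, zero_add]

theorem krok_land {L : ℕ} (n : ℕ) : ∀ u v : ℕ → ℕ, (∀ i, i < n → u i < 2 ^ L) →
    (∀ i, i < n → v i < 2 ^ L) → pk L n u &&& pk L n v = pk L n (fun i => u i &&& v i) := by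
  induction n with
  | zero => intro u v _ _; simp [pk]
  | succ n ih =>
    intro u v hu hv
    rw [← Nat.mod_add_div (pk L (n + 1) u &&& pk L (n + 1) v) (2 ^ L), Nat.and_mod_two_pow,
      Nat.and_div_two_pow, krok_succ L n u, krok_succ L n v, krok_mod (hu 0 (by omega)),
      krok_mod (hv 0 (by omega)), krok_div (hu 0 (by omega)), krok_div (hv 0 (by omega)),
      ih _ _ (fun i hi => hu _ (by omega)) (fun i hi => hv _ (by omega)), krok_succ]

theorem krok_inj {L : ℕ} (n : ℕ) : ∀ u v : ℕ → ℕ, (∀ i, i < n → u i < 2 ^ L) →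
    (∀ i, i < n → v i < 2 ^ L) → pk L n u = pk L n v → ∀ i, i < n → u i = v i := by
  induction n with
  | zero => intro u v _ _ _ i hi; omega
  | succ n ih =>
    intro u v hu hv h i hi
    rw [krok_succ, krok_succ] at h
    have h1 := congrArg (· % 2 ^ L) h
    have h2 := congrArg (· / 2 ^ L) h
    simp only [krok_mod (hu 0 (by omega)), krok_mod (hv 0 (by omega))] at h1
    simp only [krok_div (hu 0 (by omega)), krok_div (hv 0 (by omega))] at h2
    rcases i with _ | i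
    · exact h1
    · exact ih _ _ (fun i hi => hu _ (by omega)) (fun i hi => hv _ (by omega)) h2 i (by omega)

theorem krok_mul (L n c : ℕ) (u : ℕ → ℕ) : c * pk L n u = pk L n (fun i => c * u i) := by
  simp only [pk, mul_sum, mul_assoc]

theorem krok_const (L n c : ℕ) : c * pk L n (fun _ => 1) = pk L n (fun _ => c) := by
  simp only [krok_mul, mul_one]

theorem krok_shl (L n k : ℕ) : pk L n (fun _ => 1) <<< k = pk L n (fun _ => 2 ^ k) := by
  rw [Nat.shiftLeft_eq, mul_comm, krok_const]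

theorem krok_add (L n : ℕ) (u v : ℕ → ℕ) :
    pk L n u + pk L n v = pk L n (fun i => u i + v i) := by
  simp only [pk, add_mul, sum_add_distrib]

theorem krok_split (L J K : ℕ) (u : ℕ → ℕ) :
    pk L (J + K) u = pk L J u + 2 ^ (L * J) * pk L K (fun i => u (J + i)) := by
  rw [pk, sum_range_add, pk, pk, mul_sum]
  congr 1
  refine sum_congr rfl fun j _ => ?_
  rw [mul_add, pow_add]
  ring

theorem krok_bit {L n k : ℕ} (hk : k < L) (y : ℕ → ℕ) (hy : ∀ i, i < n → y i < 2 ^ L)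
    (h : pk L n y &&& pk L n (fun _ => 1) <<< k = pk L n (fun _ => 1) <<< k) :
    ∀ i, i < n → 2 ^ k ≤ y i := by
  intro i hi
  have h1 : ∀ i, i < n → 2 ^ k < 2 ^ L := fun _ _ => Nat.pow_lt_pow_right (by omega) hk
  rw [krok_shl, krok_land n _ _ hy h1] at h
  have h2 := krok_inj n _ _ (fun i hi => Nat.and_le_left.trans_lt (hy i hi)) h1 h i hi
  exact h2.symm.le.trans Nat.and_le_left

theorem krok_rng {L k y : ℕ} (hk : k < L) (hy : y < 2 ^ L)
    (h : y &&& (2 ^ L - 2 ^ k) = 2 ^ (L - 1)) : 2 ^ (L - 1) ≤ y ∧ y < 2 ^ (L - 1) + 2 ^ k := by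
  obtain ⟨d, rfl⟩ := Nat.exists_eq_add_of_lt hk
  have h0 := Nat.two_pow_pos k
  have h1 : 2 ^ (k + d + 1) - 2 ^ k = 2 ^ k * (2 ^ (d + 1) - 1) := by
    rw [Nat.mul_sub, mul_one, add_assoc, pow_add]
  have h2 : y / 2 ^ k < 2 ^ (d + 1) := by
    rw [Nat.div_lt_iff_lt_mul h0, ← pow_add]
    rwa [show d + 1 + k = k + d + 1 by omega]
  rw [h1, Nat.add_sub_cancel, pow_add 2 k d] at h
  have h3 := congrArg (· / 2 ^ k) h
  simp only [Nat.and_div_two_pow, Nat.mul_div_cancel_left _ h0,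
    Nat.and_two_pow_sub_one_eq_mod, Nat.mod_eq_of_lt h2] at h3
  have h4 := Nat.mod_add_div y (2 ^ k)
  have h5 := Nat.mod_lt y h0
  rw [h3] at h4
  rw [Nat.add_sub_cancel, pow_add]
  omega

theorem krok_mid (y s : ℕ) : y &&& (2 ^ s * (2 ^ 27 - 1)) = 2 ^ s * (y / 2 ^ s % 2 ^ 27) := by
  have h0 := Nat.two_pow_pos s
  rw [← Nat.mod_add_div (y &&& (2 ^ s * (2 ^ 27 - 1))) (2 ^ s), Nat.and_mod_two_pow,
    Nat.and_div_two_pow, Nat.mul_mod_right, Nat.and_zero, Nat.mul_div_cancel_left _ h0,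
    Nat.and_two_pow_sub_one_eq_mod, zero_add]

theorem krok_val {L s y : ℕ} (hs : s + 27 < L) (h1 : 2 ^ (L - 1) ≤ y)
    (h2 : y < 2 ^ (L - 1) + 2 ^ (s + 27)) : y / 2 ^ s % 2 ^ 27 = (y - 2 ^ (L - 1)) / 2 ^ s := by
  obtain ⟨d, rfl⟩ := Nat.exists_eq_add_of_lt hs
  obtain ⟨w, rfl⟩ := Nat.exists_eq_add_of_le h1
  have h0 := Nat.two_pow_pos s
  have h3 : w / 2 ^ s < 2 ^ 27 := by
    rw [Nat.div_lt_iff_lt_mul h0, ← pow_add, add_comm]
    omega
  rw [Nat.add_sub_cancel_left, Nat.add_sub_cancel, add_assoc, pow_add, pow_add,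
    Nat.mul_add_div h0, Nat.mul_add_mod, Nat.mod_eq_of_lt h3]

theorem krok_two (h : ℕ) (f : ℕ → ℕ) : pk 56 (2 * h) f =
    pk 112 h (fun j => f (2 * j)) + pk 112 h (fun j => f (2 * j + 1)) * 2 ^ 56 := by
  induction h with
  | zero => simp [pk]
  | succ h ih =>
    simp only [pk] at ih ⊢
    rw [mul_add, mul_one, sum_range_succ, sum_range_succ, sum_range_succ, sum_range_succ, ih,
      show 56 * (2 * h) = 112 * h by ring, show 56 * (2 * h + 1) = 112 * h + 56 by ring, pow_add]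
    ring

theorem rok_ok : S_rok where
  rok L n s y hs hy h := by
    have h1 : pk L n y &&& (2 ^ L - 2 ^ (s + 27)) * pk L n (fun _ => 1) =
        pk L n (fun _ => 1) <<< (L - 1) := Nat.eq_of_beq_eq_true h
    have h2 : ∀ i, i < n → 2 ^ L - 2 ^ (s + 27) < 2 ^ L := fun _ _ =>
      Nat.sub_lt (Nat.two_pow_pos _) (Nat.two_pow_pos _)
    rw [krok_const, krok_shl, krok_land n _ _ hy h2] at h1
    have h3 := krok_inj n _ _ (fun i hi => Nat.and_le_left.trans_lt (hy i hi))
      (fun _ _ => Nat.pow_lt_pow_right (by omega) (by omega)) h1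
    have h4 := fun i hi => krok_rng hs (hy i hi) (h3 i hi)
    refine ⟨h4, ?_⟩
    change pk L n y >>> s &&& (2 ^ 27 - 1) * pk L n (fun _ => 1) = _
    have h0 := Nat.two_pow_pos s
    have h5 : ∀ i, i < n → 2 ^ s * (2 ^ 27 - 1) < 2 ^ L := fun _ _ =>
      calc 2 ^ s * (2 ^ 27 - 1) < 2 ^ s * 2 ^ 27 := Nat.mul_lt_mul_of_pos_left (by norm_num) h0
        _ = 2 ^ (s + 27) := (pow_add _ _ _).symm
        _ < 2 ^ L := Nat.pow_lt_pow_right (by omega) hs
    rw [← Nat.mul_div_cancel_left ((2 ^ 27 - 1) * pk L n (fun _ => 1)) h0, Nat.shiftRight_eq_div_pow,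
      ← Nat.and_div_two_pow, ← mul_assoc, krok_const, krok_land n _ _ hy h5]
    simp only [krok_mid]
    rw [← krok_mul, Nat.mul_div_cancel_left _ h0]
    exact krok_congr fun i hi => krok_val hs (h4 i hi).1 (h4 i hi).2
  top n x hx h := by
    have hx' : ∀ i, i < n → x i < 2 ^ 56 := fun i hi => (hx i hi).trans (by norm_num)
    have h1 := krok_bit (k := 26) (by norm_num) x hx' (Nat.eq_of_beq_eq_true h)
    refine ⟨h1, ?_⟩
    change (pk 56 n x &&& (2 ^ 26 - 1) * pk 56 n (fun _ => 1)) + pk 56 n (fun _ => 1) = _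
    rw [krok_const, krok_land n _ _ hx' (fun _ _ => by norm_num), krok_add]
    refine krok_congr fun i hi => ?_
    have h2 := h1 i hi
    have h3 := hx i hi
    rw [Nat.and_two_pow_sub_one_eq_mod]
    omega
  neg n x hx := by
    change (2 ^ 27 - 1) * pk 56 n (fun _ => 1) - pk 56 n x = _
    rw [krok_const]
    refine Nat.sub_eq_of_eq_add ?_
    rw [krok_add]
    refine krok_congr fun i hi => ?_
    have h3 := hx i hi
    omega
  hi n y hy h := krok_bit (by norm_num) y hy h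
  il V y hy := by
    change (pk 112 V y &&& 2 ^ (112 * ((V + 1) / 2)) - 1) +
      (pk 112 V y >>> (112 * (V / 2))) <<< 56 = _
    have hy' : ∀ i, i < V → y i < 2 ^ 112 := fun i hi => (hy i hi).trans (by norm_num)
    have h1 : pk 112 V y % 2 ^ (112 * ((V + 1) / 2)) = pk 112 ((V + 1) / 2) y := by
      have h2 := krok_split 112 ((V + 1) / 2) (V / 2) y
      rw [show (V + 1) / 2 + V / 2 = V by omega] at h2
      rw [h2]
      exact krok_mod (krok_lt _ _ fun i hi => hy' i (by omega))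
    have h3 : pk 112 V y / 2 ^ (112 * (V / 2)) =
        pk 112 ((V + 1) / 2) (fun i => y (V / 2 + i)) := by
      have h2 := krok_split 112 (V / 2) ((V + 1) / 2) y
      rw [show V / 2 + (V + 1) / 2 = V by omega] at h2
      rw [h2]
      exact krok_div (krok_lt _ _ fun i hi => hy' i (by omega))
    rw [Nat.and_two_pow_sub_one_eq_mod, Nat.shiftRight_eq_div_pow, Nat.shiftLeft_eq, h1, h3,
      krok_two]
    refine congrArg₂ (· + ·) (krok_congr fun i _ => ?_)
      (congrArg (· * 2 ^ 56) (krok_congr fun i _ => ?_))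
    · rw [if_pos (by omega), show 2 * i / 2 = i by omega]
    · rw [if_neg (by omega), show (2 * i + 1) / 2 = i by omega]

end Vale.Agent.P098.Ck
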