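import Vale.Agent.P098.CkSem

open Finset

noncomputable section
namespace Vale.Agent.P098.Ck

theorem ksm_succ (L J : ℕ) (u : ℕ → ℕ) :
    pk L (J + 1) u = 2 ^ L * pk L J (fun j => u (j + 1)) + u 0 := by
  unfold pk
  rw [Finset.sum_range_succ', Finset.mul_sum]
  simp only [Nat.mul_zero, pow_zero, mul_one]
  congr 1
  refine Finset.sum_congr rfl fun j _ => ?_
  rw [Nat.mul_succ, pow_add]; ring

theorem ksm_congr (L J : ℕ) (u v : ℕ → ℕ) (h : ∀ i, i < J → u i = v i) : pk L J u = pk L J v := by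
  unfold pk
  exact Finset.sum_congr rfl fun j hj => by rw [h j (Finset.mem_range.mp hj)]

theorem ksm_add (L J : ℕ) (u v : ℕ → ℕ) :
    pk L J u + pk L J v = pk L J (fun i => u i + v i) := by
  unfold pk
  rw [← Finset.sum_add_distrib]
  exact Finset.sum_congr rfl fun j _ => by ring

theorem ksm_mul (L J c : ℕ) (u : ℕ → ℕ) : pk L J u * c = pk L J (fun i => u i * c) := by
  unfold pk
  rw [Finset.sum_mul]
  exact Finset.sum_congr rfl fun j _ => by ring

theorem ksm_land1 (L a b A B : ℕ) (ha : a < 2 ^ L) (hb : b < 2 ^ L) :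
    (2 ^ L * A + a) &&& (2 ^ L * B + b) = 2 ^ L * (A &&& B) + (a &&& b) := by
  have hab : a &&& b < 2 ^ L := lt_of_le_of_lt Nat.and_le_left ha
  refine Nat.eq_of_testBit_eq fun j => ?_
  rw [Nat.testBit_and, Nat.testBit_two_pow_mul_add _ ha, Nat.testBit_two_pow_mul_add _ hb,
    Nat.testBit_two_pow_mul_add _ hab]
  split_ifs <;> simp [Nat.testBit_and]

theorem ksm_land (L J : ℕ) : ∀ u v : ℕ → ℕ, (∀ i, i < J → u i < 2 ^ L ∧ v i < 2 ^ L) →
    pk L J u &&& pk L J v = pk L J (fun i => u i &&& v i) := by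
  induction J with
  | zero => intro u v _; simp [pk]
  | succ J ih =>
    intro u v h
    rw [ksm_succ, ksm_succ, ksm_succ, ksm_land1 _ _ _ _ _ (h 0 (by omega)).1 (h 0 (by omega)).2,
      ih _ _ (fun i hi => h (i + 1) (by omega))]

theorem ksm_bit1 (L k a A O : ℕ) (hk : k < L) (ha : a < 2 ^ L) :
    ((2 ^ L * A + a) >>> k) &&& (2 ^ L * O + 1) = 2 ^ L * ((A >>> k) &&& O) + (a >>> k) % 2 := by
  have h1 : 1 < 2 ^ L := Nat.one_lt_two_pow (by omega)
  have h2 : (a >>> k) % 2 < 2 ^ L := lt_of_lt_of_le (Nat.mod_lt _ (by norm_num)) h1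
  have h3 : (a >>> k) % 2 = (a >>> k) &&& 1 := (Nat.and_one_is_mod _).symm
  refine Nat.eq_of_testBit_eq fun j => ?_
  rw [Nat.testBit_and, Nat.testBit_shiftRight, Nat.testBit_two_pow_mul_add _ ha,
    Nat.testBit_two_pow_mul_add _ h1, Nat.testBit_two_pow_mul_add _ h2, h3, Nat.testBit_and,
    Nat.testBit_and, Nat.testBit_shiftRight, Nat.testBit_shiftRight]
  by_cases hj : j < L
  · rw [if_pos hj, if_pos hj]
    rcases Nat.eq_zero_or_pos j with rfl | hj0
    · rw [if_pos (by omega)]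
    · have : Nat.testBit 1 j = false := by
        obtain ⟨j, rfl⟩ : ∃ i, j = i + 1 := ⟨j - 1, by omega⟩
        simp [Nat.testBit_succ]
      rw [this]; simp
  · rw [if_neg hj, if_neg hj, if_neg (by omega)]
    congr 2
    omega

theorem ksm_bit (L J k : ℕ) (hk : k < L) : ∀ u : ℕ → ℕ, (∀ i, i < J → u i < 2 ^ L) →
    (pk L J u >>> k) &&& pk L J (fun _ => 1) = pk L J (fun i => (u i >>> k) % 2) := by
  induction J with
  | zero => intro u _; simp [pk]
  | succ J ih =>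
    intro u h
    rw [ksm_succ, ksm_succ, ksm_succ, ksm_bit1 _ _ _ _ _ hk (h 0 (by omega)),
      ih _ (fun i hi => h (i + 1) (by omega))]

theorem ksm_msk (n k : ℕ) (hk : k < 56) (a : ℕ → ℕ) (h : ∀ i, i < n → a i < 2 ^ 56) :
    msk (pk 56 n (fun _ => 1)) (pk 56 n a) k =
      pk 56 n (fun i => (a i >>> k) % 2 * (2 ^ 27 - 1)) := by
  have e : ∀ s : ℕ, msk1 s = s * (2 ^ 27 - 1) := by
    intro s
    show s <<< 27 - s = _
    rw [Nat.shiftLeft_eq, Nat.mul_sub, mul_one]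
  show msk1 ((pk 56 n a >>> k) &&& pk 56 n (fun _ => 1)) = _
  rw [ksm_bit 56 n k hk a h, e, ksm_mul]

theorem ksm_sel (n k : ℕ) (hk : k < 56) (a x : ℕ → ℕ)
    (h : ∀ i, i < n → a i < 2 ^ 27 ∧ x i < 2 ^ 27) :
    pk 56 n x &&& msk (pk 56 n (fun _ => 1)) (pk 56 n a) k =
      pk 56 n (fun i => (a i >>> k) % 2 * x i) := by
  rw [ksm_msk n k hk a (fun i hi => lt_trans (h i hi).1 (by norm_num)), ksm_land]
  · refine ksm_congr _ _ _ _ fun i hi => ?_
    rcases Nat.mod_two_eq_zero_or_one (a i >>> k) with h0 | h0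
    · simp [h0]
    · simp only [h0, one_mul]
      rw [Nat.and_two_pow_sub_one_eq_mod, Nat.mod_eq_of_lt (h i hi).2]
  · intro i hi
    refine ⟨lt_trans (h i hi).2 (by norm_num), ?_⟩
    rcases Nat.mod_two_eq_zero_or_one (a i >>> k) with h0 | h0 <;> simp [h0]

/-- The recursion with a general length. -/
def ksmR (O a x b c K : ℕ) : ℕ :=
  Nat.rec (motive := fun _ => Nat) 0
    (fun k ih => Nat.add ih
      (Nat.shiftLeft (Nat.add (Nat.land x (msk O a k)) (Nat.land c (msk O b k))) k)) K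

theorem ksm_step (O a x b c K : ℕ) : ksmR O a x b c (K + 1) =
    ksmR O a x b c K + ((x &&& msk O a K) + (c &&& msk O b K)) <<< K := rfl

theorem ksm_rec (n : ℕ) (a x b c : ℕ → ℕ)
    (h : ∀ i, i < n → a i < 2 ^ 27 ∧ x i < 2 ^ 27 ∧ b i < 2 ^ 27 ∧ c i < 2 ^ 27) (K : ℕ)
    (hK : K ≤ 56) :
    ksmR (pk 56 n (fun _ => 1)) (pk 56 n a) (pk 56 n x) (pk 56 n b) (pk 56 n c) K =
      pk 56 n (fun i => a i % 2 ^ K * x i + b i % 2 ^ K * c i) := by
  induction K with
  | zero =>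
    show 0 = _
    simp [pk, Nat.mod_one]
  | succ K ih =>
    rw [ksm_step, ih (by omega),
      ksm_sel n K (by omega) a x (fun i hi => ⟨(h i hi).1, (h i hi).2.1⟩),
      ksm_sel n K (by omega) b c (fun i hi => ⟨(h i hi).2.2.1, (h i hi).2.2.2⟩),
      ksm_add, Nat.shiftLeft_eq, ksm_mul, ksm_add]
    refine ksm_congr _ _ _ _ fun i _ => ?_
    simp only [Nat.shiftRight_eq_div_pow]
    rw [Nat.mod_pow_succ, Nat.mod_pow_succ]
    ring

theorem sm_ok : S_sm := by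
  intro n a x b c h
  have e : sm (pk 56 n (fun _ => 1)) (pk 56 n a) (pk 56 n x) (pk 56 n b) (pk 56 n c) =
      ksmR (pk 56 n (fun _ => 1)) (pk 56 n a) (pk 56 n x) (pk 56 n b) (pk 56 n c) 27 := by
    unfold sm ksmR
    rfl
  rw [e, ksm_rec n a x b c h 27 (by norm_num)]
  refine ksm_congr _ _ _ _ fun i hi => ?_
  rw [Nat.mod_eq_of_lt (h i hi).1, Nat.mod_eq_of_lt (h i hi).2.2.1]

end Vale.Agent.P098.Ck
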