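import Vale.Agent.P098.CkTop

/-! # P098: smoothness and derivatives of the family given by tables -/

open Finset

noncomputable section
namespace Vale.Agent.P098.Ck

theorem ksmooth_den (t : ℝ) : 1 ≤ 1 + |t| - t := by linarith [le_abs_self t]

theorem ksmooth_gg {t : ℝ} (h : 0 ≤ t) : gg t = t := by simp [gg, abs_of_nonneg h]

theorem ksmooth_gg' {t : ℝ} (h : t ≤ 0) : gg t = t / (1 - 2 * t) := by
  rw [gg, abs_of_nonpos h]
  ring_nf

theorem ksmooth_pos (t : ℝ) : 0 < 1 + gg t := by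
  have h := ksmooth_den t
  have e : 1 + gg t = (1 + |t|) / (1 + |t| - t) := by
    rw [gg]
    field_simp
    ring
  rw [e]
  positivity

theorem ksmooth_der (t : ℝ) : HasDerivAt gg (1 / (1 + |t| - t) ^ 2) t := by
  have a : ∀ t : ℝ, 0 ≤ t → HasDerivAt (fun s : ℝ => s) (1 / (1 + |t| - t) ^ 2) t := fun t h =>
    (hasDerivAt_id' t).congr_deriv (by simp [abs_of_nonneg h])
  have b : ∀ t : ℝ, t ≤ 0 →
      HasDerivAt (fun s : ℝ => s / (1 - 2 * s)) (1 / (1 + |t| - t) ^ 2) t := fun t h => by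
    refine ((hasDerivAt_id' t).fun_div (((hasDerivAt_id' t).const_mul 2).const_sub 1)
      (by linarith : 0 < 1 - 2 * t).ne').congr_deriv ?_
    rw [abs_of_nonpos h]
    ring_nf
  rcases lt_trichotomy t 0 with h | rfl | h
  · exact (b t h.le).congr_of_eventuallyEq
      ((eventually_lt_nhds h).mono fun s hs => ksmooth_gg' hs.le)
  · rw [← hasDerivWithinAt_univ, ← Set.Iic_union_Ici (a := (0 : ℝ))]
    exact ((b 0 le_rfl).hasDerivWithinAt.congr (fun s hs => ksmooth_gg' hs) (ksmooth_gg' le_rfl)).union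
      ((a 0 le_rfl).hasDerivWithinAt.congr (fun s hs => ksmooth_gg hs) (ksmooth_gg le_rfl))
  · exact (a t h.le).congr_of_eventuallyEq
      ((eventually_gt_nhds h).mono fun s hs => ksmooth_gg hs.le)

theorem ksmooth_c1 : ContDiff ℝ 1 gg := by
  refine contDiff_one_iff_deriv.2 ⟨fun t => (ksmooth_der t).differentiableAt, ?_⟩
  rw [funext fun t => (ksmooth_der t).deriv]
  exact continuous_const.div (by fun_prop) fun t =>
    pow_ne_zero _ (zero_lt_one.trans_le (ksmooth_den t)).ne'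

theorem ksmooth_ev (p : P) : ∀ φ : (Fin 4 → ℝ) → Pt, (∀ n, ContDiff ℝ 1 fun v => φ v n) →
    ContDiff ℝ 1 fun v => ev p (φ v) := by
  induction p with
  | nil => exact fun _ _ => contDiff_const
  | lf a b m => exact fun _ _ => contDiff_const
  | cons c r ic ir =>
    exact fun φ h => (ic (fun v => tl (φ v)) fun n => h (n + 1)).add ((h 0).mul (ir φ h))

theorem ksmooth_pv (n : ℕ) : ContDiff ℝ 1 fun v => pv v n := by
  have g : ContDiff ℝ 1 fun v : Fin 4 → ℝ => gg (v 0 + v 2) := ksmooth_c1.comp (by fun_prop)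
  rcases n with _ | _ | _ | n
  · exact g.div (contDiff_const.add g) fun v => (ksmooth_pos _).ne'
  · exact contDiff_apply ℝ ℝ 1
  · exact (contDiff_apply ℝ ℝ 2).div (contDiff_const.add g) fun v => (ksmooth_pos _).ne'
  · exact contDiff_const

theorem smooth_ok : S_smooth := fun _ _ =>
  (((ksmooth_ev _ pv ksmooth_pv).add ((ksmooth_ev _ pv ksmooth_pv).mul (contDiff_apply ℝ ℝ 3))).add
    ((ksmooth_ev _ pv ksmooth_pv).mul ((contDiff_apply ℝ ℝ 3).pow 2))).div_const _

theorem ff_sm (W : ℕ → ℕ → P) : (FF W).Sm :=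
  ⟨(smooth_ok W 0).contDiffOn, (smooth_ok W 1).contDiffOn, (smooth_ok W 2).contDiffOn,
    (smooth_ok W 3).contDiffOn, (smooth_ok W 4).contDiffOn, (smooth_ok W 5).contDiffOn,
    (smooth_ok W 6).contDiffOn, (smooth_ok W 7).contDiffOn⟩

theorem ksmooth_addL (a b m : ℕ) (q : P) : ∀ e, ev (addL a b m q) e = (a : ℝ) - b + ev q e := by
  induction q with
  | nil => exact fun e => (add_zero _).symm
  | lf a' b' m' =>
    intro e
    show ((a + a' : ℕ) : ℝ) - ((b + b' : ℕ) : ℝ) = a - b + (a' - b')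
    push_cast
    ring
  | cons c r ic _ =>
    intro e
    show ev (addL a b m c) (tl e) + e 0 * ev r e = a - b + (ev c (tl e) + e 0 * ev r e)
    rw [ic, add_assoc]

theorem ksmooth_padd (p : P) : ∀ q e, ev (padd p q) e = ev p e + ev q e := by
  induction p with
  | nil => exact fun q e => (zero_add _).symm
  | lf a b m => exact fun q e => ksmooth_addL a b m q e
  | cons c r ic ir =>
    intro q e
    cases q with
    | nil => exact (add_zero _).symm
    | lf a b m =>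
      show ev (addL a b m c) (tl e) + e 0 * ev r e = ev c (tl e) + e 0 * ev r e + (a - b)
      rw [ksmooth_addL]
      ring
    | cons c' r' =>
      show ev (padd c c') (tl e) + e 0 * ev (padd r r') e =
        ev c (tl e) + e 0 * ev r e + (ev c' (tl e) + e 0 * ev r' e)
      rw [ic, ir]
      ring

theorem ksmooth_chain (p : P) : ∀ (γ : ℝ → Pt) (δ : Pt) (k : ℕ),
    (∀ n, HasDerivAt (fun s => γ s n) (δ n) 0) → (∀ n, k ≤ n → δ n = 0) →
    HasDerivAt (fun s => ev p (γ s)) (∑ i ∈ range k, ev (der i p) (γ 0) * δ i) 0 := by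
  induction p with
  | nil =>
    intro γ δ k _ _
    refine (hasDerivAt_const (0 : ℝ) (0 : ℝ)).congr_deriv (sum_eq_zero fun i _ => ?_).symm
    cases i <;> exact zero_mul _
  | lf a b m =>
    intro γ δ k _ _
    refine (hasDerivAt_const (0 : ℝ) ((a : ℝ) - b)).congr_deriv (sum_eq_zero fun i _ => ?_).symm
    cases i <;> exact zero_mul _
  | cons c r ic ir =>
    intro γ δ k h h0
    refine ((ic (fun s => tl (γ s)) (tl δ) k (fun n => h (n + 1)) fun n hn =>
      h0 _ (Nat.le_succ_of_le hn)).fun_add ((h 0).fun_mul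
        (ir γ δ (k + 1) h fun n hn => h0 _ (Nat.le_of_succ_le hn)))).congr_deriv ?_
    have e : ∑ i ∈ range k, ev (der i (P.cons c r)) (γ 0) * δ i =
        ∑ i ∈ range (k + 1), ev (der i (P.cons c r)) (γ 0) * δ i := by
      rw [sum_range_succ, h0 k le_rfl, mul_zero, add_zero]
    have e0 : ev (der 0 (P.cons c r)) (γ 0) = ev r (γ 0) + (0 + γ 0 0 * ev (der 0 r) (γ 0)) :=
      ksmooth_padd _ _ _
    have e1 : ∀ i, ev (der (i + 1) (P.cons c r)) (γ 0) * δ (i + 1) =
        ev (der i c) (tl (γ 0)) * tl δ i + γ 0 0 * (ev (der (i + 1) r) (γ 0) * δ (i + 1)) :=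
      fun i => (add_mul _ _ _).trans (by rw [mul_assoc]; rfl)
    rw [e, sum_range_succ', sum_range_succ', e0]
    simp only [e1]
    rw [sum_add_distrib, ← mul_sum]
    ring

theorem ksmooth_fd (W : ℕ → ℕ → P) (f : ℕ) (v w : Fin 4 → ℝ) (h : 0 ≤ v 0 + v 2) :
    fderiv ℝ (ff W f) v w = fd W 0 f v * ((w 0 + w 2) / (1 + (v 0 + v 2)) ^ 2) + fd W 1 f v * w 1 +
      fd W 2 f v * (w 2 / (1 + (v 0 + v 2)) - v 2 * (w 0 + w 2) / (1 + (v 0 + v 2)) ^ 2) +
      (ev (W f 1) (pv v) + 2 * ev (W f 2) (pv v) * v 3) / 2 ^ 20 * w 3 := by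
  have c : ∀ i, HasDerivAt (fun s : ℝ => (v + s • w) i) (w i) 0 := fun i => by
    simpa using ((hasDerivAt_id' (0 : ℝ)).mul_const (w i)).const_add (v i)
  have z : v + (0 : ℝ) • w = v := by simp
  have g : HasDerivAt (fun s : ℝ => gg ((v + s • w) 0 + (v + s • w) 2)) (w 0 + w 2) 0 := by
    refine ((ksmooth_der _).comp (0 : ℝ) ((c 0).fun_add (c 2))).congr_deriv ?_
    simp [abs_of_nonneg h]
  have n : 1 + gg ((v + (0 : ℝ) • w) 0 + (v + (0 : ℝ) • w) 2) ≠ 0 := (ksmooth_pos _).ne'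
  have hγ : ∀ k, HasDerivAt (fun s : ℝ => pv (v + s • w) k)
      (p3 ((w 0 + w 2) / (1 + (v 0 + v 2)) ^ 2) (w 1)
        (w 2 / (1 + (v 0 + v 2)) - v 2 * (w 0 + w 2) / (1 + (v 0 + v 2)) ^ 2) k) 0 := by
    intro k
    rcases k with _ | _ | _ | k
    · refine (g.fun_div (g.const_add 1) n).congr_deriv ?_
      show _ = (w 0 + w 2) / (1 + (v 0 + v 2)) ^ 2
      rw [z, ksmooth_gg h]
      ring
    · exact c 1
    · refine ((c 2).fun_div (g.const_add 1) n).congr_deriv ?_
      show _ = w 2 / (1 + (v 0 + v 2)) - v 2 * (w 0 + w 2) / (1 + (v 0 + v 2)) ^ 2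
      rw [z, ksmooth_gg h]
      have : 1 + (v 0 + v 2) ≠ 0 := by linarith
      field_simp
    · exact hasDerivAt_const _ _
  have ch := fun p => ksmooth_chain p (fun s => pv (v + s • w)) _ 3 hγ fun n hn => by
    obtain ⟨k, rfl⟩ := Nat.exists_eq_add_of_le' hn
    rfl
  have hl : HasLineDerivAt ℝ (ff W f) _ v w :=
    (((ch (W f 0)).fun_add ((ch (W f 1)).fun_mul (c 3))).fun_add
      ((ch (W f 2)).fun_mul ((c 3).fun_pow 2))).div_const (2 ^ 20)
  rw [← ((smooth_ok W f).differentiable one_ne_zero v).lineDeriv_eq_fderiv, hl.lineDeriv]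
  have q : ∀ a b c : ℝ, p3 a b c 0 = a ∧ p3 a b c 1 = b ∧ p3 a b c 2 = c :=
    fun _ _ _ => ⟨rfl, rfl, rfl⟩
  simp only [z, sum_range_succ, range_zero, sum_empty, fd, q]
  ring

theorem d4_ok : S_d4 := by
  intro W f v h
  refine ⟨by rw [pv, ksmooth_gg h], ?_, ?_, ?_, ?_⟩ <;> rw [d4, ksmooth_fd W f v _ h] <;> simp <;> ring

end Vale.Agent.P098.Ck
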