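import Vale.Agent.P098.CkSem

/-!
# P098: soundness of the digitwise square elimination
-/

open Finset

noncomputable section
namespace Vale.Agent.P098.Ck

theorem ksqBand (a b : Bool) (h : band a b = true) : a = true ∧ b = true := by
  cases a <;> cases b <;> simp_all [band]

theorem ksqD (d u w : ℝ) (h0 : 0 ≤ d) (h1 : d ≤ 1) : 0 ≤ 2 * d * u * w + u ^ 2 + w ^ 2 := by
  have e : 2 * d * u * w + u ^ 2 + w ^ 2 = d * (u + w) ^ 2 + (1 - d) * (u ^ 2 + w ^ 2) := by ring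
  have h2 : 0 ≤ 1 - d := by linarith
  rw [e]
  positivity

theorem ksqE (h_el : S_el) (n s z : ℕ) (p x b c : ℕ → ℕ) (hs : s ≤ 28) (hz : z ≤ 5)
    (hp : ∀ i, i < n → p i < 2 ^ 27) (hx : ∀ i, i < n → x i < 2 ^ 27)
    (hb : ∀ i, i < n → b i < 2 ^ 27) (hc : ∀ i, i < n → c i < 2 ^ 27)
    (ht : (∀ i, i < n → 2 ^ 26 ≤ p i) ∧
      piv (pk 56 n (fun _ => 1)) (pk 56 n p) = pk 56 n (fun i => p i - 2 ^ 26 + 1))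
    (hr : rok 56 (pk 56 n (fun _ => 1)) s (el (pk 56 n (fun _ => 1)) s z
      (piv (pk 56 n (fun _ => 1)) (pk 56 n p)) (pk 56 n x)
      (neg (pk 56 n (fun _ => 1)) (pk 56 n b)) (pk 56 n c)) = true) :
    ∃ y : ℕ → ℕ, rsh (pk 56 n (fun _ => 1)) s (el (pk 56 n (fun _ => 1)) s z
      (piv (pk 56 n (fun _ => 1)) (pk 56 n p)) (pk 56 n x)
      (neg (pk 56 n (fun _ => 1)) (pk 56 n b)) (pk 56 n c)) = pk 56 n y ∧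
      (∀ i, i < n → y i < 2 ^ 27) ∧ ∀ i, i < n → ∃ δ : ℝ, 0 ≤ δ ∧ δ ≤ 1 ∧
        ((p i : ℝ) - 2 ^ 26 + 1) * ((x i : ℝ) - 2 ^ 26) -
          ((b i : ℝ) - 2 ^ 26) * ((c i : ℝ) - 2 ^ 26) =
          2 ^ s * ((y i : ℝ) - 2 ^ 26 + z + δ) := by
  rw [ht.2] at hr ⊢
  obtain ⟨y, hy, hy2⟩ := h_el n s z (fun i => p i - 2 ^ 26 + 1) x b c hs hz (fun i hi => by
    have h1 := hp i hi
    have h2 := ht.1 i hi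
    refine ⟨?_, hx i hi, hb i hi, hc i hi⟩
    show p i - 2 ^ 26 + 1 ≤ 2 ^ 26
    omega) hr
  refine ⟨y, hy, fun i hi => (hy2 i hi).1, fun i hi => ?_⟩
  obtain ⟨δ, h0, h1, h2⟩ := (hy2 i hi).2
  refine ⟨δ, h0, h1, ?_⟩
  have h3 : ((p i - 2 ^ 26 + 1 : ℕ) : ℝ) = (p i : ℝ) - 2 ^ 26 + 1 := by
    rw [Nat.cast_add, Nat.cast_sub (ht.1 i hi)]
    norm_num
  rw [← h3]
  exact h2

theorem ksqR2 (t : ℝ) (x00 x01 x11 : ℝ)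
    (y11 : ℝ)
    (d11 : ℝ) (v0 v1 : ℝ)
    (ht : 0 ≤ t) (ha : 0 ≤ x00)
    (h11 : 0 ≤ d11 ∧ d11 ≤ 1 ∧ (x00 + 1) * x11 - x01 * x01 = t * (y11 + ((5 : ℕ) : ℝ) + d11))
    (hq : 0 ≤ y11 * v1 ^ 2 + (v1 ^ 2)) :
    0 ≤ x00 * v0 ^ 2 + 2 * x01 * v0 * v1 + x11 * v1 ^ 2 + (v0 ^ 2 + v1 ^ 2) := by
  have e11 := h11.2.2
  have g11 := mul_nonneg h11.1 (sq_nonneg v1)
  have s1 := sq_nonneg v1
  push_cast at e11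
  have hr : 0 ≤ d11 * v1 ^ 2 + 4 * (v1 ^ 2) := by
    linarith
  have hm := mul_nonneg ht (add_nonneg hq hr)
  have hs := sq_nonneg ((x00 + 1) * v0 + x01 * v1)
  have ha1 : 0 < x00 + 1 := by linarith
  have hv : 0 ≤ (x00 + 1) * (v1 ^ 2) := mul_nonneg ha1.le (by linarith)
  refine le_of_mul_le_mul_left (le_trans (le_of_eq (mul_zero _)) ?_) ha1
  refine le_trans (add_nonneg (add_nonneg hs hm) hv) (le_of_eq (Eq.symm ?_))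
  linear_combination v1 ^ 2 * e11

theorem ksqR3 (t : ℝ) (x00 x01 x02 x11 x12 x22 : ℝ)
    (y11 y12 y22 : ℝ)
    (d11 d12 d22 : ℝ) (v0 v1 v2 : ℝ)
    (ht : 0 ≤ t) (ha : 0 ≤ x00)
    (h11 : 0 ≤ d11 ∧ d11 ≤ 1 ∧ (x00 + 1) * x11 - x01 * x01 = t * (y11 + ((5 : ℕ) : ℝ) + d11))
    (h12 : 0 ≤ d12 ∧ d12 ≤ 1 ∧ (x00 + 1) * x12 - x01 * x02 = t * (y12 + ((0 : ℕ) : ℝ) + d12))
    (h22 : 0 ≤ d22 ∧ d22 ≤ 1 ∧ (x00 + 1) * x22 - x02 * x02 = t * (y22 + ((5 : ℕ) : ℝ) + d22))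
    (hq : 0 ≤ y11 * v1 ^ 2 + 2 * y12 * v1 * v2 + y22 * v2 ^ 2 + (v1 ^ 2 + v2 ^ 2)) :
    0 ≤ x00 * v0 ^ 2 + 2 * x01 * v0 * v1 + 2 * x02 * v0 * v2 + x11 * v1 ^ 2 + 2 * x12 * v1 * v2 +
      x22 * v2 ^ 2 + (v0 ^ 2 + v1 ^ 2 + v2 ^ 2) := by
  have e11 := h11.2.2
  have g11 := mul_nonneg h11.1 (sq_nonneg v1)
  have s1 := sq_nonneg v1
  have e12 := h12.2.2
  have g12 := ksqD d12 v1 v2 h12.1 h12.2.1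
  have e22 := h22.2.2
  have g22 := mul_nonneg h22.1 (sq_nonneg v2)
  have s2 := sq_nonneg v2
  push_cast at e11 e12 e22
  have hr : 0 ≤ d11 * v1 ^ 2 + 2 * d12 * v1 * v2 + d22 * v2 ^ 2 + 4 * (v1 ^ 2 + v2 ^ 2) := by
    linarith
  have hm := mul_nonneg ht (add_nonneg hq hr)
  have hs := sq_nonneg ((x00 + 1) * v0 + x01 * v1 + x02 * v2)
  have ha1 : 0 < x00 + 1 := by linarith
  have hv : 0 ≤ (x00 + 1) * (v1 ^ 2 + v2 ^ 2) := mul_nonneg ha1.le (by linarith)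
  refine le_of_mul_le_mul_left (le_trans (le_of_eq (mul_zero _)) ?_) ha1
  refine le_trans (add_nonneg (add_nonneg hs hm) hv) (le_of_eq (Eq.symm ?_))
  linear_combination v1 ^ 2 * e11 + 2 * v1 * v2 * e12 + v2 ^ 2 * e22

theorem ksqR4 (t : ℝ) (x00 x01 x02 x03 x11 x12 x13 x22 x23 x33 : ℝ)
    (y11 y12 y13 y22 y23 y33 : ℝ)
    (d11 d12 d13 d22 d23 d33 : ℝ) (v0 v1 v2 v3 : ℝ)
    (ht : 0 ≤ t) (ha : 0 ≤ x00)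
    (h11 : 0 ≤ d11 ∧ d11 ≤ 1 ∧ (x00 + 1) * x11 - x01 * x01 = t * (y11 + ((5 : ℕ) : ℝ) + d11))
    (h12 : 0 ≤ d12 ∧ d12 ≤ 1 ∧ (x00 + 1) * x12 - x01 * x02 = t * (y12 + ((0 : ℕ) : ℝ) + d12))
    (h13 : 0 ≤ d13 ∧ d13 ≤ 1 ∧ (x00 + 1) * x13 - x01 * x03 = t * (y13 + ((0 : ℕ) : ℝ) + d13))
    (h22 : 0 ≤ d22 ∧ d22 ≤ 1 ∧ (x00 + 1) * x22 - x02 * x02 = t * (y22 + ((5 : ℕ) : ℝ) + d22))
    (h23 : 0 ≤ d23 ∧ d23 ≤ 1 ∧ (x00 + 1) * x23 - x02 * x03 = t * (y23 + ((0 : ℕ) : ℝ) + d23))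
    (h33 : 0 ≤ d33 ∧ d33 ≤ 1 ∧ (x00 + 1) * x33 - x03 * x03 = t * (y33 + ((5 : ℕ) : ℝ) + d33))
    (hq : 0 ≤ y11 * v1 ^ 2 + 2 * y12 * v1 * v2 + 2 * y13 * v1 * v3 + y22 * v2 ^ 2 + 2 * y23 * v2 * v3 +
      y33 * v3 ^ 2 + (v1 ^ 2 + v2 ^ 2 + v3 ^ 2)) :
    0 ≤ x00 * v0 ^ 2 + 2 * x01 * v0 * v1 + 2 * x02 * v0 * v2 + 2 * x03 * v0 * v3 + x11 * v1 ^ 2 +
      2 * x12 * v1 * v2 + 2 * x13 * v1 * v3 + x22 * v2 ^ 2 + 2 * x23 * v2 * v3 + x33 * v3 ^ 2 +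
      (v0 ^ 2 + v1 ^ 2 + v2 ^ 2 + v3 ^ 2) := by
  have e11 := h11.2.2
  have g11 := mul_nonneg h11.1 (sq_nonneg v1)
  have s1 := sq_nonneg v1
  have e12 := h12.2.2
  have g12 := ksqD d12 v1 v2 h12.1 h12.2.1
  have e13 := h13.2.2
  have g13 := ksqD d13 v1 v3 h13.1 h13.2.1
  have e22 := h22.2.2
  have g22 := mul_nonneg h22.1 (sq_nonneg v2)
  have s2 := sq_nonneg v2
  have e23 := h23.2.2
  have g23 := ksqD d23 v2 v3 h23.1 h23.2.1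
  have e33 := h33.2.2
  have g33 := mul_nonneg h33.1 (sq_nonneg v3)
  have s3 := sq_nonneg v3
  push_cast at e11 e12 e13 e22 e23 e33
  have hr : 0 ≤ d11 * v1 ^ 2 + 2 * d12 * v1 * v2 + 2 * d13 * v1 * v3 + d22 * v2 ^ 2 + 2 * d23 * v2 * v3 +
      d33 * v3 ^ 2 + 4 * (v1 ^ 2 + v2 ^ 2 + v3 ^ 2) := by
    linarith
  have hm := mul_nonneg ht (add_nonneg hq hr)
  have hs := sq_nonneg ((x00 + 1) * v0 + x01 * v1 + x02 * v2 + x03 * v3)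
  have ha1 : 0 < x00 + 1 := by linarith
  have hv : 0 ≤ (x00 + 1) * (v1 ^ 2 + v2 ^ 2 + v3 ^ 2) := mul_nonneg ha1.le (by linarith)
  refine le_of_mul_le_mul_left (le_trans (le_of_eq (mul_zero _)) ?_) ha1
  refine le_trans (add_nonneg (add_nonneg hs hm) hv) (le_of_eq (Eq.symm ?_))
  linear_combination v1 ^ 2 * e11 + 2 * v1 * v2 * e12 + 2 * v1 * v3 * e13 + v2 ^ 2 * e22 + 2 * v2 * v3 * e23 + v3
    ^ 2 * e33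

theorem ksqR5 (t : ℝ) (x00 x01 x02 x03 x04 x11 x12 x13 x14 x22 x23 x24 x33 x34 x44 : ℝ)
    (y11 y12 y13 y14 y22 y23 y24 y33 y34 y44 : ℝ)
    (d11 d12 d13 d14 d22 d23 d24 d33 d34 d44 : ℝ) (v0 v1 v2 v3 v4 : ℝ)
    (ht : 0 ≤ t) (ha : 0 ≤ x00)
    (h11 : 0 ≤ d11 ∧ d11 ≤ 1 ∧ (x00 + 1) * x11 - x01 * x01 = t * (y11 + ((5 : ℕ) : ℝ) + d11))
    (h12 : 0 ≤ d12 ∧ d12 ≤ 1 ∧ (x00 + 1) * x12 - x01 * x02 = t * (y12 + ((0 : ℕ) : ℝ) + d12))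
    (h13 : 0 ≤ d13 ∧ d13 ≤ 1 ∧ (x00 + 1) * x13 - x01 * x03 = t * (y13 + ((0 : ℕ) : ℝ) + d13))
    (h14 : 0 ≤ d14 ∧ d14 ≤ 1 ∧ (x00 + 1) * x14 - x01 * x04 = t * (y14 + ((0 : ℕ) : ℝ) + d14))
    (h22 : 0 ≤ d22 ∧ d22 ≤ 1 ∧ (x00 + 1) * x22 - x02 * x02 = t * (y22 + ((5 : ℕ) : ℝ) + d22))
    (h23 : 0 ≤ d23 ∧ d23 ≤ 1 ∧ (x00 + 1) * x23 - x02 * x03 = t * (y23 + ((0 : ℕ) : ℝ) + d23))
    (h24 : 0 ≤ d24 ∧ d24 ≤ 1 ∧ (x00 + 1) * x24 - x02 * x04 = t * (y24 + ((0 : ℕ) : ℝ) + d24))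
    (h33 : 0 ≤ d33 ∧ d33 ≤ 1 ∧ (x00 + 1) * x33 - x03 * x03 = t * (y33 + ((5 : ℕ) : ℝ) + d33))
    (h34 : 0 ≤ d34 ∧ d34 ≤ 1 ∧ (x00 + 1) * x34 - x03 * x04 = t * (y34 + ((0 : ℕ) : ℝ) + d34))
    (h44 : 0 ≤ d44 ∧ d44 ≤ 1 ∧ (x00 + 1) * x44 - x04 * x04 = t * (y44 + ((5 : ℕ) : ℝ) + d44))
    (hq : 0 ≤ y11 * v1 ^ 2 + 2 * y12 * v1 * v2 + 2 * y13 * v1 * v3 + 2 * y14 * v1 * v4 + y22 * v2 ^ 2 +
      2 * y23 * v2 * v3 + 2 * y24 * v2 * v4 + y33 * v3 ^ 2 + 2 * y34 * v3 * v4 + y44 * v4 ^ 2 +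
      (v1 ^ 2 + v2 ^ 2 + v3 ^ 2 + v4 ^ 2)) :
    0 ≤ x00 * v0 ^ 2 + 2 * x01 * v0 * v1 + 2 * x02 * v0 * v2 + 2 * x03 * v0 * v3 + 2 * x04 * v0 *
      v4 + x11 * v1 ^ 2 + 2 * x12 * v1 * v2 + 2 * x13 * v1 * v3 + 2 * x14 * v1 * v4 + x22 * v2 ^
      2 + 2 * x23 * v2 * v3 + 2 * x24 * v2 * v4 + x33 * v3 ^ 2 + 2 * x34 * v3 * v4 + x44 * v4 ^
      2 + (v0 ^ 2 + v1 ^ 2 + v2 ^ 2 + v3 ^ 2 + v4 ^ 2) := by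
  have e11 := h11.2.2
  have g11 := mul_nonneg h11.1 (sq_nonneg v1)
  have s1 := sq_nonneg v1
  have e12 := h12.2.2
  have g12 := ksqD d12 v1 v2 h12.1 h12.2.1
  have e13 := h13.2.2
  have g13 := ksqD d13 v1 v3 h13.1 h13.2.1
  have e14 := h14.2.2
  have g14 := ksqD d14 v1 v4 h14.1 h14.2.1
  have e22 := h22.2.2
  have g22 := mul_nonneg h22.1 (sq_nonneg v2)
  have s2 := sq_nonneg v2
  have e23 := h23.2.2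
  have g23 := ksqD d23 v2 v3 h23.1 h23.2.1
  have e24 := h24.2.2
  have g24 := ksqD d24 v2 v4 h24.1 h24.2.1
  have e33 := h33.2.2
  have g33 := mul_nonneg h33.1 (sq_nonneg v3)
  have s3 := sq_nonneg v3
  have e34 := h34.2.2
  have g34 := ksqD d34 v3 v4 h34.1 h34.2.1
  have e44 := h44.2.2
  have g44 := mul_nonneg h44.1 (sq_nonneg v4)
  have s4 := sq_nonneg v4
  push_cast at e11 e12 e13 e14 e22 e23 e24 e33 e34 e44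
  have hr : 0 ≤ d11 * v1 ^ 2 + 2 * d12 * v1 * v2 + 2 * d13 * v1 * v3 + 2 * d14 * v1 * v4 + d22 * v2 ^ 2 +
      2 * d23 * v2 * v3 + 2 * d24 * v2 * v4 + d33 * v3 ^ 2 + 2 * d34 * v3 * v4 + d44 * v4 ^ 2 +
      4 * (v1 ^ 2 + v2 ^ 2 + v3 ^ 2 + v4 ^ 2) := by
    linarith
  have hm := mul_nonneg ht (add_nonneg hq hr)
  have hs := sq_nonneg ((x00 + 1) * v0 + x01 * v1 + x02 * v2 + x03 * v3 + x04 * v4)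
  have ha1 : 0 < x00 + 1 := by linarith
  have hv : 0 ≤ (x00 + 1) * (v1 ^ 2 + v2 ^ 2 + v3 ^ 2 + v4 ^ 2) := mul_nonneg ha1.le (by linarith)
  refine le_of_mul_le_mul_left (le_trans (le_of_eq (mul_zero _)) ?_) ha1
  refine le_trans (add_nonneg (add_nonneg hs hm) hv) (le_of_eq (Eq.symm ?_))
  linear_combination v1 ^ 2 * e11 + 2 * v1 * v2 * e12 + 2 * v1 * v3 * e13 + 2 * v1 * v4 * e14 + v2 ^ 2 * e22 + 2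
    * v2 * v3 * e23 + 2 * v2 * v4 * e24 + v3 ^ 2 * e33 + 2 * v3 * v4 * e34 + v4 ^ 2 * e44

theorem ksq1 (h_rok : S_rok) (n : ℕ) (x00 : ℕ → ℕ) (b00 : ∀ i, i < n → x00 i < 2 ^ 27)
    (h : sq1 (pk 56 n (fun _ => 1)) (pk 56 n x00) = true) (i : ℕ) (hi : i < n) (v0 : ℝ) :
    0 ≤ ((x00 i : ℝ) - 2 ^ 26) * v0 ^ 2 + (v0 ^ 2) := by
  have h1 : ((2 ^ 26 : ℕ) : ℝ) ≤ (x00 i : ℝ) := Nat.cast_le.2 ((h_rok.top n x00 b00 h).1 i hi)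
  push_cast at h1
  have h2 : 0 ≤ (x00 i : ℝ) - 2 ^ 26 := by linarith
  positivity

theorem ksq2 (h_rok : S_rok) (h_el : S_el) (n s1 : ℕ)
    (x00 x01 x11 : ℕ → ℕ)
    (b00 : ∀ i, i < n → x00 i < 2 ^ 27)
    (b01 : ∀ i, i < n → x01 i < 2 ^ 27)
    (b11 : ∀ i, i < n → x11 i < 2 ^ 27)
    (h : sq2 (pk 56 n (fun _ => 1)) s1
      (pk 56 n x00) (pk 56 n x01) (pk 56 n x11) = true)
    (i : ℕ) (hi : i < n) (v0 v1 : ℝ) :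
    0 ≤ ((x00 i : ℝ) - 2 ^ 26) * v0 ^ 2 + 2 * ((x01 i : ℝ) - 2 ^ 26) * v0 * v1 + ((x11 i : ℝ) - 2
      ^ 26) * v1 ^ 2 + (v0 ^ 2 + v1 ^ 2) := by
  unfold sq2 sr2 at h
  obtain ⟨h0, h⟩ := ksqBand _ _ h
  obtain ⟨htop, hs⟩ := ksqBand _ _ h0
  have hs' : s1 ≤ 28 := Nat.le_of_ble_eq_true hs
  have ht := h_rok.top n x00 b00 htop
  obtain ⟨r11, h⟩ := ksqBand _ _ h
  obtain ⟨y11, e11, c11, g11⟩ := ksqE h_el n s1 5 x00 x11 x01 x01 hs' (by norm_num)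
    b00 b11 b01 b01 ht r11
  rw [e11] at h
  obtain ⟨d11, k11⟩ := g11 i hi
  have hq := ksq1 h_rok n  y11 c11 h i hi v1
  have h1 : ((2 ^ 26 : ℕ) : ℝ) ≤ (x00 i : ℝ) := Nat.cast_le.2 (ht.1 i hi)
  push_cast at h1
  have h2 : 0 ≤ (x00 i : ℝ) - 2 ^ 26 := by linarith
  exact ksqR2 (2 ^ s1) _ _ _ _ d11 v0 v1 (by positivity) h2 k11 hq

theorem ksq3 (h_rok : S_rok) (h_el : S_el) (n s1 s2 : ℕ)
    (x00 x01 x02 x11 x12 x22 : ℕ → ℕ)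
    (b00 : ∀ i, i < n → x00 i < 2 ^ 27)
    (b01 : ∀ i, i < n → x01 i < 2 ^ 27)
    (b02 : ∀ i, i < n → x02 i < 2 ^ 27)
    (b11 : ∀ i, i < n → x11 i < 2 ^ 27)
    (b12 : ∀ i, i < n → x12 i < 2 ^ 27)
    (b22 : ∀ i, i < n → x22 i < 2 ^ 27)
    (h : sq3 (pk 56 n (fun _ => 1)) s1 s2
      (pk 56 n x00) (pk 56 n x01) (pk 56 n x02) (pk 56 n x11) (pk 56 n x12) (pk 56 n x22) = true)
    (i : ℕ) (hi : i < n) (v0 v1 v2 : ℝ) :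
    0 ≤ ((x00 i : ℝ) - 2 ^ 26) * v0 ^ 2 + 2 * ((x01 i : ℝ) - 2 ^ 26) * v0 * v1 + 2 * ((x02 i : ℝ)
      - 2 ^ 26) * v0 * v2 + ((x11 i : ℝ) - 2 ^ 26) * v1 ^ 2 + 2 * ((x12 i : ℝ) - 2 ^ 26) * v1 *
      v2 + ((x22 i : ℝ) - 2 ^ 26) * v2 ^ 2 + (v0 ^ 2 + v1 ^ 2 + v2 ^ 2) := by
  unfold sq3 sr3 at h
  obtain ⟨h0, h⟩ := ksqBand _ _ h
  obtain ⟨htop, hs⟩ := ksqBand _ _ h0
  have hs' : s1 ≤ 28 := Nat.le_of_ble_eq_true hs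
  have ht := h_rok.top n x00 b00 htop
  obtain ⟨r11, h⟩ := ksqBand _ _ h
  obtain ⟨r12, h⟩ := ksqBand _ _ h
  obtain ⟨r22, h⟩ := ksqBand _ _ h
  obtain ⟨y11, e11, c11, g11⟩ := ksqE h_el n s1 5 x00 x11 x01 x01 hs' (by norm_num)
    b00 b11 b01 b01 ht r11
  obtain ⟨y12, e12, c12, g12⟩ := ksqE h_el n s1 0 x00 x12 x01 x02 hs' (by norm_num)
    b00 b12 b01 b02 ht r12
  obtain ⟨y22, e22, c22, g22⟩ := ksqE h_el n s1 5 x00 x22 x02 x02 hs' (by norm_num)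
    b00 b22 b02 b02 ht r22
  rw [e11, e12, e22] at h
  obtain ⟨d11, k11⟩ := g11 i hi
  obtain ⟨d12, k12⟩ := g12 i hi
  obtain ⟨d22, k22⟩ := g22 i hi
  have hq := ksq2 h_rok h_el n s2 y11 y12 y22 c11 c12 c22 h i hi v1 v2
  have h1 : ((2 ^ 26 : ℕ) : ℝ) ≤ (x00 i : ℝ) := Nat.cast_le.2 (ht.1 i hi)
  push_cast at h1
  have h2 : 0 ≤ (x00 i : ℝ) - 2 ^ 26 := by linarith
  exact ksqR3 (2 ^ s1) _ _ _ _ _ _ _ _ _ d11 d12 d22 v0 v1 v2 (by positivity) h2 k11 k12 k22 hq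

theorem ksq4 (h_rok : S_rok) (h_el : S_el) (n s1 s2 s3 : ℕ)
    (x00 x01 x02 x03 x11 x12 x13 x22 x23 x33 : ℕ → ℕ)
    (b00 : ∀ i, i < n → x00 i < 2 ^ 27)
    (b01 : ∀ i, i < n → x01 i < 2 ^ 27)
    (b02 : ∀ i, i < n → x02 i < 2 ^ 27)
    (b03 : ∀ i, i < n → x03 i < 2 ^ 27)
    (b11 : ∀ i, i < n → x11 i < 2 ^ 27)
    (b12 : ∀ i, i < n → x12 i < 2 ^ 27)
    (b13 : ∀ i, i < n → x13 i < 2 ^ 27)
    (b22 : ∀ i, i < n → x22 i < 2 ^ 27)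
    (b23 : ∀ i, i < n → x23 i < 2 ^ 27)
    (b33 : ∀ i, i < n → x33 i < 2 ^ 27)
    (h : sq4 (pk 56 n (fun _ => 1)) s1 s2 s3
      (pk 56 n x00) (pk 56 n x01) (pk 56 n x02) (pk 56 n x03) (pk 56 n x11) (pk 56 n x12) (pk 56
      n x13) (pk 56 n x22) (pk 56 n x23) (pk 56 n x33) = true)
    (i : ℕ) (hi : i < n) (v0 v1 v2 v3 : ℝ) :
    0 ≤ ((x00 i : ℝ) - 2 ^ 26) * v0 ^ 2 + 2 * ((x01 i : ℝ) - 2 ^ 26) * v0 * v1 + 2 * ((x02 i : ℝ)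
      - 2 ^ 26) * v0 * v2 + 2 * ((x03 i : ℝ) - 2 ^ 26) * v0 * v3 + ((x11 i : ℝ) - 2 ^ 26) * v1 ^
      2 + 2 * ((x12 i : ℝ) - 2 ^ 26) * v1 * v2 + 2 * ((x13 i : ℝ) - 2 ^ 26) * v1 * v3 + ((x22 i
      : ℝ) - 2 ^ 26) * v2 ^ 2 + 2 * ((x23 i : ℝ) - 2 ^ 26) * v2 * v3 + ((x33 i : ℝ) - 2 ^ 26) *
      v3 ^ 2 + (v0 ^ 2 + v1 ^ 2 + v2 ^ 2 + v3 ^ 2) := by
  unfold sq4 sr4 at h
  obtain ⟨h0, h⟩ := ksqBand _ _ h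
  obtain ⟨htop, hs⟩ := ksqBand _ _ h0
  have hs' : s1 ≤ 28 := Nat.le_of_ble_eq_true hs
  have ht := h_rok.top n x00 b00 htop
  obtain ⟨r11, h⟩ := ksqBand _ _ h
  obtain ⟨r12, h⟩ := ksqBand _ _ h
  obtain ⟨r13, h⟩ := ksqBand _ _ h
  obtain ⟨r22, h⟩ := ksqBand _ _ h
  obtain ⟨r23, h⟩ := ksqBand _ _ h
  obtain ⟨r33, h⟩ := ksqBand _ _ h
  obtain ⟨y11, e11, c11, g11⟩ := ksqE h_el n s1 5 x00 x11 x01 x01 hs' (by norm_num)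
    b00 b11 b01 b01 ht r11
  obtain ⟨y12, e12, c12, g12⟩ := ksqE h_el n s1 0 x00 x12 x01 x02 hs' (by norm_num)
    b00 b12 b01 b02 ht r12
  obtain ⟨y13, e13, c13, g13⟩ := ksqE h_el n s1 0 x00 x13 x01 x03 hs' (by norm_num)
    b00 b13 b01 b03 ht r13
  obtain ⟨y22, e22, c22, g22⟩ := ksqE h_el n s1 5 x00 x22 x02 x02 hs' (by norm_num)
    b00 b22 b02 b02 ht r22
  obtain ⟨y23, e23, c23, g23⟩ := ksqE h_el n s1 0 x00 x23 x02 x03 hs' (by norm_num)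
    b00 b23 b02 b03 ht r23
  obtain ⟨y33, e33, c33, g33⟩ := ksqE h_el n s1 5 x00 x33 x03 x03 hs' (by norm_num)
    b00 b33 b03 b03 ht r33
  rw [e11, e12, e13, e22, e23, e33] at h
  obtain ⟨d11, k11⟩ := g11 i hi
  obtain ⟨d12, k12⟩ := g12 i hi
  obtain ⟨d13, k13⟩ := g13 i hi
  obtain ⟨d22, k22⟩ := g22 i hi
  obtain ⟨d23, k23⟩ := g23 i hi
  obtain ⟨d33, k33⟩ := g33 i hi
  have hq := ksq3 h_rok h_el n s2 s3 y11 y12 y13 y22 y23 y33 c11 c12 c13 c22 c23 c33 h i hi v1 v2 v3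
  have h1 : ((2 ^ 26 : ℕ) : ℝ) ≤ (x00 i : ℝ) := Nat.cast_le.2 (ht.1 i hi)
  push_cast at h1
  have h2 : 0 ≤ (x00 i : ℝ) - 2 ^ 26 := by linarith
  exact ksqR4 (2 ^ s1) _ _ _ _ _ _ _ _ _ _ _ _ _ _ _ _ d11 d12 d13 d22 d23 d33 v0 v1 v2 v3 (by
    positivity) h2 k11 k12 k13 k22 k23 k33 hq

theorem ksq5 (h_rok : S_rok) (h_el : S_el) (n s1 s2 s3 s4 : ℕ)
    (x00 x01 x02 x03 x04 x11 x12 x13 x14 x22 x23 x24 x33 x34 x44 : ℕ → ℕ)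
    (b00 : ∀ i, i < n → x00 i < 2 ^ 27)
    (b01 : ∀ i, i < n → x01 i < 2 ^ 27)
    (b02 : ∀ i, i < n → x02 i < 2 ^ 27)
    (b03 : ∀ i, i < n → x03 i < 2 ^ 27)
    (b04 : ∀ i, i < n → x04 i < 2 ^ 27)
    (b11 : ∀ i, i < n → x11 i < 2 ^ 27)
    (b12 : ∀ i, i < n → x12 i < 2 ^ 27)
    (b13 : ∀ i, i < n → x13 i < 2 ^ 27)
    (b14 : ∀ i, i < n → x14 i < 2 ^ 27)
    (b22 : ∀ i, i < n → x22 i < 2 ^ 27)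
    (b23 : ∀ i, i < n → x23 i < 2 ^ 27)
    (b24 : ∀ i, i < n → x24 i < 2 ^ 27)
    (b33 : ∀ i, i < n → x33 i < 2 ^ 27)
    (b34 : ∀ i, i < n → x34 i < 2 ^ 27)
    (b44 : ∀ i, i < n → x44 i < 2 ^ 27)
    (h : sq5 (pk 56 n (fun _ => 1)) s1 s2 s3 s4
      (pk 56 n x00) (pk 56 n x01) (pk 56 n x02) (pk 56 n x03) (pk 56 n x04) (pk 56 n x11) (pk 56
      n x12) (pk 56 n x13) (pk 56 n x14) (pk 56 n x22) (pk 56 n x23) (pk 56 n x24) (pk 56 n x33)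
      (pk 56 n x34) (pk 56 n x44) = true)
    (i : ℕ) (hi : i < n) (v0 v1 v2 v3 v4 : ℝ) :
    0 ≤ ((x00 i : ℝ) - 2 ^ 26) * v0 ^ 2 + 2 * ((x01 i : ℝ) - 2 ^ 26) * v0 * v1 + 2 * ((x02 i : ℝ)
      - 2 ^ 26) * v0 * v2 + 2 * ((x03 i : ℝ) - 2 ^ 26) * v0 * v3 + 2 * ((x04 i : ℝ) - 2 ^ 26) *
      v0 * v4 + ((x11 i : ℝ) - 2 ^ 26) * v1 ^ 2 + 2 * ((x12 i : ℝ) - 2 ^ 26) * v1 * v2 + 2 *
      ((x13 i : ℝ) - 2 ^ 26) * v1 * v3 + 2 * ((x14 i : ℝ) - 2 ^ 26) * v1 * v4 + ((x22 i : ℝ) - 2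
      ^ 26) * v2 ^ 2 + 2 * ((x23 i : ℝ) - 2 ^ 26) * v2 * v3 + 2 * ((x24 i : ℝ) - 2 ^ 26) * v2 *
      v4 + ((x33 i : ℝ) - 2 ^ 26) * v3 ^ 2 + 2 * ((x34 i : ℝ) - 2 ^ 26) * v3 * v4 + ((x44 i : ℝ)
      - 2 ^ 26) * v4 ^ 2 + (v0 ^ 2 + v1 ^ 2 + v2 ^ 2 + v3 ^ 2 + v4 ^ 2) := by
  unfold sq5 sr5 at h
  obtain ⟨h0, h⟩ := ksqBand _ _ h
  obtain ⟨htop, hs⟩ := ksqBand _ _ h0
  have hs' : s1 ≤ 28 := Nat.le_of_ble_eq_true hs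
  have ht := h_rok.top n x00 b00 htop
  obtain ⟨r11, h⟩ := ksqBand _ _ h
  obtain ⟨r12, h⟩ := ksqBand _ _ h
  obtain ⟨r13, h⟩ := ksqBand _ _ h
  obtain ⟨r14, h⟩ := ksqBand _ _ h
  obtain ⟨r22, h⟩ := ksqBand _ _ h
  obtain ⟨r23, h⟩ := ksqBand _ _ h
  obtain ⟨r24, h⟩ := ksqBand _ _ h
  obtain ⟨r33, h⟩ := ksqBand _ _ h
  obtain ⟨r34, h⟩ := ksqBand _ _ h
  obtain ⟨r44, h⟩ := ksqBand _ _ h
  obtain ⟨y11, e11, c11, g11⟩ := ksqE h_el n s1 5 x00 x11 x01 x01 hs' (by norm_num)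
    b00 b11 b01 b01 ht r11
  obtain ⟨y12, e12, c12, g12⟩ := ksqE h_el n s1 0 x00 x12 x01 x02 hs' (by norm_num)
    b00 b12 b01 b02 ht r12
  obtain ⟨y13, e13, c13, g13⟩ := ksqE h_el n s1 0 x00 x13 x01 x03 hs' (by norm_num)
    b00 b13 b01 b03 ht r13
  obtain ⟨y14, e14, c14, g14⟩ := ksqE h_el n s1 0 x00 x14 x01 x04 hs' (by norm_num)
    b00 b14 b01 b04 ht r14
  obtain ⟨y22, e22, c22, g22⟩ := ksqE h_el n s1 5 x00 x22 x02 x02 hs' (by norm_num)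
    b00 b22 b02 b02 ht r22
  obtain ⟨y23, e23, c23, g23⟩ := ksqE h_el n s1 0 x00 x23 x02 x03 hs' (by norm_num)
    b00 b23 b02 b03 ht r23
  obtain ⟨y24, e24, c24, g24⟩ := ksqE h_el n s1 0 x00 x24 x02 x04 hs' (by norm_num)
    b00 b24 b02 b04 ht r24
  obtain ⟨y33, e33, c33, g33⟩ := ksqE h_el n s1 5 x00 x33 x03 x03 hs' (by norm_num)
    b00 b33 b03 b03 ht r33
  obtain ⟨y34, e34, c34, g34⟩ := ksqE h_el n s1 0 x00 x34 x03 x04 hs' (by norm_num)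
    b00 b34 b03 b04 ht r34
  obtain ⟨y44, e44, c44, g44⟩ := ksqE h_el n s1 5 x00 x44 x04 x04 hs' (by norm_num)
    b00 b44 b04 b04 ht r44
  rw [e11, e12, e13, e14, e22, e23, e24, e33, e34, e44] at h
  obtain ⟨d11, k11⟩ := g11 i hi
  obtain ⟨d12, k12⟩ := g12 i hi
  obtain ⟨d13, k13⟩ := g13 i hi
  obtain ⟨d14, k14⟩ := g14 i hi
  obtain ⟨d22, k22⟩ := g22 i hi
  obtain ⟨d23, k23⟩ := g23 i hi
  obtain ⟨d24, k24⟩ := g24 i hi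
  obtain ⟨d33, k33⟩ := g33 i hi
  obtain ⟨d34, k34⟩ := g34 i hi
  obtain ⟨d44, k44⟩ := g44 i hi
  have hq := ksq4 h_rok h_el n s2 s3 s4 y11 y12 y13 y14 y22 y23 y24 y33 y34 y44 c11 c12 c13 c14 c22 c23
    c24 c33 c34 c44 h i hi v1 v2 v3 v4
  have h1 : ((2 ^ 26 : ℕ) : ℝ) ≤ (x00 i : ℝ) := Nat.cast_le.2 (ht.1 i hi)
  push_cast at h1
  have h2 : 0 ≤ (x00 i : ℝ) - 2 ^ 26 := by linarith
  exact ksqR5 (2 ^ s1) _ _ _ _ _ _ _ _ _ _ _ _ _ _ _ _ _ _ _ _ _ _ _ _ _ d11 d12 d13 d14 d22 d23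
    d24 d33 d34 d44 v0 v1 v2 v3 v4 (by positivity) h2 k11 k12 k13 k14 k22 k23
    k24 k33 k34 k44 hq

theorem sq5_ok (h_rok : S_rok) (h_el : S_el) : S_sq5 := by
  intro n s1 s2 s3 s4 x hx h i hi v
  exact ksq5 h_rok h_el n s1 s2 s3 s4 (x 0) (x 1) (x 2) (x 3) (x 4) (x 5) (x 6) (x 7) (x 8) (x 9) (x 10)
    (x 11) (x 12) (x 13) (x 14) (fun j hj => hx 0 j (by norm_num) hj)
    (fun j hj => hx 1 j (by norm_num) hj) (fun j hj => hx 2 j (by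
    norm_num) hj) (fun j hj => hx 3 j (by norm_num) hj) (fun j hj =>
    hx 4 j (by norm_num) hj) (fun j hj => hx 5 j (by norm_num) hj)
    (fun j hj => hx 6 j (by norm_num) hj) (fun j hj => hx 7 j (by
    norm_num) hj) (fun j hj => hx 8 j (by norm_num) hj) (fun j hj =>
    hx 9 j (by norm_num) hj) (fun j hj => hx 10 j (by norm_num) hj)
    (fun j hj => hx 11 j (by norm_num) hj) (fun j hj => hx 12 j (by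
    norm_num) hj) (fun j hj => hx 13 j (by norm_num) hj) (fun j hj =>
    hx 14 j (by norm_num) hj) h i hi (v 0) (v 1) (v 2) (v 3) (v 4)

end Vale.Agent.P098.Ck
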