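import Vale.Agent.P098.CkSem

/-!
# P098: substitutions in the checker
-/

open Finset

noncomputable section
namespace Vale.Agent.P098.Ck

theorem ksub_band (a b : Bool) : band a b = true ↔ a = true ∧ b = true := by
  cases a <;> cases b <;> simp [band]

theorem ksub_pk_mul (L J k : ℕ) (u : ℕ → ℕ) :
    pk L J (fun j => k * u j) = k * pk L J u := by
  unfold pk
  rw [Finset.mul_sum]
  exact Finset.sum_congr rfl fun j _ => by ring

theorem ksub_sub0 (h_alg : S_alg) (L J a b : ℕ) (p : P) (F : Pt → ℕ → ℝ) (hF : Rep L J p F) :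
    Rep L J (sub0 a b p) (fun e j => F (cs ((a : ℝ) - (b : ℝ)) e) j) := by
  induction p generalizing F with
  | nil => exact fun e j hj => hF _ j hj
  | lf x y m =>
    obtain ⟨u, v, h1, h2, h3, h4⟩ := hF
    exact ⟨u, v, h1, h2, h3, fun e j hj => h4 _ j hj⟩
  | cons c r _ ir =>
    obtain ⟨C, R, h1, h2, h3⟩ := hF
    refine h_alg.congr L J _ _ _
      (h_alg.padd L J c _ C _ h1 (h_alg.zsm L J a b _ _ (ir R h2))) fun e j hj => ?_
    exact h3 _ j hj

theorem ksub_nil (L J : ℕ) (r : P) (R : Pt → ℕ → ℝ) (h : Rep L J r R) (hr : isNil r = true) :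
    ∀ e j, j < J → R e j = 0 := by
  cases r with
  | nil => exact h
  | lf a b m => exact absurd hr (by simp [isNil])
  | cons c r => exact absurd hr (by simp [isNil])

theorem ksub_pre (L J K : ℕ) (hK : 0 < K) (p : P) (d : ℕ) (F : Pt → ℕ → ℝ) (hF : Rep L J p F)
    (hd : dg p d = true) :
    Rep L J (pre K p d) (fun e j => (K : ℝ) ^ d * F (fun n => e n / (K : ℝ)) j) := by
  induction p generalizing F d with
  | nil =>
    intro e j hj
    show (K : ℝ) ^ d * F _ j = 0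
    rw [hF _ j hj, mul_zero]
  | lf x y m =>
    obtain ⟨u, v, h1, h2, h3, h4⟩ := hF
    refine ⟨fun j => K ^ d * u j, fun j => K ^ d * v j, ?_, ?_, ?_, ?_⟩
    · rw [ksub_pk_mul, ← h1]; rfl
    · rw [ksub_pk_mul, ← h2]; rfl
    · intro j hj
      have k1 := h3 j hj
      exact ⟨Nat.mul_le_mul_left _ k1.1, Nat.mul_le_mul_left _ k1.2⟩
    · intro e j hj
      show (K : ℝ) ^ d * F _ j = _
      rw [h4 _ j hj]
      push_cast
      ring
  | cons c r ic ir =>
    obtain ⟨C, R, h1, h2, h3⟩ := hF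
    have hK' : (K : ℝ) ≠ 0 := by exact_mod_cast hK.ne'
    cases d with
    | zero =>
      have hd' : band (dg c 0) (isNil r) = true := hd
      rw [ksub_band] at hd'
      refine ⟨_, fun _ _ => 0, ic 0 C h1 hd'.1, fun _ _ _ => rfl, fun e j hj => ?_⟩
      show (K : ℝ) ^ 0 * F _ j = (K : ℝ) ^ 0 * C (fun n => tl e n / (K : ℝ)) j + e 0 * 0
      rw [h3 _ j hj, ksub_nil L J r R h2 hd'.2 _ j hj]
      simp only [mul_zero, add_zero]
      rfl
    | succ d =>
      have hd' : band (dg c (d + 1)) (dg r d) = true := hd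
      rw [ksub_band] at hd'
      refine ⟨_, _, ic (d + 1) C h1 hd'.1, ir d R h2 hd'.2, fun e j hj => ?_⟩
      show (K : ℝ) ^ (d + 1) * F _ j = (K : ℝ) ^ (d + 1) * C (fun n => tl e n / (K : ℝ)) j +
        e 0 * ((K : ℝ) ^ d * R (fun n => e n / (K : ℝ)) j)
      rw [h3 _ j hj]
      have : tl (fun n => e n / (K : ℝ)) = fun n => tl e n / (K : ℝ) := rfl
      rw [this]
      field_simp
      ring

theorem ksub_sft0 (h_alg : S_alg) (L J a b h : ℕ) (p : P) (F : Pt → ℕ → ℝ) (hF : Rep L J p F) :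
    Rep L J (sft0 a b h p) (fun e j => F (cs ((a : ℝ) - (b : ℝ) + (h : ℝ) * e 0) (tl e)) j) := by
  induction p generalizing F with
  | nil => exact fun e j hj => hF _ j hj
  | lf x y m =>
    obtain ⟨u, v, h1, h2, h3, h4⟩ := hF
    exact ⟨u, v, h1, h2, h3, fun e j hj => h4 _ j hj⟩
  | cons c r _ ir =>
    obtain ⟨C, R, h1, h2, h3⟩ := hF
    have k1 := ir R h2
    have k2 : Rep L J (P.cons c (pmn h (sft0 a b h r))) (fun e j => C (tl e) j +
        e 0 * ((h : ℝ) * R (cs ((a : ℝ) - (b : ℝ) + (h : ℝ) * e 0) (tl e)) j)) :=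
      ⟨C, _, h1, h_alg.pmn L J h _ _ k1, fun _ _ _ => rfl⟩
    refine h_alg.congr L J _ _ _
      (h_alg.padd L J _ _ _ _ k2 (h_alg.zsm L J a b _ _ k1)) fun e j hj => ?_
    rw [h3 _ j hj]
    show C (tl e) j + ((a : ℝ) - (b : ℝ) + (h : ℝ) * e 0) * _ = _
    ring

theorem ksub_lift (L J : ℕ) (f : P → P) (φ : Pt → Pt)
    (hf : ∀ p F, Rep L J p F → Rep L J (f p) (fun e j => F (φ e) j))
    (p : P) (F : Pt → ℕ → ℝ) (hF : Rep L J p F) :
    Rep L J (lift f p) (fun e j => F (cs (e 0) (φ (tl e))) j) := by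
  induction p generalizing F with
  | nil => exact fun e j hj => hF _ j hj
  | lf x y m =>
    obtain ⟨u, v, h1, h2, h3, h4⟩ := hF
    exact ⟨u, v, h1, h2, h3, fun e j hj => h4 _ j hj⟩
  | cons c r _ ir =>
    obtain ⟨C, R, h1, h2, h3⟩ := hF
    exact ⟨_, _, hf c C h1, ir R h2, fun e j hj => h3 _ j hj⟩

theorem ksub_shift3 (h_alg : S_alg) (L J l0 h0 l1 h1 l2 h2 : ℕ) (p : P) (F : Pt → ℕ → ℝ)
    (hF : Rep L J p F) :
    Rep L J (shift3 p l0 h0 l1 h1 l2 h2) (fun e j =>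
      F (cs ((l0 : ℝ) + h0 + ((h0 - l0 : ℕ) : ℝ) * e 0) (cs ((l1 : ℝ) + h1 + ((h1 - l1 : ℕ) : ℝ) * e 1)
        (cs ((l2 : ℝ) + h2 + ((h2 - l2 : ℕ) : ℝ) * e 2) (tl (tl (tl e)))))) j) := by
  have k2 := ksub_lift L J _ _ (ksub_lift L J _ _
    (ksub_sft0 h_alg L J (l2 + h2) 0 (h2 - l2))) p F hF
  have k1 := ksub_lift L J _ _ (ksub_sft0 h_alg L J (l1 + h1) 0 (h1 - l1)) _ _ k2
  have k0 := ksub_sft0 h_alg L J (l0 + h0) 0 (h0 - l0) _ _ k1
  refine h_alg.congr L J _ _ _ k0 fun e j _ => ?_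
  simp only [Nat.cast_add, Nat.cast_zero, sub_zero]
  rfl

theorem sub (h_alg : S_alg) : S_sub :=
  ⟨ksub_sub0 h_alg, fun L J K d p F hK hF hd => ksub_pre L J K hK p d F hF hd, ksub_shift3 h_alg⟩

end Vale.Agent.P098.Ck
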