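import Vale.Agent.P098.CkSem

/-! # P098: the three lists built from the shape matrices -/

open Finset

noncomputable section
namespace Vale.Agent.P098.Ck

/-- Coefficients in slot `k`. -/
def ksx_ce : EL → ℕ → ℕ → ℕ → ℝ
  | EL.nil, _, _, _ => 0
  | EL.cons k0 t l, k, i, j => (if k = k0 then co t.p i j else 0) + ksx_ce l k i j

/-- Prepend a value to a sequence. -/
def ksx_cs {α : Type} (a : α) (f : ℕ → α) : ℕ → α
  | 0 => a
  | m + 1 => f m

/-- Sum of `f` over slot `k`. -/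
def ksx_se (f : TM → ℕ) : EL → ℕ → ℝ
  | EL.nil, _ => 0
  | EL.cons k0 t l, k => (if k = k0 then (f t : ℝ) else 0) + ksx_se f l k

theorem ksx_band {a b : Bool} (h : band a b = true) : a = true ∧ b = true := by
  cases a <;> cases b <;> simp_all [band]

theorem ksx_eok {k : ℕ} {t : TM} {l : EL} (h : eok (EL.cons k t l) = true) :
    k < 16 ∧ dp t.p 2 = true ∧ dg t.p 5 = true ∧ eok l = true := by
  obtain ⟨h1, h2⟩ := ksx_band (a := band (Nat.blt k 16) (band (dp t.p 2) (dg t.p 5)))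
    (b := eok l) h
  obtain ⟨h3, h4⟩ := ksx_band h1
  obtain ⟨h5, h6⟩ := ksx_band h4
  exact ⟨Nat.blt_eq ▸ h3, h5, h6, h2⟩

theorem ksx_ds (k k0 : ℕ) (t : TM) (l : EL) (g : ℕ → ℕ → ℝ) :
    ds (fun i j => ksx_ce (EL.cons k0 t l) k i j * g i j) =
      (if k = k0 then ds (fun i j => co t.p i j * g i j) else 0) +
        ds (fun i j => ksx_ce l k i j * g i j) := by
  unfold ds
  simp only [ksx_ce]
  split_ifs
  · simp only [add_mul, sum_add_distrib]
  · simp only [zero_add]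

theorem ksx_zero (h_ctr : S_ctr) (e : EL) (h : eok e = true) (k i j : ℕ) (hij : 5 < i + j) :
    ksx_ce e k i j = 0 := by
  induction e with
  | nil => rfl
  | cons k0 t l ih =>
    obtain ⟨-, h2, h3, h4⟩ := ksx_eok h
    simp only [ksx_ce]
    rw [ih h4, (h_ctr.val t.p h2 h3).2 i j hij]
    simp

theorem ksx_slot {Q k k0 x : ℕ} (hx : x < Q) :
    (Q * k0 ≤ Q * k + x ∧ Q * k + x < Q * k0 + Q) ↔ k = k0 := by
  constructor
  · rintro ⟨h1, h2⟩
    have a : Q * k0 < Q * (k + 1) := by rw [Nat.mul_succ]; omega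
    have b : Q * k < Q * (k0 + 1) := by rw [Nat.mul_succ]; omega
    have a' := Nat.lt_of_mul_lt_mul_left a
    have b' := Nat.lt_of_mul_lt_mul_left b
    omega
  · rintro rfl
    omega

theorem ksx_sxp (h_alg : S_alg) (h_ctr : S_ctr) (Q J : ℕ) (hJ : 16 * Q ≤ J) (W : ℕ → ℕ → P)
    (w : ℕ → ℕ → ℕ → ℝ) (hW : ∀ i j, i + j ≤ 5 → Rep 112 Q (W i j) (fun _ => w i j)) (e : EL)
    (h : eok e = true) : ∃ z : ℕ → ℝ, Rep 112 J (sxp Q W e) (fun _ => z) ∧
      (∀ k x, x < Q → z (Q * k + x) = ds (fun i j => ksx_ce e k i j * w i j x)) ∧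
      ∀ x, 16 * Q ≤ x → z x = 0 := by
  induction e with
  | nil =>
    refine ⟨fun _ => 0, fun _ _ _ => rfl, fun k x _ => ?_, fun _ _ => rfl⟩
    simp [ds, ksx_ce]
  | cons k0 t l ih =>
    obtain ⟨h1, h2, h3, h4⟩ := ksx_eok h
    obtain ⟨z, z1, z2, z3⟩ := ih h4
    have hk : Q * k0 + Q ≤ 16 * Q := by
      rw [← Nat.mul_succ, Nat.mul_comm 16 Q]
      exact Nat.mul_le_mul_left Q h1
    have a := h_alg.padd 112 J _ _ _ _
      (h_alg.place 112 Q J (Q * k0) _ _ (h_ctr.ctr 112 Q W w t.p h2 h3 hW) (hk.trans hJ)) z1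
    refine ⟨fun x => (if Q * k0 ≤ x ∧ x < Q * k0 + Q then
      ds (fun i j => co t.p i j * w i j (x - Q * k0)) else 0) + z x, a, fun k x hx => ?_,
      fun x hx => ?_⟩
    · simp only
      rw [ksx_ds, z2 k x hx]
      congr 1
      by_cases hkk : k = k0
      · rw [if_pos ((ksx_slot hx).2 hkk), if_pos hkk, hkk, Nat.add_sub_cancel_left]
      · rw [if_neg fun hc => hkk ((ksx_slot hx).1 hc), if_neg hkk]
    · simp only
      rw [z3 x hx, if_neg (by omega), add_zero]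

theorem ksx_sx (h_alg : S_alg) (h_ctr : S_ctr) (h_wco : S_wco) (Q : ℕ) (W : ℕ → ℕ → P)
    (w : ℕ → ℕ → ℕ → ℝ) (hW : ∀ i j, i + j ≤ 5 → Rep 112 Q (W i j) (fun _ => w i j)) (e : EL)
    (h : eok e = true) : ∃ z : ℕ → ℝ, Rep 112 (16 * Q + 656) (sx Q W e) (fun _ => z) ∧
      ∀ k, k < 16 → (∀ x, x < Q → z (Q * k + x) = ds (fun i j => ksx_ce e k i j * w i j x)) ∧
        ∀ t, t < 41 → z (16 * Q + (41 * k + t)) = ds (fun i j => ksx_ce e k i j * wc i j t) := by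
  obtain ⟨z, z1, z2, z3⟩ := ksx_sxp h_alg h_ctr Q (16 * Q + 656) (by omega) W w hW e h
  obtain ⟨y, y1, y2, -⟩ := ksx_sxp h_alg h_ctr 41 656 (by omega) wco wc h_wco.rep e h
  have a := h_alg.padd 112 _ _ _ _ _ z1
    (h_alg.place 112 656 (16 * Q + 656) (16 * Q) _ _ y1 le_rfl)
  have e1 : sx Q W e = padd (sxp Q W e) (place (112 * (16 * Q)) (sxp 41 wco e)) := by
    have : 112 * (16 * Q) = Nat.mul 1792 Q := by
      change _ = 1792 * Q
      omega
    rw [this]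
    rfl
  rw [e1]
  refine ⟨fun x => z x + (if 16 * Q ≤ x ∧ x < 16 * Q + 656 then y (x - 16 * Q) else 0), a,
    fun k hk => ⟨fun x hx => ?_, fun t ht => ?_⟩⟩
  · have hk' : Q * k + Q ≤ 16 * Q := by
      rw [← Nat.mul_succ, Nat.mul_comm 16 Q]
      exact Nat.mul_le_mul_left Q hk
    simp only
    rw [z2 k x hx, if_neg (by omega), add_zero]
  · simp only
    rw [z3 _ (by omega), if_pos (by omega), zero_add, Nat.add_sub_cancel_left, y2 k t ht]

theorem ksx_leaf (k a : ℕ) (hk : k < 16) :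
    Rep 112 656 (P.lf (Nat.shiftLeft a (Nat.add (Nat.mul 4592 k) 4480)) 0 a)
      (fun _ x => if x = 41 * k + 40 then (a : ℝ) else 0) := by
  refine ⟨fun x => if x = 41 * k + 40 then a else 0, fun _ => 0, ?_, ?_, fun j _ => ?_,
    fun _ j _ => ?_⟩
  · unfold pk
    rw [sum_eq_single (41 * k + 40)]
    · change a <<< (4592 * k + 4480) = _
      rw [Nat.shiftLeft_eq, show 4592 * k + 4480 = 112 * (41 * k + 40) by omega]
      simp
    · intro b _ hb
      simp [hb]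
    · intro hn
      exact absurd (mem_range.2 (by omega)) hn
  · simp [pk]
  · simp only
    split_ifs <;> omega
  · simp only
    split_ifs <;> simp

theorem ksx_srl (h_alg : S_alg) (f : TM → ℕ) (e : EL) (h : eok e = true) :
    ∃ ρ : ℕ → ℝ, Rep 112 656 (srl f e) (fun _ => ρ) ∧ ∀ k, ρ (41 * k + 40) = ksx_se f e k := by
  induction e with
  | nil => exact ⟨fun _ => 0, fun _ _ _ => rfl, fun _ => rfl⟩
  | cons k0 t l ih =>
    obtain ⟨h1, -, -, h4⟩ := ksx_eok h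
    obtain ⟨ρ, r1, r2⟩ := ih h4
    have a := h_alg.addL 112 656 _ _ _ _ _ _ (ksx_leaf k0 (f t) h1) r1
    refine ⟨fun x => (if x = 41 * k0 + 40 then (f t : ℝ) else 0) + ρ x, a, fun k => ?_⟩
    simp only [ksx_se]
    rw [r2 k]
    congr 1
    by_cases hk : k = k0
    · rw [if_pos hk, if_pos (by rw [hk])]
    · rw [if_neg hk, if_neg (by omega)]

theorem ksx_bound (h_ctr : S_ctr) (h_ev : S_ev) (e : EL) (h : eok e = true) (x : Pt)
    (hx : Box x) (k : ℕ) : ∀ F : Pt → ℕ → ℝ, RepE e F →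
    |2 ^ 32 * F x k - ds (fun i j => ksx_ce e k i j * (x 0 ^ i * x 1 ^ j))| ≤
        ksx_se (fun t => t.r) e k ∧
      |2 ^ 32 * F x k| ≤ ksx_se (fun t => Nat.add (nn t.p) t.r) e k := by
  induction e with
  | nil =>
    intro F hF
    rw [hF x k]
    simp [ds, ksx_ce, ksx_se]
  | cons k0 t l ih =>
    rintro F ⟨f, G, h1, h2, h3⟩
    obtain ⟨-, o2, o3, o4⟩ := ksx_eok h
    obtain ⟨i1, i2⟩ := ih o4 G h2
    rw [h3 x k, ksx_ds, ← (h_ctr.val t.p o2 o3).1 x]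
    simp only [ksx_se]
    have b1 := abs_le.1 (h1 x hx)
    have b2 := abs_le.1 (h_ev.nn t.p x hx)
    have b3 : ((Nat.add (nn t.p) t.r : ℕ) : ℝ) = (nn t.p : ℝ) + (t.r : ℝ) := Nat.cast_add _ _
    have j1 := abs_le.1 i1
    have j2 := abs_le.1 i2
    split_ifs
    · rw [b3]
      refine ⟨abs_le.2 ⟨?_, ?_⟩, abs_le.2 ⟨?_, ?_⟩⟩ <;> linarith [b1.1, b1.2, b2.1, b2.2, j1.1,
        j1.2, j2.1, j2.2]
    · simp only [zero_add]
      exact ⟨i1, i2⟩

theorem sx_ok (h_alg : S_alg) (h_ctr : S_ctr) (h_wco : S_wco) (h_ev : S_ev) : S_sx := by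
  intro S Sf n Q W w hS hok hW
  induction S generalizing Sf n with
  | nil =>
    have hn : n = 0 := hS
    subst hn
    exact ⟨fun _ _ _ _ => 0, fun _ _ => 0, fun _ _ => 0, fun _ _ => 0, rfl, rfl, rfl,
      fun _ _ _ _ _ => rfl, fun l k hl => absurd hl (Nat.not_lt_zero l)⟩
  | cons e l ih =>
    obtain ⟨n', rfl, h1, h2⟩ := hS
    obtain ⟨o1, o2⟩ := ksx_band (a := eok e) (b := sok l) hok
    obtain ⟨c, z, ρ, ν, a1, a2, a3, a4, a5⟩ := ih _ n' h2 o2
    obtain ⟨z0, b1, b2⟩ := ksx_sx h_alg h_ctr h_wco Q W w hW e o1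
    obtain ⟨ρ0, c1, c2⟩ := ksx_srl h_alg (fun t => t.r) e o1
    obtain ⟨ν0, d1, d2⟩ := ksx_srl h_alg (fun t => Nat.add (nn t.p) t.r) e o1
    refine ⟨ksx_cs (ksx_ce e) c, ksx_cs z0 z, ksx_cs ρ0 ρ, ksx_cs ν0 ν, ⟨n', rfl, b1, a1⟩,
      ⟨n', rfl, c1, a2⟩, ⟨n', rfl, d1, a3⟩, fun m k i j hij => ?_, fun m k hm hk => ?_⟩
    · cases m with
      | zero => exact ksx_zero h_ctr e o1 k i j hij
      | succ m => exact a4 m k i j hij
    · cases m with
      | zero =>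
        refine ⟨(b2 k hk).1, (b2 k hk).2, fun x hx => ?_⟩
        have := ksx_bound h_ctr h_ev e o1 x hx k _ h1
        rw [← c2 k, ← d2 k] at this
        exact this
      | succ m => exact a5 m k (Nat.lt_of_succ_lt_succ hm) hk

end Vale.Agent.P098.Ck
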