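import Vale.Agent.P098.CkSem

/-! # P098: soundness of the scalar Taylor models -/

open Finset

noncomputable section
namespace Vale.Agent.P098.Ck

theorem ktm_box_tl {e : Pt} (h : Box e) : Box (tl e) := fun n => h (n + 1)

theorem ktm_shift (x sh : ℕ) : ((Nat.shiftRight x sh : ℕ) : ℝ) ≤ (x : ℝ) / 2 ^ sh ∧
    (x : ℝ) / 2 ^ sh ≤ ((Nat.shiftRight x sh : ℕ) : ℝ) + 1 := by
  have e : Nat.shiftRight x sh = x / 2 ^ sh := Nat.shiftRight_eq_div_pow x sh
  have hp : (0 : ℝ) < 2 ^ sh := by positivity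
  have h1 : x / 2 ^ sh * 2 ^ sh ≤ x := Nat.div_mul_le_self x _
  have h2 : x < 2 ^ sh * (x / 2 ^ sh + 1) := Nat.lt_mul_div_succ x (by positivity)
  rw [e, le_div_iff₀ hp, div_le_iff₀ hp]
  generalize x / 2 ^ sh = y at h1 h2 ⊢
  have h3 : (y : ℝ) * 2 ^ sh ≤ x := by exact_mod_cast h1
  have h4 : (x : ℝ) < 2 ^ sh * ((y : ℝ) + 1) := by exact_mod_cast h2
  constructor <;> linarith

theorem ktm_leaf (sh a b : ℕ) :
    |((a : ℝ) - b) / 2 ^ sh - (((sz sh a b : ℕ) : ℝ) - ((sz sh b a : ℕ) : ℝ))| ≤ 1 := by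
  have e1 : sz sh a b = Nat.shiftRight (a - b) sh := rfl
  have e2 : sz sh b a = Nat.shiftRight (b - a) sh := rfl
  have h1 := ktm_shift (a - b) sh
  have h2 := ktm_shift (b - a) sh
  have h3 : (a : ℝ) - b = ((a - b : ℕ) : ℝ) - ((b - a : ℕ) : ℝ) := by
    rcases le_total a b with h | h
    · rw [Nat.sub_eq_zero_of_le h, Nat.cast_sub h]
      simp
    · rw [Nat.sub_eq_zero_of_le h, Nat.cast_sub h]
      simp
  rw [e1, e2, h3, sub_div, abs_le]
  constructor <;> linarith [h1.1, h1.2, h2.1, h2.2]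

theorem ktm_mul_le {x y c : ℝ} (hx : |x| ≤ 1) (hy : |y| ≤ c) : |x * y| ≤ c := by
  rw [abs_mul]
  exact (mul_le_of_le_one_left (abs_nonneg y) hx).trans hy

theorem ktm_keep (h_ev : S_ev) (sh : ℕ) (p : P) : ∀ (D : ℕ) (e : Pt), Box e →
    |ev p e / 2 ^ sh - ev (keep (sz sh) sh p D) e| ≤ (cnt p D : ℝ) + (cn p D : ℝ) / 2 ^ sh := by
  induction p with
  | nil =>
    intro D e _
    have e1 : keep (sz sh) sh P.nil D = P.nil := rfl
    have e2 : cnt P.nil D = 0 := rfl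
    have e3 : cn P.nil D = 0 := rfl
    simp [e1, e2, e3, ev]
  | lf a b m =>
    intro D e _
    have e1 : keep (sz sh) sh (P.lf a b m) D =
      P.lf (sz sh a b) (sz sh b a) (Nat.shiftRight m sh) := rfl
    have e2 : cnt (P.lf a b m) D = 1 := rfl
    have e3 : cn (P.lf a b m) D = 0 := rfl
    rw [e1, e2, e3]
    simpa [ev] using ktm_leaf sh a b
  | cons c r ic ir =>
    intro D e he
    have hp : (0 : ℝ) < 2 ^ sh := by positivity
    cases D with
    | zero =>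
      have e1 : keep (sz sh) sh (P.cons c r) 0 = P.cons (keep (sz sh) sh c 0) P.nil := rfl
      have e2 : cnt (P.cons c r) 0 = cnt c 0 + 0 := rfl
      have e3 : cn (P.cons c r) 0 = cn c 0 + nn r := rfl
      have h1 := abs_le.1 (ic 0 (tl e) (ktm_box_tl he))
      have h2 := abs_le.1 (ktm_mul_le (he 0) (h_ev.nn r e he))
      have h3 := div_le_div_of_nonneg_right h2.1 hp.le
      have h4 := div_le_div_of_nonneg_right h2.2 hp.le
      rw [e1, e2, e3]
      simp only [ev, add_div, neg_div, Nat.cast_add, mul_zero, add_zero] at h3 ⊢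
      rw [abs_le]
      constructor <;> linarith [h1.1, h1.2]
    | succ d =>
      have e1 : keep (sz sh) sh (P.cons c r) (d + 1) =
        P.cons (keep (sz sh) sh c (d + 1)) (keep (sz sh) sh r d) := rfl
      have e2 : cnt (P.cons c r) (d + 1) = cnt c (d + 1) + cnt r d := rfl
      have e3 : cn (P.cons c r) (d + 1) = cn c (d + 1) + cn r d := rfl
      have h1 := abs_le.1 (ic (d + 1) (tl e) (ktm_box_tl he))
      have h2 := abs_le.1 (ktm_mul_le (he 0) (ir d e he))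
      rw [mul_sub, ← mul_div_assoc] at h2
      rw [e1, e2, e3]
      simp only [ev, add_div, Nat.cast_add]
      rw [abs_le]
      constructor <;> linarith [h1.1, h1.2, h2.1, h2.2]

theorem ktm_tsh (h_ev : S_ev) (D sh : ℕ) (p : P) (r : ℕ) (e : Pt) (he : Box e) {F : ℝ}
    (h : |F - ev p e| ≤ (r : ℝ)) :
    |F / 2 ^ sh - ev (tsh D sh p r).p e| ≤ ((tsh D sh p r).r : ℝ) := by
  have e1 : (tsh D sh p r).p = keep (sz sh) sh p D := rfl
  have e2 : (tsh D sh p r).r = cnt p D + 1 + Nat.shiftRight (cn p D + r) sh := rfl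
  have hp : (0 : ℝ) < 2 ^ sh := by positivity
  have h1 := abs_le.1 (ktm_keep h_ev sh p D e he)
  have h2 := (ktm_shift (cn p D + r) sh).2
  have h3 := div_le_div_of_nonneg_right (abs_le.1 h).1 hp.le
  have h4 := div_le_div_of_nonneg_right (abs_le.1 h).2 hp.le
  rw [e1, e2]
  generalize Nat.shiftRight (cn p D + r) sh = y at h2 ⊢
  simp only [Nat.cast_add, Nat.cast_one, add_div, sub_div, neg_div] at h2 h3 h4 ⊢
  rw [abs_le]
  constructor <;> linarith [h1.1, h1.2]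

theorem ktm_con (a : ℕ) : TMr (tc a) (fun _ => (a : ℝ) / 2 ^ 32) := by
  intro e _
  have e1 : (tc a).p = P.lf a 0 0 := rfl
  have e2 : (tc a).r = 0 := rfl
  have e3 : (2 : ℝ) ^ 32 * ((a : ℝ) / 2 ^ 32) = a := by field_simp
  rw [e1, e2, e3]
  simp [ev]

theorem ktm_add (h_ev : S_ev) {s t : TM} {f g : Pt → ℝ} (hs : TMr s f) (ht : TMr t g) :
    TMr (tadd s t) (fun e => f e + g e) := by
  intro e he
  have e1 : (tadd s t).p = padd s.p t.p := rfl
  have e2 : (tadd s t).r = s.r + t.r := rfl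
  have h1 := abs_le.1 (hs e he)
  have h2 := abs_le.1 (ht e he)
  rw [e1, e2, h_ev.padd, Nat.cast_add, abs_le]
  constructor <;> linarith [h1.1, h1.2, h2.1, h2.2]

theorem ktm_mn (h_ev : S_ev) (k : ℕ) {t : TM} {f : Pt → ℝ} (ht : TMr t f) :
    TMr (tmn k t) (fun e => (k : ℝ) * f e) := by
  intro e he
  have e1 : (tmn k t).p = pmn k t.p := rfl
  have e2 : (tmn k t).r = k * t.r := rfl
  have e3 : (2 : ℝ) ^ 32 * ((k : ℝ) * f e) - (k : ℝ) * ev t.p e =
      (k : ℝ) * (2 ^ 32 * f e - ev t.p e) := by ring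
  rw [e1, e2, h_ev.pmn, Nat.cast_mul, e3, abs_mul, Nat.abs_cast]
  exact mul_le_mul_of_nonneg_left (ht e he) (Nat.cast_nonneg k)

theorem ktm_mm (h_ev : S_ev) (k : ℕ) {t : TM} {f : Pt → ℝ} (ht : TMr t f) :
    TMr (tmm k t) (fun e => -(k : ℝ) * f e) := by
  intro e he
  have e1 : (tmm k t).p = pmm k t.p := rfl
  have e2 : (tmm k t).r = k * t.r := rfl
  have e3 : (2 : ℝ) ^ 32 * (-(k : ℝ) * f e) - -(k : ℝ) * ev t.p e =
      -((k : ℝ) * (2 ^ 32 * f e - ev t.p e)) := by ring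
  rw [e1, e2, h_ev.pmm, Nat.cast_mul, e3, abs_neg, abs_mul, Nat.abs_cast]
  exact mul_le_mul_of_nonneg_left (ht e he) (Nat.cast_nonneg k)

theorem ktm_dv (h_ev : S_ev) (D sh : ℕ) {t : TM} {f : Pt → ℝ} (ht : TMr t f) :
    TMr (tdv D sh t) (fun e => f e / 2 ^ sh) := by
  intro e he
  have h := ktm_tsh h_ev D sh t.p t.r e he (ht e he)
  rw [mul_div_assoc] at h
  exact h

theorem ktm_mul (h_ev : S_ev) (D : ℕ) {s t : TM} {f g : Pt → ℝ} (hs : TMr s f) (ht : TMr t g) :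
    TMr (tmul D s t) (fun e => f e * g e) := by
  intro e he
  have h1 := hs e he
  have h2 := ht e he
  have h3 := h_ev.nn s.p e he
  have h4 := h_ev.nn t.p e he
  have h5 : |2 ^ 32 * f e * (2 ^ 32 * g e) - ev (pmul s.p t.p) e| ≤
      ((s.r * nn t.p + t.r * nn s.p + s.r * t.r : ℕ) : ℝ) := by
    rw [h_ev.pmul]
    have e : 2 ^ 32 * f e * (2 ^ 32 * g e) - ev s.p e * ev t.p e =
        (2 ^ 32 * f e - ev s.p e) * ev t.p e + (2 ^ 32 * g e - ev t.p e) * ev s.p e +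
          (2 ^ 32 * f e - ev s.p e) * (2 ^ 32 * g e - ev t.p e) := by ring
    rw [e]
    refine (abs_add_three _ _ _).trans ?_
    rw [abs_mul, abs_mul, abs_mul]
    push_cast
    gcongr
  have h := ktm_tsh h_ev D 32 _ _ e he h5
  have e3 : (2 : ℝ) ^ 32 * f e * (2 ^ 32 * g e) / 2 ^ 32 = 2 ^ 32 * (f e * g e) := by
    field_simp
  rw [e3] at h
  exact h

theorem ktm_tin1 (h_ev : S_ev) (D : ℕ) {s : TM} {f : Pt → ℝ} (hs : TMr s f) (hf : ∀ e, 1 ≤ f e)
    (p : P) : TMr (tin1 D s p) (fun e => 1 / f e) := by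
  intro e he
  have h0 : TMr (TM.mk p 0) (fun e => ev p e / 2 ^ 32) := fun e _ => by
    have e3 : (2 : ℝ) ^ 32 * (ev p e / 2 ^ 32) = ev p e := by field_simp
    simp only [e3, sub_self, abs_zero, Nat.cast_zero, le_refl]
  have h1 := ktm_dv h_ev D 0
    (ktm_add h_ev (ktm_mul h_ev D hs h0) (ktm_mm h_ev 1 (ktm_con 4294967296))) e he
  have e1 : (tin1 D s p).p = p := rfl
  have e2 : (tin1 D s p).r =
      nn (tdv D 0 (tadd (tmul D s (TM.mk p 0)) (tmm 1 (tc 4294967296)))).p +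
        (tdv D 0 (tadd (tmul D s (TM.mk p 0)) (tmm 1 (tc 4294967296)))).r := rfl
  rw [e1, e2]
  generalize tdv D 0 (tadd (tmul D s (TM.mk p 0)) (tmm 1 (tc 4294967296))) = w at h1 ⊢
  have h2 := abs_le.1 (h_ev.nn w.p e he)
  have hf1 := hf e
  have hf0 : 0 < f e := by linarith
  have e3 : (2 : ℝ) ^ 32 * ((f e * (ev p e / 2 ^ 32) +
      -((1 : ℕ) : ℝ) * (((4294967296 : ℕ) : ℝ) / 2 ^ 32)) / 2 ^ 0) = f e * ev p e - 2 ^ 32 := by
    push_cast
    ring
  beta_reduce at h1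
  rw [e3] at h1
  have h3 : |f e * ev p e - 2 ^ 32| ≤ (nn w.p : ℝ) + w.r := by
    have := abs_le.1 h1
    rw [abs_le]
    constructor <;> linarith [this.1, this.2, h2.1, h2.2]
  have e4 : (2 : ℝ) ^ 32 * (1 / f e) - ev p e = -((f e * ev p e - 2 ^ 32) / f e) := by
    field_simp
    ring
  rw [e4, abs_neg, abs_div, abs_of_pos hf0, Nat.cast_add]
  exact (div_le_self (abs_nonneg _) hf1).trans h3

theorem ktm_lz (a b : ℕ) (e : Pt) : ev (lz a b) e = (a : ℝ) - b := by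
  have e1 : ev (lz a b) e = ((a - b : ℕ) : ℝ) - ((b - a : ℕ) : ℝ) := rfl
  rw [e1]
  rcases le_total a b with h | h
  · rw [Nat.sub_eq_zero_of_le h, Nat.cast_sub h]
    simp
  · rw [Nat.sub_eq_zero_of_le h, Nat.cast_sub h]
    simp

theorem ktm_ka (l h : ℕ) : TMr (tka l h) (kap l h) := by
  intro e _
  have e1 : ev (tka l h).p e = ev (lz ((l + h) * 4194304) 2147483648) (tl e) +
      e 0 * ((((h - l) * 4194304 : ℕ) : ℝ) - ((0 : ℕ) : ℝ)) := rfl
  have e2 : (tka l h).r = 0 := rfl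
  rw [e1, e2, ktm_lz, kap]
  generalize h - l = d
  push_cast
  refine le_of_eq (abs_eq_zero.2 ?_)
  ring

theorem ktm_cc (l h : ℕ) : TMr (tcc l h) (cap l h) := by
  intro e _
  have e1 : ev (tcc l h).p e = ev (lz ((l + h) * 4194304) 4294967296) (tl (tl e)) +
      e 1 * ((((h - l) * 4194304 : ℕ) : ℝ) - ((0 : ℕ) : ℝ)) + e 0 * 0 := rfl
  have e2 : (tcc l h).r = 0 := rfl
  rw [e1, e2, ktm_lz, cap]
  generalize h - l = d
  push_cast
  refine le_of_eq (abs_eq_zero.2 ?_)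
  ring

theorem tm_ok (h_ev : S_ev) : S_tm :=
  ⟨ktm_con, ktm_add h_ev, ktm_mn h_ev, ktm_mm h_ev, ktm_dv h_ev, ktm_mul h_ev,
    fun D _ _ hs hf => ktm_tin1 h_ev D hs hf _, ktm_ka, ktm_cc⟩

end Vale.Agent.P098.Ck
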