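import Vale.Agent.P098.CkSem

open Finset

noncomputable section
namespace Vale.Agent.P098.Ck

def kwco_u (i j x : ℕ) : ℕ :=
  (if x = pos 5 i j then 1 else 0) + (if x = 21 + pos 3 (i - 2) j then i * (i - 1) else 0) +
    (if x = 31 + pos 3 i (j - 2) then j * (j - 1) else 0)

theorem kwco_pk : ∀ i < 6, ∀ j < 6, i + j ≤ 5 →
    Nat.add (Nat.shiftLeft 1 (Nat.mul 112 (pos 5 i j)))
      (Nat.add (Nat.shiftLeft (Nat.mul i (Nat.sub i 1))
          (Nat.mul 112 (Nat.add 21 (pos 3 (Nat.sub i 2) j))))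
        (Nat.shiftLeft (Nat.mul j (Nat.sub j 1))
          (Nat.mul 112 (Nat.add 31 (pos 3 i (Nat.sub j 2)))))) = pk 112 41 (kwco_u i j) ∧
      ∀ x < 41, kwco_u i j x ≤ 20 := by
  decide +kernel

theorem kwco_cast (i : ℕ) : ((i * (i - 1) : ℕ) : ℝ) = (i : ℝ) * ((i : ℝ) - 1) := by
  cases i <;> simp

def kwco_i5 (t : ℕ) : ℕ × ℕ :=
  [(0, 0), (0, 1), (0, 2), (0, 3), (0, 4), (0, 5), (1, 0), (1, 1), (1, 2), (1, 3), (1, 4),
    (2, 0), (2, 1), (2, 2), (2, 3), (3, 0), (3, 1), (3, 2), (4, 0), (4, 1), (5, 0)].getD t (0, 0)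

def kwco_i3 (t : ℕ) : ℕ × ℕ :=
  [(0, 0), (0, 1), (0, 2), (0, 3), (1, 0), (1, 1), (1, 2), (2, 0), (2, 1), (3, 0)].getD t (0, 0)

theorem kwco_p5 : ∀ i < 6, ∀ j < 6, i + j ≤ 5 → pos 5 i j < 21 ∧ kwco_i5 (pos 5 i j) = (i, j) := by
  decide +kernel

theorem kwco_p3 : ∀ i < 4, ∀ j < 4, i + j ≤ 3 → pos 3 i j < 10 ∧ kwco_i3 (pos 3 i j) = (i, j) := by
  decide +kernel

theorem kwco_swap (n : ℕ) (c : ℕ → ℕ → ℝ) (w : ℕ → ℕ → ℕ → ℝ) (m : ℕ → ℝ) (g : ℕ → ℕ → ℝ)
    (hc : ∀ i j, 5 < i + j → c i j = 0)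
    (h : ∀ i j, i + j ≤ 5 → ∑ t ∈ range n, w i j t * m t = g i j) :
    ds (fun i j => c i j * g i j) = ∑ t ∈ range n, ds (fun i j => c i j * w i j t) * m t := by
  unfold ds
  simp only [Finset.sum_mul]
  rw [Finset.sum_comm (s := range n)]
  refine Finset.sum_congr rfl fun i _ => ?_
  rw [Finset.sum_comm (s := range n)]
  refine Finset.sum_congr rfl fun j _ => ?_
  by_cases hij : i + j ≤ 5
  · rw [← h i j hij, Finset.mul_sum]
    exact Finset.sum_congr rfl fun t _ => by ring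
  · simp [hc i j (by omega)]

theorem kwco_one (n s : ℕ) (hs : s < n) (k : ℝ) (w m : ℕ → ℝ)
    (h : ∀ t < n, w t = if t = s then k else 0) : ∑ t ∈ range n, w t * m t = k * m s := by
  rw [Finset.sum_eq_single s]
  · rw [h s hs, if_pos rfl]
  · intro t ht hne
    rw [h t (Finset.mem_range.1 ht), if_neg hne, zero_mul]
  · intro hn
    exact absurd (Finset.mem_range.2 hs) hn

theorem kwco_small {i : ℕ} (hi : i < 2) : (i : ℝ) * ((i : ℝ) - 1) = 0 := by
  interval_cases i <;> simp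

theorem wco_ok : S_wco := by
  refine ⟨fun i j hij => ?_, fun a b t => a ^ (kwco_i5 t).1 * b ^ (kwco_i5 t).2,
    fun a b t => a ^ (kwco_i3 t).1 * b ^ (kwco_i3 t).2, fun a b ha hb t => ?_,
    fun a b c hc => ⟨?_, ?_, ?_⟩⟩
  · obtain ⟨h1, h2⟩ := kwco_pk i (by omega) j (by omega) hij
    refine ⟨kwco_u i j, fun _ => 0, h1, by simp [pk], fun x hx => ⟨h2 x hx, Nat.zero_le _⟩,
      fun _ x _ => ?_⟩
    unfold wc kwco_u
    rw [← kwco_cast i, ← kwco_cast j]
    push_cast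
    simp
  · have key : ∀ k l : ℕ, |a ^ k * b ^ l| ≤ 1 := fun k l => by
      rw [abs_mul, abs_pow, abs_pow]
      exact mul_le_one₀ (pow_le_one₀ (abs_nonneg _) ha) (by positivity)
        (pow_le_one₀ (abs_nonneg _) hb)
    exact ⟨key _ _, key _ _⟩
  · refine kwco_swap 21 c (fun i j t => wc i j t) _ _ hc fun i j hij => ?_
    obtain ⟨h1, h2⟩ := kwco_p5 i (by omega) j (by omega) hij
    rw [kwco_one 21 (pos 5 i j) h1 1 _ _ fun t ht => ?_]
    · simp only [h2, one_mul]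
    · unfold wc
      rw [if_neg (show ¬ t = 21 + _ by omega), if_neg (show ¬ t = 31 + _ by omega), add_zero,
        add_zero]
  · refine kwco_swap 10 c (fun i j t => wc i j (21 + t)) _ _ hc fun i j hij => ?_
    obtain ⟨h1, -⟩ := kwco_p5 i (by omega) j (by omega) hij
    rcases Nat.lt_or_ge i 2 with hi | hi
    · rw [kwco_small hi, zero_mul, zero_mul]
      refine Finset.sum_eq_zero fun t ht => ?_
      have := Finset.mem_range.1 ht
      unfold wc
      rw [if_neg (show ¬ 21 + t = pos 5 i j by omega), kwco_small hi, ite_self,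
        if_neg (show ¬ 21 + t = 31 + _ by omega)]
      simp
    · obtain ⟨h3, h4⟩ := kwco_p3 (i - 2) (by omega) j (by omega) (by omega)
      rw [kwco_one 10 (pos 3 (i - 2) j) h3 ((i : ℝ) * ((i : ℝ) - 1)) _ _ fun t ht => ?_]
      · simp only [h4]
        ring
      · unfold wc
        rw [if_neg (show ¬ 21 + t = pos 5 i j by omega),
          if_neg (show ¬ 21 + t = 31 + _ by omega), zero_add, add_zero]
        simp
  · refine kwco_swap 10 c (fun i j t => wc i j (31 + t)) _ _ hc fun i j hij => ?_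
    obtain ⟨h1, -⟩ := kwco_p5 i (by omega) j (by omega) hij
    have h5 : ∀ t, (if 31 + t = 21 + pos 3 (i - 2) j then (i : ℝ) * ((i : ℝ) - 1) else 0) = 0 := by
      intro t
      rcases Nat.lt_or_ge i 2 with hi | hi
      · rw [kwco_small hi, ite_self]
      · obtain ⟨h3, -⟩ := kwco_p3 (i - 2) (by omega) j (by omega) (by omega)
        rw [if_neg (by omega)]
    rcases Nat.lt_or_ge j 2 with hj | hj
    · rw [kwco_small hj, zero_mul, mul_zero]
      refine Finset.sum_eq_zero fun t _ => ?_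
      unfold wc
      rw [if_neg (show ¬ 31 + t = pos 5 i j by omega), h5, kwco_small hj, ite_self]
      simp
    · obtain ⟨h3, h4⟩ := kwco_p3 i (by omega) (j - 2) (by omega) (by omega)
      rw [kwco_one 10 (pos 3 i (j - 2)) h3 ((j : ℝ) * ((j : ℝ) - 1)) _ _ fun t _ => ?_]
      · simp only [h4]
        ring
      · unfold wc
        rw [if_neg (show ¬ 31 + t = pos 5 i j by omega), h5, zero_add, zero_add]
        simp

end Vale.Agent.P098.Ck
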