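import Vale.Agent.P098.CkSem

open Finset

noncomputable section
namespace Vale.Agent.P098.Ck

/-- A leaf or `nil`. -/
def kwptLf (p : P) : Prop := p = P.nil ∨ ∃ a b m, p = P.lf a b m

theorem kwpt_zsm (a b : ℕ) {p : P} (h : kwptLf p) : kwptLf (zsm a b p) := by
  unfold zsm
  rcases h with rfl | ⟨x, y, m, rfl⟩ <;> cases Nat.ble a b <;> cases Nat.ble b a <;>
    first | exact Or.inl rfl | exact Or.inr ⟨_, _, _, rfl⟩

theorem kwpt_pw8 (x i : ℕ) : kwptLf (pw8 x i) := by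
  induction i with
  | zero => exact Or.inr ⟨_, _, _, rfl⟩
  | succ i ih => exact kwpt_zsm x 8 ih

theorem kwpt_step (k : ℕ) {p q : P} (h : kwptLf p) (h' : kwptLf q) :
    kwptLf (padd (place k p) q) := by
  rcases h with rfl | ⟨x, y, m, rfl⟩ <;> rcases h' with rfl | ⟨x', y', m', rfl⟩ <;>
    first | exact Or.inl rfl | exact Or.inr ⟨_, _, _, rfl⟩

/-- The first `K` terms of `vec`. -/
def kwptVec (n z i K : ℕ) : P :=
  Nat.rec (motive := fun _ => P) P.nil
    (fun k ih => padd (place (Nat.mul k z) (pw8 (Nat.mul k (Nat.div 16 n)) i)) ih) K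

theorem kwpt_vec (n z i K : ℕ) : kwptLf (kwptVec n z i K) := by
  induction K with
  | zero => exact Or.inl rfl
  | succ K ih => exact kwpt_step _ (kwpt_pw8 _ _) ih

theorem kwpt_rep_pw8 (h : S_alg) (L x i : ℕ) :
    Rep L 1 (pw8 x i) (fun _ _ => ((x : ℝ) - 8) ^ i) := by
  induction i with
  | zero => exact ⟨fun _ => 1, fun _ => 0, by simp [pk], by simp [pk], by simp, by simp⟩
  | succ i ih =>
    exact h.congr _ _ _ _ _ (h.zsm L 1 x 8 _ _ ih) fun _ _ _ => by push_cast; ring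

theorem kwpt_rep_vec (h : S_alg) (n z i J K : ℕ) (hK : K ≤ J) : Rep z J (kwptVec n z i K)
    (fun _ x => if x < K then (((x * (16 / n) : ℕ) : ℝ) - 8) ^ i else 0) := by
  induction K with
  | zero => exact fun _ _ _ => by simp
  | succ K ih =>
    have h1 := h.place z 1 J K _ _ (kwpt_rep_pw8 h z (K * (16 / n)) i) hK
    rw [mul_comm z K] at h1
    refine h.congr _ _ _ _ _ (h.padd _ _ _ _ _ _ h1 (ih (by omega))) fun _ x _ => ?_
    rcases lt_trichotomy x K with k | rfl | k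
    · rw [if_pos (by omega), if_neg (by omega), if_pos k, zero_add]
    · rw [if_pos (by omega), if_pos (by omega), if_neg (by omega), add_zero]
    · rw [if_neg (by omega), if_neg (by omega), if_neg (by omega), add_zero]

theorem kwpt_outer (L n m : ℕ) (x y : ℕ → ℕ) :
    pk L n x * pk (L * n) m y = pk L (m * n) (fun t => x (t % n) * y (t / n)) := by
  unfold pk
  induction m with
  | zero => simp
  | succ m ih =>
    rw [sum_range_succ, mul_add, ih, Nat.succ_mul, sum_range_add, sum_mul]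
    congr 1
    refine sum_congr rfl fun j hj => ?_
    have hj' := mem_range.1 hj
    dsimp only
    rw [Nat.mul_add_mod_of_lt hj', mul_comm m n, Nat.mul_add_div (by omega), Nat.div_eq_of_lt hj',
      mul_add L, pow_add, add_zero, mul_assoc L]
    ring

theorem kwpt_add (L J : ℕ) (x y : ℕ → ℕ) : pk L J x + pk L J y = pk L J (fun t => x t + y t) := by
  simp only [pk, add_mul, sum_add_distrib]

theorem kwpt_lmul {L n m : ℕ} {p q : P} {F G : Pt → ℕ → ℝ} (hn : 0 < n) (hp : kwptLf p)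
    (hq : kwptLf q) (h1 : Rep L n p F) (h2 : Rep (L * n) m q G) :
    Rep L (m * n) (lmul p q) (fun e t => F e (t % n) * G e (t / n)) := by
  have a1 : ∀ t, t % n < n := fun t => Nat.mod_lt _ hn
  have a2 : ∀ t, t < m * n → t / n < m := fun t ht => (Nat.div_lt_iff_lt_mul hn).2 ht
  rcases hp with rfl | ⟨a, b, k, rfl⟩
  · exact fun e t _ => by simp only [h1 e _ (a1 t), zero_mul]
  rcases hq with rfl | ⟨c, d, k', rfl⟩
  · exact fun e t ht => by simp only [h2 e _ (a2 t ht), mul_zero]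
  obtain ⟨u, v, rfl, rfl, b1, b2⟩ := h1
  obtain ⟨u', v', rfl, rfl, c1, c2⟩ := h2
  refine ⟨fun t => u (t % n) * u' (t / n) + v (t % n) * v' (t / n),
    fun t => u (t % n) * v' (t / n) + v (t % n) * u' (t / n), ?_, ?_, fun t ht => ?_,
    fun e t ht => ?_⟩
  · rw [← kwpt_add, ← kwpt_outer, ← kwpt_outer]
    rfl
  · rw [← kwpt_add, ← kwpt_outer, ← kwpt_outer]
    rfl
  · obtain ⟨d1, d2⟩ := b1 _ (a1 t)
    obtain ⟨d3, d4⟩ := c1 _ (a2 t ht)
    have e1 := Nat.mul_le_mul d1 d3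
    have e2 := Nat.mul_le_mul d2 d4
    have e3 := Nat.mul_le_mul d1 d4
    have e4 := Nat.mul_le_mul d2 d3
    show _ ≤ 2 * (k * k') ∧ _ ≤ 2 * (k * k')
    dsimp only
    omega
  · dsimp only
    rw [b2 e _ (a1 t), c2 e _ (a2 t ht)]
    push_cast
    ring

theorem kwpt_gp {n : ℕ} (h : nok n = true) (k : ℕ) :
    ((k * (16 / n) : ℕ) : ℝ) - 8 = 8 * gp n k := by
  have h1 : n * (16 / n) = 16 := by
    unfold nok band at h
    cases h0 : Nat.ble n 8 <;> rw [h0] at h
    · cases h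
    · exact Nat.eq_of_beq_eq_true h
  have h2 : (n : ℝ) ≠ 0 := by
    rintro h3
    rw [Nat.cast_eq_zero.1 h3] at h1
    omega
  have h3 : (n : ℝ) * ((16 / n : ℕ) : ℝ) = 16 := by exact_mod_cast h1
  unfold gp
  rw [Nat.cast_mul]
  field_simp
  linear_combination k * h3

theorem wpt_ok (h_alg : S_alg) : S_wpt := by
  intro n3 n4 i j h3 h4 hij
  have a1 := kwpt_rep_vec h_alg n4 112 j (n4 + 1) (n4 + 1) le_rfl
  have a2 := kwpt_rep_vec h_alg n3 (112 * (n4 + 1)) i (n3 + 1) (n3 + 1) le_rfl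
  have a3 := h_alg.pmn _ _ (8 ^ (5 - (i + j))) _ _
    (kwpt_lmul n4.succ_pos (kwpt_vec _ _ _ _) (kwpt_vec _ _ _ _) a1 a2)
  refine h_alg.congr _ _ _ _ _ a3 fun e t ht => ?_
  rw [if_pos (Nat.mod_lt _ n4.succ_pos), if_pos ((Nat.div_lt_iff_lt_mul n4.succ_pos).2 ht),
    kwpt_gp h3, kwpt_gp h4, wp, show (8 : ℝ) ^ 5 = 8 ^ (5 - (i + j)) * (8 ^ i * 8 ^ j) by
      rw [← pow_add, ← pow_add, Nat.sub_add_cancel hij], mul_pow, mul_pow]
  push_cast
  ring

end Vale.Agent.P098.Ck
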