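import Vale.Agent.P098.CertDefs

open MeasureTheory Set Metric Filter
open scoped ContDiff RealInnerProductSpace Topology NNReal

noncomputable section
namespace Vale.Agent.P098

variable {n : ℕ}

/-- An orthogonal matrix whose first row is `x` and whose rows are eigenvectors of `A`. -/
theorem rot_exists (x : T1 (n + 1)) (A : T2 (n + 1)) (hA : ∀ i j, A i j = A j i)
    (hx : ∀ i, ∑ j, A i j * x j = 0) (h1 : ∑ i, x i ^ 2 = 1) :
    ∃ (O : T2 (n + 1)) (a : T1 (n + 1)), O 0 = x ∧
      (∀ i j, ∑ k, O i k * O j k = if i = j then 1 else 0) ∧ ∀ i k, ap A (O i) k = a i * O i k := by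
  let T : E (n + 1) →ₗ[ℝ] E (n + 1) := Matrix.toEuclideanLin (Matrix.of A)
  have hT : T.IsSymmetric := Matrix.isSymmetric_toEuclideanLin_iff.2
    (Matrix.ext fun i j => by simpa using hA j i)
  have eT : ∀ (v : E (n + 1)) (k : Fin (n + 1)), T v k = ap A (fun i => v i) k := fun v k => rfl
  let X : E (n + 1) := WithLp.toLp 2 x
  have ip : ∀ v w : E (n + 1), ⟪v, w⟫ = ∑ k, v k * w k := fun v w => by
    simp [PiLp.inner_apply, mul_comm]
  have X0 : X ≠ 0 := fun e => by
    have : x = 0 := congrArg WithLp.ofLp e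
    simp [this] at h1
  have TX : T X = 0 := by
    ext k
    exact hx k
  have hK : ∀ v ∈ (ℝ ∙ X)ᗮ, T v ∈ (ℝ ∙ X)ᗮ := fun v _ =>
    Submodule.mem_orthogonal_singleton_iff_inner_right.2 (by rw [← hT, TX, inner_zero_left])
  have : Fact (Module.finrank ℝ (E (n + 1)) = n + 1) := ⟨by simp⟩
  have hn : Module.finrank ℝ (ℝ ∙ X)ᗮ = n := Submodule.finrank_orthogonal_span_singleton X0
  have hS := hT.restrict_invariant hK
  let b := hS.eigenvectorBasis hn
  have b0 : ∀ i, ∑ k, x k * (b i : E (n + 1)) k = 0 := fun i =>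
    (ip X _).symm.trans (Submodule.mem_orthogonal_singleton_iff_inner_right.1 (b i).2)
  refine ⟨Fin.cons x fun i k => (b i : E (n + 1)) k, Fin.cons 0 (hS.eigenvalues hn), rfl,
    fun i j => ?_, fun i k => ?_⟩
  · refine Fin.cases ?_ (fun i => ?_) i <;> refine Fin.cases ?_ (fun j => ?_) j <;>
      simp only [Fin.cons_zero, Fin.cons_succ]
    · simpa [sq] using h1
    · rw [b0, if_neg (Fin.succ_ne_zero j).symm]
    · simp only [mul_comm _ (x _)]
      rw [b0, if_neg (Fin.succ_ne_zero i)]
    · simp only [Fin.succ_inj]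
      rw [← ip, ← orthonormal_iff_ite.1 b.orthonormal i j]
      rfl
  · refine Fin.cases ?_ (fun i => ?_) i <;> simp only [Fin.cons_zero, Fin.cons_succ]
    · rw [zero_mul]
      exact hx k
    · exact congrArg (fun v : (ℝ ∙ X)ᗮ => (v : E (n + 1)) k) (hS.apply_eigenvectorBasis hn i)

def rot2 (O A : T2 n) : T2 n := fun i j => ap O (fun k => ap O (A k) j) i

def rot3 (O : T2 n) (B : T3 n) : T3 n := fun i j k => ap O (fun a => rot2 O (B a) j k) i

variable {O : T2 n}

theorem rot_swap (O A : T2 n) (i j : Fin n) : rot2 O A i j = rot2 O (fun k l => A l k) j i := by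
  simp only [rot2, ap, Finset.mul_sum]
  rw [Finset.sum_comm]
  exact Finset.sum_congr rfl fun _ _ => Finset.sum_congr rfl fun _ _ => by ring

theorem rot_sum {ι : Type} (s : Finset ι) (O : T2 n) (c : ι → ℝ) (p : ι → T1 n) (i : Fin n) :
    ∑ a ∈ s, ap O (p a) i * c a = ap O (fun k => ∑ a ∈ s, p a k * c a) i := by
  simp only [ap, Finset.mul_sum, Finset.sum_mul, mul_assoc]
  exact Finset.sum_comm

theorem rot_sum2 (O : T2 n) (c : T1 n) (T : T3 n) (i j : Fin n) :
    ∑ a, rot2 O (T a) i j * c a = rot2 O (fun k l => ∑ a, T a k l * c a) i j := by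
  simp only [rot2, rot_sum]

theorem rot_last (O : T2 n) (B : T3 n) (i j k : Fin n) :
    rot3 O B i j k = ap O (fun c => rot2 O (fun a b => B a b c) i j) k := by
  have e : ∀ (p : T1 n) (i : Fin n), ap O p i = ∑ a, p a * O i a := fun p i =>
    Finset.sum_congr rfl fun _ _ => mul_comm _ _
  rw [e, rot_sum2]
  simp only [rot3, rot2, e _ k]

theorem rot_dot (h : ∀ i j, ∑ k, O k i * O k j = if i = j then 1 else 0) (p q : T1 n) :
    ∑ i, ap O p i * ap O q i = ∑ i, p i * q i := by
  have e : ∀ i, ap O p i * ap O q i = ∑ a, ∑ b, p a * q b * (O i a * O i b) := fun i => by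
    rw [ap, ap, Finset.sum_mul_sum]
    exact Finset.sum_congr rfl fun _ _ => Finset.sum_congr rfl fun _ _ => by ring
  simp only [e]
  rw [Finset.sum_comm]
  refine Finset.sum_congr rfl fun a _ => ?_
  rw [Finset.sum_comm]
  simp [← Finset.mul_sum, h]

theorem rot_dot2 (h : ∀ i j, ∑ k, O k i * O k j = if i = j then 1 else 0) (M N : T2 n) :
    ∑ i, ∑ j, rot2 O M i j * rot2 O N i j = ∑ i, ∑ j, M i j * N i j := by
  rw [Finset.sum_comm]
  simp only [rot2, rot_dot h]
  rw [Finset.sum_comm]
  simp only [rot_dot h]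

theorem rot_ap (h : ∀ i j, ∑ k, O k i * O k j = if i = j then 1 else 0) (A : T2 n) (p : T1 n) :
    ap (rot2 O A) (ap O p) = ap O (ap A p) := by
  funext i
  change ∑ j, rot2 O A i j * ap O p j = _
  simp only [rot2, rot_sum, rot_dot h]
  rfl

theorem rot_tr (h : ∀ i j, ∑ k, O k i * O k j = if i = j then 1 else 0) (A : T2 n) :
    ∑ i, rot2 O A i i = ∑ i, A i i := by
  have e : ∀ i, rot2 O A i i = ∑ a, ∑ b, A a b * (O i a * O i b) := fun i => by
    simp only [rot2, ap, Finset.mul_sum]
    exact Finset.sum_congr rfl fun _ _ => Finset.sum_congr rfl fun _ _ => by ring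
  simp only [e]
  rw [Finset.sum_comm]
  refine Finset.sum_congr rfl fun a _ => ?_
  rw [Finset.sum_comm]
  simp [← Finset.mul_sum, h]

theorem rot_bil {ι : Type} (s : Finset ι) (O : T2 n) (p q : ι → T1 n) (i j : Fin n) :
    ∑ c ∈ s, ap O (p c) i * ap O (q c) j = rot2 O (fun a b => ∑ c ∈ s, p c a * q c b) i j := by
  rw [rot_sum, rot2]
  congr 1
  funext a
  simp only [mul_comm (p _ a), rot_sum]

theorem rot_sq (h : ∀ i j, ∑ k, O k i * O k j = if i = j then 1 else 0) (A : T2 n) :
    sqA (rot2 O A) = rot2 O (sqA A) := by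
  funext i j
  change ∑ k, rot2 O A i k * rot2 O A k j = _
  simp only [rot_swap O A i]
  simp only [rot2]
  rw [rot_dot h, rot_bil]
  rfl

theorem rot_ct (h : ∀ i j, ∑ k, O k i * O k j = if i = j then 1 else 0) (M : T2 n) (B : T3 n) :
    ct (rot2 O M) (rot3 O B) = ap O (ct M B) := by
  funext k
  have e : ∀ i j, rot2 O M i j * rot3 O B i j k =
      ∑ c, O k c * (rot2 O M i j * rot2 O (fun a b => B a b c) i j) := fun i j => by
    rw [rot_last, ap, Finset.mul_sum]
    exact Finset.sum_congr rfl fun _ _ => by ring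
  simp only [ct, e]
  rw [Finset.sum_comm_cycle]
  simp only [← Finset.mul_sum, rot_dot2 h]
  rfl

theorem rot_q (h : ∀ i j, ∑ k, O k i * O k j = if i = j then 1 else 0) (B : T3 n) (i j : Fin n) :
    ∑ l, ∑ k, rot3 O B i l k * rot3 O B j l k =
      rot2 O (fun a b => ∑ l, ∑ k, B a l k * B b l k) i j := by
  simp only [← rot_dot2 h (B _)]
  simp only [← Finset.sum_product']
  exact rot_bil _ O (fun (c : Fin n × Fin n) a => rot2 O (B a) c.1 c.2) _ i j

theorem rot_nA (h : ∀ i j, ∑ k, O k i * O k j = if i = j then 1 else 0) (A : T2 n) :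
    nA (rot2 O A) = nA A := by
  simp only [nA, sq, rot_dot2 h]

theorem rot_tA (h : ∀ i j, ∑ k, O k i * O k j = if i = j then 1 else 0) (A : T2 n) :
    tA (rot2 O A) = tA A := by
  simp only [tA, rot_sq h, rot_dot2 h]

theorem rot_nB (h : ∀ i j, ∑ k, O k i * O k j = if i = j then 1 else 0) (B : T3 n) :
    nB (rot3 O B) = nB B := by
  simp only [nB, sq, rot_q h, rot_tr h]

theorem rot_n1 (h : ∀ i j, ∑ k, O k i * O k j = if i = j then 1 else 0) (p : T1 n) :
    ∑ i, ap O p i ^ 2 = ∑ i, p i ^ 2 := by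
  simp only [sq, rot_dot h]

theorem rot_inv (h : ∀ i j, ∑ k, O k i * O k j = if i = j then 1 else 0) (x p : T1 n) (A : T2 n)
    (u : ℝ) : inv (ap O x) (ap O p) (rot2 O A) u = inv x p A u := by
  simp only [inv, rot_nA h, rot_tA h, rot_n1 h]

theorem rot_mul (O : T2 n) (c : ℝ) (p : T1 n) (k : Fin n) :
    c * ap O p k = ap O (fun i => c * p i) k := by
  simp only [ap, Finset.mul_sum, mul_left_comm]

theorem rot_gr (h : ∀ i j, ∑ k, O k i * O k j = if i = j then 1 else 0) (f : (Fin 5 → ℝ) → ℝ)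
    (x p : T1 n) (A : T2 n) (B : T3 n) (u : ℝ) :
    gr f (ap O x) (ap O p) (rot2 O A) (rot3 O B) u = ap O (gr f x p A B u) := by
  have e : ∀ a k, ginv (ap O x) (ap O p) (rot2 O A) (rot3 O B) a k = ap O (ginv x p A B a) k :=
    fun a k => by
      fin_cases a <;> simp only [ginv, rot_sq h, rot_ct h, rot_ap h, rot_mul, Fin.zero_eta,
        Fin.mk_one, Fin.reduceFinMk, Matrix.cons_val_zero, Matrix.cons_val_one, Matrix.cons_val]
  funext k
  simp only [gr, e, rot_inv h, mul_comm (dd _ _ _), rot_sum]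
  congr 1
  funext i
  simp only [gr, mul_comm (dd _ _ _)]

theorem rot_dv (h : ∀ i j, ∑ k, O k i * O k j = if i = j then 1 else 0) (c : Co)
    (x p : T1 n) (A : T2 n) (B : T3 n) (u : ℝ) :
    dv c (ap O x) (ap O p) (rot2 O A) (rot3 O B) u = dv c x p A B u := by
  simp only [dv, rot_inv h, rot_nB h, rot_nA h, rot_tA h, rot_q h, rot_dot2 h, rot_gr h, rot_sq h,
    rot_ct h, rot_ap h, Finset.sum_add_distrib, rot_dot h]

theorem rot_st (h : ∀ i j, ∑ k, O k i * O k j = if i = j then 1 else 0) {x p : T1 n} {A : T2 n}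
    {B : T3 n} {u : ℝ} (hs : St x p A B u) : St (ap O x) (ap O p) (rot2 O A) (rot3 O B) u where
  st :=
    { a := fun i j => by
        rw [rot_swap]
        simp only [hs.st.a _ _]
      b1 := fun i j k => by
        rw [rot_last, rot_last]
        congr 1
        funext c
        rw [rot_swap]
        congr 1
        funext a b
        exact hs.st.b1 _ _ _
      b2 := fun i j k => by
        unfold rot3
        congr 1
        funext c
        rw [rot_swap]
        congr 1
        funext a b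
        exact hs.st.b2 _ _ _
      ta := by rw [rot_tr h, hs.st.ta]
      tb := fun k => by
        have := rot_sum Finset.univ O (fun _ => 1) (fun i c => rot2 O (fun a b => B a b c) i i) k
        simp only [mul_one, rot_tr h, hs.st.tb] at this
        simp only [rot_last, this]
        simp [ap] }
  ax i := by
    have := congrFun (rot_ap h A x) i
    rw [show ap A x = 0 from funext hs.ax] at this
    exact this.trans (by simp [ap])
  bx i j := by
    simp only [rot_last, rot_dot h]
    rw [rot_sum2]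
    simp only [hs.bx]
    simp [rot2, ap]
  px := by rw [rot_dot h, hs.px]
  u0 := hs.u0
  p1 := by rw [rot_n1 h]; exact hs.p1
  x0 e := hs.x0 (by
    have := rot_n1 h x
    rw [e] at this
    funext i
    exact pow_eq_zero_iff two_ne_zero |>.1 ((Finset.sum_eq_zero_iff_of_nonneg
      fun i _ => sq_nonneg (x i)).1 (by simpa using this.symm) i (Finset.mem_univ _)))
  a0 e := hs.a0 (by
    have := rot_nA h A
    rw [e] at this
    have h0 : nA A = 0 := by simpa [nA] using this.symm
    funext i j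
    exact pow_eq_zero_iff two_ne_zero |>.1 ((Finset.sum_eq_zero_iff_of_nonneg
      fun j _ => sq_nonneg (A i j)).1 ((Finset.sum_eq_zero_iff_of_nonneg fun i _ =>
        Finset.sum_nonneg fun j _ => sq_nonneg (A i j)).1 h0 i (Finset.mem_univ _)) j
          (Finset.mem_univ _)))
  uw := by
    rw [rot_n1 h, show ∑ i, ∑ j, rot2 O A i j ^ 2 = nA A from rot_nA h A]
    exact hs.uw

theorem rot : S_rot := by
  intro n x p A B u hs h1
  obtain ⟨O, a, h0, hr, he⟩ := rot_exists x A hs.st.a hs.ax h1
  have h : ∀ i j, ∑ k, O k i * O k j = if i = j then 1 else 0 := fun i j => by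
    have : Matrix.of O * (Matrix.of O).transpose = 1 := Matrix.ext fun i j => hr i j
    exact Matrix.ext_iff.2 (mul_eq_one_comm.1 this) i j
  have ex : ap O x = e0 n := funext fun i => by
    rw [← h0]
    exact hr i 0
  have eA : rot2 O A = dg a := by
    funext i j
    have : (fun k => ap O (A k) j) = fun k => a j * O j k := funext fun k =>
      (Finset.sum_congr rfl fun _ _ => mul_comm _ _).trans (he j k)
    rw [rot2, this, ← rot_mul, ap, hr, dg]
    split_ifs with e
    · rw [e, mul_one]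
    · rw [mul_zero]
  refine ⟨a, ap O p, rot3 O B, ?_, ?_, fun c => ⟨?_, ?_⟩, fun μ hμ i => ?_⟩
  · exact ex ▸ eA ▸ rot_st h hs
  · rw [← ex, ← eA, rot_inv h]
  · rw [← ex, ← eA, rot_dv h]
  · rw [← ex, ← eA, rot_gr h, rot_n1 h]
  · have := congrFun (rot_ap h A p) i
    rw [eA, show ap A p = fun i => μ * p i from funext hμ, ← rot_mul] at this
    rw [← this]
    simp [ap, dg]

end Vale.Agent.P098
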