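import Vale.Agent.P098.CertDefs

open MeasureTheory Set Metric Filter
open scoped ContDiff RealInnerProductSpace Topology NNReal

noncomputable section
namespace Vale.Agent.P098

theorem shape_le {m a b c d : ℝ} (hm : 0 < m) (h3 : 3 * m ^ 2 = 1) (h1 : a + b + c + d = 0)
    (h2 : a ^ 2 + b ^ 2 + c ^ 2 + d ^ 2 = 4) : 0 ≤ (3 * m - a) * (a + m) ^ 2 := by
  refine mul_nonneg (sub_nonneg.2 (abs_le_of_sq_le_sq' ?_ (by positivity)).2) (sq_nonneg _)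
  have e : a ^ 2 = (b + c + d) ^ 2 := by linear_combination (a - (b + c + d)) * h1
  linarith [sq_nonneg (b - c), sq_nonneg (b - d), sq_nonneg (c - d)]

theorem shape_cube {m a b c d : ℝ} (hm : 0 < m) (h3 : 3 * m ^ 2 = 1) (h1 : a + b + c + d = 0)
    (h2 : a ^ 2 + b ^ 2 + c ^ 2 + d ^ 2 = 4) : a ^ 3 + b ^ 3 + c ^ 3 + d ^ 3 ≤ 8 * m := by
  have k1 := shape_le hm h3 h1 h2
  have k2 := shape_le (a := b) (b := a) (c := c) (d := d) hm h3 (by linarith) (by linarith)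
  have k3 := shape_le (a := c) (b := a) (c := b) (d := d) hm h3 (by linarith) (by linarith)
  have k4 := shape_le (a := d) (b := a) (c := b) (d := c) hm h3 (by linarith) (by linarith)
  have e : (3 * m - a) * (a + m) ^ 2 + (3 * m - b) * (b + m) ^ 2 + (3 * m - c) * (c + m) ^ 2 +
      (3 * m - d) * (d + m) ^ 2 = 8 * m - (a ^ 3 + b ^ 3 + c ^ 3 + d ^ 3) := by
    linear_combination 5 * m ^ 2 * h1 + m * h2 + 4 * m * h3
  linarith

theorem shape_root {a b c d t : ℝ} (h1 : a + b + c + d = 0)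
    (h2 : a ^ 2 + b ^ 2 + c ^ 2 + d ^ 2 = 4) (h3 : a ^ 3 + b ^ 3 + c ^ 3 + d ^ 3 = 4 * sγ t)
    (h : a * b * c * d < 3 * t ^ 4 - 2 * t ^ 2) : 0 < a ^ 2 + 2 * t * a + 3 * t ^ 2 - 2 := by
  obtain rfl : d = -(a + b + c) := by linarith
  have e : (a - t) ^ 2 * (a ^ 2 + 2 * t * a + 3 * t ^ 2 - 2) =
      3 * t ^ 4 - 2 * t ^ 2 - a * b * c * -(a + b + c) := by
    unfold sγ at h3
    linear_combination a ^ 2 / 2 * h2 + a / 3 * h3
  by_contra hc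
  nlinarith [mul_nonneg (sq_nonneg (a - t)) (sub_nonneg.2 (not_lt.1 hc))]

theorem shape_c {a b c d : ℝ} (h1 : a + b + c + d = 0) (h2 : a ^ 2 + b ^ 2 + c ^ 2 + d ^ 2 = 4) :
    ∃ t : ℝ, 3 * t ^ 2 ≤ 1 ∧ a ^ 3 + b ^ 3 + c ^ 3 + d ^ 3 = 4 * sγ t ∧
      (a ^ 2 - 1 - sγ t * a) ^ 2 + (b ^ 2 - 1 - sγ t * b) ^ 2 + (c ^ 2 - 1 - sγ t * c) ^ 2 +
        (d ^ 2 - 1 - sγ t * d) ^ 2 ≤ (2 * se t) ^ 2 := by
  obtain ⟨m, hm, h3⟩ : ∃ m : ℝ, 0 < m ∧ 3 * m ^ 2 = 1 :=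
    ⟨√(1 / 3), by positivity, by rw [Real.sq_sqrt (by norm_num)]; norm_num⟩
  have u1 := shape_cube hm h3 h1 h2
  have u2 := shape_cube (a := -a) (b := -b) (c := -c) (d := -d) hm h3 (by linarith) (by linarith)
  have e1 : 4 * sγ m = -(8 * m) := by
    unfold sγ
    linear_combination 4 * m * h3
  have e2 : 4 * sγ (-m) = 8 * m := by
    unfold sγ
    linear_combination -4 * m * h3
  obtain ⟨t, ht, h4⟩ := intermediate_value_Icc' (f := fun t => 4 * sγ t) (a := -m) (b := m)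
    (by linarith) (by unfold sγ; fun_prop)
    (show a ^ 3 + b ^ 3 + c ^ 3 + d ^ 3 ∈ _ from ⟨by linarith, by linarith⟩)
  have h5 : a ^ 3 + b ^ 3 + c ^ 3 + d ^ 3 = 4 * sγ t := h4.symm
  have t1 : 3 * t ^ 2 ≤ 1 := by nlinarith [ht.1, ht.2]
  refine ⟨t, t1, h5, ?_⟩
  have k : 3 * t ^ 4 - 2 * t ^ 2 ≤ a * b * c * d := by
    by_contra hc
    have hc := not_le.1 hc
    have k1 := shape_root h1 h2 h5 hc
    have k2 := shape_root (a := b) (b := a) (c := c) (d := d) (t := t) (by linarith) (by linarith)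
      (by linarith) (by linarith)
    have k3 := shape_root (a := c) (b := a) (c := b) (d := d) (t := t) (by linarith) (by linarith)
      (by linarith) (by linarith)
    have k4 := shape_root (a := d) (b := a) (c := b) (d := c) (t := t) (by linarith) (by linarith)
      (by linarith) (by linarith)
    have e : 2 * t * a + 2 * t * b + 2 * t * c + 2 * t * d = 0 := by linear_combination 2 * t * h1
    linarith
  have e : (a ^ 2 - 1 - sγ t * a) ^ 2 + (b ^ 2 - 1 - sγ t * b) ^ 2 + (c ^ 2 - 1 - sγ t * c) ^ 2 +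
      (d ^ 2 - 1 - sγ t * d) ^ 2 = 4 - 4 * (a * b * c * d) - 4 * sγ t ^ 2 := by
    obtain rfl : d = -(a + b + c) := by linarith
    linear_combination ((a ^ 2 + b ^ 2 + c ^ 2 + (-(a + b + c)) ^ 2) / 2 + sγ t ^ 2) * h2 -
      2 * sγ t * h5
  rw [e]
  unfold sγ se
  nlinarith [sq_nonneg ((1 - 3 * t ^ 2) * t ^ 2)]

theorem shape_core (y b : Fin 4 → ℝ) (h1 : ∑ i, y i = 0) (h2 : ∑ i, y i ^ 2 = 4) :
    ∃ c b0 b1 ζ : ℝ, 3 * c ^ 2 ≤ 1 ∧ ∑ i, y i ^ 3 = 4 * sγ c ∧ ∑ i, b i = 2 * b0 ∧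
      ∑ i, y i * b i = 2 * b1 ∧ ∑ i, y i ^ 2 * b i = 2 * b0 + 2 * sγ c * b1 + 2 * se c * ζ ∧
      b0 ^ 2 + b1 ^ 2 + ζ ^ 2 ≤ ∑ i, b i ^ 2 := by
  simp only [Fin.sum_univ_four] at h1 h2
  obtain ⟨c, c1, c2, c3⟩ := shape_c h1 h2
  obtain ⟨b0, e0⟩ : ∃ b0, ∑ i, b i = 2 * b0 := ⟨(∑ i, b i) / 2, by ring⟩
  obtain ⟨b1, e1⟩ : ∃ b1, ∑ i, y i * b i = 2 * b1 := ⟨(∑ i, y i * b i) / 2, by ring⟩
  set S := ∑ i, y i ^ 2 * b i - 2 * b0 - 2 * sγ c * b1 with hS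
  set R := ∑ i, b i ^ 2 - b0 ^ 2 - b1 ^ 2 with hR
  have k1 : ∑ i, (y i ^ 2 - 1 - sγ c * y i) * (b i - b0 / 2 - b1 / 2 * y i) = S := by
    simp only [hS, Fin.sum_univ_four] at e0 e1 ⊢
    linear_combination (-1) * e0 - sγ c * e1 + (b0 / 2 * sγ c + b1 / 2) * h1 +
      (-(b0 / 2) + sγ c * b1 / 2) * h2 - b1 / 2 * c2
  have k2 : ∑ i, (b i - b0 / 2 - b1 / 2 * y i) ^ 2 = R := by
    simp only [hR, Fin.sum_univ_four] at e0 e1 ⊢
    linear_combination (-b0) * e0 - b1 * e1 + b0 * b1 / 2 * h1 + b1 ^ 2 / 4 * h2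
  have R0 : 0 ≤ R := k2 ▸ Finset.sum_nonneg fun i _ => sq_nonneg _
  have k3 : S ^ 2 ≤ (2 * se c) ^ 2 * R := by
    have := Finset.sum_mul_sq_le_sq_mul_sq Finset.univ (fun i => y i ^ 2 - 1 - sγ c * y i)
      fun i => b i - b0 / 2 - b1 / 2 * y i
    rw [k1, k2, Fin.sum_univ_four] at this
    exact this.trans (mul_le_mul_of_nonneg_right c3 R0)
  obtain ⟨ζ, z1, z2⟩ : ∃ ζ, S = 2 * se c * ζ ∧ ζ ^ 2 ≤ R := by
    by_cases h : 2 * se c = 0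
    · rw [h] at k3 ⊢
      exact ⟨0, by nlinarith [sq_nonneg S], by simpa using R0⟩
    · refine ⟨S / (2 * se c), (mul_div_cancel₀ _ h).symm, ?_⟩
      rwa [div_pow, div_le_iff₀' (by positivity)]
  exact ⟨c, b0, b1, ζ, c1, by rwa [Fin.sum_univ_four], e0, e1, by linarith, by linarith⟩

theorem shape : S_shape := by
  intro x a b h1 h2
  have e2 : ∑ i, (a i + x / 4) ^ 2 = 1 - 5 / 4 * x ^ 2 := by
    simp only [Fin.sum_univ_four] at h1 h2 ⊢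
    linear_combination x / 2 * h1 + h2
  have n0 : 0 ≤ 1 - 5 / 4 * x ^ 2 := e2 ▸ Finset.sum_nonneg fun i _ => sq_nonneg _
  obtain ⟨β, b0, hβ⟩ : ∃ β : ℝ, 0 ≤ β ∧ 4 * β ^ 2 = 1 - 5 / 4 * x ^ 2 :=
    ⟨√(1 - 5 / 4 * x ^ 2) / 2, by positivity, by rw [div_pow, Real.sq_sqrt n0]; ring⟩
  obtain ⟨y, y1, y2, y3⟩ : ∃ y : Fin 4 → ℝ, ∑ i, y i = 0 ∧ ∑ i, y i ^ 2 = 4 ∧
      ∀ i, a i = -(x / 4) + β * y i := by
    by_cases h : β = 0
    · refine ⟨![1, 1, -1, -1], by simp [Fin.sum_univ_four], by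
        simp only [Fin.sum_univ_four, Matrix.cons_val]; norm_num, fun i => ?_⟩
      have := Finset.single_le_sum (f := fun i => (a i + x / 4) ^ 2) (fun i _ => sq_nonneg _)
        (Finset.mem_univ i)
      rw [e2, ← hβ, h] at this
      rw [h]
      nlinarith [sq_nonneg (a i + x / 4)]
    · refine ⟨fun i => (a i + x / 4) / β, ?_, ?_, fun i => by field_simp; ring⟩
      · rw [← Finset.sum_div, div_eq_zero_iff]
        left
        simp only [Fin.sum_univ_four] at h1 ⊢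
        linarith
      · simp only [div_pow (_ + _)]
        rw [← Finset.sum_div, e2, ← hβ, mul_div_cancel_right₀ _ (pow_ne_zero 2 h)]
  obtain ⟨c, b0, b1, ζ, c1, c2, c3, c4, c5, c6⟩ := shape_core y b y1 y2
  refine ⟨β, c, b0, b1, ζ, ⟨by linarith, ‹_›, c1⟩, ?_, ?_, ?_, by rw [c3]; linarith⟩ <;>
    simp only [y3, Fin.sum_univ_four, sτ, l1, l2] at y1 y2 c2 c3 c4 c5 ⊢
  · linear_combination 3 * x ^ 2 / 16 * β * y1 - 3 * x / 4 * β ^ 2 * y2 + β ^ 3 * c2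
  · linear_combination -(5 / 4) * x * c3 + β * c4
  · linear_combination -(15 / 16) * x ^ 2 * c3 - x * β / 2 * c4 + β ^ 2 * c5

end Vale.Agent.P098
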