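import Vale.Agent.P098.All
import Vale.Agent.P098.Cone
import Vale.Agent.P098.CoSm
import Vale.Agent.P098.CoGr
import Vale.Agent.P098.Rot
import Vale.Agent.P098.Shape
import Vale.Agent.P098.CoInt
import Vale.Agent.P098.CoBd
import Vale.Agent.P098.CoBnd
import Vale.Agent.P098.KAlg
import Vale.Agent.P098.KSub
import Vale.Agent.P098.KDer
import Vale.Agent.P098.KNm
import Vale.Agent.P098.KNzs
import Vale.Agent.P098.KKeep
import Vale.Agent.P098.KCut
import Vale.Agent.P098.KComb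
import Vale.Agent.P098.KCtr
import Vale.Agent.P098.KWpt
import Vale.Agent.P098.KWco
import Vale.Agent.P098.KSm
import Vale.Agent.P098.KRok
import Vale.Agent.P098.KEl
import Vale.Agent.P098.KSq
import Vale.Agent.P098.KGm
import Vale.Agent.P098.KFin1
import Vale.Agent.P098.KFin
import Vale.Agent.P098.KEtot
import Vale.Agent.P098.KInterp
import Vale.Agent.P098.KPair5
import Vale.Agent.P098.KPair4
import Vale.Agent.P098.KPair2
import Vale.Agent.P098.KSx
import Vale.Agent.P098.KPair1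
import Vale.Agent.P098.KPair0
import Vale.Agent.P098.KEv
import Vale.Agent.P098.KTm
import Vale.Agent.P098.KShp
import Vale.Agent.P098.KGood
import Vale.Agent.P098.KSmooth
import Vale.Agent.P098.KKap
import Vale.Agent.P098.KIdent
import Vale.Agent.P098.KInt

open MeasureTheory
open scoped RealInnerProductSpace

namespace Vale.Agent.P098.Ck

theorem sub' : S_sub := sub alg
theorem nm' : S_nm := nm_ok alg
theorem sq5' : S_sq5 := sq5_ok rok_ok (el_ok sm_ok rok_ok)
theorem fin' : S_fin := fin_ok (fin1_ok nzs_ok rok_ok sq5')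
theorem pair5' : S_pair5 := pair5_ok sub' (gm_ok sub' nzs_ok) fin' etot_ok
theorem pair4' : S_pair4 := pair4_ok alg (der_ok alg) nm' wco_ok interp pair5'
theorem pair2' : S_pair2 := pair2_ok alg nzs_ok (keep_ok alg) cut pair4'
theorem pair1' : S_pair1 :=
  pair1_ok alg nm' nzs_ok (comb_ok alg) (wpt_ok alg) (sx_ok alg (ctr_ok alg) wco_ok ev_ok) pair2'
theorem pair0' : S_pair0 := pair0_ok alg nm' nzs_ok (keep_ok alg) pair1'
theorem go' : S_go := go_ok sub' pair0'
theorem good' : S_good := good_ok ev_ok go' (shp_ok (tm_ok ev_ok))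
theorem gl' : S_gl := gl_ok ev_ok (pack_ok alg sub' ev_ok)
theorem int' : S_int := int_ok kap_ok (ident_ok d4_ok kap_ok)

theorem final (W : ℕ → ℕ → P) (hI : Good5 (Gint W) AI 0 512 0 512 0 512 24 488 216 808)
    (h1 : Good5 (Gb1 W) AB 0 0 0 0 0 0 24 256 216 808)
    (h2 : Good5 (Gb2 W) AB 0 0 0 0 0 0 24 256 216 808) (n : ℕ) (hn : n ≤ 6) : ConeFlat n :=
  coneFlat 6 harm' jets' flatfin' jetU' reg' scale' main2'
    (cert_of cosm (coint cogr rot shape) (cobd cogr rot shape) (cobnd cogr) lower' (FF W) (ff_sm W)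
      (int' W hI).1 (bd_ok W h1 h2) (int' W hI).2) n hn

theorem main_of (W : ℕ → ℕ → P) (hI : Good5 (Gint W) AI 0 512 0 512 0 512 24 488 216 808)
    (h1 : Good5 (Gb1 W) AB 0 0 0 0 0 0 24 256 216 808)
    (h2 : Good5 (Gb2 W) AB 0 0 0 0 0 0 24 256 216 808) :
    ∀ n : ℕ, 1 ≤ n → n ≤ 6 → ∀ u : E n → ℝ, GlobalMin u → OneHomog u →
      (∀ᵐ x, u x = 0) ∨ ∃ e : E n, ‖e‖ = 1 ∧ ∀ᵐ x, u x = max ⟪x, e⟫ 0 :=
  fun n _ hn u hu hh => final_of n step0' (final W hI h1 h2 n hn) u hu hh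

end Vale.Agent.P098.Ck
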