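import Vale.Agent.P098.CkSem

/-! # P098: soundness of `comb` and `tens0` -/

open Finset

noncomputable section
namespace Vale.Agent.P098.Ck

theorem kcomb_pk (L J : ℕ) (u : ℕ → ℕ) :
    pk L (J + 1) u = u 0 + 2 ^ L * pk L J (fun j => u (j + 1)) := by
  unfold pk
  rw [sum_range_succ', mul_sum, add_comm]
  congr 1
  · simp
  · refine sum_congr rfl fun j _ => ?_
    rw [Nat.mul_succ, pow_add]
    ring

theorem kcomb_land {L M J : ℕ} (hM : M + 1 = 2 ^ L) {u : ℕ → ℕ} (h : u 0 < 2 ^ L) :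
    Nat.land (pk L (J + 1) u) M = u 0 := by
  have e : M = 2 ^ L - 1 := by omega
  change pk L (J + 1) u &&& M = u 0
  rw [e, Nat.and_two_pow_sub_one_eq_mod, kcomb_pk, Nat.add_mul_mod_self_left, Nat.mod_eq_of_lt h]

theorem kcomb_shift {L J : ℕ} {u : ℕ → ℕ} (h : u 0 < 2 ^ L) :
    Nat.shiftRight (pk L (J + 1) u) L = pk L J (fun j => u (j + 1)) := by
  change pk L (J + 1) u >>> L = _
  rw [Nat.shiftRight_eq_div_pow, kcomb_pk, Nat.add_mul_div_left _ _ (Nat.two_pow_pos L),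
    Nat.div_eq_of_lt h, zero_add]

theorem kcomb_cons (L M : ℕ) (p : P) (l : PL) (a b : ℕ) :
    comb L M (PL.cons p l) a b = padd (zsm (Nat.land a M) (Nat.land b M) p)
      (comb L M l (Nat.shiftRight a L) (Nat.shiftRight b L)) := rfl

theorem kcomb_band {a b : Bool} (h : band a b = true) : a = true ∧ b = true := by
  cases a <;> cases b <;> simp_all [band]

theorem kcomb_comb (h_alg : S_alg) (L J L' M : ℕ) (hM : M + 1 = 2 ^ L') (S : PL) :
    ∀ (n : ℕ) (Sf : ℕ → ℕ → ℝ) (u v : ℕ → ℕ), RepL L J S Sf n →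
    (∀ j, j < n → u j < 2 ^ L' ∧ v j < 2 ^ L') →
    Rep L J (comb L' M S (pk L' n u) (pk L' n v))
      (fun _ x => ∑ j ∈ range n, ((u j : ℝ) - (v j : ℝ)) * Sf j x) := by
  induction S with
  | nil =>
    intro n Sf u v h _
    have hn : n = 0 := h
    subst hn
    intro e j _
    simp
  | cons p l ih =>
    intro n Sf u v h huv
    obtain ⟨n', rfl, h1, h2⟩ := h
    obtain ⟨hu, hv⟩ := huv 0 (Nat.succ_pos _)
    rw [kcomb_cons, kcomb_land hM hu, kcomb_land hM hv, kcomb_shift hu, kcomb_shift hv]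
    have a1 := h_alg.padd L J _ _ _ _ (h_alg.zsm L J (u 0) (v 0) _ _ h1)
      (ih n' (fun j => Sf (j + 1)) (fun j => u (j + 1)) (fun j => v (j + 1)) h2
        fun j hj => huv (j + 1) (Nat.succ_lt_succ hj))
    refine h_alg.congr L J _ _ _ a1 fun e j _ => ?_
    rw [sum_range_succ', add_comm]

theorem comb_ok (h_alg : S_alg) : S_comb := by
  refine ⟨fun L J L' M n S Sf u v hM h huv => kcomb_comb h_alg L J L' M hM S n Sf u v h huv, ?_⟩
  intro L J L' M n S Sf G Gf hM h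
  induction G generalizing Gf with
  | nil =>
    intro hG _ e x _
    exact sum_eq_zero fun j hj => by rw [hG e j (mem_range.1 hj), zero_mul]
  | lf a b m =>
    rintro ⟨u, v, rfl, rfl, h1, h2⟩ hok
    have hm : m < 2 ^ L' := Nat.blt_eq ▸ hok
    have a1 := kcomb_comb h_alg L J L' M hM S n Sf u v h fun j hj =>
      ⟨(h1 j hj).1.trans_lt hm, (h1 j hj).2.trans_lt hm⟩
    refine h_alg.congr L J _ _ _ a1 fun e x _ => ?_
    exact sum_congr rfl fun j hj => by rw [h2 e j (mem_range.1 hj)]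
  | cons c r ic ir =>
    rintro ⟨C, R, h1, h2, h3⟩ hok
    obtain ⟨o1, o2⟩ := kcomb_band (a := okm (2 ^ L') c) (b := okm (2 ^ L') r) hok
    refine ⟨_, _, ic C h1 o1, ir R h2 o2, fun e x _ => ?_⟩
    rw [mul_sum, ← sum_add_distrib]
    refine sum_congr rfl fun j hj => ?_
    rw [h3 e j (mem_range.1 hj)]
    ring

end Vale.Agent.P098.Ck
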