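import Vale.Agent.P098.CkTop

/-! P098: the quadratic forms of the shape matrices. -/

open Finset

noncomputable section
namespace Vale.Agent.P098.Ck

structure KIdH (k c x β γ e τ Q L M : ℝ) (v : ℕ → ℝ) : Prop where
  hx : rX k c = x
  hb : rB k c = β
  hg : rGa k c = γ
  he : rE2 k c = 2 * e
  ht : rT1 k c = τ
  hQ : Q = 63 / 64 * v 0 ^ 2 + 3 / 4 * v 1 ^ 2 + 3 / 4 * v 2 ^ 2
  hL : L = -(15 / 16) * x * v 0 + β * v 1
  hM : M = (48 * β ^ 2 - 45 * x ^ 2 + 60 * x * τ) / 64 * v 0 +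
    (2 * β ^ 2 * γ - x * β - 2 * β * τ) / 2 * v 1 + β ^ 2 * e * v 2

variable {k c x β γ e τ Q L M : ℝ} {v : ℕ → ℝ}

theorem kident_q1 (h : KIdH k c x β γ e τ Q L M v) :
    Qf (rS1 k c) v = 2 * (Q - L ^ 2) := by
  simp only [Qf, qf, rS1, ↓reduceIte, Nat.reduceEqDiff, rX2, rXB, rB2, h.hx, h.hb, h.hQ, h.hL]
  ring

theorem kident_q2 (h : KIdH k c x β γ e τ Q L M v) :
    Qf (rS2 k c) v = 2 * τ * (Q - L ^ 2) + 6 * L * M := by
  simp only [Qf, qf, rS2, ↓reduceIte, Nat.reduceEqDiff, rXT21, rX2, rCT100, rCT000, rB2, rXT11, rBX11,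
    rCT101, rCT001, rBG, rXB, rBX01, rBC00, rBB1, rBC01, rCT102, rCT002, rBC02, h.ht, h.hx,
    h.hb, h.hg, h.he, h.hQ, h.hL, h.hM]
  ring

theorem kident_q3 (h : KIdH k c x β γ e τ Q L M v) :
    Qf (rS3 k c) v = 2 * τ ^ 2 * (Q - L ^ 2) + 12 * τ * L * M := by
  simp only [Qf, qf, rS3, ↓reduceIte, Nat.reduceEqDiff, rT2, rXT22, rX2, rCT110, rXT11, rCT000, rB2,
    rBX12, rXT12, rCT111, rCT001, rBG, rXB, rBX01, rBC10, rCT010, rBB2, rBX02, rBC11, rCT011,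
    rCT112, rCT002, rBC12, rCT012, h.ht, h.hx, h.hb, h.hg, h.he, h.hQ, h.hL, h.hM]
  ring

theorem kident_q4 (h : KIdH k c x β γ e τ Q L M v) :
    Qf (rS4 k c) v = 2 * L ^ 2 := by
  simp only [Qf, qf, rS4, ↓reduceIte, Nat.reduceEqDiff, rX2, rXB, rB2, h.hx, h.hb, h.hL]
  ring

theorem kident_q5 (h : KIdH k c x β γ e τ Q L M v) :
    Qf (rS5 k c) v = 2 * τ * L ^ 2 := by
  simp only [Qf, qf, rS5, ↓reduceIte, Nat.reduceEqDiff, rXT21, rX2, rBX11, rXT11, rBB1, rBX01, h.hx,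
    h.ht, h.hb, h.hL]
  ring

theorem kident_q6 (h : KIdH k c x β γ e τ Q L M v) :
    Qf (rS6 k c) v = 2 * τ ^ 2 * L ^ 2 := by
  simp only [Qf, qf, rS6, ↓reduceIte, Nat.reduceEqDiff, rXT22, rX2, rT2, rBX12, rXT12, rBB2, rBX02,
    h.hx, h.ht, h.hb, h.hL]
  ring

theorem kident_q7 (h : KIdH k c x β γ e τ Q L M v) :
    Qf (rS7 k c) v = 2 * (v 3 ^ 2 - v 3 * L) := by
  simp only [Qf, qf, rS7, ↓reduceIte, Nat.reduceEqDiff, rAX00, h.hx, h.hb, h.hL]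
  ring

theorem kident_q8 (h : KIdH k c x β γ e τ Q L M v) :
    Qf (rS8 k c) v = 2 * τ * (v 3 ^ 2 - v 3 * L) - 6 * v 3 * M := by
  simp only [Qf, qf, rS8, ↓reduceIte, Nat.reduceEqDiff, rAX01, rXT11, rCT000, rB2, rX2, rBX01, rCT001,
    rBG, rXB, rCT002, h.ht, h.hx, h.hb, h.hg, h.he, h.hL, h.hM]
  ring

theorem kident_q9 (h : KIdH k c x β γ e τ Q L M v) :
    Qf (rS9 k c) v = 2 * τ ^ 2 * (v 3 ^ 2 - v 3 * L) - 12 * τ * v 3 * M := by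
  simp only [Qf, qf, rS9, ↓reduceIte, Nat.reduceEqDiff, rT2, rAX02, rXT12, rCT010, rCT000, rB2, rX2,
    rXT11, rBX02, rCT011, rCT001, rBG, rXB, rBX01, rCT012, rCT002, h.ht, h.hx, h.hb, h.hg,
    h.he, h.hL, h.hM]
  ring

theorem kident_q10 (h : KIdH k c x β γ e τ Q L M v) :
    Qf (rS10 k c) v = -2 * v 3 * L := by
  simp only [Qf, qf, rS10, ↓reduceIte, Nat.reduceEqDiff, rAX00, h.hx, h.hb, h.hL]
  ring

theorem kident_q11 (h : KIdH k c x β γ e τ Q L M v) :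
    Qf (rS11 k c) v = -2 * τ * v 3 * L := by
  simp only [Qf, qf, rS11, ↓reduceIte, Nat.reduceEqDiff, rAX01, rXT11, rBX01, h.hx, h.ht, h.hb, h.hL]
  ring

theorem kident_q12 (h : KIdH k c x β γ e τ Q L M v) :
    Qf (rS12 k c) v = -2 * τ ^ 2 * v 3 * L := by
  simp only [Qf, qf, rS12, ↓reduceIte, Nat.reduceEqDiff, rAX02, rXT12, rT2, rBX02, h.hx, h.ht, h.hb,
    h.hL]
  ring

theorem kident_q13 (h : KIdH k c x β γ e τ Q L M v) :
    Qf (rS13 k c) v = 2 * L * v 4 := by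
  simp only [Qf, qf, rS13, ↓reduceIte, Nat.reduceEqDiff, rAX00, h.hx, h.hb, h.hL]
  ring

theorem kident_q14 (h : KIdH k c x β γ e τ Q L M v) :
    Qf (rS14 k c) v = 2 * τ * L * v 4 := by
  simp only [Qf, qf, rS14, ↓reduceIte, Nat.reduceEqDiff, rAX01, rXT11, rBX01, h.hx, h.ht, h.hb, h.hL]
  ring

theorem kident_q15 (h : KIdH k c x β γ e τ Q L M v) :
    Qf (rS15 k c) v = 2 * τ ^ 2 * L * v 4 := by
  simp only [Qf, qf, rS15, ↓reduceIte, Nat.reduceEqDiff, rAX02, rXT12, rT2, rBX02, h.hx, h.ht, h.hb,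
    h.hL]
  ring

theorem kident_q16 (h : KIdH k c x β γ e τ Q L M v) :
    Qf (rS16 k c) v = 2 * x * L * v 4 := by
  simp only [Qf, qf, rS16, ↓reduceIte, Nat.reduceEqDiff, rAX10, rX2, rXB, h.hx, h.hb, h.hL]
  ring

theorem kident_q17 (h : KIdH k c x β γ e τ Q L M v) :
    Qf (rS17 k c) v = 2 * x * τ * L * v 4 := by
  simp only [Qf, qf, rS17, ↓reduceIte, Nat.reduceEqDiff, rAX11, rXT21, rX2, rBX11, rXT11, h.hx, h.ht,
    h.hb, h.hL]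
  ring

theorem kident_q18 (h : KIdH k c x β γ e τ Q L M v) :
    Qf (rS18 k c) v = 2 * x * τ ^ 2 * L * v 4 := by
  simp only [Qf, qf, rS18, ↓reduceIte, Nat.reduceEqDiff, rAX12, rXT22, rX2, rT2, rBX12, rXT12, h.hx,
    h.ht, h.hb, h.hL]
  ring

theorem kident_q19 (h : KIdH k c x β γ e τ Q L M v) :
    Qf (rS19 k c) v = 2 * x ^ 2 * L * v 4 := by
  simp only [Qf, qf, rS19, ↓reduceIte, Nat.reduceEqDiff, rAX20, rX3, rX2, rBX20, h.hx, h.hb, h.hL]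
  ring

theorem kident_q20 (h : KIdH k c x β γ e τ Q L M v) :
    Qf (rS20 k c) v = 2 * x ^ 2 * τ * L * v 4 := by
  simp only [Qf, qf, rS20, ↓reduceIte, Nat.reduceEqDiff, rAX21, rXT31, rX3, rX2, rBX21, rXT21, h.hx,
    h.ht, h.hb, h.hL]
  ring

theorem kident_q21 (h : KIdH k c x β γ e τ Q L M v) :
    Qf (rS21 k c) v = 2 * x ^ 2 * τ ^ 2 * L * v 4 := by
  simp only [Qf, qf, rS21, ↓reduceIte, Nat.reduceEqDiff, rAX22, rXT32, rX3, rX2, rT2, rBX22, rXT22,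
    h.hx, h.ht, h.hb, h.hL]
  ring

theorem kident_q22 (h : KIdH k c x β γ e τ Q L M v) :
    Qf (rS22 k c) v = 6 * M * v 4 := by
  simp only [Qf, qf, rS22, ↓reduceIte, Nat.reduceEqDiff, rCT000, rB2, rX2, rXT11, rCT001, rBG, rXB,
    rBX01, rCT002, h.hb, h.hx, h.ht, h.hg, h.he, h.hM]
  ring

theorem kident_q23 (h : KIdH k c x β γ e τ Q L M v) :
    Qf (rS23 k c) v = 6 * τ * M * v 4 := by
  simp only [Qf, qf, rS23, ↓reduceIte, Nat.reduceEqDiff, rCT010, rCT000, rB2, rX2, rXT11, rCT011,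
    rCT001, rBG, rXB, rBX01, rCT012, rCT002, h.ht, h.hb, h.hx, h.hg, h.he, h.hM]
  ring

theorem kident_q24 (h : KIdH k c x β γ e τ Q L M v) :
    Qf (rS24 k c) v = 6 * x * M * v 4 := by
  simp only [Qf, qf, rS24, ↓reduceIte, Nat.reduceEqDiff, rCT100, rCT000, rB2, rX2, rXT11, rCT101,
    rCT001, rBG, rXB, rBX01, rCT102, rCT002, h.hx, h.hb, h.ht, h.hg, h.he, h.hM]
  ring

theorem kident_q25 (h : KIdH k c x β γ e τ Q L M v) :
    Qf (rS25 k c) v = 6 * x * τ * M * v 4 := by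
  simp only [Qf, qf, rS25, ↓reduceIte, Nat.reduceEqDiff, rCT110, rXT11, rCT000, rB2, rX2, rCT111,
    rCT001, rBG, rXB, rBX01, rCT112, rCT002, h.hx, h.ht, h.hb, h.hg, h.he, h.hM]
  ring

theorem kident_q26 (h : KIdH k c x β γ e τ Q L M v) :
    Qf (rS26 k c) v = 6 * x ^ 2 * M * v 4 := by
  simp only [Qf, qf, rS26, ↓reduceIte, Nat.reduceEqDiff, rCT200, rX2, rCT000, rB2, rXT11, rCT201,
    rCT001, rBG, rXB, rBX01, rCT202, rCT002, h.hx, h.hb, h.ht, h.hg, h.he, h.hM]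
  ring

theorem kident_q27 (h : KIdH k c x β γ e τ Q L M v) :
    Qf (rS27 k c) v = 6 * x ^ 2 * τ * M * v 4 := by
  simp only [Qf, qf, rS27, ↓reduceIte, Nat.reduceEqDiff, rCT210, rXT21, rX2, rCT000, rB2, rXT11,
    rCT211, rCT001, rBG, rXB, rBX01, rCT212, rCT002, h.hx, h.ht, h.hb, h.hg, h.he, h.hM]
  ring

theorem kident_q28 (_ : KIdH k c x β γ e τ Q L M v) :
    Qf (rS28 k c) v = -2 * v 3 * v 4 := by
  simp only [Qf, qf, rS28, ↓reduceIte, Nat.reduceEqDiff]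
  ring

theorem kident_q29 (h : KIdH k c x β γ e τ Q L M v) :
    Qf (rS29 k c) v = -2 * τ * v 3 * v 4 := by
  simp only [Qf, qf, rS29, ↓reduceIte, Nat.reduceEqDiff, h.ht]
  ring

theorem kident_q30 (h : KIdH k c x β γ e τ Q L M v) :
    Qf (rS30 k c) v = -2 * τ ^ 2 * v 3 * v 4 := by
  simp only [Qf, qf, rS30, ↓reduceIte, Nat.reduceEqDiff, rT2, h.ht]
  ring

theorem kident_q31 (h : KIdH k c x β γ e τ Q L M v) :
    Qf (rS31 k c) v = -2 * x * v 3 * v 4 := by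
  simp only [Qf, qf, rS31, ↓reduceIte, Nat.reduceEqDiff, h.hx]
  ring

theorem kident_q32 (h : KIdH k c x β γ e τ Q L M v) :
    Qf (rS32 k c) v = -2 * x * τ * v 3 * v 4 := by
  simp only [Qf, qf, rS32, ↓reduceIte, Nat.reduceEqDiff, rXT11, h.hx, h.ht]
  ring

theorem kident_q33 (h : KIdH k c x β γ e τ Q L M v) :
    Qf (rS33 k c) v = -2 * x * τ ^ 2 * v 3 * v 4 := by
  simp only [Qf, qf, rS33, ↓reduceIte, Nat.reduceEqDiff, rXT12, rT2, h.hx, h.ht]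
  ring

theorem kident_q34 (_ : KIdH k c x β γ e τ Q L M v) :
    Qf (rS34 k c) v = 2 * v 4 ^ 2 := by
  simp only [Qf, qf, rS34, ↓reduceIte, Nat.reduceEqDiff]
  ring

theorem kident_q35 (h : KIdH k c x β γ e τ Q L M v) :
    Qf (rS35 k c) v = 2 * τ * v 4 ^ 2 := by
  simp only [Qf, qf, rS35, ↓reduceIte, Nat.reduceEqDiff, h.ht]
  ring

theorem kident_q36 (h : KIdH k c x β γ e τ Q L M v) :
    Qf (rS36 k c) v = 2 * τ ^ 2 * v 4 ^ 2 := by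
  simp only [Qf, qf, rS36, ↓reduceIte, Nat.reduceEqDiff, rT2, h.ht]
  ring

theorem kident_q37 (h : KIdH k c x β γ e τ Q L M v) :
    Qf (rS37 k c) v = 2 * x * v 4 ^ 2 := by
  simp only [Qf, qf, rS37, ↓reduceIte, Nat.reduceEqDiff, h.hx]
  ring

theorem kident_q38 (h : KIdH k c x β γ e τ Q L M v) :
    Qf (rS38 k c) v = 2 * x * τ * v 4 ^ 2 := by
  simp only [Qf, qf, rS38, ↓reduceIte, Nat.reduceEqDiff, rXT11, h.hx, h.ht]
  ring

theorem kident_q39 (h : KIdH k c x β γ e τ Q L M v) :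
    Qf (rS39 k c) v = 2 * x * τ ^ 2 * v 4 ^ 2 := by
  simp only [Qf, qf, rS39, ↓reduceIte, Nat.reduceEqDiff, rXT12, rT2, h.hx, h.ht]
  ring

theorem kident_q40 (h : KIdH k c x β γ e τ Q L M v) :
    Qf (rS40 k c) v = 2 * x ^ 2 * v 4 ^ 2 := by
  simp only [Qf, qf, rS40, ↓reduceIte, Nat.reduceEqDiff, rX2, h.hx]
  ring

theorem kident_q41 (h : KIdH k c x β γ e τ Q L M v) :
    Qf (rS41 k c) v = 2 * x ^ 2 * τ * v 4 ^ 2 := by
  simp only [Qf, qf, rS41, ↓reduceIte, Nat.reduceEqDiff, rXT21, rX2, h.hx, h.ht]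
  ring

theorem kident_q42 (h : KIdH k c x β γ e τ Q L M v) :
    Qf (rS42 k c) v = 2 * x ^ 2 * τ ^ 2 * v 4 ^ 2 := by
  simp only [Qf, qf, rS42, ↓reduceIte, Nat.reduceEqDiff, rXT22, rX2, rT2, h.hx, h.ht]
  ring

theorem kident_q43 (h : KIdH k c x β γ e τ Q L M v) :
    Qf (rS43 k c) v = 2 * x ^ 3 * v 4 ^ 2 := by
  simp only [Qf, qf, rS43, ↓reduceIte, Nat.reduceEqDiff, rX3, rX2, h.hx]
  ring

theorem kident_q44 (h : KIdH k c x β γ e τ Q L M v) :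
    Qf (rS44 k c) v = 2 * x ^ 3 * τ * v 4 ^ 2 := by
  simp only [Qf, qf, rS44, ↓reduceIte, Nat.reduceEqDiff, rXT31, rX3, rX2, h.hx, h.ht]
  ring

theorem kident_q45 (h : KIdH k c x β γ e τ Q L M v) :
    Qf (rS45 k c) v = 2 * x ^ 3 * τ ^ 2 * v 4 ^ 2 := by
  simp only [Qf, qf, rS45, ↓reduceIte, Nat.reduceEqDiff, rXT32, rX3, rX2, rT2, h.hx, h.ht]
  ring

theorem kident_q46 (h : KIdH k c x β γ e τ Q L M v) :
    Qf (rS46 k c) v = 2 * τ ^ 3 * v 4 ^ 2 := by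
  simp only [Qf, qf, rS46, ↓reduceIte, Nat.reduceEqDiff, rT3, rT2, h.ht]
  ring

theorem kident_q47 (_ : KIdH k c x β γ e τ Q L M v) :
    Qf (rS47 k c) v = v 5 ^ 2 := by
  simp only [Qf, qf, rS47, ↓reduceIte, Nat.reduceEqDiff]
  ring

theorem kident_q48 (h : KIdH k c x β γ e τ Q L M v) :
    Qf (rS48 k c) v = τ * v 5 ^ 2 := by
  simp only [Qf, qf, rS48, ↓reduceIte, Nat.reduceEqDiff, h.ht]
  ring

theorem kident_q49 (h : KIdH k c x β γ e τ Q L M v) :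
    Qf (rS49 k c) v = τ ^ 2 * v 5 ^ 2 := by
  simp only [Qf, qf, rS49, ↓reduceIte, Nat.reduceEqDiff, rT2, h.ht]
  ring

end Vale.Agent.P098.Ck
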