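import Vale.Agent.P098.KAll
import Vale.Agent.P098.CkOk
import Vale.Agent.P098.CkW

open MeasureTheory
open scoped RealInnerProductSpace

namespace Vale.Agent.P098.Ck

theorem ok_good {G : P} {Gf : Pt → ℕ → ℝ} {Z : ℕ → EL} {A : (ℕ → ℝ) → Prop}
    (hG : Rep 256 50 G Gf) (hZ : ∀ mu, eok (Z mu) = true ∧ ∃ z, A z ∧ RepE (Z mu) (fun _ => z))
    {l0 h0 l1 h1 l2 h2 l3 h3 l4 h4 : ℕ} (h : Ok G Z l0 h0 l1 h1 l2 h2 l3 h3 l4 h4) :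
    Good5 Gf A l0 h0 l1 h1 l2 h2 l3 h3 l4 h4 := by
  induction h with
  | lf hS h => exact good'.mk5 G Gf Z A hG hZ _ _ _ _ _ hS _ _ _ _ _ _ _ _ h
  | out h => exact good'.out Gf A _ _ _ _ _ _ _ _ _ _ h
  | s0 _ _ _ a b => exact sp0 a b
  | s1 _ _ _ a b => exact sp1 a b
  | s2 _ _ _ a b => exact sp2 a b
  | s3 _ _ _ a b => exact sp3 a b
  | s4 _ _ _ a b => exact sp4 a b

theorem gd_rep : Rep 256 50 Gd (Gint Wt) :=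
  ev_ok.peq _ _ (br Gd_ok) ▸ gl'.gi Wt (bl Gd_ok)

theorem main_ok (hI : Ok Gd mult 0 512 0 512 0 512 24 488 216 808)
    (h1 : Ok (pack (bL1 Wt) 0) idm 0 0 0 0 0 0 24 256 216 808)
    (h2 : Ok (pack (bL2 Wt) 0) idm 0 0 0 0 0 0 24 256 216 808) :
    ∀ n : ℕ, 1 ≤ n → n ≤ 6 → ∀ u : E n → ℝ, GlobalMin u → OneHomog u →
      (∀ᵐ x, u x = 0) ∨ ∃ e : E n, ‖e‖ = 1 ∧ ∀ᵐ x, u x = max ⟪x, e⟫ 0 :=
  main_of Wt (ok_good gd_rep good'.mult hI) (ok_good (gl'.b1 Wt b1_ok) good'.idm h1)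
    (ok_good (gl'.b2 Wt b2_ok) good'.idm h2)

end Vale.Agent.P098.Ck
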