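import Vale.Agent.P098.CkSem

/-! P098: soundness of the first pairing step. -/

open Finset

noncomputable section
namespace Vale.Agent.P098.Ck

theorem kpair1_band {a b : Bool} (h : band a b = true) : a = true ∧ b = true := by
  cases a <;> cases b <;> simp_all [band]

theorem kpair1_zero (L J : ℕ) : pk L J (fun _ => 0) = 0 := by
  simp [pk]

theorem kpair1_ds (a : ℕ → ℝ) (c : ℕ → ℕ → ℕ → ℝ) (w : ℕ → ℕ → ℝ) (n : ℕ) :
    ds (fun i j => (∑ l ∈ range n, a l * c l i j) * w i j) =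
      ∑ l ∈ range n, a l * ds (fun i j => c l i j * w i j) := by
  simp only [ds, Finset.sum_mul, Finset.mul_sum, mul_assoc]
  rw [Finset.sum_comm (s := range n)]
  refine Finset.sum_congr rfl fun i _ => ?_
  rw [Finset.sum_comm]

theorem kpair1_qf (X Y B v : ℕ → ℝ) (h : ∀ k, k < 16 → |X k - Y k| ≤ B k - 1)
    (h1 : Qf B (fun i => |v i|) ≤ Qf Y v) : v 3 ^ 2 + v 4 ^ 2 ≤ Qf X v := by
  have key : ∀ k, k < 16 → ∀ i j, -((B k - 1) * (|v i| * |v j|)) ≤ (X k - Y k) * (v i * v j) := by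
    intro k hk i j
    refine le_trans ?_ (neg_abs_le _)
    rw [abs_mul, abs_mul]
    exact neg_le_neg (mul_le_mul_of_nonneg_right (h k hk) (by positivity))
  have p : ∀ i j, 0 ≤ |v i| * |v j| := fun i j => by positivity
  have s3 := abs_mul_abs_self (v 3)
  have s4 := abs_mul_abs_self (v 4)
  simp only [Qf, qf] at h1 ⊢
  linarith [key 0 (by norm_num) 0 0, key 1 (by norm_num) 0 1, key 2 (by norm_num) 0 2,
    key 3 (by norm_num) 0 3, key 4 (by norm_num) 0 4, key 5 (by norm_num) 1 1,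
    key 6 (by norm_num) 1 2, key 7 (by norm_num) 1 3, key 8 (by norm_num) 1 4,
    key 9 (by norm_num) 2 2, key 10 (by norm_num) 2 3, key 11 (by norm_num) 2 4,
    key 12 (by norm_num) 3 3, key 13 (by norm_num) 3 4, key 14 (by norm_num) 4 4,
    key 15 (by norm_num) 5 5, p 0 0, p 0 1, p 0 2, p 0 3, p 0 4, p 1 1, p 1 2, p 1 3, p 1 4,
    p 2 2, p 2 3, p 2 4, p 3 4, p 5 5]

theorem pair1_ok (h_alg : S_alg) (h_nm : S_nm) (h_nzs : S_nzs) (h_comb : S_comb) (h_wpt : S_wpt)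
    (h_sx : S_sx) (h_pair2 : S_pair2) : S_pair1 := by
  intro S Sf G1 EG n0 n1 n2 n3 n4 s w T N k0 k1 k2 k3 k4 hS hok hT hN hp e e' g he he' hg v
  obtain ⟨h1, h2⟩ := kpair1_band hp
  obtain ⟨h3, h4⟩ := kpair1_band h1
  obtain ⟨h5, h6⟩ := kpair1_band h4
  have hM : MG + 1 = 2 ^ 256 := by decide +kernel
  have hH : HG ≤ 2 ^ 256 := by decide +kernel
  have hH0 : 0 < HG := by decide +kernel
  obtain ⟨c, z, ρ, ν, r1, r2, r3, c0, hc⟩ := h_sx S Sf 50 ((n3 + 1) * (n4 + 1)) (wpt n3 n4)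
    (wp n3 n4) hS hok fun i j hij => h_wpt n3 n4 i j k3 k4 hij
  obtain ⟨u, u1, -, u2, u3⟩ := h_nm.nm 256 50 G1 T hT
  obtain ⟨u', v1, -, v2, v3⟩ := h_nm.nm 256 50 EG _ hN
  have t1 := h_comb.tens0 112 _ 256 MG 50 _ z G1 T hM r1 hT (h_alg.okm_mono _ _ _ h3 hH)
  have t2 := h_comb.comb 112 656 256 MG 50 _ ρ u (fun _ => 0) hM r2
    fun j hj => ⟨(u3 HG hH0 h5 j hj).trans_le hH, by positivity⟩
  have t3 := h_comb.comb 112 656 256 MG 50 _ ν u' (fun _ => 0) hM r3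
    fun j hj => ⟨(v3 HG hH0 h6 j hj).trans_le hH, by positivity⟩
  rw [kpair1_zero, ← u1] at t2
  rw [kpair1_zero, ← v1] at t3
  have t4 : Rep 112 656 (P.lf (ones 112 656) 0 1) (fun _ _ => 1) :=
    ⟨fun _ => 1, fun _ => 0, h_nzs.ones 112 656 (by norm_num), (kpair1_zero _ _).symm,
      fun _ _ => ⟨le_rfl, Nat.zero_le _⟩, fun _ _ _ => by simp⟩
  have t5 := h_alg.addL _ _ _ _ _ _ _ _ t4 (h_alg.padd _ _ _ _ _ _ t2 t3)
  have t6 := h_pair2 _ _ n0 n1 n2 n3 n4 s w _ _ (fun e k i j => ∑ l ∈ range 50, T e l * c l k i j)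
    k0 k1 k2 k3 k4 t1 t5
    (fun e k i j hij => Finset.sum_eq_zero fun l _ => by rw [c0 l k i j hij, mul_zero])
    (fun e k x hk hx => by
      rw [kpair1_ds]
      exact Finset.sum_congr rfl fun l hl => by rw [(hc l k (mem_range.1 hl) hk).1 x hx])
    (fun e k t hk ht => by
      rw [kpair1_ds]
      exact Finset.sum_congr rfl fun l hl => by rw [(hc l k (mem_range.1 hl) hk).2.1 t ht])
    h2 e (e' 0) (e' 1) he (he' 0) (he' 1) v
  refine kpair1_qf _ _ _ v (fun k hk => ?_) t6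
  rw [kpair1_ds, ← Finset.sum_sub_distrib, le_sub_iff_add_le']
  refine le_trans ?_ (le_abs_self _)
  rw [add_le_add_iff_left, ← Finset.sum_add_distrib]
  refine (Finset.abs_sum_le_sum_abs _ _).trans (Finset.sum_le_sum fun l hl => ?_)
  have hl' := mem_range.1 hl
  obtain ⟨a1, a2⟩ := (hc l k hl' hk).2.2 e' he'
  have a3 := u2 e he l hl'
  have a4 := (hg l hl').trans ((le_abs_self _).trans (v2 e he l hl'))
  have a5 : g l * (2 ^ 32 * Sf l e' k) - T e l * ds (fun i j => c l k i j * (e' 0 ^ i * e' 1 ^ j)) =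
      T e l * (2 ^ 32 * Sf l e' k - ds (fun i j => c l k i j * (e' 0 ^ i * e' 1 ^ j))) +
        (g l - T e l) * (2 ^ 32 * Sf l e' k) := by ring
  rw [a5, Nat.cast_zero, sub_zero, sub_zero]
  refine (abs_add_le _ _).trans (add_le_add ?_ ?_)
  · rw [abs_mul]
    exact mul_le_mul a3 a1 (abs_nonneg _) (Nat.cast_nonneg _)
  · rw [abs_mul]
    exact mul_le_mul a4 a2 (abs_nonneg _) (Nat.cast_nonneg _)

end Vale.Agent.P098.Ck
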