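import Vale.Agent.P098.Iface

open MeasureTheory Set Metric Filter
open scoped ContDiff RealInnerProductSpace Topology NNReal

noncomputable section
namespace Vale.Agent.P098

variable {n : ℕ} (k : ℕ)

/-- zero padding -/
def lower_p {α : Type} [Zero α] (f : Fin n → α) : Fin (n + k) → α := Fin.append f fun _ => 0

@[simp] theorem lower_pl {α : Type} [Zero α] (f : Fin n → α) (i : Fin n) :
    lower_p k f (Fin.castAdd k i) = f i := Fin.append_left _ _ _
@[simp] theorem lower_pr {α : Type} [Zero α] (f : Fin n → α) (i : Fin k) :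
    lower_p k f (Fin.natAdd n i) = 0 := Fin.append_right _ _ _

def lower_p2 (A : T2 n) : T2 (n + k) := lower_p k fun i => lower_p k (A i)
def lower_p3 (B : T3 n) : T3 (n + k) := lower_p k fun i => lower_p2 k (B i)

theorem lower_sum (x y : T1 n) : ∑ i, lower_p k x i * lower_p k y i = ∑ i, x i * y i := by
  simp [Fin.sum_univ_add]
theorem lower_sq (x : T1 n) : ∑ i, lower_p k x i ^ 2 = ∑ i, x i ^ 2 := by
  simp [Fin.sum_univ_add]
theorem lower_nA (A : T2 n) : nA (lower_p2 k A) = nA A := by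
  simp [nA, lower_p2, Fin.sum_univ_add]
theorem lower_nB (B : T3 n) : nB (lower_p3 k B) = nB B := by
  simp [nB, lower_p3, lower_p2, Fin.sum_univ_add]
theorem lower_sqA (A : T2 n) : sqA (lower_p2 k A) = lower_p2 k (sqA A) := by
  simp [funext_iff, Fin.forall_fin_add, sqA, lower_p2, Fin.sum_univ_add]
theorem lower_tA (A : T2 n) : tA (lower_p2 k A) = tA A := by
  rw [tA, lower_sqA]
  simp [tA, lower_p2, Fin.sum_univ_add]
theorem lower_ct (M : T2 n) (B : T3 n) : ct (lower_p2 k M) (lower_p3 k B) = lower_p k (ct M B) := by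
  simp [funext_iff, Fin.forall_fin_add, ct, lower_p2, lower_p3, Fin.sum_univ_add]
theorem lower_ap (M : T2 n) (p : T1 n) : ap (lower_p2 k M) (lower_p k p) = lower_p k (ap M p) := by
  simp [funext_iff, Fin.forall_fin_add, ap, lower_p2, Fin.sum_univ_add]
theorem lower_hh (b : T1 n) (A : T2 n) : hh (lower_p k b) (lower_p2 k A) = hh b A := by
  simp [hh, lower_p2, Fin.sum_univ_add]
theorem lower_inv (x p : T1 n) (A : T2 n) (u : ℝ) :
    inv (lower_p k x) (lower_p k p) (lower_p2 k A) u = inv x p A u := by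
  simp only [inv, lower_nA, lower_tA, lower_sq]
theorem lower_gr (f : (Fin 5 → ℝ) → ℝ) (x p : T1 n) (A : T2 n) (B : T3 n) (u : ℝ) :
    gr f (lower_p k x) (lower_p k p) (lower_p2 k A) (lower_p3 k B) u =
      lower_p k (gr f x p A B u) := by
  simp [funext_iff, Fin.forall_fin_add, gr, lower_inv, ginv, lower_sqA, lower_ct, lower_ap,
    Fin.sum_univ_five]
theorem lower_vf (c : Co) (x p : T1 n) (A : T2 n) (B : T3 n) (u : ℝ) :
    vf c (lower_p k x) (lower_p k p) (lower_p2 k A) (lower_p3 k B) u =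
      lower_p k (vf c x p A B u) := by
  simp [funext_iff, Fin.forall_fin_add, vf, lower_inv, lower_sqA, lower_ct, lower_ap]
theorem lower_dv (c : Co) (x p : T1 n) (A : T2 n) (B : T3 n) (u : ℝ) :
    dv c (lower_p k x) (lower_p k p) (lower_p2 k A) (lower_p3 k B) u = dv c x p A B u := by
  have : ∑ i, ∑ j, lower_p2 k A i j * ∑ l, ∑ m, lower_p3 k B i l m * lower_p3 k B j l m =
      ∑ i, ∑ j, A i j * ∑ l, ∑ m, B i l m * B j l m := by
    simp [lower_p2, lower_p3, Fin.sum_univ_add]
  simp only [dv, this, lower_inv, lower_nA, lower_nB, lower_tA, lower_gr, lower_sqA, lower_ct, lower_ap,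
    lower_sum, Finset.sum_add_distrib]

theorem lower_sym {A : T2 n} {B : T3 n} (h : SymTr A B) : SymTr (lower_p2 k A) (lower_p3 k B) := by
  refine ⟨?_, ?_, ?_, ?_, ?_⟩
  · simpa [Fin.forall_fin_add, lower_p2] using h.a
  · simpa [Fin.forall_fin_add, lower_p2, lower_p3] using h.b1
  · simpa [Fin.forall_fin_add, lower_p2, lower_p3] using h.b2
  · simpa [Fin.sum_univ_add, lower_p2] using h.ta
  · simpa [Fin.forall_fin_add, Fin.sum_univ_add, lower_p2, lower_p3] using h.tb

theorem lower_st {x p : T1 n} {A : T2 n} {B : T3 n} {u : ℝ} (h : St x p A B u) :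
    St (lower_p k x) (lower_p k p) (lower_p2 k A) (lower_p3 k B) u := by
  refine ⟨lower_sym k h.st, ?_, ?_, by rw [lower_sum]; exact h.px, h.u0, by rw [lower_sq]; exact h.p1,
    fun h0 => h.x0 ?_, fun h0 => h.a0 ?_, ?_⟩
  · simpa [Fin.forall_fin_add, Fin.sum_univ_add, lower_p2] using h.ax
  · simpa [Fin.forall_fin_add, Fin.sum_univ_add, lower_p2, lower_p3] using h.bx
  · funext i
    simpa using congrFun h0 (Fin.castAdd k i)
  · funext i j
    simpa [lower_p2] using congrFun (congrFun h0 (Fin.castAdd k i)) (Fin.castAdd k j)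
  · have e : u ^ 2 * nA (lower_p2 k A) = u ^ 2 * nA A := by rw [lower_nA]
    refine (e.trans_le h.uw).trans ?_
    rw [lower_sq]
    have h1 : 0 ≤ 1 - ∑ i, p i ^ 2 := sub_nonneg.2 h.p1
    have h2 : (n : ℝ) ≤ ((n + k : ℕ) : ℝ) := Nat.cast_le.2 (Nat.le_add_right n k)
    gcongr

theorem lower_adm {b : T1 n} {A : T2 n} {B : T3 n} (h : Adm b A B) :
    Adm (lower_p k b) (lower_p2 k A) (lower_p3 k B) := by
  refine ⟨lower_sym k h.st, by rw [lower_sq]; exact h.unit, ?_, fun x y hx hy => ?_⟩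
  · rw [lower_hh]
    simpa [Fin.forall_fin_add, Fin.sum_univ_add, lower_p2] using h.eig
  · rw [lower_hh]
    have := h.tang (fun i => x (Fin.castAdd k i)) (fun i => y (Fin.castAdd k i))
      (by simpa [Fin.sum_univ_add] using hx) (by simpa [Fin.sum_univ_add] using hy)
    simpa [Fin.sum_univ_add, lower_p2, lower_p3] using this

theorem lower_norm {α : Type} [SeminormedAddCommGroup α] (f : Fin n → α) : ‖lower_p k f‖ = ‖f‖ := by
  refine le_antisymm ((pi_norm_le_iff_of_nonneg (norm_nonneg _)).2 ?_)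
    ((pi_norm_le_iff_of_nonneg (norm_nonneg _)).2 fun i => ?_)
  · rw [Fin.forall_fin_add]
    exact ⟨fun i => by simpa using norm_le_pi_norm f i, fun i => by simp⟩
  · simpa using norm_le_pi_norm (lower_p k f) (Fin.castAdd k i)

theorem lower_norm2 (A : T2 n) : ‖lower_p2 k A‖ = ‖A‖ := by
  rw [lower_p2, lower_norm]
  simp only [Pi.norm_def (f := A), Pi.norm_def (f := fun i => lower_p k (A i))]
  congr 2
  funext i
  exact NNReal.eq (lower_norm k (A i))

theorem lower_norm3 (B : T3 n) : ‖lower_p3 k B‖ = ‖B‖ := by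
  rw [lower_p3, lower_norm]
  simp only [Pi.norm_def (f := B), Pi.norm_def (f := fun i => lower_p2 k (B i))]
  congr 2
  funext i
  exact NNReal.eq (lower_norm2 k (B i))

end Vale.Agent.P098
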