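import Vale.Agent.P098.Cone

/-!
# P098: cut-off functions and calculus for the final step
-/

open MeasureTheory Set Metric Filter
open scoped ContDiff RealInnerProductSpace Topology NNReal

noncomputable section
namespace Vale.Agent.P098

variable {n : ℕ}

def main2_chi (t : ℝ) : ℝ := Real.smoothTransition (t - 1)

theorem main2_chi_smooth : ContDiff ℝ 1 main2_chi :=
  Real.smoothTransition.contDiff.comp (contDiff_id.sub contDiff_const)

theorem main2_chi_nonneg (t : ℝ) : 0 ≤ main2_chi t := Real.smoothTransition.nonneg _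

theorem main2_chi_le (t : ℝ) : main2_chi t ≤ 1 := Real.smoothTransition.le_one _

theorem main2_chi_zero {t : ℝ} (h : t ≤ 1) : main2_chi t = 0 :=
  Real.smoothTransition.zero_of_nonpos (by linarith)

theorem main2_chi_one {t : ℝ} (h : 2 ≤ t) : main2_chi t = 1 :=
  Real.smoothTransition.one_of_one_le (by linarith)

theorem main2_chi_deriv_ne {t : ℝ} (h : deriv main2_chi t ≠ 0) : 1 ≤ t ∧ t ≤ 2 := by
  constructor
  · by_contra h1
    push Not at h1
    apply h
    have : main2_chi =ᶠ[𝓝 t] fun _ => 0 := by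
      filter_upwards [Iio_mem_nhds h1] with s hs using main2_chi_zero (le_of_lt hs)
    rw [this.deriv_eq]; simp
  · by_contra h1
    push Not at h1
    apply h
    have : main2_chi =ᶠ[𝓝 t] fun _ => 1 := by
      filter_upwards [Ioi_mem_nhds h1] with s hs using main2_chi_one (le_of_lt hs)
    rw [this.deriv_eq]; simp

theorem main2_chi_deriv_bd : ∃ M : ℝ, 0 < M ∧ ∀ t, |deriv main2_chi t| ≤ M := by
  have hc : Continuous (deriv main2_chi) := main2_chi_smooth.continuous_deriv le_rfl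
  obtain ⟨C, hC⟩ := (isCompact_Icc (a := (1 : ℝ)) (b := 2)).exists_bound_of_continuousOn
    hc.continuousOn
  refine ⟨max C 1, by positivity, fun t => ?_⟩
  by_cases h : deriv main2_chi t = 0
  · rw [h]; simp
  · exact (hC t (main2_chi_deriv_ne h)).trans (le_max_left _ _)

theorem main2_chi_hasDeriv (t : ℝ) : HasDerivAt main2_chi (deriv main2_chi t) t :=
  (main2_chi_smooth.differentiable (by norm_num) t).hasDerivAt

theorem main2_pd_chi {f : E n → ℝ} {x : E n} (hf : DifferentiableAt ℝ f x) (k : Fin n) :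
    pd k (fun y => main2_chi (f y)) x = deriv main2_chi (f x) * pd k f x := by
  have := (main2_chi_hasDeriv (f x)).comp_hasFDerivAt x hf.hasFDerivAt
  unfold pd
  rw [show (fun y => main2_chi (f y)) = main2_chi ∘ f from rfl, this.fderiv]
  simp

theorem main2_pd_mul {f g : E n → ℝ} {x : E n} (hf : DifferentiableAt ℝ f x)
    (hg : DifferentiableAt ℝ g x) (k : Fin n) :
    pd k (fun y => f y * g y) x = f x * pd k g x + g x * pd k f x := by
  unfold pd
  rw [fderiv_fun_mul hf hg]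
  simp

theorem main2_pd_nsq (c : ℝ) (x : E n) (k : Fin n) :
    pd k (fun y : E n => c * ‖y‖ ^ 2) x = c * (2 * x k) := by
  unfold pd
  have h := ((hasStrictFDerivAt_norm_sq x).hasFDerivAt).const_mul c
  rw [h.fderiv]
  simp [EuclideanSpace.inner_single_right]

theorem main2_nsq_diff (c : ℝ) : ContDiff ℝ 1 (fun y : E n => c * ‖y‖ ^ 2) :=
  contDiff_const.mul (contDiff_norm_sq ℝ)

theorem main2_abs_coord (x : E n) (k : Fin n) : |x k| ≤ ‖x‖ := by
  simpa using PiLp.norm_apply_le x k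

theorem main2_norm_sq (x : E n) : ∑ i, x i ^ 2 = ‖x‖ ^ 2 := by
  rw [EuclideanSpace.norm_eq, Real.sq_sqrt (by positivity)]
  simp

/-- The radial cut-off. -/
theorem main2_zeta : ∃ M : ℝ, 0 < M ∧ ∀ t : ℝ, 1 ≤ t → ∃ ζ : E n → ℝ, ContDiff ℝ 1 ζ ∧
    (∀ x, 0 ≤ ζ x ∧ ζ x ≤ 1) ∧ (∀ x, ζ x ≠ 0 → 1 / 2 ≤ ‖x‖ ∧ ‖x‖ ≤ 2 * t) ∧
    (∀ x, 1 ≤ ‖x‖ → ‖x‖ ≤ t → ζ x = 1) ∧ (∀ x k, |pd k ζ x| * ‖x‖ ≤ M) ∧
    ∀ x k, pd k ζ x ≠ 0 → (1 / 2 ≤ ‖x‖ ∧ ‖x‖ ≤ 1) ∨ (t ≤ ‖x‖ ∧ ‖x‖ ≤ 2 * t) := by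
  obtain ⟨M, hM, hb⟩ := main2_chi_deriv_bd
  refine ⟨8 * M, by positivity, fun t ht => ?_⟩
  have ht0 : 0 < t := by linarith
  set c : ℝ := (t ^ 2)⁻¹ with hc
  have hc0 : 0 < c := by positivity
  have hct : c * t ^ 2 = 1 := by rw [hc]; field_simp
  have s1 : ContDiff ℝ 1 (fun y : E n => main2_chi (4 * ‖y‖ ^ 2)) :=
    main2_chi_smooth.comp (main2_nsq_diff 4)
  have s2 : ContDiff ℝ 1 (fun y : E n => main2_chi (c * ‖y‖ ^ 2)) :=
    main2_chi_smooth.comp (main2_nsq_diff c)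
  have s3 : ContDiff ℝ 1 (fun y : E n => 1 - main2_chi (c * ‖y‖ ^ 2)) := contDiff_const.sub s2
  have hpd : ∀ (x : E n) (k : Fin n),
      pd k (fun y : E n => main2_chi (4 * ‖y‖ ^ 2) * (1 - main2_chi (c * ‖y‖ ^ 2))) x =
        -(main2_chi (4 * ‖x‖ ^ 2) * (deriv main2_chi (c * ‖x‖ ^ 2) * (c * (2 * x k)))) +
          (1 - main2_chi (c * ‖x‖ ^ 2)) * (deriv main2_chi (4 * ‖x‖ ^ 2) * (4 * (2 * x k))) := by
    intro x k
    rw [main2_pd_mul (s1.differentiable (by norm_num) x) (s3.differentiable (by norm_num) x),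
      main2_pd_chi ((main2_nsq_diff 4).differentiable (by norm_num) x), main2_pd_nsq]
    have : pd k (fun y : E n => 1 - main2_chi (c * ‖y‖ ^ 2)) x =
        -pd k (fun y : E n => main2_chi (c * ‖y‖ ^ 2)) x := by
      unfold pd
      rw [fderiv_const_sub]; simp
    rw [this, main2_pd_chi ((main2_nsq_diff c).differentiable (by norm_num) x), main2_pd_nsq]
    ring
  have r1 : ∀ x : E n, deriv main2_chi (4 * ‖x‖ ^ 2) ≠ 0 →
      1 / 2 ≤ ‖x‖ ∧ ‖x‖ ≤ 1 ∧ 4 * ‖x‖ ^ 2 ≤ 2 := by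
    intro x hx
    obtain ⟨h1, h2⟩ := main2_chi_deriv_ne hx
    have := norm_nonneg x
    refine ⟨by nlinarith, by nlinarith, h2⟩
  have r2 : ∀ x : E n, deriv main2_chi (c * ‖x‖ ^ 2) ≠ 0 →
      t ≤ ‖x‖ ∧ ‖x‖ ≤ 2 * t ∧ c * ‖x‖ ^ 2 ≤ 2 := by
    intro x hx
    obtain ⟨h1, h2⟩ := main2_chi_deriv_ne hx
    have := norm_nonneg x
    have h3 : t ^ 2 ≤ ‖x‖ ^ 2 := by
      have := mul_le_mul_of_nonneg_left h1 (sq_nonneg t)
      nlinarith
    have h4 : ‖x‖ ^ 2 ≤ 2 * t ^ 2 := by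
      have := mul_le_mul_of_nonneg_left h2 (sq_nonneg t)
      nlinarith
    refine ⟨by nlinarith, by nlinarith, h2⟩
  refine ⟨fun y => main2_chi (4 * ‖y‖ ^ 2) * (1 - main2_chi (c * ‖y‖ ^ 2)), s1.mul s3,
    fun x => ?_, fun x hx => ?_, fun x h1 h2 => ?_, fun x k => ?_, fun x k hx => ?_⟩
  · have a1 := main2_chi_nonneg (4 * ‖x‖ ^ 2)
    have a2 := main2_chi_le (4 * ‖x‖ ^ 2)
    have a3 := main2_chi_nonneg (c * ‖x‖ ^ 2)
    have a4 := main2_chi_le (c * ‖x‖ ^ 2)
    constructor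
    · exact mul_nonneg a1 (by linarith)
    · nlinarith
  · have := norm_nonneg x
    constructor
    · by_contra h
      push Not at h
      apply hx
      simp only
      rw [main2_chi_zero (by nlinarith), zero_mul]
    · by_contra h
      push Not at h
      apply hx
      simp only
      have h4 : 4 * t ^ 2 ≤ ‖x‖ ^ 2 := by nlinarith
      have h5 : 2 ≤ c * ‖x‖ ^ 2 := by
        have := mul_le_mul_of_nonneg_left h4 hc0.le
        nlinarith
      rw [main2_chi_one h5, sub_self, mul_zero]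
  · simp only
    have h4 : ‖x‖ ^ 2 ≤ t ^ 2 := by nlinarith
    have h5 : c * ‖x‖ ^ 2 ≤ 1 := by
      have := mul_le_mul_of_nonneg_left h4 hc0.le
      linarith
    rw [main2_chi_one (by nlinarith), main2_chi_zero h5]; simp
  · rw [hpd]
    have a1 := main2_chi_nonneg (4 * ‖x‖ ^ 2)
    have a2 := main2_chi_le (4 * ‖x‖ ^ 2)
    have a3 := main2_chi_nonneg (c * ‖x‖ ^ 2)
    have a4 := main2_chi_le (c * ‖x‖ ^ 2)
    have hx := main2_abs_coord x k
    have hn := norm_nonneg x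
    have key : ∀ (a s : ℝ), 0 ≤ a → a ≤ 1 → 0 < s →
        (deriv main2_chi (s * ‖x‖ ^ 2) ≠ 0 → s * ‖x‖ ^ 2 ≤ 2) →
        |a * (deriv main2_chi (s * ‖x‖ ^ 2) * (s * (2 * x k)))| * ‖x‖ ≤ 4 * M := by
      intro a s ha ha1 hs h
      by_cases h0 : deriv main2_chi (s * ‖x‖ ^ 2) = 0
      · rw [h0]; simp; positivity
      have h2 := h h0
      have hb' := hb (s * ‖x‖ ^ 2)
      rw [abs_mul, abs_mul, abs_mul, abs_mul, abs_of_nonneg ha, abs_of_pos hs, abs_two]
      have e1 : s * (2 * |x k|) * ‖x‖ ≤ 4 := by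
        have : s * (|x k| * ‖x‖) ≤ s * ‖x‖ ^ 2 :=
          mul_le_mul_of_nonneg_left (by nlinarith) hs.le
        nlinarith
      have e0 : 0 ≤ s * (2 * |x k|) * ‖x‖ := by positivity
      calc a * (|deriv main2_chi (s * ‖x‖ ^ 2)| * (s * (2 * |x k|))) * ‖x‖
          = a * |deriv main2_chi (s * ‖x‖ ^ 2)| * (s * (2 * |x k|) * ‖x‖) := by ring
        _ ≤ 1 * M * 4 := by gcongr
        _ = 4 * M := by ring
    have k1 := key _ c a1 a2 hc0 (fun h => (r2 x h).2.2)
    have k2 := key (1 - main2_chi (c * ‖x‖ ^ 2)) 4 (by linarith) (by linarith) (by norm_num)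
      (fun h => (r1 x h).2.2)
    calc _ ≤ (|main2_chi (4 * ‖x‖ ^ 2) * (deriv main2_chi (c * ‖x‖ ^ 2) * (c * (2 * x k)))| +
          |(1 - main2_chi (c * ‖x‖ ^ 2)) * (deriv main2_chi (4 * ‖x‖ ^ 2) * (4 * (2 * x k)))|) *
            ‖x‖ := by
          gcongr
          refine (abs_add_le _ _).trans ?_
          rw [abs_neg]
      _ ≤ 8 * M := by nlinarith
  · rw [hpd] at hx
    by_cases h1 : deriv main2_chi (4 * ‖x‖ ^ 2) = 0
    · by_cases h2 : deriv main2_chi (c * ‖x‖ ^ 2) = 0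
      · rw [h1, h2] at hx; simp at hx
      · exact Or.inr ⟨(r2 x h2).1, (r2 x h2).2.1⟩
    · exact Or.inl ⟨(r1 x h1).1, (r1 x h1).2.1⟩

theorem main2_fderiv_le (f : E n → ℝ) (x : E n) : ‖fderiv ℝ f x‖ ≤ ∑ k, |pd k f x| := by
  refine ContinuousLinearMap.opNorm_le_bound _ (by positivity) fun v => ?_
  have hv : v = ∑ k, v k • EuclideanSpace.single k (1 : ℝ) := by
    ext j; simp [Pi.single_apply]
  conv_lhs => rw [hv]
  rw [map_sum, Finset.sum_mul]
  refine (norm_sum_le _ _).trans (Finset.sum_le_sum fun k _ => ?_)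
  rw [map_smul, smul_eq_mul, Real.norm_eq_abs, abs_mul, mul_comm]
  exact mul_le_mul_of_nonneg_left (main2_abs_coord v k) (abs_nonneg _)

theorem main2_pd_smooth {U : Set (E n)} (hU : IsOpen U) {f : E n → ℝ}
    (hf : ContDiffOn ℝ ∞ f U) (k : Fin n) : ContDiffOn ℝ ∞ (pd k f) U := by
  have := hf.fderiv_of_isOpen (m := ∞) hU (by norm_cast)
  exact this.clm_apply contDiffOn_const

theorem main2_pd_cont {U : Set (E n)} (hU : IsOpen U) {f : E n → ℝ}
    (hf : ContDiffOn ℝ 1 f U) (k : Fin n) : ContinuousOn (pd k f) U :=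
  (hf.continuousOn_fderiv_of_isOpen hU le_rfl).clm_apply continuousOn_const

theorem main2_pd_meas (f : E n → ℝ) (k : Fin n) : Measurable (pd k f) :=
  measurable_fderiv_apply_const ℝ f _

theorem main2_nA_nonneg (A : T2 n) : 0 ≤ nA A := by unfold nA; positivity

theorem main2_nB_nonneg (B : T3 n) : 0 ≤ nB B := by unfold nB; positivity

theorem main2_nA_pos {A : T2 n} (h : A ≠ 0) : 0 < nA A := by
  refine lt_of_le_of_ne (main2_nA_nonneg A) fun h0 => h ?_
  funext i j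
  have h1 := (Finset.sum_eq_zero_iff_of_nonneg (fun i _ => by positivity)).1 h0.symm i
    (Finset.mem_univ _)
  have h2 := (Finset.sum_eq_zero_iff_of_nonneg (fun i _ => by positivity)).1 h1 j
    (Finset.mem_univ _)
  simpa using h2

theorem main2_nA_le (A : T2 n) : nA A ≤ (n * ‖A‖) ^ 2 := by
  unfold nA
  calc ∑ i, ∑ j, A i j ^ 2 ≤ ∑ _i : Fin n, ∑ _j : Fin n, ‖A‖ ^ 2 := by
        refine Finset.sum_le_sum fun i _ => Finset.sum_le_sum fun j _ => ?_
        have : |A i j| ≤ ‖A‖ := (norm_le_pi_norm (A i) j).trans (norm_le_pi_norm A i)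
        exact sq_le_sq' (abs_le.1 this).1 (abs_le.1 this).2
    _ = (n * ‖A‖) ^ 2 := by simp; ring

theorem main2_nB_le (B : T3 n) : nB B ≤ n ^ 3 * ‖B‖ ^ 2 := by
  unfold nB
  calc ∑ i, ∑ j, ∑ k, B i j k ^ 2 ≤ ∑ _i : Fin n, ∑ _j : Fin n, ∑ _k : Fin n, ‖B‖ ^ 2 := by
        refine Finset.sum_le_sum fun i _ => Finset.sum_le_sum fun j _ =>
          Finset.sum_le_sum fun k _ => ?_
        have : |B i j k| ≤ ‖B‖ := (norm_le_pi_norm (B i j) k).trans
          ((norm_le_pi_norm (B i) j).trans (norm_le_pi_norm B i))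
        exact sq_le_sq' (abs_le.1 this).1 (abs_le.1 this).2
    _ = n ^ 3 * ‖B‖ ^ 2 := by simp; ring

theorem main2_norm_le_nB (B : T3 n) : ‖B‖ ≤ √(nB B) := by
  refine (pi_norm_le_iff_of_nonneg (Real.sqrt_nonneg _)).2 fun i =>
    (pi_norm_le_iff_of_nonneg (Real.sqrt_nonneg _)).2 fun j =>
    (pi_norm_le_iff_of_nonneg (Real.sqrt_nonneg _)).2 fun k => ?_
  refine Real.abs_le_sqrt ?_
  unfold nB
  calc B i j k ^ 2 ≤ ∑ k, B i j k ^ 2 :=
        Finset.single_le_sum (f := fun k => B i j k ^ 2) (fun _ _ => by positivity)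
          (Finset.mem_univ k)
    _ ≤ ∑ j, ∑ k, B i j k ^ 2 :=
        Finset.single_le_sum (f := fun j => ∑ k, B i j k ^ 2) (fun _ _ => by positivity)
          (Finset.mem_univ j)
    _ ≤ _ := Finset.single_le_sum (f := fun i => ∑ j, ∑ k, B i j k ^ 2)
          (fun _ _ => by positivity) (Finset.mem_univ i)

theorem main2_a_smooth {U : Set (E n)} (hU : IsOpen U) {u : E n → ℝ}
    (hu : ContDiffOn ℝ ∞ u U) : ContDiffOn ℝ 1 (fun x => nA (D2 u x)) U := by
  unfold nA D2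
  refine ContDiffOn.sum fun i _ => ContDiffOn.sum fun j _ => ContDiffOn.pow ?_ 2
  exact (main2_pd_smooth hU (main2_pd_smooth hU hu j) i).of_le (by norm_cast)

theorem main2_a_meas (u : E n → ℝ) : Measurable (fun x => nA (D2 u x)) := by
  unfold nA D2
  exact Finset.measurable_sum _ fun i _ => Finset.measurable_sum _ fun j _ =>
    (main2_pd_meas _ i).pow_const 2

theorem main2_pd_a {U : Set (E n)} (hU : IsOpen U) {u : E n → ℝ}
    (hu : ContDiffOn ℝ ∞ u U) {x : E n} (hx : x ∈ U) (k : Fin n) :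
    |pd k (fun x => nA (D2 u x)) x| ≤ 2 * √(nA (D2 u x)) * √(nB (D3 u x)) := by
  have hd : ∀ i j, DifferentiableAt ℝ (pd i (pd j u)) x := fun i j =>
    ((main2_pd_smooth hU (main2_pd_smooth hU hu j) i).differentiableOn (by simp)).differentiableAt
      (hU.mem_nhds hx)
  have h1 : HasFDerivAt (fun x => nA (D2 u x))
      (∑ i, ∑ j, (2 * pd i (pd j u) x) • fderiv ℝ (pd i (pd j u)) x) x := by
    unfold nA D2
    refine HasFDerivAt.fun_sum fun i _ => HasFDerivAt.fun_sum fun j _ => ?_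
    simpa using (hd i j).hasFDerivAt.pow 2
  have h2 : pd k (fun x => nA (D2 u x)) x = 2 * ∑ i, ∑ j, D2 u x i j * D3 u x k i j := by
    unfold pd
    rw [h1.fderiv]
    simp only [sum_apply, smul_apply, smul_eq_mul,
      Finset.mul_sum]
    refine Finset.sum_congr rfl fun i _ => Finset.sum_congr rfl fun j _ => ?_
    simp only [D2, D3, pd]; ring
  rw [h2, abs_mul, abs_two, mul_assoc]
  refine mul_le_mul_of_nonneg_left ?_ (by norm_num)
  rw [← Real.sqrt_mul (main2_nA_nonneg _)]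
  refine Real.abs_le_sqrt ?_
  have cs := Finset.sum_mul_sq_le_sq_mul_sq (Finset.univ : Finset (Fin n × Fin n))
    (fun p => D2 u x p.1 p.2) (fun p => D3 u x k p.1 p.2)
  simp only [Fintype.sum_prod_type] at cs
  refine cs.trans (mul_le_mul_of_nonneg_left ?_ (main2_nA_nonneg _))
  exact Finset.single_le_sum (f := fun i => ∑ j, ∑ l, D3 u x i j l ^ 2)
    (fun _ _ => by positivity) (Finset.mem_univ k)

end Vale.Agent.P098
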