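import Vale.Agent.P098.Main22

/-!
# P098: continuity, homogeneity and bounds of the certificate along a cone
-/

open MeasureTheory Set Metric Filter
open scoped ContDiff RealInnerProductSpace Topology NNReal

noncomputable section
namespace Vale.Agent.P098

variable {n : ℕ}

abbrev main2_W (n : ℕ) : Type := T1 n × T1 n × T2 n × T3 n × ℝ

def main2_inv (w : main2_W n) : Fin 5 → ℝ := inv w.1 w.2.1 w.2.2.1 w.2.2.2.2

def main2_D (n : ℕ) : Set (main2_W n) := {w | main2_inv w ∈ Dom}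

theorem main2_Dom_open : IsOpen Dom := by
  have h3 : IsOpen {z : Fin 5 → ℝ | -(1 / 2) < z 3 * √(z 0)} :=
    isOpen_lt continuous_const (by fun_prop)
  exact (isOpen_lt continuous_const (continuous_apply 0)).inter
    ((isOpen_lt continuous_const (continuous_apply 4)).inter h3)

theorem main2_inv_cont : Continuous (main2_inv : main2_W n → Fin 5 → ℝ) := by
  refine continuous_pi fun a => ?_
  fin_cases a <;> simp only [main2_inv, inv, nA, tA, sqA] <;> simp <;> fun_prop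

theorem main2_f_cont {f : (Fin 5 → ℝ) → ℝ} (hf : ContDiffOn ℝ 1 f Dom) :
    ContinuousOn (fun w : main2_W n => f (inv w.1 w.2.1 w.2.2.1 w.2.2.2.2)) (main2_D n) :=
  hf.continuousOn.comp main2_inv_cont.continuousOn fun _ hw => hw

theorem main2_ct_cont (k : Fin n) : Continuous (fun w : main2_W n => ct w.2.2.1 w.2.2.2.1 k) := by
  unfold ct; fun_prop

theorem main2_ct2_cont (k : Fin n) :
    Continuous (fun w : main2_W n => ct (sqA w.2.2.1) w.2.2.2.1 k) := by
  unfold ct sqA; fun_prop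

theorem main2_ap_cont (k : Fin n) : Continuous (fun w : main2_W n => ap w.2.2.1 w.2.1 k) := by
  unfold ap; fun_prop

theorem main2_ap2_cont (k : Fin n) :
    Continuous (fun w : main2_W n => ap (sqA w.2.2.1) w.2.1 k) := by
  unfold ap sqA; fun_prop

theorem main2_gr_cont {f : (Fin 5 → ℝ) → ℝ} (hf : ContDiffOn ℝ 1 f Dom) (k : Fin n) :
    ContinuousOn (fun w : main2_W n => gr f w.1 w.2.1 w.2.2.1 w.2.2.2.1 w.2.2.2.2 k)
      (main2_D n) := by
  unfold gr
  refine continuousOn_finsetSum _ fun a _ => ContinuousOn.mul ?_ ?_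
  · have h1 : ContinuousOn (dd f a) Dom :=
      (hf.continuousOn_fderiv_of_isOpen main2_Dom_open le_rfl).clm_apply continuousOn_const
    exact h1.comp main2_inv_cont.continuousOn fun _ hw => hw
  · refine Continuous.continuousOn ?_
    have h1 := main2_ct_cont k
    have h2 := main2_ct2_cont k
    have h3 := main2_ap_cont k
    fin_cases a <;> simp only [ginv] <;> simp <;> fun_prop

theorem main2_vf_cont {c : Co} {S : ℝ → Prop} (hc : CertOn n S c) (k : Fin n) :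
    ContinuousOn (fun w : main2_W n => vf c w.1 w.2.1 w.2.2.1 w.2.2.2.1 w.2.2.2.2 k)
      (main2_D n) := by
  obtain ⟨-, h1, h2, h3, h4, h5⟩ := hc.sm
  unfold vf
  exact (((((main2_f_cont h1).mul (main2_ct_cont k).continuousOn).add
    ((main2_f_cont h2).mul (main2_ct2_cont k).continuousOn)).add
    ((main2_f_cont h3).mul (by fun_prop))).add
    ((main2_f_cont h4).mul (main2_ap_cont k).continuousOn)).add
    ((main2_f_cont h5).mul (main2_ap2_cont k).continuousOn)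

theorem main2_dv_cont {c : Co} {S : ℝ → Prop} (hc : CertOn n S c) :
    ContinuousOn (fun w : main2_W n => dv c w.1 w.2.1 w.2.2.1 w.2.2.2.1 w.2.2.2.2)
      (main2_D n) := by
  obtain ⟨-, h1, h2, h3, h4, h5⟩ := hc.sm
  unfold dv
  refine (((((main2_f_cont h1).mul ?_).add ((main2_f_cont h2).mul ?_)).add
    ((main2_f_cont h4).mul ?_)).add ((main2_f_cont h5).mul ?_)).add
    (continuousOn_finsetSum _ fun k _ => ?_)
  · unfold nB; fun_prop
  · fun_prop
  · unfold nA; fun_prop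
  · unfold ct tA sqA; fun_prop
  · exact (((((main2_gr_cont h1 k).mul (main2_ct_cont k).continuousOn).add
      ((main2_gr_cont h2 k).mul (main2_ct2_cont k).continuousOn)).add
      ((main2_gr_cont h3 k).mul (by fun_prop))).add
      ((main2_gr_cont h4 k).mul (main2_ap_cont k).continuousOn)).add
      ((main2_gr_cont h5 k).mul (main2_ap2_cont k).continuousOn)

theorem main2_mem_Dom {x p : T1 n} {A : T2 n} {u : ℝ} (hA : 0 < nA A) (hx : 0 < ∑ i, x i ^ 2)
    (hu : 0 ≤ u) : inv x p A u ∈ Dom := by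
  refine ⟨by simpa [inv] using hA, by simpa [inv] using hx, ?_⟩
  have : 0 ≤ u * √(nA A) := by positivity
  simp only [inv]
  simp
  linarith

theorem main2_dv_bd {c : Co} {S : ℝ → Prop} (hc : CertOn n S c) (M d : ℝ) (hd : 0 < d) :
    ∃ D : ℝ, 0 ≤ D ∧ ∀ w : main2_W n, ‖w‖ ≤ M → d ≤ nA w.2.2.1 → d ≤ ∑ i, w.1 i ^ 2 →
      0 ≤ w.2.2.2.2 → |dv c w.1 w.2.1 w.2.2.1 w.2.2.2.1 w.2.2.2.2| ≤ D := by
  set K : Set (main2_W n) := closedBall 0 M ∩
    ({w | d ≤ nA w.2.2.1} ∩ ({w | d ≤ ∑ i, w.1 i ^ 2} ∩ {w | 0 ≤ w.2.2.2.2})) with hK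
  have hcK : IsCompact K := by
    refine (isCompact_closedBall _ _).inter_right (IsClosed.inter ?_ (IsClosed.inter ?_ ?_))
    · exact isClosed_le continuous_const (by unfold nA; fun_prop)
    · exact isClosed_le continuous_const (by fun_prop)
    · exact isClosed_le continuous_const (by fun_prop)
  have hs : K ⊆ main2_D n := fun w hw =>
    main2_mem_Dom (hd.trans_le hw.2.1) (hd.trans_le hw.2.2.1) hw.2.2.2
  obtain ⟨D, hD⟩ := hcK.exists_bound_of_continuousOn ((main2_dv_cont hc).mono hs)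
  refine ⟨max D 0, le_max_right _ _, fun w h1 h2 h3 h4 => ?_⟩
  exact (hD w ⟨by simpa using h1, h2, h3, h4⟩).trans (le_max_left _ _)

/-- The jets along `u`. -/
def main2_w (u : E n → ℝ) (x : E n) : main2_W n := (fun i => x i, D1 u x, D2 u x, D3 u x, u x)

/-- The set where the Hessian does not vanish. -/
def main2_U (u : E n → ℝ) : Set (E n) := {x | x ∈ Om u ∧ D2 u x ≠ 0}

theorem main2_w_cont {U : Set (E n)} (hU : IsOpen U) {u : E n → ℝ}
    (hu : ContDiffOn ℝ ∞ u U) : ContinuousOn (main2_w u) U := by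
  unfold main2_w
  refine ContinuousOn.prodMk (by fun_prop) (ContinuousOn.prodMk ?_ (ContinuousOn.prodMk ?_
    (ContinuousOn.prodMk ?_ hu.continuousOn)))
  · exact continuousOn_pi.2 fun i => (main2_pd_smooth hU hu i).continuousOn
  · exact continuousOn_pi.2 fun i => continuousOn_pi.2 fun j =>
      (main2_pd_smooth hU (main2_pd_smooth hU hu j) i).continuousOn
  · exact continuousOn_pi.2 fun i => continuousOn_pi.2 fun j => continuousOn_pi.2 fun k =>
      (main2_pd_smooth hU (main2_pd_smooth hU (main2_pd_smooth hU hu k) j) i).continuousOn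

/-- Standing facts about the cone. -/
structure main2_H (u : E n → ℝ) : Prop where
  op : IsOpen (Om u)
  harm : Harm (Om u) u
  hom : Hom u
  reg : Reg u
  jets : ∀ x ∈ Om u,
    SymTr (D2 u x) (D3 u x) ∧ (∀ i, ∑ j, D2 u x i j * x j = 0) ∧
    (∀ i j, ∑ k, D3 u x i j k * x k = -D2 u x i j) ∧ ∑ i, x i * D1 u x i = u x ∧
    (∀ i, gradient u x i = D1 u x i) ∧
    ∀ t : ℝ, 0 < t → D1 u (t • x) = D1 u x ∧ t • D2 u (t • x) = D2 u x ∧
      t ^ 2 • D3 u (t • x) = D3 u x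
  uw : ∀ x ∈ Om u,
    u x ^ 2 * ∑ i, ∑ j, D2 u x i j ^ 2 ≤ 25 / 24 * n * (1 - ∑ i, D1 u x i ^ 2)

variable {u : E n → ℝ}

theorem main2_H.D1s (h : main2_H u) {x : E n} (hx : x ∈ Om u) {t : ℝ} (ht : 0 < t) :
    D1 u (t • x) = D1 u x := ((h.jets x hx).2.2.2.2.2 t ht).1

theorem main2_H.D2s (h : main2_H u) {x : E n} (hx : x ∈ Om u) {t : ℝ} (ht : 0 < t) :
    D2 u (t • x) = t⁻¹ • D2 u x := by
  rw [← ((h.jets x hx).2.2.2.2.2 t ht).2.1, smul_smul, inv_mul_cancel₀ ht.ne', one_smul]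

theorem main2_H.D3s (h : main2_H u) {x : E n} (hx : x ∈ Om u) {t : ℝ} (ht : 0 < t) :
    D3 u (t • x) = (t ^ 2)⁻¹ • D3 u x := by
  rw [← ((h.jets x hx).2.2.2.2.2 t ht).2.2, smul_smul, inv_mul_cancel₀ (by positivity), one_smul]

theorem main2_H.Uopen (h : main2_H u) : IsOpen (main2_U u) := by
  have : ContinuousOn (D2 u) (Om u) := continuousOn_pi.2 fun i => continuousOn_pi.2 fun j =>
      (main2_pd_smooth h.op (main2_pd_smooth h.op h.harm.1 j) i).continuousOn
  exact this.isOpen_inter_preimage h.op isOpen_compl_singleton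

theorem main2_H.Ucone (h : main2_H u) {x : E n} (hx : x ∈ main2_U u) {t : ℝ} (ht : 0 < t) :
    t • x ∈ main2_U u := by
  refine ⟨cone_Om h.hom t x ht hx.1, ?_⟩
  rw [h.D2s hx.1 ht]
  exact smul_ne_zero (inv_ne_zero ht.ne') hx.2

theorem main2_H.npos (h : main2_H u) {x : E n} (hx : x ∈ Om u) : 0 < ‖x‖ :=
  norm_pos_iff.2 (ne_zero_Om h.hom hx)

theorem main2_H.st (h : main2_H u) {x : E n} (hx : x ∈ main2_U u) :
    St (fun i => x i) (D1 u x) (D2 u x) (D3 u x) (u x) := by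
  obtain ⟨h1, h2, h3, h4, -⟩ := h.jets x hx.1
  refine ⟨h1, h2, h3, h4, le_of_lt hx.1, h.reg.grad_le x hx.1, fun h0 => ?_, hx.2, h.uw x hx.1⟩
  apply ne_zero_Om h.hom hx.1
  ext i
  exact congrFun h0 i

theorem main2_H.dom (h : main2_H u) {x : E n} (hx : x ∈ main2_U u) : invU u x ∈ Dom := by
  refine main2_mem_Dom (main2_nA_pos hx.2) ?_ (le_of_lt hx.1)
  rw [main2_norm_sq]
  have := h.npos hx.1
  positivity

theorem main2_nA_smul (s : ℝ) (A : T2 n) : nA (s • A) = s ^ 2 * nA A := by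
  simp only [nA, Pi.smul_apply, smul_eq_mul, mul_pow, Finset.mul_sum]

theorem main2_sqA_smul (s : ℝ) (A : T2 n) : sqA (s • A) = s ^ 2 • sqA A := by
  funext i j
  simp only [sqA, Pi.smul_apply, smul_eq_mul, Finset.mul_sum]
  exact Finset.sum_congr rfl fun k _ => by ring

theorem main2_tA_smul (s : ℝ) (A : T2 n) : tA (s • A) = s ^ 3 * tA A := by
  simp only [tA, main2_sqA_smul, Pi.smul_apply, smul_eq_mul, Finset.mul_sum]
  exact Finset.sum_congr rfl fun i _ => Finset.sum_congr rfl fun j _ => by ring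

theorem main2_ct_smul (s r : ℝ) (A : T2 n) (B : T3 n) (k : Fin n) :
    ct (s • A) (r • B) k = s * r * ct A B k := by
  simp only [ct, Pi.smul_apply, smul_eq_mul, Finset.mul_sum]
  exact Finset.sum_congr rfl fun i _ => Finset.sum_congr rfl fun j _ => by ring

theorem main2_ap_smul (s : ℝ) (A : T2 n) (p : T1 n) (k : Fin n) :
    ap (s • A) p k = s * ap A p k := by
  simp only [ap, Pi.smul_apply, smul_eq_mul, Finset.mul_sum]
  exact Finset.sum_congr rfl fun i _ => by ring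

theorem main2_H.invs (h : main2_H u) {x : E n} (hx : x ∈ Om u) {t : ℝ} (ht : 0 < t) :
    invU u (t • x) = sc t (invU u x) := by
  unfold invU
  rw [h.D1s hx ht, h.D2s hx ht, h.hom t x ht]
  funext a
  fin_cases a
  · simp [inv, sc, main2_nA_smul]; field_simp
  · simp [inv, sc, main2_tA_smul]; field_simp
  · simp [inv, sc]
  · simp [inv, sc]
  · simp [inv, sc, mul_pow, Finset.mul_sum]

theorem main2_H.rhos (h : main2_H u) {c : Co} {S : ℝ → Prop} (hc : CertOn n S c) {x : E n}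
    (hx : x ∈ main2_U u) {t : ℝ} (ht : 0 < t) :
    t ^ n * c.ρ (invU u (t • x)) = t ^ 2 * c.ρ (invU u x) := by
  rw [h.invs hx.1 ht]
  exact (hc.hom t ht _ (h.dom hx)).1

theorem main2_H.vfs (h : main2_H u) {c : Co} {S : ℝ → Prop} (hc : CertOn n S c) {x : E n}
    (hx : x ∈ main2_U u) {t : ℝ} (ht : 0 < t) (k : Fin n) :
    t ^ n * vfU c u k (t • x) = t * vfU c u k x := by
  obtain ⟨-, h1, h2, h3, h4, h5⟩ := hc.hom t ht _ (h.dom hx)
  have e := h.invs hx.1 ht
  have e1 : vfU c u k (t • x) = c.F1 (invU u (t • x)) * ct (D2 u (t • x)) (D3 u (t • x)) k +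
      c.F2 (invU u (t • x)) * ct (sqA (D2 u (t • x))) (D3 u (t • x)) k +
      c.G0 (invU u (t • x)) * D1 u (t • x) k +
      c.G1 (invU u (t • x)) * ap (D2 u (t • x)) (D1 u (t • x)) k +
      c.G2 (invU u (t • x)) * ap (sqA (D2 u (t • x))) (D1 u (t • x)) k := rfl
  have e2 : vfU c u k x = c.F1 (invU u x) * ct (D2 u x) (D3 u x) k +
      c.F2 (invU u x) * ct (sqA (D2 u x)) (D3 u x) k + c.G0 (invU u x) * D1 u x k +
      c.G1 (invU u x) * ap (D2 u x) (D1 u x) k +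
      c.G2 (invU u x) * ap (sqA (D2 u x)) (D1 u x) k := rfl
  rw [e1, e2, e, h.D1s hx.1 ht, h.D2s hx.1 ht, h.D3s hx.1 ht, main2_sqA_smul, main2_ct_smul,
    main2_ct_smul, main2_ap_smul, main2_ap_smul]
  have ht' := ht.ne'
  have f1 : t ^ n * c.F1 (sc t (invU u x)) * (t⁻¹ * (t ^ 2)⁻¹) = t * c.F1 (invU u x) := by
    rw [h1]; field_simp
  have f2 : t ^ n * c.F2 (sc t (invU u x)) * (t⁻¹ ^ 2 * (t ^ 2)⁻¹) = t * c.F2 (invU u x) := by
    rw [h2]; field_simp
  have f4 : t ^ n * c.G1 (sc t (invU u x)) * t⁻¹ = t * c.G1 (invU u x) := by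
    rw [h4]; field_simp
  have f5 : t ^ n * c.G2 (sc t (invU u x)) * t⁻¹ ^ 2 = t * c.G2 (invU u x) := by
    rw [h5]; field_simp
  linear_combination ct (D2 u x) (D3 u x) k * f1 + ct (sqA (D2 u x)) (D3 u x) k * f2 +
    D1 u x k * h3 + ap (D2 u x) (D1 u x) k * f4 + ap (sqA (D2 u x)) (D1 u x) k * f5

/-- The gradient of the weight along `u`. -/
def main2_G (c : Co) (u : E n → ℝ) (k : Fin n) (x : E n) : ℝ :=
  gr c.ρ (fun i => x i) (D1 u x) (D2 u x) (D3 u x) (u x) k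

theorem main2_H.grs (h : main2_H u) (h_div : S_div) {c : Co} {S : ℝ → Prop} (hc : CertOn n S c)
    {x : E n} (hx : x ∈ main2_U u) {t : ℝ} (ht : 0 < t) (k : Fin n) :
    t ^ n * main2_G c u k (t • x) = t * main2_G c u k x := by
  have hU : Harm (main2_U u) u := ⟨h.harm.1.mono fun _ hy => hy.1, fun y hy => h.harm.2 y hy.1⟩
  obtain ⟨h1, h2⟩ := (h_div n u _ h.Uopen hU fun y hy => h.dom hy).1 c.ρ hc.sm.1
  set f : E n → ℝ := fun x => c.ρ (invU u x) with hf
  have hd : ∀ y ∈ main2_U u, DifferentiableAt ℝ f y := fun y hy =>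
    (h1.differentiableOn (by norm_num)).differentiableAt (h.Uopen.mem_nhds hy)
  unfold main2_G
  rw [← h2 _ (h.Ucone hx ht), ← h2 _ hx]
  have e : (fun y => t ^ n * f (t • y)) =ᶠ[𝓝 x] fun y => t ^ 2 * f y := by
    filter_upwards [h.Uopen.mem_nhds hx] with y hy using h.rhos hc hy ht
  have d1 : HasFDerivAt (fun y => t ^ n * f (t • y))
      (t ^ n • (fderiv ℝ f (t • x)).comp (t • ContinuousLinearMap.id ℝ (E n))) x :=
    ((hd _ (h.Ucone hx ht)).hasFDerivAt.comp x ((hasFDerivAt_id x).const_smul t)).const_mul _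
  have d2 : HasFDerivAt (fun y => t ^ 2 * f y) (t ^ 2 • fderiv ℝ f x) x :=
    (hd x hx).hasFDerivAt.const_mul _
  have e3 := congrArg (fun L : E n →L[ℝ] ℝ => L (EuclideanSpace.single k 1))
    ((d1.congr_of_eventuallyEq e.symm).unique d2)
  simp only [smul_apply, ContinuousLinearMap.comp_apply, ContinuousLinearMap.id_apply, map_smul,
    smul_eq_mul] at e3
  unfold pd
  apply mul_left_cancel₀ ht.ne'
  linear_combination e3

theorem main2_H.jb (h : main2_H u) (R : ℝ) (hR : 0 < R) : ∃ C : ℝ, 0 < C ∧ ∀ x ∈ Om u,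
    R⁻¹ ≤ ‖x‖ → ‖D2 u x‖ ≤ C ∧ ‖D3 u x‖ ≤ C := by
  obtain ⟨C, hC⟩ := h.reg.bdd
  refine ⟨(|C| + 1) * (R + R ^ 2), by positivity, fun x hx hr => ?_⟩
  have hp := h.npos hx
  set y := ‖x‖⁻¹ • x with hy
  have hy1 : ‖y‖ = 1 := by rw [hy, norm_smul]; simp [hp.ne']
  have hyO : y ∈ Om u := cone_Om h.hom _ x (by positivity) hx
  have hxy : x = ‖x‖ • y := by rw [hy, smul_smul, mul_inv_cancel₀ hp.ne', one_smul]
  obtain ⟨b2, b3⟩ := hC y hyO hy1.ge (by rw [hy1]; norm_num)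
  have hi : ‖x‖⁻¹ ≤ R := by
    rw [inv_le_comm₀ hp hR]; exact hr
  have hC1 : C ≤ |C| + 1 := (le_abs_self C).trans (by linarith)
  have hi0 : 0 ≤ ‖x‖⁻¹ := by positivity
  constructor
  · have e := h.D2s hyO hp
    rw [← hxy] at e
    rw [e, norm_smul, Real.norm_eq_abs, abs_of_nonneg hi0, mul_comm]
    exact mul_le_mul (b2.trans hC1) (hi.trans (by nlinarith)) hi0 (by positivity)
  · have e := h.D3s hyO hp
    rw [← hxy] at e
    rw [e, norm_smul, Real.norm_eq_abs, abs_of_nonneg (by positivity), mul_comm, ← inv_pow]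
    exact mul_le_mul (b3.trans hC1) ((pow_le_pow_left₀ hi0 hi 2).trans (by linarith))
      (by positivity) (by positivity)

/-- Bounds on a fixed shell. -/
theorem main2_H.sb (h : main2_H u) {c : Co} (hc : CertOn n (fun _ => True) c) (R : ℝ)
    (hR : 0 < R) : ∃ C : ℝ, 0 < C ∧ ∀ x ∈ main2_U u, R⁻¹ ≤ ‖x‖ → ‖x‖ ≤ R →
      √(nA (D2 u x)) ≤ C ∧ √(nB (D3 u x)) ≤ C ∧ c.ρ (invU u x) ≤ C * √(nA (D2 u x)) ∧
      ∀ k, |main2_G c u k x - 2 * vfU c u k x| ≤ C * (√(nB (D3 u x)) + √(nA (D2 u x))) := by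
  obtain ⟨C, hC0, hC⟩ := h.jb R hR
  obtain ⟨C', hC'⟩ := hc.bnd (max (R ^ 2) ((n * C) ^ 2))
  refine ⟨3 * |C'| + n * C + √(n ^ 3 * C ^ 2) + 1, by positivity, fun x hx h1 h2 => ?_⟩
  obtain ⟨b2, b3⟩ := hC x hx.1 h1
  have hA : nA (D2 u x) ≤ (n * C) ^ 2 := (main2_nA_le _).trans (by gcongr)
  have hB : nB (D3 u x) ≤ n ^ 3 * C ^ 2 := (main2_nB_le _).trans (by gcongr)
  have hA' : √(nA (D2 u x)) ≤ n * C := Real.sqrt_le_iff.2 ⟨by positivity, hA⟩
  have hB' := Real.sqrt_le_sqrt hB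
  have hp := h.npos hx.1
  obtain ⟨c1, c2, c3⟩ := hC' _ _ _ _ _ (h.st hx) trivial
    (by
      rw [main2_norm_sq]
      calc (max (R ^ 2) ((n * C) ^ 2))⁻¹ ≤ (R ^ 2)⁻¹ :=
            inv_anti₀ (by positivity) (le_max_left _ _)
        _ = R⁻¹ ^ 2 := by rw [inv_pow]
        _ ≤ ‖x‖ ^ 2 := by gcongr)
    (by rw [main2_norm_sq]; exact le_max_of_le_left (by gcongr)) (le_max_of_le_right hA)
  have p1 : 0 ≤ (n : ℝ) * C := by positivity
  have p2 : 0 ≤ √((n : ℝ) ^ 3 * C ^ 2) := Real.sqrt_nonneg _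
  have p3 := abs_nonneg C'
  have p4 := le_abs_self C'
  have p5 := Real.sqrt_nonneg (nA (D2 u x))
  have p6 := main2_norm_le_nB (D3 u x)
  have p7 := norm_nonneg (D3 u x)
  refine ⟨by linarith, by linarith, c1.trans (by gcongr; linarith), fun k => ?_⟩
  have q1 : |main2_G c u k x| ≤ C' * (‖D3 u x‖ + √(nA (D2 u x))) :=
    (norm_le_pi_norm _ k).trans c3
  have q2 : |vfU c u k x| ≤ C' * (‖D3 u x‖ + √(nA (D2 u x))) := (norm_le_pi_norm _ k).trans c2
  have q3 : C' * (‖D3 u x‖ + √(nA (D2 u x))) ≤ |C'| * (√(nB (D3 u x)) + √(nA (D2 u x))) := by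
    gcongr
  calc |main2_G c u k x - 2 * vfU c u k x| ≤ |main2_G c u k x| + 2 * |vfU c u k x| := by
        refine (abs_sub _ _).trans ?_
        rw [abs_mul, abs_two]
    _ ≤ 3 * |C'| * (√(nB (D3 u x)) + √(nA (D2 u x))) := by linarith
    _ ≤ _ := by gcongr; linarith

/-- Scale invariant bounds. -/
theorem main2_H.ib (h : main2_H u) (h_div : S_div) {c : Co} (hc : CertOn n (fun _ => True) c) :
    ∃ K : ℝ, 0 < K ∧ ∀ x ∈ main2_U u, ‖x‖ ^ n * c.ρ (invU u x) ≤ K * ‖x‖ ^ 2 ∧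
      ∀ k, ‖x‖ ^ n * |main2_G c u k x - 2 * vfU c u k x| ≤ K * ‖x‖ := by
  obtain ⟨C, hC0, hC⟩ := h.sb hc 1 one_pos
  refine ⟨2 * C ^ 2, by positivity, fun x hx => ?_⟩
  have hp := h.npos hx.1
  set y := ‖x‖⁻¹ • x with hy
  have hy1 : ‖y‖ = 1 := by rw [hy, norm_smul]; simp [hp.ne']
  have hyO : y ∈ main2_U u := h.Ucone hx (by positivity)
  have hxy : x = ‖x‖ • y := by rw [hy, smul_smul, mul_inv_cancel₀ hp.ne', one_smul]
  obtain ⟨b1, b2, b3, b4⟩ := hC y hyO (by rw [hy1]; norm_num) hy1.le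
  constructor
  · have e := h.rhos hc hyO hp
    rw [← hxy] at e
    rw [e, mul_comm]
    gcongr
    nlinarith
  · intro k
    have e1 := h.grs h_div hc hyO hp k
    have e2 := h.vfs hc hyO hp k
    rw [← hxy] at e1 e2
    have e3 : ‖x‖ ^ n * (main2_G c u k x - 2 * vfU c u k x) =
        ‖x‖ * (main2_G c u k y - 2 * vfU c u k y) := by linear_combination e1 - 2 * e2
    have e4 := congrArg abs e3
    rw [abs_mul, abs_mul, abs_of_pos (by positivity : 0 < ‖x‖ ^ n), abs_of_pos hp] at e4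
    rw [e4, mul_comm]
    gcongr
    have := b4 k
    nlinarith

end Vale.Agent.P098
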