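import Vale.Agent.P098.Main23

/-!
# P098: pointwise estimates for the tested inequality
-/

open MeasureTheory Set Metric Filter
open scoped ContDiff RealInnerProductSpace Topology NNReal

noncomputable section
namespace Vale.Agent.P098

variable {n : ℕ} {u : E n → ℝ}

theorem main2_alg {ζ η ρ T1 T2 : ℝ} {ζ' η' G V : Fin n → ℝ} (hζ0 : 0 ≤ ζ) (hζ1 : ζ ≤ 1)
    (hη0 : 0 ≤ η) (hη1 : η ≤ 1) (hρ : 0 ≤ ρ)
    (h1 : ∀ k, |ζ' k| * |G k - 2 * V k| + 2 * ρ * ζ' k ^ 2 ≤ T1)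
    (h2 : ∀ k, ζ * (|η' k| * |G k - 2 * V k| + 2 * ρ * η' k ^ 2) ≤ T2) :
    |ζ * η * ∑ k, (ζ * η' k + η * ζ' k) * G k + ρ * ∑ k, (ζ * η' k + η * ζ' k) ^ 2 -
      2 * (ζ * η) * ∑ k, (ζ * η' k + η * ζ' k) * V k| ≤ n * (T1 + T2) := by
  have e : ζ * η * ∑ k, (ζ * η' k + η * ζ' k) * G k + ρ * ∑ k, (ζ * η' k + η * ζ' k) ^ 2 -
      2 * (ζ * η) * ∑ k, (ζ * η' k + η * ζ' k) * V k =
      ∑ k, (ζ * η * (ζ * η' k + η * ζ' k) * (G k - 2 * V k) + ρ * (ζ * η' k + η * ζ' k) ^ 2) := by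
    simp only [Finset.mul_sum, ← Finset.sum_add_distrib, ← Finset.sum_sub_distrib]
    exact Finset.sum_congr rfl fun k _ => by ring
  rw [e]
  refine (Finset.abs_sum_le_sum_abs _ _).trans ?_
  calc _ ≤ ∑ _k : Fin n, (T1 + T2) := Finset.sum_le_sum fun k _ => ?_
    _ = _ := by simp; ring
  have a1 := h1 k
  have a2 := h2 k
  set H := |G k - 2 * V k| with hH
  have hH0 : 0 ≤ H := abs_nonneg _
  have b0 : ζ * η ≤ 1 := mul_le_one₀ hζ1 hη0 hη1
  have b1 : |ζ * η' k + η * ζ' k| ≤ ζ * |η' k| + |ζ' k| := by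
    refine (abs_add_le _ _).trans ?_
    rw [abs_mul, abs_mul, abs_of_nonneg hζ0, abs_of_nonneg hη0]
    have := mul_le_mul_of_nonneg_right hη1 (abs_nonneg (ζ' k))
    linarith
  have b2 : |ζ * η * (ζ * η' k + η * ζ' k) * (G k - 2 * V k)| ≤ (ζ * |η' k| + |ζ' k|) * H := by
    rw [abs_mul, abs_mul, abs_of_nonneg (mul_nonneg hζ0 hη0)]
    refine mul_le_mul_of_nonneg_right ?_ hH0
    calc ζ * η * |ζ * η' k + η * ζ' k| ≤ 1 * |ζ * η' k + η * ζ' k| := by gcongr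
      _ ≤ _ := by rw [one_mul]; exact b1
  have b3 : (ζ * η' k + η * ζ' k) ^ 2 ≤ 2 * (ζ * η' k ^ 2) + 2 * ζ' k ^ 2 := by
    have c1 : (ζ * η' k) ^ 2 ≤ ζ * η' k ^ 2 := by
      rw [mul_pow]
      exact mul_le_mul_of_nonneg_right (by nlinarith) (sq_nonneg _)
    have c2 : (η * ζ' k) ^ 2 ≤ ζ' k ^ 2 := by
      rw [mul_pow]
      exact mul_le_of_le_one_left (sq_nonneg _) (by nlinarith)
    nlinarith [sq_nonneg (ζ * η' k - η * ζ' k)]
  have b4 := mul_le_mul_of_nonneg_left b3 hρ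
  refine (abs_add_le _ _).trans ?_
  rw [abs_of_nonneg (by positivity : 0 ≤ ρ * (ζ * η' k + η * ζ' k) ^ 2)]
  nlinarith

theorem main2_T1 {M K t r z H ρ : ℝ} (hM : 0 < M) (hK : 0 < K) (ht : 0 < t) (hr : 0 < r)
    (h1 : |z| * r ≤ M) (h2 : z ≠ 0 → (1 / 2 ≤ r ∧ r ≤ 1) ∨ (t ≤ r ∧ r ≤ 2 * t))
    (h3 : r ^ n * ρ ≤ K * r ^ 2) (h4 : r ^ n * |H| ≤ K * r) :
    |z| * |H| + 2 * ρ * z ^ 2 ≤ (M * K + 2 * K * M ^ 2) *
      ((if r ≤ 1 then 2 ^ n else 0) + (if r ≤ 2 * t then (t ^ n)⁻¹ else 0)) := by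
  have p1 : (0 : ℝ) ≤ if r ≤ 1 then 2 ^ n else 0 := by split_ifs <;> positivity
  have p2 : (0 : ℝ) ≤ if r ≤ 2 * t then (t ^ n)⁻¹ else 0 := by split_ifs <;> positivity
  by_cases hz : z = 0
  · subst hz; simp only [abs_zero, zero_mul, ne_eq, OfNat.ofNat_ne_zero, not_false_eq_true,
      zero_pow, mul_zero, add_zero]; positivity
  have hrn : 0 < r ^ n := by positivity
  have k1 : r ^ n * (|z| * |H| + 2 * ρ * z ^ 2) ≤ M * K + 2 * K * M ^ 2 := by
    have a1 : |z| * (r ^ n * |H|) ≤ |z| * (K * r) := by gcongr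
    have a2 : z ^ 2 * (r ^ n * ρ) ≤ z ^ 2 * (K * r ^ 2) := by gcongr
    have a3 : (|z| * r) ^ 2 ≤ M ^ 2 := by gcongr
    rw [mul_pow, sq_abs] at a3
    have a4 := mul_le_mul_of_nonneg_left h1 hK.le
    have a5 := mul_le_mul_of_nonneg_left a3 hK.le
    nlinarith
  have k2 : (r ^ n)⁻¹ ≤ (if r ≤ 1 then 2 ^ n else 0) + (if r ≤ 2 * t then (t ^ n)⁻¹ else 0) := by
    rcases h2 hz with ⟨a, b⟩ | ⟨a, b⟩
    · rw [if_pos b]
      have : (r ^ n)⁻¹ ≤ 2 ^ n := by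
        rw [← inv_pow]
        refine pow_le_pow_left₀ (by positivity) ?_ n
        rw [inv_le_comm₀ hr (by norm_num)]; linarith
      linarith
    · rw [if_pos b]
      have : (r ^ n)⁻¹ ≤ (t ^ n)⁻¹ := inv_anti₀ (by positivity) (by gcongr)
      linarith
  calc |z| * |H| + 2 * ρ * z ^ 2 = r ^ n * (|z| * |H| + 2 * ρ * z ^ 2) * (r ^ n)⁻¹ := by
        field_simp
    _ ≤ _ := by gcongr

theorem main2_T2 {M C d a b p χ' H ρ : ℝ} (hM : 0 < M) (hC : 0 < C) (hd : 0 < d) (ha : 0 < a)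
    (hb : 0 ≤ b) (h1 : |χ'| ≤ M) (h2 : d⁻¹ * a ≤ 2) (h3 : |p| ≤ 2 * √a * √b) (h4 : √b ≤ C)
    (h5 : ρ ≤ C * √a) (h6 : |H| ≤ C * (√b + √a)) :
    |χ' * (d⁻¹ * p)| * |H| + 2 * ρ * (χ' * (d⁻¹ * p)) ^ 2 ≤
      (4 * M * C * (C + 1) + 32 * C * M ^ 2) * (1 + b / √a) := by
  set N := √a with hN
  set β := √b with hβ
  have hN0 : 0 < N := Real.sqrt_pos.2 ha
  have hβ0 : 0 ≤ β := Real.sqrt_nonneg _
  have hNa : N ^ 2 = a := Real.sq_sqrt ha.le
  have hβb : β ^ 2 = b := Real.sq_sqrt hb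
  have k1 : |χ' * (d⁻¹ * p)| ≤ 4 * M * (β / N) := by
    rw [abs_mul, abs_mul, abs_of_pos (inv_pos.2 hd)]
    have e1 : d⁻¹ * |p| ≤ 4 * (β / N) := by
      calc d⁻¹ * |p| ≤ d⁻¹ * (2 * N * β) := by gcongr
        _ = d⁻¹ * a * (2 * (β / N)) := by rw [← hNa]; field_simp
        _ ≤ 2 * (2 * (β / N)) := by gcongr
        _ = _ := by ring
    calc |χ'| * (d⁻¹ * |p|) ≤ M * (4 * (β / N)) := by gcongr
      _ = _ := by ring
  have k2 : (χ' * (d⁻¹ * p)) ^ 2 ≤ (4 * M * (β / N)) ^ 2 := by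
    rw [← sq_abs]; gcongr
  have k3 : |χ' * (d⁻¹ * p)| * |H| ≤ 4 * M * (β / N) * (C * (β + N)) := by gcongr
  have k4 : 2 * ρ * (χ' * (d⁻¹ * p)) ^ 2 ≤ 2 * (C * N) * (4 * M * (β / N)) ^ 2 := by
    calc 2 * ρ * (χ' * (d⁻¹ * p)) ^ 2 ≤ 2 * (C * N) * (χ' * (d⁻¹ * p)) ^ 2 := by gcongr
      _ ≤ _ := by gcongr
  have e3 : 4 * M * (β / N) * (C * (β + N)) = 4 * M * C * (b / N + β) := by
    rw [← hβb]; field_simp
  have e4 : 2 * (C * N) * (4 * M * (β / N)) ^ 2 = 32 * C * M ^ 2 * (b / N) := by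
    rw [← hβb]; field_simp; ring
  have q0 : 0 ≤ b / N := by positivity
  have q1 : b / N + β ≤ (C + 1) * (1 + b / N) := by nlinarith
  have q2 : 4 * M * C * (b / N + β) ≤ 4 * M * C * ((C + 1) * (1 + b / N)) := by gcongr
  have q3 : 32 * C * M ^ 2 * (b / N) ≤ 32 * C * M ^ 2 * (1 + b / N) := by gcongr; linarith
  nlinarith

/-- The scale invariant density. -/
def main2_g (u : E n → ℝ) (x : E n) : ℝ := √(nA (D2 u x)) / ‖x‖ ^ n * ‖x‖

def main2_S (s t : ℝ) : Set (E n) := {x | s ≤ ‖x‖ ∧ ‖x‖ < t}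

theorem main2_S_meas (s t : ℝ) : MeasurableSet (main2_S s t : Set (E n)) :=
  (measurableSet_le measurable_const measurable_norm).inter
    (measurableSet_lt measurable_norm measurable_const)

theorem main2_g_nonneg (x : E n) : 0 ≤ main2_g u x := by unfold main2_g; positivity

theorem main2_g_meas : Measurable (main2_g u) :=
  ((main2_a_meas u).sqrt.div (measurable_norm.pow_const n)).mul measurable_norm

theorem main2_H.gb (h : main2_H u) (R : ℝ) (hR : 0 < R) : ∃ C : ℝ, 0 < C ∧ ∀ x ∈ Om u,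
    R⁻¹ ≤ ‖x‖ → ‖x‖ ≤ R → main2_g u x ≤ C := by
  obtain ⟨C, hC0, hC⟩ := h.jb R hR
  refine ⟨n * C / R⁻¹ ^ n * R + 1, by positivity, fun x hx h1 h2 => ?_⟩
  have hA : nA (D2 u x) ≤ (n * C) ^ 2 := (main2_nA_le _).trans (by gcongr; exact (hC x hx h1).1)
  have hA' : √(nA (D2 u x)) ≤ n * C := Real.sqrt_le_iff.2 ⟨by positivity, hA⟩
  have : main2_g u x ≤ n * C / R⁻¹ ^ n * R := by unfold main2_g; gcongr
  linarith

theorem main2_H.gint (h : main2_H u) {s : ℝ} (t : ℝ) (hs : 0 < s) :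
    IntegrableOn (main2_g u) (main2_U u ∩ main2_S s t) := by
  obtain ⟨C, hC0, hC⟩ := h.gb (max s⁻¹ t) (lt_max_of_lt_left (inv_pos.2 hs))
  refine Measure.integrableOn_of_bounded (M := C) ?_ main2_g_meas.aestronglyMeasurable ?_
  · refine ne_of_lt (lt_of_le_of_lt (measure_mono (t := ball 0 t) fun x hx => ?_)
      measure_ball_lt_top)
    simpa using hx.2.2
  · refine (ae_restrict_iff' (h.Uopen.measurableSet.inter (main2_S_meas _ _))).2
      (Eventually.of_forall fun x hx => ?_)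
    rw [Real.norm_eq_abs, abs_of_nonneg (main2_g_nonneg x)]
    refine hC x hx.1.1 (le_trans ?_ hx.2.1) (le_max_of_le_right hx.2.2.le)
    calc (max s⁻¹ t)⁻¹ ≤ s⁻¹⁻¹ := inv_anti₀ (inv_pos.2 hs) (le_max_left _ _)
      _ = s := inv_inv s

theorem main2_H.gscale (h : main2_H u) {s : ℝ} (hs : 0 < s) :
    ∫ x in main2_U u ∩ main2_S s (2 * s), main2_g u x =
      ∫ x in main2_U u ∩ main2_S 1 2, main2_g u x := by
  have m1 := h.Uopen.measurableSet.inter (main2_S_meas (n := n) s (2 * s))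
  have m2 := h.Uopen.measurableSet.inter (main2_S_meas (n := n) 1 2)
  rw [← integral_indicator m1, ← integral_indicator m2]
  have e := Measure.integral_comp_smul volume
    ((main2_U u ∩ main2_S s (2 * s)).indicator (main2_g u)) s
  have e2 : ∀ x : E n, (main2_U u ∩ main2_S s (2 * s)).indicator (main2_g u) (s • x) =
      (s ^ n)⁻¹ * (main2_U u ∩ main2_S 1 2).indicator (main2_g u) x := by
    intro x
    have hn : ‖s • x‖ = s * ‖x‖ := by rw [norm_smul, Real.norm_eq_abs, abs_of_pos hs]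
    by_cases hx : x ∈ main2_U u ∩ main2_S 1 2
    · have hx' : s • x ∈ main2_U u ∩ main2_S s (2 * s) := by
        refine ⟨h.Ucone hx.1 hs, ?_, ?_⟩ <;> rw [hn]
        · nlinarith [hx.2.1]
        · nlinarith [hx.2.2]
      rw [indicator_of_mem hx, indicator_of_mem hx']
      have hp := h.npos hx.1.1
      unfold main2_g
      rw [h.D2s hx.1.1 hs, main2_nA_smul, Real.sqrt_mul (sq_nonneg _),
        Real.sqrt_sq (by positivity), hn]
      field_simp
      ring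
    · have hx' : s • x ∉ main2_U u ∩ main2_S s (2 * s) := by
        intro hx'
        apply hx
        have := h.Ucone hx'.1 (inv_pos.2 hs)
        rw [smul_smul, inv_mul_cancel₀ hs.ne', one_smul] at this
        obtain ⟨-, a, b⟩ := hx'
        rw [hn] at a b
        refine ⟨this, ?_, ?_⟩
        · nlinarith
        · nlinarith
      rw [indicator_of_notMem hx, indicator_of_notMem hx', mul_zero]
  simp only [e2, integral_const_mul, finrank_euclideanSpace, Fintype.card_fin, smul_eq_mul] at e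
  rw [abs_of_pos (by positivity)] at e
  exact (mul_left_cancel₀ (by positivity) e).symm

theorem main2_H.gsum (h : main2_H u) (k : ℕ) :
    ∫ x in main2_U u ∩ main2_S 1 (2 ^ k), main2_g u x =
      k * ∫ x in main2_U u ∩ main2_S 1 2, main2_g u x := by
  induction k with
  | zero =>
    have : main2_U u ∩ main2_S 1 (2 ^ 0) = ∅ := by
      ext x; simp [main2_S]
    rw [this]; simp
  | succ k ih =>
    have h1 : (1 : ℝ) ≤ 2 ^ k := one_le_pow₀ (by norm_num)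
    have e : main2_U u ∩ main2_S 1 (2 ^ (k + 1)) =
        (main2_U u ∩ main2_S 1 (2 ^ k)) ∪ (main2_U u ∩ main2_S (2 ^ k) (2 * 2 ^ k)) := by
      ext x
      simp only [main2_S, mem_inter_iff, mem_union, mem_ofPred_eq, pow_succ]
      constructor
      · rintro ⟨a, b, c⟩
        by_cases hx : ‖x‖ < 2 ^ k
        · exact Or.inl ⟨a, b, hx⟩
        · exact Or.inr ⟨a, not_lt.1 hx, by linarith⟩
      · rintro (⟨a, b, c⟩ | ⟨a, b, c⟩)
        · exact ⟨a, b, by linarith⟩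
        · exact ⟨a, by linarith, by linarith⟩
    rw [e, setIntegral_union _ (h.Uopen.measurableSet.inter (main2_S_meas _ _))
      (h.gint _ one_pos) (h.gint _ (by positivity)), ih, h.gscale (by positivity)]
    · push_cast; ring
    · rw [Set.disjoint_left]
      rintro x ⟨-, -, a⟩ ⟨-, b, -⟩
      linarith

theorem main2_H.gzero (h : main2_H u) (B : ℝ)
    (hB : ∀ t : ℝ, 1 ≤ t → ∫ x in main2_U u ∩ main2_S 1 t, main2_g u x ≤ B) :
    ∀ x ∈ Om u, D2 u x = 0 := by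
  set J := ∫ x in main2_U u ∩ main2_S 1 2, main2_g u x with hJ
  have hJ0 : ¬0 < J := by
    intro hp
    obtain ⟨k, hk⟩ := exists_nat_gt (B / J)
    have := hB (2 ^ k) (one_le_pow₀ (by norm_num))
    rw [h.gsum k, ← hJ] at this
    rw [div_lt_iff₀ hp] at hk
    linarith
  intro x hx
  by_contra hne
  apply hJ0
  rw [hJ, setIntegral_pos_iff_support_of_nonneg_ae (Eventually.of_forall main2_g_nonneg)
    (h.gint _ one_pos)]
  have hp := h.npos hx
  have ho : IsOpen (main2_U u ∩ ({y : E n | 1 < ‖y‖} ∩ {y : E n | ‖y‖ < 2})) :=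
    h.Uopen.inter ((isOpen_lt continuous_const continuous_norm).inter
      (isOpen_lt continuous_norm continuous_const))
  have hne' : (main2_U u ∩ ({y : E n | 1 < ‖y‖} ∩ {y : E n | ‖y‖ < 2})).Nonempty := by
    have hn : ‖(3 / 2 * ‖x‖⁻¹) • x‖ = 3 / 2 := by
      rw [norm_smul, Real.norm_eq_abs, abs_of_pos (by positivity)]; field_simp
    refine ⟨(3 / 2 * ‖x‖⁻¹) • x, h.Ucone ⟨hx, hne⟩ (by positivity), ?_, ?_⟩
    · rw [mem_ofPred_eq, hn]; norm_num
    · rw [mem_ofPred_eq, hn]; norm_num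
  refine lt_of_lt_of_le (ho.measure_pos volume hne') (measure_mono fun y hy => ?_)
  refine ⟨?_, hy.1, le_of_lt hy.2.1, hy.2.2⟩
  have := h.npos hy.1.1
  have := Real.sqrt_pos.2 (main2_nA_pos hy.1.2)
  exact ne_of_gt (by unfold main2_g; positivity)

end Vale.Agent.P098
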