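import Vale.Agent.P098.Iface

/-! Calculus lemmas for the oscillation decay. -/

open MeasureTheory Set Metric Filter
open scoped ContDiff RealInnerProductSpace Topology NNReal

noncomputable section
namespace Vale.Agent.P098

variable {n : ℕ}

theorem osc_two : (2 : WithTop ℕ∞) ≤ ∞ := WithTop.coe_le_coe.2 (le_top (a := (2 : ℕ∞)))

theorem osc_pd_diff {f : E n → ℝ} {x : E n} (hf : ContDiffAt ℝ 2 f x) (i : Fin n) :
    DifferentiableAt ℝ (pd i f) x :=
  (((hf.fderiv_right (m := 1) le_rfl).clm_apply contDiffAt_const).differentiableAt one_ne_zero)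

theorem osc_fd_comb {f g : E n → ℝ} {x : E n} (hf : DifferentiableAt ℝ f x)
    (hg : DifferentiableAt ℝ g x) (α β γ : ℝ) (v : E n) :
    fderiv ℝ (fun y => α * f y + β * g y + γ) x v = α * fderiv ℝ f x v + β * fderiv ℝ g x v := by
  rw [(((hf.hasFDerivAt.const_mul α).fun_add (hg.hasFDerivAt.const_mul β)).add_const γ).fderiv]
  simp

theorem osc_lap_comb {f g : E n → ℝ} {x : E n} (hf : ContDiffAt ℝ 2 f x) (hg : ContDiffAt ℝ 2 g x)
    (α β γ : ℝ) : lap (fun y => α * f y + β * g y + γ) x = α * lap f x + β * lap g x := by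
  simp only [lap, Finset.mul_sum, ← Finset.sum_add_distrib]
  refine Finset.sum_congr rfl fun i _ => ?_
  have h : pd i (fun y => α * f y + β * g y + γ) =ᶠ[𝓝 x]
      fun y => α * pd i f y + β * pd i g y + 0 := by
    filter_upwards [hf.eventually (by simp), hg.eventually (by simp)] with y h1 h2
    rw [add_zero]
    exact osc_fd_comb (h1.differentiableAt two_ne_zero) (h2.differentiableAt two_ne_zero) _ _ _ _
  change fderiv ℝ _ x _ = _
  rw [h.fderiv_eq]
  exact osc_fd_comb (osc_pd_diff hf i) (osc_pd_diff hg i) _ _ _ _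

theorem osc_grad_comb {f g : E n → ℝ} {x : E n} (hf : DifferentiableAt ℝ f x)
    (hg : DifferentiableAt ℝ g x) (β γ : ℝ) :
    gradient (fun y => 1 * f y + β * g y + γ) x = gradient f x + β • gradient g x :=
  ext_inner_right ℝ fun v => by
    rw [inner_add_left, real_inner_smul_left, inner_gradient_left, inner_gradient_left,
      inner_gradient_left, osc_fd_comb hf hg, one_mul]

theorem osc_harm_comb {U : Set (E n)} (hU : IsOpen U) {f g : E n → ℝ} (hf : Harm U f)
    (hg : Harm U g) (α β γ : ℝ) : Harm U fun y => α * f y + β * g y + γ :=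
  ⟨((contDiffOn_const.mul hf.1).add (contDiffOn_const.mul hg.1)).add contDiffOn_const,
    fun x hx => by
      rw [osc_lap_comb ((hf.1.contDiffAt (hU.mem_nhds hx)).of_le osc_two)
        ((hg.1.contDiffAt (hU.mem_nhds hx)).of_le osc_two), hf.2 x hx,
        hg.2 x hx]
      simp⟩

/-- The Gaussian barrier. -/
def osc_w (g : ℝ) (c : E n) (x : E n) : ℝ := Real.exp (-g * ‖x - c‖ ^ 2)

theorem osc_w_smooth (g : ℝ) (c : E n) : ContDiff ℝ 2 (osc_w g c) :=
  Real.contDiff_exp.comp (contDiff_const.mul ((contDiff_id.sub contDiff_const).norm_sq ℝ))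

theorem osc_w_fd (g : ℝ) (c x v : E n) :
    fderiv ℝ (osc_w g c) x v = -2 * g * osc_w g c x * ⟪x - c, v⟫ := by
  have h := ((((hasFDerivAt_id x).sub_const c).norm_sq).const_mul (-g)).exp
  rw [show fderiv ℝ (osc_w g c) x = _ from h.fderiv]
  simp [osc_w, inner_sub_left]
  ring

theorem osc_w_grad (g : ℝ) (c x : E n) :
    gradient (osc_w g c) x = (2 * g * osc_w g c x) • (c - x) :=
  ext_inner_right ℝ fun v => by
    rw [inner_gradient_left, osc_w_fd, real_inner_smul_left, ← neg_sub x c, inner_neg_left]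
    ring

theorem osc_w_lap (g : ℝ) (c x : E n) :
    lap (osc_w g c) x = osc_w g c x * (4 * g ^ 2 * ‖x - c‖ ^ 2 - 2 * g * n) := by
  have h1 : ∀ i, pd i (osc_w g c) = fun y => -2 * g * osc_w g c y * (y i - c i) := fun i => by
    funext y
    rw [pd, osc_w_fd]
    simp [EuclideanSpace.inner_single_right]
  have h2 : ∀ i, pd i (pd i (osc_w g c)) x =
      osc_w g c x * (4 * g ^ 2 * (x i - c i) ^ 2 - 2 * g) := fun i => by
    have h3 := ((osc_w_smooth g c).differentiable two_ne_zero x).hasFDerivAt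
    have h4 : HasFDerivAt (fun y : E n => y i - c i) (EuclideanSpace.proj i : E n →L[ℝ] ℝ) x :=
      ((EuclideanSpace.proj i : E n →L[ℝ] ℝ).hasFDerivAt).sub_const _
    rw [h1, pd, show fderiv ℝ (fun y => -2 * g * osc_w g c y * (y i - c i)) x = _ from
      ((h3.const_mul (-2 * g)).mul h4).fderiv]
    simp [osc_w_fd, EuclideanSpace.inner_single_right]
    ring
  simp only [lap, h2, ← Finset.mul_sum, Finset.sum_sub_distrib, EuclideanSpace.real_norm_sq_eq]
  simp only [PiLp.sub_apply, Finset.sum_const, Finset.card_univ, Fintype.card_fin, nsmul_eq_mul]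
  ring

theorem osc_lin {P : E n → ℝ} {e : E n} {σ : ℝ} (hP : ContDiff ℝ ∞ P)
    (h : ∀ x ∈ ball (0 : E n) 1, ‖gradient P x - e‖ ≤ σ) {x : E n} (hx : x ∈ ball (0 : E n) 1) :
    |P x - P 0 - ⟪x, e⟫| ≤ σ * ‖x‖ := by
  have h1 := (convex_ball (0 : E n) 1).norm_image_sub_le_of_norm_fderiv_le'
    (φ := InnerProductSpace.toDual ℝ (E n) e) (C := σ)
    (fun y _ => hP.differentiable (by simp) y) (fun y hy => by
      rw [← toDual_gradient, ← map_sub, LinearIsometryEquiv.norm_map]
      exact h y hy) (mem_ball_self one_pos) hx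
  simpa [real_inner_comm] using h1

theorem osc_fd_scale {P : E n → ℝ} (hP : Differentiable ℝ P) (x₀ : E n) (r a k : ℝ) (x v : E n) :
    fderiv ℝ (fun y => (P (x₀ + r • y) + a) * k) x v = r * k * fderiv ℝ P (x₀ + r • x) v := by
  have h := (((hP (x₀ + r • x)).hasFDerivAt.comp x
    (((hasFDerivAt_id x).const_smul r).const_add x₀)).add_const a).mul_const k
  rw [show fderiv ℝ (fun y => (P (x₀ + r • y) + a) * k) x = _ from h.fderiv]
  simp
  ring

theorem osc_grad_scale {P : E n → ℝ} (hP : ContDiff ℝ ∞ P) (x₀ : E n) {r : ℝ} (hr : r ≠ 0)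
    (a : ℝ) (x : E n) :
    gradient (fun y => (P (x₀ + r • y) + a) * r⁻¹) x = gradient P (x₀ + r • x) :=
  ext_inner_right ℝ fun v => by
    rw [inner_gradient_left, inner_gradient_left, osc_fd_scale (hP.differentiable (by simp)),
      mul_inv_cancel₀ hr, one_mul]

theorem osc_lap_scale {P : E n → ℝ} (hP : ContDiff ℝ ∞ P) (x₀ : E n) (r a k : ℝ) (x : E n) :
    lap (fun y => (P (x₀ + r • y) + a) * k) x = r * (r * k) * lap P (x₀ + r • x) := by
  simp only [lap, Finset.mul_sum]
  refine Finset.sum_congr rfl fun i _ => ?_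
  have h1 : pd i (fun y => (P (x₀ + r • y) + a) * k) =
      fun y => (pd i P (x₀ + r • y) + 0) * (r * k) := by
    funext y
    rw [pd, osc_fd_scale (hP.differentiable (by simp)), add_zero, mul_comm]
    rfl
  rw [h1, pd, osc_fd_scale fun y => osc_pd_diff (hP.contDiffAt.of_le osc_two) i]
  rfl

end Vale.Agent.P098
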