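import Vale.Agent.P098.Iface

open MeasureTheory Set Metric Filter
open scoped ContDiff RealInnerProductSpace Topology NNReal

noncomputable section
namespace Vale.Agent.P098

variable {n : ℕ}

/-- The tail projection. -/
def redP (n : ℕ) : E (n + 1) →L[ℝ] E n :=
  LinearMap.toContinuousLinearMap
    { toFun := fun x => WithLp.toLp 2 fun i => x i.succ
      map_add' := fun _ _ => rfl
      map_smul' := fun _ _ => rfl }

/-- The inclusion as the hyperplane `x 0 = 0`. -/
def redI (n : ℕ) : E n →L[ℝ] E (n + 1) :=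
  LinearMap.toContinuousLinearMap
    { toFun := fun y => WithLp.toLp 2 (Fin.cons (0 : ℝ) fun i => y i : Fin (n + 1) → ℝ)
      map_add' := fun x y => by
        ext i
        refine Fin.cases ?_ (fun j => ?_) i <;> simp
      map_smul' := fun c x => by
        ext i
        refine Fin.cases ?_ (fun j => ?_) i <;> simp }

theorem red_P_apply (x : E (n + 1)) (i : Fin n) : redP n x i = x i.succ := rfl

theorem red_I_zero (y : E n) : redI n y 0 = 0 := rfl

theorem red_I_succ (y : E n) (i : Fin n) : redI n y i.succ = y i := rfl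

theorem red_PI (y : E n) : redP n (redI n y) = y := by
  ext i
  rw [red_P_apply, red_I_succ]

theorem red_norm_sq (x : E (n + 1)) : ‖x‖ ^ 2 = x 0 ^ 2 + ‖redP n x‖ ^ 2 := by
  rw [EuclideanSpace.real_norm_sq_eq, EuclideanSpace.real_norm_sq_eq, Fin.sum_univ_succ]
  rfl

theorem red_norm_I (y : E n) : ‖redI n y‖ = ‖y‖ := by
  have h := red_norm_sq (redI n y)
  rw [red_PI, red_I_zero] at h
  exact (sq_eq_sq₀ (norm_nonneg _) (norm_nonneg _)).1 (by simpa using h)

theorem red_norm_P (x : E (n + 1)) : ‖redP n x‖ ≤ ‖x‖ := by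
  have h := red_norm_sq x
  exact (sq_le_sq₀ (norm_nonneg _) (norm_nonneg _)).1 (by nlinarith [sq_nonneg (x 0)])

theorem red_norm_le (x : E (n + 1)) : ‖x‖ ≤ |x 0| + ‖redP n x‖ := by
  have h := red_norm_sq x
  refine (sq_le_sq₀ (norm_nonneg _) (by positivity)).1 ?_
  have h1 := mul_nonneg (abs_nonneg (x 0)) (norm_nonneg (redP n x))
  nlinarith [sq_abs (x 0)]

theorem red_split (x : E (n + 1)) :
    x = redI n (redP n x) + x 0 • EuclideanSpace.single (0 : Fin (n + 1)) (1 : ℝ) := by
  ext i
  refine Fin.cases ?_ (fun j => ?_) i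
  · simp [red_I_zero]
  · simp [red_I_succ, red_P_apply]

theorem red_inner (x : E (n + 1)) (e : E n) : ⟪x, redI n e⟫ = ⟪redP n x, e⟫ := by
  simp [PiLp.inner_apply, Fin.sum_univ_succ, red_I_zero, red_I_succ, red_P_apply]

theorem red_lipP : LipschitzWith 1 (redP n) :=
  LipschitzWith.of_dist_le_mul fun x y => by
    rw [dist_eq_norm, dist_eq_norm, ← map_sub, NNReal.coe_one, one_mul]
    exact red_norm_P _

theorem red_lipI : LipschitzWith 1 (redI n) :=
  LipschitzWith.of_dist_le_mul fun x y => by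
    rw [dist_eq_norm, dist_eq_norm, ← map_sub, NNReal.coe_one, one_mul, red_norm_I]

theorem red_norm_grad {m : ℕ} (g : E m → ℝ) (x : E m) : ‖gradient g x‖ = ‖fderiv ℝ g x‖ :=
  LinearIsometryEquiv.norm_map _ _

theorem red_fderiv_comp (g : E n → ℝ) (x : E (n + 1)) :
    ‖fderiv ℝ (fun z => g (redP n z)) x‖ = ‖fderiv ℝ g (redP n x)‖ := by
  by_cases h : DifferentiableAt ℝ g (redP n x)
  · have h1 : fderiv ℝ (fun z => g (redP n z)) x = (fderiv ℝ g (redP n x)).comp (redP n) :=
      (h.hasFDerivAt.comp x (redP n).hasFDerivAt).fderiv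
    rw [h1]
    refine le_antisymm ?_ ?_
    · refine ContinuousLinearMap.opNorm_le_bound _ (norm_nonneg _) fun z => ?_
      exact ((fderiv ℝ g (redP n x)).le_opNorm (redP n z)).trans
        (mul_le_mul_of_nonneg_left (red_norm_P z) (norm_nonneg _))
    · refine ContinuousLinearMap.opNorm_le_bound _ (norm_nonneg _) fun y => ?_
      have h2 := ((fderiv ℝ g (redP n x)).comp (redP n)).le_opNorm (redI n y)
      rwa [ContinuousLinearMap.comp_apply, red_PI, red_norm_I] at h2
  · have h1 : ¬ DifferentiableAt ℝ (fun z => g (redP n z)) x := by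
      intro h2
      apply h
      have h3 : DifferentiableAt ℝ (fun y : E n => x + redI n (y - redP n x)) (redP n x) := by
        fun_prop
      have h4 : DifferentiableAt ℝ (fun z => g (redP n z)) (x + redI n (redP n x - redP n x)) := by
        simpa using h2
      have h5 := h4.comp (redP n x) h3
      have h6 : ((fun z => g (redP n z)) ∘ fun y : E n => x + redI n (y - redP n x)) = g := by
        funext y
        simp [red_PI]
      rwa [h6] at h5
    rw [fderiv_zero_of_not_differentiableAt h, fderiv_zero_of_not_differentiableAt h1,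
      norm_zero, norm_zero]

/-- The energy density. -/
def redD {m : ℕ} (g : E m → ℝ) (x : E m) : ℝ :=
  ‖fderiv ℝ g x‖ ^ 2 + {y | 0 < g y}.indicator (fun _ => (1 : ℝ)) x

theorem red_D_nonneg {m : ℕ} (g : E m → ℝ) (x : E m) : 0 ≤ redD g x :=
  add_nonneg (sq_nonneg _) (indicator_nonneg (fun _ _ => zero_le_one) x)

theorem red_D_le {m : ℕ} {g : E m → ℝ} {L : ℝ≥0} (h : LipschitzWith L g) (x : E m) :
    redD g x ≤ (L : ℝ) ^ 2 + 1 :=
  add_le_add (pow_le_pow_left₀ (norm_nonneg _) (norm_fderiv_le_of_lipschitz ℝ h) 2)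
    (indicator_le' (fun _ _ => le_rfl) (fun _ _ => zero_le_one) x)

theorem red_D_comp (g : E n → ℝ) (x : E (n + 1)) :
    redD (fun z => g (redP n z)) x = redD g (redP n x) := by
  unfold redD
  rw [red_fderiv_comp]
  rfl

theorem red_D_congr {m : ℕ} {g g' : E m → ℝ} {x : E m} (h : g x = g' x)
    (h' : fderiv ℝ g x = fderiv ℝ g' x) : redD g x = redD g' x := by
  unfold redD
  rw [h']
  simp only [indicator, mem_ofPred_eq, h]

theorem red_int_sq {m : ℕ} {g : E m → ℝ} {L : ℝ≥0} (h : LipschitzWith L g) {B : Set (E m)}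
    (hB : volume B ≠ ⊤) : IntegrableOn (fun x => ‖fderiv ℝ g x‖ ^ 2) B :=
  Measure.integrableOn_of_bounded (M := (L : ℝ) ^ 2) hB
    ((measurable_fderiv ℝ g).norm.pow_const 2).aestronglyMeasurable
    (Eventually.of_forall fun x => by
      rw [Real.norm_of_nonneg (sq_nonneg _)]
      exact pow_le_pow_left₀ (norm_nonneg _) (norm_fderiv_le_of_lipschitz ℝ h) 2)

theorem red_int_D {m : ℕ} {g : E m → ℝ} (h : Lip g) {B : Set (E m)}
    (hB : volume B ≠ ⊤) : IntegrableOn (redD g) B := by
  obtain ⟨L, h⟩ := h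
  exact (red_int_sq h hB).add ((integrableOn_const hB).indicator
    (measurableSet_lt measurable_const h.continuous.measurable))

theorem red_en {m : ℕ} {g : E m → ℝ} (h : Lip g) {B : Set (E m)} (hB : volume B ≠ ⊤) :
    en B g = ∫ x in B, redD g x := by
  obtain ⟨L, h⟩ := h
  have hm : MeasurableSet {y | 0 < g y} :=
    measurableSet_lt measurable_const h.continuous.measurable
  unfold en energy redD
  rw [integral_add (red_int_sq h hB) ((integrableOn_const hB).indicator hm),
    setIntegral_indicator hm]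
  simp only [red_norm_grad, integral_const, MeasurableSet.univ, measureReal_restrict_apply,
    univ_inter, smul_eq_mul, mul_one]
  rfl

/-- The splitting of the coordinates as a measurable equivalence. -/
def redE (n : ℕ) : E (n + 1) ≃ᵐ ℝ × E n :=
  ((MeasurableEquiv.toLp 2 (Fin (n + 1) → ℝ)).symm.trans
    (MeasurableEquiv.piFinSuccAbove (fun _ => ℝ) 0)).trans
    (MeasurableEquiv.prodCongr (MeasurableEquiv.refl ℝ) (MeasurableEquiv.toLp 2 (Fin n → ℝ)))

theorem red_E_apply (x : E (n + 1)) : redE n x = (x 0, redP n x) := rfl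

theorem red_E_mp : MeasurePreserving (redE n) :=
  ((EuclideanSpace.volume_preserving_symm_measurableEquiv_toLp (Fin (n + 1))).trans
    (volume_preserving_piFinSuccAbove (fun _ => ℝ) 0)).trans
    ((MeasurePreserving.id volume).prod (PiLp.volume_preserving_toLp (Fin n)))

/-- Cylinders. -/
def redC (n : ℕ) (a R : ℝ) : Set (E (n + 1)) := {x | |x 0| < a ∧ ‖redP n x‖ < R}

theorem red_C_open (a R : ℝ) : IsOpen (redC n a R) :=
  (isOpen_lt (f := fun x : E (n + 1) => |x 0|) (by fun_prop) continuous_const).inter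
    (isOpen_lt (f := fun x : E (n + 1) => ‖redP n x‖) (by fun_prop) continuous_const)

theorem red_C_sub (a R : ℝ) : redC n a R ⊆ ball 0 (a + R) := fun x hx => by
  rw [mem_ball_zero_iff]
  exact (red_norm_le x).trans_lt (add_lt_add hx.1 hx.2)

theorem red_C_int (g : E n → ℝ) {a : ℝ} (ha : 0 ≤ a) (R : ℝ) :
    ∫ x in redC n a R, g (redP n x) = 2 * a * ∫ y in ball (0 : E n) R, g y := by
  have h1 := (red_E_mp (n := n)).setIntegral_preimage_emb (redE n).measurableEmbedding
    (fun z => (fun _ : ℝ => (1 : ℝ)) z.1 * g z.2) (Ioo (-a) a ×ˢ ball (0 : E n) R)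
  have h2 : redE n ⁻¹' (Ioo (-a) a ×ˢ ball (0 : E n) R) = redC n a R := by
    ext x
    simp only [mem_preimage, red_E_apply, mem_prod, mem_Ioo, mem_ball_zero_iff, redC,
      mem_ofPred_eq, abs_lt]
  rw [h2, Measure.volume_eq_prod, setIntegral_prod_mul (fun _ : ℝ => (1 : ℝ)) g] at h1
  simp only [red_E_apply, one_mul] at h1
  rw [h1]
  simp only [integral_const, MeasurableSet.univ, measureReal_restrict_apply, univ_inter,
    smul_eq_mul, mul_one]
  rw [Real.volume_real_Ioo_of_le (by linarith)]
  ring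

end Vale.Agent.P098
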