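import Vale.Agent.P098.Div

/-!
# P098: calculus for the regularity up to the free boundary
-/

open MeasureTheory Set Metric Filter
open scoped ContDiff RealInnerProductSpace Topology NNReal

noncomputable section
namespace Vale.Agent.P098

variable {n : ℕ} {U : Set (E n)} {x : E n}

lemma reg_cons (hU : IsOpen U) {h : E n → ℝ} (hs : ContDiffOn ℝ ∞ h U) (hx : x ∈ U) {k : ℕ}
    (i : Fin n) (m : Fin k → E n) :
    pd i (fun y => iteratedFDeriv ℝ k h y m) x =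
      iteratedFDeriv ℝ (k + 1) h x (Matrix.vecCons (EuclideanSpace.single i 1) m) := by
  have h1 : ContDiffAt ℝ ∞ h x := hs.contDiffAt (hU.mem_nhds hx)
  have h2 : DifferentiableAt ℝ (iteratedFDeriv ℝ k h) x :=
    h1.differentiableAt_iteratedFDeriv (by exact_mod_cast ENat.natCast_lt_top k)
  rw [pd, iteratedFDeriv_succ_apply_left, fderiv_continuousMultilinear_apply_const_apply h2]
  rfl

lemma reg_pd1 (h : E n → ℝ) (i : Fin n) :
    pd i h = fun y => iteratedFDeriv ℝ 1 h y ![EuclideanSpace.single i 1] := by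
  funext y
  simp [pd]

lemma reg_pd2 (hU : IsOpen U) {h : E n → ℝ} (hs : ContDiffOn ℝ ∞ h U) (hx : x ∈ U) (i j : Fin n) :
    pd i (pd j h) x = iteratedFDeriv ℝ 2 h x
      ![EuclideanSpace.single i 1, EuclideanSpace.single j 1] := by
  rw [reg_pd1 h j, reg_cons hU hs hx]

lemma reg_pd3 (hU : IsOpen U) {h : E n → ℝ} (hs : ContDiffOn ℝ ∞ h U) (hx : x ∈ U)
    (i j k : Fin n) : pd i (pd j (pd k h)) x = iteratedFDeriv ℝ 3 h x
      ![EuclideanSpace.single i 1, EuclideanSpace.single j 1, EuclideanSpace.single k 1] := by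
  rw [div_congr hU (fun y hy => reg_pd2 hU hs hy j k) hx, reg_cons hU hs hx]

lemma reg_le {k : ℕ} (T : ContinuousMultilinearMap ℝ (fun _ : Fin k => E n) ℝ) (m : Fin k → E n)
    (hm : ∀ i, ‖m i‖ = 1) : |T m| ≤ ‖T‖ := by
  have := T.le_opNorm m
  simpa [hm] using this

lemma reg_bounds (hU : IsOpen U) {h : E n → ℝ} (hs : ContDiffOn ℝ ∞ h U) (hx : x ∈ U) :
    (∀ i, |D1 h x i| ≤ ‖iteratedFDeriv ℝ 1 h x‖) ∧ (∀ i j, |D2 h x i j| ≤ ‖iteratedFDeriv ℝ 2 h x‖) ∧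
      ∀ i j k, |D3 h x i j k| ≤ ‖iteratedFDeriv ℝ 3 h x‖ := by
  refine ⟨fun i => ?_, fun i j => ?_, fun i j k => ?_⟩
  · rw [D1, reg_pd1]
    exact reg_le _ _ fun a => by fin_cases a; simp
  · rw [D2, reg_pd2 hU hs hx]
    exact reg_le _ _ fun a => by fin_cases a <;> simp
  · rw [D3, reg_pd3 hU hs hx]
    exact reg_le _ _ fun a => by fin_cases a <;> simp

lemma reg_sub1 (hU : IsOpen U) {f g : E n → ℝ} (hf : ContDiffOn ℝ ∞ f U) (hg : ContDiffOn ℝ ∞ g U)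
    (hx : x ∈ U) (i : Fin n) : pd i (fun y => f y - g y) x = pd i f x - pd i g x := by
  simp only [pd]
  rw [fderiv_fun_sub (div_diff hU hf hx) (div_diff hU hg hx)]
  rfl

lemma reg_sub2 (hU : IsOpen U) {f g : E n → ℝ} (hf : ContDiffOn ℝ ∞ f U) (hg : ContDiffOn ℝ ∞ g U)
    (hx : x ∈ U) (i j : Fin n) :
    pd i (pd j fun y => f y - g y) x = pd i (pd j f) x - pd i (pd j g) x := by
  rw [div_congr hU (fun y hy => reg_sub1 hU hf hg hy j) hx,
    reg_sub1 hU (div_sm hU hf j) (div_sm hU hg j) hx]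

lemma reg_sub3 (hU : IsOpen U) {f g : E n → ℝ} (hf : ContDiffOn ℝ ∞ f U) (hg : ContDiffOn ℝ ∞ g U)
    (hx : x ∈ U) (i j k : Fin n) :
    pd i (pd j (pd k fun y => f y - g y)) x = pd i (pd j (pd k f)) x - pd i (pd j (pd k g)) x := by
  rw [div_congr hU (fun y hy => reg_sub2 hU hf hg hy j k) hx,
    reg_sub1 hU (div_sm hU (div_sm hU hf k) j) (div_sm hU (div_sm hU hg k) j) hx]

lemma reg_harm_sub (hU : IsOpen U) {f g : E n → ℝ} (hf : Harm U f) (hg : Harm U g) :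
    Harm U fun y => f y - g y := by
  refine ⟨hf.1.sub hg.1, fun y hy => ?_⟩
  have a1 := hf.2 y hy
  have a2 := hg.2 y hy
  simp only [lap] at a1 a2 ⊢
  simp only [reg_sub2 hU hf.1 hg.1 hy, Finset.sum_sub_distrib, a1, a2, sub_self]

lemma reg_pd_mul (c : ℝ) (f : E n → ℝ) (i : Fin n) :
    pd i (fun y => c * f y) = fun y => c * pd i f y := by
  funext y
  have := congrFun (fderiv_const_smul_field (𝕜 := ℝ) (f := f) c) y
  simp only [pd]
  change fderiv ℝ (c • f) y _ = _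
  rw [this]
  rfl

lemma reg_harm_mul (c : ℝ) {f : E n → ℝ} (hf : Harm U f) : Harm U fun y => c * f y := by
  refine ⟨contDiffOn_const.mul hf.1, fun y hy => ?_⟩
  have a1 := hf.2 y hy
  simp only [lap] at a1 ⊢
  simp only [reg_pd_mul, ← Finset.mul_sum, a1, mul_zero]

lemma reg_harm_const (c : ℝ) : Harm U fun _ : E n => c := by
  refine ⟨contDiffOn_const, fun y _ => ?_⟩
  have : ∀ (i : Fin n) (a : ℝ), pd i (fun _ : E n => a) = fun _ => 0 := fun i a => by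
    funext z; simp [pd]
  simp [lap, this]

lemma reg_harm_comb (hU : IsOpen U) (c : ℝ) (p : T1 n) (f : Fin n → E n → ℝ)
    (hf : ∀ k, Harm U (f k)) (s : Finset (Fin n)) : Harm U fun y => c - ∑ k ∈ s, p k * f k y := by
  induction s using Finset.induction_on with
  | empty => simpa using reg_harm_const c
  | insert a s ha ih =>
    have := reg_harm_sub hU ih (reg_harm_mul (p a) (hf a))
    simp only [Finset.sum_insert ha]
    convert this using 2
    ring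

lemma reg_pd_shift (f : E n → ℝ) (a : E n) (i : Fin n) :
    pd i (fun y => f (y - a)) = fun y => pd i f (y - a) := by
  funext y
  simp only [pd]
  rw [fderiv_comp_sub]

lemma reg_sum1 (a : T1 n) (z : E n) (C : ℝ) (h : ∀ i, |a i| ≤ C) :
    |∑ i, a i * z i| ≤ n * C * ‖z‖ := by
  refine (Finset.abs_sum_le_sum_abs _ _).trans ?_
  refine (Finset.sum_le_card_nsmul _ _ (C * ‖z‖) fun i _ => ?_).trans (le_of_eq (by simp; ring))
  rw [abs_mul]
  exact mul_le_mul (h i) (PiLp.norm_apply_le z i) (abs_nonneg _) ((abs_nonneg _).trans (h i))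

lemma reg_sum2 (a : T2 n) (z : E n) (C : ℝ) (h : ∀ i j, |a i j| ≤ C) :
    |∑ i, ∑ j, a i j * z i * z j| ≤ n * (n * C * ‖z‖) * ‖z‖ := by
  have e : ∑ i, ∑ j, a i j * z i * z j = ∑ i, (∑ j, a i j * z j) * z i :=
    Finset.sum_congr rfl fun i _ => by
      rw [Finset.sum_mul]; exact Finset.sum_congr rfl fun j _ => by ring
  rw [e]
  exact reg_sum1 _ z _ fun i => reg_sum1 _ z _ (h i)

lemma reg_sum3 (a : T3 n) (z : E n) (C : ℝ) (h : ∀ i j k, |a i j k| ≤ C) :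
    |∑ i, ∑ j, ∑ k, a i j k * z i * z j * z k| ≤ n * (n * (n * C * ‖z‖) * ‖z‖) * ‖z‖ := by
  have e : ∑ i, ∑ j, ∑ k, a i j k * z i * z j * z k = ∑ i, (∑ j, ∑ k, a i j k * z j * z k) * z i :=
    Finset.sum_congr rfl fun i _ => by
      simp only [Finset.sum_mul]
      exact Finset.sum_congr rfl fun j _ => Finset.sum_congr rfl fun k _ => by ring
  rw [e]
  exact reg_sum1 _ z _ fun i => reg_sum2 _ z _ (h i)

lemma reg_n1 (a : T1 n) (i : Fin n) : |a i| ≤ ‖a‖ := norm_le_pi_norm a i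

lemma reg_n2 (a : T2 n) (i j : Fin n) : |a i j| ≤ ‖a‖ :=
  (norm_le_pi_norm (a i) j).trans (norm_le_pi_norm a i)

lemma reg_n3 (a : T3 n) (i j k : Fin n) : |a i j k| ≤ ‖a‖ :=
  (reg_n2 (a i) j k).trans (norm_le_pi_norm a i)

lemma reg_m1 (a : T1 n) (C : ℝ) (hC : 0 ≤ C) (h : ∀ i, |a i| ≤ C) : ‖a‖ ≤ C :=
  (pi_norm_le_iff_of_nonneg hC).2 h

lemma reg_m2 (a : T2 n) (C : ℝ) (hC : 0 ≤ C) (h : ∀ i j, |a i j| ≤ C) : ‖a‖ ≤ C :=
  (pi_norm_le_iff_of_nonneg hC).2 fun i => reg_m1 _ C hC (h i)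

lemma reg_m3 (a : T3 n) (C : ℝ) (hC : 0 ≤ C) (h : ∀ i j k, |a i j k| ≤ C) : ‖a‖ ≤ C :=
  (pi_norm_le_iff_of_nonneg hC).2 fun i => reg_m2 _ C hC (h i)

/-- The cubic is close to its linear part. -/
lemma reg_cub_lin (b : T1 n) (A : T2 n) (B : T3 n) (C ρ : ℝ) (hA : ‖A‖ ≤ C) (hB : ‖B‖ ≤ C)
    (z : E n) (hz : ‖z‖ ≤ ρ) :
    |cub b A B z - ∑ i, b i * z i| ≤ n ^ 2 * C * ρ ^ 2 + n ^ 3 * C * ρ ^ 3 := by
  have hC : 0 ≤ C := (norm_nonneg _).trans hA
  have a1 := reg_sum2 A z C fun i j => (reg_n2 A i j).trans hA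
  have a2 := reg_sum3 B z C fun i j k => (reg_n3 B i j k).trans hB
  have a3 : n * (n * C * ‖z‖) * ‖z‖ ≤ n * (n * C * ρ) * ρ := by
    have := (norm_nonneg z).trans hz
    gcongr
  have a4 : n * (n * (n * C * ‖z‖) * ‖z‖) * ‖z‖ ≤ n * (n * (n * C * ρ) * ρ) * ρ := by
    have := (norm_nonneg z).trans hz
    gcongr
  rw [cub, abs_le]
  have b1 := abs_le.1 a1
  have b2 := abs_le.1 a2
  have b3 := abs_nonneg (∑ i, ∑ j, A i j * z i * z j)
  have b4 := abs_nonneg (∑ i, ∑ j, ∑ k, B i j k * z i * z j * z k)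
  constructor <;> linarith

lemma reg_unit (b : T1 n) (hb : ∑ i, b i ^ 2 = 1) :
    ‖(WithLp.toLp 2 b : E n)‖ = 1 ∧ ∀ i, |b i| ≤ 1 := by
  have h1 : ‖(WithLp.toLp 2 b : E n)‖ = 1 := by
    have := EuclideanSpace.real_norm_sq_eq (WithLp.toLp 2 b : E n)
    simp only [hb] at this
    exact (pow_eq_one_iff_of_nonneg (norm_nonneg _) two_ne_zero).1 this
  exact ⟨h1, fun i => h1 ▸ PiLp.norm_apply_le (WithLp.toLp 2 b : E n) i⟩

lemma reg_hh (b : T1 n) (A : T2 n) (C : ℝ) (hb : ∑ i, b i ^ 2 = 1) (hA : ‖A‖ ≤ C) :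
    |hh b A| ≤ n ^ 2 * C := by
  have := reg_sum2 A (WithLp.toLp 2 b : E n) C fun i j => (reg_n2 A i j).trans hA
  rw [(reg_unit b hb).1] at this
  rw [hh, abs_neg]
  refine this.trans (le_of_eq ?_)
  ring

lemma reg_sq_diff (g p : T1 n) (ε M : ℝ) (h1 : ∀ i, |g i - p i| ≤ ε) (h2 : ∀ i, |g i + p i| ≤ M) :
    |∑ i, g i ^ 2 - ∑ i, p i ^ 2| ≤ n * (ε * M) := by
  rw [← Finset.sum_sub_distrib]
  refine (Finset.abs_sum_le_sum_abs _ _).trans ?_
  refine (Finset.sum_le_card_nsmul _ _ (ε * M) fun i _ => ?_).trans (le_of_eq (by simp))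
  rw [sq_sub_sq, abs_mul, mul_comm]
  exact mul_le_mul (h1 i) (h2 i) (abs_nonneg _) ((abs_nonneg _).trans (h1 i))

end Vale.Agent.P098
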