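import Vale.Agent.P098.Reg2

/-!
# P098: the estimates near the free boundary
-/

open MeasureTheory Set Metric Filter
open scoped ContDiff RealInnerProductSpace Topology NNReal

noncomputable section
namespace Vale.Agent.P098

variable {n : ℕ}

/-- The derivative estimates in dimension `n` with the constant `Ce`. -/
def reg_Est (n : ℕ) (Ce : ℝ) : Prop := ∀ (U : Set (E n)) (h : E n → ℝ) (x : E n) (r : ℝ),
  IsOpen U → Harm U h → 0 < r → closedBall x r ⊆ U → ∀ M : ℝ, (∀ y ∈ closedBall x r, |h y| ≤ M) →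
    ∀ k : ℕ, k ≤ 4 → ‖iteratedFDeriv ℝ k h x‖ ≤ Ce * M / r ^ k

lemma reg_close {Ce : ℝ} (he : reg_Est n Ce) (u P : E n → ℝ) (x x₀ : E n) (s ε : ℝ) (hs : 0 < s)
    (hu : Harm (ball x (s ^ 2 / 2)) u) (hP : ContDiff ℝ ∞ P) (hP0 : ∀ y, lap P y = 0)
    (h : ∀ y ∈ ball x (s ^ 2 / 2), |u y - P (y - x₀)| ≤ ε * s ^ 7) :
    (∀ i, |D1 u x i - D1 P (x - x₀) i| ≤ 4 * Ce * ε * s ^ 5) ∧
    (∀ i j, |D2 u x i j - D2 P (x - x₀) i j| ≤ 16 * Ce * ε * s ^ 3) ∧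
    ∀ i j k, |D3 u x i j k - D3 P (x - x₀) i j k| ≤ 64 * Ce * ε * s := by
  have hQ : Harm (ball x (s ^ 2 / 2)) fun y => P (y - x₀) := by
    refine ⟨(hP.comp (contDiff_id.sub contDiff_const)).contDiffOn, fun y _ => ?_⟩
    have := hP0 (y - x₀)
    simpa only [lap, reg_pd_shift] using this
  have hw := reg_harm_sub isOpen_ball hu hQ
  have hsub : closedBall x (s ^ 2 / 4) ⊆ ball x (s ^ 2 / 2) :=
    closedBall_subset_ball (by nlinarith)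
  have hx : x ∈ ball x (s ^ 2 / 2) := mem_ball_self (by positivity)
  have key := he _ _ x (s ^ 2 / 4) isOpen_ball hw (by positivity) hsub (ε * s ^ 7)
    fun y hy => h y (hsub hy)
  obtain ⟨b1, b2, b3⟩ := reg_bounds isOpen_ball hw.1 hx
  refine ⟨fun i => ?_, fun i j => ?_, fun i j k => ?_⟩
  · have := (b1 i).trans (key 1 (by norm_num))
    rw [D1, reg_sub1 isOpen_ball hu.1 hQ.1 hx, reg_pd_shift] at this
    refine this.trans (le_of_eq ?_)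
    field_simp
  · have := (b2 i j).trans (key 2 (by norm_num))
    rw [D2, reg_sub2 isOpen_ball hu.1 hQ.1 hx, reg_pd_shift, reg_pd_shift] at this
    refine this.trans (le_of_eq ?_)
    field_simp
    ring
  · have := (b3 i j k).trans (key 3 (by norm_num))
    rw [D3, reg_sub3 isOpen_ball hu.1 hQ.1 hx, reg_pd_shift, reg_pd_shift, reg_pd_shift] at this
    refine this.trans (le_of_eq ?_)
    field_simp
    ring

lemma reg_lower (u : E n → ℝ) (x x₀ : E n) (b : T1 n) (A : T2 n) (B : T3 n) (C s : ℝ) (hs : 0 < s)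
    (hb : ∑ i, b i ^ 2 = 1) (hA : ‖A‖ ≤ C) (hB : ‖B‖ ≤ C) (hd : ‖x - x₀‖ = s ^ 2 / 2)
    (hpos : ∀ y ∈ ball x (s ^ 2 / 2), 0 < u y)
    (h : ∀ y ∈ ball x (s ^ 2 / 2), |u y - cub b A B (y - x₀)| ≤ C * s ^ 7)
    (hsm : 2 * C * s ^ 5 + 2 * n ^ 2 * C * s ^ 2 + 2 * n ^ 3 * C * s ^ 4 ≤ 1 / 4) :
    s ^ 2 / 8 ≤ u x := by
  have hβ := (reg_unit b hb).1
  have hs2 : 0 < s ^ 2 := by positivity
  have hv : ‖(3 * s ^ 2 / 8) • (WithLp.toLp 2 b : E n)‖ = 3 * s ^ 2 / 8 := by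
    rw [norm_smul, hβ, mul_one, Real.norm_eq_abs, abs_of_pos (by positivity)]
  have hy : x - (3 * s ^ 2 / 8) • (WithLp.toLp 2 b : E n) ∈ ball x (s ^ 2 / 2) := by
    rw [mem_ball, dist_eq_norm, sub_sub_cancel_left, norm_neg, hv]
    linarith
  have a1 := abs_le.1 (h x (mem_ball_self (by positivity)))
  have a2 := abs_le.1 (h _ hy)
  have a3 := hpos _ hy
  have a4 := abs_le.1 (reg_cub_lin b A B C (s ^ 2) hA hB (x - x₀) (by linarith))
  have a5 := abs_le.1 (reg_cub_lin b A B C (s ^ 2) hA hB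
    (x - (3 * s ^ 2 / 8) • (WithLp.toLp 2 b : E n) - x₀) (by
      rw [sub_right_comm]
      refine (norm_sub_le _ _).trans ?_
      rw [hd, hv]; linarith))
  have e : ∑ i, b i * (x - (3 * s ^ 2 / 8) • (WithLp.toLp 2 b : E n) - x₀) i =
      ∑ i, b i * (x - x₀) i - 3 * s ^ 2 / 8 * ∑ i, b i ^ 2 := by
    rw [Finset.mul_sum, ← Finset.sum_sub_distrib]
    refine Finset.sum_congr rfl fun i _ => ?_
    simp only [PiLp.sub_apply, PiLp.smul_apply, smul_eq_mul]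
    ring
  rw [e, hb] at a5
  have a6 := mul_le_mul_of_nonneg_left hsm hs2.le
  linarith [a1.1, a2.2, a4.1, a5.2]

lemma reg_quot (u P H Q ρ σ G g ε a c τ η s : ℝ) (hs : 0 < s) (hu : s ^ 2 / 8 ≤ u)
    (h1 : |u - P| ≤ ε) (h2 : |G - 1 - P * (-2 * H + Q)| ≤ ρ) (h3 : |g - G| ≤ σ) (h4 : |H| ≤ a)
    (h5 : |Q| ≤ c) (h6 : 2 * a * ε + ε * c + ρ + σ ≤ τ * (s ^ 2 / 8)) (h7 : c + τ ≤ η) :
    |(1 - g) / u - 2 * H| ≤ η := by
  have hu0 : 0 < u := lt_of_lt_of_le (by positivity) hu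
  have hε : 0 ≤ ε := (abs_nonneg _).trans h1
  have ha : 0 ≤ a := (abs_nonneg _).trans h4
  have hc : 0 ≤ c := (abs_nonneg _).trans h5
  have hτ : 0 ≤ τ := by
    have : 0 ≤ τ * (s ^ 2 / 8) := by
      refine le_trans ?_ h6
      have := (abs_nonneg _).trans h2
      have := (abs_nonneg _).trans h3
      positivity
    exact nonneg_of_mul_nonneg_left this (by positivity)
  have e : (1 - g) / u - 2 * H = (-(2 * (H * (u - P))) + (u - P) * Q - u * Q -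
      (G - 1 - P * (-2 * H + Q)) - (g - G)) / u := by
    field_simp
    ring
  rw [e, abs_div, abs_of_pos hu0, div_le_iff₀ hu0]
  have a1 : |H * (u - P)| ≤ a * ε := by rw [abs_mul]; exact mul_le_mul h4 h1 (abs_nonneg _) ha
  have a2 : |(u - P) * Q| ≤ ε * c := by rw [abs_mul]; exact mul_le_mul h1 h5 (abs_nonneg _) hε
  have a3 : |u * Q| ≤ u * c := by
    rw [abs_mul, abs_of_pos hu0]; exact mul_le_mul_of_nonneg_left h5 hu0.le
  have a4 := mul_le_mul_of_nonneg_left hu hτ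
  have a5 := mul_le_mul_of_nonneg_left h7 hu0.le
  have b1 := abs_le.1 a1
  have b2 := abs_le.1 a2
  have b3 := abs_le.1 a3
  have b4 := abs_le.1 h2
  have b5 := abs_le.1 h3
  rw [abs_le]
  constructor <;> linarith

/-- The free boundary condition in dimension `n` with the constant `Ca`. -/
def reg_AdmR (n : ℕ) (Ca : ℝ) : Prop := ∀ (b : T1 n) (A : T2 n) (B : T3 n), Adm b A B →
  ∃ q : T1 n, ‖q‖ ≤ Ca * (‖B‖ + ‖A‖ ^ 2) ∧ ∀ x : E n, ‖x‖ ≤ 1 →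
    |‖gradient (cub b A B) x‖ ^ 2 - 1 - cub b A B x * (-2 * hh b A + ∑ i, q i * x i)| ≤
      Ca * (‖A‖ * ‖B‖ + ‖B‖ ^ 2 + ‖A‖ ^ 3 + ‖A‖ ^ 2 * ‖B‖) * ‖x‖ ^ 3

/-- The smallness conditions. -/
structure reg_Sm (n : ℕ) (Ce Ca C η s : ℝ) : Prop where
  s1 : s ≤ 1
  a : 4 * Ce * C * s ^ 5 + n * C * s ^ 2 + n ^ 2 * C * s ^ 4 ≤ min η 1
  b : 16 * Ce * C * s ^ 3 + n * C * s ^ 2 ≤ η
  c : 64 * Ce * C * s ≤ η
  d : 2 * C * s ^ 5 + 2 * n ^ 2 * C * s ^ 2 + 2 * n ^ 3 * C * s ^ 4 ≤ 1 / 4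
  e : n * (Ca * (C + C ^ 2)) * s ^ 2 + 8 * (2 * (n ^ 2 * C) * C * s ^ 5 +
    C * (n * (Ca * (C + C ^ 2))) * s ^ 7 + Ca * (C * C + C ^ 2 + C ^ 3 + C ^ 2 * C) * s ^ 4 +
    n * (4 * Ce * C * 4) * s ^ 3) ≤ η

lemma reg_small (n : ℕ) (Ce Ca C η : ℝ) (hη : 0 < η) :
    ∃ s₀ : ℝ, 0 < s₀ ∧ ∀ s, 0 < s → s < s₀ → reg_Sm n Ce Ca C η s := by
  have key : ∀ (f : ℝ → ℝ) (c : ℝ), Continuous f → f 0 = 0 → 0 < c → ∀ᶠ s in 𝓝 (0 : ℝ), f s ≤ c :=
    fun f c hf h0 hc => (hf.continuousAt.eventually_lt (g := fun _ => c) continuousAt_const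
      (by rw [h0]; exact hc)).mono fun s hs => hs.le
  have : ∀ᶠ s in 𝓝 (0 : ℝ), reg_Sm n Ce Ca C η s := by
    filter_upwards [key (fun s => s) 1 (by fun_prop) rfl one_pos,
      key (fun s => 4 * Ce * C * s ^ 5 + n * C * s ^ 2 + n ^ 2 * C * s ^ 4) (min η 1)
        (by fun_prop) (by simp) (lt_min hη one_pos),
      key (fun s => 16 * Ce * C * s ^ 3 + n * C * s ^ 2) η (by fun_prop) (by simp) hη,
      key (fun s => 64 * Ce * C * s) η (by fun_prop) (by simp) hη,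
      key (fun s => 2 * C * s ^ 5 + 2 * n ^ 2 * C * s ^ 2 + 2 * n ^ 3 * C * s ^ 4) (1 / 4)
        (by fun_prop) (by simp) (by norm_num),
      key (fun s => n * (Ca * (C + C ^ 2)) * s ^ 2 + 8 * (2 * (n ^ 2 * C) * C * s ^ 5 +
        C * (n * (Ca * (C + C ^ 2))) * s ^ 7 + Ca * (C * C + C ^ 2 + C ^ 3 + C ^ 2 * C) * s ^ 4 +
        n * (4 * Ce * C * 4) * s ^ 3)) η (by fun_prop) (by simp) hη] with s a b c d e f
    exact ⟨a, b, c, d, e, f⟩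
  obtain ⟨s₀, h0, h⟩ := Metric.eventually_nhds_iff.1 this
  exact ⟨s₀, h0, fun s a b => h (by rw [Real.dist_eq, sub_zero, abs_of_pos a]; exact b)⟩

lemma reg_loc {Ce Ca : ℝ} (he : reg_Est n Ce) (ha : reg_AdmR n Ca) (hCa : 0 ≤ Ca) (hc : S_cub)
    (u : E n → ℝ) (x x₀ : E n) (b : T1 n) (A : T2 n) (B : T3 n) (C η s : ℝ) (hs : 0 < s)
    (hη : 0 < η) (hadm : Adm b A B) (hA : ‖A‖ ≤ C) (hB : ‖B‖ ≤ C) (hd : ‖x - x₀‖ = s ^ 2 / 2)
    (hu : Harm (ball x (s ^ 2 / 2)) u) (hpos : ∀ y ∈ ball x (s ^ 2 / 2), 0 < u y)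
    (h : ∀ y ∈ ball x (s ^ 2 / 2), |u y - cub b A B (y - x₀)| ≤ C * s ^ 7)
    (hsm : reg_Sm n Ce Ca C η s) :
    ‖D1 u x - b‖ ≤ η ∧ ‖D2 u x - A‖ ≤ η ∧ ‖D3 u x - B‖ ≤ η ∧
      |(1 - ∑ i, D1 u x i ^ 2) / u x - 2 * hh b A| ≤ η := by
  obtain ⟨c1, c2, c3, c4, c5, c6⟩ := hc n b A B hadm.st
  obtain ⟨k1, k2, k3⟩ := reg_close he u _ x x₀ s C hs hu c1 c2 h
  have hC : 0 ≤ C := (norm_nonneg _).trans hA
  have hs2 : 0 < s ^ 2 := by positivity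
  have hs3 : s ^ 2 ≤ 1 := pow_le_one₀ hs.le hsm.s1
  have hz : ‖x - x₀‖ ≤ s ^ 2 := by linarith
  have hlow := reg_lower u x x₀ b A B C s hs hadm.unit hA hB hd hpos h hsm.d
  have hux := h x (mem_ball_self (by positivity))
  generalize x - x₀ = z at *
  have l1 : ∀ a : T1 n, (∀ i, |a i| ≤ C) → |∑ i, a i * z i| ≤ n * C * s ^ 2 := fun a ha =>
    (reg_sum1 a z C ha).trans (by gcongr)
  have l2 : ∀ a : T2 n, (∀ i j, |a i j| ≤ C) → |∑ i, ∑ j, a i j * z i * z j| ≤ n ^ 2 * C * s ^ 4 :=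
    fun a ha => (reg_sum2 a z C ha).trans (by
      have : n * (n * C * ‖z‖) * ‖z‖ ≤ n * (n * C * s ^ 2) * s ^ 2 := by gcongr
      linarith)
  have p1 : ∀ i, |D1 (cub b A B) z i - b i| ≤ n * C * s ^ 2 + n ^ 2 * C * s ^ 4 := by
    intro i
    have a1 := abs_le.1 (l1 (A i) fun j => (reg_n2 A i j).trans hA)
    have a2 := l2 (B i) fun j k => (reg_n3 B i j k).trans hB
    have a3 := abs_le.1 a2
    have a4 := (abs_nonneg _).trans a2
    rw [c4, abs_le]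
    constructor <;> linarith
  have g1 : ∀ i, |D1 u x i - b i| ≤ min η 1 := fun i => by
    have a1 := abs_le.1 (k1 i)
    have a2 := abs_le.1 (p1 i)
    have a3 := hsm.a
    rw [abs_le]
    constructor <;> linarith
  refine ⟨reg_m1 _ η hη.le fun i => (g1 i).trans (min_le_left _ _),
    reg_m2 _ η hη.le fun i j => ?_, reg_m3 _ η hη.le fun i j k => ?_, ?_⟩
  · have a1 := abs_le.1 (k2 i j)
    have a2 := abs_le.1 (l1 (B i j) fun k => (reg_n3 B i j k).trans hB)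
    have a3 := hsm.b
    rw [c5] at a1
    rw [Pi.sub_apply, Pi.sub_apply, abs_le]
    constructor <;> linarith
  · have a1 := k3 i j k
    rw [c6] at a1
    exact a1.trans hsm.c
  · obtain ⟨q, q1, q2⟩ := ha b A B hadm
    have q3 := q2 z (hz.trans hs3)
    have eG : ‖gradient (cub b A B) z‖ ^ 2 = ∑ i, D1 (cub b A B) z i ^ 2 := by
      rw [EuclideanSpace.real_norm_sq_eq]
      exact Finset.sum_congr rfl fun i _ => by rw [c3, c4]
    rw [eG] at q3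
    have q4 : Ca * (‖A‖ * ‖B‖ + ‖B‖ ^ 2 + ‖A‖ ^ 3 + ‖A‖ ^ 2 * ‖B‖) * ‖z‖ ^ 3 ≤
        Ca * (C * C + C ^ 2 + C ^ 3 + C ^ 2 * C) * (s ^ 2) ^ 3 := by gcongr
    have q5 : ‖q‖ ≤ Ca * (C + C ^ 2) := q1.trans (by gcongr)
    have q6 : |∑ i, q i * z i| ≤ n * (Ca * (C + C ^ 2)) * s ^ 2 :=
      (reg_sum1 q z _ fun i => (reg_n1 q i).trans q5).trans (by gcongr)
    have q7 := reg_sq_diff (D1 u x) (D1 (cub b A B) z) _ 4 k1 fun i => by
      have a1 := abs_le.1 ((g1 i).trans (min_le_right _ _))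
      have a2 := abs_le.1 (p1 i)
      have a3 := abs_le.1 ((reg_unit b hadm.unit).2 i)
      have a4 := hsm.a.trans (min_le_right _ _)
      have a5 := (abs_nonneg _).trans (k1 i)
      rw [abs_le]
      constructor <;> linarith
    refine reg_quot _ _ _ _ _ _ _ _ _ _ _ _ η s hs hlow hux (q3.trans q4) q7
      (reg_hh b A C hadm.unit hA) q6 (le_of_eq ?_) hsm.e
    ring

end Vale.Agent.P098
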