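import Vale.Agent.P098.Iface

open MeasureTheory Set Metric Filter
open scoped ContDiff RealInnerProductSpace Topology NNReal

noncomputable section
namespace Vale.Agent.P098

variable {n : ℕ}

theorem weiss_cpt {c : ℝ} (hc : 0 < c) (T : ℝ) : IsCompact {x : E n | c * ‖x‖ ^ 2 ≤ T} := by
  refine Metric.isCompact_of_isClosed_isBounded (isClosed_le (by fun_prop) continuous_const)
    ((isBounded_closedBall (x := 0) (r := √(T / c))).subset fun x hx => ?_)
  rw [mem_closedBall_zero_iff]
  exact Real.le_sqrt_of_sq_le ((le_div_iff₀' hc).2 hx)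

theorem weiss_cs {φ : ℝ → ℝ} (h : HasCompactSupport φ) {c : ℝ} (hc : 0 < c) :
    HasCompactSupport fun x : E n => φ (c * ‖x‖ ^ 2) := by
  obtain ⟨T, -, hT⟩ := h.exists_pos_le_norm
  exact HasCompactSupport.intro (weiss_cpt hc T) fun x hx =>
    hT _ ((not_le.1 hx).le.trans (le_abs_self _))

theorem weiss_cs1 {φ : ℝ → ℝ} (h : HasCompactSupport φ) :
    HasCompactSupport fun x : E n => φ (‖x‖ ^ 2) := by
  simpa using weiss_cs (n := n) h one_pos

theorem weiss_int {f : E n → ℝ} (hf : LocallyIntegrable f) {φ : ℝ → ℝ} (hφ : Continuous φ)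
    (h : HasCompactSupport φ) {c : ℝ} (hc : 0 < c) : Integrable fun x => f x * φ (c * ‖x‖ ^ 2) :=
  hf.integrable_smul_right_of_hasCompactSupport (by fun_prop) (weiss_cs h hc)

theorem weiss_int1 {f : E n → ℝ} (hf : LocallyIntegrable f) {φ : ℝ → ℝ} (hφ : Continuous φ)
    (h : HasCompactSupport φ) : Integrable fun x => f x * φ (‖x‖ ^ 2) :=
  hf.integrable_smul_right_of_hasCompactSupport (by fun_prop) (weiss_cs1 h)

theorem weiss_deriv0 {f : E n → ℝ} (hf : LocallyIntegrable f) {φ : ℝ → ℝ} (hφ : ContDiff ℝ 1 φ)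
    (h : HasCompactSupport φ) (τ : ℝ) :
    HasDerivAt (fun τ => ∫ x, f x * φ (Real.exp (2 * τ) * ‖x‖ ^ 2))
      (∫ x, f x * (2 * deriv φ (Real.exp (2 * τ) * ‖x‖ ^ 2) * (Real.exp (2 * τ) * ‖x‖ ^ 2))) τ := by
  have hd : Continuous (deriv φ) := hφ.continuous_deriv le_rfl
  have hθ : HasCompactSupport fun s => 2 * deriv φ s * s := h.deriv.mul_left.mul_right
  have hθc : Continuous fun s => 2 * deriv φ s * s := by fun_prop
  obtain ⟨C, hC⟩ := hθc.bounded_above_of_compact_support hθ
  obtain ⟨T, -, hT⟩ := hθ.exists_pos_le_norm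
  have hK := weiss_cpt (n := n) (Real.exp_pos (2 * (τ - 1))) T
  refine (hasDerivAt_integral_of_dominated_loc_of_deriv_le (ball_mem_nhds τ one_pos)
    (F' := fun τ x => f x * (2 * deriv φ (Real.exp (2 * τ) * ‖x‖ ^ 2) *
      (Real.exp (2 * τ) * ‖x‖ ^ 2)))
    (bound := indicator {x : E n | Real.exp (2 * (τ - 1)) * ‖x‖ ^ 2 ≤ T} fun x => ‖f x‖ * C)
    (Eventually.of_forall fun t => (weiss_int hf hφ.continuous h (Real.exp_pos _)).1)
    (weiss_int hf hφ.continuous h (Real.exp_pos _)) (weiss_int hf hθc hθ (Real.exp_pos _)).1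
    (ae_of_all _ fun x t ht => ?_) ((integrable_indicator_iff hK.measurableSet).2
      ((hf.integrableOn_isCompact hK).norm.mul_const C)) (ae_of_all _ fun x t _ => ?_)).2
  · by_cases hx : x ∈ {x : E n | Real.exp (2 * (τ - 1)) * ‖x‖ ^ 2 ≤ T}
    · rw [indicator_of_mem hx, norm_mul]
      exact mul_le_mul_of_nonneg_left (hC _) (norm_nonneg _)
    · rw [indicator_of_notMem hx, hT, mul_zero, norm_zero]
      refine (not_le.1 hx).le.trans (le_trans ?_ (le_abs_self _))
      have := abs_lt.1 (mem_ball_iff_norm.1 ht)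
      gcongr
      linarith [this.1]
  · have h1 : HasDerivAt (fun t => Real.exp (2 * t) * ‖x‖ ^ 2)
        (Real.exp (2 * t) * (2 * 1) * ‖x‖ ^ 2) t :=
      (((hasDerivAt_id t).const_mul 2).exp).mul_const _
    exact (((hφ.differentiable (by norm_num) _).hasDerivAt.comp t h1).const_mul (f x)).congr_deriv
      (by ring)

theorem weiss_scale (f : E n → ℝ) (φ : ℝ → ℝ) (τ : ℝ) :
    ∫ y, f (Real.exp (-τ) • y) * φ (‖y‖ ^ 2) =
      Real.exp (n * τ) * ∫ x, f x * φ (Real.exp (2 * τ) * ‖x‖ ^ 2) := by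
  have := Measure.integral_comp_smul volume (fun x => f x * φ (Real.exp (2 * τ) * ‖x‖ ^ 2))
    (Real.exp (-τ))
  rw [finrank_euclideanSpace_fin, ← Real.exp_nat_mul, ← Real.exp_neg, abs_of_pos (Real.exp_pos _),
    smul_eq_mul, mul_neg, neg_neg] at this
  rw [← this]
  congr 1
  ext y
  rw [norm_smul, mul_pow, ← mul_assoc, Real.norm_eq_abs, sq_abs, ← Real.exp_nat_mul,
    ← Real.exp_add]
  simp

theorem weiss_deriv {f : E n → ℝ} (hf : LocallyIntegrable f) {φ : ℝ → ℝ} (hφ : ContDiff ℝ 1 φ)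
    (h : HasCompactSupport φ) (τ : ℝ) :
    HasDerivAt (fun τ => ∫ y, f (Real.exp (-τ) • y) * φ (‖y‖ ^ 2))
      (∫ y, f (Real.exp (-τ) • y) * (n * φ (‖y‖ ^ 2) + 2 * deriv φ (‖y‖ ^ 2) * ‖y‖ ^ 2)) τ := by
  have hd : Continuous (deriv φ) := hφ.continuous_deriv le_rfl
  rw [weiss_scale f (fun s => n * φ s + 2 * deriv φ s * s)]
  simp only [weiss_scale f φ]
  refine ((((hasDerivAt_id τ).const_mul (n : ℝ)).exp).fun_mul
    (weiss_deriv0 hf hφ h τ)).congr_deriv ?_
  simp only [mul_add, id, mul_one]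
  rw [integral_add (weiss_int hf (φ := fun s => n * φ s) (by have := hφ.continuous; fun_prop)
    h.mul_left (Real.exp_pos _)) (weiss_int hf (φ := fun s => 2 * deriv φ s * s) (by fun_prop)
    h.deriv.mul_left.mul_right (Real.exp_pos _)), mul_add, mul_assoc, ← integral_const_mul]
  simp only [mul_left_comm]

theorem weiss_lip_mul {f g : E n → ℝ} (hf : Lip f) (hg : Lip g) (hc : HasCompactSupport g) :
    Lip fun x => f x * g x := by
  obtain ⟨L, hL⟩ := hf
  obtain ⟨L', hL'⟩ := hg
  obtain ⟨M, hM⟩ := hc.isCompact.exists_bound_of_continuousOn hL.continuous.continuousOn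
  obtain ⟨M', hM'⟩ := hL'.continuous.bounded_above_of_compact_support hc
  have key : ∀ x, ∀ y ∈ tsupport g,
      dist (f x * g x) (f y * g y) ≤ (L * M' + M * L') * dist x y := fun x y hy => by
    rw [Real.dist_eq, show f x * g x - f y * g y = (f x - f y) * g x + f y * (g x - g y) by ring]
    refine (abs_add_le _ _).trans ?_
    rw [abs_mul, abs_mul, add_mul, mul_right_comm, mul_assoc M]
    exact add_le_add (mul_le_mul (hL.dist_le_mul x y) (hM' x) (abs_nonneg _) (by positivity))
      (mul_le_mul (hM y hy) (hL'.dist_le_mul x y) (abs_nonneg _) ((norm_nonneg _).trans (hM y hy)))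
  refine ⟨_, LipschitzWith.of_dist_le' (K := max (L * M' + M * L') 0) fun x y => ?_⟩
  have h0 : (L * M' + M * L') * dist x y ≤ max (L * M' + M * L') 0 * dist x y :=
    mul_le_mul_of_nonneg_right (le_max_left _ _) dist_nonneg
  by_cases hy : y ∈ tsupport g
  · exact (key x y hy).trans h0
  by_cases hx : x ∈ tsupport g
  · rw [dist_comm, dist_comm x]
    exact (key y x hx).trans (dist_comm x y ▸ h0)
  · rw [image_eq_zero_of_notMem_tsupport hx, image_eq_zero_of_notMem_tsupport hy]
    simp only [mul_zero, dist_self]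
    positivity

theorem weiss_euler (h_ibp : S_ibp) {F : E n → ℝ} (hF : Lip F) (hc : HasCompactSupport F) :
    ∫ x, fderiv ℝ F x x = -n * ∫ x, F x := by
  have h1 := fun i : Fin n => h_ibp n F (EuclideanSpace.proj (𝕜 := ℝ) i) univ
    (EuclideanSpace.single i 1) hF hc isOpen_univ (subset_univ _)
    (EuclideanSpace.proj (𝕜 := ℝ) i).contDiff.contDiffOn
  have h2 : ∀ x : E n, fderiv ℝ F x x =
      ∑ i, fderiv ℝ F x (EuclideanSpace.single i 1) * EuclideanSpace.proj (𝕜 := ℝ) i x := by
    intro x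
    have h4 : ∑ i, x i • (EuclideanSpace.single i 1 : E n) = x := by
      ext j
      simp [Pi.single_apply]
    conv_lhs => rw [← congrArg (fun v => fderiv ℝ F x v) h4]
    simp [mul_comm]
  simp only [h2]
  rw [integral_finsetSum _ fun i _ => (h1 i).1, Finset.sum_congr rfl fun i _ => (h1 i).2.2]
  simp only [ContinuousLinearMap.fderiv]
  simp

theorem weiss_eta : ∃ (η : ℝ → ℝ) (c : ℝ), 0 < c ∧ ContDiff ℝ ∞ η ∧ HasCompactSupport η ∧
    (∀ t, 0 ≤ η t) ∧ (∀ t, 0 ≤ t → deriv η t ≤ 0) ∧ ∀ t, 0 ≤ t → t ≤ 1 → deriv η t ≤ -c := by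
  have hS : ContDiff ℝ ∞ Real.smoothTransition := Real.smoothTransition.contDiff
  let η : ℝ → ℝ := fun t =>
    Real.smoothTransition (t + 2) * (Real.smoothTransition (3 - t) * Real.exp (-t))
  have hd : ∀ t, 0 ≤ t → deriv η t ≤ -(Real.smoothTransition (3 - t) * Real.exp (-t)) := by
    intro t ht
    have h1 : η =ᶠ[𝓝 t] fun t => Real.smoothTransition (3 - t) * Real.exp (-t) := by
      filter_upwards [Ioi_mem_nhds (show -1 < t by linarith)] with s hs
      simp only [η]
      rw [Real.smoothTransition.one_of_one_le (by linarith [mem_Ioi.1 hs]), one_mul]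
    have h2 := ((hS.differentiable (by simp) (3 - t)).hasDerivAt.comp t
      ((hasDerivAt_id t).const_sub 3)).fun_mul (hasDerivAt_id t).fun_neg.exp
    rw [h1.deriv_eq, show deriv (fun t => Real.smoothTransition (3 - t) * Real.exp (-t)) t = _
      from h2.deriv]
    have := mul_nonneg (Real.smoothTransition.monotone.deriv_nonneg (x := 3 - t))
      (Real.exp_pos (-t)).le
    simp only [id, Function.comp_apply]
    linarith
  refine ⟨η, Real.exp (-1), Real.exp_pos _, by fun_prop,
    HasCompactSupport.intro (isCompact_Icc (a := -2) (b := 3)) fun t ht => ?_, fun t => ?_,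
    fun t ht => (hd t ht).trans ?_, fun t ht ht1 => (hd t ht).trans ?_⟩
  · rcases not_and_or.1 ht with h | h
    · simp [η, Real.smoothTransition.zero_of_nonpos (show t + 2 ≤ 0 by linarith)]
    · simp [η, Real.smoothTransition.zero_of_nonpos (show 3 - t ≤ 0 by linarith)]
  · exact mul_nonneg (Real.smoothTransition.nonneg _)
      (mul_nonneg (Real.smoothTransition.nonneg _) (Real.exp_pos _).le)
  · exact neg_nonpos.2 (mul_nonneg (Real.smoothTransition.nonneg _) (Real.exp_pos _).le)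
  · rw [Real.smoothTransition.one_of_one_le (by linarith), one_mul]
    exact neg_le_neg (Real.exp_le_exp.2 (by linarith))

end Vale.Agent.P098
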